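import Vale.Agent.Lib.P161B.Gibbs

/-!
The branching sums on the canonical space: Claim B of the blueprint (a uniform exponential moment at the
scale `ε`) and its tensorisation to all scales.
-/

namespace Vale.Agent.Lib.P161B.BC

open Vale.Agent.Lib.P161B

open MeasureTheory ProbabilityTheory Filter
open Vale.Agent.Lib.P161

variable {d : ℕ} {θ : ℝ} {μ : Measure ℝ}

/-! ### Elementary convexity -/

lemma exp_mul_le_convex {p : ℝ} (t : ℝ) (h0 : 0 ≤ p) (h1 : p ≤ 1) :
    Real.exp (p * t) ≤ 1 - p + p * Real.exp t := by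
  have h := convexOn_exp.2 (Set.mem_univ t) (Set.mem_univ (0 : ℝ)) h0 (by linarith : 0 ≤ 1 - p) (by ring)
  simp only [smul_eq_mul, mul_zero, add_zero, Real.exp_zero, mul_one] at h
  linarith

lemma integrable_exp_of_bdd {Ω : Type*} [MeasurableSpace Ω] {P : Measure Ω} [IsProbabilityMeasure P]
    {Z : Ω → ℝ} (hZ : Measurable Z) {B : ℝ} (hB : ∀ ω, |Z ω| ≤ B) (b : ℝ) :
    Integrable (fun ω => Real.exp (b * Z ω)) P := by
  refine Integrable.of_bound (Real.measurable_exp.comp (hZ.const_mul b)).aestronglyMeasurable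
    (Real.exp (|b| * B)) (ae_of_all _ fun ω => ?_)
  rw [Real.norm_of_nonneg (Real.exp_pos _).le]
  apply Real.exp_le_exp.mpr
  calc b * Z ω ≤ |b * Z ω| := le_abs_self _
    _ = |b| * |Z ω| := abs_mul _ _
    _ ≤ |b| * B := mul_le_mul_of_nonneg_left (hB ω) (abs_nonneg _)

/-- Lyapunov in exponential form, with an elementary proof. -/
lemma lyap {Ω : Type*} [MeasurableSpace Ω] {P : Measure Ω} [IsProbabilityMeasure P]
    {Z : Ω → ℝ} (hZ : Measurable Z) {B : ℝ} (hB : ∀ ω, |Z ω| ≤ B)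
    {a b L : ℝ} (ha : 0 ≤ a) (hab : a ≤ b) (hb : 0 < b)
    (hL : ∫ ω, Real.exp (b * Z ω) ∂P ≤ Real.exp L) :
    ∫ ω, Real.exp (a * Z ω) ∂P ≤ Real.exp (a / b * L) := by
  set p := a / b with hp
  have hp0 : 0 ≤ p := div_nonneg ha hb.le
  have hp1 : p ≤ 1 := (div_le_one hb).2 hab
  have hi := integrable_exp_of_bdd (P := P) hZ hB b
  have hi' := integrable_exp_of_bdd (P := P) hZ hB a
  have hpt : ∀ ω, Real.exp (a * Z ω) ≤
      Real.exp (p * L) * (1 - p) + Real.exp (p * L) * p * Real.exp (-L) * Real.exp (b * Z ω) := by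
    intro ω
    have h1 := exp_mul_le_convex (b * Z ω - L) hp0 hp1
    have h2 : a * Z ω = p * L + p * (b * Z ω - L) := by
      rw [hp]; field_simp; ring
    rw [h2, Real.exp_add]
    have h3 : Real.exp (b * Z ω - L) = Real.exp (-L) * Real.exp (b * Z ω) := by
      rw [← Real.exp_add]; congr 1; ring
    rw [h3] at h1
    have h4 := Real.exp_pos (p * L)
    nlinarith [mul_le_mul_of_nonneg_left h1 h4.le]
  have hmono : ∫ ω, Real.exp (a * Z ω) ∂P ≤
      ∫ ω, (Real.exp (p * L) * (1 - p) + Real.exp (p * L) * p * Real.exp (-L) * Real.exp (b * Z ω)) ∂P :=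
    integral_mono hi' ((integrable_const _).add (hi.const_mul _)) hpt
  have heq : ∫ ω, (Real.exp (p * L) * (1 - p) + Real.exp (p * L) * p * Real.exp (-L) * Real.exp (b * Z ω)) ∂P
      = Real.exp (p * L) * (1 - p) + Real.exp (p * L) * p * Real.exp (-L) * ∫ ω, Real.exp (b * Z ω) ∂P := by
    rw [integral_add (integrable_const _) (hi.const_mul _), integral_const, integral_const_mul]
    simp
  rw [heq] at hmono
  have h5 : Real.exp (-L) * ∫ ω, Real.exp (b * Z ω) ∂P ≤ 1 := by
    calc Real.exp (-L) * ∫ ω, Real.exp (b * Z ω) ∂P ≤ Real.exp (-L) * Real.exp L :=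
          mul_le_mul_of_nonneg_left hL (Real.exp_pos _).le
      _ = 1 := by rw [← Real.exp_add]; simp
  have h6 : Real.exp (p * L) * p * Real.exp (-L) * ∫ ω, Real.exp (b * Z ω) ∂P ≤ Real.exp (p * L) * p := by
    have h7 : 0 ≤ Real.exp (p * L) * p := mul_nonneg (Real.exp_pos _).le hp0
    calc _ = Real.exp (p * L) * p * (Real.exp (-L) * ∫ ω, Real.exp (b * Z ω) ∂P) := by ring
      _ ≤ Real.exp (p * L) * p * 1 := mul_le_mul_of_nonneg_left h5 h7
      _ = _ := by ring
  linarith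

/-! ### The children of a vertex -/

lemma mem_kids {c v : Word d} : c ∈ kids v ↔ c ≠ root ∧ parent c = v := by
  unfold kids
  simp only [Finset.mem_filter, mem_ball]
  constructor
  · rintro ⟨-, h⟩; exact h
  · rintro ⟨h1, h2⟩
    refine ⟨?_, h1, h2⟩
    have := len_parent h1
    rw [h2] at this
    omega

lemma len_kid {c v : Word d} (h : c ∈ kids v) : len c = len v + 1 := by
  obtain ⟨h1, h2⟩ := mem_kids.mp h
  have := len_parent h1
  rw [h2] at this
  omega

lemma kid_ne_root {c v : Word d} (h : c ∈ kids v) : c ≠ root := (mem_kids.mp h).1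

lemma mem_Sub_self (c : Word d) : c ∈ Sub c := List.suffix_refl _

lemma Sub_kid_subset {c v : Word d} (h : c ∈ kids v) : Sub c ⊆ Sub v := by
  obtain ⟨h1, h2⟩ := mem_kids.mp h
  intro u hu
  have h3 : v.1 <:+ c.1 := by
    rw [← h2]
    exact List.tail_suffix c.1
  exact h3.trans hu

lemma not_mem_Sub_kid {c v : Word d} (h : c ∈ kids v) : v ∉ Sub c := by
  intro h1
  have h2 : len c ≤ len v := List.IsSuffix.length_le h1
  have := len_kid h
  omega

lemma Sub_disj {a b v : Word d} (ha : a ∈ kids v) (hb : b ∈ kids v) (hne : a ≠ b) :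
    Disjoint (Sub a) (Sub b) := by
  rw [Set.disjoint_left]
  intro u h1 h2
  apply hne
  apply Subtype.ext
  have h3 := len_kid ha
  have h4 := len_kid hb
  have h5 : len a ≤ len b := by omega
  have h6 := List.suffix_of_suffix_length_le h1 h2 h5
  exact List.IsSuffix.eq_of_length_le h6 (by unfold len at h3 h4; omega)

lemma card_kids_le (hd : 1 ≤ d) (v : Word d) : (kids v).card ≤ d := by
  by_cases hv : v = root
  · rw [hv, card_kids_root]
  · rw [card_kids hv]; omega

/-! ### The branching sums on the canonical space -/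

/-- The branching sum in the canonical coordinates. -/
noncomputable def Dh (θ α : ℝ) (k : ℕ) : ℕ → Word d → Cn d → ℝ
  | 0, _, _ => 1
  | n + 1, v, ω => 1 + Real.exp α / k * ∑ c ∈ kids v, psiF θ (hatL θ c ω) * Dh θ α k n c ω

/-- The weight `ψ D` of a child. -/
noncomputable def Yh (θ α : ℝ) (k n : ℕ) (c : Word d) (ω : Cn d) : ℝ :=
  psiF θ (hatL θ c ω) * Dh θ α k n c ω

/-- The deterministic bound. -/
noncomputable def BD (α : ℝ) (k d : ℕ) : ℕ → ℝ
  | 0 => 1
  | n + 1 => 1 + Real.exp α / k * (d * BD α k d n)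

/-- The restricted branching sum in the canonical coordinates. -/
noncomputable def DKh (θ α : ℝ) (k : ℕ) (K : Finset (Word d)) (n : ℕ) (ω : Cn d) : ℝ :=
  1 + Real.exp α / k * ∑ c ∈ K, Yh θ α k n c ω

lemma Dh_succ (θ α : ℝ) (k n : ℕ) (v : Word d) (ω : Cn d) :
    Dh θ α k (n + 1) v ω = DKh θ α k (kids v) n ω := rfl

section Bounds

variable (α : ℝ) (k : ℕ) (h0 : 0 ≤ θ) (h1 : θ < 1)

include h0 h1 in
lemma Dh_nonneg (n : ℕ) (v : Word d) (ω : Cn d) : 0 ≤ Dh θ α k n v ω := by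
  induction n generalizing v with
  | zero => simp [Dh]
  | succ n ih =>
    rw [Dh]
    have : 0 ≤ ∑ c ∈ kids v, psiF θ (hatL θ c ω) * Dh θ α k n c ω :=
      Finset.sum_nonneg fun c _ => mul_nonneg (psiF_pos h0 h1 _).le (ih c)
    have h2 : 0 ≤ Real.exp α / (k : ℝ) := div_nonneg (Real.exp_pos _).le (Nat.cast_nonneg _)
    have := mul_nonneg h2 this
    linarith

include h0 h1 in
lemma Yh_nonneg (n : ℕ) (c : Word d) (ω : Cn d) : 0 ≤ Yh θ α k n c ω :=
  mul_nonneg (psiF_pos h0 h1 _).le (Dh_nonneg α k h0 h1 n c ω)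

include h0 h1 in
lemma Yh_le_Dh (n : ℕ) (c : Word d) (ω : Cn d) : Yh θ α k n c ω ≤ Dh θ α k n c ω := by
  unfold Yh
  have := Dh_nonneg α k h0 h1 n c ω
  have h2 := psiF_le_one h0 h1 (hatL θ c ω)
  nlinarith

lemma BD_nonneg (n : ℕ) : 0 ≤ BD α k d n := by
  induction n with
  | zero => simp [BD]
  | succ n ih =>
    rw [BD]
    have h2 : 0 ≤ Real.exp α / (k : ℝ) := div_nonneg (Real.exp_pos _).le (Nat.cast_nonneg _)
    have := mul_nonneg h2 (mul_nonneg (Nat.cast_nonneg d) ih)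
    linarith

include h0 h1 in
lemma Dh_le (hd : 1 ≤ d) (n : ℕ) (v : Word d) (ω : Cn d) : Dh θ α k n v ω ≤ BD α k d n := by
  induction n generalizing v with
  | zero => simp [Dh, BD]
  | succ n ih =>
    rw [Dh, BD]
    have h2 : 0 ≤ Real.exp α / (k : ℝ) := div_nonneg (Real.exp_pos _).le (Nat.cast_nonneg _)
    have h3 : ∑ c ∈ kids v, psiF θ (hatL θ c ω) * Dh θ α k n c ω ≤ d * BD α k d n := by
      calc ∑ c ∈ kids v, psiF θ (hatL θ c ω) * Dh θ α k n c ω ≤ ∑ c ∈ kids v, BD α k d n := by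
            refine Finset.sum_le_sum fun c _ => ?_
            calc psiF θ (hatL θ c ω) * Dh θ α k n c ω ≤ Dh θ α k n c ω := Yh_le_Dh α k h0 h1 n c ω
              _ ≤ _ := ih c
        _ = (kids v).card * BD α k d n := by simp
        _ ≤ d * BD α k d n := by
            refine mul_le_mul_of_nonneg_right ?_ (BD_nonneg α k n)
            exact_mod_cast card_kids_le hd v
    have := mul_le_mul_of_nonneg_left h3 h2
    linarith

include h0 h1 in
lemma Yh_le (hd : 1 ≤ d) (n : ℕ) (v : Word d) (ω : Cn d) : Yh θ α k n v ω ≤ BD α k d n :=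
  (Yh_le_Dh α k h0 h1 n v ω).trans (Dh_le α k h0 h1 hd n v ω)

include h0 h1 in
lemma abs_Yh_le (hd : 1 ≤ d) (n : ℕ) (v : Word d) (ω : Cn d) : |Yh θ α k n v ω| ≤ BD α k d n := by
  rw [abs_of_nonneg (Yh_nonneg α k h0 h1 n v ω)]
  exact Yh_le α k h0 h1 hd n v ω

include h0 h1 in
lemma abs_Dh_le (hd : 1 ≤ d) (n : ℕ) (v : Word d) (ω : Cn d) : |Dh θ α k n v ω| ≤ BD α k d n := by
  rw [abs_of_nonneg (Dh_nonneg α k h0 h1 n v ω)]
  exact Dh_le α k h0 h1 hd n v ω

end Bounds

lemma measurable_Dh (θ α : ℝ) (k n : ℕ) (v : Word d) : Measurable (Dh θ α k n v) := by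
  induction n generalizing v with
  | zero => exact measurable_const
  | succ n ih =>
    have : Dh θ α k (n + 1) v = fun ω =>
        1 + Real.exp α / k * ∑ c ∈ kids v, psiF θ (hatL θ c ω) * Dh θ α k n c ω := by
      funext ω; exact rfl
    rw [this]
    refine measurable_const.add (Measurable.const_mul ?_ _)
    exact Finset.measurable_sum _ fun c _ =>
      (measurable_psiF.comp (measurable_hatL θ c)).mul (ih c)

lemma measurable_Yh (θ α : ℝ) (k n : ℕ) (c : Word d) : Measurable (Yh θ α k n c) :=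
  (measurable_psiF.comp (measurable_hatL θ c)).mul (measurable_Dh θ α k n c)

lemma dependsOn_Dh (θ α : ℝ) (k n : ℕ) (v : Word d) : DependsOn (Dh θ α k n v) (Sub v) := by
  induction n generalizing v with
  | zero => intro x y _; rfl
  | succ n ih =>
    intro x y hxy
    show 1 + Real.exp α / k * ∑ c ∈ kids v, psiF θ (hatL θ c x) * Dh θ α k n c x =
      1 + Real.exp α / k * ∑ c ∈ kids v, psiF θ (hatL θ c y) * Dh θ α k n c y
    congr 2
    refine Finset.sum_congr rfl fun c hc => ?_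
    have hs := fun i (hi : i ∈ Sub c) => hxy i (Sub_kid_subset hc hi)
    rw [dependsOn_hatL θ c hs, ih c hs]

lemma dependsOn_Yh (θ α : ℝ) (k n : ℕ) (c : Word d) : DependsOn (Yh θ α k n c) (Sub c) := by
  intro x y hxy
  unfold Yh
  rw [dependsOn_hatL θ c hxy, dependsOn_Dh θ α k n c hxy]

/-- One message as a function of the canonical coordinates. -/
noncomputable def msgC (θ : ℝ) (c : Word d) (ω : Cn d) : ℝ := sp (ω c).1 * Uf θ (hatL θ c ω)

lemma measurable_msgC (θ : ℝ) (c : Word d) : Measurable (msgC θ c) := by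
  have h1 : Measurable (fun ω : Cn d => (ω c).1) := measurable_fst.comp (measurable_pi_apply c)
  have h2 : Measurable (sp : Bool → ℝ) := Measurable.of_discrete
  exact (h2.comp h1).mul (measurable_Uf.comp (measurable_hatL θ c))

lemma dependsOn_msgC (θ : ℝ) (c : Word d) : DependsOn (msgC θ c) (Sub c) := by
  intro x y hxy
  unfold msgC
  rw [dependsOn_hatL θ c hxy, hxy c (mem_Sub_self c)]

/-! ### Independence -/

section Indep

variable [Corr θ] [IsProbabilityMeasure μ]

lemma tensor_id (hd : 1 ≤ d) (h0 : 0 ≤ θ) (h1 : θ < 1) (α : ℝ) (k n : ℕ) {v : Word d}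
    {K : Finset (Word d)} (hK : K ⊆ kids v) (Λ : ℝ) :
    ∫ ω, Real.exp (Λ * DKh θ α k K n ω) ∂(cnP d θ μ) =
      Real.exp Λ * ∏ c ∈ K, ∫ ω, Real.exp (Λ * (Real.exp α / k) * Yh θ α k n c ω) ∂(cnP d θ μ) := by
  have hpt : ∀ ω : Cn d, Real.exp (Λ * DKh θ α k K n ω) =
      Real.exp Λ * ∏ c ∈ K, Real.exp (Λ * (Real.exp α / k) * Yh θ α k n c ω) := by
    intro ω
    rw [← Real.exp_sum, ← Real.exp_add]
    congr 1
    unfold DKh
    rw [mul_add, mul_one, Finset.mul_sum, Finset.mul_sum]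
    congr 1
    refine Finset.sum_congr rfl fun c _ => ?_
    ring
  simp_rw [hpt]
  rw [integral_const_mul]
  congr 1
  refine cn_prod (K := K) (F := fun c ω => Real.exp (Λ * (Real.exp α / k) * Yh θ α k n c ω))
    (B := Real.exp (|Λ * (Real.exp α / k)| * BD α k d n)) ?_ ?_ ?_ ?_
  · intro a ha b hb hne
    exact Sub_disj (hK ha) (hK hb) hne
  · intro c _
    exact Real.measurable_exp.comp ((measurable_Yh θ α k n c).const_mul _)
  · intro c _ x y hxy
    show Real.exp (Λ * (Real.exp α / k) * Yh θ α k n c x) = Real.exp (Λ * (Real.exp α / k) * Yh θ α k n c y)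
    rw [dependsOn_Yh θ α k n c hxy]
  · intro c _ ω
    rw [abs_of_nonneg (Real.exp_pos _).le]
    apply Real.exp_le_exp.mpr
    calc Λ * (Real.exp α / k) * Yh θ α k n c ω ≤ |Λ * (Real.exp α / k) * Yh θ α k n c ω| := le_abs_self _
      _ = |Λ * (Real.exp α / k)| * |Yh θ α k n c ω| := abs_mul _ _
      _ ≤ _ := mul_le_mul_of_nonneg_left (abs_Yh_le α k h0 h1 hd n c ω) (abs_nonneg _)

/-- Peeling one message from `ψ` at `v`: the factor `R` depends on a different child. -/
lemma peel_psi (hd : 2 ≤ d) (hθ1 : θ < 1) (hμ : Nish μ) {ε : ℝ}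
    (hAC : ∀ b : ℝ, ∫ h, psiF θ (h + b) ∂(msg θ (cavL d (by omega) θ μ)) ≤ 1 - ε) (h0 : 0 ≤ θ)
    {v c1 c2 : Word d} (hc1 : c1 ∈ kids v) (hc2 : c2 ∈ kids v) (hne : c1 ≠ c2)
    {R : Cn d → ℝ} (hR : Measurable R) (hR0 : ∀ ω, 0 ≤ R ω) {B : ℝ} (hRB : ∀ ω, R ω ≤ B)
    (hRS : DependsOn R (Sub c1)) :
    ∫ ω, psiF θ (hatL θ v ω) * R ω ∂(cnP d θ μ) ≤ (1 - ε) * ∫ ω, R ω ∂(cnP d θ μ) := by
  let X : Cn d → ℝ := msgC θ c2
  let b : Cn d → ℝ := fun ω => (ω v).2 + ∑ c ∈ (kids v).erase c2, msgC θ c ω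
  let W : Cn d → ℝ × ℝ := fun ω => (b ω, R ω)
  let f : ℝ × (ℝ × ℝ) → ℝ := fun p => psiF θ (p.1 + p.2.1)
  let R' : ℝ × ℝ → ℝ := fun w => max 0 (min w.2 B)
  have hX : Measurable X := measurable_msgC θ c2
  have hb : Measurable b := by
    refine (measurable_snd.comp (measurable_pi_apply v)).add ?_
    exact Finset.measurable_sum _ fun c _ => measurable_msgC θ c
  have hW : Measurable W := hb.prodMk hR
  have hXS : DependsOn X (Sub c2) := dependsOn_msgC θ c2
  have hWS : DependsOn W (Sub c2)ᶜ := by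
    intro x y hxy
    have h1 : b x = b y := by
      show (x v).2 + ∑ c ∈ (kids v).erase c2, msgC θ c x = (y v).2 + ∑ c ∈ (kids v).erase c2, msgC θ c y
      rw [hxy v (not_mem_Sub_kid hc2)]
      congr 1
      refine Finset.sum_congr rfl fun c hc => ?_
      have hc' := Finset.mem_erase.mp hc
      refine dependsOn_msgC θ c fun i hi => hxy i ?_
      exact Set.disjoint_left.mp (Sub_disj hc'.2 hc2 hc'.1) hi
    have h2 : R x = R y := by
      refine hRS fun i hi => hxy i ?_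
      exact Set.disjoint_left.mp (Sub_disj hc1 hc2 hne) hi
    show (b x, R x) = (b y, R y)
    rw [h1, h2]
  have hf : Measurable f := measurable_psiF.comp (measurable_fst.add (measurable_fst.comp measurable_snd))
  have hf0 : ∀ p, 0 ≤ f p := fun p => (psiF_pos h0 hθ1 _).le
  have hf1 : ∀ p, f p ≤ 1 := fun p => psiF_le_one h0 hθ1 _
  have hR'm : Measurable R' := measurable_const.max (measurable_snd.min measurable_const)
  have hR'0 : ∀ w, 0 ≤ R' w := fun w => le_max_left _ _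
  have hB0 : 0 ≤ B := (hR0 (fun _ => (false, 0))).trans (hRB _)
  have hR'1 : ∀ w, R' w ≤ B := fun w => max_le hB0 (min_le_right _ _)
  have hRW : ∀ ω, R' (W ω) = R ω := by
    intro ω
    show max 0 (min (R ω) B) = R ω
    rw [min_eq_left (hRB ω), max_eq_right (hR0 ω)]
  have hc : ∀ w : ℝ × ℝ, ∫ x, f (x, w) ∂((cnP d θ μ).map X) ≤ 1 - ε := by
    intro w
    have hmap : (cnP d θ μ).map X = msg θ (cavL d (by omega) θ μ) :=
      law_msg hd hθ1 hμ (kid_ne_root hc2)
    rw [hmap]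
    exact hAC w.1
  have key := cn_peel (μ := μ) (θ := θ) (S := Sub c2) hX hW hXS hWS hf hf0 hf1 hR'm hR'0 hR'1 hc
  have h1 : ∫ ω, f (X ω, W ω) * R' (W ω) ∂(cnP d θ μ) = ∫ ω, psiF θ (hatL θ v ω) * R ω ∂(cnP d θ μ) := by
    refine integral_congr_ae ?_
    filter_upwards [hatL_rec (d := d) (θ := θ) (μ := μ) hθ1 hμ] with ω hω
    show psiF θ (X ω + b ω) * R' (W ω) = psiF θ (hatL θ v ω) * R ω
    rw [hRW, hω v]
    congr 2
    have h3 := Finset.add_sum_erase (kids v) (fun c => msgC θ c ω) hc2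
    show msgC θ c2 ω + ((ω v).2 + ∑ c ∈ (kids v).erase c2, msgC θ c ω) =
      (ω v).2 + ∑ c ∈ kids v, sp (ω c).1 * Uf θ (hatL θ c ω)
    have h4 : ∑ c ∈ kids v, sp (ω c).1 * Uf θ (hatL θ c ω) = ∑ c ∈ kids v, msgC θ c ω := rfl
    rw [h4, ← h3]
    ring
  have h2 : ∫ ω, R' (W ω) ∂(cnP d θ μ) = ∫ ω, R ω ∂(cnP d θ μ) := by
    simp_rw [hRW]
  rw [h1, h2] at key
  exact key

/-- The one step inequality of Claim B. -/
lemma claimB_step (hd : 2 ≤ d) (h0 : 0 ≤ θ) (hθ1 : θ < 1) (hμ : Nish μ) {ε : ℝ} (hε1 : ε ≤ 1)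
    (hAC : ∀ b : ℝ, ∫ h, psiF θ (h + b) ∂(msg θ (cavL d (by omega) θ μ)) ≤ 1 - ε)
    {α : ℝ} (hα : 0 ≤ α) {k n : ℕ} (hk2 : 2 ≤ k) {v : Word d} (hcard : (kids v).card = k)
    {M1 : ℝ} (hM : ∀ c ∈ kids v, ∫ ω, Real.exp (α * Real.exp α * Yh θ α k n c ω) ∂(cnP d θ μ) ≤ M1) :
    ∫ ω, Real.exp (α * Yh θ α k (n + 1) v ω) ∂(cnP d θ μ) ≤ 1 + (1 - ε) * (Real.exp α * M1 - 1) := by
  have hd1 : 1 ≤ d := by omega
  have hk0 : (0 : ℝ) < k := by exact_mod_cast (by omega : 0 < k)
  let R : Word d → Cn d → ℝ := fun c ω => Real.exp α * Real.exp (α * Real.exp α * Yh θ α k n c ω) - 1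
  have hRm : ∀ c, Measurable (R c) := fun c =>
    ((Real.measurable_exp.comp ((measurable_Yh θ α k n c).const_mul _)).const_mul _).sub_const _
  have hae : 0 ≤ α * Real.exp α := mul_nonneg hα (Real.exp_pos _).le
  have hR0 : ∀ c ω, 0 ≤ R c ω := by
    intro c ω
    have h1 : 1 ≤ Real.exp α := Real.one_le_exp hα
    have h2 : 1 ≤ Real.exp (α * Real.exp α * Yh θ α k n c ω) :=
      Real.one_le_exp (mul_nonneg hae (Yh_nonneg α k h0 hθ1 n c ω))
    show 0 ≤ Real.exp α * Real.exp (α * Real.exp α * Yh θ α k n c ω) - 1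
    nlinarith
  have hRB : ∀ c ω, R c ω ≤ Real.exp α * Real.exp (α * Real.exp α * BD α k d n) - 1 := by
    intro c ω
    have h2 : Real.exp (α * Real.exp α * Yh θ α k n c ω) ≤ Real.exp (α * Real.exp α * BD α k d n) :=
      Real.exp_le_exp.mpr (mul_le_mul_of_nonneg_left (Yh_le α k h0 hθ1 hd1 n c ω) hae)
    show Real.exp α * Real.exp (α * Real.exp α * Yh θ α k n c ω) - 1 ≤ _
    have := mul_le_mul_of_nonneg_left h2 (Real.exp_pos α).le
    linarith
  have hRS : ∀ c, DependsOn (R c) (Sub c) := by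
    intro c x y hxy
    show Real.exp α * Real.exp (α * Real.exp α * Yh θ α k n c x) - 1 =
      Real.exp α * Real.exp (α * Real.exp α * Yh θ α k n c y) - 1
    rw [dependsOn_Yh θ α k n c hxy]
  have hRabs : ∀ c ω, ‖R c ω‖ ≤ Real.exp α * Real.exp (α * Real.exp α * BD α k d n) - 1 := by
    intro c ω
    rw [Real.norm_of_nonneg (hR0 c ω)]
    exact hRB c ω
  have hRi : ∀ c, Integrable (R c) (cnP d θ μ) := fun c =>
    Integrable.of_bound (hRm c).aestronglyMeasurable _ (ae_of_all _ (hRabs c))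
  have hpm : Measurable (fun ω : Cn d => psiF θ (hatL θ v ω)) := measurable_psiF.comp (measurable_hatL θ v)
  have hpR : ∀ c, Integrable (fun ω => psiF θ (hatL θ v ω) * R c ω) (cnP d θ μ) := by
    intro c
    refine Integrable.of_bound (hpm.mul (hRm c)).aestronglyMeasurable
      (Real.exp α * Real.exp (α * Real.exp α * BD α k d n) - 1) (ae_of_all _ fun ω => ?_)
    rw [norm_mul]
    have h1 : ‖psiF θ (hatL θ v ω)‖ ≤ 1 := by
      rw [Real.norm_of_nonneg (psiF_pos h0 hθ1 _).le]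
      exact psiF_le_one h0 hθ1 _
    calc ‖psiF θ (hatL θ v ω)‖ * ‖R c ω‖ ≤ 1 * ‖R c ω‖ := mul_le_mul_of_nonneg_right h1 (norm_nonneg _)
      _ ≤ _ := by rw [one_mul]; exact hRabs c ω
  have hpt : ∀ ω, Real.exp (α * Yh θ α k (n + 1) v ω) ≤
      1 + 1 / (k : ℝ) * ∑ c ∈ kids v, psiF θ (hatL θ v ω) * R c ω := by
    intro ω
    set ps := psiF θ (hatL θ v ω) with hps
    have hps0 : 0 ≤ ps := (psiF_pos h0 hθ1 _).le
    have hps1 : ps ≤ 1 := psiF_le_one h0 hθ1 _
    set D := Dh θ α k (n + 1) v ω with hD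
    have h1 : Real.exp (α * Yh θ α k (n + 1) v ω) ≤ 1 - ps + ps * Real.exp (α * D) := by
      have h2 : α * Yh θ α k (n + 1) v ω = ps * (α * D) := by
        show α * (psiF θ (hatL θ v ω) * Dh θ α k (n + 1) v ω) = _
        rw [← hps, ← hD]; ring
      rw [h2]
      exact exp_mul_le_convex _ hps0 hps1
    have hD2 : α * D = α + ∑ c ∈ kids v, (1 / (k : ℝ)) • (α * Real.exp α * Yh θ α k n c ω) := by
      have : D = 1 + Real.exp α / k * ∑ c ∈ kids v, Yh θ α k n c ω := rfl
      rw [this, mul_add, mul_one]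
      congr 1
      rw [Finset.mul_sum, Finset.mul_sum]
      refine Finset.sum_congr rfl fun c _ => ?_
      simp only [smul_eq_mul]
      field_simp
    have hJ : Real.exp (∑ c ∈ kids v, (1 / (k : ℝ)) • (α * Real.exp α * Yh θ α k n c ω)) ≤
        ∑ c ∈ kids v, (1 / (k : ℝ)) • Real.exp (α * Real.exp α * Yh θ α k n c ω) := by
      refine convexOn_exp.map_sum_le (fun c _ => by positivity) ?_ (fun c _ => Set.mem_univ _)
      rw [Finset.sum_const, hcard, nsmul_eq_mul]
      field_simp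
    have h3 : Real.exp (α * D) - 1 ≤ 1 / (k : ℝ) * ∑ c ∈ kids v, R c ω := by
      rw [hD2, Real.exp_add]
      have h4 := mul_le_mul_of_nonneg_left hJ (Real.exp_pos α).le
      have h5 : 1 / (k : ℝ) * ∑ c ∈ kids v, R c ω =
          Real.exp α * (∑ c ∈ kids v, (1 / (k : ℝ)) • Real.exp (α * Real.exp α * Yh θ α k n c ω)) - 1 := by
        have h6 : ∑ c ∈ kids v, R c ω =
            Real.exp α * (∑ c ∈ kids v, Real.exp (α * Real.exp α * Yh θ α k n c ω)) - k := by
          show ∑ c ∈ kids v, (Real.exp α * Real.exp (α * Real.exp α * Yh θ α k n c ω) - 1) = _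
          rw [Finset.sum_sub_distrib, Finset.mul_sum]
          simp [hcard]
        rw [h6]
        simp only [smul_eq_mul]
        rw [← Finset.mul_sum]
        field_simp
      rw [h5]
      linarith
    have h7 := mul_le_mul_of_nonneg_left h3 hps0
    have h8 : 1 / (k : ℝ) * ∑ c ∈ kids v, ps * R c ω = ps * (1 / (k : ℝ) * ∑ c ∈ kids v, R c ω) := by
      rw [← Finset.mul_sum]; ring
    rw [h8]
    nlinarith
  have hI1 : Integrable (fun ω => Real.exp (α * Yh θ α k (n + 1) v ω)) (cnP d θ μ) :=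
    integrable_exp_of_bdd (measurable_Yh θ α k (n + 1) v) (abs_Yh_le α k h0 hθ1 hd1 (n + 1) v) α
  have hIs : Integrable (fun ω => ∑ c ∈ kids v, psiF θ (hatL θ v ω) * R c ω) (cnP d θ μ) :=
    integrable_finsetSum _ fun c _ => hpR c
  have hmono : ∫ ω, Real.exp (α * Yh θ α k (n + 1) v ω) ∂(cnP d θ μ) ≤
      ∫ ω, ((1 : ℝ) + 1 / (k : ℝ) * ∑ c ∈ kids v, psiF θ (hatL θ v ω) * R c ω) ∂(cnP d θ μ) :=
    integral_mono hI1 ((integrable_const (1 : ℝ)).add (hIs.const_mul (1 / (k : ℝ)))) hpt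
  have hcalc : ∫ ω, ((1 : ℝ) + 1 / (k : ℝ) * ∑ c ∈ kids v, psiF θ (hatL θ v ω) * R c ω) ∂(cnP d θ μ) =
      1 + 1 / (k : ℝ) * ∑ c ∈ kids v, ∫ ω, psiF θ (hatL θ v ω) * R c ω ∂(cnP d θ μ) := by
    rw [integral_add (integrable_const _) (hIs.const_mul _), integral_const_mul, integral_finsetSum _ fun c _ => hpR c]
    simp
  have hle : ∑ c ∈ kids v, ∫ ω, psiF θ (hatL θ v ω) * R c ω ∂(cnP d θ μ) ≤
      k * ((1 - ε) * (Real.exp α * M1 - 1)) := by
    calc ∑ c ∈ kids v, ∫ ω, psiF θ (hatL θ v ω) * R c ω ∂(cnP d θ μ)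
        ≤ ∑ c ∈ kids v, (1 - ε) * (Real.exp α * M1 - 1) := by
          refine Finset.sum_le_sum fun c hc => ?_
          obtain ⟨c', hc', hne⟩ := Finset.exists_mem_ne (s := kids v) (by omega) c
          have hp := peel_psi hd hθ1 hμ hAC h0 hc hc' hne.symm (hRm c) (hR0 c) (hRB c) (hRS c)
          refine hp.trans (mul_le_mul_of_nonneg_left ?_ (by linarith))
          have h9 : ∫ ω, R c ω ∂(cnP d θ μ) =
              Real.exp α * ∫ ω, Real.exp (α * Real.exp α * Yh θ α k n c ω) ∂(cnP d θ μ) - 1 := by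
            show ∫ ω, (Real.exp α * Real.exp (α * Real.exp α * Yh θ α k n c ω) - 1) ∂(cnP d θ μ) = _
            rw [integral_sub (by
              exact (integrable_exp_of_bdd (measurable_Yh θ α k n c)
                (abs_Yh_le α k h0 hθ1 hd1 n c) (α * Real.exp α)).const_mul _) (integrable_const _),
              integral_const_mul, integral_const]
            simp
          rw [h9]
          have := mul_le_mul_of_nonneg_left (hM c hc) (Real.exp_pos α).le
          linarith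
      _ = k * ((1 - ε) * (Real.exp α * M1 - 1)) := by simp [hcard]
  rw [hcalc] at hmono
  have h10 : 1 / (k : ℝ) * ∑ c ∈ kids v, ∫ ω, psiF θ (hatL θ v ω) * R c ω ∂(cnP d θ μ) ≤
      (1 - ε) * (Real.exp α * M1 - 1) := by
    have := mul_le_mul_of_nonneg_left hle (by positivity : 0 ≤ 1 / (k : ℝ))
    calc _ ≤ 1 / (k : ℝ) * (k * ((1 - ε) * (Real.exp α * M1 - 1))) := this
      _ = _ := by field_simp
  linarith

/-- Numerics of Claim B. -/
lemma claimB_num {ε : ℝ} (h0 : 0 < ε) (h1 : ε ≤ 1) :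
    1 + (1 - ε) * (Real.exp (ε / 24) *
      (Real.exp (2 * (ε / 24)) * Real.exp (Real.exp (2 * (ε / 24)) * Real.log 2)) - 1) ≤ 2 := by
  set α := ε / 24 with hα
  have hα0 : 0 < α := by positivity
  have hα1 : α ≤ 1 / 24 := by rw [hα]; linarith
  have hl1 := Real.log_two_lt_d9
  have hl0 := Real.log_two_gt_d9
  have h2 : Real.exp (2 * α) ≤ 1 / (1 - 2 * α) :=
    Real.exp_bound_div_one_sub_of_interval (by linarith) (by linarith)
  have h3 : Real.exp (2 * α) - 1 ≤ 3 * α := by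
    have h4 : 1 / (1 - 2 * α) ≤ 1 + 3 * α := by
      rw [div_le_iff₀ (by linarith)]
      nlinarith
    linarith
  have h5 : 3 * α + Real.exp (2 * α) * Real.log 2 ≤ Real.log 2 + ε / 4 := by
    have h6 : (Real.exp (2 * α) - 1) * Real.log 2 ≤ 3 * α * 1 :=
      mul_le_mul h3 (by norm_num at hl1 ⊢; linarith) (by linarith) (by positivity)
    have h7 : ε / 4 = 6 * α := by rw [hα]; ring
    rw [h7]
    nlinarith
  have h8 : Real.exp α * (Real.exp (2 * α) * Real.exp (Real.exp (2 * α) * Real.log 2)) ≤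
      2 * Real.exp (ε / 4) := by
    rw [← Real.exp_add, ← Real.exp_add]
    calc Real.exp (α + (2 * α + Real.exp (2 * α) * Real.log 2)) ≤ Real.exp (Real.log 2 + ε / 4) :=
          Real.exp_le_exp.mpr (by linarith)
      _ = 2 * Real.exp (ε / 4) := by
        rw [Real.exp_add, Real.exp_log (by norm_num)]
  have h9 : Real.exp (ε / 4) ≤ 1 + ε / 2 := by
    have h10 : Real.exp (ε / 4) ≤ 1 / (1 - ε / 4) :=
      Real.exp_bound_div_one_sub_of_interval (by linarith) (by linarith)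
    have h11 : 1 / (1 - ε / 4) ≤ 1 + ε / 2 := by
      rw [div_le_iff₀ (by linarith)]
      nlinarith
    linarith
  have h12 : (1 - ε) * (Real.exp α * (Real.exp (2 * α) * Real.exp (Real.exp (2 * α) * Real.log 2)) - 1) ≤
      (1 - ε) * (1 + ε) := by
    refine mul_le_mul_of_nonneg_left ?_ (by linarith)
    linarith
  nlinarith

/-- The bound on the next moment, given Claim B one level below. -/
lemma M1_bound (hd : 1 ≤ d) (h0 : 0 ≤ θ) (hθ1 : θ < 1) {α : ℝ} (hαp : 0 < α) (hα1 : α ≤ 1 / 24)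
    {k n : ℕ} (hk2 : 2 ≤ k) {v : Word d} (hcard : (kids v).card = k)
    (hB : ∀ m < n, ∀ c ∈ kids v, ∫ ω, Real.exp (α * Yh θ α k m c ω) ∂(cnP d θ μ) ≤ Real.exp (Real.log 2)) :
    ∫ ω, Real.exp (α * Real.exp α * Dh θ α k n v ω) ∂(cnP d θ μ) ≤
      Real.exp (2 * α) * Real.exp (Real.exp (2 * α) * Real.log 2) := by
  have hα : 0 ≤ α := hαp.le
  have hk0 : (0 : ℝ) < k := by exact_mod_cast (by omega : 0 < k)
  have hk2' : (2 : ℝ) ≤ k := by exact_mod_cast hk2
  have hl0 := Real.log_two_gt_d9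
  have hea : Real.exp α ≤ 2 := by
    have h1 : Real.exp α ≤ 1 / (1 - α) :=
      Real.exp_bound_div_one_sub_of_interval hα (by linarith)
    have h2 : 1 / (1 - α) ≤ 2 := by
      rw [div_le_iff₀ (by linarith)]
      linarith
    linarith
  have h1le : 1 ≤ Real.exp α := Real.one_le_exp hα
  have hae : Real.exp (α * Real.exp α) ≤ Real.exp (2 * α) :=
    Real.exp_le_exp.mpr (by nlinarith)
  have hlg : 0 ≤ Real.exp (2 * α) * Real.log 2 :=
    mul_nonneg (Real.exp_pos _).le (by linarith)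
  cases n with
  | zero =>
    have : ∀ ω : Cn d, Real.exp (α * Real.exp α * Dh θ α k 0 v ω) = Real.exp (α * Real.exp α) := by
      intro ω; simp [Dh]
    simp_rw [this]
    rw [integral_const]
    simp only [probReal_univ, smul_eq_mul, one_mul]
    have h3 : 1 ≤ Real.exp (Real.exp (2 * α) * Real.log 2) := Real.one_le_exp hlg
    have h4 := Real.exp_pos (2 * α)
    nlinarith
  | succ m =>
    rw [show (fun ω => Real.exp (α * Real.exp α * Dh θ α k (m + 1) v ω)) =
      fun ω => Real.exp ((α * Real.exp α) * DKh θ α k (kids v) m ω) from rfl]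
    rw [tensor_id hd h0 hθ1 α k m (Finset.Subset.refl _)]
    refine mul_le_mul hae ?_ (Finset.prod_nonneg fun c _ => integral_nonneg fun ω => (Real.exp_pos _).le)
      (Real.exp_pos _).le
    have he2 : Real.exp (2 * α) ≤ 2 := by
      have h1 : Real.exp (2 * α) ≤ 1 / (1 - 2 * α) :=
        Real.exp_bound_div_one_sub_of_interval (by linarith) (by linarith)
      have h2 : 1 / (1 - 2 * α) ≤ 2 := by
        rw [div_le_iff₀ (by linarith)]
        linarith
      linarith
    have hee : Real.exp α * Real.exp α = Real.exp (2 * α) := by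
      rw [← Real.exp_add]; congr 1; ring
    have hprod : ∀ c ∈ kids v, ∫ ω, Real.exp (α * Real.exp α * (Real.exp α / k) * Yh θ α k m c ω) ∂(cnP d θ μ) ≤
        Real.exp (Real.exp (2 * α) / k * Real.log 2) := by
      intro c hc
      have hb := hB m (Nat.lt_succ_self m) c hc
      have hae2 : α * Real.exp α * (Real.exp α / k) = α * (Real.exp (2 * α) / k) := by
        rw [← hee]; ring
      have hratio : Real.exp (2 * α) / k ≤ 1 := by
        rw [div_le_one hk0]; linarith
      have hL := lyap (P := cnP d θ μ) (measurable_Yh θ α k m c) (abs_Yh_le α k h0 hθ1 hd m c)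
        (a := α * (Real.exp (2 * α) / k)) (b := α) (L := Real.log 2) (by positivity)
        (by nlinarith) hαp hb
      rw [hae2]
      refine hL.trans (le_of_eq ?_)
      congr 2
      field_simp
    calc ∏ c ∈ kids v, ∫ ω, Real.exp (α * Real.exp α * (Real.exp α / k) * Yh θ α k m c ω) ∂(cnP d θ μ)
        ≤ ∏ c ∈ kids v, Real.exp (Real.exp (2 * α) / k * Real.log 2) :=
          Finset.prod_le_prod (fun c _ => integral_nonneg fun ω => (Real.exp_pos _).le) hprod
      _ = Real.exp (Real.exp (2 * α) * Real.log 2) := by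
          rw [Finset.prod_const, hcard, ← Real.exp_nat_mul]
          congr 1
          field_simp

/-- Claim B. -/
theorem claimB (hd : 2 ≤ d) (h0 : 0 ≤ θ) (hθ1 : θ < 1) (hμ : Nish μ) {ε : ℝ} (hε0 : 0 < ε) (hε1 : ε ≤ 1)
    (hAC : ∀ b : ℝ, ∫ h, psiF θ (h + b) ∂(msg θ (cavL d (by omega) θ μ)) ≤ 1 - ε)
    {k : ℕ} (hk2 : 2 ≤ k) (hdk : d = k + 1) (n : ℕ) :
    ∀ c : Word d, c ≠ root → ∫ ω, Real.exp (ε / 24 * Yh θ (ε / 24) k n c ω) ∂(cnP d θ μ) ≤ Real.exp (Real.log 2) := by
  have hd1 : 1 ≤ d := by omega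
  have hcard : ∀ {v : Word d}, v ≠ root → (kids v).card = k := by
    intro v hv; rw [card_kids hv]; omega
  set α := ε / 24 with hα
  have hα0 : 0 < α := by positivity
  have hα1 : α ≤ 1 / 24 := by rw [hα]; linarith
  have hea : Real.exp α ≤ 2 := by
    have h1 : Real.exp α ≤ 1 / (1 - α) :=
      Real.exp_bound_div_one_sub_of_interval hα0.le (by linarith)
    have h2 : 1 / (1 - α) ≤ 2 := by
      rw [div_le_iff₀ (by linarith)]
      linarith
    linarith
  induction n using Nat.strong_induction_on with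
  | _ n ih =>
    intro c hc
    rw [Real.exp_log (by norm_num)]
    cases n with
    | zero =>
      have hpt : ∀ ω : Cn d, Real.exp (α * Yh θ α k 0 c ω) ≤ 2 := by
        intro ω
        have h1 : Yh θ α k 0 c ω ≤ 1 := by
          have h2 := Yh_le_Dh α k h0 hθ1 0 c ω
          simpa [Dh] using h2
        calc Real.exp (α * Yh θ α k 0 c ω) ≤ Real.exp α :=
              Real.exp_le_exp.mpr (by nlinarith)
          _ ≤ 2 := hea
      have := integral_mono (integrable_exp_of_bdd (P := cnP d θ μ) (measurable_Yh θ α k 0 c)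
        (abs_Yh_le α k h0 hθ1 hd1 0 c) α) (integrable_const (2 : ℝ)) hpt
      simpa using this
    | succ m =>
      have hM : ∀ c' ∈ kids c, ∫ ω, Real.exp (α * Real.exp α * Yh θ α k m c' ω) ∂(cnP d θ μ) ≤
          Real.exp (2 * α) * Real.exp (Real.exp (2 * α) * Real.log 2) := by
        intro c' hc'
        have hc'0 := kid_ne_root hc'
        refine le_trans (integral_mono (integrable_exp_of_bdd (P := cnP d θ μ) (measurable_Yh θ α k m c')
          (abs_Yh_le α k h0 hθ1 hd1 m c') _) (integrable_exp_of_bdd (P := cnP d θ μ) (measurable_Dh θ α k m c')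
          (abs_Dh_le α k h0 hθ1 hd1 m c') (α * Real.exp α)) fun ω => ?_) ?_
        · exact Real.exp_le_exp.mpr (mul_le_mul_of_nonneg_left (Yh_le_Dh α k h0 hθ1 m c' ω)
            (mul_nonneg hα0.le (Real.exp_pos _).le))
        · refine M1_bound hd1 h0 hθ1 hα0 hα1 hk2 (hcard hc'0) ?_
          intro j hj c2 hc2
          exact ih j (by omega) c2 (kid_ne_root hc2)
      have hstep := claimB_step hd h0 hθ1 hμ hε1 hAC hα0.le hk2 (hcard hc) hM
      have hnum := claimB_num hε0 hε1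
      rw [← hα] at hnum
      exact hstep.trans hnum

/-- The scales of the tensorisation. -/
noncomputable def LamS (α : ℝ) (k m : ℕ) : ℝ := α * ((k : ℝ) * Real.exp (-α)) ^ m

/-- Tensorisation: the bound at all scales. -/
theorem lam_bound (hd : 2 ≤ d) (h0 : 0 ≤ θ) (hθ1 : θ < 1) (hμ : Nish μ) {ε : ℝ} (hε0 : 0 < ε) (hε1 : ε ≤ 1)
    (hAC : ∀ b : ℝ, ∫ h, psiF θ (h + b) ∂(msg θ (cavL d (by omega) θ μ)) ≤ 1 - ε)
    {k : ℕ} (hk2 : 2 ≤ k) (hdk : d = k + 1) (m n : ℕ) :
    ∀ c : Word d, c ≠ root →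
      ∫ ω, Real.exp (LamS (ε / 24) k m * Dh θ (ε / 24) k n c ω) ∂(cnP d θ μ) ≤
        Real.exp ((k : ℝ) ^ m * (4 - Real.exp (-(ε / 24)) ^ m)) := by
  have hd1 : 1 ≤ d := by omega
  have hcard : ∀ {v : Word d}, v ≠ root → (kids v).card = k := by
    intro v hv; rw [card_kids hv]; omega
  have hB := claimB hd h0 hθ1 hμ hε0 hε1 hAC hk2 hdk
  set α := ε / 24 with hα
  have hα0 : 0 < α := by positivity
  have hα1 : α ≤ 1 / 24 := by rw [hα]; linarith
  have hk0 : (0 : ℝ) < k := by exact_mod_cast (by omega : 0 < k)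
  have hk2' : (2 : ℝ) ≤ k := by exact_mod_cast hk2
  have hea : Real.exp α ≤ 2 := by
    have h1 : Real.exp α ≤ 1 / (1 - α) :=
      Real.exp_bound_div_one_sub_of_interval hα0.le (by linarith)
    have h2 : 1 / (1 - α) ≤ 2 := by
      rw [div_le_iff₀ (by linarith)]
      linarith
    linarith
  have hea1 : 1 ≤ Real.exp α := Real.one_le_exp hα0.le
  set x := Real.exp (-α) with hx
  have hx0 : 0 < x := Real.exp_pos _
  have hx1 : x ≤ 1 := Real.exp_le_one_iff.mpr (by linarith)
  have hxa : x * Real.exp α = 1 := by rw [hx, ← Real.exp_add]; simp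
  have hxm : ∀ j : ℕ, x ^ j ≤ 1 := fun j => pow_le_one₀ hx0.le hx1
  have hxm0 : ∀ j : ℕ, 0 < x ^ j := fun j => pow_pos hx0 j
  have hLamE : ∀ j : ℕ, LamS α k j = α * ((k : ℝ) ^ j * x ^ j) := by
    intro j; unfold LamS; rw [mul_pow]
  have hkm : ∀ j : ℕ, 0 < (k : ℝ) ^ j := fun j => pow_pos hk0 j
  induction m generalizing n with
  | zero =>
    intro c hc
    have hL0 : LamS α k 0 = α := by simp [LamS]
    simp only [pow_zero, one_mul]
    rw [hL0]
    have h3 : (4 : ℝ) - 1 = 3 := by norm_num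
    rw [h3]
    cases n with
    | zero =>
      have : ∀ ω : Cn d, Real.exp (α * Dh θ α k 0 c ω) = Real.exp α := by intro ω; simp [Dh]
      simp_rw [this]
      simp only [integral_const, probReal_univ, smul_eq_mul, one_mul]
      exact Real.exp_le_exp.mpr (by linarith)
    | succ n =>
      rw [show (fun ω => Real.exp (α * Dh θ α k (n + 1) c ω)) =
        fun ω => Real.exp (α * DKh θ α k (kids c) n ω) from rfl]
      rw [tensor_id hd1 h0 hθ1 α k n (Finset.Subset.refl _)]
      have hprod : ∀ c' ∈ kids c, ∫ ω, Real.exp (α * (Real.exp α / k) * Yh θ α k n c' ω) ∂(cnP d θ μ) ≤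
          Real.exp (Real.exp α / k * Real.log 2) := by
        intro c' hc'
        have hb := hB n c' (kid_ne_root hc')
        have hratio : Real.exp α / k ≤ 1 := by
          rw [div_le_one hk0]; linarith
        have hL := lyap (P := cnP d θ μ) (measurable_Yh θ α k n c') (abs_Yh_le α k h0 hθ1 hd1 n c')
          (a := α * (Real.exp α / k)) (b := α) (L := Real.log 2) (by positivity) (by nlinarith) hα0 hb
        refine hL.trans (le_of_eq ?_)
        congr 2
        field_simp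
      have h4 : ∏ c' ∈ kids c, ∫ ω, Real.exp (α * (Real.exp α / k) * Yh θ α k n c' ω) ∂(cnP d θ μ) ≤
          Real.exp (Real.exp α * Real.log 2) := by
        calc _ ≤ ∏ c' ∈ kids c, Real.exp (Real.exp α / k * Real.log 2) :=
              Finset.prod_le_prod (fun c _ => integral_nonneg fun ω => (Real.exp_pos _).le) hprod
          _ = _ := by
              rw [Finset.prod_const, hcard hc, ← Real.exp_nat_mul]
              congr 1
              field_simp
      calc _ ≤ Real.exp α * Real.exp (Real.exp α * Real.log 2) :=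
            mul_le_mul_of_nonneg_left h4 (Real.exp_pos _).le
        _ ≤ _ := by
            rw [← Real.exp_add]
            apply Real.exp_le_exp.mpr
            have hl1 := Real.log_two_lt_d9
            have hl0 := Real.log_two_gt_d9
            have : Real.exp α * Real.log 2 ≤ 2 * 1 :=
              mul_le_mul hea (by norm_num at hl1 ⊢; linarith) (by linarith) (by norm_num)
            linarith
  | succ m ih =>
    intro c hc
    have hLs : LamS α k (m + 1) * (Real.exp α / k) = LamS α k m := by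
      unfold LamS
      rw [pow_succ]
      field_simp
      have h5 : Real.exp (-α) * Real.exp α = 1 := hxa
      rw [← hx] at *
      nlinarith [hxa]
    have hLam0 : 0 < LamS α k m := by
      rw [hLamE]; exact mul_pos hα0 (mul_pos (hkm m) (hxm0 m))
    have hLam1 : LamS α k (m + 1) = α * ((k : ℝ) ^ (m + 1) * x ^ (m + 1)) := hLamE (m + 1)
    cases n with
    | zero =>
      have : ∀ ω : Cn d, Real.exp (LamS α k (m + 1) * Dh θ α k 0 c ω) = Real.exp (LamS α k (m + 1)) := by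
        intro ω; simp [Dh]
      simp_rw [this]
      simp only [integral_const, probReal_univ, smul_eq_mul, one_mul]
      apply Real.exp_le_exp.mpr
      rw [hLam1]
      have h6 := hxm (m + 1)
      have h7 := hxm0 (m + 1)
      have h8 := hkm (m + 1)
      have h9 : α * (x ^ (m + 1)) ≤ 4 - x ^ (m + 1) := by nlinarith
      calc α * ((k : ℝ) ^ (m + 1) * x ^ (m + 1)) = (k : ℝ) ^ (m + 1) * (α * x ^ (m + 1)) := by ring
        _ ≤ _ := mul_le_mul_of_nonneg_left h9 h8.le
    | succ n =>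
      rw [show (fun ω => Real.exp (LamS α k (m + 1) * Dh θ α k (n + 1) c ω)) =
        fun ω => Real.exp (LamS α k (m + 1) * DKh θ α k (kids c) n ω) from rfl]
      rw [tensor_id hd1 h0 hθ1 α k n (Finset.Subset.refl _), hLs]
      have hprod : ∀ c' ∈ kids c, ∫ ω, Real.exp (LamS α k m * Yh θ α k n c' ω) ∂(cnP d θ μ) ≤
          Real.exp ((k : ℝ) ^ m * (4 - x ^ m)) := by
        intro c' hc'
        refine le_trans (integral_mono (integrable_exp_of_bdd (P := cnP d θ μ) (measurable_Yh θ α k n c')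
          (abs_Yh_le α k h0 hθ1 hd1 n c') _) (integrable_exp_of_bdd (P := cnP d θ μ) (measurable_Dh θ α k n c')
          (abs_Dh_le α k h0 hθ1 hd1 n c') (LamS α k m)) fun ω => ?_) (ih n c' (kid_ne_root hc'))
        exact Real.exp_le_exp.mpr (mul_le_mul_of_nonneg_left (Yh_le_Dh α k h0 hθ1 n c' ω) hLam0.le)
      have h4 : ∏ c' ∈ kids c, ∫ ω, Real.exp (LamS α k m * Yh θ α k n c' ω) ∂(cnP d θ μ) ≤
          Real.exp ((k : ℝ) ^ (m + 1) * (4 - x ^ m)) := by
        calc _ ≤ ∏ c' ∈ kids c, Real.exp ((k : ℝ) ^ m * (4 - x ^ m)) :=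
              Finset.prod_le_prod (fun c _ => integral_nonneg fun ω => (Real.exp_pos _).le) hprod
          _ = _ := by
              rw [Finset.prod_const, hcard hc, ← Real.exp_nat_mul]
              congr 1
              rw [pow_succ]
              ring
      calc _ ≤ Real.exp (LamS α k (m + 1)) * Real.exp ((k : ℝ) ^ (m + 1) * (4 - x ^ m)) :=
            mul_le_mul_of_nonneg_left h4 (Real.exp_pos _).le
        _ ≤ _ := by
            rw [← Real.exp_add]
            apply Real.exp_le_exp.mpr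
            rw [hLam1]
            have h8 := hkm (m + 1)
            have h10 : (1 + α) * x ≤ 1 := by
              have h11 : 1 + α ≤ Real.exp α := by linarith [Real.add_one_le_exp α]
              nlinarith
            have h12 : α * x ^ (m + 1) + x ^ (m + 1) ≤ x ^ m := by
              have h13 := hxm0 m
              rw [pow_succ]
              nlinarith
            nlinarith

/-- The bound for a restricted family of children. -/
theorem DKh_bound (hd : 2 ≤ d) (h0 : 0 ≤ θ) (hθ1 : θ < 1) (hμ : Nish μ) {ε : ℝ} (hε0 : 0 < ε) (hε1 : ε ≤ 1)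
    (hAC : ∀ b : ℝ, ∫ h, psiF θ (h + b) ∂(msg θ (cavL d (by omega) θ μ)) ≤ 1 - ε)
    {k : ℕ} (hk2 : 2 ≤ k) (hdk : d = k + 1) (m n : ℕ) {v : Word d} {K : Finset (Word d)} (hK : K ⊆ kids v) :
    ∫ ω, Real.exp (LamS (ε / 24) k (m + 1) * DKh θ (ε / 24) k K n ω) ∂(cnP d θ μ) ≤
      Real.exp (LamS (ε / 24) k (m + 1) + 8 * (k : ℝ) ^ (m + 1)) := by
  have hd1 : 1 ≤ d := by omega
  have hk0 : (0 : ℝ) < k := by exact_mod_cast (by omega : 0 < k)
  have hk1 : (1 : ℝ) ≤ k := by exact_mod_cast (by omega : 1 ≤ k)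
  set α := ε / 24 with hα
  have hα0 : 0 < α := by positivity
  have hLs : LamS α k (m + 1) * (Real.exp α / k) = LamS α k m := by
    unfold LamS
    rw [pow_succ]
    field_simp
    have h5 : Real.exp (-α) * Real.exp α = 1 := by rw [← Real.exp_add]; simp
    nlinarith [h5]
  have hLam0 : 0 < LamS α k m := by
    unfold LamS
    exact mul_pos hα0 (pow_pos (mul_pos hk0 (Real.exp_pos _)) _)
  rw [tensor_id hd1 h0 hθ1 α k n hK, hLs, Real.exp_add]
  refine mul_le_mul_of_nonneg_left ?_ (Real.exp_pos _).le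
  have hkm : 0 < (k : ℝ) ^ m := pow_pos hk0 m
  have hprod : ∀ c ∈ K, ∫ ω, Real.exp (LamS α k m * Yh θ α k n c ω) ∂(cnP d θ μ) ≤ Real.exp (4 * (k : ℝ) ^ m) := by
    intro c hc
    refine le_trans (integral_mono (integrable_exp_of_bdd (P := cnP d θ μ) (measurable_Yh θ α k n c)
      (abs_Yh_le α k h0 hθ1 hd1 n c) _) (integrable_exp_of_bdd (P := cnP d θ μ) (measurable_Dh θ α k n c)
      (abs_Dh_le α k h0 hθ1 hd1 n c) (LamS α k m)) fun ω => ?_)
      ((lam_bound hd h0 hθ1 hμ hε0 hε1 hAC hk2 hdk m n c (kid_ne_root (hK hc))).trans ?_)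
    · exact Real.exp_le_exp.mpr (mul_le_mul_of_nonneg_left (Yh_le_Dh α k h0 hθ1 n c ω) hLam0.le)
    · apply Real.exp_le_exp.mpr
      have h1 := pow_pos (Real.exp_pos (-α)) m
      nlinarith
  have hcardK : (K.card : ℝ) ≤ 2 * k := by
    have h1 : K.card ≤ (kids v).card := Finset.card_le_card hK
    have h2 := card_kids_le hd1 v
    have h3 : K.card ≤ 2 * k := by omega
    exact_mod_cast h3
  calc ∏ c ∈ K, ∫ ω, Real.exp (LamS α k m * Yh θ α k n c ω) ∂(cnP d θ μ)
      ≤ ∏ c ∈ K, Real.exp (4 * (k : ℝ) ^ m) :=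
        Finset.prod_le_prod (fun c _ => integral_nonneg fun ω => (Real.exp_pos _).le) hprod
    _ = Real.exp (K.card * (4 * (k : ℝ) ^ m)) := by
        rw [Finset.prod_const, ← Real.exp_nat_mul]
    _ ≤ _ := by
        apply Real.exp_le_exp.mpr
        rw [pow_succ]
        nlinarith

lemma measurable_DKh (θ α : ℝ) (k : ℕ) (K : Finset (Word d)) (n : ℕ) : Measurable (DKh θ α k K n) := by
  unfold DKh
  refine measurable_const.add (Measurable.const_mul ?_ _)
  exact Finset.measurable_sum _ fun c _ => measurable_Yh θ α k n c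

omit [Corr θ] in
lemma abs_DKh_le (hd : 1 ≤ d) (h0 : 0 ≤ θ) (hθ1 : θ < 1) (α : ℝ) (k : ℕ) (K : Finset (Word d)) (n : ℕ) (ω : Cn d) :
    |DKh θ α k K n ω| ≤ 1 + Real.exp α / k * (K.card * BD α k d n) := by
  have h2 : 0 ≤ Real.exp α / (k : ℝ) := div_nonneg (Real.exp_pos _).le (Nat.cast_nonneg _)
  have h3 : 0 ≤ ∑ c ∈ K, Yh θ α k n c ω := Finset.sum_nonneg fun c _ => Yh_nonneg α k h0 hθ1 n c ω
  have h4 : ∑ c ∈ K, Yh θ α k n c ω ≤ K.card * BD α k d n := by
    calc ∑ c ∈ K, Yh θ α k n c ω ≤ ∑ c ∈ K, BD α k d n :=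
          Finset.sum_le_sum fun c _ => Yh_le α k h0 hθ1 hd n c ω
      _ = _ := by simp
  have h5 := mul_nonneg h2 h3
  have h6 := mul_le_mul_of_nonneg_left h4 h2
  unfold DKh
  rw [abs_of_nonneg (by linarith)]
  linarith

/-- The level bound: numerics of the final step. -/
lemma level_num {ε Λ : ℝ} (hε0 : 0 < ε) (hε1 : ε ≤ 1) (hΛ : 1 ≤ Λ) {k m : ℕ} (hk2 : 2 ≤ k)
    (hm : ((k : ℝ) * Real.exp (-(ε / 24))) ^ m ≤ Λ / (ε / 24)) :
    1 + 8 * Real.exp ((ε / 24) * (m + 1)) / (ε / 24) ≤ 1000 / ε * Real.exp (ε / 14 * Real.log (Λ / ε)) := by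
  set α := ε / 24 with hα
  have hα0 : 0 < α := by positivity
  have hα1 : α ≤ 1 / 24 := by rw [hα]; linarith
  have hk2' : (2 : ℝ) ≤ k := by exact_mod_cast hk2
  have hk0 : (0 : ℝ) < k := by linarith
  have hΛε : 1 ≤ Λ / ε := by rw [le_div_iff₀ hε0]; linarith
  have hlogΛ : 0 ≤ Real.log (Λ / ε) := Real.log_nonneg hΛε
  set E := Real.exp (ε / 14 * Real.log (Λ / ε)) with hE
  have hE1 : 1 ≤ E := Real.one_le_exp (by positivity)
  have hv0 : 0 < (k : ℝ) * Real.exp (-α) := mul_pos hk0 (Real.exp_pos _)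
  have hlogv : 7 / 12 ≤ Real.log ((k : ℝ) * Real.exp (-α)) := by
    rw [Real.log_mul hk0.ne' (Real.exp_pos _).ne', Real.log_exp]
    have h1 : Real.log 2 ≤ Real.log k := Real.log_le_log (by norm_num) hk2'
    have h2 := Real.log_two_gt_d9
    norm_num at h2
    linarith
  have hΛα : Λ / α = 24 * (Λ / ε) := by rw [hα]; field_simp
  have hlog : (m : ℝ) * Real.log ((k : ℝ) * Real.exp (-α)) ≤ Real.log (Λ / α) := by
    rw [← Real.log_pow]
    exact Real.log_le_log (pow_pos hv0 m) hm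
  have hlog2 : Real.log (Λ / α) = Real.log 24 + Real.log (Λ / ε) := by
    rw [hΛα, Real.log_mul (by norm_num) (by positivity)]
  have hlog24 : Real.log 24 ≤ 10 := by
    rw [Real.log_le_iff_le_exp (by norm_num)]
    have h1 : (2 : ℝ) ≤ Real.exp 1 := by
      have := Real.add_one_le_exp (1 : ℝ)
      linarith
    have h2 : Real.exp 10 = Real.exp 1 ^ 10 := by
      rw [← Real.exp_nat_mul]; norm_num
    rw [h2]
    calc (24 : ℝ) ≤ 2 ^ 10 := by norm_num
      _ ≤ _ := pow_le_pow_left₀ (by norm_num) h1 10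
  have hm0 : (0 : ℝ) ≤ m := Nat.cast_nonneg m
  have hαm : α * m ≤ ε / 14 * Real.log (Λ / α) := by
    have h1 : (m : ℝ) * (7 / 12) ≤ Real.log (Λ / α) :=
      (mul_le_mul_of_nonneg_left hlogv hm0).trans hlog
    have h2 : α * m = ε / 14 * ((m : ℝ) * (7 / 12)) := by rw [hα]; ring
    rw [h2]
    exact mul_le_mul_of_nonneg_left h1 (by positivity)
  have hexp : α * (m + 1) ≤ 1 + ε / 14 * Real.log (Λ / ε) := by
    have h1 : ε / 14 * Real.log 24 ≤ 1 * (10 / 14) := by
      have h3 : 0 ≤ Real.log 24 := Real.log_nonneg (by norm_num)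
      have h2 : ε * Real.log 24 ≤ 1 * 10 := mul_le_mul hε1 hlog24 h3 (by norm_num)
      linarith
    rw [hlog2] at hαm
    nlinarith
  have hw : Real.exp (α * (m + 1)) ≤ 3 * E := by
    calc Real.exp (α * (m + 1)) ≤ Real.exp (1 + ε / 14 * Real.log (Λ / ε)) := Real.exp_le_exp.mpr hexp
      _ = Real.exp 1 * E := by rw [Real.exp_add]
      _ ≤ 3 * E := by
        refine mul_le_mul_of_nonneg_right ?_ (by linarith)
        have := Real.exp_one_lt_d9
        norm_num at this ⊢
        linarith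
  have hdiv : 8 * Real.exp (α * (m + 1)) / α = 192 * Real.exp (α * (m + 1)) / ε := by
    rw [hα]; field_simp; ring
  rw [hdiv]
  have h1 : 192 * Real.exp (α * (m + 1)) / ε ≤ 576 * E / ε := by
    apply div_le_div_of_nonneg_right _ hε0.le
    linarith
  have h2 : 1 ≤ E / ε := by
    rw [le_div_iff₀ hε0]; linarith
  have h3 : 1000 / ε * E = 1000 * (E / ε) := by ring
  have h4 : 576 * E / ε = 576 * (E / ε) := by ring
  rw [h3]
  rw [h4] at h1
  linarith

/-- The exponential moment at all scales, on the canonical space. -/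
theorem DKh_exp (hd : 2 ≤ d) (h0 : 0 ≤ θ) (hθ1 : θ < 1) (hμ : Nish μ) {ε : ℝ} (hε0 : 0 < ε) (hε1 : ε ≤ 1)
    (hAC : ∀ b : ℝ, ∫ h, psiF θ (h + b) ∂(msg θ (cavL d (by omega) θ μ)) ≤ 1 - ε)
    {k : ℕ} (hk2 : 2 ≤ k) (hdk : d = k + 1) {Λ : ℝ} (hΛ : 1 ≤ Λ) (n : ℕ) {v : Word d}
    {K : Finset (Word d)} (hK : K ⊆ kids v) :
    ∫ ω, Real.exp (Λ * (DKh θ (ε / 24) k K n ω - 1000 / ε * Real.exp (ε / 14 * Real.log (Λ / ε)))) ∂(cnP d θ μ) ≤ 1 := by
  have hd1 : 1 ≤ d := by omega
  have hbd := DKh_bound hd h0 hθ1 hμ hε0 hε1 hAC hk2 hdk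
  have hlevel := fun (m : ℕ) => @level_num ε Λ hε0 hε1 hΛ k m hk2
  set α := ε / 24 with hα
  have hα0 : 0 < α := by positivity
  have hα1 : α ≤ 1 / 24 := by rw [hα]; linarith
  have hk2' : (2 : ℝ) ≤ k := by exact_mod_cast hk2
  have hk0 : (0 : ℝ) < k := by linarith
  set A := 1000 / ε * Real.exp (ε / 14 * Real.log (Λ / ε)) with hA
  have hx1 : 1 ≤ Λ / α := by rw [le_div_iff₀ hα0]; linarith
  have hv1 : 1 < (k : ℝ) * Real.exp (-α) := by
    have h1 : 1 - α ≤ Real.exp (-α) := by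
      have := Real.add_one_le_exp (-α)
      linarith
    nlinarith
  obtain ⟨m, hm1, hm2⟩ := exists_nat_pow_near hx1 hv1
  have hLE : LamS α k (m + 1) = α * ((k : ℝ) ^ (m + 1) * Real.exp (-α) ^ (m + 1)) := by
    unfold LamS; rw [mul_pow]
  have hL0 : 0 < LamS α k (m + 1) := by
    rw [hLE]; exact mul_pos hα0 (mul_pos (pow_pos hk0 _) (pow_pos (Real.exp_pos _) _))
  have hΛL : Λ ≤ LamS α k (m + 1) := by
    unfold LamS
    rw [div_lt_iff₀ hα0] at hm2
    nlinarith
  let Z : Cn d → ℝ := fun ω => DKh θ α k K n ω - A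
  have hZm : Measurable Z := (measurable_DKh θ α k K n).sub_const A
  have hZB : ∀ ω, |Z ω| ≤ (1 + Real.exp α / k * (K.card * BD α k d n)) + |A| := by
    intro ω
    calc |Z ω| ≤ |DKh θ α k K n ω| + |A| := abs_sub _ _
      _ ≤ _ := by
        have := abs_DKh_le hd1 h0 hθ1 α k K n ω
        linarith
  have hi : Integrable (fun ω => Real.exp (LamS α k (m + 1) * DKh θ α k K n ω)) (cnP d θ μ) :=
    integrable_exp_of_bdd (measurable_DKh θ α k K n) (abs_DKh_le hd1 h0 hθ1 α k K n) _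
  have hLZ : ∫ ω, Real.exp (LamS α k (m + 1) * Z ω) ∂(cnP d θ μ) ≤ Real.exp 0 := by
    have h1 : ∀ ω, Real.exp (LamS α k (m + 1) * Z ω) =
        Real.exp (- (LamS α k (m + 1) * A)) * Real.exp (LamS α k (m + 1) * DKh θ α k K n ω) := by
      intro ω
      rw [← Real.exp_add]
      congr 1
      show LamS α k (m + 1) * (DKh θ α k K n ω - A) = _
      ring
    simp_rw [h1]
    rw [integral_const_mul]
    have h2 := hbd m n hK
    calc Real.exp (-(LamS α k (m + 1) * A)) * ∫ ω, Real.exp (LamS α k (m + 1) * DKh θ α k K n ω) ∂(cnP d θ μ)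
        ≤ Real.exp (-(LamS α k (m + 1) * A)) * Real.exp (LamS α k (m + 1) + 8 * (k : ℝ) ^ (m + 1)) :=
          mul_le_mul_of_nonneg_left h2 (Real.exp_pos _).le
      _ ≤ Real.exp 0 := by
        rw [← Real.exp_add]
        apply Real.exp_le_exp.mpr
        have h3 := hlevel m hm1
        have hy : Real.exp (-α) ^ (m + 1) * Real.exp (α * ((m : ℝ) + 1)) = 1 := by
          rw [← Real.exp_nat_mul, ← Real.exp_add]
          have : ((m + 1 : ℕ) : ℝ) * -α + α * ((m : ℝ) + 1) = 0 := by push_cast; ring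
          rw [this, Real.exp_zero]
        have h4 : 8 * (k : ℝ) ^ (m + 1) =
            LamS α k (m + 1) * (8 * Real.exp (α * ((m : ℝ) + 1)) / α) := by
          rw [hLE]
          have h6 : α * ((k : ℝ) ^ (m + 1) * Real.exp (-α) ^ (m + 1)) * (8 * Real.exp (α * ((m : ℝ) + 1)) / α) =
              8 * (k : ℝ) ^ (m + 1) * (Real.exp (-α) ^ (m + 1) * Real.exp (α * ((m : ℝ) + 1))) := by
            field_simp
          rw [h6, hy, mul_one]
        rw [h4]
        have h5 := mul_le_mul_of_nonneg_left h3 hL0.le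
        nlinarith
  have hfin := lyap (P := cnP d θ μ) hZm hZB (a := Λ) (b := LamS α k (m + 1)) (L := 0)
    (by linarith) hΛL hL0 hLZ
  simpa using hfin

end Indep

end Vale.Agent.Lib.P161B.BC
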