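import Mathlib

/-!
The differential inequality argument, pure real analysis. A function `r` on the line, going to `0` at minus
infinity, with the window inequality and the static rate bounds, vanishes identically.
-/

namespace Vale.Agent.Lib.P161B

open Filter
open scoped Topology

/-- Elementary bound on the logarithm near one. -/
theorem ode_log_one_sub_ge {x : ℝ} (hx0 : 0 ≤ x) (hx : x ≤ 1 / 2) : -(2 * x) ≤ Real.log (1 - x) := by
  have hpos : 0 < 1 - x := by linarith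
  have h1 := Real.one_sub_inv_le_log_of_pos hpos
  have h2 : -(2 * x) ≤ 1 - (1 - x)⁻¹ := by
    have h3 : (1 - x)⁻¹ ≤ 1 + 2 * x := by
      rw [inv_le_comm₀ hpos (by linarith)]
      rw [inv_le_iff_one_le_mul₀ (by linarith)]
      nlinarith
    linarith
  linarith

/-- The barrier lemma on one interval. -/
theorem barrier {R : ℝ → ℝ} {a b : ℝ} (hab : a ≤ b) (hmono : ∀ u v, a ≤ u → u ≤ v → v ≤ b → R u ≤ R v)
    (hRa : 0 ≤ R a) (hRb : 0 < R b) (hR1 : R b ≤ 1) {A : ℝ → ℝ} (hA : Monotone A) (hA0 : ∀ l, 0 ≤ A l)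
    (hstep : ∀ u v, a ≤ u → u ≤ v → v ≤ b → R v ≤ R u + (v - u) * (R v * A (Real.log (1 / R v))))
    {lmax : ℝ} (hl : Real.log (1 / R b) + 2 * (b - a) * A lmax ≤ lmax) :
    0 < R a ∧ Real.log (1 / R a) ≤ lmax := by
  set Al := A lmax with hAl
  have hAl0 : 0 ≤ Al := hA0 _
  obtain ⟨N0, hN0⟩ := exists_nat_gt (2 * (b - a) * Al)
  set N : ℕ := N0 + 1 with hNdef
  have hNpos : (0 : ℝ) < N := by positivity
  have hNgt : 2 * (b - a) * Al < N := by
    have : (N0 : ℝ) < N := by rw [hNdef]; push_cast; linarith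
    linarith
  set h : ℝ := (b - a) / N with hh
  have hh0 : 0 ≤ h := div_nonneg (by linarith) hNpos.le
  have hNh : N * h = b - a := by rw [hh]; field_simp
  have hhA : h * Al ≤ 1 / 2 := by
    have : 2 * (h * Al) * N ≤ 1 * N := by
      have h1 : 2 * (h * Al) * N = 2 * (N * h) * Al := by ring
      rw [h1, hNh]; linarith
    have := le_of_mul_le_mul_right this hNpos
    linarith
  have hlb : 0 ≤ Real.log (1 / R b) := by
    apply Real.log_nonneg
    rw [le_div_iff₀ hRb]; linarith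
  have key : ∀ k : ℕ, k ≤ N → 0 < R (b - k * h) ∧
      Real.log (1 / R (b - k * h)) ≤ Real.log (1 / R b) + 2 * (k * h) * Al := by
    intro k
    induction k with
    | zero =>
      intro _
      simp only [Nat.cast_zero, zero_mul, sub_zero, mul_zero, add_zero]
      exact ⟨hRb, le_refl _⟩
    | succ k ih =>
      intro hk
      have hkN : k ≤ N := by omega
      obtain ⟨hv, hlv⟩ := ih hkN
      set v := b - k * h with hvdef
      set u := b - ((k + 1 : ℕ) : ℝ) * h with hudef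
      have hkh : (k : ℝ) * h ≤ b - a := by
        rw [← hNh]
        exact mul_le_mul_of_nonneg_right (by exact_mod_cast hkN) hh0
      have hk1h : ((k + 1 : ℕ) : ℝ) * h ≤ b - a := by
        rw [← hNh]
        exact mul_le_mul_of_nonneg_right (by exact_mod_cast hk) hh0
      have hau : a ≤ u := by rw [hudef]; linarith
      have huv : u ≤ v := by
        rw [hudef, hvdef]; push_cast; nlinarith
      have hvb : v ≤ b := by
        rw [hvdef]
        have : 0 ≤ (k : ℝ) * h := by positivity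
        linarith
      have hvu : v - u = h := by rw [hudef, hvdef]; push_cast; ring
      have hlvmax : Real.log (1 / R v) ≤ lmax := by
        have : 2 * ((k : ℝ) * h) * Al ≤ 2 * (b - a) * Al := by
          apply mul_le_mul_of_nonneg_right _ hAl0
          linarith
        linarith
      have hAv : A (Real.log (1 / R v)) ≤ Al := hA hlvmax
      have hs := hstep u v hau huv hvb
      rw [hvu] at hs
      have h1 : h * (R v * A (Real.log (1 / R v))) ≤ R v * (h * Al) := by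
        have : h * (R v * A (Real.log (1 / R v))) = R v * (h * A (Real.log (1 / R v))) := by ring
        rw [this]
        apply mul_le_mul_of_nonneg_left _ hv.le
        exact mul_le_mul_of_nonneg_left hAv hh0
      have hu_ge : R v * (1 - h * Al) ≤ R u := by nlinarith
      have hx0 : 0 ≤ h * Al := mul_nonneg hh0 hAl0
      have hpos1 : 0 < 1 - h * Al := by linarith
      have hupos : 0 < R u := lt_of_lt_of_le (mul_pos hv hpos1) hu_ge
      refine ⟨hupos, ?_⟩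
      have hlog : Real.log (1 / R u) ≤ Real.log (1 / R v) + 2 * (h * Al) := by
        have h2 : Real.log (1 / R u) ≤ Real.log (1 / (R v * (1 - h * Al))) := by
          apply Real.log_le_log (by positivity)
          apply one_div_le_one_div_of_le (mul_pos hv hpos1) hu_ge
        have h3 : Real.log (1 / (R v * (1 - h * Al))) =
            Real.log (1 / R v) - Real.log (1 - h * Al) := by
          rw [one_div, Real.log_inv, Real.log_mul hv.ne' hpos1.ne', one_div, Real.log_inv]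
          ring
        have h4 := ode_log_one_sub_ge hx0 hhA
        linarith
      have h5 : 2 * (((k + 1 : ℕ) : ℝ) * h) * Al = 2 * ((k : ℝ) * h) * Al + 2 * (h * Al) := by
        push_cast; ring
      linarith
  obtain ⟨h1, h2⟩ := key N le_rfl
  have hba : b - N * h = a := by rw [hNh]; ring
  rw [hba] at h1 h2
  rw [hNh] at h2
  exact ⟨h1, by linarith⟩

/-- The hypotheses of the final argument. `Bnd s B` means that the rate at time `s` is at most `B`. -/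
structure OdeHyp (κ2 : ℤ → ℝ) (r : ℝ → ℝ) (Bnd : ℝ → ℝ → Prop) where
  r0 : ∀ s, 0 ≤ r s
  r1 : ∀ s, r s ≤ 1
  rlim : Tendsto r atBot (𝓝 0)
  mono : ∀ s B B', B ≤ B' → Bnd s B → Bnd s B'
  /-- `κ2 j = κ_j²` is at most `4^j` for `j ≤ 0` and at most `1` otherwise. -/
  κ2nn : ∀ j, 0 ≤ κ2 j
  κ2le : ∀ j, j ≤ 0 → κ2 j ≤ (4 : ℝ) ^ j
  κ2le1 : ∀ j, κ2 j ≤ 1
  Cw : ℝ
  Cw0 : 0 ≤ Cw
  win : ∀ (j : ℤ) (a b B : ℝ), (j : ℝ) ≤ a → a ≤ b → b ≤ j + 1 → (∀ s, a ≤ s → s < b → Bnd s B) →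
    r b ≤ r a + Cw * κ2 j * (b - a) * B
  j0 : ℤ
  j0le : j0 ≤ 0
  /-- Large times: a sublinear rate, with a constant depending on the block. -/
  big : ∀ j : ℤ, j0 ≤ j → ∃ K : ℝ, 0 ≤ K ∧ ∀ s, (j : ℝ) ≤ s → s < j + 1 → ∀ rbar, r s ≤ rbar → 0 < rbar → rbar ≤ 1 →
    Bnd s (K * rbar * √(1 + Real.log (1 / rbar)))
  /-- The rate at all scales for small times. -/
  KC : ℝ
  c2 : ℝ
  c3 : ℝ
  KC0 : 0 ≤ KC
  c20 : 0 < c2
  c3b : 1 ≤ c3
  /-- The exponent of the rate is at most `1 / 2` from `j0` down (Osgood condition). -/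
  c2j0 : c2 * (2 : ℝ) ^ j0 ≤ 1 / 2
  sc : ∀ j : ℤ, j < j0 → ∀ s, (j : ℝ) ≤ s → s < j + 1 → ∀ rbar, r s ≤ rbar → 0 < rbar → rbar ≤ 1 →
    Bnd s (KC * rbar * ((8 : ℝ) ^ (-j) *
      Real.exp (c2 * (2 : ℝ) ^ j * Real.log (c3 * (1 + Real.log (1 / rbar)) * (2 : ℝ) ^ (-j)))))
  /-- The rate with the decorrelation gain. -/
  KD : ℝ
  c5 : ℝ
  KD0 : 0 ≤ KD
  c50 : 0 < c5
  sd : ∀ j : ℤ, j < j0 → ∀ s, (j : ℝ) ≤ s → s < j + 1 → ∀ rbar, r s ≤ rbar → 0 < rbar → rbar ≤ 1 →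
    ∀ Q : ℕ, c5 ≤ (2 : ℝ) ^ j * Q →
    Bnd s (KD * (rbar * (Q : ℝ) ^ 2 + Real.exp (- (Q : ℝ) / 2) + (2 : ℝ) ^ j * rbar *
      Real.exp (c2 * (2 : ℝ) ^ j * Real.log (c3 * (1 + Real.log (1 / rbar)) * (2 : ℝ) ^ (-j)))))
  /-- The rate with the decorrelation gain and the smallness of the magnetisation. For every power `p`. -/
  sm : ∀ p : ℕ, ∃ (K : ℝ) (j3 : ℤ), 0 ≤ K ∧ j3 ≤ j0 ∧ ∀ j : ℤ, j < j3 → ∀ s, (j : ℝ) ≤ s → s < j + 1 →
    ∀ rbar, r s ≤ rbar → 0 < rbar → rbar ≤ 1 → Real.log (1 / rbar) ≤ (2 : ℝ) ^ (-j) →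
    Bnd s (K * (4 : ℝ) ^ (-j) * ((√2) ^ j * rbar + (2 : ℝ) ^ ((p : ℤ) * j)))

section Aux

variable {κ2 : ℤ → ℝ} {r : ℝ → ℝ} {Bnd : ℝ → ℝ → Prop}

/-- The running supremum. -/
noncomputable def odeR (r : ℝ → ℝ) (T : ℝ) : ℝ := sSup (r '' Set.Iic T)

theorem odeR_bdd (H : OdeHyp κ2 r Bnd) (T : ℝ) : BddAbove (r '' Set.Iic T) := by
  refine ⟨1, ?_⟩
  rintro _ ⟨s, _, rfl⟩
  exact H.r1 s

theorem le_odeR (H : OdeHyp κ2 r Bnd) {s T : ℝ} (h : s ≤ T) : r s ≤ odeR r T :=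
  le_csSup (odeR_bdd H T) ⟨s, h, rfl⟩

theorem odeR_mono (H : OdeHyp κ2 r Bnd) {S T : ℝ} (h : S ≤ T) : odeR r S ≤ odeR r T := by
  apply csSup_le (Set.Nonempty.image r ⟨S, Set.mem_Iic.mpr le_rfl⟩)
  rintro _ ⟨s, hs, rfl⟩
  exact le_odeR H (le_trans hs h)

theorem odeR_le_one (H : OdeHyp κ2 r Bnd) (T : ℝ) : odeR r T ≤ 1 := by
  apply csSup_le (Set.Nonempty.image r ⟨T, Set.mem_Iic.mpr le_rfl⟩)
  rintro _ ⟨s, _, rfl⟩
  exact H.r1 s

theorem odeR_nonneg (H : OdeHyp κ2 r Bnd) (T : ℝ) : 0 ≤ odeR r T :=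
  le_trans (H.r0 T) (le_odeR H le_rfl)

theorem odeR_log_nonneg (H : OdeHyp κ2 r Bnd) {T : ℝ} (hT : 0 < odeR r T) :
    0 ≤ Real.log (1 / odeR r T) := by
  apply Real.log_nonneg
  rw [le_div_iff₀ hT]
  linarith [odeR_le_one H T]

/-- The window inequality for the running supremum. -/
theorem odeR_step (H : OdeHyp κ2 r Bnd) {j : ℤ} {u v B : ℝ} (hju : (j : ℝ) ≤ u) (huv : u ≤ v)
    (hvj : v ≤ j + 1) (hB0 : 0 ≤ B) (hB : ∀ s, u ≤ s → s < v → Bnd s B) :
    odeR r v ≤ odeR r u + H.Cw * κ2 j * (v - u) * B := by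
  have hC : 0 ≤ H.Cw * κ2 j := mul_nonneg H.Cw0 (H.κ2nn j)
  have hrhs : 0 ≤ H.Cw * κ2 j * (v - u) * B :=
    mul_nonneg (mul_nonneg hC (by linarith)) hB0
  apply csSup_le (Set.Nonempty.image r ⟨v, Set.mem_Iic.mpr le_rfl⟩)
  rintro _ ⟨x, hx, rfl⟩
  have hx' : x ≤ v := hx
  by_cases hxu : x ≤ u
  · have := le_odeR H hxu
    linarith
  · rw [not_le] at hxu
    have hw := H.win j u x B hju hxu.le (by linarith) (fun s hs hsx => hB s hs (by linarith))
    have h1 : r u ≤ odeR r u := le_odeR H le_rfl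
    have h2 : H.Cw * κ2 j * (x - u) * B ≤ H.Cw * κ2 j * (v - u) * B := by
      apply mul_le_mul_of_nonneg_right _ hB0
      apply mul_le_mul_of_nonneg_left _ hC
      linarith
    linarith

/-- The barrier lemma for the running supremum on a block. -/
theorem odeR_barrier (H : OdeHyp κ2 r Bnd) (j : ℤ) {A : ℝ → ℝ} (hA : Monotone A) (hA0 : ∀ l, 0 ≤ A l)
    (hpos : 0 < odeR r ((j : ℝ) + 1))
    (hstep : ∀ u v, (j : ℝ) ≤ u → u ≤ v → v ≤ (j : ℝ) + 1 → 0 < odeR r v →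
      odeR r v ≤ odeR r u + (v - u) * (odeR r v * A (Real.log (1 / odeR r v))))
    {lmax : ℝ} (hl : Real.log (1 / odeR r ((j : ℝ) + 1)) + 2 * A lmax ≤ lmax) :
    0 < odeR r (j : ℝ) ∧ Real.log (1 / odeR r (j : ℝ)) ≤ lmax := by
  refine barrier (a := (j : ℝ)) (b := (j : ℝ) + 1) (by linarith)
    (fun u v _ huv _ => odeR_mono H huv) (odeR_nonneg H _) hpos (odeR_le_one H _) hA hA0 ?_ ?_
  · intro u v hu huv hv
    rcases (odeR_nonneg H v).lt_or_eq with hp | hp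
    · exact hstep u v hu huv hv hp
    · rw [← hp]
      simp only [zero_mul, mul_zero, add_zero]
      exact odeR_nonneg H u
  · have : (j : ℝ) + 1 - (j : ℝ) = 1 := by ring
    rw [this]
    linarith

/-- A large block: positivity propagates downward. -/
theorem odeR_big_step (H : OdeHyp κ2 r Bnd) (j : ℤ) (hj : H.j0 ≤ j)
    (hpos : 0 < odeR r ((j : ℝ) + 1)) : 0 < odeR r (j : ℝ) := by
  obtain ⟨K, hK0, hK⟩ := H.big j hj
  set C := H.Cw * κ2 j * K with hC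
  have hC0 : 0 ≤ C := mul_nonneg (mul_nonneg H.Cw0 (H.κ2nn j)) hK0
  let A : ℝ → ℝ := fun l => C * √(1 + max l 0)
  have hA : Monotone A := by
    intro a b hab
    apply mul_le_mul_of_nonneg_left _ hC0
    apply Real.sqrt_le_sqrt
    have := max_le_max_right (0 : ℝ) hab
    linarith
  have hA0 : ∀ l, 0 ≤ A l := fun l => mul_nonneg hC0 (Real.sqrt_nonneg _)
  set L := Real.log (1 / odeR r ((j : ℝ) + 1)) with hL
  have hL0 : 0 ≤ L := odeR_log_nonneg H hpos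
  have hstep : ∀ u v, (j : ℝ) ≤ u → u ≤ v → v ≤ (j : ℝ) + 1 → 0 < odeR r v →
      odeR r v ≤ odeR r u + (v - u) * (odeR r v * A (Real.log (1 / odeR r v))) := by
    intro u v hu huv hv hp
    set rb := odeR r v with hrb
    have hl0 : 0 ≤ Real.log (1 / rb) := odeR_log_nonneg H hp
    have hB0 : 0 ≤ K * rb * √(1 + Real.log (1 / rb)) :=
      mul_nonneg (mul_nonneg hK0 hp.le) (Real.sqrt_nonneg _)
    have := odeR_step H hu huv hv hB0 (fun s hs hsv =>
      hK s (by linarith) (by linarith) rb (le_odeR H hsv.le) hp (odeR_le_one H v))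
    have hA' : A (Real.log (1 / rb)) = C * √(1 + Real.log (1 / rb)) := by
      simp only [A, max_eq_left hl0]
    rw [hA']
    have e : H.Cw * κ2 j * (v - u) * (K * rb * √(1 + Real.log (1 / rb))) =
        (v - u) * (rb * (C * √(1 + Real.log (1 / rb)))) := by rw [hC]; ring
    linarith
  set m := 2 * L + 4 * C ^ 2 + 1 with hm
  have hm0 : 0 ≤ m := by positivity
  have hl : L + 2 * A m ≤ m := by
    have hAm : A m = C * √(1 + m) := by simp only [A, max_eq_left hm0]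
    rw [hAm]
    set s := √(1 + m) with hs
    have hs2 : s ^ 2 = 1 + m := Real.sq_sqrt (by linarith)
    nlinarith [sq_nonneg (2 * C - s)]
  exact (odeR_barrier H j hA hA0 hpos hstep hl).1

/-- Positivity at `j0`. -/
theorem odeR_j0_pos (H : OdeHyp κ2 r Bnd) {T : ℝ} (hT : 0 < r T) : 0 < odeR r (H.j0 : ℝ) := by
  set n : ℤ := max ⌈T⌉ H.j0 with hn
  have hTn : T ≤ (n : ℝ) := by
    have h1 : T ≤ (⌈T⌉ : ℝ) := Int.le_ceil T
    have h2 : (⌈T⌉ : ℝ) ≤ (n : ℝ) := by exact_mod_cast le_max_left _ _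
    linarith
  have hn0 : 0 < odeR r (n : ℝ) := lt_of_lt_of_le hT (le_odeR H hTn)
  have key : ∀ k : ℕ, H.j0 ≤ n - k → 0 < odeR r ((n - k : ℤ) : ℝ) := by
    intro k
    induction k with
    | zero =>
      intro _
      simpa using hn0
    | succ k ih =>
      intro hk
      push_cast at hk
      have h1 : H.j0 ≤ n - (k : ℤ) := by linarith
      have h2 := ih h1
      have h3 : (((n - ((k + 1 : ℕ) : ℤ) : ℤ) : ℝ)) + 1 = ((n - k : ℤ) : ℝ) := by
        push_cast; ring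
      have := odeR_big_step H (n - ((k + 1 : ℕ) : ℤ)) (by push_cast; linarith) (by rw [h3]; exact h2)
      exact this
  have hk : n - ((n - H.j0).toNat : ℤ) = H.j0 := by
    have : 0 ≤ n - H.j0 := by
      have := le_max_right ⌈T⌉ H.j0
      omega
    rw [Int.toNat_of_nonneg this]
    ring
  have := key (n - H.j0).toNat (by rw [hk])
  rwa [hk] at this


/-- The exponential factor in the rates. -/
noncomputable def odeE (H : OdeHyp κ2 r Bnd) (j : ℤ) (l : ℝ) : ℝ :=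
  Real.exp (H.c2 * (2 : ℝ) ^ j * Real.log (H.c3 * (1 + l) * (2 : ℝ) ^ (-j)))

theorem ode_x_ge (j : ℤ) (hj : j ≤ 0) : (1 : ℝ) ≤ (2 : ℝ) ^ (-j) :=
  one_le_zpow₀ (by norm_num) (by omega)

theorem ode_y_pos (j : ℤ) : (0 : ℝ) < (2 : ℝ) ^ j := by positivity

theorem ode_y_le (j : ℤ) (hj : j ≤ 0) : (2 : ℝ) ^ j ≤ 1 :=
  zpow_le_one_of_nonpos₀ (by norm_num) hj

theorem ode_xy (j : ℤ) : (2 : ℝ) ^ j * (2 : ℝ) ^ (-j) = 1 := by
  rw [zpow_neg]
  exact mul_inv_cancel₀ (by positivity)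

theorem ode_four_eight (j : ℤ) : (4 : ℝ) ^ j * (8 : ℝ) ^ (-j) = (2 : ℝ) ^ (-j) := by
  have h4 : (4 : ℝ) = (2 : ℝ) ^ (2 : ℤ) := by norm_num
  have h8 : (8 : ℝ) = (2 : ℝ) ^ (3 : ℤ) := by norm_num
  rw [h4, h8, ← zpow_mul, ← zpow_mul, ← zpow_add₀ (by norm_num)]
  congr 1
  ring

theorem ode_four (j : ℤ) : (4 : ℝ) ^ j = ((2 : ℝ) ^ j) ^ 2 := by
  have h4 : (4 : ℝ) = (2 : ℝ) ^ (2 : ℤ) := by norm_num
  rw [h4, ← zpow_mul, ← zpow_natCast, ← zpow_mul]
  congr 1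
  push_cast
  ring

theorem ode_x_succ (j : ℤ) : (2 : ℝ) ^ (-(j + 1)) = (2 : ℝ) ^ (-j) / 2 := by
  rw [neg_add, zpow_add₀ (by norm_num), zpow_neg_one]
  ring

theorem odeE_mono (H : OdeHyp κ2 r Bnd) {j : ℤ} (hj : j ≤ 0) {l l' : ℝ} (hl : 0 ≤ l) (hll : l ≤ l') :
    odeE H j l ≤ odeE H j l' := by
  have hc3 : 0 < H.c3 := by linarith [H.c3b]
  have hx : 0 < (2 : ℝ) ^ (-j) := by positivity
  apply Real.exp_le_exp.mpr
  apply mul_le_mul_of_nonneg_left _ (mul_nonneg H.c20.le (ode_y_pos j).le)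
  apply Real.log_le_log (by positivity)
  apply mul_le_mul_of_nonneg_right _ hx.le
  apply mul_le_mul_of_nonneg_left _ hc3.le
  linarith

/-- The key bound on the exponential factor. -/
theorem odeE_bound (H : OdeHyp κ2 r Bnd) {j : ℤ} (hj : j ≤ H.j0) {l K : ℝ} (hl0 : 0 ≤ l) (hK0 : 0 ≤ K)
    (hl : l ≤ K * (2 : ℝ) ^ (-j)) :
    odeE H j l ≤ Real.exp (H.c2 * (Real.log H.c3 + 2)) * √(1 + K) := by
  have hj0 : j ≤ 0 := le_trans hj H.j0le
  have hx1 := ode_x_ge j hj0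
  have hy0 := ode_y_pos j
  have hy1 := ode_y_le j hj0
  have hxy := ode_xy j
  set x := (2 : ℝ) ^ (-j) with hx
  set y := (2 : ℝ) ^ j with hy
  have hx0 : 0 < x := by linarith
  have hc3 : 0 < H.c3 := by linarith [H.c3b]
  have hlc3 : 0 ≤ Real.log H.c3 := Real.log_nonneg H.c3b
  have hc2 := H.c20
  have hc2y : H.c2 * y ≤ 1 / 2 := by
    have : y ≤ (2 : ℝ) ^ H.j0 := zpow_le_zpow_right₀ (by norm_num) hj
    have h2 := mul_le_mul_of_nonneg_left this hc2.le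
    linarith [H.c2j0]
  have h1K : 0 < 1 + K := by linarith
  have harg : H.c3 * (1 + l) * x ≤ H.c3 * ((1 + K) * x) * x := by
    apply mul_le_mul_of_nonneg_right _ hx0.le
    apply mul_le_mul_of_nonneg_left _ hc3.le
    nlinarith
  have hlog1 : Real.log (H.c3 * (1 + l) * x) ≤ Real.log H.c3 + Real.log (1 + K) + 2 * Real.log x := by
    have h1 := Real.log_le_log (by positivity) harg
    have h2 : Real.log (H.c3 * ((1 + K) * x) * x) = Real.log H.c3 + Real.log (1 + K) + 2 * Real.log x := by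
      rw [Real.log_mul (by positivity) hx0.ne', Real.log_mul hc3.ne' (by positivity),
        Real.log_mul h1K.ne' hx0.ne']
      ring
    linarith
  have hlogx : y * Real.log x ≤ 1 := by
    have h1 : Real.log x ≤ x := by
      have := Real.log_le_sub_one_of_pos hx0
      linarith
    have h2 := mul_le_mul_of_nonneg_left h1 hy0.le
    linarith
  have hlog1K : 0 ≤ Real.log (1 + K) := Real.log_nonneg (by linarith)
  have hexp : H.c2 * y * Real.log (H.c3 * (1 + l) * x) ≤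
      H.c2 * (Real.log H.c3 + 2) + Real.log (1 + K) / 2 := by
    have h0 : 0 ≤ H.c2 * y := by positivity
    have h1 := mul_le_mul_of_nonneg_left hlog1 h0
    have h2 : H.c2 * y * Real.log H.c3 ≤ H.c2 * Real.log H.c3 := by
      have : y * Real.log H.c3 ≤ 1 * Real.log H.c3 := mul_le_mul_of_nonneg_right hy1 hlc3
      nlinarith
    have h3 : H.c2 * y * Real.log (1 + K) ≤ 1 / 2 * Real.log (1 + K) :=
      mul_le_mul_of_nonneg_right hc2y hlog1K
    have h4 : H.c2 * y * (2 * Real.log x) ≤ H.c2 * 2 := by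
      have := mul_le_mul_of_nonneg_left hlogx hc2.le
      nlinarith
    nlinarith
  have hsq : Real.exp (Real.log (1 + K) / 2) = √(1 + K) := by
    rw [← Real.log_sqrt h1K.le, Real.exp_log (Real.sqrt_pos.mpr h1K)]
  unfold odeE
  calc Real.exp (H.c2 * y * Real.log (H.c3 * (1 + l) * x))
      ≤ Real.exp (H.c2 * (Real.log H.c3 + 2) + Real.log (1 + K) / 2) := Real.exp_le_exp.mpr hexp
    _ = Real.exp (H.c2 * (Real.log H.c3 + 2)) * √(1 + K) := by rw [Real.exp_add, hsq]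

/-- Downward induction on the integers. -/
theorem ode_int_down {P : ℤ → Prop} {n : ℤ} (h0 : P n) (hs : ∀ j, j < n → P (j + 1) → P j) :
    ∀ j, j ≤ n → P j := by
  intro j hj
  obtain ⟨k, rfl⟩ : ∃ k : ℕ, j = n - k := ⟨(n - j).toNat, by omega⟩
  clear hj
  induction k with
  | zero => simpa using h0
  | succ k ih =>
    have h1 : n - ((k + 1 : ℕ) : ℤ) + 1 = n - k := by push_cast; ring
    apply hs _ (by push_cast; omega)
    rw [h1]
    exact ih

/-- The first stage, one block. -/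
theorem odeR_sc_step (H : OdeHyp κ2 r Bnd) (j : ℤ) (hj : j < H.j0) {K : ℝ} (hK0 : 0 ≤ K)
    (hK : 4 * (H.Cw * H.KC) * Real.exp (H.c2 * (Real.log H.c3 + 2)) * √(1 + K) ≤ K)
    (hpos : 0 < odeR r ((j : ℝ) + 1))
    (hl : Real.log (1 / odeR r ((j : ℝ) + 1)) ≤ K * (2 : ℝ) ^ (-(j + 1))) :
    0 < odeR r (j : ℝ) ∧ Real.log (1 / odeR r (j : ℝ)) ≤ K * (2 : ℝ) ^ (-j) := by
  have hj0 : j ≤ 0 := by linarith [H.j0le]
  have hx1 := ode_x_ge j hj0
  set x := (2 : ℝ) ^ (-j) with hx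
  have hx0 : 0 < x := by linarith
  set C := H.Cw * H.KC with hC
  have hC0 : 0 ≤ C := mul_nonneg H.Cw0 H.KC0
  let A : ℝ → ℝ := fun l => C * x * odeE H j (max l 0)
  have hA : Monotone A := by
    intro a b hab
    apply mul_le_mul_of_nonneg_left _ (by positivity)
    exact odeE_mono H hj0 (le_max_right _ _) (max_le_max_right 0 hab)
  have hA0 : ∀ l, 0 ≤ A l := fun l => mul_nonneg (by positivity) (Real.exp_pos _).le
  have hstep : ∀ u v, (j : ℝ) ≤ u → u ≤ v → v ≤ (j : ℝ) + 1 → 0 < odeR r v →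
      odeR r v ≤ odeR r u + (v - u) * (odeR r v * A (Real.log (1 / odeR r v))) := by
    intro u v hu huv hv hp
    set rb := odeR r v with hrb
    have hl0 : 0 ≤ Real.log (1 / rb) := odeR_log_nonneg H hp
    have hE0 : 0 ≤ odeE H j (Real.log (1 / rb)) := (Real.exp_pos _).le
    have h8 : (0 : ℝ) ≤ (8 : ℝ) ^ (-j) := by positivity
    have hB0 : 0 ≤ H.KC * rb * ((8 : ℝ) ^ (-j) * odeE H j (Real.log (1 / rb))) :=
      mul_nonneg (mul_nonneg H.KC0 hp.le) (mul_nonneg h8 hE0)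
    have hs := odeR_step H hu huv hv hB0 (fun s hs hsv =>
      H.sc j hj s (by linarith) (by linarith) rb (le_odeR H hsv.le) hp (odeR_le_one H v))
    have hA' : A (Real.log (1 / rb)) = C * x * odeE H j (Real.log (1 / rb)) := by
      simp only [A, max_eq_left hl0]
    rw [hA']
    have hk : κ2 j * (8 : ℝ) ^ (-j) ≤ x := by
      rw [hx, ← ode_four_eight j]
      exact mul_le_mul_of_nonneg_right (H.κ2le j hj0) h8
    have hvu : 0 ≤ v - u := by linarith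
    have h1 : H.Cw * κ2 j * (v - u) * (H.KC * rb * ((8 : ℝ) ^ (-j) * odeE H j (Real.log (1 / rb)))) =
        ((v - u) * (rb * (C * odeE H j (Real.log (1 / rb))))) * (κ2 j * (8 : ℝ) ^ (-j)) := by
      rw [hC]; ring
    have h2 : (v - u) * (rb * (C * x * odeE H j (Real.log (1 / rb)))) =
        ((v - u) * (rb * (C * odeE H j (Real.log (1 / rb))))) * x := by ring
    have h3 : 0 ≤ (v - u) * (rb * (C * odeE H j (Real.log (1 / rb)))) := by positivity
    have h4 := mul_le_mul_of_nonneg_left hk h3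
    linarith
  have hlmax : Real.log (1 / odeR r ((j : ℝ) + 1)) + 2 * A (K * x) ≤ K * x := by
    have h1 : K * (2 : ℝ) ^ (-(j + 1)) = K * x / 2 := by rw [ode_x_succ]; ring
    rw [h1] at hl
    have h2 : A (K * x) = C * x * odeE H j (K * x) := by
      simp only [A, max_eq_left (mul_nonneg hK0 hx0.le)]
    have h3 := odeE_bound H hj.le (mul_nonneg hK0 hx0.le) hK0 le_rfl
    have h4 : C * x * odeE H j (K * x) ≤
        C * x * (Real.exp (H.c2 * (Real.log H.c3 + 2)) * √(1 + K)) :=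
      mul_le_mul_of_nonneg_left h3 (by positivity)
    have h5 : 2 * (C * x * (Real.exp (H.c2 * (Real.log H.c3 + 2)) * √(1 + K))) =
        (4 * C * Real.exp (H.c2 * (Real.log H.c3 + 2)) * √(1 + K)) * (x / 2) := by ring
    have h6 := mul_le_mul_of_nonneg_right hK (by positivity : 0 ≤ x / 2)
    rw [h2]
    nlinarith
  exact odeR_barrier H j hA hA0 hpos hstep hlmax

/-- The first stage. -/
theorem odeR_stage1 (H : OdeHyp κ2 r Bnd) {T : ℝ} (hT : 0 < r T) :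
    ∃ K : ℝ, 0 < K ∧ ∀ j : ℤ, j ≤ H.j0 → 0 < odeR r (j : ℝ) ∧
      Real.log (1 / odeR r (j : ℝ)) ≤ K * (2 : ℝ) ^ (-j) := by
  have hpos0 := odeR_j0_pos H hT
  set L0 := Real.log (1 / odeR r (H.j0 : ℝ)) with hL0
  have hL00 : 0 ≤ L0 := odeR_log_nonneg H hpos0
  set D := 4 * (H.Cw * H.KC) * Real.exp (H.c2 * (Real.log H.c3 + 2)) with hD
  have hD0 : 0 ≤ D :=
    mul_nonneg (mul_nonneg (by norm_num) (mul_nonneg H.Cw0 H.KC0)) (Real.exp_pos _).le
  set K := 1 + 2 * D ^ 2 + L0 with hK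
  have hK1 : 1 ≤ K := by nlinarith [sq_nonneg D]
  have hK2 : 2 * D ^ 2 ≤ K := by linarith
  have hKs : D * √(1 + K) ≤ K := by
    set s := √(1 + K) with hs
    have hs0 : 0 ≤ s := Real.sqrt_nonneg _
    have hs2 : s ^ 2 = 1 + K := Real.sq_sqrt (by linarith)
    have h1 : (D * s) ^ 2 ≤ K ^ 2 := by
      have : (D * s) ^ 2 = D ^ 2 * (1 + K) := by rw [mul_pow, hs2]
      rw [this]
      nlinarith [sq_nonneg D]
    exact (pow_le_pow_iff_left₀ (by positivity) (by linarith) (by norm_num)).mp h1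
  refine ⟨K, by linarith, ?_⟩
  apply ode_int_down (P := fun j => 0 < odeR r (j : ℝ) ∧
      Real.log (1 / odeR r (j : ℝ)) ≤ K * (2 : ℝ) ^ (-j))
  · refine ⟨hpos0, ?_⟩
    have hx1 := ode_x_ge H.j0 H.j0le
    have : L0 ≤ K := by rw [hK]; nlinarith [sq_nonneg D]
    calc Real.log (1 / odeR r (H.j0 : ℝ)) = L0 := rfl
      _ ≤ K * 1 := by linarith
      _ ≤ K * (2 : ℝ) ^ (-H.j0) := mul_le_mul_of_nonneg_left hx1 (by linarith)
  · intro j hj hP
    obtain ⟨h1, h2⟩ := hP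
    have hc : (((j + 1 : ℤ)) : ℝ) = (j : ℝ) + 1 := by push_cast; ring
    rw [hc] at h1 h2
    exact odeR_sc_step H j hj (by linarith) hKs h1 h2

/-- Algebra for the second stage. -/
theorem ode_sd_alg {κ y Q E E' K : ℝ} (hκ0 : 0 ≤ κ) (hκ : κ ≤ y ^ 2) (hy0 : 0 ≤ y) (hy1 : y ≤ 1)
    (hQ0 : 0 ≤ Q) (hyQ : y * Q ≤ 2 * K + 4) (_hK : 0 ≤ K) (hE0 : 0 ≤ E) (hE : E ≤ E') :
    κ * (Q ^ 2 + 1 + y * E) ≤ (2 * K + 4) ^ 2 + 1 + E' := by
  have hy2 : y ^ 2 ≤ 1 := pow_le_one₀ hy0 hy1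
  have hκ1 : κ ≤ 1 := hκ.trans hy2
  have a : κ * Q ^ 2 ≤ (y * Q) ^ 2 := by
    calc κ * Q ^ 2 ≤ y ^ 2 * Q ^ 2 := mul_le_mul_of_nonneg_right hκ (sq_nonneg Q)
      _ = (y * Q) ^ 2 := by ring
  have b : (y * Q) ^ 2 ≤ (2 * K + 4) ^ 2 := pow_le_pow_left₀ (mul_nonneg hy0 hQ0) hyQ 2
  have c : κ * y ≤ 1 := mul_le_one₀ hκ1 hy0 hy1
  have d : κ * y * E ≤ 1 * E := mul_le_mul_of_nonneg_right c hE0
  have e : κ * (Q ^ 2 + 1 + y * E) = κ * Q ^ 2 + κ + κ * y * E := by ring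
  rw [e]
  linarith

/-- The second stage, one block. -/
theorem odeR_sd_step (H : OdeHyp κ2 r Bnd) (j : ℤ) (hj : j < H.j0) {K : ℝ} (hK0 : 0 ≤ K)
    (hKc : H.c5 ≤ 2 * K + 3) (hpos : 0 < odeR r (j : ℝ))
    (hl : Real.log (1 / odeR r (j : ℝ)) ≤ K * (2 : ℝ) ^ (-j)) :
    Real.log (1 / odeR r (j : ℝ)) ≤ Real.log (1 / odeR r ((j : ℝ) + 1)) +
      2 * (H.Cw * H.KD * ((2 * K + 4) ^ 2 + 1 +
        Real.exp (H.c2 * (Real.log H.c3 + 2)) * √(1 + K))) := by
  have hj0 : j ≤ 0 := by linarith [H.j0le]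
  have hx1 := ode_x_ge j hj0
  have hy0 := ode_y_pos j
  have hy1 := ode_y_le j hj0
  have hxy := ode_xy j
  have h4y := ode_four j
  set x := (2 : ℝ) ^ (-j) with hx
  set y := (2 : ℝ) ^ j with hy
  have hx0 : 0 < x := by linarith
  set E' := Real.exp (H.c2 * (Real.log H.c3 + 2)) * √(1 + K) with hE'
  have hE'0 : 0 ≤ E' := by positivity
  set A2 := H.Cw * H.KD * ((2 * K + 4) ^ 2 + 1 + E') with hA2
  have hA20 : 0 ≤ A2 := mul_nonneg (mul_nonneg H.Cw0 H.KD0) (by positivity)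
  have hpos1 : 0 < odeR r ((j : ℝ) + 1) := lt_of_lt_of_le hpos (odeR_mono H (by linarith))
  have hstep : ∀ u v, (j : ℝ) ≤ u → u ≤ v → v ≤ (j : ℝ) + 1 → 0 < odeR r v →
      odeR r v ≤ odeR r u + (v - u) * (odeR r v * (fun _ : ℝ => A2) (Real.log (1 / odeR r v))) := by
    intro u v hu huv hv hp
    simp only
    set rb := odeR r v with hrb
    have hjv : odeR r (j : ℝ) ≤ rb := odeR_mono H (by linarith)
    have hl0 : 0 ≤ Real.log (1 / rb) := odeR_log_nonneg H hp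
    have hlv : Real.log (1 / rb) ≤ K * x := by
      have h1 : Real.log (1 / rb) ≤ Real.log (1 / odeR r (j : ℝ)) :=
        Real.log_le_log (by positivity) (one_div_le_one_div_of_le hpos hjv)
      linarith
    have hE := odeE_bound H hj.le hl0 hK0 hlv
    have hE0 : 0 ≤ odeE H j (Real.log (1 / rb)) := (Real.exp_pos _).le
    set E := odeE H j (Real.log (1 / rb)) with hEdef
    set Q : ℕ := ⌈(2 * K + 3) * x⌉₊ with hQ
    have hQ1 : (2 * K + 3) * x ≤ Q := Nat.le_ceil _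
    have hQ2 : (Q : ℝ) < (2 * K + 3) * x + 1 := Nat.ceil_lt_add_one (by positivity)
    have hQ3 : (Q : ℝ) ≤ (2 * K + 4) * x := by nlinarith
    have hyQ1 : 2 * K + 3 ≤ y * Q := by
      have := mul_le_mul_of_nonneg_left hQ1 hy0.le
      have e : y * ((2 * K + 3) * x) = 2 * K + 3 := by
        calc y * ((2 * K + 3) * x) = (2 * K + 3) * (y * x) := by ring
          _ = 2 * K + 3 := by rw [hxy]; ring
      linarith
    have hyQ2 : y * Q ≤ 2 * K + 4 := by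
      have := mul_le_mul_of_nonneg_left hQ3 hy0.le
      have e : y * ((2 * K + 4) * x) = 2 * K + 4 := by
        calc y * ((2 * K + 4) * x) = (2 * K + 4) * (y * x) := by ring
          _ = 2 * K + 4 := by rw [hxy]; ring
      linarith
    have hc5 : H.c5 ≤ y * Q := by linarith
    have hexpQ : Real.exp (- (Q : ℝ) / 2) ≤ rb := by
      have h1 : - (Q : ℝ) / 2 ≤ - Real.log (1 / odeR r (j : ℝ)) := by
        have : K * x ≤ (Q : ℝ) / 2 := by nlinarith
        linarith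
      have h2 : Real.exp (- Real.log (1 / odeR r (j : ℝ))) = odeR r (j : ℝ) := by
        rw [one_div, Real.log_inv, neg_neg, Real.exp_log hpos]
      calc Real.exp (- (Q : ℝ) / 2) ≤ Real.exp (- Real.log (1 / odeR r (j : ℝ))) :=
            Real.exp_le_exp.mpr h1
        _ = odeR r (j : ℝ) := h2
        _ ≤ rb := hjv
    have hB0 : 0 ≤ H.KD * (rb * (Q : ℝ) ^ 2 + Real.exp (- (Q : ℝ) / 2) + y * rb * E) :=
      mul_nonneg H.KD0 (by positivity)
    have hs := odeR_step H hu huv hv hB0 (fun s hs hsv =>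
      H.sd j hj s (by linarith) (by linarith) rb (le_odeR H hsv.le) hp (odeR_le_one H v) Q hc5)
    have hvu : 0 ≤ v - u := by linarith
    have hκ := H.κ2nn j
    have hκ4 : κ2 j ≤ y ^ 2 := by rw [← h4y]; exact H.κ2le j hj0
    have hW : κ2 j * ((Q : ℝ) ^ 2 + 1 + y * E) ≤ (2 * K + 4) ^ 2 + 1 + E' :=
      ode_sd_alg hκ hκ4 hy0.le hy1 (by positivity) hyQ2 hK0 hE0 hE
    have hB : H.Cw * κ2 j * (v - u) * (H.KD * (rb * (Q : ℝ) ^ 2 + Real.exp (- (Q : ℝ) / 2) + y * rb * E)) ≤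
        (v - u) * (rb * A2) := by
      have h1 : rb * (Q : ℝ) ^ 2 + Real.exp (- (Q : ℝ) / 2) + y * rb * E ≤
          rb * ((Q : ℝ) ^ 2 + 1 + y * E) := by nlinarith
      have h2 : H.Cw * κ2 j * (v - u) * (H.KD * (rb * (Q : ℝ) ^ 2 + Real.exp (- (Q : ℝ) / 2) + y * rb * E)) ≤
          H.Cw * κ2 j * (v - u) * (H.KD * (rb * ((Q : ℝ) ^ 2 + 1 + y * E))) := by
        apply mul_le_mul_of_nonneg_left _ (mul_nonneg (mul_nonneg H.Cw0 hκ) hvu)
        exact mul_le_mul_of_nonneg_left h1 H.KD0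
      have h3 : H.Cw * κ2 j * (v - u) * (H.KD * (rb * ((Q : ℝ) ^ 2 + 1 + y * E))) =
          ((v - u) * (rb * (H.Cw * H.KD))) * (κ2 j * ((Q : ℝ) ^ 2 + 1 + y * E)) := by ring
      have h4 : (v - u) * (rb * A2) = ((v - u) * (rb * (H.Cw * H.KD))) * ((2 * K + 4) ^ 2 + 1 + E') := by
        rw [hA2]; ring
      have h5 : 0 ≤ (v - u) * (rb * (H.Cw * H.KD)) :=
        mul_nonneg hvu (mul_nonneg hp.le (mul_nonneg H.Cw0 H.KD0))
      have h6 := mul_le_mul_of_nonneg_left hW h5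
      linarith
    linarith
  have := odeR_barrier H j (A := fun _ => A2) monotone_const (fun _ => hA20) hpos1 hstep
    (lmax := Real.log (1 / odeR r ((j : ℝ) + 1)) + 2 * A2) le_rfl
  exact this.2


/-- The third stage, one block. -/
theorem odeR_sm_step (H : OdeHyp κ2 r Bnd) (j : ℤ) {K3 L0 A2 : ℝ} {p : ℕ} (hK3 : 0 ≤ K3)
    (hj : j < H.j0)
    (hsm : ∀ s, (j : ℝ) ≤ s → s < j + 1 → ∀ rbar, r s ≤ rbar → 0 < rbar → rbar ≤ 1 →
      Real.log (1 / rbar) ≤ (2 : ℝ) ^ (-j) →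
      Bnd s (K3 * (4 : ℝ) ^ (-j) * ((√2) ^ j * rbar + (2 : ℝ) ^ ((p : ℤ) * j))))
    (hpos : 0 < odeR r (j : ℝ))
    (hl : Real.log (1 / odeR r (j : ℝ)) ≤ L0 + 2 * A2 * ((H.j0 : ℝ) - j))
    (hl2 : L0 + 2 * A2 * ((H.j0 : ℝ) - j) ≤ (2 : ℝ) ^ (-j))
    (hA2 : 0 ≤ A2) (hp : 2 * A2 + 1 ≤ p * Real.log 2) :
    Real.log (1 / odeR r (j : ℝ)) ≤ Real.log (1 / odeR r ((j : ℝ) + 1)) +
      2 * (H.Cw * K3 * ((√2) ^ j + Real.exp L0 * Real.exp (j : ℝ))) := by
  have hj0le : j < 0 := by linarith [H.j0le]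
  have hjR : (j : ℝ) < 0 := by exact_mod_cast hj0le
  have hj0R : (H.j0 : ℝ) ≤ 0 := by exact_mod_cast H.j0le
  have hs2 : (0 : ℝ) < (√2) ^ j := by positivity
  set A3 := H.Cw * K3 * ((√2) ^ j + Real.exp L0 * Real.exp (j : ℝ)) with hA3
  have hA30 : 0 ≤ A3 := mul_nonneg (mul_nonneg H.Cw0 hK3) (by positivity)
  have hpos1 : 0 < odeR r ((j : ℝ) + 1) := lt_of_lt_of_le hpos (odeR_mono H (by linarith))
  have h2pow : ∀ rb : ℝ, odeR r (j : ℝ) ≤ rb →
      (2 : ℝ) ^ ((p : ℤ) * j) ≤ rb * (Real.exp L0 * Real.exp (j : ℝ)) := by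
    intro rb hrb
    have he : (2 : ℝ) ^ ((p : ℤ) * j) = Real.exp (Real.log 2 * ((p : ℝ) * (j : ℝ))) := by
      rw [Real.exp_mul, Real.exp_log (by norm_num : (0 : ℝ) < 2)]
      have : ((p : ℝ) * (j : ℝ)) = (((p : ℤ) * j : ℤ) : ℝ) := by push_cast; ring
      rw [this, Real.rpow_intCast]
    have hRj : Real.exp (-(L0 + 2 * A2 * ((H.j0 : ℝ) - j))) ≤ odeR r (j : ℝ) := by
      have h1 : Real.exp (- Real.log (1 / odeR r (j : ℝ))) = odeR r (j : ℝ) := by
        rw [one_div, Real.log_inv, neg_neg, Real.exp_log hpos]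
      rw [← h1]
      exact Real.exp_le_exp.mpr (by linarith)
    have hrb' : Real.exp (-(L0 + 2 * A2 * ((H.j0 : ℝ) - j))) ≤ rb := le_trans hRj hrb
    have hrbpos : 0 < rb := lt_of_lt_of_le (Real.exp_pos _) hrb'
    have hexpo : -(L0 + 2 * A2 * ((H.j0 : ℝ) - j)) + (L0 + (j : ℝ)) ≥ Real.log 2 * ((p : ℝ) * (j : ℝ)) := by
      have h1 : (p : ℝ) * Real.log 2 * (j : ℝ) ≤ (2 * A2 + 1) * (j : ℝ) :=
        mul_le_mul_of_nonpos_right hp hjR.le
      have h2 : 0 ≤ -(2 * A2 * (H.j0 : ℝ)) := by nlinarith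
      nlinarith
    rw [he]
    calc Real.exp (Real.log 2 * ((p : ℝ) * (j : ℝ)))
        ≤ Real.exp (-(L0 + 2 * A2 * ((H.j0 : ℝ) - j)) + (L0 + (j : ℝ))) := Real.exp_le_exp.mpr hexpo
      _ = Real.exp (-(L0 + 2 * A2 * ((H.j0 : ℝ) - j))) * (Real.exp L0 * Real.exp (j : ℝ)) := by
          rw [Real.exp_add, Real.exp_add]
      _ ≤ rb * (Real.exp L0 * Real.exp (j : ℝ)) :=
          mul_le_mul_of_nonneg_right hrb' (by positivity)
  have hstep : ∀ u v, (j : ℝ) ≤ u → u ≤ v → v ≤ (j : ℝ) + 1 → 0 < odeR r v →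
      odeR r v ≤ odeR r u + (v - u) * (odeR r v * (fun _ : ℝ => A3) (Real.log (1 / odeR r v))) := by
    intro u v hu huv hv hp'
    simp only
    set rb := odeR r v with hrb
    have hjv : odeR r (j : ℝ) ≤ rb := odeR_mono H (by linarith)
    have hlv : Real.log (1 / rb) ≤ (2 : ℝ) ^ (-j) := by
      have h1 : Real.log (1 / rb) ≤ Real.log (1 / odeR r (j : ℝ)) :=
        Real.log_le_log (by positivity) (one_div_le_one_div_of_le hpos hjv)
      linarith
    have h4 : (0 : ℝ) < (4 : ℝ) ^ (-j) := by positivity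
    have h2p : (0 : ℝ) < (2 : ℝ) ^ ((p : ℤ) * j) := by positivity
    have hB0 : 0 ≤ K3 * (4 : ℝ) ^ (-j) * ((√2) ^ j * rb + (2 : ℝ) ^ ((p : ℤ) * j)) := by positivity
    have hs := odeR_step H hu huv hv hB0 (fun s hs hsv =>
      hsm s (by linarith) (by linarith) rb (le_odeR H hsv.le) hp' (odeR_le_one H v) hlv)
    have hvu : 0 ≤ v - u := by linarith
    have hκ := H.κ2nn j
    have hκ4 : κ2 j * (4 : ℝ) ^ (-j) ≤ 1 := by
      have h1 : (4 : ℝ) ^ j * (4 : ℝ) ^ (-j) = 1 := by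
        rw [zpow_neg]; exact mul_inv_cancel₀ (by positivity)
      rw [← h1]
      exact mul_le_mul_of_nonneg_right (H.κ2le j hj0le.le) h4.le
    have hT := h2pow rb hjv
    have hB : H.Cw * κ2 j * (v - u) * (K3 * (4 : ℝ) ^ (-j) * ((√2) ^ j * rb + (2 : ℝ) ^ ((p : ℤ) * j))) ≤
        (v - u) * (rb * A3) := by
      have h1 : (√2) ^ j * rb + (2 : ℝ) ^ ((p : ℤ) * j) ≤
          rb * ((√2) ^ j + Real.exp L0 * Real.exp (j : ℝ)) := by
        have : rb * ((√2) ^ j + Real.exp L0 * Real.exp (j : ℝ)) =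
            (√2) ^ j * rb + rb * (Real.exp L0 * Real.exp (j : ℝ)) := by ring
        rw [this]; linarith
      have h0 : 0 ≤ H.Cw * K3 * (v - u) := mul_nonneg (mul_nonneg H.Cw0 hK3) hvu
      have h2 : H.Cw * κ2 j * (v - u) * (K3 * (4 : ℝ) ^ (-j) * ((√2) ^ j * rb + (2 : ℝ) ^ ((p : ℤ) * j))) =
          (H.Cw * K3 * (v - u)) * ((κ2 j * (4 : ℝ) ^ (-j)) * ((√2) ^ j * rb + (2 : ℝ) ^ ((p : ℤ) * j))) := by
        ring
      have h3 : (κ2 j * (4 : ℝ) ^ (-j)) * ((√2) ^ j * rb + (2 : ℝ) ^ ((p : ℤ) * j)) ≤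
          1 * (rb * ((√2) ^ j + Real.exp L0 * Real.exp (j : ℝ))) :=
        mul_le_mul hκ4 h1 (by positivity) (by norm_num)
      have h4' := mul_le_mul_of_nonneg_left h3 h0
      have h5 : (v - u) * (rb * A3) = (H.Cw * K3 * (v - u)) *
          (1 * (rb * ((√2) ^ j + Real.exp L0 * Real.exp (j : ℝ)))) := by
        rw [hA3]; ring
      rw [h2, h5]
      exact h4'
    linarith
  have := odeR_barrier H j (A := fun _ => A3) monotone_const (fun _ => hA30) hpos1 hstep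
    (lmax := Real.log (1 / odeR r ((j : ℝ) + 1)) + 2 * A3) le_rfl
  exact this.2

/-- Exponential beats linear. -/
theorem ode_exp_beats (a b : ℝ) : ∃ n₀ : ℕ, ∀ n : ℕ, n₀ ≤ n → a + b * n ≤ (2 : ℝ) ^ n := by
  have h1 := tendsto_pow_const_div_const_pow_of_one_lt 1 (by norm_num : (1 : ℝ) < 2)
  have h2 : Tendsto (fun n : ℕ => (2 : ℝ) ^ n) atTop atTop :=
    tendsto_pow_atTop_atTop_of_one_lt (by norm_num)
  have hc : (0 : ℝ) < 1 / (2 * (|b| + 1)) := by positivity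
  have h1' := h1.eventually (gt_mem_nhds hc)
  have h2' := h2.eventually (eventually_ge_atTop (2 * |a|))
  obtain ⟨n₀, hn₀⟩ := (h1'.and h2').exists_forall_of_atTop
  refine ⟨n₀, fun n hn => ?_⟩
  obtain ⟨h3, h4⟩ := hn₀ n hn
  have hp : (0 : ℝ) < (2 : ℝ) ^ n := by positivity
  have h5 : (n : ℝ) * (2 * (|b| + 1)) ≤ (2 : ℝ) ^ n := by
    rw [pow_one, div_lt_div_iff₀ hp (by positivity)] at h3
    linarith
  have h6 : b * n ≤ (|b| + 1) * n := by
    apply mul_le_mul_of_nonneg_right _ (Nat.cast_nonneg n)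
    linarith [le_abs_self b]
  have h7 : a ≤ |a| := le_abs_self a
  nlinarith

end Aux

/-- Stage 0 and Stage 1: if `r` is positive somewhere then the barrier `log (1 / R) ≤ K 2^(-j)` holds. -/
theorem stage1 {κ2 : ℤ → ℝ} {r : ℝ → ℝ} {Bnd : ℝ → ℝ → Prop} (H : OdeHyp κ2 r Bnd) {T : ℝ} (hT : 0 < r T) :
    ∃ K : ℝ, 0 < K ∧ ∀ j : ℤ, j ≤ H.j0 → 0 < sSup (r '' Set.Iic (j : ℝ)) ∧
      Real.log (1 / sSup (r '' Set.Iic (j : ℝ))) ≤ K * (2 : ℝ) ^ (-j) :=
  odeR_stage1 H hT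

/-- The conclusion. -/
theorem ode_final {κ2 : ℤ → ℝ} {r : ℝ → ℝ} {Bnd : ℝ → ℝ → Prop} (H : OdeHyp κ2 r Bnd) : ∀ s, r s = 0 := by
  intro s0
  by_contra hs0
  have hT : 0 < r s0 := lt_of_le_of_ne (H.r0 s0) (Ne.symm hs0)
  obtain ⟨K, hK0, hK⟩ := odeR_stage1 H hT
  set K2 := max K H.c5 with hK2
  have hK20 : 0 ≤ K2 := le_trans hK0.le (le_max_left _ _)
  have hK2c : H.c5 ≤ 2 * K2 + 3 := by
    have := le_max_right K H.c5
    linarith
  have hlK : ∀ j : ℤ, j ≤ H.j0 → 0 < odeR r (j : ℝ) ∧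
      Real.log (1 / odeR r (j : ℝ)) ≤ K2 * (2 : ℝ) ^ (-j) := by
    intro j hj
    obtain ⟨h1, h2⟩ := hK j hj
    refine ⟨h1, le_trans h2 ?_⟩
    exact mul_le_mul_of_nonneg_right (le_max_left _ _) (by positivity)
  set E' := Real.exp (H.c2 * (Real.log H.c3 + 2)) * √(1 + K2) with hE'
  have hE'0 : 0 ≤ E' := by positivity
  set A2 := H.Cw * H.KD * ((2 * K2 + 4) ^ 2 + 1 + E') with hA2
  have hA20 : 0 ≤ A2 := mul_nonneg (mul_nonneg H.Cw0 H.KD0) (by positivity)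
  set L0 := Real.log (1 / odeR r (H.j0 : ℝ)) with hL0
  have hlin : ∀ j : ℤ, j ≤ H.j0 → Real.log (1 / odeR r (j : ℝ)) ≤ L0 + 2 * A2 * ((H.j0 : ℝ) - j) := by
    apply ode_int_down (P := fun j : ℤ => Real.log (1 / odeR r (j : ℝ)) ≤ L0 + 2 * A2 * ((H.j0 : ℝ) - j))
    · simp [hL0]
    · intro j hj hP
      have hc : (((j + 1 : ℤ)) : ℝ) = (j : ℝ) + 1 := by push_cast; ring
      rw [hc] at hP
      obtain ⟨h1, h2⟩ := hlK j hj.le
      have h3 := odeR_sd_step H j hj hK20 hK2c h1 h2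
      have h4 : 2 * A2 * ((H.j0 : ℝ) - ((j : ℝ) + 1)) + 2 * A2 = 2 * A2 * ((H.j0 : ℝ) - j) := by ring
      linarith
  have hlog2 : 0 < Real.log 2 := Real.log_pos (by norm_num)
  obtain ⟨p, hp⟩ := exists_nat_ge ((2 * A2 + 1) / Real.log 2)
  have hp' : 2 * A2 + 1 ≤ p * Real.log 2 := by
    rwa [div_le_iff₀ hlog2] at hp
  obtain ⟨K3, j3, hK3, hj3, hsm⟩ := H.sm p
  obtain ⟨n₀, hn₀⟩ := ode_exp_beats (L0 + 2 * A2 * (H.j0 : ℝ)) (2 * A2)
  set j4 : ℤ := min j3 (-(n₀ : ℤ)) with hj4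
  have hj4a : j4 ≤ j3 := min_le_left _ _
  have hj4b : j4 ≤ -(n₀ : ℤ) := min_le_right _ _
  have hj4c : j4 ≤ H.j0 := le_trans hj4a hj3
  have hs1 : (1 : ℝ) < √2 := by
    rw [show (1 : ℝ) = √1 by simp]
    exact Real.sqrt_lt_sqrt (by norm_num) (by norm_num)
  have he1 : (1 : ℝ) < Real.exp 1 := by
    have := Real.add_one_lt_exp (by norm_num : (1 : ℝ) ≠ 0)
    linarith
  let g : ℤ → ℝ := fun j => 2 * (H.Cw * K3) *
    ((√2) ^ j / (√2 - 1) + Real.exp L0 * Real.exp (j : ℝ) / (Real.exp 1 - 1))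
  have hg0 : ∀ j, 0 ≤ g j := by
    intro j
    have h1 : 0 < √2 - 1 := by linarith
    have h2 : 0 < Real.exp 1 - 1 := by linarith
    have h3 : 0 ≤ 2 * (H.Cw * K3) := mul_nonneg (by norm_num) (mul_nonneg H.Cw0 hK3)
    exact mul_nonneg h3 (by positivity)
  have hgstep : ∀ j : ℤ, g (j + 1) - g j = 2 * (H.Cw * K3 * ((√2) ^ j + Real.exp L0 * Real.exp (j : ℝ))) := by
    intro j
    have h1 : √2 - 1 ≠ 0 := by
      have : 0 < √2 - 1 := by linarith
      exact this.ne'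
    have h2 : Real.exp 1 - 1 ≠ 0 := by
      have : 0 < Real.exp 1 - 1 := by linarith
      exact this.ne'
    have hs : (√2 : ℝ) ^ (j + 1) = (√2) ^ j * √2 := zpow_add_one₀ (by positivity) j
    have he : Real.exp (((j + 1 : ℤ)) : ℝ) = Real.exp (j : ℝ) * Real.exp 1 := by
      rw [← Real.exp_add]; push_cast; rfl
    simp only [g]
    rw [hs, he]
    field_simp
    ring
  have htel : ∀ j : ℤ, j ≤ j4 → Real.log (1 / odeR r (j : ℝ)) + g j ≤
      Real.log (1 / odeR r (j4 : ℝ)) + g j4 := by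
    apply ode_int_down (P := fun j : ℤ => Real.log (1 / odeR r (j : ℝ)) + g j ≤
      Real.log (1 / odeR r (j4 : ℝ)) + g j4)
    · exact le_rfl
    · intro j hj hP
      have hc : (((j + 1 : ℤ)) : ℝ) = (j : ℝ) + 1 := by push_cast; ring
      rw [hc] at hP
      have hjj0 : j < H.j0 := lt_of_lt_of_le hj hj4c
      obtain ⟨h1, _⟩ := hlK j hjj0.le
      have hj3' : j < j3 := lt_of_lt_of_le hj hj4a
      have hn : n₀ ≤ (-j).toNat := by omega
      have hl2 : L0 + 2 * A2 * ((H.j0 : ℝ) - j) ≤ (2 : ℝ) ^ (-j) := by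
        have h3 := hn₀ (-j).toNat hn
        have h4 : (((-j).toNat : ℕ) : ℝ) = -(j : ℝ) := by
          have : (((-j).toNat : ℕ) : ℤ) = -j := Int.toNat_of_nonneg (by omega)
          have h5 : (((-j).toNat : ℕ) : ℝ) = (((((-j).toNat : ℕ) : ℤ)) : ℝ) := by push_cast; rfl
          rw [h5, this]
          push_cast
          rfl
        have h6 : (2 : ℝ) ^ (-j) = (2 : ℝ) ^ ((-j).toNat) := by
          have : (-j) = (((-j).toNat : ℕ) : ℤ) := (Int.toNat_of_nonneg (by omega)).symm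
          conv_lhs => rw [this]
          exact zpow_natCast _ _
        rw [h6]
        rw [h4] at h3
        have e : L0 + 2 * A2 * ((H.j0 : ℝ) - j) = L0 + 2 * A2 * (H.j0 : ℝ) + 2 * A2 * -(j : ℝ) := by ring
        rw [e]
        exact h3
      have h7 := odeR_sm_step H j hK3 hjj0 (hsm j hj3') h1 (hlin j hjj0.le) hl2 hA20 hp'
      have h8 := hgstep j
      linarith
  set L1 := Real.log (1 / odeR r (j4 : ℝ)) + g j4 with hL1
  have hbd : ∀ j : ℤ, j ≤ j4 → Real.log (1 / odeR r (j : ℝ)) ≤ L1 := by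
    intro j hj
    have := htel j hj
    have := hg0 j
    linarith
  set δ := Real.exp (-L1) / 2 with hδ
  have hδ0 : 0 < δ := by positivity
  have hev := H.rlim.eventually (gt_mem_nhds hδ0)
  obtain ⟨M, hM⟩ := Filter.eventually_atBot.mp hev
  have hRM : odeR r M ≤ δ := by
    apply csSup_le (Set.Nonempty.image r ⟨M, Set.mem_Iic.mpr le_rfl⟩)
    rintro _ ⟨x, hx, rfl⟩
    exact (hM x hx).le
  set j : ℤ := min j4 ⌊M⌋ with hj
  have hjM : (j : ℝ) ≤ M := by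
    have h1 : (j : ℝ) ≤ (⌊M⌋ : ℝ) := by exact_mod_cast min_le_right _ _
    linarith [Int.floor_le M]
  have hj4' : j ≤ j4 := min_le_left _ _
  have hjpos := (hlK j (le_trans hj4' hj4c)).1
  have h9 := hbd j hj4'
  have h10 : Real.exp (-L1) ≤ odeR r (j : ℝ) := by
    have h1 : Real.exp (- Real.log (1 / odeR r (j : ℝ))) = odeR r (j : ℝ) := by
      rw [one_div, Real.log_inv, neg_neg, Real.exp_log hjpos]
    rw [← h1]
    exact Real.exp_le_exp.mpr (by linarith)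
  have h11 : odeR r (j : ℝ) ≤ δ := le_trans (odeR_mono H hjM) hRM
  have h12 : Real.exp (-L1) = 2 * δ := by rw [hδ]; ring
  linarith

end Vale.Agent.Lib.P161B
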