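import Vale.Agent.Lib.P161B.WindowMain
import Vale.Agent.Lib.P161B.Ode

/-!
The law `muS s` of the local field: scales, and all moments of the magnetisation.
-/

namespace Vale.Agent.Lib.P161B

open MeasureTheory ProbabilityTheory Filter Set
open Vale.Agent.Lib.P161
open scoped Topology

variable {d : ℕ} {θ : ℝ} [Corr θ]

/-- Passing an upper bound on integrals of a nonnegative continuous function to the limit cavity law. -/
lemma brX_lim_le (hd : 2 ≤ d) (h1 : θ < 1) {μ : Measure ℝ} (hμ : Nish μ) {G : ℝ → ℝ} (hG : Continuous G)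
    (hG0 : ∀ x, 0 ≤ G x) {B : ℝ} (hB : ∀ n, ∫ h, G h ∂(cavN θ (d - 1) μ n) ≤ B) :
    ∫ h, G h ∂(cavL d (by omega) θ μ) ≤ B := by
  have hν : Nish (cavL d (by omega) θ μ) := cavL_nish hd h1 hμ
  have hν' := hν.prob
  obtain ⟨M, hM⟩ := hν.bdd
  obtain ⟨A, hA⟩ := (isCompact_Icc (a := -M) (b := M)).exists_bound_of_continuousOn hG.continuousOn
  set A' : ℝ := max A 0 with hA'
  have hA'0 : 0 ≤ A' := le_max_right _ _
  set F : ℝ → ℝ := fun x => min (G x) A' with hF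
  have hFc : Continuous F := hG.min continuous_const
  have hFb : ∀ x, |F x| ≤ A' := by
    intro x
    rw [abs_of_nonneg (le_min (hG0 x) hA'0)]
    exact min_le_right _ _
  have hle : ∀ n, ∫ h, F h ∂(cavN θ (d - 1) μ n) ≤ B := by
    intro n
    have hn : Nish (cavN θ (d - 1) μ n) := hμ.cavN (Corr.nonneg (θ := θ)) h1 (d - 1) n
    have hnp := hn.prob
    obtain ⟨M', hM'⟩ := hn.bdd
    obtain ⟨A2, hA2⟩ := (isCompact_Icc (a := -M') (b := M')).exists_bound_of_continuousOn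
      hG.continuousOn
    have hint : Integrable G (cavN θ (d - 1) μ n) := by
      refine Integrable.of_bound hG.measurable.aestronglyMeasurable A2 ?_
      filter_upwards [hM'] with h hh
      exact hA2 h (abs_le.1 hh)
    have hintF : Integrable F (cavN θ (d - 1) μ n) := by
      refine Integrable.of_bound hFc.measurable.aestronglyMeasurable A' ?_
      exact Filter.Eventually.of_forall (fun x => by simpa using hFb x)
    exact (integral_mono hintF hint (fun x => min_le_left _ _)).trans (hB n)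
  have hlim := tendsto_cavN hd h1 hμ hFc hFb
  have hFG : ∫ h, F h ∂(cavL d (by omega) θ μ) ≤ B := le_of_tendsto' hlim hle
  have heq : F =ᵐ[cavL d (by omega) θ μ] G := by
    filter_upwards [hM] with h hh
    have := hA h (abs_le.1 hh)
    have h2 : G h ≤ A' := by
      rw [Real.norm_eq_abs, abs_of_nonneg (hG0 h)] at this
      exact this.trans (le_max_left _ _)
    exact min_eq_left h2
  rwa [integral_congr_ae heq] at hFG

lemma brX_tanh_cont : Continuous Real.tanh := Nish_aux_continuous_tanh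

lemma brX_two_sq (s : ℝ) : ((2 : ℝ) ^ s) ^ 2 = (4 : ℝ) ^ s := by
  rw [← Real.rpow_natCast, ← Real.rpow_mul (by norm_num), mul_comm, Real.rpow_mul (by norm_num)]
  norm_num

lemma brX_tanh_le_of_nonneg {x : ℝ} (hx : 0 ≤ x) : Real.tanh x ≤ x := by
  have hf : ∀ y, HasDerivAt Real.tanh (1 - Real.tanh y ^ 2) y := Nish_aux_hasDerivAt_tanh
  have : Real.tanh x - Real.tanh 0 ≤ 1 * (x - 0) := by
    refine Convex.image_sub_le_mul_sub_of_deriv_le (f := Real.tanh) convex_univ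
      brX_tanh_cont.continuousOn ?_ ?_ 0 (Set.mem_univ _) x (Set.mem_univ _) hx
    · exact fun y _ => (hf y).differentiableAt.differentiableWithinAt
    · intro y _
      rw [(hf y).deriv]
      nlinarith [sq_nonneg (Real.tanh y)]
  simpa using this

lemma brX_tanh_nonneg {x : ℝ} (hx : 0 ≤ x) : 0 ≤ Real.tanh x := by
  rw [Real.tanh_eq_sinh_div_cosh]
  exact div_nonneg (Real.sinh_nonneg_iff.2 hx) (Real.cosh_pos x).le

lemma brX_abs_tanh_le (x : ℝ) : |Real.tanh x| ≤ |x| := by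
  rcases le_total 0 x with hx | hx
  · rw [abs_of_nonneg hx, abs_of_nonneg (brX_tanh_nonneg hx)]
    exact brX_tanh_le_of_nonneg hx
  · have hx' : 0 ≤ -x := by linarith
    have h1 := brX_tanh_le_of_nonneg hx'
    have h2 := brX_tanh_nonneg hx'
    have hneg : Real.tanh (-x) = - Real.tanh x := Real.tanh_neg x
    rw [hneg] at h1 h2
    rw [abs_of_nonpos hx, abs_of_nonpos (by linarith)]
    exact h1

/-- The scale `X` for small times, and the fourth moment. -/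
theorem X_small (hd : 3 ≤ d) (C : Crit (d - 1) θ) :
    ∃ (s0 c C' C4 : ℝ), s0 ≤ 0 ∧ 0 < c ∧ 0 ≤ C' ∧ 0 ≤ C4 ∧ ∀ s : ℝ, s ≤ s0 →
      c * (2 : ℝ) ^ s ≤ Xv d (by omega) θ (muS d θ (by omega) s) ∧
      Xv d (by omega) θ (muS d θ (by omega) s) ≤ C' * (2 : ℝ) ^ s ∧
      ∫ h, Real.tanh h ^ 4 ∂(cavL d (by omega) θ (muS d θ (by omega) s)) ≤
        C4 * Xv d (by omega) θ (muS d θ (by omega) s) ^ 2 := by
  have hd0 : 0 < d := by omega
  have hd2 : 2 ≤ d := by omega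
  have h0 := C.h0
  have h1 := C.h1
  obtain ⟨c0, hc0, hlow, -⟩ := mu_At_low (d := d) h0 h1 hd0
  obtain ⟨tstar, C4, htstar, hC4, hscale⟩ := cav_scale C (4 / c0)
  set t1 : ℝ := min tstar (1 / 8) with ht1
  have ht1pos : 0 < t1 := lt_min htstar (by norm_num)
  refine ⟨min 0 (Real.logb 4 (t1 / 4)), √(c0 / 2), 6, 2 * C4, min_le_left _ _, by positivity,
    by norm_num, by positivity, ?_⟩
  intro s hs
  have hs0 : s ≤ 0 := hs.trans (min_le_left _ _)
  have hs1 : s ≤ Real.logb 4 (t1 / 4) := hs.trans (min_le_right _ _)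
  have h4s : (4 : ℝ) ^ s ≤ t1 / 4 := by
    calc (4 : ℝ) ^ s ≤ (4 : ℝ) ^ (Real.logb 4 (t1 / 4)) :=
          Real.rpow_le_rpow_of_exponent_le (by norm_num) hs1
      _ = t1 / 4 := Real.rpow_logb (by norm_num) (by norm_num) (by positivity)
  have h4pos : 0 < (4 : ℝ) ^ s := by positivity
  set μ := muS d θ hd0 s with hμdef
  have hμ : Nish μ := mu_nish h0 h1 hd0 s
  have hbd : ∀ᵐ h ∂μ, |h| ≤ Mb s := mu_bd hd0 s
  have hAl : c0 * (4 : ℝ) ^ s ≤ At μ := hlow s hs0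
  have hAu : At μ ≤ Mb s ^ 2 := mu_At_up h0 h1 hd0 s
  have hMb0 : 0 ≤ Mb s := Mb_nonneg s
  have hMb : Mb s ≤ 2 * (2 : ℝ) ^ s := Mb_le s hs0
  have hMb2 : Mb s ^ 2 ≤ 4 * (4 : ℝ) ^ s := by
    have := pow_le_pow_left₀ hMb0 hMb 2
    rw [mul_pow, brX_two_sq] at this
    linarith
  have hw2 : Mb s ^ 2 ≤ 4 / c0 * At μ := by
    have : 4 / c0 * (c0 * (4 : ℝ) ^ s) = 4 * (4 : ℝ) ^ s := by field_simp
    have h2 : 4 / c0 * (c0 * (4 : ℝ) ^ s) ≤ 4 / c0 * At μ :=
      mul_le_mul_of_nonneg_left hAl (by positivity)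
    linarith
  have hApos : 0 < At μ := lt_of_lt_of_le (by positivity) hAl
  have hAt1 : At μ ≤ t1 := by linarith
  have hAts : At μ ≤ tstar := hAt1.trans (min_le_left _ _)
  have hAt8 : At μ ≤ 1 / 8 := hAt1.trans (min_le_right _ _)
  have hb := hscale μ (Mb s) hμ hbd hw2 hApos hAts
  have hν : Nish (cavL d (by omega) θ μ) := cavL_nish hd2 h1 hμ
  have hfix := cavL_fix hd2 h1 hμ
  have hlow2 : At μ / 2 ≤ At (cavL d (by omega) θ μ) ^ 2 := At_fix_low C hμ hν hfix hAt8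
  have hX0 : 0 ≤ At (cavL d (by omega) θ μ) := (MomLow_At_bounds hν).1
  have hsqrtA : √(At μ) ≤ 2 * (2 : ℝ) ^ s := by
    rw [Real.sqrt_le_left (by positivity)]
    rw [mul_pow, brX_two_sq]
    linarith
  refine ⟨?_, ?_, ?_⟩
  · show √(c0 / 2) * (2 : ℝ) ^ s ≤ At (cavL d (by omega) θ μ)
    have hsq : (√(c0 / 2) * (2 : ℝ) ^ s) ^ 2 ≤ At (cavL d (by omega) θ μ) ^ 2 := by
      rw [mul_pow, Real.sq_sqrt (by positivity), brX_two_sq]
      nlinarith
    exact (pow_le_pow_iff_left₀ (by positivity) hX0 (by norm_num)).1 hsq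
  · show At (cavL d (by omega) θ μ) ≤ 6 * (2 : ℝ) ^ s
    have hlim := tendsto_cavN hd2 h1 hμ (F := Real.tanh) brX_tanh_cont (B := 1) (fun x => by
      rw [abs_le]
      exact ⟨(Real.neg_one_lt_tanh x).le, (Real.tanh_lt_one x).le⟩)
    have : At (cavL d (by omega) θ μ) ≤ 3 * √(At μ) :=
      le_of_tendsto' hlim (fun n => (hb n).1)
    linarith
  · show ∫ h, Real.tanh h ^ 4 ∂(cavL d (by omega) θ μ) ≤ 2 * C4 * At (cavL d (by omega) θ μ) ^ 2
    have hm4 : ∫ h, Real.tanh h ^ 4 ∂(cavL d (by omega) θ μ) ≤ C4 * At μ := by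
      refine brX_lim_le hd2 h1 hμ (G := fun h => Real.tanh h ^ 4) (brX_tanh_cont.pow 4)
        (fun x => by positivity) (fun n => ?_)
      have hn : Nish (cavN θ (d - 1) μ n) := hμ.cavN h0.le h1 (d - 1) n
      have hnp := hn.prob
      refine le_trans ?_ (hb n).2
      refine integral_mono ?_ (Nish.intPow hn 4) ?_
      · refine Integrable.of_bound (brX_tanh_cont.pow 4).measurable.aestronglyMeasurable 1 ?_
        refine Filter.Eventually.of_forall (fun x => ?_)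
        have ht := abs_le.2 ⟨(Real.neg_one_lt_tanh x).le, (Real.tanh_lt_one x).le⟩
        rw [Real.norm_eq_abs, abs_pow]
        exact pow_le_one₀ (abs_nonneg _) ht
      · intro x
        have := pow_le_pow_left₀ (abs_nonneg _) (brX_abs_tanh_le x) 4
        simpa [Even.pow_abs (show Even 4 by norm_num)] using this
    have : C4 * At μ ≤ 2 * C4 * At (cavL d (by omega) θ μ) ^ 2 := by nlinarith
    linarith

/-- The scale `X` is bounded below on each half line. -/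
theorem X_large (hd : 3 ≤ d) (C : Crit (d - 1) θ) (j : ℤ) :
    ∃ x : ℝ, 0 < x ∧ ∀ s : ℝ, (j : ℝ) ≤ s →
      x ≤ Xv d (by omega) θ (muS d θ (by omega) s) ∧ Xv d (by omega) θ (muS d θ (by omega) s) ≤ 1 := by
  have hd0 : 0 < d := by omega
  have hd2 : 2 ≤ d := by omega
  have h0 := C.h0
  have h1 := C.h1
  obtain ⟨c0, hc0, hlow, hhigh⟩ := mu_At_low (d := d) h0 h1 hd0
  set tj : ℝ := c0 * min 1 ((4 : ℝ) ^ (j : ℝ)) with htj
  have htjpos : 0 < tj := mul_pos hc0 (lt_min one_pos (by positivity))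
  refine ⟨min (1 / 8) √(tj / 2), lt_min (by norm_num) (Real.sqrt_pos.2 (by positivity)), ?_⟩
  intro s hs
  set μ := muS d θ hd0 s with hμdef
  have hμ : Nish μ := mu_nish h0 h1 hd0 s
  have hν : Nish (cavL d (by omega) θ μ) := cavL_nish hd2 h1 hμ
  have hfix := cavL_fix hd2 h1 hμ
  have hbds := MomLow_At_bounds hν
  have hA : tj ≤ At μ := by
    rcases le_total s 0 with hs0 | hs0
    · have h4 : (4 : ℝ) ^ (j : ℝ) ≤ (4 : ℝ) ^ s := Real.rpow_le_rpow_of_exponent_le (by norm_num) hs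
      have hl := hlow s hs0
      have : min 1 ((4 : ℝ) ^ (j : ℝ)) ≤ (4 : ℝ) ^ s := (min_le_right _ _).trans h4
      exact (mul_le_mul_of_nonneg_left this hc0.le).trans hl
    · have hl := hhigh s hs0
      have : min 1 ((4 : ℝ) ^ (j : ℝ)) ≤ 1 := min_le_left _ _
      nlinarith
  refine ⟨?_, hbds.2⟩
  show min (1 / 8) √(tj / 2) ≤ At (cavL d (by omega) θ μ)
  rcases le_total (At μ) (1 / 8) with h8 | h8
  · have hl := At_fix_low C hμ hν hfix h8
    refine (min_le_right _ _).trans ?_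
    rw [Real.sqrt_le_left hbds.1]
    linarith
  · exact (min_le_left _ _).trans (At_fix_low' C hμ hν hfix h8)

/-- All moments of the magnetisation at small times. -/
theorem m_moment (hd : 3 ≤ d) (C : Crit (d - 1) θ) (p : ℕ) :
    ∃ (s0 K : ℝ), s0 ≤ 0 ∧ 0 ≤ K ∧ ∀ s : ℝ, s ≤ s0 →
      ∫ ω, mm θ root (yS s ω) ^ (2 * p) ∂(PD d θ) ≤ K * ((2 : ℝ) ^ s) ^ p := by
  have hd0 : 0 < d := by omega
  have hd2 : 2 ≤ d := by omega
  have h0 := C.h0
  have h1 := C.h1
  obtain ⟨c0, hc0, hlow, -⟩ := mu_At_low (d := d) h0 h1 hd0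
  obtain ⟨t, Kc, ht, hKc, hcav⟩ := cav_moment_aux C (4 / c0) p
  obtain ⟨t', Cp, ht', hCp, hroot⟩ := root_moment C (4 / c0) d p Kc
  set t1 : ℝ := min t t' with ht1
  have ht1pos : 0 < t1 := lt_min ht ht'
  refine ⟨min 0 (Real.logb 4 (t1 / 4)), Cp * 2 ^ p, min_le_left _ _, by positivity, ?_⟩
  intro s hs
  have hs0 : s ≤ 0 := hs.trans (min_le_left _ _)
  have hs1 : s ≤ Real.logb 4 (t1 / 4) := hs.trans (min_le_right _ _)
  have h4s : (4 : ℝ) ^ s ≤ t1 / 4 := by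
    calc (4 : ℝ) ^ s ≤ (4 : ℝ) ^ (Real.logb 4 (t1 / 4)) :=
          Real.rpow_le_rpow_of_exponent_le (by norm_num) hs1
      _ = t1 / 4 := Real.rpow_logb (by norm_num) (by norm_num) (by positivity)
  have h4pos : 0 < (4 : ℝ) ^ s := by positivity
  set μ := muS d θ hd0 s with hμdef
  have hμ : Nish μ := mu_nish h0 h1 hd0 s
  have hbd : ∀ᵐ h ∂μ, |h| ≤ Mb s := mu_bd hd0 s
  have hAl : c0 * (4 : ℝ) ^ s ≤ At μ := hlow s hs0
  have hAu : At μ ≤ Mb s ^ 2 := mu_At_up h0 h1 hd0 s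
  have hMb0 : 0 ≤ Mb s := Mb_nonneg s
  have hMb : Mb s ≤ 2 * (2 : ℝ) ^ s := Mb_le s hs0
  have hMb2 : Mb s ^ 2 ≤ 4 * (4 : ℝ) ^ s := by
    have := pow_le_pow_left₀ hMb0 hMb 2
    rw [mul_pow, brX_two_sq] at this
    linarith
  have hw2 : Mb s ^ 2 ≤ 4 / c0 * At μ := by
    have : 4 / c0 * (c0 * (4 : ℝ) ^ s) = 4 * (4 : ℝ) ^ s := by field_simp
    have h2 : 4 / c0 * (c0 * (4 : ℝ) ^ s) ≤ 4 / c0 * At μ :=
      mul_le_mul_of_nonneg_left hAl (by positivity)
    linarith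
  have hApos : 0 < At μ := lt_of_lt_of_le (by positivity) hAl
  have hAt1 : At μ ≤ t1 := by linarith
  have hAtt : At μ ≤ t := hAt1.trans (min_le_left _ _)
  have hAtt' : At μ ≤ t' := hAt1.trans (min_le_right _ _)
  have hν : Nish (cavL d (by omega) θ μ) := cavL_nish hd2 h1 hμ
  have hmoms : ∀ q ≤ p, ∫ h, h ^ (2 * q) ∂(cavL d (by omega) θ μ) ≤ Kc q * (√(At μ)) ^ q := by
    intro q hq
    refine brX_lim_le hd2 h1 hμ (G := fun h => h ^ (2 * q)) (continuous_id.pow _)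
      (fun x => by rw [pow_mul]; positivity) (fun n => ?_)
    exact hcav μ (Mb s) hμ hbd hw2 hApos hAtt n q (by omega)
  have hr := hroot μ (cavL d (by omega) θ μ) (Mb s) hμ hν hbd hw2 hApos hAtt' hmoms
  have hmm := integral_mm_sq_le_moment (d := d) h1 hμ p hd2
  have hlaw : ∫ ω, mm θ root (yS s ω) ^ (2 * p) ∂(PD d θ) =
      ∫ y, mm θ root y ^ (2 * p) ∂(LawY d θ μ) := by
    rw [hμdef, ← law_yS hd0 s, integral_map (measurable_yS' s).aemeasurable
      ((measurable_mm θ root).pow_const _).aestronglyMeasurable]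
  rw [hlaw]
  have hsqrtA : √(At μ) ≤ 2 * (2 : ℝ) ^ s := by
    rw [Real.sqrt_le_left (by positivity)]
    rw [mul_pow, brX_two_sq]
    linarith
  have hpow : (√(At μ)) ^ p ≤ 2 ^ p * ((2 : ℝ) ^ s) ^ p := by
    rw [← mul_pow]
    exact pow_le_pow_left₀ (Real.sqrt_nonneg _) hsqrtA p
  calc ∫ y, mm θ root y ^ (2 * p) ∂(LawY d θ μ) ≤ _ := hmm
    _ ≤ Cp * (√(At μ)) ^ p := hr
    _ ≤ Cp * (2 ^ p * ((2 : ℝ) ^ s) ^ p) := mul_le_mul_of_nonneg_left hpow hCp
    _ = Cp * 2 ^ p * ((2 : ℝ) ^ s) ^ p := by ring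

end Vale.Agent.Lib.P161B
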