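import Vale.Agent.Lib.P161B.Space

/-!
The law `muS s` of the local field at time `s`: it is a mixture over the labels of laws of sums of independent
Nishimori variables. Symmetry, support bound, scale bounds and the anti concentration given by the own noise.
-/

namespace Vale.Agent.Lib.P161B

open MeasureTheory ProbabilityTheory Filter Set
open Vale.Agent.Lib.P161
open scoped Topology

/-! ### Continuous test functions are enough -/

lemma BrMu_nish_of_continuous {μ : Measure ℝ} [IsProbabilityMeasure μ] {M : ℝ}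
    (hM : ∀ᵐ h ∂μ, |h| ≤ M)
    (hs : ∀ F : ℝ → ℝ, Continuous F → (∃ C, ∀ x, |F x| ≤ C) →
      ∫ h, F (-h) ∂μ = ∫ h, F h * Real.exp (-2 * h) ∂μ) : Nish μ := by
  have hexp : Integrable (fun h : ℝ => Real.exp (-2 * h)) μ := by
    refine Integrable.of_bound (by fun_prop) (Real.exp (2 * |M|)) ?_
    filter_upwards [hM] with x hx
    rw [Real.norm_eq_abs, abs_of_pos (Real.exp_pos _)]
    apply Real.exp_le_exp.mpr
    have := neg_abs_le x
    have := le_abs_self M
    linarith
  set ρ₁ : Measure ℝ := μ.map (fun h => -h) with hρ₁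
  set ρ₂ : Measure ℝ := μ.withDensity (fun h => ENNReal.ofReal (Real.exp (-2 * h))) with hρ₂
  have h1 : IsProbabilityMeasure ρ₁ := Measure.isProbabilityMeasure_map (by fun_prop)
  have h2 : IsFiniteMeasure ρ₂ := isFiniteMeasure_withDensity_ofReal hexp.hasFiniteIntegral
  have hd : Measurable (fun h : ℝ => ENNReal.ofReal (Real.exp (-2 * h))) := by fun_prop
  have i1 : ∀ F : ℝ → ℝ, ∫ x, F x ∂ρ₁ = ∫ h, F (-h) ∂μ := by
    intro F
    exact (MeasurableEquiv.neg ℝ).measurableEmbedding.integral_map F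
  have i2 : ∀ F : ℝ → ℝ, ∫ x, F x ∂ρ₂ = ∫ h, F h * Real.exp (-2 * h) ∂μ := by
    intro F
    rw [hρ₂, integral_withDensity_eq_integral_toReal_smul hd
      (Filter.Eventually.of_forall fun _ => ENNReal.ofReal_lt_top)]
    apply integral_congr_ae
    filter_upwards with x
    rw [ENNReal.toReal_ofReal (Real.exp_pos _).le, smul_eq_mul, mul_comm]
  have key : ρ₁ = ρ₂ := by
    apply ext_of_forall_integral_eq_of_IsFiniteMeasure
    intro f
    rw [i1, i2]
    exact hs f f.continuous ⟨‖f‖, fun x => f.norm_coe_le_norm x⟩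
  refine ⟨inferInstance, ⟨M, hM⟩, fun F _ => ?_⟩
  rw [← i1, ← i2, key]

/-! ### Sums of independent variables -/

section Sum

set_option linter.unusedSectionVars false

variable {Ω : Type*} [MeasurableSpace Ω] {P : Measure Ω} [IsProbabilityMeasure P]

lemma BrMu_law_add {X Y : Ω → ℝ} (hX : Measurable X) (hY : Measurable Y) (hI : IndepFun X Y P) :
    P.map (fun ω => X ω + Y ω) = cvl (P.map X) (P.map Y) := by
  unfold cvl
  rw [← hI.map_prod_eq_prod_map_map hX.aemeasurable hY.aemeasurable,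
    Measure.map_map (by fun_prop) (hX.prodMk hY)]
  rfl

variable {Y : ℤ → Ω → ℝ}

lemma BrMu_meas_sum (hm : ∀ j, Measurable (Y j)) (S : Finset ℤ) :
    Measurable (fun ω => ∑ j ∈ S, Y j ω) :=
  Finset.measurable_fun_sum S (fun j _ => hm j)

lemma BrMu_meas_sum' (hm : ∀ j, Measurable (Y j)) (S : Finset ℤ) :
    Measurable (∑ j ∈ S, Y j) := by
  have e : (∑ i ∈ S, Y i) = fun ω => ∑ i ∈ S, Y i ω := by
    funext ω
    rw [Finset.sum_apply]
  rw [e]
  exact BrMu_meas_sum hm S

lemma BrMu_nish_finset (hI : iIndepFun Y P) (hm : ∀ j, Measurable (Y j))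
    (hN : ∀ j, Nish (P.map (Y j))) (S : Finset ℤ) :
    Nish (P.map (fun ω => ∑ j ∈ S, Y j ω)) := by
  classical
  induction S using Finset.induction_on with
  | empty =>
    simp only [Finset.sum_empty, Measure.map_const, measure_univ, one_smul]
    exact nish_dirac
  | insert j S hj ih =>
    have hI' := hI.indepFun_finsetSum_of_notMem hm hj
    have e : (fun ω => ∑ i ∈ insert j S, Y i ω) = fun ω => (∑ i ∈ S, Y i) ω + Y j ω := by
      funext ω
      rw [Finset.sum_insert hj, Finset.sum_apply, add_comm]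
    have e' : P.map (∑ i ∈ S, Y i) = P.map (fun ω => ∑ i ∈ S, Y i ω) := by
      congr 1
      funext ω
      rw [Finset.sum_apply]
    have hm' : Measurable (∑ i ∈ S, Y i) := BrMu_meas_sum' hm S
    rw [e, BrMu_law_add hm' (hm j) hI', e']
    exact ih.cvl (hN j)

section tsum

variable {a : ℤ → ℝ}

lemma BrMu_hasSum (ha : Summable a) (hb : ∀ j ω, |Y j ω| ≤ a j) (ω : Ω) :
    HasSum (fun j => Y j ω) (∑' j, Y j ω) :=
  (Summable.of_norm_bounded ha (fun j => by rw [Real.norm_eq_abs]; exact hb j ω)).hasSum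

lemma BrMu_sum_abs (hb : ∀ j ω, |Y j ω| ≤ a j) (ha : Summable a) (ha0 : ∀ j, 0 ≤ a j) (S : Finset ℤ) (ω : Ω) :
    |∑ j ∈ S, Y j ω| ≤ ∑' j, a j := by
  calc |∑ j ∈ S, Y j ω| ≤ ∑ j ∈ S, |Y j ω| := Finset.abs_sum_le_sum_abs _ _
    _ ≤ ∑ j ∈ S, a j := Finset.sum_le_sum (fun j _ => hb j ω)
    _ ≤ ∑' j, a j := ha.sum_le_tsum S (fun j _ => ha0 j)

lemma BrMu_tsum_abs (hb : ∀ j ω, |Y j ω| ≤ a j) (ha : Summable a) (ha0 : ∀ j, 0 ≤ a j) (ω : Ω) :
    |∑' j, Y j ω| ≤ ∑' j, a j := by
  refine le_of_tendsto (BrMu_hasSum ha hb ω).abs ?_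
  exact Filter.Eventually.of_forall (fun S => BrMu_sum_abs hb ha ha0 S ω)

lemma BrMu_tsum_meas (hm : ∀ j, Measurable (Y j)) (ha : Summable a) (hb : ∀ j ω, |Y j ω| ≤ a j) :
    Measurable (fun ω => ∑' j, Y j ω) := by
  refine measurable_of_tendsto_metrizable' (atTop : Filter (Finset ℤ))
    (f := fun S ω => ∑ j ∈ S, Y j ω) (fun S => BrMu_meas_sum hm S) ?_
  rw [tendsto_pi_nhds]
  exact fun ω => BrMu_hasSum ha hb ω

/-- Limits along finite sets, for a continuous bounded function of the sum. -/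
lemma BrMu_tendsto_int (hm : ∀ j, Measurable (Y j)) (ha : Summable a) (ha0 : ∀ j, 0 ≤ a j)
    (hb : ∀ j ω, |Y j ω| ≤ a j) {G : ℝ → ℝ} (hG : Continuous G) {C : ℝ} (hC : ∀ x, |x| ≤ ∑' j, a j → |G x| ≤ C) :
    Tendsto (fun S : Finset ℤ => ∫ ω, G (∑ j ∈ S, Y j ω) ∂P) atTop (𝓝 (∫ ω, G (∑' j, Y j ω) ∂P)) := by
  apply tendsto_integral_filter_of_dominated_convergence (fun _ => C)
  · exact Filter.Eventually.of_forall fun S =>
      (hG.measurable.comp (BrMu_meas_sum hm S)).aestronglyMeasurable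
  · exact Filter.Eventually.of_forall fun S => Filter.Eventually.of_forall fun ω => by
      rw [Real.norm_eq_abs]
      exact hC _ (BrMu_sum_abs hb ha ha0 S ω)
  · exact integrable_const C
  · exact Filter.Eventually.of_forall fun ω =>
      hG.continuousAt.tendsto.comp (BrMu_hasSum ha hb ω)

lemma BrMu_nish_tsum (hI : iIndepFun Y P) (hm : ∀ j, Measurable (Y j))
    (hN : ∀ j, Nish (P.map (Y j))) (ha : Summable a) (ha0 : ∀ j, 0 ≤ a j) (hb : ∀ j ω, |Y j ω| ≤ a j) :
    Nish (P.map (fun ω => ∑' j, Y j ω)) := by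
  have hT := BrMu_tsum_meas hm ha hb
  have := Measure.isProbabilityMeasure_map (μ := P) hT.aemeasurable
  have hs : MeasurableSet {z : ℝ | |z| ≤ ∑' j, a j} :=
    measurableSet_le (by fun_prop) measurable_const
  refine BrMu_nish_of_continuous (M := ∑' j, a j) ?_ ?_
  · rw [ae_map_iff hT.aemeasurable hs]
    exact Filter.Eventually.of_forall (fun ω => BrMu_tsum_abs hb ha ha0 ω)
  · intro F hF ⟨C, hC⟩
    have hm1 : Measurable (fun h => F (-h)) := hF.measurable.comp measurable_neg
    have hm2 : Measurable (fun h => F h * Real.exp (-2 * h)) :=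
      hF.measurable.mul (by fun_prop)
    rw [integral_map hT.aemeasurable hm1.aestronglyMeasurable,
      integral_map hT.aemeasurable hm2.aestronglyMeasurable]
    have t1 := BrMu_tendsto_int (P := P) hm ha ha0 hb (G := fun z => F (-z)) (hF.comp continuous_neg)
      (C := C) (fun x _ => hC _)
    have hC0 : 0 ≤ C := (abs_nonneg _).trans (hC 0)
    have t2 := BrMu_tendsto_int (P := P) hm ha ha0 hb (G := fun z => F z * Real.exp (-2 * z))
      (hF.mul (by fun_prop)) (C := C * Real.exp (2 * ∑' j, a j)) (fun x hx => by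
        rw [abs_mul, abs_of_pos (Real.exp_pos _)]
        apply mul_le_mul (hC _) _ (Real.exp_pos _).le hC0
        apply Real.exp_le_exp.mpr
        have := neg_abs_le x
        linarith)
    refine tendsto_nhds_unique t1 (t2.congr fun S => ?_)
    have hS := BrMu_nish_finset hI hm hN S
    have hSm := BrMu_meas_sum hm S
    have := hS.symm F ⟨hF.measurable, C, hC⟩
    rw [integral_map hSm.aemeasurable hm1.aestronglyMeasurable,
      integral_map hSm.aemeasurable hm2.aestronglyMeasurable] at this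
    exact this.symm

/-- Splitting off the term `j`. -/
lemma BrMu_sum_split (hI : iIndepFun Y P) (hm : ∀ j, Measurable (Y j)) {S : Finset ℤ} {j : ℤ} (hj : j ∈ S) :
    IndepFun (∑ i ∈ S.erase j, Y i) (Y j) P ∧ Measurable (∑ i ∈ S.erase j, Y i) ∧
      ∀ ω, ∑ i ∈ S, Y i ω = (∑ i ∈ S.erase j, Y i) ω + Y j ω := by
  classical
  refine ⟨hI.indepFun_finsetSum_of_notMem hm (Finset.notMem_erase j S),
    BrMu_meas_sum' hm _, fun ω => ?_⟩
  rw [Finset.sum_apply, Finset.sum_erase_add _ _ hj]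

lemma BrMu_map_erase (S : Finset ℤ) (j : ℤ) :
    P.map (∑ i ∈ S.erase j, Y i) = P.map (fun ω => ∑ i ∈ S.erase j, Y i ω) := by
  congr 1
  funext ω
  rw [Finset.sum_apply]

/-- The scale of the sum is at least the scale of any one term. -/
lemma BrMu_At_ge (hI : iIndepFun Y P) (hm : ∀ j, Measurable (Y j))
    (hN : ∀ j, Nish (P.map (Y j))) (ha : Summable a) (ha0 : ∀ j, 0 ≤ a j) (hb : ∀ j ω, |Y j ω| ≤ a j) (j : ℤ)
    (hj : At (P.map (Y j)) ≤ 1 / 2) :
    At (P.map (Y j)) ≤ At (P.map (fun ω => ∑' i, Y i ω)) := by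
  have hT := BrMu_tsum_meas hm ha hb
  have htc := Nish_aux_continuous_tanh
  have t := BrMu_tendsto_int (P := P) hm ha ha0 hb (G := Real.tanh) htc (C := 1)
    (fun x _ => (Real.abs_tanh_lt_one x).le)
  have e : At (P.map (fun ω => ∑' i, Y i ω)) = ∫ ω, Real.tanh (∑' i, Y i ω) ∂P := by
    unfold At
    rw [integral_map hT.aemeasurable htc.aestronglyMeasurable]
  rw [e]
  refine ge_of_tendsto t ?_
  filter_upwards [eventually_ge_atTop ({j} : Finset ℤ)] with S hS
  have hjS : j ∈ S := hS (Finset.mem_singleton_self j)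
  obtain ⟨h1, h2, h3⟩ := BrMu_sum_split hI hm hjS
  have hlaw : P.map (fun ω => ∑ i ∈ S, Y i ω) = cvl (P.map (∑ i ∈ S.erase j, Y i)) (P.map (Y j)) := by
    rw [← BrMu_law_add h2 (hm j) h1]
    congr 1
    funext ω
    exact h3 ω
  have hNX : Nish (P.map (∑ i ∈ S.erase j, Y i)) := by
    rw [BrMu_map_erase]
    exact BrMu_nish_finset hI hm hN _
  have hK := MomLow_K1 hNX (hN j)
  rw [← hlaw] at hK
  obtain ⟨hA0, hA1⟩ := MomLow_At_bounds hNX
  have hSm := BrMu_meas_sum hm S
  have e2 : At (P.map (fun ω => ∑ i ∈ S, Y i ω)) = ∫ ω, Real.tanh (∑ i ∈ S, Y i ω) ∂P := by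
    unfold At
    rw [integral_map hSm.aemeasurable htc.aestronglyMeasurable]
  rw [← e2]
  have h4 : 0 ≤ 1 - 2 * At (P.map (Y j)) := by linarith
  have h5 : (1 - 2 * At (P.map (∑ i ∈ S.erase j, Y i))) * (1 - 2 * At (P.map (Y j)))
      ≤ 1 * (1 - 2 * At (P.map (Y j))) :=
    mul_le_mul_of_nonneg_right (by linarith) h4
  linarith

/-- Upper bounds for continuous functions of the sum, from a bound for one term uniform in the shift. -/
lemma BrMu_sum_le (hI : iIndepFun Y P) (hm : ∀ j, Measurable (Y j)) (ha : Summable a)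
    (ha0 : ∀ j, 0 ≤ a j) (hb : ∀ j ω, |Y j ω| ≤ a j) {G : ℝ → ℝ} (hG : Continuous G) {C : ℝ} (hC : ∀ x, |G x| ≤ C)
    {c : ℝ} (j : ℤ) (hc : ∀ b, ∫ ω, G (Y j ω + b) ∂P ≤ c) (b : ℝ) :
    ∫ ω, G (∑' i, Y i ω + b) ∂P ≤ c := by
  have t := BrMu_tendsto_int (P := P) hm ha ha0 hb (G := fun z => G (z + b))
    (hG.comp (continuous_id.add continuous_const)) (C := C) (fun x _ => hC _)
  refine le_of_tendsto t ?_
  filter_upwards [eventually_ge_atTop ({j} : Finset ℤ)] with S hS
  have hjS : j ∈ S := hS (Finset.mem_singleton_self j)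
  obtain ⟨h1, h2, h3⟩ := BrMu_sum_split hI hm hjS
  have := Measure.isProbabilityMeasure_map (μ := P) h2.aemeasurable
  have := Measure.isProbabilityMeasure_map (μ := P) (hm j).aemeasurable
  have hmap := h1.map_prod_eq_prod_map_map h2.aemeasurable (hm j).aemeasurable
  have hGm : Measurable (fun p : ℝ × ℝ => G (p.1 + p.2 + b)) := by
    have := hG.measurable
    fun_prop
  have hint : Integrable (fun p : ℝ × ℝ => G (p.1 + p.2 + b))
      ((P.map (∑ i ∈ S.erase j, Y i)).prod (P.map (Y j))) :=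
    Integrable.of_bound hGm.aestronglyMeasurable C
      (Filter.Eventually.of_forall fun p => by rw [Real.norm_eq_abs]; exact hC _)
  have e1 : ∫ ω, G (∑ i ∈ S, Y i ω + b) ∂P = ∫ p : ℝ × ℝ, G (p.1 + p.2 + b)
      ∂((P.map (∑ i ∈ S.erase j, Y i)).prod (P.map (Y j))) := by
    rw [← hmap, integral_map (h2.prodMk (hm j)).aemeasurable hGm.aestronglyMeasurable]
    apply integral_congr_ae
    filter_upwards with ω
    rw [h3 ω]
  rw [e1, integral_prod _ hint]
  have inner : ∀ x, ∫ y, G (x + y + b) ∂(P.map (Y j)) ≤ c := by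
    intro x
    have hx : Measurable (fun y : ℝ => G (x + y + b)) := by
      have := hG.measurable
      fun_prop
    rw [integral_map (hm j).aemeasurable hx.aestronglyMeasurable]
    have := hc (x + b)
    refine le_of_eq_of_le ?_ this
    apply integral_congr_ae
    filter_upwards with ω
    congr 1
    ring
  have hint2 := hint.integral_prod_left
  calc ∫ x, ∫ y, G (x + y + b) ∂(P.map (Y j)) ∂(P.map (∑ i ∈ S.erase j, Y i))
      ≤ ∫ _x, c ∂(P.map (∑ i ∈ S.erase j, Y i)) :=
        integral_mono hint2 (integrable_const _) inner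
    _ = c := by simp

end tsum

end Sum

/-! ### One observation -/

/-- The log likelihood ratio of one observation, as a function of the uniform variable. -/
noncomputable def BrMu_g (κ : ℝ) (v : unitInterval) : ℝ := Real.artanh (κ * quant κ v)

lemma BrMu_measurable_artanh : Measurable Real.artanh := by
  unfold Real.artanh
  fun_prop

lemma BrMu_meas_g (κ : ℝ) : Measurable (BrMu_g κ) := by
  have h1 : Measurable (fun v : unitInterval => quant κ v) :=
    measurable_quant.comp (f := fun v : unitInterval => (κ, (v : ℝ))) (by fun_prop)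
  exact BrMu_measurable_artanh.comp (measurable_const.mul h1)

lemma BrMu_artanh_abs {κ z : ℝ} (h0 : 0 ≤ κ) (h1 : κ ≤ 1 / 2) (hz : z ∈ Icc (-1 : ℝ) 1) :
    κ * z ∈ Ioo (-1 : ℝ) 1 ∧ |Real.artanh (κ * z)| ≤ Real.artanh κ := by
  have hz1 := hz.1
  have hz2 := hz.2
  have h3 : -κ ≤ κ * z := by nlinarith
  have h4 : κ * z ≤ κ := by nlinarith
  refine ⟨⟨by linarith, by linarith⟩, ?_⟩
  rw [abs_le]
  constructor
  · have := Real.artanh_le_artanh (x := -κ) (y := κ * z) (by linarith) (by linarith) h3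
    rwa [Nish_aux_artanh_odd] at this
  · exact Real.artanh_le_artanh (by linarith) (by linarith) h4

lemma BrMu_abs_half {κ : ℝ} (h0 : 0 ≤ κ) (h1 : κ ≤ 1 / 2) : |κ| ≤ 1 / 2 := by
  rw [abs_of_nonneg h0]
  exact h1

lemma BrMu_quant_mem {κ : ℝ} (h0 : 0 ≤ κ) (h1 : κ ≤ 1 / 2) (v : unitInterval) :
    quant κ v ∈ Icc (-1 : ℝ) 1 :=
  quant_mem (BrMu_abs_half h0 h1) v.2

lemma BrMu_g_abs {κ : ℝ} (h0 : 0 ≤ κ) (h1 : κ ≤ 1 / 2) (v : unitInterval) :
    |BrMu_g κ v| ≤ Real.artanh κ :=
  (BrMu_artanh_abs h0 h1 (BrMu_quant_mem h0 h1 v)).2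

lemma BrMu_reflect (f : ℝ → ℝ) : ∫ z in Icc (-1 : ℝ) 1, f (-z) = ∫ z in Icc (-1 : ℝ) 1, f z := by
  rw [integral_Icc_eq_integral_Ioc, integral_Icc_eq_integral_Ioc,
    ← intervalIntegral.integral_of_le (by norm_num), ← intervalIntegral.integral_of_le (by norm_num),
    intervalIntegral.integral_comp_neg]
  simp

lemma BrMu_int_g {κ : ℝ} (h0 : 0 ≤ κ) (h1 : κ ≤ 1 / 2) {F : ℝ → ℝ} (hF : Measurable F) {C : ℝ}
    (hC : ∀ x, |x| ≤ Real.artanh κ → |F x| ≤ C) :
    ∫ v : unitInterval, F (BrMu_g κ v)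
      = ∫ z in Icc (-1 : ℝ) 1, F (Real.artanh (κ * z)) * ((1 + κ * z) / 2) :=
  integral_quant (BrMu_abs_half h0 h1) (f := fun z => F (Real.artanh (κ * z)))
    (hF.comp (BrMu_measurable_artanh.comp (measurable_const.mul measurable_id)))
    (fun _ hz => hC _ (BrMu_artanh_abs h0 h1 hz).2)

instance BrMu_unit_prob : IsProbabilityMeasure (volume : Measure unitInterval) := inferInstance

/-- The law of one observation has the symmetry. -/
lemma BrMu_nish_g {κ : ℝ} (h0 : 0 ≤ κ) (h1 : κ ≤ 1 / 2) :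
    Nish ((volume : Measure unitInterval).map (BrMu_g κ)) := by
  have hg := BrMu_meas_g κ
  have hk : κ < 1 := by linarith
  refine ⟨Measure.isProbabilityMeasure_map hg.aemeasurable, ⟨Real.artanh κ, ?_⟩, ?_⟩
  · have hs : MeasurableSet {z : ℝ | |z| ≤ Real.artanh κ} :=
      measurableSet_le (by fun_prop) measurable_const
    rw [ae_map_iff hg.aemeasurable hs]
    exact Filter.Eventually.of_forall (BrMu_g_abs h0 h1)
  · intro F hF
    obtain ⟨hFm, C, hC⟩ := id hF
    have hC0 : 0 ≤ C := (abs_nonneg _).trans (hC 0)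
    have hm1 : Measurable (fun h => F (-h)) := hFm.comp measurable_neg
    have hm2 : Measurable (fun h => F h * Real.exp (-2 * h)) := hFm.mul (by fun_prop)
    rw [integral_map hg.aemeasurable hm1.aestronglyMeasurable,
      integral_map hg.aemeasurable hm2.aestronglyMeasurable,
      BrMu_int_g h0 h1 hm1 (C := C) (fun x _ => hC _),
      BrMu_int_g h0 h1 hm2 (C := C * Real.exp (2 * Real.artanh κ)) (fun x hx => by
        rw [abs_mul, abs_of_pos (Real.exp_pos _)]
        apply mul_le_mul (hC _) _ (Real.exp_pos _).le hC0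
        apply Real.exp_le_exp.mpr
        have := neg_abs_le x
        linarith),
      ← BrMu_reflect (fun z => F (-Real.artanh (κ * z)) * ((1 + κ * z) / 2))]
    apply setIntegral_congr_fun measurableSet_Icc
    intro z hz
    obtain ⟨hm, _⟩ := BrMu_artanh_abs h0 h1 hz
    have e1 := Nish_aux_exp_tanh (Real.artanh (κ * z))
    rw [Real.tanh_artanh hm] at e1
    have e2 : κ * -z = -(κ * z) := by ring
    show F (-Real.artanh (κ * -z)) * ((1 + κ * -z) / 2) = _
    rw [e2, Nish_aux_artanh_odd, neg_neg]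
    linear_combination (-(F (Real.artanh (κ * z))) / 2) * e1

lemma BrMu_At_g {κ : ℝ} (h0 : 0 ≤ κ) (h1 : κ ≤ 1 / 2) :
    At ((volume : Measure unitInterval).map (BrMu_g κ)) = κ ^ 2 / 3 := by
  unfold At
  rw [integral_map (BrMu_meas_g κ).aemeasurable Nish_aux_measurable_tanh.aestronglyMeasurable]
  have e1 : ∀ v : unitInterval, Real.tanh (BrMu_g κ v) = κ * quant κ v := fun v =>
    Real.tanh_artanh (BrMu_artanh_abs h0 h1 (BrMu_quant_mem h0 h1 v)).1
  simp only [e1]
  rw [integral_quant (BrMu_abs_half h0 h1) (f := fun z => κ * z) (by fun_prop) (C := κ) (fun z hz => by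
    rw [abs_mul, abs_of_nonneg h0]
    exact mul_le_of_le_one_right h0 (abs_le.mpr hz))]
  rw [integral_Icc_eq_integral_Ioc, ← intervalIntegral.integral_of_le (by norm_num)]
  have hd : ∀ z ∈ uIcc (-1 : ℝ) 1, HasDerivAt (fun z : ℝ => κ * z ^ 2 / 4 + κ ^ 2 * z ^ 3 / 6)
      (κ * z * ((1 + κ * z) / 2)) z := by
    intro z _
    have d1 := ((hasDerivAt_pow 2 z).const_mul κ).div_const 4
    have d2 := ((hasDerivAt_pow 3 z).const_mul (κ ^ 2)).div_const 6
    refine (d1.add d2).congr_deriv ?_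
    push_cast
    ring
  rw [intervalIntegral.integral_eq_sub_of_hasDerivAt hd]
  · ring
  · apply Continuous.intervalIntegrable
    fun_prop

/-- Anti concentration of one observation. -/
lemma BrMu_ac_g {κ : ℝ} (h0 : 0 < κ) (h1 : κ ≤ 1 / 2) (b : ℝ) :
    3 * κ ^ 2 / 256 ≤ ∫ v : unitInterval, Real.tanh (BrMu_g κ v + b) ^ 2 := by
  have htm := Nish_aux_measurable_tanh
  have hm : Measurable (fun h => Real.tanh (h + b) ^ 2) := by fun_prop
  rw [BrMu_int_g h0.le h1 hm (C := 1) (fun x _ => by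
    rw [abs_of_nonneg (sq_nonneg _)]
    exact (Real.tanh_sq_lt_one _).le)]
  set f : ℝ → ℝ := fun z => Real.tanh (Real.artanh (κ * z) + b) ^ 2 * ((1 + κ * z) / 2) with hf
  have hfm : Measurable f := by
    apply Measurable.mul
    · exact hm.comp (BrMu_measurable_artanh.comp (measurable_const.mul measurable_id))
    · fun_prop
  have hκ1 : κ / 4 ∈ Ioo (-1 : ℝ) 1 := ⟨by linarith, by linarith⟩
  have hfb : ∀ z ∈ Icc (-1 : ℝ) 1, 0 ≤ f z ∧ f z ≤ 1 := by
    intro z hz
    have h3 : (1 + κ * z) / 2 ≤ 1 := by nlinarith [hz.2]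
    have h4 : 0 ≤ (1 + κ * z) / 2 := by nlinarith [hz.1]
    have h5 := (Real.tanh_sq_lt_one (Real.artanh (κ * z) + b)).le
    have h6 := sq_nonneg (Real.tanh (Real.artanh (κ * z) + b))
    exact ⟨mul_nonneg h6 h4, by simp only [hf]; nlinarith⟩
  have hint : IntegrableOn f (Icc (-1 : ℝ) 1) := by
    refine Measure.integrableOn_of_bounded (M := 1) (by simp) hfm.aestronglyMeasurable ?_
    rw [ae_restrict_iff' measurableSet_Icc]
    refine Filter.Eventually.of_forall fun z hz => ?_
    obtain ⟨h3, h4⟩ := hfb z hz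
    rw [Real.norm_eq_abs, abs_of_nonneg h3]
    exact h4
  have hf0 : 0 ≤ᵐ[volume.restrict (Icc (-1 : ℝ) 1)] f := by
    rw [Filter.EventuallyLE, ae_restrict_iff' measurableSet_Icc]
    exact Filter.Eventually.of_forall fun z hz => (hfb z hz).1
  -- the lower bound on a subinterval `T`
  have main : ∀ T : Set ℝ, T ⊆ Icc (-1 : ℝ) 1 → MeasurableSet T → volume T = ENNReal.ofReal (3 / 4) →
      (∀ z ∈ T, κ ^ 2 / 16 ≤ Real.tanh (Real.artanh (κ * z) + b) ^ 2) →
      3 * κ ^ 2 / 256 ≤ ∫ z in Icc (-1 : ℝ) 1, f z := by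
    intro T hT hTm hTv hlow
    have h5 : ∫ z in T, f z ≤ ∫ z in Icc (-1 : ℝ) 1, f z :=
      setIntegral_mono_set hint hf0 (Filter.Eventually.of_forall hT)
    have h6 : ∫ _z in T, (κ ^ 2 / 64) ≤ ∫ z in T, f z := by
      apply setIntegral_mono_on _ (hint.mono_set hT) hTm
      · intro z hz
        have h7 := hlow z hz
        have h8 := hT hz
        have h9 : 1 / 4 ≤ (1 + κ * z) / 2 := by nlinarith [h8.1]
        have h10 : 0 ≤ κ ^ 2 / 16 := by positivity
        simp only [hf]
        nlinarith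
      · refine integrableOn_const ?_ (by simp)
        rw [hTv]
        exact ENNReal.ofReal_ne_top
    rw [setIntegral_const, smul_eq_mul, Measure.real, hTv, ENNReal.toReal_ofReal (by norm_num)] at h6
    linarith
  have hκt : Real.tanh (Real.artanh (κ / 4)) = κ / 4 := Real.tanh_artanh hκ1
  have hκ0 : 0 ≤ κ / 4 := by linarith
  rcases le_total 0 b with hb | hb
  · refine main (Icc (1 / 4) 1) (Icc_subset_Icc (by norm_num) le_rfl) measurableSet_Icc
      (by rw [Real.volume_Icc]; norm_num) ?_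
    intro z hz
    have h3 : κ / 4 ≤ κ * z := by nlinarith [hz.1]
    have h3' : κ * z < 1 := by nlinarith [hz.2]
    have h4 : Real.artanh (κ / 4) ≤ Real.artanh (κ * z) + b := by
      have := Real.artanh_le_artanh (x := κ / 4) (y := κ * z) (by linarith) h3' h3
      linarith
    have h5 := Nish_aux_tanh_mono h4
    rw [hκt] at h5
    nlinarith
  · refine main (Icc (-1) (-1 / 4)) (Icc_subset_Icc le_rfl (by norm_num)) measurableSet_Icc
      (by rw [Real.volume_Icc]; norm_num) ?_
    intro z hz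
    have h3 : κ * z ≤ -(κ / 4) := by nlinarith [hz.2]
    have h3' : -1 < κ * z := by nlinarith [hz.1]
    have h4 : Real.artanh (κ * z) + b ≤ -Real.artanh (κ / 4) := by
      have := Real.artanh_le_artanh (x := κ * z) (y := -(κ / 4)) h3' (by linarith) h3
      rw [Nish_aux_artanh_odd] at this
      linarith
    have h5 := Nish_aux_tanh_mono h4
    rw [Real.tanh_neg, hκt] at h5
    nlinarith

lemma BrMu_continuous_psiF {θ : ℝ} (h0 : 0 ≤ θ) (h1 : θ < 1) : Continuous (psiF θ) := by
  have htc := Nish_aux_continuous_tanh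
  unfold psiF
  refine Continuous.div (by fun_prop) (by fun_prop) (fun h => ?_)
  exact (Nish_aux_psi_denominator h0 h1 h).ne'

/-! ### The field at a site, for fixed labels -/

section Site

variable {d : ℕ} {θ : ℝ}

open Classical in
/-- One term of the field at `x`, for fixed labels `W`, as a function of the noise `V`. -/
noncomputable def BrMu_Y (x : Word d) (s : ℝ) (W : LabT d) (j : ℤ) (V : LabT d) : ℝ :=
  if inA s (x, j) W then BrMu_g (kp j) (V (x, j)) else 0

/-- The dominating sequence. -/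
noncomputable def BrMu_a (s : ℝ) (j : ℤ) : ℝ := if (j : ℝ) < s then Real.artanh (kp j) else 0

lemma BrMu_summable_a (s : ℝ) : Summable (BrMu_a s) := summable_artanh s

lemma BrMu_a_nonneg (s : ℝ) (j : ℤ) : 0 ≤ BrMu_a s j := by
  unfold BrMu_a
  split_ifs
  · exact Real.artanh_nonneg (kp_pos j).le
  · exact le_rfl

lemma BrMu_tsum_a (s : ℝ) : ∑' j, BrMu_a s j = Mb s := rfl

lemma BrMu_inA_lt {s : ℝ} {j : ℤ} {x : Word d} {W : LabT d} (h : inA s (x, j) W) : (j : ℝ) < s := by
  have h1 := h.2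
  have h2 : (0 : ℝ) ≤ (W (x, j) : ℝ) := (W (x, j)).2.1
  unfold tE at h1
  simp only at h1
  linarith

lemma BrMu_Y_abs (x : Word d) (s : ℝ) (W : LabT d) (j : ℤ) (V : LabT d) :
    |BrMu_Y x s W j V| ≤ BrMu_a s j := by
  unfold BrMu_Y BrMu_a
  by_cases h : inA s (x, j) W
  · rw [if_pos h, if_pos (BrMu_inA_lt h)]
    exact BrMu_g_abs (kp_pos j).le (kp_le j) _
  · rw [if_neg h, abs_zero]
    split_ifs
    · exact Real.artanh_nonneg (kp_pos j).le
    · exact le_rfl

lemma BrMu_meas_V (x : Word d) (s : ℝ) (W : LabT d) (j : ℤ) : Measurable (BrMu_Y x s W j) := by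
  unfold BrMu_Y
  split_ifs
  · exact (BrMu_meas_g _).comp (measurable_pi_apply _)
  · exact measurable_const

lemma BrMu_meas_inA (x : Word d) (s : ℝ) (j : ℤ) : MeasurableSet {W : LabT d | inA s (x, j) W} := by
  have h : Measurable (fun W : LabT d => (W (x, j) : ℝ)) :=
    measurable_subtype_coe.comp (measurable_pi_apply _)
  have e : {W : LabT d | inA s (x, j) W}
      = {W : LabT d | (W (x, j) : ℝ) < 1 / 2} ∩ {W : LabT d | (j : ℝ) + 2 * (W (x, j) : ℝ) < s} := rfl
  rw [e]
  exact (measurableSet_lt h measurable_const).inter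
    (measurableSet_lt (measurable_const.add (measurable_const.mul h)) measurable_const)

lemma BrMu_meas_pair (x : Word d) (s : ℝ) (j : ℤ) :
    Measurable (fun p : LabT d × LabT d => BrMu_Y x s p.2 j p.1) := by
  classical
  have h1 : MeasurableSet {p : LabT d × LabT d | inA s (x, j) p.2} :=
    measurable_snd (BrMu_meas_inA x s j)
  unfold BrMu_Y
  refine Measurable.ite h1 ?_ measurable_const
  exact (BrMu_meas_g _).comp ((measurable_pi_apply _).comp measurable_fst)

instance BrMu_volE_prob : IsProbabilityMeasure (volE d) := by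
  unfold volE
  infer_instance

lemma BrMu_indep (x : Word d) (s : ℝ) (W : LabT d) : iIndepFun (BrMu_Y x s W) (volE d) := by
  classical
  have h1 : iIndepFun (fun (e : Ev d) (V : LabT d) => V e) (volE d) :=
    iIndepFun_infinitePi (X := fun _ v => v) (fun _ => measurable_id)
  have h2 : iIndepFun (fun (j : ℤ) (V : LabT d) => V (x, j)) (volE d) :=
    iIndepFun.precomp (g := fun j : ℤ => (x, j)) (fun a b h => (Prod.ext_iff.mp h).2) h1
  have h3 : ∀ j : ℤ, Measurable (fun v : unitInterval =>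
      if inA s (x, j) W then BrMu_g (kp j) v else 0) := by
    intro j
    split_ifs
    · exact BrMu_meas_g _
    · exact measurable_const
  exact h2.comp _ h3

lemma BrMu_map_eval (e : Ev d) {φ : unitInterval → ℝ} (hφ : Measurable φ) :
    (volE d).map (fun V : LabT d => φ (V e)) = (volume : Measure unitInterval).map φ := by
  have h1 := (measurePreserving_eval_infinitePi (fun _ : Ev d => (volume : Measure unitInterval)) e).map_eq
  calc (volE d).map (fun V : LabT d => φ (V e)) = ((volE d).map (fun V : LabT d => V e)).map φ := by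
        rw [Measure.map_map hφ (measurable_pi_apply e)]
        rfl
    _ = (volume : Measure unitInterval).map φ := by
        unfold volE
        rw [h1]

lemma BrMu_law_active {x : Word d} {s : ℝ} {W : LabT d} {j : ℤ} (h : inA s (x, j) W) :
    (volE d).map (BrMu_Y x s W j) = (volume : Measure unitInterval).map (BrMu_g (kp j)) := by
  rw [← BrMu_map_eval (x, j) (BrMu_meas_g (kp j))]
  congr 1
  funext V
  unfold BrMu_Y
  rw [if_pos h]

lemma BrMu_nish_Y (x : Word d) (s : ℝ) (W : LabT d) (j : ℤ) : Nish ((volE d).map (BrMu_Y x s W j)) := by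
  by_cases h : inA s (x, j) W
  · rw [BrMu_law_active h]
    exact BrMu_nish_g (kp_pos j).le (kp_le j)
  · have e : BrMu_Y x s W j = fun _ => 0 := by
      funext V
      unfold BrMu_Y
      rw [if_neg h]
    rw [e, Measure.map_const, measure_univ, one_smul]
    exact nish_dirac

/-- The field at `x` as a function of the noise and the labels. -/
noncomputable def BrMu_Xi (x : Word d) (s : ℝ) (p : LabT d × LabT d) : ℝ :=
  ∑' j, BrMu_Y x s p.2 j p.1

lemma BrMu_Xi_meas (x : Word d) (s : ℝ) : Measurable (BrMu_Xi x s) :=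
  BrMu_tsum_meas (BrMu_meas_pair x s) (BrMu_summable_a s) (fun j p => BrMu_Y_abs x s p.2 j p.1)

lemma BrMu_Xi_abs (x : Word d) (s : ℝ) (p : LabT d × LabT d) : |BrMu_Xi x s p| ≤ Mb s :=
  BrMu_tsum_abs (fun j (p : LabT d × LabT d) => BrMu_Y_abs x s p.2 j p.1) (BrMu_summable_a s)
    (BrMu_a_nonneg s) p

lemma BrMu_xiS_eq (s : ℝ) (ω : OmD d) (x : Word d) : xiS s ω x = BrMu_Xi x s ω.2 := rfl

variable [Corr θ]

/-- The law of the field is the law of the noise and labels function. -/
lemma BrMu_muS_eq (hd : 0 < d) (s : ℝ) :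
    muS d θ hd s = ((volE d).prod (volE d)).map (BrMu_Xi (letter ⟨0, hd⟩) s) := by
  unfold muS PD
  have h1 := BrMu_Xi_meas (letter (⟨0, hd⟩ : Fin d)) s
  have e : (fun ω : OmD d => xiS s ω (letter ⟨0, hd⟩)) = BrMu_Xi (letter ⟨0, hd⟩) s ∘ Prod.snd := rfl
  rw [e, ← Measure.map_map h1 measurable_snd, Measure.map_snd_prod, measure_univ, one_smul]

/-- Integrals against the law of the field: first the noise, then the labels. -/
lemma BrMu_muS_int (hd : 0 < d) (s : ℝ) {F : ℝ → ℝ} (hF : Measurable F) {C : ℝ}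
    (hC : ∀ z, |z| ≤ Mb s → |F z| ≤ C) :
    ∫ h, F h ∂(muS d θ hd s) = ∫ W, ∫ V, F (BrMu_Xi (letter ⟨0, hd⟩) s (V, W)) ∂(volE d) ∂(volE d) := by
  rw [BrMu_muS_eq, integral_map (BrMu_Xi_meas _ s).aemeasurable hF.aestronglyMeasurable]
  apply integral_prod_symm (f := fun p => F (BrMu_Xi (letter ⟨0, hd⟩) s p))
  exact Integrable.of_bound (hF.comp (BrMu_Xi_meas _ s)).aestronglyMeasurable C
    (Filter.Eventually.of_forall fun p => by
      rw [Real.norm_eq_abs]
      exact hC _ (BrMu_Xi_abs _ s p))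

instance BrMu_muS_prob (hd : 0 < d) (s : ℝ) : IsProbabilityMeasure (muS d θ hd s) := by
  rw [BrMu_muS_eq]
  exact Measure.isProbabilityMeasure_map (BrMu_Xi_meas _ s).aemeasurable

theorem BrMu_mu_bd (hd : 0 < d) (s : ℝ) : ∀ᵐ h ∂(muS d θ hd s), |h| ≤ Mb s := by
  rw [BrMu_muS_eq]
  have hs : MeasurableSet {z : ℝ | |z| ≤ Mb s} :=
    measurableSet_le (by fun_prop) measurable_const
  rw [ae_map_iff (BrMu_Xi_meas _ s).aemeasurable hs]
  exact Filter.Eventually.of_forall (BrMu_Xi_abs _ s)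

/-- For fixed labels: the symmetry. -/
lemma BrMu_nish_W (x : Word d) (s : ℝ) (W : LabT d) :
    Nish ((volE d).map (fun V => BrMu_Xi x s (V, W))) :=
  BrMu_nish_tsum (BrMu_indep x s W) (BrMu_meas_V x s W) (BrMu_nish_Y x s W) (BrMu_summable_a s)
    (BrMu_a_nonneg s) (BrMu_Y_abs x s W)

theorem BrMu_mu_nish (hd : 0 < d) (s : ℝ) : Nish (muS d θ hd s) := by
  refine ⟨inferInstance, ⟨Mb s, BrMu_mu_bd hd s⟩, ?_⟩
  intro F hF
  obtain ⟨hFm, C, hC⟩ := id hF
  have hC0 : 0 ≤ C := (abs_nonneg _).trans (hC 0)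
  have hm1 : Measurable (fun h => F (-h)) := hFm.comp measurable_neg
  have hm2 : Measurable (fun h => F h * Real.exp (-2 * h)) := hFm.mul (by fun_prop)
  rw [BrMu_muS_int hd s hm1 (C := C) (fun z _ => hC _),
    BrMu_muS_int hd s hm2 (C := C * Real.exp (2 * Mb s)) (fun z hz => by
      rw [abs_mul, abs_of_pos (Real.exp_pos _)]
      apply mul_le_mul (hC _) _ (Real.exp_pos _).le hC0
      apply Real.exp_le_exp.mpr
      have := neg_abs_le z
      linarith)]
  apply integral_congr_ae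
  filter_upwards with W
  have hV : Measurable (fun V : LabT d => BrMu_Xi (letter (⟨0, hd⟩ : Fin d)) s (V, W)) :=
    (BrMu_Xi_meas _ s).comp (measurable_prodMk_right)
  have := (BrMu_nish_W (letter (⟨0, hd⟩ : Fin d)) s W).symm F hF
  rwa [integral_map hV.aemeasurable hm1.aestronglyMeasurable,
    integral_map hV.aemeasurable hm2.aestronglyMeasurable] at this

theorem BrMu_mu_At_up (hd : 0 < d) (s : ℝ) : At (muS d θ hd s) ≤ Mb s ^ 2 := by
  rw [(BrMu_mu_nish (θ := θ) hd s).tanh_eq]
  have hi : Integrable (fun h => Real.tanh h ^ 2) (muS d θ hd s) :=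
    Nish_aux_int (Nish_aux_bdd_tanh_pow 2)
  calc ∫ h, Real.tanh h ^ 2 ∂(muS d θ hd s) ≤ ∫ _h, Mb s ^ 2 ∂(muS d θ hd s) := by
        apply integral_mono_ae hi (integrable_const _)
        filter_upwards [BrMu_mu_bd (θ := θ) hd s] with h hh
        have h1 := Nish_aux_abs_tanh_le h
        have h2 : |Real.tanh h| ≤ Mb s := h1.trans hh
        exact sq_le_sq' (by linarith [(abs_le.mp h2).1]) (abs_le.mp h2).2
    _ = Mb s ^ 2 := by simp

/-- The probability of an event being active. -/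
lemma BrMu_int_active (e : Ev d) (c : ℝ) {f : LabT d → ℝ} (hf : Integrable f (volE d))
    (hc : ∀ W : LabT d, (W e : ℝ) < 1 / 2 → c ≤ f W) (h0 : ∀ W : LabT d, ¬ (W e : ℝ) < 1 / 2 → 0 ≤ f W) :
    c / 2 ≤ ∫ W, f W ∂(volE d) := by
  classical
  have hc1 : Measurable (fun W : LabT d => (W e : ℝ)) :=
    measurable_subtype_coe.comp (measurable_pi_apply _)
  have hS : MeasurableSet {W : LabT d | (W e : ℝ) < 1 / 2} := measurableSet_lt hc1 measurable_const
  have hP : (volE d).real {W : LabT d | (W e : ℝ) < 1 / 2} = 1 / 2 := by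
    have h1 := measurePreserving_eval_infinitePi (fun _ : Ev d => (volume : Measure unitInterval)) e
    have hIio : MeasurableSet (Iio (⟨1 / 2, by norm_num, by norm_num⟩ : unitInterval)) := measurableSet_Iio
    have h2 := h1.measure_preimage hIio.nullMeasurableSet
    have e1 : (fun W : LabT d => W e) ⁻¹' (Iio (⟨1 / 2, by norm_num, by norm_num⟩ : unitInterval))
        = {W : LabT d | (W e : ℝ) < 1 / 2} := rfl
    unfold volE
    rw [Measure.real]
    rw [e1] at h2
    rw [h2, unitInterval.volume_Iio, ENNReal.toReal_ofReal (by norm_num)]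
  have hle : ∀ W : LabT d, Set.indicator {W : LabT d | (W e : ℝ) < 1 / 2} (fun _ => c) W ≤ f W := by
    intro W
    by_cases hW : (W e : ℝ) < 1 / 2
    · rw [Set.indicator_of_mem (show W ∈ {W : LabT d | (W e : ℝ) < 1 / 2} from hW)]
      exact hc W hW
    · rw [Set.indicator_of_notMem (show W ∉ {W : LabT d | (W e : ℝ) < 1 / 2} from hW)]
      exact h0 W hW
  have hi : Integrable (Set.indicator {W : LabT d | (W e : ℝ) < 1 / 2} (fun _ => c)) (volE d) :=
    (integrable_const c).indicator hS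
  have := integral_mono hi hf hle
  rw [integral_indicator_const _ hS, hP, smul_eq_mul] at this
  linarith

/-- The lower bound on the scale, for fixed labels and active event. -/
lemma BrMu_At_W_ge {x : Word d} {s : ℝ} {W : LabT d} {j : ℤ} (h : inA s (x, j) W) :
    kp j ^ 2 / 3 ≤ ∫ V, Real.tanh (BrMu_Xi x s (V, W)) ∂(volE d) := by
  have hκ0 := (kp_pos j).le
  have hκ1 := kp_le j
  have hV := BrMu_tsum_meas (BrMu_meas_V x s W) (BrMu_summable_a s) (BrMu_Y_abs x s W)
  have hA := BrMu_At_g hκ0 hκ1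
  rw [← BrMu_law_active h] at hA
  have h2 := BrMu_At_ge (BrMu_indep x s W) (BrMu_meas_V x s W) (BrMu_nish_Y x s W) (BrMu_summable_a s)
    (BrMu_a_nonneg s) (BrMu_Y_abs x s W) j (by
      rw [hA]
      have : kp j ^ 2 ≤ (1 / 2) ^ 2 := pow_le_pow_left₀ hκ0 hκ1 2
      linarith)
  rw [hA] at h2
  refine h2.trans (le_of_eq ?_)
  unfold At
  rw [integral_map hV.aemeasurable Nish_aux_measurable_tanh.aestronglyMeasurable]
  rfl

lemma BrMu_At_ge_kp (hd : 0 < d) {s : ℝ} {j : ℤ} (hj : (j : ℝ) + 1 ≤ s) :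
    kp j ^ 2 / 6 ≤ At (muS d θ hd s) := by
  have htc := Nish_aux_continuous_tanh
  unfold At
  rw [BrMu_muS_int hd s htc.measurable (C := 1) (fun z _ => (Real.abs_tanh_lt_one z).le)]
  set x : Word d := letter ⟨0, hd⟩ with hx
  have hH : Measurable (fun p : LabT d × LabT d => Real.tanh (BrMu_Xi x s (p.2, p.1))) :=
    htc.measurable.comp ((BrMu_Xi_meas x s).comp measurable_swap)
  have hG : Measurable (fun W : LabT d => ∫ V, Real.tanh (BrMu_Xi x s (V, W)) ∂(volE d)) :=
    (hH.stronglyMeasurable.integral_prod_right' (ν := volE d)).measurable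
  have hint : Integrable (fun W : LabT d => ∫ V, Real.tanh (BrMu_Xi x s (V, W)) ∂(volE d)) (volE d) := by
    refine Integrable.of_bound hG.aestronglyMeasurable 1 (Filter.Eventually.of_forall fun W => ?_)
    have := norm_integral_le_of_norm_le_const (μ := volE d)
      (f := fun V => Real.tanh (BrMu_Xi x s (V, W))) (C := 1)
      (Filter.Eventually.of_forall fun V => (Real.abs_tanh_lt_one _).le)
    simpa using this
  have := BrMu_int_active (x, j) (kp j ^ 2 / 3) hint ?_ ?_
  · linarith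
  · intro W hW
    apply BrMu_At_W_ge (s := s) (x := x) (j := j)
    refine ⟨hW, ?_⟩
    show (j : ℝ) + 2 * (W (x, j) : ℝ) < s
    linarith
  · intro W _
    have hV : Measurable (fun V => BrMu_Xi x s (V, W)) :=
      BrMu_tsum_meas (BrMu_meas_V x s W) (BrMu_summable_a s) (BrMu_Y_abs x s W)
    have hN := BrMu_nish_W x s W
    have := (MomLow_At_bounds hN).1
    unfold At at this
    rw [integral_map hV.aemeasurable htc.aestronglyMeasurable] at this
    exact this

/-- The lower bound on the scale. -/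
theorem BrMu_mu_At_low (hd : 0 < d) :
    ∃ c : ℝ, 0 < c ∧ (∀ s : ℝ, s ≤ 0 → c * (4 : ℝ) ^ s ≤ At (muS d θ hd s)) ∧
      ∀ s : ℝ, 0 ≤ s → c ≤ At (muS d θ hd s) := by
  refine ⟨1 / 384, by norm_num, ?_, ?_⟩
  · intro s hs
    have hj : ((⌊s⌋ - 1 : ℤ) : ℝ) + 1 ≤ s := by
      push_cast
      have := Int.floor_le s
      linarith
    refine le_trans ?_ (BrMu_At_ge_kp (θ := θ) hd hj)
    have h1 : (⌊s⌋ : ℝ) ≤ 0 := (Int.floor_le s).trans hs
    have h2 : ⌊s⌋ - 1 ≤ (0 : ℤ) := by
      have : ⌊s⌋ ≤ 0 := by exact_mod_cast h1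
      omega
    have h3 : kp (⌊s⌋ - 1) ^ 2 = (4 : ℝ) ^ (⌊s⌋ - 1) / 4 := kp_sq_of_nonpos h2
    rw [h3]
    have h4 : (4 : ℝ) ^ s / 16 ≤ (4 : ℝ) ^ (⌊s⌋ - 1) := by
      have h5 : (4 : ℝ) ^ (⌊s⌋ - 1) = (4 : ℝ) ^ (((⌊s⌋ - 1 : ℤ) : ℝ)) :=
        (Real.rpow_intCast _ _).symm
      have h6 : (4 : ℝ) ^ s / 16 = (4 : ℝ) ^ (s - 2) := by
        rw [Real.rpow_sub (by norm_num)]
        norm_num
      rw [h5, h6]
      apply Real.rpow_le_rpow_of_exponent_le (by norm_num)
      push_cast
      have := Int.lt_floor_add_one s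
      linarith
    have h7 : 0 < (4 : ℝ) ^ s := by positivity
    linarith
  · intro s hs
    have hj : ((⌊s⌋ - 1 : ℤ) : ℝ) + 1 ≤ s := by
      push_cast
      have := Int.floor_le s
      linarith
    refine le_trans ?_ (BrMu_At_ge_kp (θ := θ) hd hj)
    have h1 : 0 ≤ ⌊s⌋ := Int.floor_nonneg.mpr hs
    have h2 : (-1 : ℤ) ≤ min (⌊s⌋ - 1) 0 := by
      apply le_min <;> omega
    have h3 : (2 : ℝ) ^ (-2 : ℤ) ≤ kp (⌊s⌋ - 1) := by
      unfold kp
      apply zpow_le_zpow_right₀ (by norm_num)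
      omega
    have h4 : (1 / 4 : ℝ) ≤ kp (⌊s⌋ - 1) := by
      have e : (2 : ℝ) ^ (-2 : ℤ) = 1 / 4 := by norm_num
      rwa [e] at h3
    have h5 : (1 / 4 : ℝ) ^ 2 ≤ kp (⌊s⌋ - 1) ^ 2 := pow_le_pow_left₀ (by norm_num) h4 2
    linarith

/-- The own noise of the block: anti concentration of the local field. -/
theorem BrMu_mu_own_ac (hd : 0 < d) (h0 : 0 < θ) (h1 : θ < 1) (j : ℤ) :
    ∃ ε : ℝ, 0 < ε ∧ ε ≤ 1 ∧ ∀ s : ℝ, (j : ℝ) ≤ s → ∀ b : ℝ,
      ∫ h, psiF θ (h + b) ∂(muS d θ hd s) ≤ 1 - ε := by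
  set κ := kp (j - 1) with hκ
  have hκ0 : 0 < κ := kp_pos _
  have hκ1 : κ ≤ 1 / 2 := kp_le _
  have hθ : 0 < 1 - θ ^ 2 := by nlinarith
  have hθ1 : 1 - θ ^ 2 ≤ 1 := by nlinarith [sq_nonneg θ]
  set ε₀ := (1 - θ ^ 2) * (3 * κ ^ 2 / 256) with hε₀
  have hε₀0 : 0 < ε₀ := by positivity
  have hκ2 : κ ^ 2 ≤ 1 / 4 := by
    have := pow_le_pow_left₀ hκ0.le hκ1 2
    linarith
  have hε₀1 : ε₀ ≤ 1 := by
    have : 3 * κ ^ 2 / 256 ≤ 1 := by linarith
    have h2 : 0 ≤ 3 * κ ^ 2 / 256 := by positivity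
    rw [hε₀]
    nlinarith
  refine ⟨ε₀ / 2, by positivity, by linarith, ?_⟩
  intro s hs b
  have hpc := BrMu_continuous_psiF h0.le h1
  have hp0 := psiF_pos h0.le h1
  have hp1 := psiF_le_one h0.le h1
  have hpa : ∀ x, |psiF θ x| ≤ 1 := fun x => by
    rw [abs_of_pos (hp0 x)]
    exact hp1 x
  have hshift : Measurable (fun h => psiF θ (h + b)) :=
    hpc.measurable.comp (measurable_id.add measurable_const)
  rw [BrMu_muS_int hd s hshift (C := 1) (fun z _ => hpa _)]
  set x : Word d := letter ⟨0, hd⟩ with hx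
  -- pass to the complement, where the lower bound is available
  have hH : Measurable (fun p : LabT d × LabT d => psiF θ (BrMu_Xi x s (p.2, p.1) + b)) :=
    hshift.comp ((BrMu_Xi_meas x s).comp measurable_swap)
  have hG : Measurable (fun W : LabT d => ∫ V, psiF θ (BrMu_Xi x s (V, W) + b) ∂(volE d)) :=
    (hH.stronglyMeasurable.integral_prod_right' (ν := volE d)).measurable
  have hle1 : ∀ W : LabT d, ∫ V, psiF θ (BrMu_Xi x s (V, W) + b) ∂(volE d) ≤ 1 := by
    intro W
    have hiV : Integrable (fun V => psiF θ (BrMu_Xi x s (V, W) + b)) (volE d) := by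
      refine Integrable.of_bound ?_ 1 (Filter.Eventually.of_forall fun V => ?_)
      · exact (hshift.comp ((BrMu_Xi_meas x s).comp measurable_prodMk_right)).aestronglyMeasurable
      · rw [Real.norm_eq_abs]
        exact hpa _
    calc ∫ V, psiF θ (BrMu_Xi x s (V, W) + b) ∂(volE d) ≤ ∫ _V, (1 : ℝ) ∂(volE d) :=
          integral_mono hiV (integrable_const _) (fun V => hp1 _)
      _ = 1 := by simp
  have hintG : Integrable (fun W : LabT d => ∫ V, psiF θ (BrMu_Xi x s (V, W) + b) ∂(volE d)) (volE d) := by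
    refine Integrable.of_bound hG.aestronglyMeasurable 1 (Filter.Eventually.of_forall fun W => ?_)
    have := norm_integral_le_of_norm_le_const (μ := volE d)
      (f := fun V => psiF θ (BrMu_Xi x s (V, W) + b)) (C := 1)
      (Filter.Eventually.of_forall fun V => by rw [Real.norm_eq_abs]; exact hpa _)
    simpa using this
  have hint : Integrable (fun W : LabT d => 1 - ∫ V, psiF θ (BrMu_Xi x s (V, W) + b) ∂(volE d)) (volE d) :=
    (integrable_const 1).sub hintG
  have key := BrMu_int_active (x, j - 1) ε₀ hint ?_ ?_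
  · have e : ∫ W, (1 - ∫ V, psiF θ (BrMu_Xi x s (V, W) + b) ∂(volE d)) ∂(volE d)
        = 1 - ∫ W, ∫ V, psiF θ (BrMu_Xi x s (V, W) + b) ∂(volE d) ∂(volE d) := by
      rw [integral_sub (integrable_const 1) hintG]
      simp
    rw [e] at key
    linarith
  · intro W hW
    have hact : inA s (x, j - 1) W := by
      refine ⟨hW, ?_⟩
      show ((j - 1 : ℤ) : ℝ) + 2 * (W (x, j - 1) : ℝ) < s
      push_cast
      linarith
    have hsum := BrMu_sum_le (BrMu_indep x s W) (BrMu_meas_V x s W) (BrMu_summable_a s)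
      (BrMu_a_nonneg s) (BrMu_Y_abs x s W) hpc hpa (c := 1 - ε₀) (j - 1) ?_ b
    · have e : ∀ V : LabT d, BrMu_Xi x s (V, W) = ∑' i, BrMu_Y x s W i V := fun _ => rfl
      simp only [e]
      linarith
    · intro b'
      have hlaw := BrMu_law_active hact
      have hY : Measurable (fun y : ℝ => psiF θ (y + b')) :=
        hpc.measurable.comp (measurable_id.add measurable_const)
      have e1 : ∫ V, psiF θ (BrMu_Y x s W (j - 1) V + b') ∂(volE d)
          = ∫ v : unitInterval, psiF θ (BrMu_g κ v + b') := by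
        rw [← integral_map (BrMu_meas_V x s W (j - 1)).aemeasurable hY.aestronglyMeasurable, hlaw,
          integral_map (BrMu_meas_g _).aemeasurable hY.aestronglyMeasurable]
      rw [e1]
      have h3 := BrMu_ac_g hκ0 hκ1 b'
      have hg' : Measurable (fun v : unitInterval => BrMu_g κ v + b') :=
        (BrMu_meas_g κ).add measurable_const
      have i1 : Integrable (fun v : unitInterval => Real.tanh (BrMu_g κ v + b') ^ 2) :=
        Integrable.of_bound ((Nish_aux_measurable_tanh.pow_const 2).comp hg').aestronglyMeasurable 1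
          (Filter.Eventually.of_forall fun v => by
            rw [Real.norm_eq_abs, abs_of_nonneg (sq_nonneg _)]
            exact (Real.tanh_sq_lt_one _).le)
      have i2 : Integrable (fun v : unitInterval => psiF θ (BrMu_g κ v + b')) :=
        Integrable.of_bound (hpc.measurable.comp hg').aestronglyMeasurable 1
          (Filter.Eventually.of_forall fun v => by
            rw [Real.norm_eq_abs]
            exact hpa _)
      calc ∫ v : unitInterval, psiF θ (BrMu_g κ v + b')
          ≤ ∫ v : unitInterval, (1 - (1 - θ ^ 2) * Real.tanh (BrMu_g κ v + b') ^ 2) :=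
            integral_mono i2 ((integrable_const 1).sub (i1.const_mul _))
              (fun v => psiF_le h0.le h1 _)
        _ = 1 - (1 - θ ^ 2) * ∫ v : unitInterval, Real.tanh (BrMu_g κ v + b') ^ 2 := by
            rw [integral_sub (integrable_const 1) (i1.const_mul _), integral_const_mul]
            simp
        _ ≤ 1 - ε₀ := by
            rw [hε₀]
            have := mul_le_mul_of_nonneg_left h3 hθ.le
            linarith
  · intro W _
    have := hle1 W
    linarith

end Site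

end Vale.Agent.Lib.P161B
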