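import Vale.Agent.Lib.P161B.Bridge

/-!
The four rate bounds, packaged for `ode_final`: the hypotheses of the differential inequality argument for
`rD`, from the window inequality and the static theorems.
-/

namespace Vale.Agent.Lib.P161B

open MeasureTheory ProbabilityTheory Filter Set
open Vale.Agent.Lib.P161
open scoped Topology

variable {d : ℕ} {θ : ℝ} [Corr θ]

/-- The rate predicate. -/
def BndD (hd : 0 < d) (θ : ℝ) [Corr θ] (s B : ℝ) : Prop :=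
  ∀ R : ℕ, (St (θ := θ) (d := d) hd s).BBn (kp ⌊s⌋) R ≤ B

/-! ### Elementary facts -/

lemma two_block {j : ℤ} {s : ℝ} (h1 : (j : ℝ) ≤ s) (h2 : s < j + 1) :
    (2 : ℝ) ^ j ≤ (2 : ℝ) ^ s ∧ (2 : ℝ) ^ s ≤ 2 * (2 : ℝ) ^ j := by
  constructor
  · rw [← Real.rpow_intCast]
    exact Real.rpow_le_rpow_of_exponent_le (by norm_num) h1
  · have h3 : (2 : ℝ) ^ s ≤ (2 : ℝ) ^ ((j : ℝ) + 1) :=
      Real.rpow_le_rpow_of_exponent_le (by norm_num) h2.le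
    rw [Real.rpow_add (by norm_num), Real.rpow_intCast, Real.rpow_one] at h3
    linarith

lemma floor_block {j : ℤ} {s : ℝ} (h1 : (j : ℝ) ≤ s) (h2 : s < j + 1) : ⌊s⌋ = j :=
  Int.floor_eq_iff.mpr ⟨h1, h2⟩

lemma log_part {ε l a y c3 : ℝ} (hε0 : 0 < ε) (hε1 : ε ≤ 1) (hl : 0 ≤ l) (ha : 0 < a) (hy : 0 < y)
    (h : a * y ≤ ε) (hc3 : 1 / a ≤ c3) :
    0 ≤ Real.log ((1 + l) / ε) ∧ Real.log ((1 + l) / ε) ≤ Real.log (c3 * (1 + l) * y⁻¹) := by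
  have h1 : 0 < (1 + l) / ε := by positivity
  constructor
  · apply Real.log_nonneg
    rw [le_div_iff₀ hε0]; nlinarith
  · apply Real.log_le_log h1
    have h2 : (1 + l) / ε ≤ (1 + l) / (a * y) :=
      div_le_div_of_nonneg_left (by positivity) (by positivity) h
    have h3 : (1 + l) / (a * y) = (1 / a) * (1 + l) * y⁻¹ := by
      field_simp
    rw [h3] at h2
    refine h2.trans ?_
    gcongr

lemma exp_part {ε l a y c3 c2 D : ℝ} (hε0 : 0 < ε) (hε1 : ε ≤ 1) (hl : 0 ≤ l) (ha : 0 < a) (hy : 0 < y)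
    (h : a * y ≤ ε) (hc3 : 1 / a ≤ c3) (hc2 : ε / D ≤ c2 * y) (hc20 : 0 ≤ c2) :
    Real.exp (ε / D * Real.log ((1 + l) / ε)) ≤ Real.exp (c2 * y * Real.log (c3 * (1 + l) * y⁻¹)) := by
  apply Real.exp_le_exp.mpr
  obtain ⟨h1, h2⟩ := log_part hε0 hε1 hl ha hy h hc3
  have h3 : ε / D * Real.log ((1 + l) / ε) ≤ c2 * y * Real.log ((1 + l) / ε) :=
    mul_le_mul_of_nonneg_right hc2 h1
  refine h3.trans ?_
  exact mul_le_mul_of_nonneg_left h2 (by positivity)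

/-- `SCF` when `X` is bounded below. -/
lemma SCF_large {c x X l : ℝ} (hc : 0 < c) (hc1 : c ≤ 1) (hx : 0 < x) (hxX : x ≤ X) (hX : X ≤ 1) (hl : 0 ≤ l) :
    SCF (c * X) l ≤ ((c * x)⁻¹) ^ 3 * ((c * x)⁻¹ * √(1 + l)) := by
  have hX0 : 0 < X := hx.trans_le hxX
  have he0 : 0 < c * x := by positivity
  have hε0 : 0 < c * X := by positivity
  have hε1 : c * X ≤ 1 := by nlinarith
  have hεe : c * x ≤ c * X := by gcongr
  have hinv : (c * X)⁻¹ ≤ (c * x)⁻¹ := inv_anti₀ he0 hεe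
  unfold SCF
  have h1 : Real.exp (c * X / 6 * Real.log ((1 + l) / (c * X))) ≤ (c * x)⁻¹ * √(1 + l) := by
    have hl1 : 0 < 1 + l := by linarith
    have hlog1 : 0 ≤ Real.log (1 + l) := Real.log_nonneg (by linarith)
    have hlog2 : 0 ≤ Real.log (c * X)⁻¹ := by
      apply Real.log_nonneg
      exact (one_le_inv₀ hε0).mpr hε1
    have hlog3 : Real.log (c * X)⁻¹ ≤ Real.log (c * x)⁻¹ := Real.log_le_log (inv_pos.mpr hε0) hinv
    have heq : Real.log ((1 + l) / (c * X)) = Real.log (1 + l) + Real.log (c * X)⁻¹ := by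
      rw [div_eq_mul_inv, Real.log_mul hl1.ne' (inv_pos.mpr hε0).ne']
    have hrhs : (c * x)⁻¹ * √(1 + l) = Real.exp (Real.log (c * x)⁻¹ + Real.log (1 + l) / 2) := by
      rw [Real.exp_add, Real.exp_log (inv_pos.mpr he0), ← Real.log_sqrt hl1.le,
        Real.exp_log (Real.sqrt_pos.mpr hl1)]
    rw [hrhs]
    apply Real.exp_le_exp.mpr
    rw [heq]
    have h6 : c * X / 6 ≤ 1 / 6 := by linarith
    have h7 : 0 ≤ c * X / 6 := by positivity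
    nlinarith
  have h2 : ((c * X)⁻¹) ^ 3 ≤ ((c * x)⁻¹) ^ 3 := by gcongr
  exact mul_le_mul h2 h1 (Real.exp_pos _).le (by positivity)

/-- `SCF` at small scales. -/
lemma SCF_small {c c' C' X l y c3 c2 : ℝ} (hc : 0 < c) (hc1 : c ≤ 1) (hc' : 0 < c') (hy : 0 < y)
    (h1 : c' * y ≤ X) (h2 : X ≤ 2 * C' * y) (hX : X ≤ 1) (hl : 0 ≤ l) (hc3 : 1 / (c * c') ≤ c3)
    (hc2 : C' ≤ c2) (hc20 : 0 ≤ c2) :
    SCF (c * X) l ≤ ((c * c')⁻¹) ^ 3 * ((y⁻¹) ^ 3 * Real.exp (c2 * y * Real.log (c3 * (1 + l) * y⁻¹))) := by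
  have hX0 : 0 < X := lt_of_lt_of_le (by positivity) h1
  have hε0 : 0 < c * X := by positivity
  have hε1 : c * X ≤ 1 := by nlinarith
  have ha : 0 < c * c' := by positivity
  have he : c * c' * y ≤ c * X := by nlinarith
  have hinv : (c * X)⁻¹ ≤ (c * c')⁻¹ * y⁻¹ := by
    rw [← mul_inv]
    exact inv_anti₀ (by positivity) he
  have h3 : ((c * X)⁻¹) ^ 3 ≤ ((c * c')⁻¹) ^ 3 * (y⁻¹) ^ 3 := by
    rw [← mul_pow]; gcongr
  have h4 : c * X / 6 ≤ c2 * y := by nlinarith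
  have h5 := exp_part (D := 6) hε0 hε1 hl ha hy he hc3 h4 hc20
  unfold SCF
  calc ((c * X)⁻¹) ^ 3 * Real.exp (c * X / 6 * Real.log ((1 + l) / (c * X)))
      ≤ (((c * c')⁻¹) ^ 3 * (y⁻¹) ^ 3) * Real.exp (c2 * y * Real.log (c3 * (1 + l) * y⁻¹)) :=
        mul_le_mul h3 h5 (Real.exp_pos _).le (by positivity)
    _ = _ := by ring

/-- `SDF` at small scales. -/
lemma SDF_small {c c' C' X l y c3 c2 : ℝ} (hc : 0 < c) (hc1 : c ≤ 1) (hc' : 0 < c') (hy : 0 < y)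
    (h1 : c' * y ≤ X) (h2 : X ≤ 2 * C' * y) (hX : X ≤ 1) (hl : 0 ≤ l) (hc3 : 1 / (c * c') ≤ c3)
    (hc2 : C' ≤ c2) (hc20 : 0 ≤ c2) :
    SDF (c * X) l ≤ (c * c')⁻¹ * (y⁻¹ * Real.exp (c2 * y * Real.log (c3 * (1 + l) * y⁻¹))) := by
  have hX0 : 0 < X := lt_of_lt_of_le (by positivity) h1
  have hε0 : 0 < c * X := by positivity
  have hε1 : c * X ≤ 1 := by nlinarith
  have ha : 0 < c * c' := by positivity
  have he : c * c' * y ≤ c * X := by nlinarith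
  have hinv : (c * X)⁻¹ ≤ (c * c')⁻¹ * y⁻¹ := by
    rw [← mul_inv]
    exact inv_anti₀ (by positivity) he
  have h4 : c * X / 14 ≤ c2 * y := by nlinarith
  have h5 := exp_part (D := 14) hε0 hε1 hl ha hy he hc3 h4 hc20
  unfold SDF
  calc (c * X)⁻¹ * Real.exp (c * X / 14 * Real.log ((1 + l) / (c * X)))
      ≤ ((c * c')⁻¹ * y⁻¹) * Real.exp (c2 * y * Real.log (c3 * (1 + l) * y⁻¹)) :=
        mul_le_mul hinv h5 (Real.exp_pos _).le (by positivity)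
    _ = _ := by ring

/-- `SDF` when the logarithm is controlled: the exponential factor is bounded. -/
lemma SDF_sm {c c' C' X l y : ℝ} (hc : 0 < c) (hc1 : c ≤ 1) (hc' : 0 < c') (hy : 0 < y) (hy1 : y ≤ 1)
    (h1 : c' * y ≤ X) (h2 : X ≤ 2 * C' * y) (hX : X ≤ 1) (hl : 0 ≤ l) (hly : l ≤ y⁻¹) :
    SDF (c * X) l ≤ (c * c')⁻¹ * y⁻¹ * Real.exp (C' * (|Real.log (2 / (c * c'))| + 2)) := by
  have hX0 : 0 < X := lt_of_lt_of_le (by positivity) h1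
  have hC' : 0 < C' := by
    by_contra hneg
    push Not at hneg
    nlinarith
  have hε0 : 0 < c * X := by positivity
  have hε1 : c * X ≤ 1 := by nlinarith
  have ha : 0 < c * c' := by positivity
  have he : c * c' * y ≤ c * X := by nlinarith
  have hinv : (c * X)⁻¹ ≤ (c * c')⁻¹ * y⁻¹ := by
    rw [← mul_inv]
    exact inv_anti₀ (by positivity) he
  have hyi : 1 ≤ y⁻¹ := (one_le_inv₀ hy).mpr hy1
  have hlog : Real.log ((1 + l) / (c * X)) ≤ |Real.log (2 / (c * c'))| + 2 * y⁻¹ := by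
    have h3 : (1 + l) / (c * X) ≤ 2 / (c * c') * y⁻¹ * y⁻¹ := by
      have h3a : 1 + l ≤ 2 * y⁻¹ := by linarith
      calc (1 + l) / (c * X) = (1 + l) * (c * X)⁻¹ := div_eq_mul_inv _ _
        _ ≤ (2 * y⁻¹) * ((c * c')⁻¹ * y⁻¹) := by gcongr
        _ = _ := by rw [div_eq_mul_inv]; ring
    have h4 : 0 < (1 + l) / (c * X) := by positivity
    have h5 := Real.log_le_log h4 h3
    have hA : 0 < 2 / (c * c') := by positivity
    have hyi0 : 0 < y⁻¹ := by positivity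
    rw [Real.log_mul (by positivity) hyi0.ne', Real.log_mul hA.ne' hyi0.ne'] at h5
    have h6 : Real.log y⁻¹ ≤ y⁻¹ - 1 := Real.log_le_sub_one_of_pos hyi0
    have h7 := le_abs_self (Real.log (2 / (c * c')))
    linarith
  have hlog0 := (log_part (c3 := 1 / (c * c')) hε0 hε1 hl ha hy he le_rfl).1
  have hexp : Real.exp (c * X / 14 * Real.log ((1 + l) / (c * X))) ≤
      Real.exp (C' * (|Real.log (2 / (c * c'))| + 2)) := by
    apply Real.exp_le_exp.mpr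
    have h8 : c * X / 14 ≤ C' * y := by nlinarith
    have h9 : c * X / 14 * Real.log ((1 + l) / (c * X)) ≤ C' * y * (|Real.log (2 / (c * c'))| + 2 * y⁻¹) :=
      mul_le_mul h8 hlog hlog0 (by positivity)
    refine h9.trans ?_
    have h10 : y * y⁻¹ = 1 := mul_inv_cancel₀ hy.ne'
    have h11 := abs_nonneg (Real.log (2 / (c * c')))
    have h12 : C' * y * (|Real.log (2 / (c * c'))| + 2 * y⁻¹) =
        C' * (y * |Real.log (2 / (c * c'))| + 2 * (y * y⁻¹)) := by ring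
    rw [h12, h10]
    have h13 : y * |Real.log (2 / (c * c'))| ≤ |Real.log (2 / (c * c'))| := by nlinarith
    apply mul_le_mul_of_nonneg_left _ hC'.le
    linarith
  unfold SDF
  exact mul_le_mul hinv hexp (Real.exp_pos _).le (by positivity)

lemma eight_zpow (j : ℤ) : (8 : ℝ) ^ (-j) = (((2 : ℝ) ^ j)⁻¹) ^ 3 := by
  rw [show (8 : ℝ) = (2 : ℝ) ^ (3 : ℕ) by norm_num, ← zpow_natCast (2 : ℝ) 3, ← zpow_mul, ← zpow_neg,
    ← zpow_natCast ((2 : ℝ) ^ (-j)) 3, ← zpow_mul]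
  congr 1
  push_cast
  ring

lemma four_zpow (j : ℤ) : (4 : ℝ) ^ j = ((2 : ℝ) ^ j) ^ 2 := by
  rw [show (4 : ℝ) = (2 : ℝ) ^ (2 : ℕ) by norm_num, ← zpow_natCast (2 : ℝ) 2, ← zpow_mul,
    ← zpow_natCast ((2 : ℝ) ^ j) 2, ← zpow_mul]
  congr 1
  push_cast
  ring

lemma tanh4_le_one (h : ℝ) : Real.tanh h ^ 4 ≤ 1 := by
  have h1 : |Real.tanh h| ≤ 1 := by
    rw [abs_le]
    exact ⟨(Real.neg_one_lt_tanh h).le, (Real.tanh_lt_one h).le⟩
  have h2 : Real.tanh h ^ 4 = |Real.tanh h| ^ 4 := by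
    rw [show 4 = 2 * 2 by norm_num, pow_mul, pow_mul, sq_abs]
  rw [h2]
  exact pow_le_one₀ (abs_nonneg _) h1

omit [Corr θ] in
/-- The error is at most the second moment. -/
lemma setting_r_le {μ : Measure ℝ} {Ω : Type*} [MeasurableSpace Ω] {P : Measure Ω} [IsProbabilityMeasure P]
    (S : Setting d θ μ Ω P) (hm : Measurable (S.m root)) (hb : ∀ ω, |S.m root ω| ≤ 1) :
    S.r ≤ ∫ ω, S.m root ω ^ 2 ∂P := by
  have hGle := S.G_le
  set f := S.m root with hf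
  have hfi : Integrable f P := Integrable.of_bound hm.aestronglyMeasurable 1
    (ae_of_all _ (fun ω => by simpa using hb ω))
  set g : Ω → ℝ := S.Pi f with hg
  have hgb : ∀ᵐ ω ∂P, |g ω| ≤ 1 := by
    exact ae_bdd_abs_condExp_of_ae_bdd_abs (m := S.G) (μ := P) (R := (1 : ℝ)) (f := f) (ae_of_all _ hb)
  have hg_sm : StronglyMeasurable[S.G] g := stronglyMeasurable_condExp
  have hgm : AEStronglyMeasurable g P := (hg_sm.mono hGle).aestronglyMeasurable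
  have hgi : Integrable g P := Integrable.of_bound hgm 1 (by simpa using hgb)
  have hfg : Integrable (f * g) P := by
    refine Integrable.of_bound (hm.aestronglyMeasurable.mul hgm) 1 ?_
    filter_upwards [hgb] with ω hω
    rw [Pi.mul_apply, Real.norm_eq_abs, abs_mul]
    have := hb ω
    have h0 := abs_nonneg (f ω)
    have h1 := abs_nonneg (g ω)
    nlinarith
  have hgg : Integrable (fun ω => g ω ^ 2) P := by
    refine Integrable.of_bound (hgm.pow 2) 1 ?_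
    filter_upwards [hgb] with ω hω
    rw [Real.norm_eq_abs, abs_pow]
    exact pow_le_one₀ (abs_nonneg _) hω
  have hff : Integrable (fun ω => f ω ^ 2) P := by
    refine Integrable.of_bound (hm.aestronglyMeasurable.pow 2) 1 (ae_of_all _ (fun ω => ?_))
    rw [Real.norm_eq_abs, abs_pow]
    exact pow_le_one₀ (abs_nonneg _) (hb ω)
  have key : ∫ ω, f ω * g ω ∂P = ∫ ω, g ω ^ 2 ∂P := by
    have h1 : P[f * g | S.G] =ᵐ[P] P[f | S.G] * g :=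
      condExp_mul_of_stronglyMeasurable_right hg_sm hfg hfi
    calc ∫ ω, f ω * g ω ∂P = ∫ ω, (P[f * g | S.G]) ω ∂P := (integral_condExp hGle).symm
      _ = ∫ ω, g ω ^ 2 ∂P := by
        apply integral_congr_ae
        filter_upwards [h1] with ω hω
        rw [hω, Pi.mul_apply, sq]
        rfl
  have hexp : ∫ ω, S.dm root ω ^ 2 ∂P = ∫ ω, f ω ^ 2 ∂P - ∫ ω, g ω ^ 2 ∂P := by
    have h2 : ∀ ω, S.dm root ω ^ 2 = f ω ^ 2 - 2 * (f ω * g ω) + g ω ^ 2 := by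
      intro ω
      have : S.dm root ω = f ω - g ω := rfl
      rw [this]; ring
    simp_rw [h2]
    have hfg2 : Integrable (fun ω => 2 * (f ω * g ω)) P := hfg.const_mul 2
    have hsub : Integrable (fun ω => f ω ^ 2 - 2 * (f ω * g ω)) P := hff.sub hfg2
    rw [integral_add hsub hgg, integral_sub hff hfg2, integral_const_mul, key]
    ring
  have h3 : 0 ≤ ∫ ω, g ω ^ 2 ∂P := integral_nonneg (fun ω => sq_nonneg _)
  show ∫ ω, S.dm root ω ^ 2 ∂P ≤ ∫ ω, f ω ^ 2 ∂P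
  linarith

lemma St_m_meas (hd : 0 < d) (s : ℝ) :
    Measurable ((St (θ := θ) (d := d) hd s).m root) :=
  (measurable_mm θ root).comp (measurable_yS' s)

lemma rD_nonneg (hd : 0 < d) (s : ℝ) : 0 ≤ rD (θ := θ) (d := d) hd s :=
  integral_nonneg (fun _ => sq_nonneg _)

lemma rD_le (h1 : θ < 1) (hd : 0 < d) (s : ℝ) :
    rD (θ := θ) (d := d) hd s ≤ ∫ ω, mm θ root (yS s ω) ^ 2 ∂(PD d θ) :=
  setting_r_le (St (θ := θ) (d := d) hd s) (St_m_meas hd s) (fun ω => mm_yS_le_one h1 s ω root)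

lemma rD_le_one (h1 : θ < 1) (hd : 0 < d) (s : ℝ) : rD (θ := θ) (d := d) hd s ≤ 1 := by
  refine (rD_le h1 hd s).trans ?_
  have h2 : ∫ ω, mm θ root (yS s ω) ^ 2 ∂(PD d θ) ≤ ∫ _, (1 : ℝ) ∂(PD d θ) := by
    apply integral_mono_of_nonneg (ae_of_all _ (fun _ => sq_nonneg _)) (integrable_const 1)
    refine ae_of_all _ (fun ω => ?_)
    have := mm_yS_le_one (d := d) h1 s ω root
    show mm θ root (yS s ω) ^ 2 ≤ 1
    rw [← sq_abs]
    exact pow_le_one₀ (abs_nonneg _) this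
  simpa using h2

lemma rD_tendsto (hd : 3 ≤ d) (C : Crit (d - 1) θ) :
    Tendsto (rD (θ := θ) (d := d) (by omega)) atBot (𝓝 0) := by
  obtain ⟨s0, K, hs0, hK, hmom⟩ := m_moment hd C 1
  have hup : Tendsto (fun s : ℝ => K * (2 : ℝ) ^ s) atBot (𝓝 0) := by
    have h1 : Tendsto (fun s : ℝ => (2 : ℝ) ^ s) atBot (𝓝 0) :=
      tendsto_rpow_atBot_of_base_gt_one 2 (by norm_num)
    simpa using h1.const_mul K
  refine tendsto_of_tendsto_of_tendsto_of_le_of_le' tendsto_const_nhds hup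
    (Eventually.of_forall (fun s => rD_nonneg _ s)) ?_
  filter_upwards [eventually_le_atBot s0] with s hs
  have h2 := hmom s hs
  simp only [mul_one, pow_one] at h2
  exact (rD_le C.h1 _ s).trans h2

/-! ### Regularity of the field law at each time -/

lemma X_le_one (hd : 3 ≤ d) (C : Crit (d - 1) θ) (s : ℝ) :
    Xv d (by omega) θ (muS d θ (by omega) s) ≤ 1 := by
  obtain ⟨x, _, h⟩ := X_large hd C ⌊s⌋
  exact (h s (Int.floor_le s)).2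

lemma mu_bd' (hd : 0 < d) {s M : ℝ} (h : Mb s ≤ M) : ∀ᵐ x ∂(muS d θ hd s), |x| ≤ M := by
  filter_upwards [mu_bd (θ := θ) hd s] with x hx using hx.trans h

/-- Large times. -/
theorem big_bound (hd : 3 ≤ d) (C : Crit (d - 1) θ) (j : ℤ) :
    ∃ K : ℝ, 0 ≤ K ∧ ∀ s, (j : ℝ) ≤ s → s < j + 1 → ∀ rbar, rD (θ := θ) (d := d) (by omega) s ≤ rbar →
      0 < rbar → rbar ≤ 1 →
      BndD (d := d) (by omega) θ s (K * rbar * √(1 + Real.log (1 / rbar))) := by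
  have hd0 : 0 < d := by omega
  have hd2 : 2 ≤ d := by omega
  obtain ⟨x, hx, hX⟩ := X_large hd C j
  obtain ⟨K1, c1, hK1, hc1, hc11, hSC⟩ := static_SC hd C (Mb (j + 1)) (1 / x ^ 2)
  refine ⟨K1 * (((c1 * x)⁻¹) ^ 3 * (c1 * x)⁻¹), by positivity, ?_⟩
  intro s h1 h2 rbar hr hr0 hr1 R
  rw [floor_block h1 h2]
  obtain ⟨hx1, hx2⟩ := hX s h1
  have hnish : Nish (muS d θ hd0 s) := mu_nish C.h0 C.h1 hd0 s
  have hreg : Reg d hd0 θ (muS d θ hd0 s) (Mb (j + 1)) (1 / x ^ 2) := by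
    refine ⟨hnish, mu_bd' hd0 (Mb_mono h2.le), hx.trans_le hx1, ?_⟩
    have hcav : Nish (cavL d hd0 θ (muS d θ hd0 s)) := cavL_nish hd2 C.h1 hnish
    have := hcav.prob
    have h3 : ∫ h, Real.tanh h ^ 4 ∂(cavL d hd0 θ (muS d θ hd0 s)) ≤ 1 := by
      have h4 : ∫ h, Real.tanh h ^ 4 ∂(cavL d hd0 θ (muS d θ hd0 s)) ≤
          ∫ _, (1 : ℝ) ∂(cavL d hd0 θ (muS d θ hd0 s)) :=
        integral_mono_of_nonneg (ae_of_all _ (fun h => by positivity)) (integrable_const 1)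
          (ae_of_all _ tanh4_le_one)
      simpa using h4
    refine h3.trans ?_
    rw [div_mul_eq_mul_div, one_mul, one_le_div (by positivity)]
    exact pow_le_pow_left₀ hx.le hx1 2
  have hl : 0 ≤ Real.log (1 / rbar) := Real.log_nonneg (by rw [one_le_div hr0]; exact hr1)
  have h3 := hSC (muS d θ hd0 s) hreg (St (θ := θ) (d := d) hd0 s) (kp j) (kp_pos j).le (kp_le j) R rbar hr hr0 hr1
  refine h3.trans ?_
  have h4 := SCF_large hc1 hc11 hx hx1 hx2 hl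
  calc K1 * rbar * SCF (c1 * Xv d hd0 θ (muS d θ hd0 s)) (Real.log (1 / rbar))
      ≤ K1 * rbar * (((c1 * x)⁻¹) ^ 3 * ((c1 * x)⁻¹ * √(1 + Real.log (1 / rbar)))) := by
        apply mul_le_mul_of_nonneg_left h4 (by positivity)
    _ = _ := by ring

/-- Small times: the two rates at all scales of `r`. -/
theorem exists_small_data (hd : 3 ≤ d) (C : Crit (d - 1) θ) :
    ∃ (j0 : ℤ) (KC c2 c3 KD c5 : ℝ), j0 ≤ 0 ∧ 0 ≤ KC ∧ 0 < c2 ∧ c2 * (2 : ℝ) ^ j0 ≤ 1 / 2 ∧ 1 ≤ c3 ∧ 0 ≤ KD ∧ 0 < c5 ∧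
      (∀ j : ℤ, j < j0 → ∀ s, (j : ℝ) ≤ s → s < j + 1 → ∀ rbar, rD (θ := θ) (d := d) (by omega) s ≤ rbar →
        0 < rbar → rbar ≤ 1 →
        BndD (d := d) (by omega) θ s (KC * rbar * ((8 : ℝ) ^ (-j) *
          Real.exp (c2 * (2 : ℝ) ^ j * Real.log (c3 * (1 + Real.log (1 / rbar)) * (2 : ℝ) ^ (-j)))))) ∧
      (∀ j : ℤ, j < j0 → ∀ s, (j : ℝ) ≤ s → s < j + 1 → ∀ rbar, rD (θ := θ) (d := d) (by omega) s ≤ rbar →
        0 < rbar → rbar ≤ 1 → ∀ Q : ℕ, c5 ≤ (2 : ℝ) ^ j * Q →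
        BndD (d := d) (by omega) θ s (KD * (rbar * (Q : ℝ) ^ 2 + Real.exp (- (Q : ℝ) / 2) + (2 : ℝ) ^ j * rbar *
          Real.exp (c2 * (2 : ℝ) ^ j * Real.log (c3 * (1 + Real.log (1 / rbar)) * (2 : ℝ) ^ (-j)))))) := by
  have hd0 : 0 < d := by omega
  have hd2 : 2 ≤ d := by omega
  obtain ⟨s0, c', C', C4, hs0, hc', hC', hC4, hXs⟩ := X_small hd C
  obtain ⟨K1, c1, hK1, hc1, hc11, hSC⟩ := static_SC hd C (Mb 0) C4
  obtain ⟨K2, cD, hK2, hcD, hcD1, hSD⟩ := static_SD hd C (Mb 0) C4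
  obtain ⟨K3, hK3, hT⟩ := static_tau hd C (Mb 0)
  have hc1' : 0 < c1 * c' := by positivity
  have hcD' : 0 < cD * c' := by positivity
  -- the block facts
  have block : ∀ (j : ℤ), j < min (⌊s0⌋ - 1) 0 → ∀ s, (j : ℝ) ≤ s → s < j + 1 →
      j ≤ 0 ∧ s ≤ 0 ∧ 0 < (2 : ℝ) ^ j ∧
      c' * (2 : ℝ) ^ j ≤ Xv d hd0 θ (muS d θ hd0 s) ∧
      Xv d hd0 θ (muS d θ hd0 s) ≤ 2 * C' * (2 : ℝ) ^ j ∧
      Xv d hd0 θ (muS d θ hd0 s) ≤ 1 ∧
      Reg d hd0 θ (muS d θ hd0 s) (Mb 0) C4 := by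
    intro j hj s h1 h2
    have hj1 : j < ⌊s0⌋ - 1 := lt_of_lt_of_le hj (min_le_left _ _)
    have hj2 : j < 0 := lt_of_lt_of_le hj (min_le_right _ _)
    have hj3 : ((j : ℝ) + 1) ≤ 0 := by
      have : j + 1 ≤ 0 := by omega
      exact_mod_cast this
    have hj4 : (j : ℝ) + 1 ≤ s0 := by
      have h5 : j + 1 ≤ ⌊s0⌋ := by omega
      have h6 : ((j + 1 : ℤ) : ℝ) ≤ ((⌊s0⌋ : ℤ) : ℝ) := by exact_mod_cast h5
      push_cast at h6
      exact h6.trans (Int.floor_le s0)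
    have hss0 : s ≤ s0 := h2.le.trans hj4
    have hs00 : s ≤ 0 := h2.le.trans hj3
    obtain ⟨hb1, hb2⟩ := two_block h1 h2
    obtain ⟨hx1, hx2, hx3⟩ := hXs s hss0
    have hy : 0 < (2 : ℝ) ^ j := by positivity
    have hxl : c' * (2 : ℝ) ^ j ≤ Xv d hd0 θ (muS d θ hd0 s) :=
      (mul_le_mul_of_nonneg_left hb1 hc'.le).trans hx1
    have hxu : Xv d hd0 θ (muS d θ hd0 s) ≤ 2 * C' * (2 : ℝ) ^ j := by
      refine hx2.trans ?_
      have := mul_le_mul_of_nonneg_left hb2 hC'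
      linarith
    refine ⟨hj2.le, hs00, hy, hxl, hxu, X_le_one hd C s, mu_nish C.h0 C.h1 hd0 s, mu_bd' hd0 (Mb_mono hs00),
      lt_of_lt_of_le (by positivity) hxl, hx3⟩
  obtain ⟨n, hn⟩ := pow_unbounded_of_one_lt (2 * (C' + 1)) (by norm_num : (1 : ℝ) < 2)
  have hc2j0 : (C' + 1) * (2 : ℝ) ^ (min (min (⌊s0⌋ - 1) 0) (-(n : ℤ))) ≤ 1 / 2 := by
    have h1 : (2 : ℝ) ^ (min (min (⌊s0⌋ - 1) 0) (-(n : ℤ))) ≤ (2 : ℝ) ^ (-(n : ℤ)) :=
      zpow_le_zpow_right₀ (by norm_num) (min_le_right _ _)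
    rw [zpow_neg, zpow_natCast] at h1
    have h2 : (0 : ℝ) < 2 ^ n := by positivity
    have h3 : (C' + 1) * ((2 : ℝ) ^ n)⁻¹ ≤ 1 / 2 := by
      rw [← div_eq_mul_inv, div_le_iff₀ h2]
      linarith
    have h4 : 0 ≤ C' + 1 := by positivity
    exact (mul_le_mul_of_nonneg_left h1 h4).trans h3
  refine ⟨min (min (⌊s0⌋ - 1) 0) (-(n : ℤ)), K1 * ((c1 * c')⁻¹) ^ 3, C' + 1,
    max 1 (max (1 / (c1 * c')) (1 / (cD * c'))),
    K2 * (K3 + 1 + (cD * c')⁻¹), 1 / c', (min_le_left _ _).trans (min_le_right _ _), by positivity, by positivity,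
    hc2j0, le_max_left _ _, by positivity, by positivity, ?_, ?_⟩
  · intro j hj s h1 h2 rbar hr hr0 hr1 R
    rw [floor_block h1 h2]
    obtain ⟨hj0, hs00, hy, hxl, hxu, hX1, hreg⟩ := block j (lt_of_lt_of_le hj (min_le_left _ _)) s h1 h2
    have hl : 0 ≤ Real.log (1 / rbar) := Real.log_nonneg (by rw [one_le_div hr0]; exact hr1)
    have h3 := hSC (muS d θ hd0 s) hreg (St (θ := θ) (d := d) hd0 s) (kp j) (kp_pos j).le (kp_le j) R rbar hr hr0 hr1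
    refine h3.trans ?_
    have hc3 : 1 / (c1 * c') ≤ max 1 (max (1 / (c1 * c')) (1 / (cD * c'))) :=
      (le_max_left _ _).trans (le_max_right _ _)
    have h4 := SCF_small (c2 := C' + 1) hc1 hc11 hc' hy hxl hxu hX1 hl hc3 (by linarith) (by positivity)
    rw [eight_zpow, zpow_neg]
    calc K1 * rbar * SCF (c1 * Xv d hd0 θ (muS d θ hd0 s)) (Real.log (1 / rbar))
        ≤ K1 * rbar * (((c1 * c')⁻¹) ^ 3 * ((((2 : ℝ) ^ j)⁻¹) ^ 3 * Real.exp ((C' + 1) * (2 : ℝ) ^ j *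
            Real.log (max 1 (max (1 / (c1 * c')) (1 / (cD * c'))) * (1 + Real.log (1 / rbar)) * ((2 : ℝ) ^ j)⁻¹)))) := by
          apply mul_le_mul_of_nonneg_left h4 (by positivity)
      _ = _ := by ring
  · intro j hj s h1 h2 rbar hr hr0 hr1 Q hQ R
    rw [floor_block h1 h2]
    obtain ⟨hj0, hs00, hy, hxl, hxu, hX1, hreg⟩ := block j (lt_of_lt_of_le hj (min_le_left _ _)) s h1 h2
    have hl : 0 ≤ Real.log (1 / rbar) := Real.log_nonneg (by rw [one_le_div hr0]; exact hr1)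
    have hXQ : 1 ≤ Xv d hd0 θ (muS d θ hd0 s) * Q := by
      have h5 : c' * (2 : ℝ) ^ j * Q ≤ Xv d hd0 θ (muS d θ hd0 s) * Q :=
        mul_le_mul_of_nonneg_right hxl (Nat.cast_nonneg Q)
      have h6 : c' * (1 / c') ≤ c' * ((2 : ℝ) ^ j * Q) := mul_le_mul_of_nonneg_left hQ hc'.le
      rw [mul_one_div_cancel hc'.ne'] at h6
      linarith
    have htau : (St (θ := θ) (d := d) hd0 s).tau2 ⟨0, hd0⟩ ≤ K3 * rbar := by
      refine (hT (muS d θ hd0 s) hreg.nish hreg.bd (St (θ := θ) (d := d) hd0 s) ⟨0, hd0⟩ 1 one_pos le_rfl).2.trans ?_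
      exact mul_le_mul_of_nonneg_left hr hK3
    have h3 := hSD (muS d θ hd0 s) hreg (St (θ := θ) (d := d) hd0 s) (kp j) (kp_pos j).le (kp_le j) R rbar
      (K3 * rbar) ⟨0, hd0⟩ hr hr0 hr1 htau Q hXQ
    refine h3.trans ?_
    have hc3 : 1 / (cD * c') ≤ max 1 (max (1 / (c1 * c')) (1 / (cD * c'))) :=
      (le_max_right _ _).trans (le_max_right _ _)
    have h4 := SDF_small (c2 := C' + 1) hcD hcD1 hc' hy hxl hxu hX1 hl hc3 (by linarith) (by positivity)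
    rw [zpow_neg]
    set E := Real.exp ((C' + 1) * (2 : ℝ) ^ j *
      Real.log (max 1 (max (1 / (c1 * c')) (1 / (cD * c'))) * (1 + Real.log (1 / rbar)) * ((2 : ℝ) ^ j)⁻¹)) with hE
    have hE0 : 0 < E := Real.exp_pos _
    set y := (2 : ℝ) ^ j with hy'
    have hk : kp j ^ 2 = y ^ 2 / 4 := by
      rw [kp_sq_of_nonpos hj0, four_zpow]
    rw [hk]
    have hA : 0 < (cD * c')⁻¹ := by positivity
    have h7 : y ^ 2 / 4 * rbar * SDF (cD * Xv d hd0 θ (muS d θ hd0 s)) (Real.log (1 / rbar)) ≤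
        (cD * c')⁻¹ * (y * rbar * E) := by
      calc y ^ 2 / 4 * rbar * SDF (cD * Xv d hd0 θ (muS d θ hd0 s)) (Real.log (1 / rbar))
          ≤ y ^ 2 / 4 * rbar * ((cD * c')⁻¹ * (y⁻¹ * E)) :=
            mul_le_mul_of_nonneg_left h4 (by positivity)
        _ = (1 / 4) * ((cD * c')⁻¹ * (y * rbar * E)) := by
            field_simp
        _ ≤ _ := by
            have : 0 ≤ (cD * c')⁻¹ * (y * rbar * E) := by positivity
            linarith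
    have h8 : 0 ≤ rbar * (Q : ℝ) ^ 2 := by positivity
    have h9 : 0 < Real.exp (- (Q : ℝ) / 2) := Real.exp_pos _
    have h10 : 0 ≤ y * rbar * E := by positivity
    rw [mul_assoc K2]
    apply mul_le_mul_of_nonneg_left _ hK2
    have h11 : K3 * rbar * (Q : ℝ) ^ 2 = K3 * (rbar * (Q : ℝ) ^ 2) := by ring
    rw [h11]
    have e1 : (K3 + 1 + (cD * c')⁻¹) * (rbar * (Q : ℝ) ^ 2 + Real.exp (- (Q : ℝ) / 2) + y * rbar * E) =
        K3 * (rbar * (Q : ℝ) ^ 2) + Real.exp (- (Q : ℝ) / 2) + (cD * c')⁻¹ * (y * rbar * E) +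
        ((1 + (cD * c')⁻¹) * (rbar * (Q : ℝ) ^ 2) + (K3 + (cD * c')⁻¹) * Real.exp (- (Q : ℝ) / 2) +
          (K3 + 1) * (y * rbar * E)) := by ring
    rw [e1]
    have p1 : 0 ≤ (1 + (cD * c')⁻¹) * (rbar * (Q : ℝ) ^ 2) := by positivity
    have p2 : 0 ≤ (K3 + (cD * c')⁻¹) * Real.exp (- (Q : ℝ) / 2) := by positivity
    have p3 : 0 ≤ (K3 + 1) * (y * rbar * E) := by positivity
    linarith

omit [Corr θ] in
lemma markov_pow {Ω : Type*} [MeasurableSpace Ω] {P : Measure Ω} [IsProbabilityMeasure P] {f : Ω → ℝ}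
    (hf : Measurable f) (hb : ∀ ω, |f ω| ≤ 1) {a : ℝ} (ha : 0 < a) (n : ℕ) :
    (P {ω | a / 2 < f ω ^ 2}).toReal ≤ (2 / a) ^ n * ∫ ω, f ω ^ (2 * n) ∂P := by
  have hA : MeasurableSet {ω | a / 2 < f ω ^ 2} := measurableSet_lt measurable_const (hf.pow_const 2)
  have h1 : (P {ω | a / 2 < f ω ^ 2}).toReal = ∫ ω, Set.indicator {ω | a / 2 < f ω ^ 2} 1 ω ∂P := by
    rw [integral_indicator_one hA]
    rfl
  rw [h1, ← integral_const_mul]
  have hint : Integrable (fun ω => (2 / a) ^ n * f ω ^ (2 * n)) P := by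
    refine Integrable.const_mul (Integrable.of_bound (hf.pow_const _).aestronglyMeasurable 1
      (ae_of_all _ (fun ω => ?_))) _
    rw [Real.norm_eq_abs, abs_pow]
    exact pow_le_one₀ (abs_nonneg _) (hb ω)
  refine integral_mono ((integrable_const (1 : ℝ)).indicator hA) hint (fun ω => ?_)
  show Set.indicator {ω | a / 2 < f ω ^ 2} 1 ω ≤ (2 / a) ^ n * f ω ^ (2 * n)
  rw [pow_mul, ← mul_pow]
  by_cases hω : ω ∈ {ω | a / 2 < f ω ^ 2}
  · rw [Set.indicator_of_mem hω]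
    have h2 : 1 ≤ 2 / a * f ω ^ 2 := by
      have h3 : a / 2 < f ω ^ 2 := hω
      rw [div_mul_eq_mul_div, one_le_div ha]
      linarith
    exact one_le_pow₀ h2
  · rw [Set.indicator_of_notMem hω]
    positivity

lemma P_over_a {P a X y c' Kn : ℝ} {p : ℕ} (ha : 0 < a) (haX : a ^ 2 = X) (hc' : 0 < c') (hy : 0 < y)
    (hX : c' * y ≤ X) (hKn : 0 ≤ Kn) (hP : P ≤ (2 / a) ^ (2 * p + 1) * (Kn * (2 * y) ^ (2 * p + 1))) :
    P / a ≤ Kn * 4 ^ (2 * p + 1) * (c'⁻¹) ^ (p + 1) * y ^ p := by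
  have h1 : P / a ≤ (2 / a) ^ (2 * p + 1) * (Kn * (2 * y) ^ (2 * p + 1)) / a :=
    div_le_div_of_nonneg_right hP ha.le
  refine h1.trans ?_
  have h2 : (2 / a) ^ (2 * p + 1) * (Kn * (2 * y) ^ (2 * p + 1)) / a =
      Kn * 4 ^ (2 * p + 1) * y ^ (2 * p + 1) * ((a ^ 2) ^ (p + 1))⁻¹ := by
    have h3 : ((a ^ 2) ^ (p + 1))⁻¹ = (a ^ (2 * p + 1))⁻¹ * a⁻¹ := by
      rw [← mul_inv, ← pow_succ, ← pow_mul]
      congr 2
    rw [h3, div_pow, mul_pow, show (4 : ℝ) = 2 * 2 by norm_num, mul_pow]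
    field_simp
  rw [h2, haX]
  have h4 : (X ^ (p + 1))⁻¹ ≤ ((c' * y) ^ (p + 1))⁻¹ :=
    inv_anti₀ (by positivity) (pow_le_pow_left₀ (by positivity) hX _)
  calc Kn * 4 ^ (2 * p + 1) * y ^ (2 * p + 1) * (X ^ (p + 1))⁻¹
      ≤ Kn * 4 ^ (2 * p + 1) * y ^ (2 * p + 1) * ((c' * y) ^ (p + 1))⁻¹ :=
        mul_le_mul_of_nonneg_left h4 (by positivity)
    _ = _ := by
        have h5 : y ^ (2 * p + 1) = y ^ (p + 1) * y ^ p := by rw [← pow_add]; congr 1; ring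
        rw [h5, mul_pow, inv_pow]
        field_simp

lemma exp_Q_bound {Q X y C' : ℝ} {p : ℕ} (hy : 0 < y) (hX0 : 0 < X) (hX : X ≤ 2 * C' * y)
    (hQ : X⁻¹ ≤ Q) :
    Real.exp (- Q / 2) ≤ (p.factorial : ℝ) * (4 * C') ^ p * y ^ p := by
  have hC' : 0 < C' := by
    by_contra hneg
    push Not at hneg
    nlinarith
  set t0 := (4 * C' * y)⁻¹ with ht0
  have ht00 : 0 < t0 := by positivity
  have h1 : t0 ≤ Q / 2 := by
    have h2 : (2 * C' * y)⁻¹ ≤ X⁻¹ := inv_anti₀ hX0 hX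
    have h3 : t0 = (2 * C' * y)⁻¹ / 2 := by
      rw [ht0, show 4 * C' * y = 2 * C' * y * 2 by ring, mul_inv]; ring
    rw [h3]
    linarith
  have h2 : Real.exp (- Q / 2) ≤ Real.exp (- t0) := by
    apply Real.exp_le_exp.mpr
    linarith
  refine h2.trans ?_
  have h3 : t0 ^ p / (p.factorial : ℝ) ≤ Real.exp t0 := Real.pow_div_factorial_le_exp t0 ht00.le p
  have hf : 0 < (p.factorial : ℝ) := by positivity
  have h4 : 0 < t0 ^ p / (p.factorial : ℝ) := by positivity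
  rw [Real.exp_neg]
  have h5 := inv_anti₀ h4 h3
  refine h5.trans (le_of_eq ?_)
  rw [inv_div, ht0, inv_pow, div_inv_eq_mul, mul_pow, mul_assoc]

/-- The computation in `sm_bound`: the three terms. -/
lemma sm_real {K3 c' C' cD A0 E0 X y z rbar a Pr Sd : ℝ} {p : ℕ}
    (hK3 : 0 ≤ K3) (hc' : 0 < c') (hC' : 0 ≤ C') (hcD : 0 < cD) (hA0 : 0 ≤ A0) (hE0 : 0 < E0)
    (hy : 0 < y) (hy1 : y ≤ 1) (hz : 0 < z) (hz1 : z ≤ 1) (hzy : z ^ 2 = y) (hxl : c' * y ≤ X)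
    (hxu : X ≤ 2 * C' * y) (hX1 : X ≤ 1) (hr0 : 0 < rbar) (ha0 : 0 < a) (haX : a ^ 2 = X) (hPr0 : 0 ≤ Pr)
    (hPa : Pr / a ≤ A0 * y ^ p) (hSDF : Sd ≤ (cD * c')⁻¹ * y⁻¹ * E0) :
    K3 * (a * rbar + Pr / a) * ((⌈X⁻¹⌉₊ : ℕ) : ℝ) ^ 2 + Real.exp (- ((⌈X⁻¹⌉₊ : ℕ) : ℝ) / 2) +
      y ^ 2 / 4 * rbar * Sd ≤
    (K3 * (4 * (c'⁻¹) ^ 2) * (√(2 * C') + A0) + (p.factorial : ℝ) * (4 * C') ^ p + (cD * c')⁻¹ * E0) *
      (y⁻¹) ^ 2 * (z * rbar + y ^ p) := by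
  have hX0 : 0 < X := lt_of_lt_of_le (by positivity) hxl
  obtain ⟨b1, hb1⟩ : ∃ b1, b1 = √(2 * C') := ⟨_, rfl⟩
  have hb10 : 0 ≤ b1 := by rw [hb1]; exact Real.sqrt_nonneg _
  obtain ⟨cc, hcc⟩ : ∃ cc, cc = 4 * (c'⁻¹) ^ 2 := ⟨_, rfl⟩
  have hcc0 : 0 ≤ cc := by rw [hcc]; positivity
  obtain ⟨pf, hpf⟩ : ∃ pf, pf = (p.factorial : ℝ) * (4 * C') ^ p := ⟨_, rfl⟩
  have hpf0 : 0 ≤ pf := by rw [hpf]; positivity
  obtain ⟨De, hDe⟩ : ∃ De, De = (cD * c')⁻¹ * E0 := ⟨_, rfl⟩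
  have hDe0 : 0 ≤ De := by rw [hDe]; positivity
  rw [← hb1, ← hcc, ← hpf, ← hDe]
  have haz : a ≤ b1 * z := by
    have h5 : √X ≤ √(2 * C' * y) := Real.sqrt_le_sqrt hxu
    rw [Real.sqrt_mul (by positivity), ← hzy, Real.sqrt_sq hz.le, ← haX, Real.sqrt_sq ha0.le, ← hb1] at h5
    exact h5
  obtain ⟨Q, hQ⟩ : ∃ Q, Q = ⌈X⁻¹⌉₊ := ⟨_, rfl⟩
  rw [← hQ]
  have hXi : 1 ≤ X⁻¹ := (one_le_inv₀ hX0).mpr hX1
  have hQ1' : X⁻¹ ≤ (Q : ℝ) := by rw [hQ]; exact Nat.le_ceil _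
  have hQ2 : (Q : ℝ) ≤ 2 * X⁻¹ := by
    have := Nat.ceil_lt_add_one (show 0 ≤ X⁻¹ by positivity)
    rw [← hQ] at this
    linarith
  have hyi : 1 ≤ y⁻¹ := (one_le_inv₀ hy).mpr hy1
  obtain ⟨W, hW⟩ : ∃ W, W = (y⁻¹) ^ 2 := ⟨_, rfl⟩
  have hW1 : 1 ≤ W := by rw [hW]; exact one_le_pow₀ hyi
  have hW0 : 0 ≤ W := by linarith
  rw [← hW]
  obtain ⟨u, hu⟩ : ∃ u, u = z * rbar := ⟨_, rfl⟩
  obtain ⟨v, hv⟩ : ∃ v, v = y ^ p := ⟨_, rfl⟩
  rw [← hu, ← hv]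
  rw [← hv] at hPa
  have hu0 : 0 ≤ u := by rw [hu]; positivity
  have hv0 : 0 ≤ v := by rw [hv]; positivity
  have hPa0 : 0 ≤ Pr / a := by positivity
  have T1 : K3 * (a * rbar + Pr / a) * (Q : ℝ) ^ 2 ≤ K3 * ((b1 * u + A0 * v) * (cc * W)) := by
    have h5 : a * rbar + Pr / a ≤ b1 * u + A0 * v := by
      have h6 : a * rbar ≤ b1 * z * rbar := mul_le_mul_of_nonneg_right haz hr0.le
      have h7 : b1 * z * rbar = b1 * u := by rw [hu]; ring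
      linarith
    have h8 : (Q : ℝ) ^ 2 ≤ cc * W := by
      have h9 : X⁻¹ ≤ c'⁻¹ * y⁻¹ := by
        rw [← mul_inv]
        exact inv_anti₀ (by positivity) hxl
      have h10 : (Q : ℝ) ≤ 2 * (c'⁻¹ * y⁻¹) := by linarith
      have h11 : (Q : ℝ) ^ 2 ≤ (2 * (c'⁻¹ * y⁻¹)) ^ 2 := pow_le_pow_left₀ (Nat.cast_nonneg Q) h10 2
      refine h11.trans (le_of_eq ?_)
      rw [hcc, hW]; ring
    rw [mul_assoc]
    apply mul_le_mul_of_nonneg_left _ hK3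
    exact mul_le_mul h5 h8 (by positivity) (by positivity)
  have T2 : Real.exp (- (Q : ℝ) / 2) ≤ pf * W * v := by
    have h5 := exp_Q_bound (p := p) hy hX0 hxu hQ1'
    rw [← hpf, ← hv] at h5
    refine h5.trans ?_
    have h7 : pf * W * v = (pf * v) * W := by ring
    rw [h7]
    exact le_mul_of_one_le_right (by positivity) hW1
  have T3 : y ^ 2 / 4 * rbar * Sd ≤ De * W * u := by
    have h5 : y ^ 2 / 4 * rbar * Sd ≤ y ^ 2 / 4 * rbar * ((cD * c')⁻¹ * y⁻¹ * E0) :=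
      mul_le_mul_of_nonneg_left hSDF (by positivity)
    refine h5.trans ?_
    have h6 : y ^ 2 / 4 * rbar * ((cD * c')⁻¹ * y⁻¹ * E0) = (1 / 4) * (De * (y * rbar)) := by
      rw [hDe]; field_simp
    rw [h6]
    have h7 : y ≤ z := by
      rw [← hzy]; exact pow_le_of_le_one hz.le hz1 (by norm_num)
    have h8 : y * rbar ≤ u := by
      rw [hu]; exact mul_le_mul_of_nonneg_right h7 hr0.le
    have h9 : De * (y * rbar) ≤ De * u := mul_le_mul_of_nonneg_left h8 hDe0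
    have h10 : De * u ≤ De * W * u := by
      have h12 : De * W * u = (De * u) * W := by ring
      rw [h12]
      exact le_mul_of_one_le_right (by positivity) hW1
    have h11 : 0 ≤ De * (y * rbar) := by positivity
    linarith
  have e1 : (K3 * cc * (b1 + A0) + pf + De) * W * (u + v) =
      K3 * ((b1 * u + A0 * v) * (cc * W)) + pf * W * v + De * W * u +
        (K3 * cc * W * (b1 * v + A0 * u) + pf * W * u + De * W * v) := by ring
  have p1 : 0 ≤ K3 * cc * W * (b1 * v + A0 * u) + pf * W * u + De * W * v := by positivity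
  linarith

/-- The rate bound with the smallness of the magnetisation. -/
theorem sm_bound (hd : 3 ≤ d) (C : Crit (d - 1) θ) (j0 : ℤ) (hj0 : j0 ≤ 0) (p : ℕ) :
    ∃ (K : ℝ) (j3 : ℤ), 0 ≤ K ∧ j3 ≤ j0 ∧ ∀ j : ℤ, j < j3 → ∀ s, (j : ℝ) ≤ s → s < j + 1 →
      ∀ rbar, rD (θ := θ) (d := d) (by omega) s ≤ rbar → 0 < rbar → rbar ≤ 1 →
      Real.log (1 / rbar) ≤ (2 : ℝ) ^ (-j) →
      BndD (d := d) (by omega) θ s (K * (4 : ℝ) ^ (-j) * ((√2) ^ j * rbar + (2 : ℝ) ^ ((p : ℤ) * j))) := by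
  have hd0 : 0 < d := by omega
  have hd2 : 2 ≤ d := by omega
  obtain ⟨s0, c', C', C4, hs0, hc', hC', hC4, hXs⟩ := X_small hd C
  obtain ⟨s1, Kn, hs1, hKn, hmom⟩ := m_moment hd C (2 * p + 1)
  obtain ⟨K2, cD, hK2, hcD, hcD1, hSD⟩ := static_SD hd C (Mb 0) C4
  obtain ⟨K3, hK3, hT⟩ := static_tau hd C (Mb 0)
  obtain ⟨A0, hA0⟩ : ∃ A0, A0 = Kn * 4 ^ (2 * p + 1) * (c'⁻¹) ^ (p + 1) := ⟨_, rfl⟩
  have hA00 : 0 ≤ A0 := by rw [hA0]; positivity
  obtain ⟨E0, hE0⟩ : ∃ E0, E0 = Real.exp (C' * (|Real.log (2 / (cD * c'))| + 2)) := ⟨_, rfl⟩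
  have hE00 : 0 < E0 := by rw [hE0]; exact Real.exp_pos _
  refine ⟨K2 * (K3 * (4 * (c'⁻¹) ^ 2) * (√(2 * C') + A0) + (p.factorial : ℝ) * (4 * C') ^ p + (cD * c')⁻¹ * E0),
    min j0 (min (⌊s0⌋ - 1) (⌊s1⌋ - 1)), by positivity, min_le_left _ _, ?_⟩
  intro j hj s h1 h2 rbar hr hr0 hr1 hlog R
  rw [floor_block h1 h2]
  have hj1 : j < j0 := lt_of_lt_of_le hj (min_le_left _ _)
  have hj2 : j < ⌊s0⌋ - 1 := lt_of_lt_of_le hj ((min_le_right _ _).trans (min_le_left _ _))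
  have hj3 : j < ⌊s1⌋ - 1 := lt_of_lt_of_le hj ((min_le_right _ _).trans (min_le_right _ _))
  have hj4 : j ≤ 0 := by omega
  have hss : ∀ t : ℝ, j < ⌊t⌋ - 1 → s ≤ t := by
    intro t ht
    have h5 : j + 1 ≤ ⌊t⌋ := by omega
    have h6 : ((j + 1 : ℤ) : ℝ) ≤ ((⌊t⌋ : ℤ) : ℝ) := by exact_mod_cast h5
    push_cast at h6
    exact h2.le.trans (h6.trans (Int.floor_le t))
  have hs00 : s ≤ 0 := by
    have h5 : ((j + 1 : ℤ) : ℝ) ≤ 0 := by
      have : j + 1 ≤ 0 := by omega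
      exact_mod_cast this
    push_cast at h5
    exact h2.le.trans h5
  obtain ⟨hb1', hb2'⟩ := two_block h1 h2
  obtain ⟨hx1, hx2, hx3⟩ := hXs s (hss s0 hj2)
  -- the powers of two
  have hpow : (2 : ℝ) ^ ((p : ℤ) * j) = ((2 : ℝ) ^ j) ^ p := by
    rw [mul_comm, zpow_mul, zpow_natCast]
  have hfour : (4 : ℝ) ^ (-j) = (((2 : ℝ) ^ j)⁻¹) ^ 2 := by
    rw [four_zpow, zpow_neg]
  have hk : kp j ^ 2 = ((2 : ℝ) ^ j) ^ 2 / 4 := by
    rw [kp_sq_of_nonpos hj4, four_zpow]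
  rw [zpow_neg] at hlog
  have hsqrt2 : (1 : ℝ) ≤ √2 := Real.one_le_sqrt.mpr (by norm_num)
  have hz1 : (√2 : ℝ) ^ j ≤ 1 := zpow_le_one_of_nonpos₀ hsqrt2 hj4
  have hz : 0 < (√2 : ℝ) ^ j := by positivity
  have hzy : ((√2 : ℝ) ^ j) ^ 2 = (2 : ℝ) ^ j := by
    rw [← zpow_natCast, ← zpow_mul, mul_comm, zpow_mul, zpow_natCast, Real.sq_sqrt (by norm_num)]
  rw [hpow, hfour]
  have hy : 0 < (2 : ℝ) ^ j := by positivity
  have hy1 : (2 : ℝ) ^ j ≤ 1 := zpow_le_one_of_nonpos₀ (by norm_num) hj4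
  obtain ⟨y, hy'⟩ : ∃ y, y = (2 : ℝ) ^ j := ⟨_, rfl⟩
  rw [← hy'] at hb1' hb2' hk hzy hy hy1 hlog ⊢
  obtain ⟨z, hz'⟩ : ∃ z, z = (√2 : ℝ) ^ j := ⟨_, rfl⟩
  rw [← hz'] at hz hz1 hzy ⊢
  obtain ⟨X, hX⟩ : ∃ X, X = Xv d hd0 θ (muS d θ hd0 s) := ⟨_, rfl⟩
  rw [← hX] at hx1 hx2 hx3
  have hxl : c' * y ≤ X := (mul_le_mul_of_nonneg_left hb1' hc'.le).trans hx1
  have hxu : X ≤ 2 * C' * y := by
    refine hx2.trans ?_
    have := mul_le_mul_of_nonneg_left hb2' hC'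
    linarith
  have hX0 : 0 < X := lt_of_lt_of_le (by positivity) hxl
  have hX1 : X ≤ 1 := by rw [hX]; exact X_le_one hd C s
  have hreg : Reg d hd0 θ (muS d θ hd0 s) (Mb 0) C4 :=
    ⟨mu_nish C.h0 C.h1 hd0 s, mu_bd' hd0 (Mb_mono hs00), by rw [← hX]; exact hX0, by rw [← hX]; exact hx3⟩
  -- the level
  obtain ⟨a, ha⟩ : ∃ a, a = √X := ⟨_, rfl⟩
  have ha0 : 0 < a := by rw [ha]; exact Real.sqrt_pos.mpr hX0
  have ha1 : a ≤ 1 := by rw [ha]; exact Real.sqrt_le_one.mpr hX1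
  have haX : a ^ 2 = X := by rw [ha]; exact Real.sq_sqrt hX0.le
  obtain ⟨Pr, hPr⟩ : ∃ Pr, Pr = (PD d θ {ω | a / 2 < (St (θ := θ) (d := d) hd0 s).m root ω ^ 2}).toReal := ⟨_, rfl⟩
  have hPr0 : 0 ≤ Pr := by rw [hPr]; exact ENNReal.toReal_nonneg
  have hPa : Pr / a ≤ A0 * y ^ p := by
    have h5 : Pr ≤ (2 / a) ^ (2 * p + 1) * ∫ ω, (St (θ := θ) (d := d) hd0 s).m root ω ^ (2 * (2 * p + 1)) ∂(PD d θ) := by
      rw [hPr]
      exact markov_pow (St_m_meas hd0 s) (fun ω => mm_yS_le_one C.h1 s ω root) ha0 _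
    have h6 : ∫ ω, (St (θ := θ) (d := d) hd0 s).m root ω ^ (2 * (2 * p + 1)) ∂(PD d θ) ≤
        Kn * (2 * y) ^ (2 * p + 1) := by
      refine (hmom s (hss s1 hj3)).trans ?_
      apply mul_le_mul_of_nonneg_left _ hKn
      exact pow_le_pow_left₀ (by positivity) hb2' _
    have h7 : Pr ≤ (2 / a) ^ (2 * p + 1) * (Kn * (2 * y) ^ (2 * p + 1)) :=
      h5.trans (mul_le_mul_of_nonneg_left h6 (by positivity))
    rw [hA0]
    exact P_over_a ha0 haX hc' hy hxl hKn h7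
  have htau : (St (θ := θ) (d := d) hd0 s).tau2 ⟨0, hd0⟩ ≤ K3 * (a * rbar + Pr / a) := by
    refine (hT (muS d θ hd0 s) hreg.nish hreg.bd (St (θ := θ) (d := d) hd0 s) ⟨0, hd0⟩ a ha0 ha1).1.trans ?_
    rw [← hPr]
    apply mul_le_mul_of_nonneg_left _ hK3
    have h5 : a * (St (θ := θ) (d := d) hd0 s).r ≤ a * rbar := mul_le_mul_of_nonneg_left hr ha0.le
    linarith
  -- the depth
  have hQ1 : X⁻¹ ≤ ((⌈X⁻¹⌉₊ : ℕ) : ℝ) := Nat.le_ceil _
  have hXQ : 1 ≤ X * ((⌈X⁻¹⌉₊ : ℕ) : ℝ) := by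
    have h5 := mul_le_mul_of_nonneg_left hQ1 hX0.le
    rwa [mul_inv_cancel₀ hX0.ne'] at h5
  have h3 := hSD (muS d θ hd0 s) hreg (St (θ := θ) (d := d) hd0 s) (kp j) (kp_pos j).le (kp_le j) R rbar
    (K3 * (a * rbar + Pr / a)) ⟨0, hd0⟩ hr hr0 hr1 htau ⌈X⁻¹⌉₊ (by rw [← hX]; exact hXQ)
  refine h3.trans ?_
  have hlog0 : 0 ≤ Real.log (1 / rbar) := Real.log_nonneg (by rw [one_le_div hr0]; exact hr1)
  have hSDF := SDF_sm hcD hcD1 hc' hy hy1 hxl hxu hX1 hlog0 hlog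
  rw [← hE0] at hSDF
  rw [hk, ← hX]
  have hfinal := sm_real (p := p) hK3 hc' hC' hcD hA00 hE00 hy hy1 hz hz1 hzy hxl hxu hX1 hr0 ha0 haX hPr0 hPa hSDF
  calc _ ≤ K2 * _ := mul_le_mul_of_nonneg_left hfinal hK2
    _ = _ := by ring

/-- The hypotheses of the differential inequality argument. -/
theorem nonempty_odeHyp (hd : 3 ≤ d) (C : Crit (d - 1) θ) :
    Nonempty (OdeHyp (fun j => kp j ^ 2) (rD (θ := θ) (d := d) (by omega)) (BndD (d := d) (by omega) θ)) := by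
  obtain ⟨j0, KC, c2, c3, KD, c5, hj0, hKC, hc2, hc2j0, hc3, hKD, hc5, hsc, hsd⟩ := exists_small_data hd C
  exact ⟨{
    r0 := fun s => rD_nonneg _ s
    r1 := fun s => rD_le_one C.h1 _ s
    rlim := rD_tendsto hd C
    mono := fun s B B' h hB R => (hB R).trans h
    κ2nn := fun j => sq_nonneg _
    κ2le := fun j hj => by
      show kp j ^ 2 ≤ (4 : ℝ) ^ j
      rw [kp_sq_of_nonpos hj]
      have : 0 < (4 : ℝ) ^ j := by positivity
      linarith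
    κ2le1 := fun j => by
      show kp j ^ 2 ≤ 1
      have h1 := kp_le j
      have h2 := kp_pos j
      nlinarith
    Cw := 200
    Cw0 := by norm_num
    win := fun j a b B h1 h2 h3 h4 => by
      apply window hd C h1 h2 h3
      intro s hs hs' R
      have h5 := h4 s hs hs' R
      rwa [floor_block (h1.trans hs) (lt_of_lt_of_le hs' h3)] at h5
    j0 := j0
    j0le := hj0
    big := fun j _ => big_bound hd C j
    KC := KC
    c2 := c2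
    c3 := c3
    KC0 := hKC
    c20 := hc2
    c2j0 := hc2j0
    c3b := hc3
    sc := hsc
    KD := KD
    c5 := c5
    KD0 := hKD
    c50 := hc5
    sd := hsd
    sm := sm_bound hd C j0 hj0
  }⟩

/-- The main result of the dynamic part: the innovations determine the magnetisation at all times. -/
theorem rD_zero (hd : 3 ≤ d) (C : Crit (d - 1) θ) (s : ℝ) : rD (θ := θ) (d := d) (by omega) s = 0 := by
  obtain ⟨H⟩ := nonempty_odeHyp (θ := θ) (d := d) hd C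
  exact ode_final H s

end Vale.Agent.Lib.P161B
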