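import Vale.Agent.Lib.P161B.Defs

/-!
Generic tools on the canonical product space: independence of functions of disjoint sets of coordinates,
independence of the sign at a vertex from a function that does not read it, and the laws of messages and of
sums of independent messages.
-/

namespace Vale.Agent.Lib.P161B

open MeasureTheory ProbabilityTheory Filter
open Vale.Agent.Lib.P161
open scoped Topology

variable {d : ℕ} {θ : ℝ} {μ : Measure ℝ}

/-! ### The tree: supports of the subtrees -/

lemma caux_kid {v c : Word d} (hc : c ∈ kids v) : ∃ a : Fin d, c.1 = a :: v.1 := by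
  classical
  unfold kids at hc
  have h := (Finset.mem_filter.mp hc).2
  obtain ⟨h1, h2⟩ := h
  rcases hl : c.1 with _ | ⟨a, l⟩
  · exact absurd (Subtype.ext hl) h1
  · refine ⟨a, ?_⟩
    have h3 : (parent c).1 = l := by simp [parent, hl]
    rw [h2] at h3
    rw [h3]

lemma caux_self_mem (v : Word d) : v ∈ Sub v := List.suffix_rfl

lemma caux_not_mem_kid {v c : Word d} (hc : c ∈ kids v) : v ∉ Sub c := by
  obtain ⟨a, ha⟩ := caux_kid hc
  intro h
  have h2 : c.1.length ≤ v.1.length := List.IsSuffix.length_le h
  rw [ha] at h2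
  simp at h2

lemma caux_sub_kid {v c : Word d} (hc : c ∈ kids v) : Sub c ⊆ Sub v := by
  obtain ⟨a, ha⟩ := caux_kid hc
  intro u hu
  have hu' : c.1 <:+ u.1 := hu
  show v.1 <:+ u.1
  have : v.1 <:+ c.1 := by rw [ha]; exact List.suffix_cons a v.1
  exact this.trans hu'

lemma caux_disj_kids {v a b : Word d} (ha : a ∈ kids v) (hb : b ∈ kids v) (hab : a ≠ b) :
    Disjoint (Sub a) (Sub b) := by
  obtain ⟨i, hi⟩ := caux_kid ha
  obtain ⟨j, hj⟩ := caux_kid hb
  rw [Set.disjoint_left]
  intro u hu hu'
  have h1 : a.1 <:+ u.1 := hu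
  have h2 : b.1 <:+ u.1 := hu'
  have hlen : a.1.length = b.1.length := by rw [hi, hj]; simp
  have h3 : a.1 <:+ b.1 := List.suffix_of_suffix_length_le h1 h2 hlen.le
  exact hab (Subtype.ext (h3.eq_of_length hlen))

lemma caux_disj_self {v : Word d} : Disjoint ({v} : Set (Word d)) (⋃ c ∈ kids v, Sub c) := by
  rw [Set.disjoint_left]
  intro u hu hu'
  rw [Set.mem_singleton_iff] at hu
  subst hu
  simp only [Set.mem_iUnion] at hu'
  obtain ⟨c, hc, h⟩ := hu'
  exact caux_not_mem_kid hc h

/-! ### Independence -/

instance caux_prob [Corr θ] [IsProbabilityMeasure μ] : IsProbabilityMeasure (cnP d θ μ) := by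
  unfold cnP
  infer_instance

lemma caux_iIndep [Corr θ] [IsProbabilityMeasure μ] :
    iIndep (fun x : Word d => MeasurableSpace.comap (fun ω : Cn d => ω x) inferInstance) (cnP d θ μ) := by
  have h := iIndepFun_infinitePi (P := fun x : Word d => (mrg θ x).prod μ)
    (X := fun _ (p : Bool × ℝ) => p) (fun _ => measurable_id)
  exact h

lemma caux_meas_sup {E : Type*} [MeasurableSpace E] {X : Cn d → E} (hX : Measurable X)
    {S : Set (Word d)} (hS : DependsOn X S) :
    Measurable[⨆ i ∈ S, MeasurableSpace.comap (fun ω : Cn d => ω i) inferInstance] X := by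
  classical
  let ω0 : Cn d := fun _ => (false, 0)
  let Pr : Cn d → Cn d := fun ω i => if i ∈ S then ω i else ω0 i
  have hPr : Measurable[⨆ i ∈ S, MeasurableSpace.comap (fun ω : Cn d => ω i) inferInstance] Pr := by
    refine @measurable_pi_iff _ _ _ (_) _ _ |>.mpr ?_
    intro i
    by_cases hi : i ∈ S
    · have h1 : (fun ω : Cn d => Pr ω i) = fun ω => ω i := by
        funext ω
        simp [Pr, hi]
      rw [h1]
      have h2 : MeasurableSpace.comap (fun ω : Cn d => ω i) inferInstance ≤
          ⨆ i ∈ S, MeasurableSpace.comap (fun ω : Cn d => ω i) inferInstance :=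
        le_iSup₂_of_le i hi le_rfl
      exact (comap_measurable (fun ω : Cn d => ω i)).mono h2 le_rfl
    · have h1 : (fun ω : Cn d => Pr ω i) = fun _ => ω0 i := by
        funext ω
        simp [Pr, hi]
      rw [h1]
      exact measurable_const
  have h : X = X ∘ Pr := by
    funext ω
    refine hS ?_
    intro i hi
    simp [Pr, hi]
  rw [h]
  exact hX.comp hPr

/-- Functions of disjoint sets of coordinates are independent. -/
theorem caux_indep [Corr θ] [IsProbabilityMeasure μ] {E F : Type*} [MeasurableSpace E] [MeasurableSpace F]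
    {X : Cn d → E} {Y : Cn d → F} (hX : Measurable X) (hY : Measurable Y) {S T : Set (Word d)}
    (hXS : DependsOn X S) (hYT : DependsOn Y T) (hST : Disjoint S T) :
    IndepFun X Y (cnP d θ μ) := by
  have h := indep_iSup_of_disjoint (μ := cnP d θ μ)
    (m := fun x : Word d => MeasurableSpace.comap (fun ω : Cn d => ω x) inferInstance)
    (fun i => (measurable_pi_apply i).comap_le) caux_iIndep hST
  rw [IndepFun_iff_Indep]
  exact indep_of_indep_of_le_left (indep_of_indep_of_le_right h (caux_meas_sup hY hYT).comap_le)
    (caux_meas_sup hX hXS).comap_le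

/-! ### The coordinate at one vertex -/

/-- The law of one coordinate. -/
lemma caux_map_coord [Corr θ] [IsProbabilityMeasure μ] (c : Word d) :
    (cnP d θ μ).map (fun ω => ω c) = (mrg θ c).prod μ := by
  unfold cnP
  exact Measure.infinitePi_map_eval _ c

lemma caux_map_field [Corr θ] [IsProbabilityMeasure μ] (c : Word d) :
    (cnP d θ μ).map (fun ω => (ω c).2) = μ := by
  have h : (fun ω : Cn d => (ω c).2) = Prod.snd ∘ (fun ω : Cn d => ω c) := rfl
  rw [h, ← Measure.map_map measurable_snd (measurable_pi_apply c), caux_map_coord, Measure.map_snd_prod,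
    measure_univ, one_smul]

lemma caux_map_sign [Corr θ] [IsProbabilityMeasure μ] (c : Word d) :
    (cnP d θ μ).map (fun ω => (ω c).1) = mrg θ c := by
  have h : (fun ω : Cn d => (ω c).1) = Prod.fst ∘ (fun ω : Cn d => ω c) := rfl
  rw [h, ← Measure.map_map measurable_fst (measurable_pi_apply c), caux_map_coord, Measure.map_fst_prod,
    measure_univ, one_smul]

/-- A function does not read the sign at `c`. -/
def SignFree (c : Word d) {E : Type*} (H : Cn d → E) : Prop :=
  ∀ (ω : Cn d) (b : Bool), H (Function.update ω c (b, (ω c).2)) = H ω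

/-- The sign at `c` is independent of every function not reading it. -/
theorem caux_sign_indep [Corr θ] [IsProbabilityMeasure μ] {E : Type*} [MeasurableSpace E] {c : Word d}
    {H : Cn d → E} (hH : Measurable H) (hF : SignFree c H) :
    IndepFun (fun ω : Cn d => (ω c).1) H (cnP d θ μ) := by
  classical
  let W : Cn d → Cn d := fun ω => Function.update ω c (false, 0)
  have hW : Measurable W := by
    refine measurable_pi_iff.mpr fun i => ?_
    by_cases hi : i = c
    · subst hi
      simp [W]
    · simpa [W, Function.update_of_ne hi] using measurable_pi_apply i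
  have hWdep : DependsOn W ({c}ᶜ : Set (Word d)) := by
    intro x y hxy
    funext i
    by_cases hi : i = c
    · subst hi
      simp [W]
    · simp only [W, Function.update_of_ne hi]
      exact hxy i hi
  have hA : Measurable (fun ω : Cn d => ω c) := measurable_pi_apply c
  have hAdep : DependsOn (fun ω : Cn d => ω c) ({c} : Set (Word d)) := by
    intro x y hxy
    exact hxy c rfl
  have hind : IndepFun (fun ω : Cn d => ω c) W (cnP d θ μ) :=
    caux_indep hA hW hAdep hWdep (by simp)
  -- the joint law
  have hjoint : (cnP d θ μ).map (fun ω => (ω c, W ω)) = ((mrg θ c).prod μ).prod ((cnP d θ μ).map W) := by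
    have := (indepFun_iff_map_prod_eq_prod_map_map hA.aemeasurable hW.aemeasurable).mp hind
    rw [this, caux_map_coord]
  -- the map `x, w ↦ H (update w c (false, x))`
  let g : ℝ × Cn d → E := fun p => H (Function.update p.2 c (false, p.1))
  have hg : Measurable g := by
    refine hH.comp ?_
    refine measurable_pi_iff.mpr fun i => ?_
    by_cases hi : i = c
    · subst hi
      simp only [Function.update_self]
      exact measurable_const.prodMk measurable_fst
    · simp only [Function.update_of_ne hi]
      exact (measurable_pi_apply i).comp measurable_snd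
  have hHg : H = g ∘ (fun ω => ((ω c).2, W ω)) := by
    funext ω
    simp only [g, Function.comp, W, Function.update_idem]
    exact (hF ω false).symm
  rw [hHg]
  have hjoint2 : IndepFun (fun ω : Cn d => (ω c).1) (fun ω => ((ω c).2, W ω)) (cnP d θ μ) := by
    have hs : Measurable (fun ω : Cn d => (ω c).1) := measurable_fst.comp hA
    have hx : Measurable (fun ω : Cn d => (ω c).2) := measurable_snd.comp hA
    rw [indepFun_iff_map_prod_eq_prod_map_map hs.aemeasurable (hx.prodMk hW).aemeasurable]
    have h1 : (cnP d θ μ).map (fun ω => ((ω c).1, ((ω c).2, W ω))) =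
        ((cnP d θ μ).map (fun ω => (ω c, W ω))).map MeasurableEquiv.prodAssoc := by
      rw [Measure.map_map MeasurableEquiv.prodAssoc.measurable (hA.prodMk hW)]
      rfl
    have h2 : (cnP d θ μ).map (fun ω => ((ω c).2, W ω)) =
        ((cnP d θ μ).map (fun ω => (ω c, W ω))).map (fun p => (p.1.2, p.2)) := by
      rw [Measure.map_map (by fun_prop) (hA.prodMk hW)]
      rfl
    rw [h1, h2, hjoint, caux_map_sign]
    have hP : IsProbabilityMeasure ((cnP d θ μ).map W) := Measure.isProbabilityMeasure_map hW.aemeasurable
    rw [Measure.prodAssoc_prod]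
    congr 1
    have e : (fun p : (Bool × ℝ) × Cn d => (p.1.2, p.2)) = Prod.map Prod.snd id := rfl
    rw [e]
    have := Measure.map_prod_map ((mrg θ c).prod μ) ((cnP d θ μ).map W)
      (f := Prod.snd) (g := id) measurable_snd measurable_id
    rw [← this, Measure.map_snd_prod, Measure.map_id, measure_univ, one_smul]
  exact hjoint2.comp measurable_id hg

/-- The law of a message from a non root vertex. -/
theorem caux_law_msg [Corr θ] [IsProbabilityMeasure μ] {c : Word d} (hc : c ≠ root) {H : Cn d → ℝ}
    (hH : Measurable H) (hF : SignFree c H) :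
    (cnP d θ μ).map (fun ω => sp (ω c).1 * Uf θ (H ω)) = msg θ ((cnP d θ μ).map H) := by
  have hs : Measurable (fun ω : Cn d => (ω c).1) := measurable_fst.comp (measurable_pi_apply c)
  have hind := caux_sign_indep (θ := θ) (μ := μ) hH hF
  have hjoint := (indepFun_iff_map_prod_eq_prod_map_map hs.aemeasurable hH.aemeasurable).mp hind
  rw [caux_map_sign] at hjoint
  have hmrg : mrg θ c = bern θ := by simp [mrg, hc]
  rw [hmrg] at hjoint
  have hP : IsProbabilityMeasure ((cnP d θ μ).map H) := Measure.isProbabilityMeasure_map hH.aemeasurable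
  have hU : Measurable (Uf θ) := measurable_Uf
  have hk : Measurable (fun p : Bool × ℝ => sp p.1 * Uf θ p.2) := by
    refine Measurable.mul ?_ (hU.comp measurable_snd)
    exact (measurable_from_top (f := sp)).comp measurable_fst
  have h1 : (cnP d θ μ).map (fun ω => sp (ω c).1 * Uf θ (H ω)) =
      ((cnP d θ μ).map (fun ω => ((ω c).1, H ω))).map (fun p : Bool × ℝ => sp p.1 * Uf θ p.2) := by
    rw [Measure.map_map hk (hs.prodMk hH)]
    rfl
  rw [h1, hjoint]
  set ν := (cnP d θ μ).map H
  ext A hA
  rw [Measure.map_apply hk hA, Measure.prod_apply (hk hA)]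
  unfold bern msg
  rw [lintegral_add_measure, lintegral_smul_measure, lintegral_smul_measure, lintegral_dirac, lintegral_dirac]
  simp only [Measure.coe_add, Measure.coe_smul, Pi.add_apply, Pi.smul_apply, smul_eq_mul]
  rw [Measure.map_apply hU hA, Measure.map_apply (f := fun h => - Uf θ h) hU.neg hA]
  congr 2
  · congr 1
    ext h
    simp [sp]
  · congr 1
    ext h
    simp [sp]

/-! ### Sums over disjoint subtrees -/

/-- The law of a sum of functions of disjoint sets of coordinates, all with the same law. -/
theorem caux_law_sum [Corr θ] [IsProbabilityMeasure μ] {K : Finset (Word d)} {X : Word d → Cn d → ℝ}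
    {ν : Measure ℝ} {S : Word d → Set (Word d)} (hX : ∀ c ∈ K, Measurable (X c))
    (hS : ∀ c ∈ K, DependsOn (X c) (S c)) (hν : ∀ c ∈ K, (cnP d θ μ).map (X c) = ν)
    (hd : ∀ a ∈ K, ∀ b ∈ K, a ≠ b → Disjoint (S a) (S b)) :
    (cnP d θ μ).map (fun ω => ∑ c ∈ K, X c ω) = powC ν K.card := by
  classical
  induction K using Finset.induction_on with
  | empty =>
    simp only [Finset.sum_empty, Finset.card_empty]
    rw [Measure.map_const, measure_univ, one_smul]
    rfl
  | insert a K' ha ih =>
    have hK' := ih (fun c hc => hX c (Finset.mem_insert_of_mem hc))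
      (fun c hc => hS c (Finset.mem_insert_of_mem hc))
      (fun c hc => hν c (Finset.mem_insert_of_mem hc))
      (fun p hp q hq hpq => hd p (Finset.mem_insert_of_mem hp) q (Finset.mem_insert_of_mem hq) hpq)
    rw [Finset.card_insert_of_notMem ha]
    have hY : Measurable (fun ω => ∑ c ∈ K', X c ω) :=
      Finset.measurable_fun_sum _ (fun c hc => hX c (Finset.mem_insert_of_mem hc))
    have hXa : Measurable (X a) := hX a (Finset.mem_insert_self a K')
    have hYdep : DependsOn (fun ω => ∑ c ∈ K', X c ω) (⋃ c ∈ K', S c) := by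
      intro x y hxy
      refine Finset.sum_congr rfl fun c hc => ?_
      refine hS c (Finset.mem_insert_of_mem hc) ?_
      intro i hi
      exact hxy i (Set.mem_biUnion hc hi)
    have hdisj : Disjoint (⋃ c ∈ K', S c) (S a) := by
      rw [Set.disjoint_left]
      intro u hu hu'
      simp only [Set.mem_iUnion] at hu
      obtain ⟨c, hc, huc⟩ := hu
      have hne : c ≠ a := fun h => ha (h ▸ hc)
      exact Set.disjoint_left.mp (hd c (Finset.mem_insert_of_mem hc) a (Finset.mem_insert_self a K') hne) huc hu'
    have hind : IndepFun (fun ω => ∑ c ∈ K', X c ω) (X a) (cnP d θ μ) :=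
      caux_indep hY hXa hYdep (hS a (Finset.mem_insert_self a K')) hdisj
    have hjoint := (indepFun_iff_map_prod_eq_prod_map_map hY.aemeasurable hXa.aemeasurable).mp hind
    rw [hK', hν a (Finset.mem_insert_self a K')] at hjoint
    show _ = (((powC ν K'.card).prod ν).map (fun p => p.1 + p.2))
    rw [← hjoint, Measure.map_map (by fun_prop) (hY.prodMk hXa)]
    congr 1
    funext ω
    simp only [Function.comp, Finset.sum_insert ha]
    ring

/-- One step of the recursion on the canonical space. -/
theorem caux_step [Corr θ] [IsProbabilityMeasure μ] {v : Word d} {H : Word d → Cn d → ℝ} {ν : Measure ℝ}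
    (hm : ∀ c ∈ kids v, Measurable (H c)) (hdep : ∀ c ∈ kids v, DependsOn (H c) (Sub c))
    (hF : ∀ c ∈ kids v, SignFree c (H c)) (hν : ∀ c ∈ kids v, (cnP d θ μ).map (H c) = ν) :
    (cnP d θ μ).map (fun ω => (ω v).2 + ∑ c ∈ kids v, sp (ω c).1 * Uf θ (H c ω)) =
      cvl μ (powC (msg θ ν) (kids v).card) := by
  classical
  have hU : Measurable (Uf θ) := measurable_Uf
  have hroot : ∀ c ∈ kids v, c ≠ root := by
    intro c hc h
    obtain ⟨a, ha⟩ := caux_kid hc
    rw [h] at ha
    simp [root] at ha
  have hG : ∀ c ∈ kids v, Measurable (fun ω : Cn d => sp (ω c).1 * Uf θ (H c ω)) := by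
    intro c hc
    refine Measurable.mul ?_ (hU.comp (hm c hc))
    exact (measurable_from_top (f := sp)).comp (measurable_fst.comp (measurable_pi_apply c))
  have hGdep : ∀ c ∈ kids v, DependsOn (fun ω : Cn d => sp (ω c).1 * Uf θ (H c ω)) (Sub c) := by
    intro c hc x y hxy
    have h1 : x c = y c := hxy c (caux_self_mem c)
    have h2 : H c x = H c y := hdep c hc hxy
    simp only [h1, h2]
  have hGlaw : ∀ c ∈ kids v, (cnP d θ μ).map (fun ω : Cn d => sp (ω c).1 * Uf θ (H c ω)) = msg θ ν := by
    intro c hc
    rw [caux_law_msg (hroot c hc) (hm c hc) (hF c hc), hν c hc]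
  have hsum := caux_law_sum (θ := θ) (μ := μ) (K := kids v) hG hGdep hGlaw
    (fun a ha b hb hab => caux_disj_kids ha hb hab)
  have hY : Measurable (fun ω : Cn d => ∑ c ∈ kids v, sp (ω c).1 * Uf θ (H c ω)) :=
    Finset.measurable_fun_sum _ hG
  have hYdep : DependsOn (fun ω : Cn d => ∑ c ∈ kids v, sp (ω c).1 * Uf θ (H c ω)) (⋃ c ∈ kids v, Sub c) := by
    intro x y hxy
    refine Finset.sum_congr rfl fun c hc => ?_
    refine hGdep c hc ?_
    intro i hi
    exact hxy i (Set.mem_biUnion hc hi)
  have hx : Measurable (fun ω : Cn d => (ω v).2) := measurable_snd.comp (measurable_pi_apply v)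
  have hxdep : DependsOn (fun ω : Cn d => (ω v).2) ({v} : Set (Word d)) := by
    intro x y hxy
    show (x v).2 = (y v).2
    rw [hxy v rfl]
  have hind := caux_indep (θ := θ) (μ := μ) hx hY hxdep hYdep caux_disj_self
  have hjoint := (indepFun_iff_map_prod_eq_prod_map_map hx.aemeasurable hY.aemeasurable).mp hind
  rw [caux_map_field, hsum] at hjoint
  show _ = (μ.prod (powC (msg θ ν) (kids v).card)).map (fun p => p.1 + p.2)
  rw [← hjoint, Measure.map_map (by fun_prop) (hx.prodMk hY)]
  rfl

end Vale.Agent.Lib.P161B
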