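import Vale.Agent.Lib.P161B.Defs

/-!
Almost sure convergence of the gauge transformed cavity fields: under the product law of bond signs and
local fields, `exp (-2 hatH n v)` is a martingale for the filtration of the relative fields below `v`.
It is the likelihood ratio of the two values of the spin at `v`. The key input is the Nishimori symmetry
of the whole subtree, proved by induction on the depth.
-/

namespace Vale.Agent.Lib.P161B

open MeasureTheory ProbabilityTheory Filter
open Vale.Agent.Lib.P161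
open scoped Topology ENNReal

variable {d : ℕ} {θ : ℝ} {μ : Measure ℝ}

/-! ### Coordinates and their independence -/

/-- The real coordinates of a canonical point: the sign of the bond, or the local field. -/
noncomputable def Xc (p : Word d × Bool) (ω : Cn d) : ℝ := if p.2 then (ω p.1).2 else sp (ω p.1).1

lemma measurable_Xc (p : Word d × Bool) : Measurable (Xc (d := d) p) := by
  rcases p with ⟨x, b⟩
  cases b
  · have h1 : Measurable (fun ω : Cn d => (ω x).1) := measurable_fst.comp (measurable_pi_apply x)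
    have h2 : Measurable sp := Measurable.of_discrete
    have h3 : Xc (d := d) (x, false) = fun ω => sp (ω x).1 := by
      funext ω; simp [Xc]
    rw [h3]
    exact h2.comp h1
  · have h1 : Measurable (fun ω : Cn d => (ω x).2) := measurable_snd.comp (measurable_pi_apply x)
    have h3 : Xc (d := d) (x, true) = fun ω => (ω x).2 := by
      funext ω; simp [Xc]
    rw [h3]
    exact h1

/-- The sigma algebra of a set of coordinates. -/
@[reducible] noncomputable def mS (T : Set (Word d × Bool)) : MeasurableSpace (Cn d) :=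
  ⨆ p ∈ T, MeasurableSpace.comap (Xc p) inferInstance

lemma mS_mono {T T' : Set (Word d × Bool)} (h : T ⊆ T') : mS T ≤ mS T' :=
  biSup_mono h

lemma mS_le (T : Set (Word d × Bool)) : mS T ≤ (inferInstance : MeasurableSpace (Cn d)) := by
  refine iSup₂_le fun p _ => ?_
  exact (measurable_Xc p).comap_le

lemma meas_Xc_mS {T : Set (Word d × Bool)} {p : Word d × Bool} (hp : p ∈ T) :
    Measurable[mS T] (Xc p) := by
  have h : MeasurableSpace.comap (Xc p) inferInstance ≤ mS T :=
    le_iSup₂_of_le p hp le_rfl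
  exact (comap_measurable (Xc p)).mono h le_rfl

section Indep

variable [Corr θ] [IsProbabilityMeasure μ]

instance cnMg_prob : IsProbabilityMeasure (cnP d θ μ) := by
  unfold cnP
  infer_instance

lemma indepFun_comps (x : Word d) :
    IndepFun (fun ω : Cn d => sp (ω x).1) (fun ω : Cn d => (ω x).2) (cnP d θ μ) := by
  have hmp : (cnP d θ μ).map (fun ω => ω x) = (mrg θ x).prod μ := by
    unfold cnP
    exact Measure.infinitePi_map_eval _ x
  have hs : Measurable sp := Measurable.of_discrete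
  have h := indepFun_prod (μ := mrg θ x) (ν := μ) (X := sp) (Y := id) hs measurable_id
  rw [← hmp] at h
  have he : Measurable (fun ω : Cn d => ω x) := measurable_pi_apply x
  rw [indepFun_iff_measure_inter_preimage_eq_mul] at h ⊢
  intro s0 t0 hs0 ht0
  have h1 := h s0 t0 hs0 ht0
  have hA : MeasurableSet ((fun p : Bool × ℝ => sp p.1) ⁻¹' s0) :=
    (hs.comp measurable_fst) hs0
  have hB : MeasurableSet ((fun p : Bool × ℝ => id p.2) ⁻¹' t0) :=
    (measurable_id.comp measurable_snd) ht0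
  rw [Measure.map_apply he (hA.inter hB), Measure.map_apply he hA, Measure.map_apply he hB] at h1
  exact h1

/-- All real coordinates are independent. -/
lemma iIndepFun_Xc : iIndepFun (fun (p : Word d × Bool) (ω : Cn d) => Xc p ω) (cnP d θ μ) := by
  refine iIndepFun_uncurry' (X := fun (x : Word d) (b : Bool) (ω : Cn d) => Xc (x, b) ω)
    (fun x b => measurable_Xc _) ?_ ?_
  · have hm : ∀ x : Word d, Measurable (fun (p : Bool × ℝ) (b : Bool) => if b then p.2 else sp p.1) := by
      intro x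
      refine measurable_pi_iff.mpr fun b => ?_
      cases b
      · have h2 : Measurable sp := Measurable.of_discrete
        exact h2.comp measurable_fst
      · exact measurable_snd
    have := iIndepFun_infinitePi (ι := Word d) (Ω := fun _ => Bool × ℝ)
      (P := fun x => (mrg θ x).prod μ)
      (X := fun x (p : Bool × ℝ) (b : Bool) => if b then p.2 else sp p.1) hm
    exact this
  · intro x
    have h := indepFun_comps (θ := θ) (μ := μ) (d := d) x
    rw [iIndepFun_iff_measure_inter_preimage_eq_mul]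
    intro S sets hsets
    have hcases : ∀ S : Finset Bool, S = ∅ ∨ S = {false} ∨ S = {true} ∨ S = {false, true} := by
      decide
    rcases hcases S with rfl | rfl | rfl | rfl
    · simp
    · simp
    · simp
    · have h1 := h.measure_inter_preimage_eq_mul (sets false) (sets true)
        (hsets false (by simp)) (hsets true (by simp))
      simp only [Finset.mem_insert, Finset.mem_singleton, Set.iInter_iInter_eq_or_left,
        Set.iInter_iInter_eq_left, Finset.prod_insert, Finset.mem_singleton,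
        Bool.false_eq_true, not_false_eq_true, Finset.prod_singleton]
      exact h1

lemma indep_mS {T T' : Set (Word d × Bool)} (h : Disjoint T T') :
    Indep (mS T) (mS T') (cnP d θ μ) := by
  have h2 := iIndepFun_Xc (θ := θ) (μ := μ) (d := d)
  exact indep_iSup_of_disjoint (fun p => (measurable_Xc p).comap_le) h2 h

/-- The expectation of a product of functions of disjoint coordinate sets. -/
lemma lint_mul_mS {T T' : Set (Word d × Bool)} (h : Disjoint T T') {F G : Cn d → ℝ≥0∞}
    (hF : Measurable[mS T] F) (hG : Measurable[mS T'] G) :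
    ∫⁻ ω, F ω * G ω ∂(cnP d θ μ) = (∫⁻ ω, F ω ∂(cnP d θ μ)) * ∫⁻ ω, G ω ∂(cnP d θ μ) :=
  lintegral_mul_eq_lintegral_mul_lintegral_of_independent_measurableSpace
    (mS_le T) (mS_le T') (indep_mS h) hF hG

/-- The expectation of a finite product. -/
lemma lint_prod_mS {ι : Type*} (K : Finset ι) {T : ι → Set (Word d × Bool)}
    (hT : ∀ a ∈ K, ∀ b ∈ K, a ≠ b → Disjoint (T a) (T b)) {F : ι → Cn d → ℝ≥0∞}
    (hF : ∀ c ∈ K, Measurable[mS (T c)] (F c)) :
    ∫⁻ ω, ∏ c ∈ K, F c ω ∂(cnP d θ μ) = ∏ c ∈ K, ∫⁻ ω, F c ω ∂(cnP d θ μ) := by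
  classical
  induction K using Finset.induction_on with
  | empty => simp
  | insert a K ha ih =>
    rw [Finset.prod_insert ha]
    simp only [Finset.prod_insert ha]
    have hdis : Disjoint (T a) (⋃ c ∈ K, T c) := by
      rw [Set.disjoint_iUnion₂_right]
      intro c hc
      exact hT a (Finset.mem_insert_self _ _) c (Finset.mem_insert_of_mem hc) (by rintro rfl; exact ha hc)
    have hm : Measurable[mS (⋃ c ∈ K, T c)] (fun ω => ∏ c ∈ K, F c ω) := by
      refine Finset.measurable_prod (m := mS (⋃ c ∈ K, T c)) _ ?_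
      intro c hc
      exact (hF c (Finset.mem_insert_of_mem hc)).mono
        (mS_mono (Set.subset_biUnion_of_mem (u := T) hc)) le_rfl
    rw [lint_mul_mS hdis (hF a (Finset.mem_insert_self _ _)) hm, ih]
    · intro a' ha' b' hb' hab
      exact hT a' (Finset.mem_insert_of_mem ha') b' (Finset.mem_insert_of_mem hb') hab
    · intro c hc
      exact hF c (Finset.mem_insert_of_mem hc)

end Indep

/-! ### The tree below a vertex -/

/-- The vertices at depth at most `n` below `v`. -/
noncomputable def Sd (n : ℕ) (v : Word d) : Finset (Word d) :=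
  open Classical in (ball (len v + n)).filter (fun x => v.1 <:+ x.1)

lemma mg_mem_ball {r : ℕ} {x : Word d} : x ∈ (ball r : Finset (Word d)) ↔ len x ≤ r := by
  simp [ball]

lemma mem_Sd {n : ℕ} {v x : Word d} : x ∈ Sd n v ↔ v.1 <:+ x.1 ∧ len x ≤ len v + n := by
  classical
  simp [Sd, and_comm]

lemma mg_mem_kids {v c : Word d} : c ∈ kids v ↔ c ≠ root ∧ parent c = v := by
  classical
  unfold kids
  rw [Finset.mem_filter, mg_mem_ball]
  constructor
  · exact fun h => h.2
  · rintro ⟨h1, h2⟩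
    refine ⟨?_, h1, h2⟩
    have := len_parent h1
    rw [h2] at this
    omega

lemma self_mem_Sd (n : ℕ) (v : Word d) : v ∈ Sd n v := by
  rw [mem_Sd]
  exact ⟨List.suffix_rfl, by omega⟩

lemma Sd_zero (v : Word d) : Sd 0 v = {v} := by
  ext x
  rw [mem_Sd, Finset.mem_singleton]
  constructor
  · rintro ⟨h1, h2⟩
    have hl : v.1.length ≥ x.1.length := by
      simpa [len] using h2
    exact Subtype.ext (h1.eq_of_length_le hl).symm
  · rintro rfl
    exact ⟨List.suffix_rfl, by omega⟩

lemma Sd_mono {n m : ℕ} (h : n ≤ m) (v : Word d) : Sd n v ⊆ Sd m v := by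
  intro x hx
  rw [mem_Sd] at hx ⊢
  exact ⟨hx.1, by omega⟩

lemma mg_parent_suffix (c : Word d) : (parent c).1 <:+ c.1 := by
  simpa [parent] using List.tail_suffix c.1

lemma mg_suffix_of_mem_kids {v c : Word d} (hc : c ∈ kids v) : v.1 <:+ c.1 := by
  rw [mg_mem_kids] at hc
  rw [← hc.2]
  exact mg_parent_suffix c

lemma mg_len_of_mem_kids {v c : Word d} (hc : c ∈ kids v) : len c = len v + 1 := by
  rw [mg_mem_kids] at hc
  have := len_parent hc.1
  rw [hc.2] at this
  omega

lemma Sd_kid_subset {n : ℕ} {v c : Word d} (hc : c ∈ kids v) : Sd n c ⊆ Sd (n + 1) v := by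
  intro x hx
  rw [mem_Sd] at hx ⊢
  refine ⟨(mg_suffix_of_mem_kids hc).trans hx.1, ?_⟩
  have := mg_len_of_mem_kids hc
  omega

lemma not_mem_Sd_kid {n : ℕ} {v c : Word d} (hc : c ∈ kids v) : v ∉ Sd n c := by
  intro hx
  rw [mem_Sd] at hx
  have h1 := hx.1.length_le
  have := mg_len_of_mem_kids hc
  simp only [len] at this
  omega

/-- A vertex below `v` at depth at least one lies below a unique child. -/
lemma mg_exists_kid {n : ℕ} {v x : Word d} (hx : x ∈ Sd (n + 1) v) (hne : x ≠ v) :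
    ∃ c ∈ kids v, x ∈ Sd n c := by
  rw [mem_Sd] at hx
  obtain ⟨⟨t, ht⟩, hl⟩ := hx
  have ht0 : t ≠ [] := by
    rintro rfl
    exact hne (Subtype.ext (by simpa using ht.symm))
  have ht1 : t.dropLast ++ [t.getLast ht0] = t := List.dropLast_append_getLast ht0
  set a := t.getLast ht0
  set t' := t.dropLast
  have hxl : x.1 = t' ++ (a :: v.1) := by
    rw [← ht, ← ht1]; simp
  have hchain : (a :: v.1).IsChain (· ≠ ·) := by
    have h2 := x.2
    rw [hxl] at h2
    exact h2.suffix ⟨t', rfl⟩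
  refine ⟨⟨a :: v.1, hchain⟩, ?_, ?_⟩
  · rw [mg_mem_kids]
    refine ⟨?_, ?_⟩
    · intro h
      have := congrArg Subtype.val h
      simp [root] at this
    · exact Subtype.ext (by simp [parent])
  · rw [mem_Sd]
    refine ⟨⟨t', hxl.symm⟩, ?_⟩
    simp only [len, List.length_cons] at hl ⊢
    omega

lemma mg_kids_disjoint {n : ℕ} {v a b : Word d} (ha : a ∈ kids v) (hb : b ∈ kids v) (hab : a ≠ b) :
    Disjoint (Sd n a) (Sd n b) := by
  rw [Finset.disjoint_left]
  intro x hxa hxb
  rw [mem_Sd] at hxa hxb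
  apply hab
  have h1 := mg_len_of_mem_kids ha
  have h2 := mg_len_of_mem_kids hb
  simp only [len] at h1 h2
  exact Subtype.ext (List.suffix_of_suffix_length_le hxa.1 hxb.1 (by omega) |>.eq_of_length (by omega))

lemma Sd_succ (n : ℕ) (v : Word d) :
    Sd (n + 1) v = insert v ((kids v).biUnion (fun c => Sd n c)) := by
  classical
  ext x
  rw [Finset.mem_insert, Finset.mem_biUnion]
  constructor
  · intro hx
    by_cases hxv : x = v
    · exact Or.inl hxv
    · exact Or.inr (mg_exists_kid hx hxv)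
  · rintro (rfl | ⟨c, hc, hx⟩)
    · exact self_mem_Sd _ _
    · exact Sd_kid_subset hc hx

/-! ### The relative field and the cavity functional -/

/-- The field relative to the spin at `v`. -/
noncomputable def Yv (v : Word d) (ω : Cn d) (x : Word d) : ℝ := sp (sgC ω v) * yC ω x

lemma Yv_self (v : Word d) (ω : Cn d) : Yv v ω v = (ω v).2 := by
  unfold Yv yC
  rw [← mul_assoc, sp_mul_self, one_mul]

lemma Yv_kid {v c : Word d} (hc : c ∈ kids v) (ω : Cn d) (x : Word d) :
    Yv v ω x = sp (ω c).1 * Yv c ω x := by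
  rw [mg_mem_kids] at hc
  have h1 : sgC ω c = xor (sgC ω v) (ω c).1 := by
    have := tau_step (fun u => (ω u).1) hc.1
    rw [hc.2] at this
    exact this
  unfold Yv
  rw [h1, sp_xor, ← mul_assoc, ← mul_assoc, mul_comm (sp (ω c).1), mul_assoc (sp (sgC ω v)),
    sp_mul_self, mul_one]

lemma mg_Uf_sp (b : Bool) (h : ℝ) : Uf θ (sp b * h) = sp b * Uf θ h := by
  cases b
  · simp
  · simp [Uf_odd]

lemma mg_hh_sp (b : Bool) (n : ℕ) (v : Word d) (y : Word d → ℝ) :
    hh θ n v (fun x => sp b * y x) = sp b * hh θ n v y := by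
  induction n generalizing v with
  | zero => rfl
  | succ n ih =>
    simp only [hh]
    rw [mul_add, Finset.mul_sum]
    congr 1
    refine Finset.sum_congr rfl fun c _ => ?_
    rw [ih, mg_Uf_sp]

lemma mg_hh_congr (n : ℕ) (v : Word d) {y y' : Word d → ℝ} (h : ∀ x ∈ Sd n v, y x = y' x) :
    hh θ n v y = hh θ n v y' := by
  induction n generalizing v with
  | zero => exact h v (self_mem_Sd _ _)
  | succ n ih =>
    simp only [hh]
    rw [h v (self_mem_Sd _ _)]
    congr 1
    refine Finset.sum_congr rfl fun c hc => ?_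
    rw [ih c fun x hx => h x (Sd_kid_subset hc hx)]

lemma mg_measurable_hh (n : ℕ) (v : Word d) : Measurable (hh (d := d) θ n v) := by
  induction n generalizing v with
  | zero => exact measurable_pi_apply v
  | succ n ih =>
    have h1 : Measurable (fun y : Word d → ℝ => y v) := measurable_pi_apply v
    have h2 : Measurable (fun y : Word d → ℝ => ∑ c ∈ kids v, Uf θ (hh θ n c y)) :=
      Finset.measurable_sum _ fun c _ => measurable_Uf.comp (ih c)
    exact h1.add h2

/-- The gauge identity for the relative field. -/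
lemma hatH_eq_hh (n : ℕ) (v : Word d) (ω : Cn d) : hatH θ n v ω = hh θ n v (Yv v ω) := by
  induction n generalizing v with
  | zero => exact (Yv_self v ω).symm
  | succ n ih =>
    simp only [hatH, hh]
    rw [Yv_self]
    congr 1
    refine Finset.sum_congr rfl fun c hc => ?_
    have h1 : Yv v ω = fun x => sp (ω c).1 * Yv c ω x := by
      funext x
      exact Yv_kid hc ω x
    rw [h1, mg_hh_sp, mg_Uf_sp, ih]

/-- The relative field on the finite set below `v`, with a sign. -/
noncomputable def Rr (n : ℕ) (v : Word d) (s : Bool) (ω : Cn d) : ↥(Sd n v) → ℝ :=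
  fun x => sp s * Yv v ω x

/-- Extension by zero. -/
noncomputable def extZ {S : Finset (Word d)} (r : ↥S → ℝ) : Word d → ℝ :=
  open Classical in fun x => if h : x ∈ S then r ⟨x, h⟩ else 0

lemma measurable_extZ (S : Finset (Word d)) : Measurable (extZ (S := S)) := by
  classical
  refine measurable_pi_iff.mpr fun x => ?_
  by_cases h : x ∈ S
  · have : (fun r : ↥S → ℝ => extZ r x) = fun r => r ⟨x, h⟩ := by
      funext r; simp [extZ, h]
    rw [this]
    exact measurable_pi_apply _
  · have : (fun r : ↥S → ℝ => extZ r x) = fun _ => 0 := by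
      funext r; simp [extZ, h]
    rw [this]
    exact measurable_const

/-- The cavity functional on the finite set below `v`. -/
noncomputable def hx (θ : ℝ) (n : ℕ) (v : Word d) (r : ↥(Sd n v) → ℝ) : ℝ := hh θ n v (extZ r)

lemma measurable_hx (n : ℕ) (v : Word d) : Measurable (hx (d := d) θ n v) :=
  (mg_measurable_hh n v).comp (measurable_extZ _)

lemma hx_Rr (n : ℕ) (v : Word d) (s : Bool) (ω : Cn d) :
    hx θ n v (Rr n v s ω) = sp s * hatH θ n v ω := by
  unfold hx
  rw [hatH_eq_hh, ← mg_hh_sp]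
  refine mg_hh_congr n v fun x hx' => ?_
  simp [extZ, hx', Rr]

/-! ### Measurability with respect to the coordinates below a vertex -/

/-- The coordinates below `c`, not using the bond sign at `c`. -/
def Td (n : ℕ) (c : Word d) : Set (Word d × Bool) := {p | p.1 ∈ Sd n c ∧ p ≠ (c, false)}

/-- The coordinates below `c`. -/
def Tv (n : ℕ) (c : Word d) : Set (Word d × Bool) := {p | p.1 ∈ Sd n c}

lemma Td_subset_Tv (n : ℕ) (c : Word d) : Td n c ⊆ Tv n c := fun _ hp => hp.1

lemma Td_kid_subset {n : ℕ} {v c : Word d} (hc : c ∈ kids v) : Td n c ⊆ Td (n + 1) v := by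
  rintro ⟨x, b⟩ ⟨h1, _⟩
  refine ⟨Sd_kid_subset hc h1, ?_⟩
  rintro h
  have hxv : x = v := congrArg Prod.fst h
  subst hxv
  exact not_mem_Sd_kid hc h1

lemma bond_mem_Td {n : ℕ} {v c : Word d} (hc : c ∈ kids v) : (c, false) ∈ Td (n + 1) v := by
  refine ⟨Sd_kid_subset (n := n) hc (self_mem_Sd _ _), ?_⟩
  intro h
  have hcv : c = v := congrArg Prod.fst h
  subst hcv
  have := mg_len_of_mem_kids hc
  omega

lemma field_mem_Td (n : ℕ) (c : Word d) : (c, true) ∈ Td n c :=
  ⟨self_mem_Sd _ _, by simp⟩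

lemma Xc_false (x : Word d) (ω : Cn d) : Xc (x, false) ω = sp (ω x).1 := by simp [Xc]

lemma Xc_true (x : Word d) (ω : Cn d) : Xc (x, true) ω = (ω x).2 := by simp [Xc]

lemma meas_Yv (n : ℕ) (c x : Word d) (hx' : x ∈ Sd n c) :
    Measurable[mS (Td n c)] (fun ω => Yv c ω x) := by
  induction n generalizing c x with
  | zero =>
    rw [Sd_zero, Finset.mem_singleton] at hx'
    subst hx'
    have : (fun ω => Yv x ω x) = Xc (d := d) (x, true) := by
      funext ω
      rw [Yv_self, Xc_true]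
    rw [this]
    exact meas_Xc_mS (field_mem_Td _ _)
  | succ n ih =>
    by_cases hxc : x = c
    · subst hxc
      have : (fun ω => Yv x ω x) = Xc (d := d) (x, true) := by
        funext ω
        rw [Yv_self, Xc_true]
      rw [this]
      exact meas_Xc_mS (field_mem_Td _ _)
    · obtain ⟨c', hc', hx2⟩ := mg_exists_kid hx' hxc
      have : (fun ω => Yv c ω x) = fun ω => Xc (c', false) ω * Yv c' ω x := by
        funext ω
        rw [Yv_kid hc', Xc_false]
      rw [this]
      have h1 : Measurable[mS (Td (n + 1) c)] (Xc (d := d) (c', false)) :=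
        meas_Xc_mS (bond_mem_Td hc')
      have h2 : Measurable[mS (Td (n + 1) c)] (fun ω => Yv c' ω x) :=
        (ih c' x hx2).mono (mS_mono (Td_kid_subset hc')) le_rfl
      exact h1.mul h2

lemma meas_Rr (n : ℕ) (c : Word d) (s : Bool) : Measurable[mS (Td n c)] (Rr (d := d) n c s) := by
  refine @measurable_pi_lambda _ _ _ (mS (Td n c)) _ _ fun x => ?_
  exact (meas_Yv n c x x.2).const_mul _

lemma meas_hatH (n : ℕ) (c : Word d) : Measurable[mS (Td n c)] (hatH (d := d) θ n c) := by
  have : hatH (d := d) θ n c = fun ω => hx θ n c (Rr n c false ω) := by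
    funext ω
    rw [hx_Rr]
    simp
  rw [this]
  exact (measurable_hx n c).comp (meas_Rr n c false)

lemma mg_measurable_Rr (n : ℕ) (c : Word d) (s : Bool) : Measurable (Rr (d := d) n c s) :=
  (meas_Rr n c s).mono (mS_le _) le_rfl

lemma mg_measurable_hatH (n : ℕ) (c : Word d) : Measurable (hatH (d := d) θ n c) :=
  (meas_hatH n c).mono (mS_le _) le_rfl

/-! ### The symmetry of a single field in terms of lower integrals -/

/-- The Nishimori symmetry for nonnegative measurable functions. -/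
lemma Nish.lint (hμ : Nish μ) {f : ℝ → ℝ≥0∞} (hf : Measurable f) :
    ∫⁻ h, f (-h) ∂μ = ∫⁻ h, f h * ENNReal.ofReal (Real.exp (-2 * h)) ∂μ := by
  have := hμ.prob
  obtain ⟨M, hM⟩ := hμ.bdd
  have hneg : Measurable (fun h : ℝ => -h) := measurable_neg
  have hw : Measurable (fun h : ℝ => ENNReal.ofReal (Real.exp (-2 * h))) := by fun_prop
  have key : μ.map (fun h => -h) = μ.withDensity (fun h => ENNReal.ofReal (Real.exp (-2 * h))) := by
    ext A hA
    rw [Measure.map_apply hneg hA, withDensity_apply _ hA]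
    have h1 := hμ.symm (A.indicator 1) ⟨measurable_one.indicator hA, 1, fun x => by
      by_cases hx : x ∈ A <;> simp [hx]⟩
    have hA' : MeasurableSet ((fun h : ℝ => -h) ⁻¹' A) := hneg hA
    have hl : ∫ h, A.indicator (1 : ℝ → ℝ) (-h) ∂μ = (μ ((fun h : ℝ => -h) ⁻¹' A)).toReal := by
      have : (fun h => A.indicator (1 : ℝ → ℝ) (-h)) = ((fun h : ℝ => -h) ⁻¹' A).indicator 1 := by
        funext h
        by_cases hh' : -h ∈ A <;> simp [hh']
      rw [this, integral_indicator_one hA']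
      rfl
    have hbd : ∀ᵐ h ∂μ, ‖A.indicator (1 : ℝ → ℝ) h * Real.exp (-2 * h)‖ ≤ Real.exp (2 * M) := by
      filter_upwards [hM] with h hh'
      have h2 : Real.exp (-2 * h) ≤ Real.exp (2 * M) := by
        apply Real.exp_le_exp.mpr
        have := neg_abs_le h
        linarith
      rw [Real.norm_eq_abs, abs_mul, abs_of_pos (Real.exp_pos _)]
      by_cases hx : h ∈ A
      · simpa [hx] using h2
      · simp only [hx, not_false_eq_true, Set.indicator_of_notMem, abs_zero, zero_mul]
        exact (Real.exp_pos _).le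
    have hint : Integrable (fun h => A.indicator (1 : ℝ → ℝ) h * Real.exp (-2 * h)) μ := by
      refine Integrable.of_bound ?_ _ hbd
      exact ((measurable_one.indicator hA).mul (by fun_prop)).aestronglyMeasurable
    have hr : ENNReal.ofReal (∫ h, A.indicator (1 : ℝ → ℝ) h * Real.exp (-2 * h) ∂μ) =
        ∫⁻ h in A, ENNReal.ofReal (Real.exp (-2 * h)) ∂μ := by
      rw [ofReal_integral_eq_lintegral_ofReal hint
        (ae_of_all _ fun h => mul_nonneg (by by_cases hx : h ∈ A <;> simp [hx]) (Real.exp_pos _).le)]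
      rw [← lintegral_indicator hA]
      refine lintegral_congr fun h => ?_
      by_cases hx : h ∈ A <;> simp [hx]
    rw [← hr, ← h1, hl, ENNReal.ofReal_toReal (measure_ne_top _ _)]
  calc ∫⁻ h, f (-h) ∂μ = ∫⁻ h, f h ∂(μ.map (fun h => -h)) := (lintegral_map hf hneg).symm
    _ = ∫⁻ h, f h ∂(μ.withDensity (fun h => ENNReal.ofReal (Real.exp (-2 * h)))) := by rw [key]
    _ = ∫⁻ h, ENNReal.ofReal (Real.exp (-2 * h)) * f h ∂μ :=
        lintegral_withDensity_eq_lintegral_mul _ hw hf
    _ = ∫⁻ h, f h * ENNReal.ofReal (Real.exp (-2 * h)) ∂μ :=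
        lintegral_congr fun h => mul_comm _ _

section Marg

variable [Corr θ] [IsProbabilityMeasure μ]

lemma mg_map_eval_cnP (x : Word d) : (cnP d θ μ).map (fun ω => ω x) = (mrg θ x).prod μ := by
  unfold cnP
  exact Measure.infinitePi_map_eval _ x

lemma lint_field (x : Word d) {f : ℝ → ℝ≥0∞} (hf : Measurable f) :
    ∫⁻ ω, f (ω x).2 ∂(cnP d θ μ) = ∫⁻ h, f h ∂μ := by
  have he : Measurable (fun ω : Cn d => ω x) := measurable_pi_apply x
  have h1 : Measurable (fun p : Bool × ℝ => f p.2) := hf.comp measurable_snd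
  calc ∫⁻ ω, f (ω x).2 ∂(cnP d θ μ) = ∫⁻ p, f p.2 ∂((cnP d θ μ).map (fun ω => ω x)) :=
        (lintegral_map h1 he).symm
    _ = ∫⁻ p, f p.2 ∂((mrg θ x).prod μ) := by rw [mg_map_eval_cnP]
    _ = ∫⁻ a, ∫⁻ h, f h ∂μ ∂(mrg θ x) := lintegral_prod _ h1.aemeasurable
    _ = ∫⁻ h, f h ∂μ := by rw [lintegral_const, measure_univ, mul_one]

/-- The law of the bond sign at a non root vertex. -/
lemma mg_prob_bond {c : Word d} (hc : c ≠ root) (a : Bool) :
    (cnP d θ μ) {ω | (ω c).1 = a} = ENNReal.ofReal ((1 + θ * sp a) / 2) := by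
  have he : Measurable (fun ω : Cn d => ω c) := measurable_pi_apply c
  have hA : MeasurableSet {p : Bool × ℝ | p.1 = a} := measurable_fst (measurableSet_singleton a)
  have h1 : (cnP d θ μ) {ω | (ω c).1 = a} = ((cnP d θ μ).map (fun ω => ω c)) {p | p.1 = a} := by
    rw [Measure.map_apply he hA]
    rfl
  rw [h1, mg_map_eval_cnP]
  have h2 : {p : Bool × ℝ | p.1 = a} = ({a} : Set Bool) ×ˢ (Set.univ : Set ℝ) := by
    ext p; simp
  rw [h2, Measure.prod_prod]
  simp [mrg, hc, bern_singleton]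

/-- Peeling the bond sign at `c`. -/
lemma lint_bond {n : ℕ} {c : Word d} (hc : c ≠ root) {H : Bool → Cn d → ℝ≥0∞}
    (hH : ∀ s, Measurable[mS (Td n c)] (H s)) :
    ∫⁻ ω, H (ω c).1 ω ∂(cnP d θ μ) =
      ENNReal.ofReal ((1 + θ) / 2) * ∫⁻ ω, H false ω ∂(cnP d θ μ) +
        ENNReal.ofReal ((1 - θ) / 2) * ∫⁻ ω, H true ω ∂(cnP d θ μ) := by
  have hdis : Disjoint ({(c, false)} : Set (Word d × Bool)) (Td n c) := by
    rw [Set.disjoint_singleton_left]
    exact fun h => h.2 rfl
  have hset : ∀ a : Bool, MeasurableSet[mS {(c, false)}] {ω : Cn d | (ω c).1 = a} := by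
    intro a
    have h1 : {ω : Cn d | (ω c).1 = a} = (Xc (d := d) (c, false)) ⁻¹' {sp a} := by
      ext ω
      simp only [Set.mem_ofPred_eq, Set.mem_preimage, Set.mem_singleton_iff, Xc_false]
      cases (ω c).1 <;> cases a <;> simp [sp] <;> norm_num
    rw [h1]
    exact meas_Xc_mS (T := {(c, false)}) rfl (measurableSet_singleton _)
  have hsplit : ∀ a : Bool,
      ∫⁻ ω, ({ω : Cn d | (ω c).1 = a}).indicator (fun _ => (1 : ℝ≥0∞)) ω * H a ω ∂(cnP d θ μ) =
      (cnP d θ μ) {ω | (ω c).1 = a} * ∫⁻ ω, H a ω ∂(cnP d θ μ) := by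
    intro a
    have hm : Measurable[mS {(c, false)}]
        (({ω : Cn d | (ω c).1 = a}).indicator (fun _ => (1 : ℝ≥0∞))) :=
      measurable_const.indicator (hset a)
    rw [lint_mul_mS hdis hm (hH a), lintegral_indicator_const ((mS_le _) _ (hset a)), one_mul]
  have hpt : ∀ ω : Cn d, H (ω c).1 ω =
      ({ω : Cn d | (ω c).1 = false}).indicator (fun _ => (1 : ℝ≥0∞)) ω * H false ω +
        ({ω : Cn d | (ω c).1 = true}).indicator (fun _ => (1 : ℝ≥0∞)) ω * H true ω := by
    intro ω
    cases h : (ω c).1 <;> simp [h, Set.indicator]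
  have hm1 : Measurable
      (fun ω : Cn d => ({ω : Cn d | (ω c).1 = false}).indicator (fun _ => (1 : ℝ≥0∞)) ω * H false ω) := by
    have h1 : Measurable (({ω : Cn d | (ω c).1 = false}).indicator (fun _ => (1 : ℝ≥0∞))) :=
      (measurable_const.indicator (hset false)).mono (mS_le _) le_rfl
    exact h1.mul ((hH false).mono (mS_le _) le_rfl)
  simp_rw [hpt]
  rw [lintegral_add_left hm1, hsplit, hsplit, mg_prob_bond hc, mg_prob_bond hc]
  simp only [sp_false, sp_true]
  congr 3 <;> ring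

end Marg

/-! ### Rectangles determine a joint law -/

/-- Rectangles determine the law, with a density on one side. -/
lemma rect_ext {ι Ω : Type*} [Finite ι] [MeasurableSpace Ω] (P : Measure Ω) [IsFiniteMeasure P]
    {X X' : Ω → ι → ℝ} (hX : Measurable X) (hX' : Measurable X') {w : Ω → ℝ≥0∞} (hw : Measurable w)
    (H : ∀ B : ι → Set ℝ, (∀ i, MeasurableSet (B i)) →
      ∫⁻ ω, (Set.univ.pi B).indicator (fun _ => (1 : ℝ≥0∞)) (X ω) ∂P =
        ∫⁻ ω, (Set.univ.pi B).indicator (fun _ => (1 : ℝ≥0∞)) (X' ω) * w ω ∂P)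
    {g : (ι → ℝ) → ℝ≥0∞} (hg : Measurable g) :
    ∫⁻ ω, g (X ω) ∂P = ∫⁻ ω, g (X' ω) * w ω ∂P := by
  have hbox : ∀ B : ι → Set ℝ, (∀ i, MeasurableSet (B i)) →
      (P.map X) (Set.univ.pi B) = ((P.withDensity w).map X') (Set.univ.pi B) := by
    intro B hB
    have hpi : MeasurableSet (Set.univ.pi B) := MeasurableSet.univ_pi hB
    rw [Measure.map_apply hX hpi, Measure.map_apply hX' hpi, withDensity_apply _ (hX' hpi)]
    have h1 := H B hB
    have h2 : ∫⁻ ω, (Set.univ.pi B).indicator (fun _ => (1 : ℝ≥0∞)) (X ω) ∂P = P (X ⁻¹' Set.univ.pi B) := by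
      rw [← lintegral_indicator_one (hX hpi)]
      refine lintegral_congr fun ω => ?_
      by_cases hω : X ω ∈ Set.univ.pi B
      · have h3 : ω ∈ X ⁻¹' Set.univ.pi B := hω
        rw [Set.indicator_of_mem hω, Set.indicator_of_mem h3]
        rfl
      · have h3 : ω ∉ X ⁻¹' Set.univ.pi B := hω
        rw [Set.indicator_of_notMem hω, Set.indicator_of_notMem h3]
    have h4 : ∫⁻ ω, (Set.univ.pi B).indicator (fun _ => (1 : ℝ≥0∞)) (X' ω) * w ω ∂P =
        ∫⁻ ω in X' ⁻¹' Set.univ.pi B, w ω ∂P := by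
      rw [← lintegral_indicator (hX' hpi)]
      refine lintegral_congr fun ω => ?_
      by_cases hω : X' ω ∈ Set.univ.pi B
      · have h3 : ω ∈ X' ⁻¹' Set.univ.pi B := hω
        rw [Set.indicator_of_mem hω, Set.indicator_of_mem h3, one_mul]
      · have h3 : ω ∉ X' ⁻¹' Set.univ.pi B := hω
        rw [Set.indicator_of_notMem hω, Set.indicator_of_notMem h3, zero_mul]
    rw [← h2, h1, h4]
  have key : P.map X = (P.withDensity w).map X' := by
    refine ext_of_generate_finite _ generateFrom_pi.symm isPiSystem_pi ?_ ?_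
    · rintro s ⟨B, hB, rfl⟩
      exact hbox B (fun i => hB i (Set.mem_univ i))
    · have := hbox (fun _ => Set.univ) (fun _ => MeasurableSet.univ)
      simpa using this
  calc ∫⁻ ω, g (X ω) ∂P = ∫⁻ r, g r ∂(P.map X) := (lintegral_map hg hX).symm
    _ = ∫⁻ r, g r ∂((P.withDensity w).map X') := by rw [key]
    _ = ∫⁻ ω, g (X' ω) ∂(P.withDensity w) := lintegral_map hg hX'
    _ = ∫⁻ ω, w ω * g (X' ω) ∂P := lintegral_withDensity_eq_lintegral_mul _ hw (hg.comp hX')
    _ = ∫⁻ ω, g (X' ω) * w ω ∂P := lintegral_congr fun ω => mul_comm _ _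

/-- The indicator of a rectangle is a product of indicators. -/
lemma ind_pi {S : Finset (Word d)} (B : Word d → Set ℝ) (r : ↥S → ℝ) :
    (Set.univ.pi (fun x : ↥S => B x)).indicator (fun _ => (1 : ℝ≥0∞)) r =
      ∏ x : ↥S, (B x).indicator (fun _ => (1 : ℝ≥0∞)) (r x) := by
  classical
  by_cases hr : r ∈ Set.univ.pi (fun x : ↥S => B x)
  · rw [Set.indicator_of_mem hr]
    symm
    refine Finset.prod_eq_one fun x _ => ?_
    exact Set.indicator_of_mem (hr x (Set.mem_univ x)) _
  · rw [Set.indicator_of_notMem hr]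
    simp only [Set.mem_univ_pi, not_forall] at hr
    obtain ⟨x, hx⟩ := hr
    symm
    exact Finset.prod_eq_zero (Finset.mem_univ x) (Set.indicator_of_notMem hx _)

/-! ### The message identity -/

lemma mg_exp_neg_two_tanh (x : ℝ) : Real.exp (-2 * x) * (1 + Real.tanh x) = 1 - Real.tanh x := by
  have ha : 0 < Real.exp x := Real.exp_pos x
  have h1 : Real.exp (-x) = (Real.exp x)⁻¹ := Real.exp_neg x
  have h2 : Real.exp (-2 * x) = ((Real.exp x)⁻¹) ^ 2 := by
    rw [← h1, ← Real.exp_nat_mul]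
    congr 1
    push_cast
    ring
  rw [h2, Real.tanh_eq_sinh_div_cosh, Real.sinh_eq, Real.cosh_eq, h1]
  field_simp
  ring

lemma msg_identity_real (h0 : 0 ≤ θ) (h1 : θ < 1) (H : ℝ) :
    (1 + θ) / 2 * Real.exp (-2 * H) + (1 - θ) / 2 =
      Real.exp (-2 * Uf θ H) * ((1 + θ) / 2 + (1 - θ) / 2 * Real.exp (-2 * H)) := by
  have hw := Real.tanh_lt_one H
  have hw' := Real.neg_one_lt_tanh H
  have hE := mg_exp_neg_two_tanh H
  have hF := mg_exp_neg_two_tanh (Uf θ H)
  rw [tanh_Uf h0 h1] at hF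
  set w := Real.tanh H
  set E := Real.exp (-2 * H)
  set F := Real.exp (-2 * Uf θ H)
  have hne : (1 + w) ≠ 0 := by linarith
  apply mul_right_cancel₀ hne
  linear_combination (1 + θ) / 2 * hE - (1 - θ) / 2 * F * hE - hF

lemma msg_identity (h0 : 0 ≤ θ) (h1 : θ < 1) (H : ℝ) :
    ENNReal.ofReal ((1 + θ) / 2) * ENNReal.ofReal (Real.exp (-2 * H)) + ENNReal.ofReal ((1 - θ) / 2) =
      ENNReal.ofReal (Real.exp (-2 * Uf θ H)) *
        (ENNReal.ofReal ((1 + θ) / 2) +
          ENNReal.ofReal ((1 - θ) / 2) * ENNReal.ofReal (Real.exp (-2 * H))) := by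
  have hp : 0 ≤ (1 + θ) / 2 := by linarith
  have hq : 0 ≤ (1 - θ) / 2 := by linarith
  have hE := (Real.exp_pos (-2 * H)).le
  have hF := (Real.exp_pos (-2 * Uf θ H)).le
  rw [← ENNReal.ofReal_mul hp, ← ENNReal.ofReal_add (mul_nonneg hp hE) hq,
    ← ENNReal.ofReal_mul hq, ← ENNReal.ofReal_add hp (mul_nonneg hq hE), ← ENNReal.ofReal_mul hF,
    msg_identity_real h0 h1]

/-! ### The symmetry of the whole subtree -/

section Sym

variable [Corr θ] [IsProbabilityMeasure μ]

/-- The symmetry of the relative field below `v` at depth `n`. -/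
def SymAt (θ : ℝ) (μ : Measure ℝ) (n : ℕ) (v : Word d) : Prop :=
  ∀ g : (↥(Sd n v) → ℝ) → ℝ≥0∞, Measurable g →
    ∫⁻ ω, g (Rr n v true ω) ∂(cnP d θ μ) =
      ∫⁻ ω, g (Rr n v false ω) * ENNReal.ofReal (Real.exp (-2 * hatH θ n v ω)) ∂(cnP d θ μ)

lemma meas_wt (n : ℕ) (c : Word d) : Measurable[mS (Td n c)]
    (fun ω : Cn d => ENNReal.ofReal (Real.exp (-2 * hatH θ n c ω))) := by
  have h1 := meas_hatH (θ := θ) n c
  exact ENNReal.measurable_ofReal.comp (Real.measurable_exp.comp (h1.const_mul _))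

lemma meas_wtU (n : ℕ) (c : Word d) (a : ℝ) : Measurable[mS (Td n c)]
    (fun ω : Cn d => ENNReal.ofReal (Real.exp (a * Uf θ (hatH θ n c ω)))) := by
  have h1 := meas_hatH (θ := θ) n c
  exact ENNReal.measurable_ofReal.comp
    (Real.measurable_exp.comp ((measurable_Uf.comp h1).const_mul _))

/-- One message: the symmetry passes through a bond. -/
lemma sym_msg (h0 : 0 ≤ θ) (h1 : θ < 1) {n : ℕ} {c : Word d} (hc : c ≠ root) (hs : SymAt θ μ n c)
    {g : (↥(Sd n c) → ℝ) → ℝ≥0∞} (hg : Measurable g) :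
    ∫⁻ ω, g (Rr n c (xor true (ω c).1) ω) ∂(cnP d θ μ) =
      ∫⁻ ω, g (Rr n c (xor false (ω c).1) ω) *
        ENNReal.ofReal (Real.exp (-2 * (sp (ω c).1 * Uf θ (hatH θ n c ω)))) ∂(cnP d θ μ) := by
  set P := cnP d θ μ with hP
  set p := ENNReal.ofReal ((1 + θ) / 2) with hp
  set q := ENNReal.ofReal ((1 - θ) / 2) with hq
  have hR : ∀ s, Measurable[mS (Td n c)] (fun ω => g (Rr n c s ω)) :=
    fun s => hg.comp (meas_Rr n c s)
  have hRm : ∀ s, Measurable (fun ω => g (Rr n c s ω)) :=
    fun s => (hR s).mono (mS_le _) le_rfl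
  have hW : Measurable (fun ω : Cn d => ENNReal.ofReal (Real.exp (-2 * hatH θ n c ω))) :=
    (meas_wt n c).mono (mS_le _) le_rfl
  have hU : Measurable (fun ω : Cn d => ENNReal.ofReal (Real.exp (-2 * Uf θ (hatH θ n c ω)))) :=
    (meas_wtU n c (-2)).mono (mS_le _) le_rfl
  -- the left side
  have hL : ∫⁻ ω, g (Rr n c (xor true (ω c).1) ω) ∂P =
      p * ∫⁻ ω, g (Rr n c true ω) ∂P + q * ∫⁻ ω, g (Rr n c false ω) ∂P := by
    have := lint_bond (θ := θ) (μ := μ) (n := n) hc (H := fun b ω => g (Rr n c (xor true b) ω))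
      (fun b => hR _)
    simpa using this
  -- the right side
  have hRi : ∫⁻ ω, g (Rr n c (xor false (ω c).1) ω) *
        ENNReal.ofReal (Real.exp (-2 * (sp (ω c).1 * Uf θ (hatH θ n c ω)))) ∂P =
      p * ∫⁻ ω, g (Rr n c false ω) * ENNReal.ofReal (Real.exp (-2 * Uf θ (hatH θ n c ω))) ∂P +
        q * ∫⁻ ω, g (Rr n c true ω) * ENNReal.ofReal (Real.exp (2 * Uf θ (hatH θ n c ω))) ∂P := by
    have := lint_bond (θ := θ) (μ := μ) (n := n) hc
      (H := fun b ω => g (Rr n c (xor false b) ω) *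
        ENNReal.ofReal (Real.exp (-2 * (sp b * Uf θ (hatH θ n c ω)))))
      (fun b => by
        have h3 := meas_wtU (θ := θ) n c (-2 * sp b)
        simp only [mul_assoc] at h3
        exact Measurable.mul (hR _) h3)
    have h5 : ∀ ω : Cn d, (-2 : ℝ) * (sp true * Uf θ (hatH θ n c ω)) = 2 * Uf θ (hatH θ n c ω) := by
      intro ω
      simp only [sp_true]
      ring
    simp only [Bool.false_bne, h5] at this
    simpa using this
  -- the two uses of the symmetry below `c`
  have h2 : ∫⁻ ω, g (Rr n c true ω) ∂P =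
      ∫⁻ ω, g (Rr n c false ω) * ENNReal.ofReal (Real.exp (-2 * hatH θ n c ω)) ∂P := hs g hg
  have h3 : ∫⁻ ω, g (Rr n c true ω) * ENNReal.ofReal (Real.exp (2 * Uf θ (hatH θ n c ω))) ∂P =
      ∫⁻ ω, g (Rr n c false ω) * ENNReal.ofReal (Real.exp (-2 * Uf θ (hatH θ n c ω))) *
        ENNReal.ofReal (Real.exp (-2 * hatH θ n c ω)) ∂P := by
    have hg2 : Measurable (fun r : ↥(Sd n c) → ℝ =>
        g r * ENNReal.ofReal (Real.exp (-2 * Uf θ (hx θ n c r)))) :=
      hg.mul (ENNReal.measurable_ofReal.comp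
        (Real.measurable_exp.comp ((measurable_Uf.comp (measurable_hx n c)).const_mul _)))
    have := hs _ hg2
    simp only [hx_Rr, sp_true, sp_false, one_mul] at this
    refine Eq.trans (lintegral_congr fun ω => ?_) (this.trans (lintegral_congr fun ω => ?_))
    · have : Uf θ (-1 * hatH θ n c ω) = - Uf θ (hatH θ n c ω) := by
        rw [neg_one_mul, Uf_odd]
      rw [this]
      congr 3
      ring
    · rfl
  rw [hL, hRi, h2, h3]
  -- collect
  have hc1 : ∀ (F : Cn d → ℝ≥0∞) (_ : Measurable F) (a : ℝ≥0∞),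
      a * ∫⁻ ω, F ω ∂P = ∫⁻ ω, a * F ω ∂P := fun F hF a => (lintegral_const_mul a hF).symm
  have hm1 : Measurable (fun ω => g (Rr n c false ω) * ENNReal.ofReal (Real.exp (-2 * hatH θ n c ω))) :=
    (hRm false).mul hW
  have hm2 : Measurable (fun ω => g (Rr n c false ω) *
      ENNReal.ofReal (Real.exp (-2 * Uf θ (hatH θ n c ω)))) := (hRm false).mul hU
  have hm3 : Measurable (fun ω => g (Rr n c false ω) *
      ENNReal.ofReal (Real.exp (-2 * Uf θ (hatH θ n c ω))) *
        ENNReal.ofReal (Real.exp (-2 * hatH θ n c ω))) := Measurable.mul hm2 hW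
  rw [hc1 _ hm1, hc1 _ (hRm false), hc1 _ hm2, hc1 _ hm3,
    ← lintegral_add_left (hm1.const_mul p), ← lintegral_add_left (hm2.const_mul p)]
  refine lintegral_congr fun ω => ?_
  have h4 := msg_identity h0 h1 (hatH θ n c ω)
  calc p * (g (Rr n c false ω) * ENNReal.ofReal (Real.exp (-2 * hatH θ n c ω))) + q * g (Rr n c false ω)
      = g (Rr n c false ω) * (p * ENNReal.ofReal (Real.exp (-2 * hatH θ n c ω)) + q) := by ring
    _ = g (Rr n c false ω) * (ENNReal.ofReal (Real.exp (-2 * Uf θ (hatH θ n c ω))) *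
          (p + q * ENNReal.ofReal (Real.exp (-2 * hatH θ n c ω)))) := by rw [h4]
    _ = _ := by ring

/-- The own field and the subtrees of the children are independent. -/
lemma lint_top (n : ℕ) (v : Word d) {F0 : ℝ → ℝ≥0∞} (hF0 : Measurable F0) {F : Word d → Cn d → ℝ≥0∞}
    (hF : ∀ c ∈ kids v, Measurable[mS (Tv n c)] (F c)) :
    ∫⁻ ω, F0 (ω v).2 * ∏ c ∈ kids v, F c ω ∂(cnP d θ μ) =
      (∫⁻ h, F0 h ∂μ) * ∏ c ∈ kids v, ∫⁻ ω, F c ω ∂(cnP d θ μ) := by
  have hdis : Disjoint ({(v, true)} : Set (Word d × Bool)) (⋃ c ∈ kids v, Tv n c) := by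
    rw [Set.disjoint_singleton_left]
    intro h
    simp only [Set.mem_iUnion] at h
    obtain ⟨c, hc, hv⟩ := h
    exact not_mem_Sd_kid hc hv
  have h0 : Measurable[mS {(v, true)}] (fun ω : Cn d => F0 (ω v).2) := by
    have h1 : (fun ω : Cn d => F0 (ω v).2) = fun ω => F0 (Xc (v, true) ω) := by
      funext ω
      rw [Xc_true]
    rw [h1]
    exact hF0.comp (meas_Xc_mS (T := {(v, true)}) rfl)
  have h1 : Measurable[mS (⋃ c ∈ kids v, Tv n c)] (fun ω => ∏ c ∈ kids v, F c ω) := by
    refine Finset.measurable_prod (m := mS (⋃ c ∈ kids v, Tv n c)) _ ?_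
    intro c hc
    exact (hF c hc).mono (mS_mono (Set.subset_biUnion_of_mem (u := fun c => Tv n c) hc)) le_rfl
  rw [lint_mul_mS hdis h0 h1, lint_field v hF0]
  congr 1
  refine lint_prod_mS (kids v) (T := fun c => Tv n c) ?_ hF
  intro a ha b hb hab
  rw [Set.disjoint_left]
  intro p hpa hpb
  exact (Finset.disjoint_left.mp (mg_kids_disjoint ha hb hab)) hpa hpb

lemma meas_Rr_kid (n : ℕ) (c : Word d) (s : Bool) :
    Measurable[mS (Tv n c)] (fun ω => Rr n c (xor s (ω c).1) ω) := by
  refine @measurable_pi_lambda _ _ _ (mS (Tv n c)) _ _ fun x => ?_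
  have h1 : (fun ω : Cn d => Rr n c (xor s (ω c).1) ω x) =
      fun ω => sp s * (Xc (c, false) ω * Yv c ω x) := by
    funext ω
    simp only [Rr, sp_xor, Xc_false]
    ring
  rw [h1]
  have h2 : Measurable[mS (Tv n c)] (Xc (d := d) (c, false)) :=
    meas_Xc_mS (show (c, false) ∈ Tv n c from self_mem_Sd _ _)
  have h3 : Measurable[mS (Tv n c)] (fun ω => Yv c ω x) :=
    (meas_Yv n c x x.2).mono (mS_mono (Td_subset_Tv n c)) le_rfl
  exact (h2.mul h3).const_mul _

lemma meas_wt_kid (n : ℕ) (c : Word d) : Measurable[mS (Tv n c)]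
    (fun ω : Cn d => ENNReal.ofReal (Real.exp (-2 * (sp (ω c).1 * Uf θ (hatH θ n c ω))))) := by
  have h1 : (fun ω : Cn d => sp (ω c).1 * Uf θ (hatH θ n c ω)) =
      fun ω => Xc (c, false) ω * Uf θ (hatH θ n c ω) := by
    funext ω
    rw [Xc_false]
  have h2 : Measurable[mS (Tv n c)] (Xc (d := d) (c, false)) :=
    meas_Xc_mS (show (c, false) ∈ Tv n c from self_mem_Sd _ _)
  have h3 : Measurable[mS (Tv n c)] (hatH (d := d) θ n c) :=
    (meas_hatH n c).mono (mS_mono (Td_subset_Tv n c)) le_rfl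
  have h4 : Measurable[mS (Tv n c)] (fun ω : Cn d => sp (ω c).1 * Uf θ (hatH θ n c ω)) := by
    rw [h1]
    exact h2.mul (measurable_Uf.comp h3)
  exact ENNReal.measurable_ofReal.comp (Real.measurable_exp.comp (h4.const_mul _))

lemma Rr_zero_eq (v : Word d) (s : Bool) (ω : Cn d) :
    Rr 0 v s ω = fun _ => sp s * (ω v).2 := by
  funext x
  have hx : x.1 = v := by
    have h2 : x.1 ∈ ({v} : Finset (Word d)) := by
      rw [← Sd_zero]
      exact x.2
    exact Finset.mem_singleton.mp h2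
  simp only [Rr]
  rw [hx, Yv_self]

/-- The symmetry at depth zero. -/
lemma sym_zero (hμ : Nish μ) (v : Word d) : SymAt θ μ 0 v := by
  intro g hg
  have hf : Measurable (fun h : ℝ => g (fun _ => h)) :=
    hg.comp (measurable_pi_lambda _ fun _ => measurable_id)
  simp only [Rr_zero_eq, sp_true, sp_false, one_mul, hatH]
  have h1 := lint_field (θ := θ) (μ := μ) v (f := fun h => g (fun _ => -h))
    (hg.comp (measurable_pi_lambda _ fun _ => measurable_neg))
  have h2 := lint_field (θ := θ) (μ := μ) v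
    (f := fun h => g (fun _ => h) * ENNReal.ofReal (Real.exp (-2 * h)))
    (hf.mul (by fun_prop))
  have h3 := hμ.lint hf
  simp only [neg_one_mul]
  exact h1.trans (h3.trans h2.symm)

/-- The symmetry of the relative field at all depths. -/
theorem sym_all (h0 : 0 ≤ θ) (h1 : θ < 1) (hμ : Nish μ) : ∀ (n : ℕ) (v : Word d), SymAt θ μ n v := by
  classical
  intro n
  induction n with
  | zero => exact fun v => sym_zero hμ v
  | succ n ih =>
    intro v g hg
    refine rect_ext (cnP d θ μ) (mg_measurable_Rr _ _ _) (mg_measurable_Rr _ _ _) ?_ ?_ hg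
    · have := mg_measurable_hatH (θ := θ) (n + 1) v
      fun_prop
    intro B hB
    -- extend the rectangle
    let B' : Word d → Set ℝ := fun x => if h : x ∈ Sd (n + 1) v then B ⟨x, h⟩ else Set.univ
    have hB' : ∀ x, MeasurableSet (B' x) := by
      intro x
      by_cases h : x ∈ Sd (n + 1) v
      · simp only [B', h, dif_pos]; exact hB _
      · simp only [B', h, dif_neg, not_false_eq_true, MeasurableSet.univ]
    have hBB : B = fun x : ↥(Sd (n + 1) v) => B' x := by
      funext x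
      simp [B', x.2]
    let gB : ∀ c : Word d, (↥(Sd n c) → ℝ) → ℝ≥0∞ :=
      fun c r => ∏ x : ↥(Sd n c), (B' x).indicator (fun _ => (1 : ℝ≥0∞)) (r x)
    have hgB : ∀ c, Measurable (gB c) := by
      intro c
      refine Finset.measurable_prod _ fun x _ => ?_
      exact (measurable_const.indicator (hB' x)).comp (measurable_pi_apply x)
    -- the product over the subtree
    have hdec : ∀ (s : Bool) (ω : Cn d),
        (Set.univ.pi B).indicator (fun _ => (1 : ℝ≥0∞)) (Rr (n + 1) v s ω) =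
          (B' v).indicator (fun _ => (1 : ℝ≥0∞)) (sp s * (ω v).2) *
            ∏ c ∈ kids v, gB c (Rr n c (xor s (ω c).1) ω) := by
      intro s ω
      rw [hBB, ind_pi]
      have h2 := Finset.prod_coe_sort (Sd (n + 1) v)
        (fun x => (B' x).indicator (fun _ => (1 : ℝ≥0∞)) (sp s * Yv v ω x))
      refine Eq.trans h2 ?_
      rw [Sd_succ, Finset.prod_insert, Finset.prod_biUnion, Yv_self]
      · congr 1
        refine Finset.prod_congr rfl fun c hc => ?_
        have h3 := Finset.prod_coe_sort (Sd n c)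
          (fun x => (B' x).indicator (fun _ => (1 : ℝ≥0∞)) (sp s * Yv v ω x))
        refine h3.symm.trans ?_
        refine Finset.prod_congr rfl fun x _ => ?_
        simp only [Rr]
        rw [Yv_kid hc, sp_xor, mul_assoc]
      · intro a ha b hb hab
        exact mg_kids_disjoint ha hb hab
      · intro hv
        obtain ⟨c, hc, hv2⟩ := Finset.mem_biUnion.mp hv
        exact not_mem_Sd_kid hc hv2
    have hwt : ∀ ω : Cn d, ENNReal.ofReal (Real.exp (-2 * hatH θ (n + 1) v ω)) =
        ENNReal.ofReal (Real.exp (-2 * (ω v).2)) *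
          ∏ c ∈ kids v, ENNReal.ofReal (Real.exp (-2 * (sp (ω c).1 * Uf θ (hatH θ n c ω)))) := by
      intro ω
      simp only [hatH]
      rw [mul_add, Real.exp_add, Finset.mul_sum, Real.exp_sum,
        ENNReal.ofReal_mul (Real.exp_pos _).le,
        ENNReal.ofReal_prod_of_nonneg fun c _ => (Real.exp_pos _).le]
    have hind : Measurable ((B' v).indicator (fun _ => (1 : ℝ≥0∞))) :=
      measurable_const.indicator (hB' v)
    -- the left side
    have hL : ∫⁻ ω, (Set.univ.pi B).indicator (fun _ => (1 : ℝ≥0∞)) (Rr (n + 1) v true ω) ∂(cnP d θ μ) =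
        (∫⁻ h, (B' v).indicator (fun _ => (1 : ℝ≥0∞)) (-h) ∂μ) *
          ∏ c ∈ kids v, ∫⁻ ω, gB c (Rr n c (xor true (ω c).1) ω) ∂(cnP d θ μ) := by
      have h2 := lint_top (θ := θ) (μ := μ) n v
        (F0 := fun h => (B' v).indicator (fun _ => (1 : ℝ≥0∞)) (-h))
        (hind.comp measurable_neg)
        (F := fun c ω => gB c (Rr n c (xor true (ω c).1) ω))
        (fun c _ => (hgB c).comp (meas_Rr_kid n c true))
      refine Eq.trans (lintegral_congr fun ω => ?_) h2
      rw [hdec]
      simp only [sp_true, neg_one_mul]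
    -- the right side
    have hR : ∫⁻ ω, (Set.univ.pi B).indicator (fun _ => (1 : ℝ≥0∞)) (Rr (n + 1) v false ω) *
          ENNReal.ofReal (Real.exp (-2 * hatH θ (n + 1) v ω)) ∂(cnP d θ μ) =
        (∫⁻ h, (B' v).indicator (fun _ => (1 : ℝ≥0∞)) h * ENNReal.ofReal (Real.exp (-2 * h)) ∂μ) *
          ∏ c ∈ kids v, ∫⁻ ω, gB c (Rr n c (xor false (ω c).1) ω) *
            ENNReal.ofReal (Real.exp (-2 * (sp (ω c).1 * Uf θ (hatH θ n c ω)))) ∂(cnP d θ μ) := by
      have h2 := lint_top (θ := θ) (μ := μ) n v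
        (F0 := fun h => (B' v).indicator (fun _ => (1 : ℝ≥0∞)) h * ENNReal.ofReal (Real.exp (-2 * h)))
        (hind.mul (by fun_prop))
        (F := fun c ω => gB c (Rr n c (xor false (ω c).1) ω) *
            ENNReal.ofReal (Real.exp (-2 * (sp (ω c).1 * Uf θ (hatH θ n c ω)))))
        (fun c _ => Measurable.mul ((hgB c).comp (meas_Rr_kid n c false)) (meas_wt_kid n c))
      refine Eq.trans (lintegral_congr fun ω => ?_) h2
      rw [hdec, hwt, Finset.prod_mul_distrib]
      simp only [sp_false, one_mul]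
      ring
    rw [hL, hR, hμ.lint hind]
    congr 1
    refine Finset.prod_congr rfl fun c hc => ?_
    exact sym_msg h0 h1 (mg_mem_kids.mp hc).1 (ih c) (hgB c)

end Sym

/-! ### The martingale -/

section Mart

variable [Corr θ] [IsProbabilityMeasure μ]

/-- The filtration of the relative field below `v`. -/
noncomputable def Gf (d : ℕ) (v : Word d) : Filtration ℕ (inferInstance : MeasurableSpace (Cn d)) where
  seq n := MeasurableSpace.comap (Rr n v false) inferInstance
  mono' := by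
    intro n m hnm
    have h1 : Rr n v false = (fun (r : ↥(Sd m v) → ℝ) (x : ↥(Sd n v)) =>
        r ⟨x, Sd_mono hnm v x.2⟩) ∘ Rr m v false := by
      funext ω x
      rfl
    show MeasurableSpace.comap (Rr n v false) _ ≤ MeasurableSpace.comap (Rr m v false) _
    rw [h1, ← MeasurableSpace.comap_comp]
    refine MeasurableSpace.comap_mono ?_
    rw [← measurable_iff_comap_le]
    exact measurable_pi_lambda _ fun x => measurable_pi_apply _
  le' n := (mg_measurable_Rr n v false).comap_le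

/-- The likelihood ratio. -/
noncomputable def Lr (θ : ℝ) (v : Word d) (n : ℕ) (ω : Cn d) : ℝ := Real.exp (-2 * hatH θ n v ω)

lemma Lr_pos (v : Word d) (n : ℕ) (ω : Cn d) : 0 < Lr θ v n ω := Real.exp_pos _

lemma measurable_Lr (v : Word d) (n : ℕ) : Measurable (Lr (d := d) θ v n) := by
  have := mg_measurable_hatH (θ := θ) n v
  unfold Lr
  fun_prop

lemma lint_Lr (h0 : 0 ≤ θ) (h1 : θ < 1) (hμ : Nish μ) (v : Word d) (n : ℕ) :
    ∫⁻ ω, ENNReal.ofReal (Lr θ v n ω) ∂(cnP d θ μ) = 1 := by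
  have h2 := sym_all h0 h1 hμ n v (fun _ => 1) measurable_const
  simp only [lintegral_const, measure_univ, mul_one, one_mul] at h2
  exact h2.symm

lemma integrable_Lr (h0 : 0 ≤ θ) (h1 : θ < 1) (hμ : Nish μ) (v : Word d) (n : ℕ) :
    Integrable (Lr θ v n) (cnP d θ μ) := by
  refine ⟨(measurable_Lr v n).aestronglyMeasurable, ?_⟩
  rw [hasFiniteIntegral_iff_ofReal (ae_of_all _ fun ω => (Lr_pos v n ω).le), lint_Lr h0 h1 hμ]
  exact ENNReal.one_lt_top

lemma setLint_Lr (h0 : 0 ≤ θ) (h1 : θ < 1) (hμ : Nish μ) (v : Word d) (n : ℕ) {s : Set (Cn d)}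
    (hs : MeasurableSet[Gf d v n] s) :
    ∫⁻ ω in s, ENNReal.ofReal (Lr θ v n ω) ∂(cnP d θ μ) =
      ∫⁻ ω in s, ENNReal.ofReal (Lr θ v (n + 1) ω) ∂(cnP d θ μ) := by
  obtain ⟨A, hA, rfl⟩ := hs
  have hsm : ∀ m, Measurable (Rr (d := d) m v false) := fun m => mg_measurable_Rr m v false
  have hi : Measurable (A.indicator (fun _ => (1 : ℝ≥0∞))) := measurable_const.indicator hA
  let res : (↥(Sd (n + 1) v) → ℝ) → (↥(Sd n v) → ℝ) :=
    fun r x => r ⟨x, Sd_mono (Nat.le_succ n) v x.2⟩
  have hres : Measurable res := measurable_pi_lambda _ fun x => measurable_pi_apply _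
  have hresR : ∀ s' ω, res (Rr (n + 1) v s' ω) = Rr n v s' ω := fun _ _ => rfl
  have e1 : ∀ (g : Cn d → ℝ≥0∞),
      ∫⁻ ω in (Rr n v false) ⁻¹' A, g ω ∂(cnP d θ μ) =
        ∫⁻ ω, A.indicator (fun _ => (1 : ℝ≥0∞)) (Rr n v false ω) * g ω ∂(cnP d θ μ) := by
    intro g
    rw [← lintegral_indicator (hsm n hA)]
    refine lintegral_congr fun ω => ?_
    by_cases hω : Rr n v false ω ∈ A
    · have h3 : ω ∈ (Rr n v false) ⁻¹' A := hω
      rw [Set.indicator_of_mem hω, Set.indicator_of_mem h3, one_mul]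
    · have h3 : ω ∉ (Rr n v false) ⁻¹' A := hω
      rw [Set.indicator_of_notMem hω, Set.indicator_of_notMem h3, zero_mul]
  rw [e1, e1]
  have h2 := sym_all h0 h1 hμ n v _ hi
  have h3 := sym_all h0 h1 hμ (n + 1) v _ (hi.comp hres)
  simp only [Function.comp, hresR] at h3
  exact h2.symm.trans h3

theorem martingale_Lr (h0 : 0 ≤ θ) (h1 : θ < 1) (hμ : Nish μ) (v : Word d) :
    Martingale (Lr θ v) (Gf d v) (cnP d θ μ) := by
  refine martingale_of_setIntegral_eq_succ ?_ (integrable_Lr h0 h1 hμ v) ?_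
  · intro n
    have h2 : Lr (d := d) θ v n = (fun r => Real.exp (-2 * hx θ n v r)) ∘ Rr n v false := by
      funext ω
      simp [Lr, hx_Rr]
    rw [h2]
    have h3 : Measurable (fun r => Real.exp (-2 * hx (d := d) θ n v r)) := by
      have := measurable_hx (d := d) (θ := θ) n v
      fun_prop
    exact (h3.comp (comap_measurable _)).stronglyMeasurable
  · intro n s hs
    have hsm : MeasurableSet s := (Gf d v).le n s hs
    rw [integral_eq_lintegral_of_nonneg_ae (ae_of_all _ fun ω => (Lr_pos v n ω).le)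
        (measurable_Lr v n).aestronglyMeasurable,
      integral_eq_lintegral_of_nonneg_ae (ae_of_all _ fun ω => (Lr_pos v (n + 1) ω).le)
        (measurable_Lr v (n + 1)).aestronglyMeasurable, setLint_Lr h0 h1 hμ v n hs]

/-- The likelihood ratios converge almost surely. -/
theorem ae_tendsto_Lr (h0 : 0 ≤ θ) (h1 : θ < 1) (hμ : Nish μ) (v : Word d) :
    ∀ᵐ ω ∂(cnP d θ μ), ∃ c : ℝ, Tendsto (fun n => Lr θ v n ω) atTop (𝓝 c) := by
  have hm := martingale_Lr h0 h1 hμ v
  have hb : ∀ n, eLpNorm (Lr (d := d) θ v n) 1 (cnP d θ μ) ≤ ((1 : NNReal) : ℝ≥0∞) := by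
    intro n
    rw [eLpNorm_one_eq_lintegral_enorm]
    have : ∀ ω, ‖Lr θ v n ω‖ₑ = ENNReal.ofReal (Lr θ v n ω) := fun ω =>
      Real.enorm_of_nonneg (Lr_pos v n ω).le
    simp_rw [this]
    rw [lint_Lr h0 h1 hμ]
    simp
  filter_upwards [hm.submartingale.ae_tendsto_limitProcess hb] with ω hω
  exact ⟨_, hω⟩

lemma mg_Uf_abs_le_artanh (h0 : 0 ≤ θ) (h1 : θ < 1) (a : ℝ) : |Uf θ a| ≤ Real.artanh θ := by
  have h2 := Uf_abs_le_tanh h0 h1 a
  have h3 : |Real.tanh a| ≤ 1 := by
    rw [abs_le]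
    exact ⟨(Real.neg_one_lt_tanh a).le, (Real.tanh_lt_one a).le⟩
  have h4 : 0 ≤ Real.artanh θ := Real.artanh_nonneg h0
  calc |Uf θ a| ≤ Real.artanh θ * |Real.tanh a| := h2
    _ ≤ Real.artanh θ * 1 := by gcongr
    _ = Real.artanh θ := mul_one _

lemma mg_abs_hatH_le (h0 : 0 ≤ θ) (h1 : θ < 1) (n : ℕ) (v : Word d) (ω : Cn d) :
    |hatH θ n v ω| ≤ |(ω v).2| + (kids v).card * Real.artanh θ := by
  have h2 : 0 ≤ Real.artanh θ := Real.artanh_nonneg h0
  cases n with
  | zero =>
    simp only [hatH]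
    have : 0 ≤ ((kids v).card : ℝ) * Real.artanh θ := mul_nonneg (Nat.cast_nonneg _) h2
    linarith
  | succ n =>
    simp only [hatH]
    refine (abs_add_le _ _).trans ?_
    gcongr
    refine (Finset.abs_sum_le_sum_abs _ _).trans ?_
    have : ∀ c ∈ kids v, |sp (ω c).1 * Uf θ (hatH θ n c ω)| ≤ Real.artanh θ := by
      intro c _
      rw [abs_mul, abs_sp, one_mul]
      exact mg_Uf_abs_le_artanh h0 h1 _
    refine (Finset.sum_le_card_nsmul _ _ _ this).trans ?_
    simp

/-- The depth `n` fields converge almost surely at a given vertex. -/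
theorem ae_tendsto_hatH_at (h0 : 0 ≤ θ) (h1 : θ < 1) (hμ : Nish μ) (v : Word d) :
    ∀ᵐ ω ∂(cnP d θ μ), ∃ c : ℝ, Tendsto (fun n => hatH θ n v ω) atTop (𝓝 c) := by
  obtain ⟨M, hM⟩ := hμ.bdd
  have hmeas : Measurable (fun ω : Cn d => (ω v).2) := measurable_snd.comp (measurable_pi_apply v)
  have hlaw : (cnP d θ μ).map (fun ω : Cn d => (ω v).2) = μ := by
    ext A hA
    rw [Measure.map_apply hmeas hA]
    have := lint_field (θ := θ) (μ := μ) v (f := A.indicator (fun _ => (1 : ℝ≥0∞)))
      (measurable_const.indicator hA)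
    rw [lintegral_indicator_const hA, one_mul] at this
    rw [← this]
    exact (lintegral_indicator_one (hmeas hA)).symm
  have hbd : ∀ᵐ ω ∂(cnP d θ μ), |(ω v).2| ≤ M := by
    rw [← hlaw] at hM
    exact ae_of_ae_map hmeas.aemeasurable hM
  filter_upwards [ae_tendsto_Lr h0 h1 hμ v, hbd] with ω ⟨c, hc⟩ hω
  set C := M + (kids v).card * Real.artanh θ with hC
  have hH : ∀ n, hatH θ n v ω ≤ C := by
    intro n
    have h2 := mg_abs_hatH_le h0 h1 n v ω
    have h3 := le_abs_self (hatH θ n v ω)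
    rw [hC]
    linarith
  have hlow : ∀ n, Real.exp (-2 * C) ≤ Lr θ v n ω := by
    intro n
    apply Real.exp_le_exp.mpr
    have := hH n
    linarith
  have hcpos : 0 < c := lt_of_lt_of_le (Real.exp_pos _) (ge_of_tendsto' hc hlow)
  refine ⟨-(1 / 2) * Real.log c, ?_⟩
  have hl := (Real.continuousAt_log hcpos.ne').tendsto.comp hc
  have hl2 := hl.const_mul (-(1 / 2) : ℝ)
  refine hl2.congr fun n => ?_
  simp only [Function.comp, Lr, Real.log_exp]
  ring

end Mart

/-! ### The limit field -/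

/-- The gauge identity. -/
lemma hatH_eq_gauge (n : ℕ) (v : Word d) (ω : Cn d) :
    hatH θ n v ω = sp (sgC ω v) * hh θ n v (yC ω) := by
  rw [hatH_eq_hh, ← mg_hh_sp]
  rfl

lemma mg_continuous_Uf (h0 : 0 ≤ θ) (h1 : θ < 1) : Continuous (Uf θ) := by
  have : LipschitzWith ⟨θ, h0⟩ (Uf θ) := LipschitzWith.of_dist_le_mul fun a b => by
    rw [Real.dist_eq, Real.dist_eq]
    exact Uf_lip h0 h1 a b
  exact this.continuous

/-- The limit exists almost surely. -/
theorem tendsto_hatH_mg [Corr θ] (hθ1 : θ < 1) (hμ : Nish μ) :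
    ∀ᵐ ω ∂(cnP d θ μ), ∀ v : Word d, Tendsto (fun n => hatH θ n v ω) atTop (𝓝 (hatL θ v ω)) := by
  have := hμ.prob
  have h0 : 0 ≤ θ := Corr.nonneg
  rw [ae_all_iff]
  intro v
  filter_upwards [ae_tendsto_hatH_at h0 hθ1 hμ v] with ω ⟨c, hc⟩
  have h2 : hatL θ v ω = c := hc.limsup_eq
  rw [h2]
  exact hc

/-- The gauge identity in the limit. -/
theorem hatL_eq_mg [Corr θ] (hθ1 : θ < 1) (hμ : Nish μ) :
    ∀ᵐ ω ∂(cnP d θ μ), ∀ v : Word d, hatL θ v ω = sp (sgC ω v) * hhL θ v (yC ω) := by
  filter_upwards [tendsto_hatH_mg hθ1 hμ] with ω hω v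
  have h1 : Tendsto (fun n => hh θ n v (yC ω)) atTop (𝓝 (sp (sgC ω v) * hatL θ v ω)) := by
    refine ((hω v).const_mul (sp (sgC ω v))).congr fun n => ?_
    rw [hatH_eq_gauge, ← mul_assoc, sp_mul_self, one_mul]
  have h2 : hhL θ v (yC ω) = sp (sgC ω v) * hatL θ v ω := h1.limsup_eq
  rw [h2, ← mul_assoc, sp_mul_self, one_mul]

/-- The recursion in the limit, pointwise. -/
theorem hatL_rec_mg [Corr θ] (hθ1 : θ < 1) (hμ : Nish μ) :
    ∀ᵐ ω ∂(cnP d θ μ), ∀ v : Word d,
      hatL θ v ω = (ω v).2 + ∑ c ∈ kids v, sp (ω c).1 * Uf θ (hatL θ c ω) := by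
  have h0 : 0 ≤ θ := Corr.nonneg
  filter_upwards [tendsto_hatH_mg hθ1 hμ] with ω hω v
  have h1 : Tendsto (fun n => hatH θ (n + 1) v ω) atTop (𝓝 (hatL θ v ω)) :=
    (tendsto_add_atTop_iff_nat 1).mpr (hω v)
  have h2 : Tendsto (fun n => (ω v).2 + ∑ c ∈ kids v, sp (ω c).1 * Uf θ (hatH θ n c ω)) atTop
      (𝓝 ((ω v).2 + ∑ c ∈ kids v, sp (ω c).1 * Uf θ (hatL θ c ω))) := by
    refine tendsto_const_nhds.add (tendsto_finsetSum _ fun c _ => ?_)
    exact (((mg_continuous_Uf h0 hθ1).tendsto _).comp (hω c)).const_mul _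
  exact tendsto_nhds_unique h1 h2

end Vale.Agent.Lib.P161B
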