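import Vale.Agent.Lib.P161B.Nish

/-!
Moments of convolutions of measures with the Nishimori symmetry: the binomial expansion, the closure of
moment bounds under convolution, and the refined bound on the top moment.
-/

namespace Vale.Agent.Lib.P161B

open MeasureTheory

/-- The moment of order `j`. -/
noncomputable def Am (ρ : Measure ℝ) (j : ℕ) : ℝ := ∫ x, x ^ j ∂ρ

variable {μ ν : Measure ℝ} {θ : ℝ}

lemma Nish.intPow (h : Nish μ) (j : ℕ) : Integrable (fun x : ℝ => x ^ j) μ := by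
  have := h.prob
  obtain ⟨M, hM⟩ := h.bdd
  refine Integrable.of_bound (by fun_prop) (|M| ^ j) ?_
  filter_upwards [hM] with x hx
  rw [Real.norm_eq_abs, abs_pow]
  exact pow_le_pow_left₀ (abs_nonneg _) (hx.trans (le_abs_self _)) j

lemma Am_zero (h : Nish μ) : Am μ 0 = 1 := by
  have := h.prob
  simp [Am]

lemma Am_even_nonneg (ρ : Measure ℝ) (q : ℕ) : 0 ≤ Am ρ (2 * q) := by
  unfold Am
  refine integral_nonneg (fun x => ?_)
  exact Even.pow_nonneg (even_two_mul q) x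

lemma Am_odd_le (h : Nish μ) (a : ℕ) : |Am μ (2 * a + 1)| ≤ Am μ (2 * (a + 1)) := by
  have := Nish.odd_moment h a
  simpa [Am, mul_add] using this

/-- The binomial expansion of the moments of a convolution. -/
lemma Am_cvl (hμ : Nish μ) (hν : Nish ν) (N : ℕ) :
    Am (cvl μ ν) N =
      ∑ j ∈ Finset.range (N + 1), (N.choose j : ℝ) * (Am μ j * Am ν (N - j)) := by
  have := hμ.prob
  have := hν.prob
  unfold Am cvl
  rw [integral_map (by fun_prop) (by fun_prop)]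
  have h1 : ∀ p : ℝ × ℝ, (p.1 + p.2) ^ N =
      ∑ j ∈ Finset.range (N + 1), (N.choose j : ℝ) * (p.1 ^ j * p.2 ^ (N - j)) := by
    intro p
    rw [add_pow]
    refine Finset.sum_congr rfl (fun j _ => ?_)
    ring
  simp_rw [h1]
  rw [integral_finsetSum]
  · refine Finset.sum_congr rfl (fun j _ => ?_)
    rw [integral_const_mul]
    congr 1
    exact integral_prod_mul (fun x : ℝ => x ^ j) (fun y : ℝ => y ^ (N - j))
  · intro j _
    exact ((Nish.intPow hμ j).mul_prod (Nish.intPow hν (N - j))).const_mul _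

/-- Moment bounds up to order `2 P`. -/
def BdK (K : ℕ → ℝ) (P : ℕ) (s : ℝ) (ρ : Measure ℝ) : Prop :=
  ∀ q ≤ P, Am ρ (2 * q) ≤ K q * s ^ q

lemma Am_abs_le (h : Nish μ) {K : ℕ → ℝ} {P : ℕ} {s : ℝ} (hb : BdK K P s μ) {j : ℕ} (hj : j ≤ 2 * P) :
    |Am μ j| ≤ K ((j + 1) / 2) * s ^ ((j + 1) / 2) := by
  rcases Nat.even_or_odd' j with ⟨a, rfl | rfl⟩
  · have e : (2 * a + 1) / 2 = a := by omega
    rw [e, abs_of_nonneg (Am_even_nonneg _ _)]
    exact hb a (by omega)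
  · have e : (2 * a + 1 + 1) / 2 = a + 1 := by omega
    rw [e]
    exact (Am_odd_le h a).trans (hb (a + 1) (by omega))

/-- The closure constant. -/
noncomputable def Kcl (K K' : ℕ → ℝ) (q : ℕ) : ℝ :=
  ∑ j ∈ Finset.range (2 * q + 1),
    ((2 * q).choose j : ℝ) * (K ((j + 1) / 2) * K' ((2 * q - j + 1) / 2))

lemma Kcl_nonneg {K K' : ℕ → ℝ} (hK : ∀ q, 0 ≤ K q) (hK' : ∀ q, 0 ≤ K' q) (q : ℕ) :
    0 ≤ Kcl K K' q := by
  unfold Kcl
  refine Finset.sum_nonneg (fun j _ => ?_)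
  have := hK ((j + 1) / 2)
  have := hK' ((2 * q - j + 1) / 2)
  positivity

lemma term_le (hμ : Nish μ) (hν : Nish ν) {K K' : ℕ → ℝ} (hK : ∀ q, 0 ≤ K q) (hK' : ∀ q, 0 ≤ K' q)
    {s : ℝ} (h0 : 0 ≤ s) (h1 : s ≤ 1) {P Q N : ℕ} (hb : BdK K P s μ) (hb' : BdK K' Q s ν) {j : ℕ}
    (hj : j ≤ N) (hjP : j ≤ 2 * P) (hjQ : N - j ≤ 2 * Q) {q : ℕ} (hq : 2 * q ≤ N) :
    |Am μ j * Am ν (N - j)| ≤ K ((j + 1) / 2) * K' ((N - j + 1) / 2) * s ^ q := by
  rw [abs_mul]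
  have a1 := Am_abs_le hμ hb hjP
  have a2 := Am_abs_le hν hb' hjQ
  have hs1 : 0 ≤ s ^ ((j + 1) / 2) := pow_nonneg h0 _
  have hs2 : 0 ≤ s ^ ((N - j + 1) / 2) := pow_nonneg h0 _
  calc |Am μ j| * |Am ν (N - j)|
      ≤ (K ((j + 1) / 2) * s ^ ((j + 1) / 2)) * (K' ((N - j + 1) / 2) * s ^ ((N - j + 1) / 2)) :=
        mul_le_mul a1 a2 (abs_nonneg _) (mul_nonneg (hK _) hs1)
    _ = K ((j + 1) / 2) * K' ((N - j + 1) / 2) * s ^ ((j + 1) / 2 + (N - j + 1) / 2) := by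
        rw [pow_add]; ring
    _ ≤ K ((j + 1) / 2) * K' ((N - j + 1) / 2) * s ^ q := by
        refine mul_le_mul_of_nonneg_left ?_ (mul_nonneg (hK _) (hK' _))
        exact pow_le_pow_of_le_one h0 h1 (by omega)

/-- Moment bounds are closed under convolution. -/
lemma BdK_cvl (hμ : Nish μ) (hν : Nish ν) {K K' : ℕ → ℝ} (hK : ∀ q, 0 ≤ K q) (hK' : ∀ q, 0 ≤ K' q)
    {s : ℝ} (h0 : 0 ≤ s) (h1 : s ≤ 1) {P : ℕ} (hb : BdK K P s μ) (hb' : BdK K' P s ν) :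
    BdK (Kcl K K') P s (cvl μ ν) := by
  intro q hq
  rw [Am_cvl hμ hν]
  unfold Kcl
  rw [Finset.sum_mul]
  refine Finset.sum_le_sum (fun j hj => ?_)
  have hj' : j ≤ 2 * q := by
    have := Finset.mem_range.mp hj
    omega
  have := term_le hμ hν hK hK' h0 h1 (N := 2 * q) (q := q) hb hb' hj' (by omega) (by omega) le_rfl
  have hc : (0 : ℝ) ≤ ((2 * q).choose j : ℝ) := by positivity
  calc ((2 * q).choose j : ℝ) * (Am μ j * Am ν (2 * q - j))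
      ≤ ((2 * q).choose j : ℝ) * |Am μ j * Am ν (2 * q - j)| :=
        mul_le_mul_of_nonneg_left (le_abs_self _) hc
    _ ≤ ((2 * q).choose j : ℝ) * (K ((j + 1) / 2) * K' ((2 * q - j + 1) / 2) * s ^ q) :=
        mul_le_mul_of_nonneg_left this hc
    _ = _ := by ring

/-- The constant for the middle terms of the top moment. -/
noncomputable def Dt (K K' : ℕ → ℝ) (r : ℕ) : ℝ :=
  ∑ i ∈ Finset.range (2 * r + 1),
    ((2 * (r + 2)).choose (i + 2) : ℝ) *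
      (K ((i + 2 + 1) / 2) * K' ((2 * (r + 2) - (i + 2) + 1) / 2))

lemma Dt_nonneg {K K' : ℕ → ℝ} (hK : ∀ q, 0 ≤ K q) (hK' : ∀ q, 0 ≤ K' q) (r : ℕ) :
    0 ≤ Dt K K' r := by
  unfold Dt
  refine Finset.sum_nonneg (fun j _ => ?_)
  have := hK ((j + 2 + 1) / 2)
  have := hK' ((2 * (r + 2) - (j + 2) + 1) / 2)
  positivity

/-- The refined bound on the top moment of a convolution. -/
lemma Am_cvl_top (hμ : Nish μ) (hν : Nish ν) {K K' : ℕ → ℝ} (hK : ∀ q, 0 ≤ K q)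
    (hK' : ∀ q, 0 ≤ K' q) {s : ℝ} (h0 : 0 ≤ s) (h1 : s ≤ 1) (r : ℕ)
    (hb : BdK K (r + 1) s μ) (hb' : BdK K' (r + 1) s ν) :
    Am (cvl μ ν) (2 * (r + 2)) ≤
      Am μ (2 * (r + 2)) * (1 + (2 * (r + 2) : ℕ) * Am ν (2 * 1)) +
        Am ν (2 * (r + 2)) * (1 + (2 * (r + 2) : ℕ) * Am μ (2 * 1)) +
          Dt K K' r * s ^ (r + 2) := by
  rw [Am_cvl hμ hν]
  have e : 2 * (r + 2) + 1 = (2 * r + 1) + 1 + 1 + 1 + 1 := by ring
  rw [e, Finset.sum_range_succ, Finset.sum_range_succ, Finset.sum_range_succ', Finset.sum_range_succ']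
  -- the middle sum
  have hmid : ∑ i ∈ Finset.range (2 * r + 1),
      ((2 * (r + 2)).choose (i + 1 + 1) : ℝ) *
        (Am μ (i + 1 + 1) * Am ν (2 * (r + 2) - (i + 1 + 1))) ≤ Dt K K' r * s ^ (r + 2) := by
    unfold Dt
    rw [Finset.sum_mul]
    refine Finset.sum_le_sum (fun i hi => ?_)
    have hi' := Finset.mem_range.mp hi
    have := term_le hμ hν hK hK' h0 h1 (N := 2 * (r + 2)) (q := r + 2) (j := i + 2) hb hb'
      (by omega) (by omega) (by omega) le_rfl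
    have hc : (0 : ℝ) ≤ ((2 * (r + 2)).choose (i + 2) : ℝ) := by positivity
    calc ((2 * (r + 2)).choose (i + 1 + 1) : ℝ) * (Am μ (i + 1 + 1) * Am ν (2 * (r + 2) - (i + 1 + 1)))
        ≤ ((2 * (r + 2)).choose (i + 2) : ℝ) * |Am μ (i + 2) * Am ν (2 * (r + 2) - (i + 2))| :=
          mul_le_mul_of_nonneg_left (le_abs_self _) hc
      _ ≤ ((2 * (r + 2)).choose (i + 2) : ℝ) *
            (K ((i + 2 + 1) / 2) * K' ((2 * (r + 2) - (i + 2) + 1) / 2) * s ^ (r + 2)) :=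
          mul_le_mul_of_nonneg_left this hc
      _ = _ := by ring
  -- the extreme terms
  have e0 : ((2 * (r + 2)).choose 0 : ℝ) * (Am μ 0 * Am ν (2 * (r + 2) - 0)) = Am ν (2 * (r + 2)) := by
    simp [Am_zero hμ]
  have e1 : ((2 * (r + 2)).choose (0 + 1) : ℝ) * (Am μ (0 + 1) * Am ν (2 * (r + 2) - (0 + 1))) ≤
      ((2 * (r + 2) : ℕ) : ℝ) * (Am μ (2 * 1) * Am ν (2 * (r + 2))) := by
    have h1' : |Am μ (2 * 0 + 1)| ≤ Am μ (2 * (0 + 1)) := Am_odd_le hμ 0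
    have h2' : |Am ν (2 * (r + 1) + 1)| ≤ Am ν (2 * (r + 1 + 1)) := Am_odd_le hν (r + 1)
    have e2 : 2 * (r + 2) - (0 + 1) = 2 * (r + 1) + 1 := by omega
    rw [e2]
    simp only [Nat.choose_one_right, zero_add, mul_zero] at h1' ⊢
    have h3 : Am μ 1 * Am ν (2 * (r + 1) + 1) ≤ Am μ (2 * 1) * Am ν (2 * (r + 2)) := by
      calc Am μ 1 * Am ν (2 * (r + 1) + 1) ≤ |Am μ 1 * Am ν (2 * (r + 1) + 1)| := le_abs_self _
        _ = |Am μ 1| * |Am ν (2 * (r + 1) + 1)| := abs_mul _ _ 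
        _ ≤ Am μ (2 * 1) * Am ν (2 * (r + 2)) :=
            mul_le_mul h1' h2' (abs_nonneg _) (Am_even_nonneg _ _)
    exact mul_le_mul_of_nonneg_left h3 (by positivity)
  have e3 : ((2 * (r + 2)).choose (2 * r + 1 + 1 + 1) : ℝ) *
      (Am μ (2 * r + 1 + 1 + 1) * Am ν (2 * (r + 2) - (2 * r + 1 + 1 + 1))) ≤
      ((2 * (r + 2) : ℕ) : ℝ) * (Am μ (2 * (r + 2)) * Am ν (2 * 1)) := by
    have h1' : |Am μ (2 * (r + 1) + 1)| ≤ Am μ (2 * (r + 1 + 1)) := Am_odd_le hμ (r + 1)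
    have h2' : |Am ν (2 * 0 + 1)| ≤ Am ν (2 * (0 + 1)) := Am_odd_le hν 0
    have e2 : 2 * (r + 2) - (2 * r + 1 + 1 + 1) = 1 := by omega
    have e4 : 2 * r + 1 + 1 + 1 = 2 * (r + 1) + 1 := by ring
    have e5 : (2 * (r + 2)).choose (2 * r + 1 + 1 + 1) = 2 * (r + 2) := by
      have : 2 * (r + 2) = (2 * r + 1 + 1 + 1) + 1 := by ring
      rw [this, Nat.choose_succ_self_right]
    rw [e2, e5, e4]
    simp only [zero_add, mul_zero] at h2' ⊢
    have h3 : Am μ (2 * (r + 1) + 1) * Am ν 1 ≤ Am μ (2 * (r + 2)) * Am ν (2 * 1) := by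
      calc Am μ (2 * (r + 1) + 1) * Am ν 1 ≤ |Am μ (2 * (r + 1) + 1) * Am ν 1| := le_abs_self _
        _ = |Am μ (2 * (r + 1) + 1)| * |Am ν 1| := abs_mul _ _
        _ ≤ Am μ (2 * (r + 2)) * Am ν (2 * 1) :=
            mul_le_mul h1' h2' (abs_nonneg _) (Am_even_nonneg _ _)
    exact mul_le_mul_of_nonneg_left h3 (by positivity)
  have e6 : ((2 * (r + 2)).choose (2 * r + 1 + 1 + 1 + 1) : ℝ) *
      (Am μ (2 * r + 1 + 1 + 1 + 1) * Am ν (2 * (r + 2) - (2 * r + 1 + 1 + 1 + 1))) =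
      Am μ (2 * (r + 2)) := by
    have e2 : 2 * (r + 2) - (2 * r + 1 + 1 + 1 + 1) = 0 := by omega
    have e4 : 2 * r + 1 + 1 + 1 + 1 = 2 * (r + 2) := by ring
    rw [e2, Am_zero hν, e4]
    simp
  rw [e6]
  have e7 : ((2 * (r + 2) : ℕ) : ℝ) = (2 * (r + 2) : ℕ) := rfl
  nlinarith [hmid, e0, e1, e3]

/-! ### Messages and convolution powers -/

/-- Moments of a message. -/
lemma Am_msg_le (hν : Nish ν) (h0 : 0 ≤ θ) (h1 : θ < 1) (q : ℕ) :
    Am (msg θ ν) (2 * q) ≤ θ ^ (2 * q) * Am ν (2 * q) := by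
  have := hν.prob
  have hU : Measurable (Uf θ) := measurable_Uf
  have hU' : Measurable (fun h => - Uf θ h) := hU.neg
  have hle : ∀ h : ℝ, (Uf θ h) ^ (2 * q) ≤ θ ^ (2 * q) * h ^ (2 * q) := by
    intro h
    have h2 : |Uf θ h| ≤ θ * |h| := Uf_abs_le h0 h1 h
    have h3 : |Uf θ h| ^ (2 * q) ≤ (θ * |h|) ^ (2 * q) := pow_le_pow_left₀ (abs_nonneg _) h2 _
    rw [(even_two_mul q).pow_abs, mul_pow, (even_two_mul q).pow_abs] at h3
    exact h3
  have hI : Integrable (fun h => (Uf θ h) ^ (2 * q)) ν := by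
    refine Integrable.mono' ((hν.intPow (2 * q)).const_mul (θ ^ (2 * q))) (by fun_prop) ?_
    refine Filter.Eventually.of_forall (fun h => ?_)
    rw [Real.norm_eq_abs, abs_of_nonneg (Even.pow_nonneg (even_two_mul q) _)]
    exact hle h
  have hI' : Integrable (fun h => (- Uf θ h) ^ (2 * q)) ν := by
    simpa [(even_two_mul q).neg_pow] using hI
  have hm1 : Integrable (fun x : ℝ => x ^ (2 * q)) (ν.map (Uf θ)) :=
    (integrable_map_measure (by fun_prop) hU.aemeasurable).2 hI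
  have hm2 : Integrable (fun x : ℝ => x ^ (2 * q)) (ν.map (fun h => - Uf θ h)) :=
    (integrable_map_measure (by fun_prop) hU'.aemeasurable).2 hI'
  have hp1 : (0 : ℝ) ≤ (1 + θ) / 2 := by linarith
  have hp2 : (0 : ℝ) ≤ (1 - θ) / 2 := by linarith
  unfold Am msg
  rw [integral_add_measure (hm1.smul_measure ENNReal.ofReal_ne_top)
    (hm2.smul_measure ENNReal.ofReal_ne_top), integral_smul_measure, integral_smul_measure,
    integral_map hU.aemeasurable (by fun_prop), integral_map hU'.aemeasurable (by fun_prop)]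
  simp_rw [(even_two_mul q).neg_pow]
  rw [ENNReal.toReal_ofReal hp1, ENNReal.toReal_ofReal hp2, smul_eq_mul, smul_eq_mul, ← add_mul]
  have e : (1 + θ) / 2 + (1 - θ) / 2 = 1 := by ring
  rw [e, one_mul, ← integral_const_mul]
  exact integral_mono hI ((hν.intPow (2 * q)).const_mul _) hle

lemma BdK_msg (hν : Nish ν) (h0 : 0 ≤ θ) (h1 : θ < 1) {K : ℕ → ℝ} {P : ℕ} {s : ℝ}
    (hb : BdK K P s ν) : BdK K P s (msg θ ν) := by
  intro q hq
  refine (Am_msg_le hν h0 h1 q).trans ?_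
  refine le_trans ?_ (hb q hq)
  have h2 : θ ^ (2 * q) ≤ 1 := pow_le_one₀ h0 h1.le
  have h3 := Am_even_nonneg ν q
  nlinarith

/-- Constants for convolution powers. -/
noncomputable def Kpow (K : ℕ → ℝ) : ℕ → ℕ → ℝ
  | 0 => fun _ => 1
  | i + 1 => Kcl (Kpow K i) K

lemma Kpow_nonneg {K : ℕ → ℝ} (hK : ∀ q, 0 ≤ K q) (i q : ℕ) : 0 ≤ Kpow K i q := by
  induction i generalizing q with
  | zero => simp [Kpow]
  | succ i ih => exact Kcl_nonneg ih hK q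

lemma Am_dirac (j : ℕ) : Am (Measure.dirac (0 : ℝ)) j = (0 : ℝ) ^ j := by
  unfold Am
  rw [integral_dirac]

lemma BdK_powC (hν : Nish ν) {K : ℕ → ℝ} (hK : ∀ q, 0 ≤ K q) {s : ℝ} (h0 : 0 ≤ s) (h1 : s ≤ 1)
    {P : ℕ} (hb : BdK K P s ν) (i : ℕ) : BdK (Kpow K i) P s (powC ν i) := by
  induction i with
  | zero =>
    intro q _
    simp only [powC, Kpow, one_mul]
    rw [Am_dirac]
    rcases Nat.eq_zero_or_pos q with rfl | hq
    · simp
    · rw [zero_pow (by omega)]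
      exact pow_nonneg h0 _
  | succ i ih =>
    exact BdK_cvl (hν.powC i) hν (Kpow_nonneg hK i) hK h0 h1 ih hb

/-- The error constants in the chain of convolutions. -/
noncomputable def Et (K : ℕ → ℝ) (C : ℝ) (r : ℕ) : ℕ → ℝ
  | 0 => 0
  | i + 1 => Et K C r i * (1 + C) + Dt (Kpow K i) K r

lemma Et_nonneg {K : ℕ → ℝ} (hK : ∀ q, 0 ≤ K q) {C : ℝ} (hC : 0 ≤ C) (r i : ℕ) : 0 ≤ Et K C r i := by
  induction i with
  | zero => simp [Et]
  | succ i ih =>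
    have := Dt_nonneg (Kpow_nonneg hK i) hK r
    simp only [Et]
    positivity

/-- The top moment along the chain of convolution powers. -/
lemma Am_powC_top (hν : Nish ν) {K : ℕ → ℝ} (hK : ∀ q, 0 ≤ K q) {s : ℝ} (h0 : 0 ≤ s) (h1 : s ≤ 1)
    {r : ℕ} (hb : BdK K (r + 1) s ν) {C : ℝ} (hC : 0 ≤ C)
    (hC1 : ((2 * (r + 2) : ℕ) : ℝ) * K 1 ≤ C) {k : ℕ}
    (hC2 : ∀ i < k, ((2 * (r + 2) : ℕ) : ℝ) * Kpow K i 1 ≤ C) :
    ∀ i ≤ k, Am (powC ν i) (2 * (r + 2)) ≤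
      (i : ℝ) * Am ν (2 * (r + 2)) * (1 + C * s) ^ i + Et K C r i * s ^ (r + 2) := by
  intro i
  induction i with
  | zero =>
    intro _
    simp only [powC, Et]
    rw [Am_dirac, zero_pow (by omega)]
    simp
  | succ i ih =>
    intro hi
    have ih' := ih (by omega)
    have hPi := hν.powC i
    have hbP := BdK_powC hν hK h0 h1 hb i
    have htop := Am_cvl_top hPi hν (Kpow_nonneg hK i) hK h0 h1 r hbP hb
    have hs1 : 1 ≤ 1 + C * s := by nlinarith [mul_nonneg hC h0]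
    have hs2 : 1 + C * s ≤ 1 + C := by nlinarith
    have hN : (0 : ℝ) ≤ ((2 * (r + 2) : ℕ) : ℝ) := by positivity
    have hA := Am_even_nonneg ν (r + 2)
    have hbi := Am_even_nonneg (powC ν i) (r + 2)
    have h1' : ((2 * (r + 2) : ℕ) : ℝ) * Am ν (2 * 1) ≤ C * s := by
      have := hb 1 (by omega)
      rw [pow_one] at this
      calc ((2 * (r + 2) : ℕ) : ℝ) * Am ν (2 * 1) ≤ ((2 * (r + 2) : ℕ) : ℝ) * (K 1 * s) :=
            mul_le_mul_of_nonneg_left this hN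
        _ = (((2 * (r + 2) : ℕ) : ℝ) * K 1) * s := by ring
        _ ≤ C * s := mul_le_mul_of_nonneg_right hC1 h0
    have h2' : ((2 * (r + 2) : ℕ) : ℝ) * Am (powC ν i) (2 * 1) ≤ C * s := by
      have := hbP 1 (by omega)
      rw [pow_one] at this
      calc ((2 * (r + 2) : ℕ) : ℝ) * Am (powC ν i) (2 * 1)
          ≤ ((2 * (r + 2) : ℕ) : ℝ) * (Kpow K i 1 * s) := mul_le_mul_of_nonneg_left this hN
        _ = (((2 * (r + 2) : ℕ) : ℝ) * Kpow K i 1) * s := by ring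
        _ ≤ C * s := mul_le_mul_of_nonneg_right (hC2 i (by omega)) h0
    have hEt := Et_nonneg hK hC r i
    have hsp : 0 ≤ s ^ (r + 2) := pow_nonneg h0 _
    have hpow1 : 1 + C * s ≤ (1 + C * s) ^ (i + 1) := le_self_pow₀ hs1 (by omega)
    have hpow2 : 0 ≤ (1 + C * s) ^ i := by positivity
    have step1 : Am (powC ν (i + 1)) (2 * (r + 2)) ≤
        Am (powC ν i) (2 * (r + 2)) * (1 + C * s) + Am ν (2 * (r + 2)) * (1 + C * s) +
          Dt (Kpow K i) K r * s ^ (r + 2) := by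
      have : powC ν (i + 1) = cvl (powC ν i) ν := rfl
      rw [this]
      refine htop.trans ?_
      have t1 := mul_le_mul_of_nonneg_left (add_le_add_right h1' 1) hbi
      have t2 := mul_le_mul_of_nonneg_left (add_le_add_right h2' 1) hA
      simp only [add_comm (1:ℝ)] at t1 t2
      linarith
    have step2 : Am (powC ν i) (2 * (r + 2)) * (1 + C * s) ≤
        ((i : ℝ) * Am ν (2 * (r + 2)) * (1 + C * s) ^ i + Et K C r i * s ^ (r + 2)) * (1 + C * s) :=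
      mul_le_mul_of_nonneg_right ih' (by linarith)
    have step3 : Et K C r i * s ^ (r + 2) * (1 + C * s) ≤ Et K C r i * s ^ (r + 2) * (1 + C) :=
      mul_le_mul_of_nonneg_left hs2 (mul_nonneg hEt hsp)
    have step4 : Am ν (2 * (r + 2)) * (1 + C * s) ≤ Am ν (2 * (r + 2)) * (1 + C * s) ^ (i + 1) :=
      mul_le_mul_of_nonneg_left hpow1 hA
    have e1 : (((i + 1 : ℕ) : ℝ)) = (i : ℝ) + 1 := by push_cast; ring
    rw [e1]
    simp only [Et]
    have e2 : ((i : ℝ) * Am ν (2 * (r + 2)) * (1 + C * s) ^ i) * (1 + C * s) =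
        (i : ℝ) * Am ν (2 * (r + 2)) * (1 + C * s) ^ (i + 1) := by
      rw [pow_succ]; ring
    nlinarith [step1, step2, step3, step4, e2]

/-- The additive constant in one step of the recursion. -/
noncomputable def Dp (K Kμ : ℕ → ℝ) (C : ℝ) (r k : ℕ) : ℝ :=
  Kμ (r + 2) * (1 + C) + Et K C r k * (1 + C) + Dt Kμ (Kpow K k) r

lemma Dp_nonneg {K Kμ : ℕ → ℝ} (hK : ∀ q, 0 ≤ K q) (hKμ : ∀ q, 0 ≤ Kμ q) {C : ℝ} (hC : 0 ≤ C)
    (r k : ℕ) : 0 ≤ Dp K Kμ C r k := by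
  unfold Dp
  have := Et_nonneg hK hC r k
  have := Dt_nonneg hKμ (Kpow_nonneg hK k) r
  have := hKμ (r + 2)
  positivity

/-- One step of the recursion for the top moment: contraction at the critical point. -/
lemma cav_step {k : ℕ} (hk : 2 ≤ k) (h0 : 0 < θ) (h1 : θ < 1) (hθ : (k : ℝ) * θ ^ 2 = 1)
    {K Kμ : ℕ → ℝ} (hK : ∀ q, 0 ≤ K q) (hKμ : ∀ q, 0 ≤ Kμ q) {r : ℕ} (hr : 1 ≤ r) {C : ℝ} (hC : 0 ≤ C)
    (hC1 : ((2 * (r + 2) : ℕ) : ℝ) * K 1 ≤ C)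
    (hC2 : ∀ i ≤ k, ((2 * (r + 2) : ℕ) : ℝ) * Kpow K i 1 ≤ C)
    (hC3 : ((2 * (r + 2) : ℕ) : ℝ) * Kμ 1 ≤ C)
    {s : ℝ} (hs0 : 0 ≤ s) (hs1 : s ≤ 1) (hsδ : ((k : ℝ) + 1) * (C * s) ≤ Real.log (1 / θ ^ 2))
    {μ ρ : Measure ℝ} (hμ : Nish μ) (hρ : Nish ρ) (hbμ : BdK Kμ (r + 2) s μ)
    (hbρ : BdK K (r + 1) s ρ) :
    Am (cvl μ (powC (msg θ ρ) k)) (2 * (r + 2)) ≤
      (1 / 2) * Am ρ (2 * (r + 2)) + Dp K Kμ C r k * s ^ (r + 2) := by
  have hν : Nish (msg θ ρ) := Nish.msg hρ h0.le h1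
  have hbν : BdK K (r + 1) s (msg θ ρ) := BdK_msg hρ h0.le h1 hbρ
  have hP : Nish (powC (msg θ ρ) k) := hν.powC k
  have hbP : BdK (Kpow K k) (r + 1) s (powC (msg θ ρ) k) := BdK_powC hν hK hs0 hs1 hbν k
  have hbμ' : BdK Kμ (r + 1) s μ := fun q hq => hbμ q (by omega)
  have htop := Am_cvl_top hμ hP hKμ (Kpow_nonneg hK k) hs0 hs1 r hbμ' hbP
  have hchain := Am_powC_top hν hK hs0 hs1 hbν hC hC1 (k := k) (fun i hi => hC2 i hi.le) k le_rfl
  have hN : (0 : ℝ) ≤ ((2 * (r + 2) : ℕ) : ℝ) := by positivity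
  have hA : Am (msg θ ρ) (2 * (r + 2)) ≤ θ ^ (2 * (r + 2)) * Am ρ (2 * (r + 2)) :=
    Am_msg_le hρ h0.le h1 _
  have hAρ := Am_even_nonneg ρ (r + 2)
  have hAμ := Am_even_nonneg μ (r + 2)
  have hAP := Am_even_nonneg (powC (msg θ ρ) k) (r + 2)
  have h1' : ((2 * (r + 2) : ℕ) : ℝ) * Am μ (2 * 1) ≤ C * s := by
    have := hbμ' 1 (by omega)
    rw [pow_one] at this
    calc ((2 * (r + 2) : ℕ) : ℝ) * Am μ (2 * 1) ≤ ((2 * (r + 2) : ℕ) : ℝ) * (Kμ 1 * s) :=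
          mul_le_mul_of_nonneg_left this hN
      _ = (((2 * (r + 2) : ℕ) : ℝ) * Kμ 1) * s := by ring
      _ ≤ C * s := mul_le_mul_of_nonneg_right hC3 hs0
  have h2' : ((2 * (r + 2) : ℕ) : ℝ) * Am (powC (msg θ ρ) k) (2 * 1) ≤ C * s := by
    have := hbP 1 (by omega)
    rw [pow_one] at this
    calc ((2 * (r + 2) : ℕ) : ℝ) * Am (powC (msg θ ρ) k) (2 * 1)
        ≤ ((2 * (r + 2) : ℕ) : ℝ) * (Kpow K k 1 * s) := mul_le_mul_of_nonneg_left this hN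
      _ = (((2 * (r + 2) : ℕ) : ℝ) * Kpow K k 1) * s := by ring
      _ ≤ C * s := mul_le_mul_of_nonneg_right (hC2 k le_rfl) hs0
  have hCs : 0 ≤ C * s := mul_nonneg hC hs0
  have hs2 : 1 + C * s ≤ 1 + C := by nlinarith
  have hEt := Et_nonneg hK hC r k
  have hsp : 0 ≤ s ^ (r + 2) := pow_nonneg hs0 _
  have hθ2 : 0 < θ ^ 2 := by positivity
  -- the growth factor
  have hgrow : (1 + C * s) ^ (k + 1) ≤ 1 / θ ^ 2 := by
    have e1 : 1 + C * s ≤ Real.exp (C * s) := by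
      have := Real.add_one_le_exp (C * s)
      linarith
    have e2 : (1 + C * s) ^ (k + 1) ≤ Real.exp (C * s) ^ (k + 1) :=
      pow_le_pow_left₀ (by linarith) e1 _
    rw [← Real.exp_nat_mul] at e2
    have e3 : ((k + 1 : ℕ) : ℝ) * (C * s) ≤ Real.log (1 / θ ^ 2) := by
      push_cast
      exact hsδ
    calc (1 + C * s) ^ (k + 1) ≤ Real.exp (((k + 1 : ℕ) : ℝ) * (C * s)) := e2
      _ ≤ Real.exp (Real.log (1 / θ ^ 2)) := Real.exp_le_exp.2 e3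
      _ = 1 / θ ^ 2 := Real.exp_log (by positivity)
  -- the contraction constant
  have hcontr : (k : ℝ) * θ ^ (2 * (r + 2)) * (1 + C * s) ^ (k + 1) ≤ 1 / 2 := by
    have e1 : θ ^ (2 * (r + 2)) = θ ^ 2 * θ ^ 2 * θ ^ (2 * r) := by
      rw [← pow_add, ← pow_add]; congr 1; ring
    have hk2 : (2 : ℝ) ≤ (k : ℝ) := by exact_mod_cast hk
    have hθ3 : θ ^ 2 ≤ 1 / 2 := by
      have : (k : ℝ) * θ ^ 2 = 1 := hθ
      nlinarith
    have hθr : θ ^ (2 * r) ≤ θ ^ 2 :=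
      pow_le_pow_of_le_one h0.le h1.le (by omega)
    have hpos : 0 ≤ (k : ℝ) * θ ^ (2 * (r + 2)) := by positivity
    calc (k : ℝ) * θ ^ (2 * (r + 2)) * (1 + C * s) ^ (k + 1)
        ≤ (k : ℝ) * θ ^ (2 * (r + 2)) * (1 / θ ^ 2) := mul_le_mul_of_nonneg_left hgrow hpos
      _ = ((k : ℝ) * θ ^ 2) * θ ^ (2 * r) := by
          rw [e1]; field_simp
      _ = θ ^ (2 * r) := by rw [hθ, one_mul]
      _ ≤ 1 / 2 := hθr.trans hθ3
  have hk0 : (0 : ℝ) ≤ (k : ℝ) := by positivity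
  have hpow0 : 0 ≤ (1 + C * s) ^ k := by positivity
  have t1 : Am (powC (msg θ ρ) k) (2 * (r + 2)) * (1 + ((2 * (r + 2) : ℕ) : ℝ) * Am μ (2 * 1)) ≤
      Am (powC (msg θ ρ) k) (2 * (r + 2)) * (1 + C * s) :=
    mul_le_mul_of_nonneg_left (by linarith) hAP
  have t2 : Am μ (2 * (r + 2)) * (1 + ((2 * (r + 2) : ℕ) : ℝ) * Am (powC (msg θ ρ) k) (2 * 1)) ≤
      Am μ (2 * (r + 2)) * (1 + C) :=
    mul_le_mul_of_nonneg_left (by linarith) hAμ
  have t3 : Am μ (2 * (r + 2)) * (1 + C) ≤ Kμ (r + 2) * s ^ (r + 2) * (1 + C) :=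
    mul_le_mul_of_nonneg_right (hbμ _ le_rfl) (by linarith)
  have t4 : Am (powC (msg θ ρ) k) (2 * (r + 2)) * (1 + C * s) ≤
      ((k : ℝ) * (θ ^ (2 * (r + 2)) * Am ρ (2 * (r + 2))) * (1 + C * s) ^ k +
        Et K C r k * s ^ (r + 2)) * (1 + C * s) := by
    refine mul_le_mul_of_nonneg_right (hchain.trans ?_) (by linarith)
    have : (k : ℝ) * Am (msg θ ρ) (2 * (r + 2)) * (1 + C * s) ^ k ≤
        (k : ℝ) * (θ ^ (2 * (r + 2)) * Am ρ (2 * (r + 2))) * (1 + C * s) ^ k :=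
      mul_le_mul_of_nonneg_right (mul_le_mul_of_nonneg_left hA hk0) hpow0
    linarith
  have t5 : Et K C r k * s ^ (r + 2) * (1 + C * s) ≤ Et K C r k * s ^ (r + 2) * (1 + C) :=
    mul_le_mul_of_nonneg_left hs2 (mul_nonneg hEt hsp)
  have t6 : (k : ℝ) * θ ^ (2 * (r + 2)) * (1 + C * s) ^ (k + 1) * Am ρ (2 * (r + 2)) ≤
      (1 / 2) * Am ρ (2 * (r + 2)) := mul_le_mul_of_nonneg_right hcontr hAρ
  have e6 : ((k : ℝ) * (θ ^ (2 * (r + 2)) * Am ρ (2 * (r + 2))) * (1 + C * s) ^ k +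
        Et K C r k * s ^ (r + 2)) * (1 + C * s) =
      (k : ℝ) * θ ^ (2 * (r + 2)) * (1 + C * s) ^ (k + 1) * Am ρ (2 * (r + 2)) +
        Et K C r k * s ^ (r + 2) * (1 + C * s) := by
    rw [pow_succ]; ring
  unfold Dp
  have e7 : (Kμ (r + 2) * (1 + C) + Et K C r k * (1 + C) + Dt Kμ (Kpow K k) r) * s ^ (r + 2) =
      Kμ (r + 2) * s ^ (r + 2) * (1 + C) + Et K C r k * s ^ (r + 2) * (1 + C) +
        Dt Kμ (Kpow K k) r * s ^ (r + 2) := by ring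
  rw [e7]
  linarith

/-- The moments of the starting law. -/
lemma BdK_base (hμ : Nish μ) {w Cw t : ℝ} (hw : ∀ᵐ h ∂μ, |h| ≤ w) (hw2 : w ^ 2 ≤ Cw * t)
    (ht : 0 < t) (hs : √t ≤ 1) (P : ℕ) : BdK (fun q => |Cw| ^ q) P (√t) μ := by
  intro q _
  have := hμ.prob
  have h1 : Am μ (2 * q) ≤ (w ^ 2) ^ q := by
    unfold Am
    have h2 : ∫ x, x ^ (2 * q) ∂μ ≤ ∫ _, (w ^ 2) ^ q ∂μ := by
      refine integral_mono_ae (hμ.intPow _) (integrable_const _) ?_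
      filter_upwards [hw] with x hx
      rw [pow_mul]
      refine pow_le_pow_left₀ (sq_nonneg _) ?_ q
      exact sq_le_sq' (by linarith [abs_le.1 hx]) (abs_le.1 hx).2
    simpa using h2
  have hCw : Cw * t ≤ |Cw| * t := mul_le_mul_of_nonneg_right (le_abs_self _) ht.le
  have h3 : (w ^ 2) ^ q ≤ (|Cw| * t) ^ q := pow_le_pow_left₀ (sq_nonneg _) (hw2.trans hCw) q
  have hst : t = √t ^ 2 := (Real.sq_sqrt ht.le).symm
  have h4 : t ^ q ≤ √t ^ q := by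
    conv_lhs => rw [hst, ← pow_mul]
    exact pow_le_pow_of_le_one (Real.sqrt_nonneg _) hs (by omega)
  calc Am μ (2 * q) ≤ (w ^ 2) ^ q := h1
    _ ≤ (|Cw| * t) ^ q := h3
    _ = |Cw| ^ q * t ^ q := mul_pow _ _ _
    _ ≤ |Cw| ^ q * √t ^ q := mul_le_mul_of_nonneg_left h4 (by positivity)

/-- Cauchy-Schwarz for the second moment. -/
lemma sq_Am_le (hμ : Nish μ) : Am μ (2 * 1) ^ 2 ≤ Am μ (2 * 2) := by
  have := hμ.prob
  set c := Am μ (2 * 1) with hc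
  have h2 : Integrable (fun x : ℝ => x ^ 2) μ := hμ.intPow 2
  have h4 : Integrable (fun x : ℝ => x ^ 4) μ := hμ.intPow 4
  have h0 : 0 ≤ ∫ x, (x ^ 2 - c) ^ 2 ∂μ := integral_nonneg (fun x => sq_nonneg _)
  have e : ∀ x : ℝ, (x ^ 2 - c) ^ 2 = x ^ 4 - 2 * c * x ^ 2 + c ^ 2 := by intro x; ring
  simp_rw [e] at h0
  have e3 : ∫ x, (x ^ 4 - 2 * c * x ^ 2 + c ^ 2) ∂μ =
      ∫ x, x ^ 4 ∂μ - 2 * c * ∫ x, x ^ 2 ∂μ + c ^ 2 := by
    have A : Integrable (fun x : ℝ => x ^ 4 - 2 * c * x ^ 2) μ := h4.sub (h2.const_mul _)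
    rw [integral_add A (integrable_const _), integral_sub h4 (h2.const_mul _), integral_const_mul]
    simp
  have e2 : ∫ x, x ^ 2 ∂μ = c := by simp [hc, Am]
  have e4 : ∫ x, x ^ 4 ∂μ = Am μ (2 * 2) := by simp [Am]
  rw [e3, e2, e4] at h0
  nlinarith

end Vale.Agent.Lib.P161B
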