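import Vale.Agent.Lib.P161B.Nish

/-!
Moment bounds for convolutions of Nishimori laws, and the scale of the cavity recursion at the critical
point `k θ² = 1`.
-/

namespace Vale.Agent.Lib.P161B

open MeasureTheory

/-! ### Elementary real inequalities -/

lemma ms_tanh_le_self {x : ℝ} (hx : 0 ≤ x) : Real.tanh x ≤ x := by
  have hd : ∀ y, HasDerivAt (fun y => y - Real.sinh y / Real.cosh y)
      (1 - (Real.cosh y * Real.cosh y - Real.sinh y * Real.sinh y) / Real.cosh y ^ 2) y := by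
    intro y
    exact (hasDerivAt_id y).sub ((Real.hasDerivAt_sinh y).div (Real.hasDerivAt_cosh y)
      (Real.cosh_pos y).ne')
  have hm : Monotone (fun y => y - Real.sinh y / Real.cosh y) := by
    apply monotone_of_deriv_nonneg
    · exact fun y => (hd y).differentiableAt
    · intro y
      rw [(hd y).deriv]
      have h1 := Real.cosh_sq y
      have hc := Real.cosh_pos y
      have h2 : (Real.cosh y * Real.cosh y - Real.sinh y * Real.sinh y) = 1 := by nlinarith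
      rw [h2, sub_nonneg, div_le_one (by positivity)]
      nlinarith [Real.one_le_cosh y]
  have := hm hx
  simp only [Real.sinh_zero, Real.cosh_zero] at this
  rw [Real.tanh_eq_sinh_div_cosh]
  simp at this
  linarith

lemma ms_tanh_nonneg {x : ℝ} (hx : 0 ≤ x) : 0 ≤ Real.tanh x := by
  rw [Real.tanh_eq_sinh_div_cosh]
  exact div_nonneg (Real.sinh_nonneg_iff.2 hx) (Real.cosh_pos x).le

lemma ms_abs_tanh_le (x : ℝ) : |Real.tanh x| ≤ |x| := by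
  rcases le_total 0 x with h | h
  · rw [abs_of_nonneg (ms_tanh_nonneg h), abs_of_nonneg h]
    exact ms_tanh_le_self h
  · have h' : 0 ≤ -x := by linarith
    have h1 := ms_tanh_nonneg h'
    have h2 := ms_tanh_le_self h'
    rw [Real.tanh_neg] at h1 h2
    rw [abs_of_nonpos (by linarith), abs_of_nonpos h]
    linarith

lemma ms_tanh_sq_le (x : ℝ) : Real.tanh x ^ 2 ≤ x ^ 2 := sq_le_sq.2 (ms_abs_tanh_le x)

lemma ms_tanh_four_le (x : ℝ) : Real.tanh x ^ 4 ≤ x ^ 4 := by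
  have h := ms_tanh_sq_le x
  have h0 : 0 ≤ Real.tanh x ^ 2 := sq_nonneg _
  calc Real.tanh x ^ 4 = (Real.tanh x ^ 2) ^ 2 := by ring
    _ ≤ (x ^ 2) ^ 2 := pow_le_pow_left₀ h0 h 2
    _ = x ^ 4 := by ring

/-- `x² ≤ 3 tanh² x + x⁴`. -/
lemma ms_sq_le_tanh (x : ℝ) : x ^ 2 ≤ 3 * Real.tanh x ^ 2 + x ^ 4 := by
  have htan0 : 0 ≤ Real.tanh x ^ 2 := sq_nonneg _
  by_cases hx : x ^ 2 ≤ 1
  · -- the case `|x| ≤ 1`
    have hs : x ^ 2 ≤ Real.sinh x ^ 2 := by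
      apply sq_le_sq.2
      rcases le_total 0 x with h | h
      · rw [abs_of_nonneg h, abs_of_nonneg (Real.sinh_nonneg_iff.2 h)]
        exact Real.self_le_sinh_iff.2 h
      · have h' : 0 ≤ -x := by linarith
        have h2 := Real.self_le_sinh_iff.2 h'
        rw [Real.sinh_neg] at h2
        rw [abs_of_nonpos h, abs_of_nonpos (Real.sinh_nonpos_iff.2 h)]
        exact h2
    have hc : Real.cosh x ^ 2 ≤ 3 := by
      have h1 := Real.cosh_le_exp_half_sq x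
      have hc0 := Real.cosh_pos x
      have h2 : Real.exp (x ^ 2 / 2) ≤ Real.exp (1 / 2) := Real.exp_le_exp.2 (by linarith)
      have h3 : Real.exp (1 / 2 : ℝ) ^ 2 = Real.exp 1 := by
        rw [← Real.exp_nat_mul]; norm_num
      have h4 := Real.exp_one_lt_d9
      calc Real.cosh x ^ 2 ≤ Real.exp (1 / 2 : ℝ) ^ 2 :=
            pow_le_pow_left₀ hc0.le (h1.trans h2) 2
        _ ≤ 3 := by rw [h3]; linarith
    have ht : Real.sinh x ^ 2 = Real.tanh x ^ 2 * Real.cosh x ^ 2 := by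
      rw [Real.tanh_eq_sinh_div_cosh]
      have := (Real.cosh_pos x).ne'
      field_simp
    have h4 : 0 ≤ x ^ 4 := by positivity
    nlinarith
  · have hx' : 1 < x ^ 2 := not_le.1 hx
    have : x ^ 4 = x ^ 2 * x ^ 2 := by ring
    nlinarith

/-- Truncated inclusion exclusion for `(1 - x)^k`. -/
lemma ms_bonf (k : ℕ) {x : ℝ} (h0 : 0 ≤ x) (h1 : x ≤ 1) :
    1 - k * x + ((k : ℝ) * (k - 1) / 2) * x ^ 2 - ((k : ℝ) * (k - 1) * (k - 2) / 6) * x ^ 3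
      ≤ (1 - x) ^ k := by
  induction k with
  | zero => simp
  | succ k ih =>
    have hk : 0 ≤ ((k : ℝ) * (k - 1) * (k - 2)) := by
      rcases k with _ | _ | k
      · simp
      · simp
      · push_cast
        have : (0 : ℝ) ≤ k := Nat.cast_nonneg k
        have h2 : (0 : ℝ) ≤ ((k : ℝ) + 1 + 1) * ((k : ℝ) + 1 + 1 - 1) := by nlinarith
        have h3 : (0 : ℝ) ≤ ((k : ℝ) + 1 + 1 - 2) := by linarith
        exact mul_nonneg h2 h3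
    have h2 : 0 ≤ 1 - x := by linarith
    have h3 := mul_le_mul_of_nonneg_right ih h2
    have h4 : 0 ≤ ((k : ℝ) * (k - 1) * (k - 2) / 6) * x ^ 4 := by positivity
    have hid : 1 - ((k + 1 : ℕ) : ℝ) * x + (((k + 1 : ℕ) : ℝ) * (((k + 1 : ℕ) : ℝ) - 1) / 2) * x ^ 2 -
        (((k + 1 : ℕ) : ℝ) * (((k + 1 : ℕ) : ℝ) - 1) * (((k + 1 : ℕ) : ℝ) - 2) / 6) * x ^ 3 =
        (1 - k * x + ((k : ℝ) * (k - 1) / 2) * x ^ 2 -
          ((k : ℝ) * (k - 1) * (k - 2) / 6) * x ^ 3) * (1 - x) -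
        ((k : ℝ) * (k - 1) * (k - 2) / 6) * x ^ 4 := by
      push_cast; ring
    rw [hid, pow_succ (1 - x) k]
    linarith

/-- `(1 + x)^k ≤ 1 + 2 k x` when `k x ≤ 1`. -/
lemma ms_pow_le (k : ℕ) {x : ℝ} (h0 : 0 ≤ x) (h1 : k * x ≤ 1) : (1 + x) ^ k ≤ 1 + 2 * (k * x) := by
  have h2 : (1 + x) ^ k ≤ Real.exp (k * x) := by
    have h3 : 1 + x ≤ Real.exp x := by linarith [Real.add_one_le_exp x]
    calc (1 + x) ^ k ≤ Real.exp x ^ k := pow_le_pow_left₀ (by linarith) h3 k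
      _ = Real.exp (k * x) := by rw [Real.exp_nat_mul]
  have h4 : 0 ≤ k * x := by positivity
  have h5 := Real.abs_exp_sub_one_le (x := k * x) (by rw [abs_of_nonneg h4]; exact h1)
  rw [abs_of_nonneg h4] at h5
  have h6 := (abs_le.1 h5).2
  linarith

/-! ### Integrability and moments of convolutions -/

section Conv

variable {μ ν : Measure ℝ}

lemma ms_int_of_bdd (h : Nish μ) {f : ℝ → ℝ} (hf : Measurable f) {C : ℝ} (hC : ∀ x, |f x| ≤ C) :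
    Integrable f μ := by
  have := h.prob
  exact Integrable.of_bound hf.aestronglyMeasurable C (Filter.Eventually.of_forall (fun x => by
    simpa using hC x))

lemma ms_int_pow (h : Nish μ) (p : ℕ) : Integrable (fun x => x ^ p) μ := by
  have := h.prob
  obtain ⟨M, hM⟩ := h.bdd
  refine Integrable.of_bound (by fun_prop : Measurable fun x : ℝ => x ^ p).aestronglyMeasurable
    (|M| ^ p) ?_
  filter_upwards [hM] with x hx
  rw [Real.norm_eq_abs, abs_pow]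
  exact pow_le_pow_left₀ (abs_nonneg _) (hx.trans (le_abs_self _)) p

lemma ms_int_tanh_pow (h : Nish μ) (p : ℕ) : Integrable (fun x => Real.tanh x ^ p) μ := by
  refine ms_int_of_bdd h (C := 1) ?_ ?_
  · have : Measurable Real.tanh := by
      have h1 : Real.tanh = fun x => Real.sinh x / Real.cosh x := by
        ext x; exact Real.tanh_eq_sinh_div_cosh x
      rw [h1]; fun_prop
    fun_prop
  · intro x
    rw [abs_pow]
    apply pow_le_one₀ (abs_nonneg _)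
    rw [abs_le]
    exact ⟨by linarith [Real.neg_one_lt_tanh x], (Real.tanh_lt_one x).le⟩

lemma ms_prob_one (h : Nish μ) : ∫ _x, (1 : ℝ) ∂μ = 1 := by
  have := h.prob
  simp

lemma ms_prod_eq (h : Nish μ) (h' : Nish ν) (p q : ℕ) :
    ∫ z : ℝ × ℝ, z.1 ^ p * z.2 ^ q ∂(μ.prod ν) = (∫ x, x ^ p ∂μ) * ∫ y, y ^ q ∂ν := by
  have := h.prob
  have := h'.prob
  exact integral_prod_mul _ _

lemma ms_prod_int (h : Nish μ) (h' : Nish ν) (p q : ℕ) :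
    Integrable (fun z : ℝ × ℝ => z.1 ^ p * z.2 ^ q) (μ.prod ν) := by
  have := h.prob
  have := h'.prob
  exact (ms_int_pow h p).mul_prod (ms_int_pow h' q)

lemma ms_cvl_eq (f : ℝ → ℝ) (hf : Measurable f) :
    ∫ h, f h ∂(cvl μ ν) = ∫ z : ℝ × ℝ, f (z.1 + z.2) ∂(μ.prod ν) := by
  unfold cvl
  exact integral_map (by fun_prop) hf.aestronglyMeasurable

lemma ms_even_nonneg (μ : Measure ℝ) (p : ℕ) : 0 ≤ ∫ x, x ^ (2 * p) ∂μ := by
  apply integral_nonneg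
  intro x
  show 0 ≤ x ^ (2 * p)
  rw [pow_mul]
  positivity

lemma ms_two_nonneg (μ : Measure ℝ) : 0 ≤ ∫ x, x ^ 2 ∂μ := integral_nonneg (fun x => by positivity)

lemma ms_four_nonneg (μ : Measure ℝ) : 0 ≤ ∫ x, x ^ 4 ∂μ := integral_nonneg (fun x => by positivity)

lemma ms_mom2_cvl_eq (h : Nish μ) (h' : Nish ν) :
    ∫ x, x ^ 2 ∂(cvl μ ν) = (∫ x, x ^ 2 ∂μ) + 2 * ((∫ x, x ^ 1 ∂μ) * ∫ y, y ^ 1 ∂ν) +
      ∫ y, y ^ 2 ∂ν := by
  rw [ms_cvl_eq _ (by fun_prop)]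
  have e : (fun z : ℝ × ℝ => (z.1 + z.2) ^ 2) = fun z =>
      z.1 ^ 2 * z.2 ^ 0 + 2 * (z.1 ^ 1 * z.2 ^ 1) + z.1 ^ 0 * z.2 ^ 2 := by
    ext z; ring
  rw [e]
  have h1 := ms_prod_int h h' 2 0
  have h2 := (ms_prod_int h h' 1 1).const_mul 2
  have h3 := ms_prod_int h h' 0 2
  have h12 : Integrable (fun z : ℝ × ℝ => z.1 ^ 2 * z.2 ^ 0 + 2 * (z.1 ^ 1 * z.2 ^ 1)) (μ.prod ν) :=
    h1.add h2
  rw [integral_add h12 h3, integral_add h1 h2, integral_const_mul, ms_prod_eq h h',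
    ms_prod_eq h h', ms_prod_eq h h']
  simp only [pow_zero, ms_prob_one h, ms_prob_one h', mul_one, one_mul]

lemma ms_mom4_cvl_eq (h : Nish μ) (h' : Nish ν) :
    ∫ x, x ^ 4 ∂(cvl μ ν) = (∫ x, x ^ 4 ∂μ) + 4 * ((∫ x, x ^ 3 ∂μ) * ∫ y, y ^ 1 ∂ν) +
      6 * ((∫ x, x ^ 2 ∂μ) * ∫ y, y ^ 2 ∂ν) + 4 * ((∫ x, x ^ 1 ∂μ) * ∫ y, y ^ 3 ∂ν) +
      ∫ y, y ^ 4 ∂ν := by
  rw [ms_cvl_eq _ (by fun_prop)]
  have e : (fun z : ℝ × ℝ => (z.1 + z.2) ^ 4) = fun z =>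
      z.1 ^ 4 * z.2 ^ 0 + 4 * (z.1 ^ 3 * z.2 ^ 1) + 6 * (z.1 ^ 2 * z.2 ^ 2) +
        4 * (z.1 ^ 1 * z.2 ^ 3) + z.1 ^ 0 * z.2 ^ 4 := by
    ext z; ring
  rw [e]
  have h1 := ms_prod_int h h' 4 0
  have h2 := (ms_prod_int h h' 3 1).const_mul 4
  have h3 := (ms_prod_int h h' 2 2).const_mul 6
  have h4 := (ms_prod_int h h' 1 3).const_mul 4
  have h5 := ms_prod_int h h' 0 4
  have h12 : Integrable (fun z : ℝ × ℝ => z.1 ^ 4 * z.2 ^ 0 + 4 * (z.1 ^ 3 * z.2 ^ 1)) (μ.prod ν) :=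
    h1.add h2
  have h123 : Integrable (fun z : ℝ × ℝ => z.1 ^ 4 * z.2 ^ 0 + 4 * (z.1 ^ 3 * z.2 ^ 1) +
      6 * (z.1 ^ 2 * z.2 ^ 2)) (μ.prod ν) := h12.add h3
  have h1234 : Integrable (fun z : ℝ × ℝ => z.1 ^ 4 * z.2 ^ 0 + 4 * (z.1 ^ 3 * z.2 ^ 1) +
      6 * (z.1 ^ 2 * z.2 ^ 2) + 4 * (z.1 ^ 1 * z.2 ^ 3)) (μ.prod ν) := h123.add h4
  rw [integral_add h1234 h5, integral_add h123 h4,
    integral_add h12 h3, integral_add h1 h2, integral_const_mul, integral_const_mul,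
    integral_const_mul, ms_prod_eq h h', ms_prod_eq h h', ms_prod_eq h h', ms_prod_eq h h',
    ms_prod_eq h h']
  simp only [pow_zero, ms_prob_one h, ms_prob_one h', mul_one, one_mul]

lemma ms_abs1 (h : Nish μ) : |∫ x, x ^ 1 ∂μ| ≤ ∫ x, x ^ 2 ∂μ := by
  simpa using h.odd_moment 0

lemma ms_abs3 (h : Nish μ) : |∫ x, x ^ 3 ∂μ| ≤ ∫ x, x ^ 4 ∂μ := by
  simpa using h.odd_moment 1

/-- Second moment of a convolution of Nishimori laws. -/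
lemma ms_mom2_cvl (h : Nish μ) (h' : Nish ν) :
    ∫ x, x ^ 2 ∂(cvl μ ν) ≤ (∫ x, x ^ 2 ∂μ) * (1 + 2 * ∫ y, y ^ 2 ∂ν) + ∫ y, y ^ 2 ∂ν := by
  rw [ms_mom2_cvl_eq h h']
  have h1 := ms_abs1 h
  have h2 := ms_abs1 h'
  have h3 : (∫ x, x ^ 1 ∂μ) * (∫ y, y ^ 1 ∂ν) ≤ (∫ x, x ^ 2 ∂μ) * ∫ y, y ^ 2 ∂ν := by
    calc _ ≤ |(∫ x, x ^ 1 ∂μ) * (∫ y, y ^ 1 ∂ν)| := le_abs_self _
      _ = |∫ x, x ^ 1 ∂μ| * |∫ y, y ^ 1 ∂ν| := abs_mul _ _
      _ ≤ _ := mul_le_mul h1 h2 (abs_nonneg _) (ms_two_nonneg μ)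
  nlinarith

/-- Fourth moment of a convolution of Nishimori laws. -/
lemma ms_mom4_cvl (h : Nish μ) (h' : Nish ν) :
    ∫ x, x ^ 4 ∂(cvl μ ν) ≤ (∫ x, x ^ 4 ∂μ) * (1 + 4 * ∫ y, y ^ 2 ∂ν) +
      6 * ((∫ x, x ^ 2 ∂μ) * ∫ y, y ^ 2 ∂ν) + 4 * ((∫ x, x ^ 2 ∂μ) * ∫ y, y ^ 4 ∂ν) +
      ∫ y, y ^ 4 ∂ν := by
  rw [ms_mom4_cvl_eq h h']
  have h1 : (∫ x, x ^ 3 ∂μ) * (∫ y, y ^ 1 ∂ν) ≤ (∫ x, x ^ 4 ∂μ) * ∫ y, y ^ 2 ∂ν := by
    calc _ ≤ |(∫ x, x ^ 3 ∂μ) * (∫ y, y ^ 1 ∂ν)| := le_abs_self _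
      _ = |∫ x, x ^ 3 ∂μ| * |∫ y, y ^ 1 ∂ν| := abs_mul _ _
      _ ≤ _ := mul_le_mul (ms_abs3 h) (ms_abs1 h') (abs_nonneg _) (ms_four_nonneg μ)
  have h2 : (∫ x, x ^ 1 ∂μ) * (∫ y, y ^ 3 ∂ν) ≤ (∫ x, x ^ 2 ∂μ) * ∫ y, y ^ 4 ∂ν := by
    calc _ ≤ |(∫ x, x ^ 1 ∂μ) * (∫ y, y ^ 3 ∂ν)| := le_abs_self _
      _ = |∫ x, x ^ 1 ∂μ| * |∫ y, y ^ 3 ∂ν| := abs_mul _ _
      _ ≤ _ := mul_le_mul (ms_abs1 h) (ms_abs3 h') (abs_nonneg _) (ms_two_nonneg μ)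
  nlinarith

/-- Convolution is commutative. -/
lemma ms_cvl_comm (h : Nish μ) (h' : Nish ν) : cvl μ ν = cvl ν μ := by
  have := h.prob
  have := h'.prob
  unfold cvl
  rw [← Measure.prod_swap (μ := μ) (ν := ν), Measure.map_map (by fun_prop) (by fun_prop)]
  congr 1
  ext z
  simp [add_comm]

/-- `At μ = ∫ tanh² ≥ 0`. -/
lemma ms_At_nonneg (h : Nish μ) : 0 ≤ At μ := by
  rw [h.tanh_eq]
  exact integral_nonneg (fun x => by positivity)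

lemma ms_At_le_two (h : Nish μ) : At μ ≤ ∫ x, x ^ 2 ∂μ := by
  rw [h.tanh_eq]
  exact integral_mono (ms_int_tanh_pow h 2) (ms_int_pow h 2) (fun x => ms_tanh_sq_le x)

lemma ms_tanh4_le_four (h : Nish μ) : ∫ x, Real.tanh x ^ 4 ∂μ ≤ ∫ x, x ^ 4 ∂μ :=
  integral_mono (ms_int_tanh_pow h 4) (ms_int_pow h 4) (fun x => ms_tanh_four_le x)

/-- `∫ x² ≤ 3 At + ∫ x⁴`. -/
lemma ms_two_le (h : Nish μ) : ∫ x, x ^ 2 ∂μ ≤ 3 * At μ + ∫ x, x ^ 4 ∂μ := by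
  rw [h.tanh_eq, ← integral_const_mul, ← integral_add ((ms_int_tanh_pow h 2).const_mul 3)
    (ms_int_pow h 4)]
  exact integral_mono (ms_int_pow h 2) (((ms_int_tanh_pow h 2).const_mul 3).add (ms_int_pow h 4))
    (fun x => ms_sq_le_tanh x)

end Conv

/-! ### The message law -/

section Msg

variable {Z : Measure ℝ} {θ : ℝ}

lemma ms_msg_integral (h0 : 0 ≤ θ) (h1 : θ < 1) {f : ℝ → ℝ} (hf : Measurable f)
    (heven : ∀ x, f (-x) = f x) (hint : Integrable (fun h => f (Uf θ h)) Z) :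
    ∫ h, f h ∂(msg θ Z) = ∫ h, f (Uf θ h) ∂Z := by
  have hU : Measurable (Uf θ) := measurable_Uf
  have hU' : Measurable (fun h => - Uf θ h) := hU.neg
  have i1 : Integrable f (Z.map (Uf θ)) :=
    (integrable_map_measure hf.aestronglyMeasurable hU.aemeasurable).2 hint
  have i2 : Integrable f (Z.map (fun h => - Uf θ h)) := by
    refine (integrable_map_measure hf.aestronglyMeasurable hU'.aemeasurable).2 ?_
    have : f ∘ (fun h => - Uf θ h) = fun h => f (Uf θ h) := by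
      ext x; simp [heven]
    rw [this]; exact hint
  unfold msg
  rw [integral_add_measure (i1.smul_measure ENNReal.ofReal_ne_top)
      (i2.smul_measure ENNReal.ofReal_ne_top),
    integral_smul_measure, integral_smul_measure,
    integral_map hU.aemeasurable hf.aestronglyMeasurable,
    integral_map hU'.aemeasurable hf.aestronglyMeasurable]
  simp only [heven]
  rw [ENNReal.toReal_ofReal (by linarith), ENNReal.toReal_ofReal (by linarith)]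
  simp only [smul_eq_mul]
  ring

lemma ms_msg_two (hZ : Nish Z) (h0 : 0 ≤ θ) (h1 : θ < 1) :
    ∫ h, h ^ 2 ∂(msg θ Z) ≤ θ ^ 2 * ∫ h, h ^ 2 ∂Z := by
  have hb : ∀ x, Uf θ x ^ 2 ≤ θ ^ 2 * x ^ 2 := fun x => by
    have h := Uf_abs_le h0 h1 x
    calc Uf θ x ^ 2 = |Uf θ x| ^ 2 := (sq_abs _).symm
      _ ≤ (θ * |x|) ^ 2 := pow_le_pow_left₀ (abs_nonneg _) h 2
      _ = θ ^ 2 * x ^ 2 := by rw [mul_pow, sq_abs]
  have hU : Measurable (Uf θ) := measurable_Uf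
  have hint : Integrable (fun h => Uf θ h ^ 2) Z := by
    refine Integrable.mono' ((ms_int_pow hZ 2).const_mul (θ ^ 2))
      (by fun_prop : Measurable fun h => Uf θ h ^ 2).aestronglyMeasurable
      (Filter.Eventually.of_forall (fun x => ?_))
    rw [Real.norm_eq_abs, abs_of_nonneg (by positivity)]
    exact hb x
  rw [ms_msg_integral h0 h1 (f := fun h => h ^ 2) (by fun_prop) (fun x => by ring) hint,
    ← integral_const_mul]
  exact integral_mono hint ((ms_int_pow hZ 2).const_mul (θ ^ 2)) hb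

lemma ms_msg_four (hZ : Nish Z) (h0 : 0 ≤ θ) (h1 : θ < 1) :
    ∫ h, h ^ 4 ∂(msg θ Z) ≤ θ ^ 4 * ∫ h, h ^ 4 ∂Z := by
  have hb : ∀ x, Uf θ x ^ 4 ≤ θ ^ 4 * x ^ 4 := fun x => by
    have h := Uf_abs_le h0 h1 x
    have e : Uf θ x ^ 4 = |Uf θ x| ^ 4 := by
      rw [show (4 : ℕ) = 2 * 2 by norm_num, pow_mul, pow_mul, sq_abs]
    have e2 : x ^ 4 = |x| ^ 4 := by
      rw [show (4 : ℕ) = 2 * 2 by norm_num, pow_mul, pow_mul, sq_abs]
    rw [e, e2, ← mul_pow]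
    exact pow_le_pow_left₀ (abs_nonneg _) h 4
  have hU : Measurable (Uf θ) := measurable_Uf
  have hint : Integrable (fun h => Uf θ h ^ 4) Z := by
    refine Integrable.mono' ((ms_int_pow hZ 4).const_mul (θ ^ 4))
      (by fun_prop : Measurable fun h => Uf θ h ^ 4).aestronglyMeasurable
      (Filter.Eventually.of_forall (fun x => ?_))
    rw [Real.norm_eq_abs, abs_of_nonneg (by positivity)]
    exact hb x
  rw [ms_msg_integral h0 h1 (f := fun h => h ^ 4) (by fun_prop) (fun x => by ring) hint,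
    ← integral_const_mul]
  exact integral_mono hint ((ms_int_pow hZ 4).const_mul (θ ^ 4)) hb

lemma ms_measurable_tanh : Measurable Real.tanh := by
  have h1 : Real.tanh = fun x => Real.sinh x / Real.cosh x := by
    ext x; exact Real.tanh_eq_sinh_div_cosh x
  rw [h1]; fun_prop

lemma ms_msg_tanh4 (hZ : Nish Z) (h0 : 0 ≤ θ) (h1 : θ < 1) :
    ∫ h, Real.tanh h ^ 4 ∂(msg θ Z) ≤ θ ^ 4 * ∫ h, h ^ 4 ∂Z := by
  have hm := ms_measurable_tanh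
  have hU : Measurable (Uf θ) := measurable_Uf
  have he : ∀ x, Real.tanh (Uf θ x) ^ 4 = θ ^ 4 * Real.tanh x ^ 4 := fun x => by
    rw [tanh_Uf h0 h1, mul_pow]
  have hint : Integrable (fun h => Real.tanh (Uf θ h) ^ 4) Z := by
    simp only [he]
    exact (ms_int_tanh_pow hZ 4).const_mul _
  rw [ms_msg_integral h0 h1 (f := fun h => Real.tanh h ^ 4) (by fun_prop)
    (fun x => by rw [Real.tanh_neg]; ring) hint, ← integral_const_mul]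
  refine integral_mono hint ((ms_int_pow hZ 4).const_mul (θ ^ 4)) (fun x => ?_)
  show Real.tanh (Uf θ x) ^ 4 ≤ θ ^ 4 * x ^ 4
  rw [he]
  exact mul_le_mul_of_nonneg_left (ms_tanh_four_le x) (by positivity)

lemma ms_msg_ae (h0 : 0 ≤ θ) (h1 : θ < 1) :
    ∀ᵐ y ∂(msg θ Z), Real.tanh y ^ 2 ≤ θ ^ 2 := by
  have hm := ms_measurable_tanh
  have hU : Measurable (Uf θ) := measurable_Uf
  have hS : MeasurableSet {y : ℝ | Real.tanh y ^ 2 ≤ θ ^ 2} :=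
    measurableSet_le (by fun_prop) (by fun_prop)
  have hb : ∀ x, Real.tanh x ^ 2 ≤ 1 := fun x => by
    have h2 := Real.tanh_lt_one x
    have h3 := Real.neg_one_lt_tanh x
    nlinarith
  unfold msg
  rw [ae_add_measure_iff]
  constructor
  · refine Measure.ae_smul_measure ?_ _
    refine (ae_map_iff hU.aemeasurable hS).2 (Filter.Eventually.of_forall (fun x => ?_))
    rw [tanh_Uf h0 h1, mul_pow]
    nlinarith [hb x, sq_nonneg θ]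
  · refine Measure.ae_smul_measure ?_ _
    refine (ae_map_iff (show Measurable (fun h => - Uf θ h) from hU.neg).aemeasurable hS).2
      (Filter.Eventually.of_forall (fun x => ?_))
    rw [Real.tanh_neg, tanh_Uf h0 h1, neg_sq, mul_pow]
    nlinarith [hb x, sq_nonneg θ]

end Msg

/-! ### Powers of a message law -/

section Pow

variable {ν : Measure ℝ}

lemma ms_powC_two_le (hν : Nish ν) (i : ℕ) :
    ∫ x, x ^ 2 ∂(powC ν i) ≤ ((1 + 2 * ∫ y, y ^ 2 ∂ν) ^ i - 1) / 2 := by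
  induction i with
  | zero => simp [powC]
  | succ i ih =>
    have h1 := ms_mom2_cvl (hν.powC i) hν
    have h2 := ms_two_nonneg ν
    have e : powC ν (i + 1) = cvl (powC ν i) ν := rfl
    rw [e]
    have h3 : (∫ x, x ^ 2 ∂(powC ν i)) * (1 + 2 * ∫ y, y ^ 2 ∂ν) ≤
        ((1 + 2 * ∫ y, y ^ 2 ∂ν) ^ i - 1) / 2 * (1 + 2 * ∫ y, y ^ 2 ∂ν) :=
      mul_le_mul_of_nonneg_right ih (by linarith)
    rw [pow_succ]
    linarith

lemma ms_powC_four_le (hν : Nish ν) {k : ℕ} {B : ℝ} (hB0 : 0 ≤ B)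
    (hB : ∀ i < k, ∫ x, x ^ 2 ∂(powC ν i) ≤ B) (i : ℕ) (hi : i ≤ k) :
    ∫ x, x ^ 4 ∂(powC ν i) ≤ i * (6 * (B * ∫ y, y ^ 2 ∂ν) + 4 * (B * ∫ y, y ^ 4 ∂ν) + ∫ y, y ^ 4 ∂ν) *
      (1 + 4 * ∫ y, y ^ 2 ∂ν) ^ i := by
  have h2 := ms_two_nonneg ν
  have h4 := ms_four_nonneg ν
  induction i with
  | zero => simp [powC]
  | succ i ih =>
    have ih' := ih (by omega)
    have h1 := ms_mom4_cvl (hν.powC i) hν
    have e : powC ν (i + 1) = cvl (powC ν i) ν := rfl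
    rw [e]
    have hBi := hB i (by omega)
    set m2 := ∫ y, y ^ 2 ∂ν
    set m4 := ∫ y, y ^ 4 ∂ν
    set c := 6 * (B * m2) + 4 * (B * m4) + m4 with hc
    have hc0 : 0 ≤ c := by positivity
    have h3 : (∫ x, x ^ 4 ∂(powC ν i)) * (1 + 4 * m2) ≤
        i * c * (1 + 4 * m2) ^ i * (1 + 4 * m2) :=
      mul_le_mul_of_nonneg_right ih' (by linarith)
    have h5 : (∫ x, x ^ 2 ∂(powC ν i)) * m2 ≤ B * m2 := mul_le_mul_of_nonneg_right hBi h2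
    have h6 : (∫ x, x ^ 2 ∂(powC ν i)) * m4 ≤ B * m4 := mul_le_mul_of_nonneg_right hBi h4
    have h7 : c ≤ c * (1 + 4 * m2) ^ (i + 1) :=
      le_mul_of_one_le_right hc0 (one_le_pow₀ (by linarith))
    push_cast
    rw [pow_succ] at h7 ⊢
    have h8 : (i : ℝ) * c * (1 + 4 * m2) ^ i * (1 + 4 * m2) + c * ((1 + 4 * m2) ^ i * (1 + 4 * m2)) =
        ((i : ℝ) + 1) * c * ((1 + 4 * m2) ^ i * (1 + 4 * m2)) := by ring
    linarith

lemma ms_powC_At (hν : Nish ν) {θ : ℝ} (h0 : 0 ≤ θ) (h1 : θ < 1)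
    (hae : ∀ᵐ y ∂ν, Real.tanh y ^ 2 ≤ θ ^ 2) (ha : 2 * At ν ≤ 1) {k : ℕ} {E : ℝ} (hE0 : 0 ≤ E)
    (hE : ∀ i < k, ((∫ x, Real.tanh x ^ 4 ∂(powC ν i)) * At ν +
      At (powC ν i) * ∫ y, Real.tanh y ^ 4 ∂ν) / (1 - θ ^ 2) ≤ E) (i : ℕ) (hi : i ≤ k) :
    (1 - 2 * At ν) ^ i - 2 * i * E ≤ 1 - 2 * At (powC ν i) := by
  have ha0 := ms_At_nonneg hν
  induction i with
  | zero => simp [powC, At]
  | succ i ih =>
    have ih' := ih (by omega)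
    have h2 := At_cvl_le (hν.powC i) hν h0 h1 hae
    have h3 := hE i (by omega)
    have e : powC ν (i + 1) = cvl (powC ν i) ν := rfl
    rw [e]
    set a := At ν
    set A := At (powC ν i)
    have h4 : 0 ≤ 1 - 2 * a := by linarith
    have h5 : 1 - 2 * a ≤ 1 := by linarith
    have h6 := mul_le_mul_of_nonneg_right ih' h4
    have h7 : 0 ≤ (i : ℝ) * E * (2 * a) := by positivity
    push_cast
    rw [pow_succ]
    nlinarith

end Pow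

/-! ### The one step estimate at the critical point -/

section Step

/-- The arithmetic of the scale. -/
lemma ms_arith_z {k q s W z A z' : ℝ} (hk : 2 ≤ k) (hq : k * q = 1) (hs0 : 0 < s) (hW : 1 ≤ W)
    (hs : s * (60000 * k * W ^ 2) ≤ 1) (hz0 : 0 ≤ z) (hz : z ≤ 3 * s)
    (hA : A ≤ z - (1 - q) * z ^ 2 + (2 / 3) * z ^ 3 + k * (50000 * s ^ 3))
    (hz' : z' ≤ A + s ^ 2 + s ^ 3) : z' ≤ 3 * s := by
  have hk0 : 0 < k := by linarith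
  have hq0 : 0 < q := by
    by_contra hc
    have : q ≤ 0 := not_lt.1 hc
    nlinarith
  have hq2 : q ≤ 1 / 2 := by nlinarith
  have hW2 : 1 ≤ W ^ 2 := one_le_pow₀ hW
  have h1 : k * s ≤ 1 / 60000 := by
    have : s * (60000 * k * 1) ≤ s * (60000 * k * W ^ 2) := by
      apply mul_le_mul_of_nonneg_left _ hs0.le
      apply mul_le_mul_of_nonneg_left hW2 (by linarith)
    nlinarith
  have hs1 : s ≤ 1 / 120000 := by nlinarith
  have h2 : z - (1 - q) * z ^ 2 ≤ 3 * s - (1 - q) * (3 * s) ^ 2 := by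
    have h3 : 0 ≤ (3 * s - z) * (1 - (1 - q) * (3 * s + z)) := by
      apply mul_nonneg (by linarith)
      have : (1 - q) * (3 * s + z) ≤ 1 * (6 * s) :=
        mul_le_mul (by linarith) (by linarith) (by linarith) (by norm_num)
      linarith
    nlinarith
  have h4 : z ^ 3 ≤ (3 * s) ^ 3 := pow_le_pow_left₀ hz0 hz 3
  have h5 : (1 - q) * (3 * s) ^ 2 ≥ (1 / 2) * (9 * s ^ 2) := by
    have : (3 * s) ^ 2 = 9 * s ^ 2 := by ring
    rw [this]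
    exact mul_le_mul_of_nonneg_right (by linarith) (by positivity)
  have h6 : k * (50000 * s ^ 3) = (k * s) * (50000 * s ^ 2) := by ring
  have h7 : (k * s) * (50000 * s ^ 2) ≤ (1 / 60000) * (50000 * s ^ 2) :=
    mul_le_mul_of_nonneg_right h1 (by positivity)
  have h8 : s ^ 3 = s * s ^ 2 := by ring
  have h9 : s * s ^ 2 ≤ (1 / 120000) * s ^ 2 := mul_le_mul_of_nonneg_right hs1 (by positivity)
  have h10 : (3 * s) ^ 3 = 27 * (s * s ^ 2) := by ring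
  have h11 : 0 ≤ s ^ 2 := by positivity
  rw [h6] at hA
  rw [h8] at hz'
  rw [h10] at h4
  nlinarith

/-- The smallness facts at the critical point. -/
structure MsSmall (k : ℕ) (θ W s : ℝ) : Prop where
  hk' : (2 : ℝ) ≤ k
  hk0 : (0 : ℝ) < k
  h0 : 0 < θ
  h1 : θ < 1
  hθ : (k : ℝ) * θ ^ 2 = 1
  hq0 : 0 < θ ^ 2
  hq2 : θ ^ 2 ≤ 1 / 2
  hs0 : 0 < s
  hs2 : 0 < s ^ 2
  hks : (k : ℝ) * s ≤ 1 / 60000
  hs1 : s ≤ 1 / 120000
  hWs : W ^ 2 * s ≤ 1 / 120000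
  hWs' : W * s ≤ 1 / 120000
  hW : 1 ≤ W

lemma ms_small {k : ℕ} {θ : ℝ} (hk : 2 ≤ k) (h0 : 0 < θ) (h1 : θ < 1) (hθ : (k : ℝ) * θ ^ 2 = 1)
    {W s : ℝ} (hW : 1 ≤ W) (hs0 : 0 < s) (hs : s * (60000 * k * W ^ 2) ≤ 1) : MsSmall k θ W s := by
  have hk' : (2 : ℝ) ≤ k := by exact_mod_cast hk
  have hk0 : (0 : ℝ) < k := by linarith
  have hq0 : 0 < θ ^ 2 := by positivity
  have hq2 : θ ^ 2 ≤ 1 / 2 := by nlinarith
  have hW2 : 1 ≤ W ^ 2 := one_le_pow₀ hW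
  have hWW : W ≤ W ^ 2 := by nlinarith
  have hs2 : 0 < s ^ 2 := by positivity
  have hks : (k : ℝ) * s ≤ 1 / 60000 := by
    have : s * (60000 * k * 1) ≤ s * (60000 * k * W ^ 2) := by
      apply mul_le_mul_of_nonneg_left _ hs0.le
      apply mul_le_mul_of_nonneg_left hW2 (by linarith)
    nlinarith
  have hs1 : s ≤ 1 / 120000 := by nlinarith
  have hWs : W ^ 2 * s ≤ 1 / 120000 := by
    have : s * (60000 * 2 * W ^ 2) ≤ s * (60000 * k * W ^ 2) := by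
      apply mul_le_mul_of_nonneg_left _ hs0.le
      apply mul_le_mul_of_nonneg_right _ (by positivity)
      linarith
    nlinarith
  have hWs' : W * s ≤ 1 / 120000 := by nlinarith
  exact ⟨hk', hk0, h0, h1, hθ, hq0, hq2, hs0, hs2, hks, hs1, hWs, hWs', hW⟩

section StepZ

variable {k : ℕ} {θ W s : ℝ} {Z : Measure ℝ}

lemma ms_b (S : MsSmall k θ W s) (hZ : Nish Z) (hz : At Z ≤ 3 * s)
    (hD : ∫ h, h ^ 4 ∂Z ≤ 4000 * s ^ 2) : ∫ h, h ^ 2 ∂Z ≤ 10 * s := by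
  have h2 := ms_two_le hZ
  have h3 : 4000 * s ^ 2 ≤ s := by nlinarith [S.hs0, S.hs1]
  linarith

lemma ms_km2 (S : MsSmall k θ W s) (hZ : Nish Z) (hz : At Z ≤ 3 * s)
    (hD : ∫ h, h ^ 4 ∂Z ≤ 4000 * s ^ 2) : (k : ℝ) * ∫ y, y ^ 2 ∂(msg θ Z) ≤ 10 * s := by
  have hm2 := ms_msg_two hZ S.h0.le S.h1
  have hb := ms_b S hZ hz hD
  have : (k : ℝ) * ∫ y, y ^ 2 ∂(msg θ Z) ≤ k * (θ ^ 2 * ∫ h, h ^ 2 ∂Z) :=
    mul_le_mul_of_nonneg_left hm2 S.hk0.le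
  have e : (k : ℝ) * (θ ^ 2 * ∫ h, h ^ 2 ∂Z) = ∫ h, h ^ 2 ∂Z := by rw [← mul_assoc, S.hθ, one_mul]
  linarith

lemma ms_km4 (S : MsSmall k θ W s) (hZ : Nish Z) :
    (k : ℝ) * ∫ y, y ^ 4 ∂(msg θ Z) ≤ (∫ h, h ^ 4 ∂Z) / 2 := by
  have hm4 := ms_msg_four hZ S.h0.le S.h1
  have hθ4 : θ ^ 4 = θ ^ 2 * θ ^ 2 := by ring
  rw [hθ4] at hm4
  have hD0 : 0 ≤ ∫ h, h ^ 4 ∂Z := ms_four_nonneg Z
  have hqD : θ ^ 2 * ∫ h, h ^ 4 ∂Z ≤ (∫ h, h ^ 4 ∂Z) / 2 := by nlinarith [S.hq2]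
  have : (k : ℝ) * ∫ y, y ^ 4 ∂(msg θ Z) ≤ k * (θ ^ 2 * θ ^ 2 * ∫ h, h ^ 4 ∂Z) :=
    mul_le_mul_of_nonneg_left hm4 S.hk0.le
  have e : (k : ℝ) * (θ ^ 2 * θ ^ 2 * ∫ h, h ^ 4 ∂Z) = θ ^ 2 * ∫ h, h ^ 4 ∂Z := by
    calc (k : ℝ) * (θ ^ 2 * θ ^ 2 * ∫ h, h ^ 4 ∂Z) =
        ((k : ℝ) * θ ^ 2) * (θ ^ 2 * ∫ h, h ^ 4 ∂Z) := by ring
      _ = _ := by rw [S.hθ, one_mul]
  linarith

lemma ms_GD (S : MsSmall k θ W s) (hZ : Nish Z) (hD : ∫ h, h ^ 4 ∂Z ≤ 4000 * s ^ 2) :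
    ∫ h, Real.tanh h ^ 4 ∂(msg θ Z) ≤ 1000 * s ^ 2 := by
  have hG := ms_msg_tanh4 hZ S.h0.le S.h1
  have hθ4 : θ ^ 4 = θ ^ 2 * θ ^ 2 := by ring
  rw [hθ4] at hG
  have hD0 : 0 ≤ ∫ h, h ^ 4 ∂Z := ms_four_nonneg Z
  have h2 : θ ^ 2 * θ ^ 2 * ∫ h, h ^ 4 ∂Z ≤ (1 / 2 * (1 / 2)) * (4000 * s ^ 2) :=
    mul_le_mul (mul_le_mul S.hq2 S.hq2 S.hq0.le (by norm_num)) hD hD0 (by norm_num)
  linarith

/-- Second moments of the partial sums of messages. -/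
lemma ms_M (S : MsSmall k θ W s) (hZ : Nish Z) (hz : At Z ≤ 3 * s)
    (hD : ∫ h, h ^ 4 ∂Z ≤ 4000 * s ^ 2) :
    ∀ i ≤ k, ∫ x, x ^ 2 ∂(powC (msg θ Z) i) ≤ 20 * s := by
  have hν := hZ.msg S.h0.le S.h1
  have hm20 := ms_two_nonneg (msg θ Z)
  have hkm2 := ms_km2 S hZ hz hD
  intro i hi
  have h2 := ms_powC_two_le hν i
  have h3 : (1 + 2 * ∫ y, y ^ 2 ∂(msg θ Z)) ^ i ≤ (1 + 2 * ∫ y, y ^ 2 ∂(msg θ Z)) ^ k :=
    pow_le_pow_right₀ (by linarith) hi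
  set m2 := ∫ y, y ^ 2 ∂(msg θ Z)
  have h5 : (k : ℝ) * (2 * m2) ≤ 1 := by
    have := S.hs1
    nlinarith
  have h4 := ms_pow_le k (x := 2 * m2) (by linarith) h5
  have h6 : (k : ℝ) * (2 * m2) = 2 * ((k : ℝ) * m2) := by ring
  rw [h6] at h4
  linarith

/-- Fourth moments of the partial sums of messages. -/
lemma ms_N (S : MsSmall k θ W s) (hZ : Nish Z) (hz : At Z ≤ 3 * s)
    (hD : ∫ h, h ^ 4 ∂Z ≤ 4000 * s ^ 2) :
    ∀ i ≤ k, ∫ x, x ^ 4 ∂(powC (msg θ Z) i) ≤ 3300 * s ^ 2 := by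
  have hν := hZ.msg S.h0.le S.h1
  have hM := ms_M S hZ hz hD
  have hm20 := ms_two_nonneg (msg θ Z)
  have hm40 := ms_four_nonneg (msg θ Z)
  have hkm2 := ms_km2 S hZ hz hD
  have hkm4 := ms_km4 S hZ
  have hs0 := S.hs0
  have hs1 := S.hs1
  have hs2 := S.hs2
  have hk0 := S.hk0
  have hM0 : (0 : ℝ) ≤ 20 * s := by positivity
  intro i hi
  have h2 := ms_powC_four_le hν hM0 (k := k) (fun j hj => hM j hj.le) i hi
  set m2 := ∫ y, y ^ 2 ∂(msg θ Z)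
  set m4 := ∫ y, y ^ 4 ∂(msg θ Z)
  set c := 6 * (20 * s * m2) + 4 * (20 * s * m4) + m4 with hc
  have hc0 : 0 ≤ c := by positivity
  have hic : (i : ℝ) ≤ k := by exact_mod_cast hi
  have h3 : (1 + 4 * m2) ^ i ≤ (1 + 4 * m2) ^ k := pow_le_pow_right₀ (by linarith) hi
  have h5' : (k : ℝ) * (4 * m2) ≤ 1 / 1000 / 2 := by
    have : (k : ℝ) * (4 * m2) = 4 * ((k : ℝ) * m2) := by ring
    rw [this]; linarith
  have h4 := ms_pow_le k (x := 4 * m2) (by linarith) (by linarith)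
  have h5 : (1 + 4 * m2) ^ k ≤ 1 + 1 / 1000 := by linarith
  have h6 : 0 ≤ (1 + 4 * m2) ^ i := by positivity
  have h7 : (k : ℝ) * c ≤ 3202 * s ^ 2 := by
    have e : (k : ℝ) * c = 120 * s * (k * m2) + 80 * s * (k * m4) + k * m4 := by
      rw [hc]; ring
    rw [e]
    have h8 : 120 * s * (k * m2) ≤ 120 * s * (10 * s) :=
      mul_le_mul_of_nonneg_left hkm2 (by positivity)
    have h9 : 80 * s * (k * m4) ≤ 80 * s * ((∫ h, h ^ 4 ∂Z) / 2) :=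
      mul_le_mul_of_nonneg_left hkm4 (by positivity)
    have h10 : 80 * s * ((∫ h, h ^ 4 ∂Z) / 2) ≤ 80 * s * (2000 * s ^ 2) :=
      mul_le_mul_of_nonneg_left (by linarith) (by positivity)
    have h11 : 80 * s * (2000 * s ^ 2) = (160000 * s) * s ^ 2 := by ring
    have h12 : (160000 * s) * s ^ 2 ≤ 2 * s ^ 2 :=
      mul_le_mul_of_nonneg_right (by linarith) hs2.le
    have e2 : 120 * s * (10 * s) = 1200 * s ^ 2 := by ring
    linarith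
  calc ∫ x, x ^ 4 ∂(powC (msg θ Z) i) ≤ i * c * (1 + 4 * m2) ^ i := h2
    _ ≤ k * c * (1 + 1 / 1000) := by
        apply mul_le_mul (mul_le_mul_of_nonneg_right hic hc0) (h3.trans h5) h6
        positivity
    _ ≤ (3202 * s ^ 2) * (1 + 1 / 1000) := mul_le_mul_of_nonneg_right h7 (by norm_num)
    _ ≤ 3300 * s ^ 2 := by linarith

lemma ms_AQ (S : MsSmall k θ W s) (hZ : Nish Z) (hz : At Z ≤ 3 * s)
    (hD : ∫ h, h ^ 4 ∂Z ≤ 4000 * s ^ 2) : ∀ i ≤ k, At (powC (msg θ Z) i) ≤ 20 * s :=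
  fun i hi => (ms_At_le_two ((hZ.msg S.h0.le S.h1).powC i)).trans (ms_M S hZ hz hD i hi)

lemma ms_FQ (S : MsSmall k θ W s) (hZ : Nish Z) (hz : At Z ≤ 3 * s)
    (hD : ∫ h, h ^ 4 ∂Z ≤ 4000 * s ^ 2) :
    ∀ i ≤ k, ∫ x, Real.tanh x ^ 4 ∂(powC (msg θ Z) i) ≤ 3300 * s ^ 2 :=
  fun i hi => (ms_tanh4_le_four ((hZ.msg S.h0.le S.h1).powC i)).trans (ms_N S hZ hz hD i hi)

/-- The error in the recursion for the mean of `tanh`. -/
lemma ms_E (S : MsSmall k θ W s) (hZ : Nish Z) (hz : At Z ≤ 3 * s)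
    (hD : ∫ h, h ^ 4 ∂Z ≤ 4000 * s ^ 2) :
    ∀ i < k, ((∫ x, Real.tanh x ^ 4 ∂(powC (msg θ Z) i)) * At (msg θ Z) +
      At (powC (msg θ Z) i) * ∫ y, Real.tanh y ^ 4 ∂(msg θ Z)) / (1 - θ ^ 2) ≤ 50000 * s ^ 3 := by
  have hν := hZ.msg S.h0.le S.h1
  have hz0 : 0 ≤ At Z := ms_At_nonneg hZ
  have ha := At_msg hZ S.h0.le S.h1
  have ha0 : 0 ≤ At (msg θ Z) := ms_At_nonneg hν
  have hG0 : 0 ≤ ∫ h, Real.tanh h ^ 4 ∂(msg θ Z) := integral_nonneg (fun x => by positivity)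
  have hGD := ms_GD S hZ hD
  have hs0 := S.hs0
  have ha15 : At (msg θ Z) ≤ (3 / 2) * s := by
    rw [ha]
    have : θ ^ 2 * At Z ≤ (1 / 2) * (3 * s) := mul_le_mul S.hq2 hz hz0 (by norm_num)
    linarith
  have h1q : (1 : ℝ) / 2 ≤ 1 - θ ^ 2 := by linarith [S.hq2]
  intro i hi
  rw [div_le_iff₀ (by linarith)]
  have h2 : (∫ x, Real.tanh x ^ 4 ∂(powC (msg θ Z) i)) * At (msg θ Z) ≤
      (3300 * s ^ 2) * ((3 / 2) * s) :=
    mul_le_mul (ms_FQ S hZ hz hD i hi.le) ha15 ha0 (by positivity)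
  have h3 : At (powC (msg θ Z) i) * ∫ y, Real.tanh y ^ 4 ∂(msg θ Z) ≤
      (20 * s) * (1000 * s ^ 2) :=
    mul_le_mul (ms_AQ S hZ hz hD i hi.le) hGD hG0 (by positivity)
  have h4 : (50000 * s ^ 3) * (1 / 2) ≤ (50000 * s ^ 3) * (1 - θ ^ 2) :=
    mul_le_mul_of_nonneg_left h1q (by positivity)
  have e1 : (3300 * s ^ 2) * ((3 / 2) * s) = 4950 * s ^ 3 := by ring
  have e2 : (20 * s) * (1000 * s ^ 2) = 20000 * s ^ 3 := by ring
  have h5 : 0 ≤ s ^ 3 := by positivity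
  rw [e1] at h2
  rw [e2] at h3
  linarith

/-- The Bonferroni bound in the critical parametrisation. -/
lemma ms_bonf_crit {q z : ℝ} (hk : (k : ℝ) * q = 1) (hq0 : 0 ≤ q) (hq2 : q ≤ 1 / 2) (hz0 : 0 ≤ z)
    (h2a : 2 * (q * z) ≤ 1) :
    1 - 2 * z + 2 * (1 - q) * z ^ 2 - (4 / 3) * z ^ 3 ≤ (1 - 2 * (q * z)) ^ k := by
  have hbonf := ms_bonf k (x := 2 * (q * z)) (by positivity) h2a
  have e1 : (k : ℝ) * (2 * (q * z)) = 2 * z := by
    calc (k : ℝ) * (2 * (q * z)) = 2 * ((k * q) * z) := by ring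
      _ = 2 * z := by rw [hk, one_mul]
  have e2 : ((k : ℝ) * (k - 1) / 2) * (2 * (q * z)) ^ 2 = 2 * (1 - q) * z ^ 2 := by
    calc ((k : ℝ) * (k - 1) / 2) * (2 * (q * z)) ^ 2 =
        2 * ((k * q) * (k * q - q)) * z ^ 2 := by ring
      _ = 2 * (1 - q) * z ^ 2 := by rw [hk]; ring
  have e3 : ((k : ℝ) * (k - 1) * (k - 2) / 6) * (2 * (q * z)) ^ 3 =
      (4 / 3) * ((1 - q) * (1 - 2 * q)) * z ^ 3 := by
    calc ((k : ℝ) * (k - 1) * (k - 2) / 6) * (2 * (q * z)) ^ 3 =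
        (4 / 3) * ((k * q) * (k * q - q) * (k * q - 2 * q)) * z ^ 3 := by ring
      _ = _ := by rw [hk]; ring
  rw [e1, e2, e3] at hbonf
  have hz30 : 0 ≤ z ^ 3 := by positivity
  have h3 : (1 - q) * (1 - 2 * q) ≤ 1 := by nlinarith
  have h4 : (4 / 3) * ((1 - q) * (1 - 2 * q)) * z ^ 3 ≤ (4 / 3) * 1 * z ^ 3 :=
    mul_le_mul_of_nonneg_right (mul_le_mul_of_nonneg_left h3 (by norm_num)) hz30
  linarith

/-- The mean of `tanh` after `k` messages. -/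
lemma ms_Ak (S : MsSmall k θ W s) (hZ : Nish Z) (hz : At Z ≤ 3 * s)
    (hD : ∫ h, h ^ 4 ∂Z ≤ 4000 * s ^ 2) :
    At (powC (msg θ Z) k) ≤ At Z - (1 - θ ^ 2) * At Z ^ 2 + (2 / 3) * At Z ^ 3 +
      k * (50000 * s ^ 3) := by
  have hν := hZ.msg S.h0.le S.h1
  have hz0 : 0 ≤ At Z := ms_At_nonneg hZ
  have ha := At_msg hZ S.h0.le S.h1
  have hs0 := S.hs0
  have h2a : 2 * (θ ^ 2 * At Z) ≤ 1 := by
    have : θ ^ 2 * At Z ≤ (1 / 2) * (3 * s) := mul_le_mul S.hq2 hz hz0 (by norm_num)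
    linarith [S.hs1]
  have hAt := ms_powC_At hν S.h0.le S.h1 (ms_msg_ae S.h0.le S.h1) (by rw [ha]; exact h2a)
    (by positivity) (ms_E S hZ hz hD) k le_rfl
  have hb := ms_bonf_crit S.hθ S.hq0.le S.hq2 hz0 h2a
  rw [ha] at hAt
  have e4 : 2 * (k : ℝ) * (50000 * s ^ 3) = 2 * (k * (50000 * s ^ 3)) := by ring
  rw [e4] at hAt
  linarith

end StepZ

section StepFinal

variable {k : ℕ} {θ W s w : ℝ} {μ Z : Measure ℝ}

lemma ms_own2 (hμ : Nish μ) (hwu : ∀ᵐ x ∂μ, x ^ 2 ≤ W * s ^ 2) : ∫ x, x ^ 2 ∂μ ≤ W * s ^ 2 := by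
  have hP := hμ.prob
  have := integral_mono_ae (ms_int_pow hμ 2) (integrable_const (W * s ^ 2)) hwu
  simpa using this

lemma ms_own4 (hμ : Nish μ) (hwu : ∀ᵐ x ∂μ, x ^ 2 ≤ W * s ^ 2) :
    ∫ x, x ^ 4 ∂μ ≤ (W * s ^ 2) ^ 2 := by
  have hP := hμ.prob
  have h2 : ∀ᵐ x ∂μ, x ^ 4 ≤ (W * s ^ 2) ^ 2 := by
    filter_upwards [hwu] with x hx
    calc x ^ 4 = (x ^ 2) ^ 2 := by ring
      _ ≤ _ := pow_le_pow_left₀ (by positivity) hx 2
  have := integral_mono_ae (ms_int_pow hμ 4) (integrable_const ((W * s ^ 2) ^ 2)) h2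
  simpa using this

lemma ms_theta_bound (S : MsSmall k θ W s) : W * s ^ 2 ≤ θ ^ 2 := by
  have hs0 := S.hs0
  have hk0 := S.hk0
  have hW0 : 0 ≤ W := by linarith [S.hW]
  have h4 : (k : ℝ) * (W * s ^ 2) ≤ 1 := by
    have e : (k : ℝ) * (W * s ^ 2) = (k * s) * (W * s) := by ring
    rw [e]
    have h5 : (k * s) * (W * s) ≤ (1 / 60000) * (1 / 120000) :=
      mul_le_mul S.hks S.hWs' (by positivity) (by norm_num)
    linarith
  have h5 : (k : ℝ) * (W * s ^ 2) ≤ k * θ ^ 2 := by rw [S.hθ]; exact h4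
  exact le_of_mul_le_mul_left h5 hk0

/-- The scale after one step. -/
lemma ms_step_z (S : MsSmall k θ W s) (hs : s * (60000 * k * W ^ 2) ≤ 1) (hμ : Nish μ) (hZ : Nish Z)
    (hwu : ∀ᵐ x ∂μ, x ^ 2 ≤ W * s ^ 2) (ht : At μ = s ^ 2) (hz : At Z ≤ 3 * s)
    (hD : ∫ h, h ^ 4 ∂Z ≤ 4000 * s ^ 2) : At (cvl μ (powC (msg θ Z) k)) ≤ 3 * s := by
  have hQ : Nish (powC (msg θ Z) k) := (hZ.msg S.h0.le S.h1).powC k
  have hz0 : 0 ≤ At Z := ms_At_nonneg hZ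
  have hs0 := S.hs0
  have hs1 := S.hs1
  have hs2 := S.hs2
  have hW0 : 0 ≤ W := by linarith [S.hW]
  have hAk0 : 0 ≤ At (powC (msg θ Z) k) := ms_At_nonneg hQ
  have hAkle := ms_AQ S hZ hz hD k le_rfl
  have hFk := ms_FQ S hZ hz hD k le_rfl
  have h1q : (1 : ℝ) / 2 ≤ 1 - θ ^ 2 := by linarith [S.hq2]
  rw [ms_cvl_comm hμ hQ]
  have hae : ∀ᵐ y ∂μ, Real.tanh y ^ 2 ≤ θ ^ 2 := by
    filter_upwards [hwu] with y hy
    have h2 := ms_tanh_sq_le y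
    have h3 := ms_theta_bound S
    linarith
  have hK2 := At_cvl_le hQ hμ S.h0.le S.h1 hae
  rw [ht] at hK2
  have hT4 : ∫ x, Real.tanh x ^ 4 ∂μ ≤ (W * s ^ 2) ^ 2 :=
    (ms_tanh4_le_four hμ).trans (ms_own4 hμ hwu)
  have hT40 : 0 ≤ ∫ x, Real.tanh x ^ 4 ∂μ := integral_nonneg (fun x => by positivity)
  have hrem : ((∫ x, Real.tanh x ^ 4 ∂(powC (msg θ Z) k)) * s ^ 2 +
      At (powC (msg θ Z) k) * ∫ y, Real.tanh y ^ 4 ∂μ) / (1 - θ ^ 2) ≤ s ^ 3 := by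
    rw [div_le_iff₀ (by linarith)]
    have h2 : (∫ x, Real.tanh x ^ 4 ∂(powC (msg θ Z) k)) * s ^ 2 ≤ (3300 * s ^ 2) * s ^ 2 :=
      mul_le_mul_of_nonneg_right hFk hs2.le
    have h3 : At (powC (msg θ Z) k) * ∫ y, Real.tanh y ^ 4 ∂μ ≤ (20 * s) * (W * s ^ 2) ^ 2 :=
      mul_le_mul hAkle hT4 hT40 (by positivity)
    have e1 : (20 * s) * (W * s ^ 2) ^ 2 = 20 * (W ^ 2 * s) * (s * s ^ 3) := by ring
    have h4 : 20 * (W ^ 2 * s) * (s * s ^ 3) ≤ 20 * (1 / 120000) * (s * s ^ 3) :=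
      mul_le_mul_of_nonneg_right (mul_le_mul_of_nonneg_left S.hWs (by norm_num)) (by positivity)
    have h5 : s ^ 3 * (1 / 2) ≤ s ^ 3 * (1 - θ ^ 2) :=
      mul_le_mul_of_nonneg_left h1q (by positivity)
    have e2 : (3300 * s ^ 2) * s ^ 2 = 3300 * (s * s ^ 3) := by ring
    have h6 : s * s ^ 3 ≤ (1 / 120000) * s ^ 3 := mul_le_mul_of_nonneg_right hs1 (by positivity)
    have h7 : 0 ≤ s ^ 3 := by positivity
    rw [e1] at h3
    rw [e2] at h2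
    linarith
  have hs4 : 0 ≤ At (powC (msg θ Z) k) * s ^ 2 := mul_nonneg hAk0 hs2.le
  have hz' : At (cvl (powC (msg θ Z) k) μ) ≤ At (powC (msg θ Z) k) + s ^ 2 + s ^ 3 := by
    linarith
  exact ms_arith_z S.hk' S.hθ hs0 S.hW hs hz0 hz (ms_Ak S hZ hz hD) hz'

/-- The fourth moment after one step. -/
lemma ms_step_four (S : MsSmall k θ W s) (hμ : Nish μ) (hZ : Nish Z)
    (hwu : ∀ᵐ x ∂μ, x ^ 2 ≤ W * s ^ 2) (hz : At Z ≤ 3 * s)
    (hD : ∫ h, h ^ 4 ∂Z ≤ 4000 * s ^ 2) :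
    ∫ h, h ^ 4 ∂(cvl μ (powC (msg θ Z) k)) ≤ 4000 * s ^ 2 := by
  have hQ : Nish (powC (msg θ Z) k) := (hZ.msg S.h0.le S.h1).powC k
  have hs0 := S.hs0
  have hs1 := S.hs1
  have hs2 := S.hs2
  have hWs' := S.hWs'
  have hW0 : 0 ≤ W := by linarith [S.hW]
  have hMk := ms_M S hZ hz hD k le_rfl
  have hNk := ms_N S hZ hz hD k le_rfl
  have hMk0 := ms_two_nonneg (powC (msg θ Z) k)
  have hNk0 := ms_four_nonneg (powC (msg θ Z) k)
  have hμ2 := ms_own2 hμ hwu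
  have hμ4 := ms_own4 hμ hwu
  have h2 := ms_mom4_cvl hμ hQ
  have h3 : (∫ x, x ^ 4 ∂μ) * (1 + 4 * ∫ y, y ^ 2 ∂(powC (msg θ Z) k)) ≤
      (W * s ^ 2) ^ 2 * (1 + 4 * (20 * s)) :=
    mul_le_mul hμ4 (by linarith) (by linarith) (by positivity)
  have h4 : (∫ x, x ^ 2 ∂μ) * (∫ y, y ^ 2 ∂(powC (msg θ Z) k)) ≤ (W * s ^ 2) * (20 * s) :=
    mul_le_mul hμ2 hMk hMk0 (by positivity)
  have h5 : (∫ x, x ^ 2 ∂μ) * (∫ y, y ^ 4 ∂(powC (msg θ Z) k)) ≤ (W * s ^ 2) * (3300 * s ^ 2) :=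
    mul_le_mul hμ2 hNk hNk0 (by positivity)
  have e1 : (W * s ^ 2) ^ 2 * (1 + 4 * (20 * s)) = (W * s) ^ 2 * (1 + 80 * s) * s ^ 2 := by ring
  have e2 : (W * s ^ 2) * (20 * s) = 20 * (W * s) * s ^ 2 := by ring
  have e3 : (W * s ^ 2) * (3300 * s ^ 2) = 3300 * ((W * s) * s) * s ^ 2 := by ring
  have hWs0 : 0 ≤ W * s := by positivity
  have h6 : (W * s) ^ 2 * (1 + 80 * s) ≤ 1 := by
    have h60 : (W * s) ^ 2 ≤ 1 * 1 := by
      rw [sq]; exact mul_le_mul (by linarith) (by linarith) hWs0 (by norm_num)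
    have h7 : 1 + 80 * s ≤ 1 + 1 := by linarith
    have h8 : (W * s) ^ 2 * (1 + 80 * s) ≤ (1 / 120000) ^ 2 * (1 + 1) :=
      mul_le_mul (pow_le_pow_left₀ hWs0 hWs' 2) h7 (by positivity) (by positivity)
    linarith
  have h7 : (W * s) * s ≤ 1 / 100 := by
    have := mul_le_mul hWs' hs1 hs0.le (by norm_num : (0 : ℝ) ≤ 1 / 120000)
    linarith
  rw [e1] at h3
  rw [e2] at h4
  rw [e3] at h5
  have h8 : (W * s) ^ 2 * (1 + 80 * s) * s ^ 2 ≤ 1 * s ^ 2 :=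
    mul_le_mul_of_nonneg_right h6 hs2.le
  have h9 : 20 * (W * s) * s ^ 2 ≤ 1 * s ^ 2 :=
    mul_le_mul_of_nonneg_right (by linarith) hs2.le
  have h10 : 3300 * ((W * s) * s) * s ^ 2 ≤ 3300 * (1 / 100) * s ^ 2 :=
    mul_le_mul_of_nonneg_right (mul_le_mul_of_nonneg_left h7 (by norm_num)) hs2.le
  linarith

end StepFinal

end Step

/-- The scale of the cavity recursion at the critical point, with the fourth moment. -/
theorem ms_main {k : ℕ} {θ : ℝ} (hk : 2 ≤ k) (h0 : 0 < θ) (h1 : θ < 1) (hθ : (k : ℝ) * θ ^ 2 = 1)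
    (Cw : ℝ) :
    ∃ tstar C4 : ℝ, 0 < tstar ∧ 0 ≤ C4 ∧ ∀ (μ : Measure ℝ) (w : ℝ), Nish μ → (∀ᵐ h ∂μ, |h| ≤ w) →
      w ^ 2 ≤ Cw * At μ → 0 < At μ → At μ ≤ tstar → ∀ n : ℕ,
        At (cavN θ k μ n) ≤ 3 * √(At μ) ∧ ∫ h, h ^ 4 ∂(cavN θ k μ n) ≤ C4 * At μ := by
  have hk' : (0 : ℝ) < k := by
    have : 0 < k := by omega
    exact_mod_cast this
  set W : ℝ := |Cw| + 1 with hWdef
  have hW : 1 ≤ W := by
    have := abs_nonneg Cw
    linarith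
  have hW0 : 0 < W := by linarith
  set sstar : ℝ := 1 / (60000 * k * W ^ 2) with hsstar
  have hsstar0 : 0 < sstar := by positivity
  refine ⟨sstar ^ 2, 4000, by positivity, by norm_num, ?_⟩
  intro μ w hμ hw hw2 ht ht'
  set s := √(At μ) with hsdef
  have hs0 : 0 < s := Real.sqrt_pos.2 ht
  have hs2 : At μ = s ^ 2 := (Real.sq_sqrt ht.le).symm
  have hsle : s ≤ sstar := by
    have := Real.sqrt_le_sqrt ht'
    rwa [Real.sqrt_sq hsstar0.le] at this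
  have hs : s * (60000 * k * W ^ 2) ≤ 1 := by
    have h2 : s * (60000 * k * W ^ 2) ≤ sstar * (60000 * k * W ^ 2) :=
      mul_le_mul_of_nonneg_right hsle (by positivity)
    have h3 : sstar * (60000 * k * W ^ 2) = 1 := by
      rw [hsstar]; field_simp
    linarith
  have S := ms_small hk h0 h1 hθ hW hs0 hs
  have hw2' : w ^ 2 ≤ W * s ^ 2 := by
    calc w ^ 2 ≤ Cw * At μ := hw2
      _ ≤ W * At μ := by
        apply mul_le_mul_of_nonneg_right _ ht.le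
        have := le_abs_self Cw
        linarith
      _ = W * s ^ 2 := by rw [hs2]
  have hwu : ∀ᵐ x ∂μ, x ^ 2 ≤ W * s ^ 2 := by
    filter_upwards [hw] with x hx
    have : x ^ 2 ≤ w ^ 2 := by
      rw [← sq_abs x]
      exact pow_le_pow_left₀ (abs_nonneg _) hx 2
    linarith
  intro n
  rw [hs2]
  have hcav : ∀ n, Nish (cavN θ k μ n) := fun n => hμ.cavN h0.le h1 k n
  induction n with
  | zero =>
    have hs1 := S.hs1
    constructor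
    · show At μ ≤ 3 * s
      rw [hs2]
      nlinarith
    · show ∫ h, h ^ 4 ∂μ ≤ 4000 * s ^ 2
      have h4 := ms_own4 hμ hwu
      have e : (W * s ^ 2) ^ 2 = (W * s) ^ 2 * s ^ 2 := by ring
      have h5 : (W * s) ^ 2 ≤ 1 := by
        have hWs' := S.hWs'
        have h6 : 0 ≤ W * s := by positivity
        nlinarith
      have h6 : (W * s) ^ 2 * s ^ 2 ≤ 1 * s ^ 2 := mul_le_mul_of_nonneg_right h5 (by positivity)
      rw [e] at h4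
      have h7 : 0 ≤ s ^ 2 := by positivity
      linarith
  | succ n ih =>
    exact ⟨ms_step_z S hs hμ (hcav n) hwu hs2 ih.1 ih.2, ms_step_four S hμ (hcav n) hwu ih.1 ih.2⟩

end Vale.Agent.Lib.P161B
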