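import Vale.Agent.Lib.P161B.Nish

namespace Vale.Agent.Lib.P161B

open MeasureTheory

variable {θ : ℝ}

lemma msgAC_tanh_mono {x y : ℝ} (h : x ≤ y) : Real.tanh x ≤ Real.tanh y := by
  have hx : Real.tanh x ∈ Set.Ioo (-1 : ℝ) 1 := ⟨Real.neg_one_lt_tanh x, Real.tanh_lt_one x⟩
  have hy : Real.tanh y ∈ Set.Ioo (-1 : ℝ) 1 := ⟨Real.neg_one_lt_tanh y, Real.tanh_lt_one y⟩
  rw [← Real.artanh_le_artanh_iff hx hy, Real.artanh_tanh, Real.artanh_tanh]
  exact h

lemma msgAC_tanh_nonneg {x : ℝ} (h : 0 ≤ x) : 0 ≤ Real.tanh x := by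
  have := msgAC_tanh_mono h
  simpa using this

lemma msgAC_tanh_sq_abs (x : ℝ) : Real.tanh x ^ 2 = Real.tanh |x| ^ 2 := by
  rcases abs_cases x with ⟨h, _⟩ | ⟨h, _⟩ <;> rw [h]
  rw [Real.tanh_neg]; ring

lemma msgAC_tanh_sq_le {x y : ℝ} (h : |x| ≤ |y|) : Real.tanh x ^ 2 ≤ Real.tanh y ^ 2 := by
  rw [msgAC_tanh_sq_abs x, msgAC_tanh_sq_abs y]
  have h1 := msgAC_tanh_mono h
  have h0 := msgAC_tanh_nonneg (abs_nonneg x)
  nlinarith

/-- The two point lemma: one of `u + b`, `-u + b` is at least as far from zero as `u`. -/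
lemma msgAC_two_point (u b : ℝ) : Real.tanh u ^ 2 ≤ Real.tanh (u + b) ^ 2 ∨
    Real.tanh u ^ 2 ≤ Real.tanh (-u + b) ^ 2 := by
  by_cases h : 0 ≤ u * b
  · left
    apply msgAC_tanh_sq_le
    apply sq_le_sq.mp
    nlinarith
  · right
    apply msgAC_tanh_sq_le
    push Not at h
    apply sq_le_sq.mp
    nlinarith

/-- Integrals over the law of a message. -/
lemma msgAC_integral {ζ : Measure ℝ} [IsProbabilityMeasure ζ] (h0 : 0 ≤ θ) (h1 : θ < 1)
    {f : ℝ → ℝ} (hf : Measurable f) (C : ℝ) (hC : ∀ x, |f x| ≤ C) :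
    ∫ h, f h ∂(msg θ ζ) =
      ∫ η, ((1 + θ) / 2 * f (Uf θ η) + (1 - θ) / 2 * f (- Uf θ η)) ∂ζ := by
  have hU : Measurable (Uf θ) := measurable_Uf
  have hU' : Measurable (fun h => - Uf θ h) := hU.neg
  have hbd : ∀ g : ℝ → ℝ, Measurable g → Integrable (fun η => f (g η)) ζ := by
    intro g hg
    exact Integrable.of_bound (hf.comp hg).aestronglyMeasurable C (Filter.Eventually.of_forall
      fun x => by simpa using hC (g x))
  have hmap : ∀ g : ℝ → ℝ, Measurable g → Integrable f (ζ.map g) := by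
    intro g hg
    exact (integrable_map_measure hf.aestronglyMeasurable hg.aemeasurable).2 (hbd g hg)
  have e1 : 0 ≤ (1 + θ) / 2 := by linarith
  have e2 : 0 ≤ (1 - θ) / 2 := by linarith
  unfold msg
  rw [integral_add_measure ((hmap _ hU).smul_measure ENNReal.ofReal_ne_top)
    ((hmap _ hU').smul_measure ENNReal.ofReal_ne_top), integral_smul_measure, integral_smul_measure,
    integral_map hU.aemeasurable hf.aestronglyMeasurable,
    integral_map hU'.aemeasurable hf.aestronglyMeasurable,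
    ENNReal.toReal_ofReal e1, ENNReal.toReal_ofReal e2, integral_add ((hbd _ hU).const_mul _)
    ((hbd _ hU').const_mul _), integral_const_mul, integral_const_mul]
  simp only [smul_eq_mul]

lemma msgAC_psi_pow_le (h0 : 0 ≤ θ) (h1 : θ < 1) (x : ℝ) (Q : ℕ) : psiF θ x ^ Q ≤ 1 :=
  pow_le_one₀ (psiF_pos h0 h1 x).le (psiF_le_one h0 h1 x)

/-- Pointwise, first part. -/
lemma msgAC_point1 (h0 : 0 < θ) (h1 : θ < 1) (η b : ℝ) :
    (1 + θ) / 2 * psiF θ (Uf θ η + b) + (1 - θ) / 2 * psiF θ (-Uf θ η + b) ≤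
      1 - ((1 - θ) * (1 - θ ^ 2) * θ ^ 2 / 2) * Real.tanh η ^ 2 := by
  have ht : Real.tanh (Uf θ η) ^ 2 = θ ^ 2 * Real.tanh η ^ 2 := by
    rw [tanh_Uf h0.le h1]; ring
  have hθ2 : 0 < 1 - θ ^ 2 := by nlinarith
  have hp1 := psiF_le_one h0.le h1 (Uf θ η + b)
  have hp2 := psiF_le_one h0.le h1 (-Uf θ η + b)
  have hq1 := psiF_le h0.le h1 (Uf θ η + b)
  have hq2 := psiF_le h0.le h1 (-Uf θ η + b)
  have hS : 0 ≤ θ ^ 2 * Real.tanh η ^ 2 := by positivity
  have hw : 0 < 1 - θ := by linarith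
  rcases msgAC_two_point (Uf θ η) b with h | h
  · rw [ht] at h
    have : psiF θ (Uf θ η + b) ≤ 1 - (1 - θ ^ 2) * (θ ^ 2 * Real.tanh η ^ 2) := by
      refine hq1.trans ?_
      nlinarith [mul_le_mul_of_nonneg_left h hθ2.le]
    have h3 : (1 + θ) / 2 * psiF θ (Uf θ η + b) ≤
        (1 + θ) / 2 * (1 - (1 - θ ^ 2) * (θ ^ 2 * Real.tanh η ^ 2)) :=
      mul_le_mul_of_nonneg_left this (by linarith)
    have h4 : (1 - θ) / 2 * psiF θ (-Uf θ η + b) ≤ (1 - θ) / 2 * 1 :=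
      mul_le_mul_of_nonneg_left hp2 (by linarith)
    have h5 : 0 ≤ θ * ((1 - θ ^ 2) * (θ ^ 2 * Real.tanh η ^ 2)) := by positivity
    nlinarith
  · rw [ht] at h
    have : psiF θ (-Uf θ η + b) ≤ 1 - (1 - θ ^ 2) * (θ ^ 2 * Real.tanh η ^ 2) := by
      refine hq2.trans ?_
      nlinarith [mul_le_mul_of_nonneg_left h hθ2.le]
    have h3 : (1 - θ) / 2 * psiF θ (-Uf θ η + b) ≤
        (1 - θ) / 2 * (1 - (1 - θ ^ 2) * (θ ^ 2 * Real.tanh η ^ 2)) :=
      mul_le_mul_of_nonneg_left this (by linarith)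
    have h4 : (1 + θ) / 2 * psiF θ (Uf θ η + b) ≤ (1 + θ) / 2 * 1 :=
      mul_le_mul_of_nonneg_left hp1 (by linarith)
    nlinarith

/-- Pointwise: the power is small when the squared tanh is not small. -/
lemma msgAC_pow_small (h0 : 0 < θ) (h1 : θ < 1) {x X : ℝ} {Q : ℕ} (hQ : 1 ≤ X * Q)
    (h : θ ^ 2 * (X / 2) ≤ Real.tanh x ^ 2) :
    psiF θ x ^ Q ≤ Real.exp (- ((1 - θ ^ 2) * θ ^ 2 / 2)) := by
  have hθ2 : 0 < 1 - θ ^ 2 := by nlinarith
  set a := (1 - θ ^ 2) * θ ^ 2 / 2 with ha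
  have ha0 : 0 < a := by positivity
  have h2 : psiF θ x ≤ Real.exp (- (a * X)) := by
    refine (psiF_le h0.le h1 x).trans ?_
    have : 1 - (1 - θ ^ 2) * Real.tanh x ^ 2 ≤ 1 - a * X := by
      have := mul_le_mul_of_nonneg_left h hθ2.le
      have e : (1 - θ ^ 2) * (θ ^ 2 * (X / 2)) = a * X := by rw [ha]; ring
      linarith
    refine this.trans ?_
    have := Real.add_one_le_exp (- (a * X))
    linarith
  calc psiF θ x ^ Q ≤ (Real.exp (- (a * X))) ^ Q :=
        pow_le_pow_left₀ (psiF_pos h0.le h1 x).le h2 Q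
    _ = Real.exp (- (a * (X * Q))) := by
        rw [← Real.exp_nat_mul]; congr 1; ring
    _ ≤ Real.exp (- a) := by
        apply Real.exp_le_exp.2
        have := mul_le_mul_of_nonneg_left hQ ha0.le
        linarith

/-- Pointwise, second part. -/
lemma msgAC_point2 (h0 : 0 < θ) (h1 : θ < 1) {X lam : ℝ} {Q : ℕ} (hX : 0 < X) (hQ : 1 ≤ X * Q)
    (hlam : 0 ≤ lam) (η b : ℝ) :
    (1 + θ) / 2 * psiF θ (Uf θ η + b) ^ Q + (1 - θ) / 2 * psiF θ (-Uf θ η + b) ^ Q ≤
      1 - ((1 - θ) / 2 * (1 - Real.exp (- ((1 - θ ^ 2) * θ ^ 2 / 2)))) *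
        (2 * lam * ((Real.tanh η ^ 2 - X / 2) / X) - lam ^ 2 * ((Real.tanh η ^ 2 - X / 2) / X) ^ 2) := by
  have hθ2 : 0 < 1 - θ ^ 2 := by nlinarith
  set a := (1 - θ ^ 2) * θ ^ 2 / 2 with ha
  have ha0 : 0 < a := by positivity
  have hE : Real.exp (-a) < 1 := by
    rw [Real.exp_lt_one_iff]; linarith
  set E := Real.exp (-a) with hEdef
  set t := (Real.tanh η ^ 2 - X / 2) / X with ht
  have hp1 := msgAC_psi_pow_le h0.le h1 (Uf θ η + b) Q
  have hp2 := msgAC_psi_pow_le h0.le h1 (-Uf θ η + b) Q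
  have hw : 0 < (1 - θ) / 2 * (1 - E) := by
    apply mul_pos <;> linarith
  have hw1 : 0 ≤ (1 + θ) / 2 := by linarith
  have hw2 : 0 ≤ (1 - θ) / 2 := by linarith
  by_cases hS : Real.tanh η ^ 2 < X / 2
  · have htneg : t < 0 := by
      rw [ht]; exact div_neg_of_neg_of_pos (by linarith) hX
    have hp : 2 * lam * t - lam ^ 2 * t ^ 2 ≤ 0 := by
      have : 2 * lam * t ≤ 0 := by
        have : lam * t ≤ 0 := mul_nonpos_of_nonneg_of_nonpos hlam htneg.le
        linarith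
      have h' : 0 ≤ lam ^ 2 * t ^ 2 := by positivity
      linarith
    have h3 : (1 + θ) / 2 * psiF θ (Uf θ η + b) ^ Q ≤ (1 + θ) / 2 * 1 :=
      mul_le_mul_of_nonneg_left hp1 hw1
    have h4 : (1 - θ) / 2 * psiF θ (-Uf θ η + b) ^ Q ≤ (1 - θ) / 2 * 1 :=
      mul_le_mul_of_nonneg_left hp2 hw2
    have h5 := mul_nonneg_of_nonpos_of_nonpos (neg_nonpos.2 hw.le) hp
    nlinarith
  · push Not at hS
    have hp : 2 * lam * t - lam ^ 2 * t ^ 2 ≤ 1 := by nlinarith [sq_nonneg (lam * t - 1)]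
    have h5 := mul_le_mul_of_nonneg_left hp hw.le
    have hT : θ ^ 2 * (X / 2) ≤ Real.tanh (Uf θ η) ^ 2 := by
      rw [tanh_Uf h0.le h1, mul_pow]
      exact mul_le_mul_of_nonneg_left hS (by positivity)
    rcases msgAC_two_point (Uf θ η) b with h | h
    · have := msgAC_pow_small (Q := Q) (x := Uf θ η + b) h0 h1 hQ (hT.trans h)
      have h3 : (1 + θ) / 2 * psiF θ (Uf θ η + b) ^ Q ≤ (1 + θ) / 2 * E :=
        mul_le_mul_of_nonneg_left this hw1
      have h4 : (1 - θ) / 2 * psiF θ (-Uf θ η + b) ^ Q ≤ (1 - θ) / 2 * 1 :=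
        mul_le_mul_of_nonneg_left hp2 hw2
      have h6 : 0 ≤ θ * (1 - E) := mul_nonneg h0.le (by linarith)
      nlinarith
    · have := msgAC_pow_small (Q := Q) (x := -Uf θ η + b) h0 h1 hQ (hT.trans h)
      have h3 : (1 - θ) / 2 * psiF θ (-Uf θ η + b) ^ Q ≤ (1 - θ) / 2 * E :=
        mul_le_mul_of_nonneg_left this hw2
      have h4 : (1 + θ) / 2 * psiF θ (Uf θ η + b) ^ Q ≤ (1 + θ) / 2 * 1 :=
        mul_le_mul_of_nonneg_left hp1 hw1
      nlinarith

lemma msgAC_measurable_tanh : Measurable Real.tanh := by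
  have : Real.tanh = fun x => Real.sinh x / Real.cosh x := by
    funext x; exact Real.tanh_eq_sinh_div_cosh x
  rw [this]
  exact Real.measurable_sinh.div Real.measurable_cosh

lemma msgAC_abs_tanh_le (x : ℝ) : |Real.tanh x| ≤ 1 :=
  abs_le.2 ⟨(Real.neg_one_lt_tanh x).le, (Real.tanh_lt_one x).le⟩

lemma msgAC_int_pow {ζ : Measure ℝ} [IsProbabilityMeasure ζ] (n : ℕ) :
    Integrable (fun h => Real.tanh h ^ n) ζ := by
  refine Integrable.of_bound (msgAC_measurable_tanh.pow_const n).aestronglyMeasurable 1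
    (Filter.Eventually.of_forall fun x => ?_)
  rw [Real.norm_eq_abs, abs_pow]
  exact pow_le_one₀ (abs_nonneg _) (msgAC_abs_tanh_le x)

/-- Anti concentration of a message, without the critical point hypothesis. -/
theorem msgAC_main (h0 : 0 < θ) (h1 : θ < 1) (C4 : ℝ) :
    ∃ c6 c5 : ℝ, 0 < c6 ∧ c6 ≤ 1 ∧ 0 < c5 ∧ ∀ ζ : Measure ℝ, Nish ζ → 0 < At ζ →
      ∫ h, Real.tanh h ^ 4 ∂ζ ≤ C4 * At ζ ^ 2 →
        (∀ b : ℝ, ∫ h, psiF θ (h + b) ∂(msg θ ζ) ≤ 1 - c6 * At ζ) ∧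
        (∀ (Q : ℕ), 1 ≤ At ζ * Q → ∀ b : ℝ,
          ∫ h, psiF θ (h + b) ^ Q ∂(msg θ ζ) ≤ Real.exp (- c5)) := by
  have hθ2 : 0 < 1 - θ ^ 2 := by nlinarith
  have hθ' : 0 < 1 - θ := by linarith
  have hθp : 0 < θ ^ 2 := by positivity
  set K := max C4 1 with hK
  have hK1 : 1 ≤ K := le_max_right _ _
  have hK0 : 0 < K := by linarith
  set a := (1 - θ ^ 2) * θ ^ 2 / 2 with ha
  have ha0 : 0 < a := by positivity
  have hE : Real.exp (-a) < 1 := by rw [Real.exp_lt_one_iff]; linarith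
  set E := Real.exp (-a) with hEdef
  set lam := 1 / (2 * K) with hlam
  have hlam0 : 0 < lam := by positivity
  set w := (1 - θ) / 2 * (1 - E) with hw
  have hw0 : 0 < w := by apply mul_pos <;> linarith
  have hw1 : w ≤ 1 := by
    have hEp : 0 < E := Real.exp_pos _
    rw [hw]; nlinarith
  refine ⟨(1 - θ) * (1 - θ ^ 2) * θ ^ 2 / 2, w * (1 / (4 * K)), by positivity, ?_, by positivity, ?_⟩
  · have : (1 - θ) * (1 - θ ^ 2) * θ ^ 2 ≤ 1 := by
      have h2 : θ ^ 2 ≤ 1 := by nlinarith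
      have h3 : (1 - θ) * (1 - θ ^ 2) ≤ 1 := by nlinarith
      have h4 : 0 ≤ (1 - θ) * (1 - θ ^ 2) := by positivity
      nlinarith
    linarith
  intro ζ hζ hX h4
  have := hζ.prob
  set X := At ζ with hXdef
  have hS : ∫ h, Real.tanh h ^ 2 ∂ζ = X := hζ.tanh_eq.symm
  have hbdd : ∀ (f : ℝ → ℝ), Measurable f → (∀ x, |f x| ≤ 1) → Integrable f ζ := by
    intro f hf hb
    exact Integrable.of_bound hf.aestronglyMeasurable 1 (Filter.Eventually.of_forall
      fun x => by simpa using hb x)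
  have hU : Measurable (Uf θ) := measurable_Uf
  have hP : Measurable (psiF θ) := measurable_psiF
  have habsP : ∀ x (Q : ℕ), |psiF θ x ^ Q| ≤ 1 := by
    intro x Q
    rw [abs_of_nonneg (pow_nonneg (psiF_pos h0.le h1 x).le Q)]
    exact msgAC_psi_pow_le h0.le h1 x Q
  have hmix : ∀ (Q : ℕ) (b : ℝ), Integrable (fun η => (1 + θ) / 2 * psiF θ (Uf θ η + b) ^ Q +
      (1 - θ) / 2 * psiF θ (- Uf θ η + b) ^ Q) ζ := by
    intro Q b
    have i1 : Integrable (fun η => psiF θ (Uf θ η + b) ^ Q) ζ :=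
      hbdd _ ((hP.comp (hU.add_const b)).pow_const Q) (fun x => habsP _ Q)
    have i2 : Integrable (fun η => psiF θ (- Uf θ η + b) ^ Q) ζ :=
      hbdd _ ((hP.comp (hU.neg.add_const b)).pow_const Q) (fun x => habsP _ Q)
    exact (i1.const_mul _).add (i2.const_mul _)
  constructor
  · intro b
    have hf : Measurable (fun h => psiF θ (h + b)) := hP.comp (measurable_add_const b)
    rw [msgAC_integral h0.le h1 hf 1 (fun x => by simpa using habsP (x + b) 1)]
    calc ∫ η, ((1 + θ) / 2 * psiF θ (Uf θ η + b) + (1 - θ) / 2 * psiF θ (- Uf θ η + b)) ∂ζ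
        ≤ ∫ η, (1 - ((1 - θ) * (1 - θ ^ 2) * θ ^ 2 / 2) * Real.tanh η ^ 2) ∂ζ := by
          apply integral_mono_of_nonneg ?_ ?_ ?_
          · exact Filter.Eventually.of_forall fun η => by
              have p1 := psiF_pos h0.le h1 (Uf θ η + b)
              have p2 := psiF_pos h0.le h1 (- Uf θ η + b)
              have e1 : 0 ≤ (1 + θ) / 2 := by linarith
              have e2 : 0 ≤ (1 - θ) / 2 := by linarith
              simp only [Pi.zero_apply]
              positivity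
          · exact (integrable_const _).sub ((msgAC_int_pow 2).const_mul _)
          · exact Filter.Eventually.of_forall fun η => msgAC_point1 h0 h1 η b
      _ = 1 - (1 - θ) * (1 - θ ^ 2) * θ ^ 2 / 2 * X := by
          rw [integral_sub (integrable_const _) ((msgAC_int_pow 2).const_mul _),
            integral_const_mul, hS]
          simp
  · intro Q hQ b
    have hf : Measurable (fun h => psiF θ (h + b) ^ Q) :=
      (hP.comp (measurable_add_const b)).pow_const Q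
    rw [msgAC_integral h0.le h1 hf 1 (fun x => habsP (x + b) Q)]
    -- the second moment computation
    have ht2 : Integrable (fun η => Real.tanh η ^ 2) ζ := msgAC_int_pow 2
    have ht4 : Integrable (fun η => Real.tanh η ^ 4) ζ := msgAC_int_pow 4
    have hXne : X ≠ 0 := hX.ne'
    have hpoly : ∀ η, 2 * lam * ((Real.tanh η ^ 2 - X / 2) / X) -
        lam ^ 2 * ((Real.tanh η ^ 2 - X / 2) / X) ^ 2 =
        (lam ^ 2 * (- (1 / 4)) - lam) + (2 * lam / X + lam ^ 2 / X) * Real.tanh η ^ 2 -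
          (lam ^ 2 / X ^ 2) * Real.tanh η ^ 4 := by
      intro η
      field_simp
      ring
    have hIntP : ∫ η, (2 * lam * ((Real.tanh η ^ 2 - X / 2) / X) -
        lam ^ 2 * ((Real.tanh η ^ 2 - X / 2) / X) ^ 2) ∂ζ =
        (lam ^ 2 * (- (1 / 4)) - lam) + (2 * lam / X + lam ^ 2 / X) * X -
          (lam ^ 2 / X ^ 2) * ∫ η, Real.tanh η ^ 4 ∂ζ := by
      simp_rw [hpoly]
      have i1 : Integrable (fun η => (lam ^ 2 * (- (1 / 4)) - lam) +
          (2 * lam / X + lam ^ 2 / X) * Real.tanh η ^ 2) ζ :=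
        (integrable_const _).add (ht2.const_mul _)
      rw [integral_sub i1 (ht4.const_mul _),
        integral_add (integrable_const _) (ht2.const_mul _), integral_const_mul,
        integral_const_mul, hS]
      simp
    have hm4 : ∫ η, Real.tanh η ^ 4 ∂ζ ≤ K * X ^ 2 :=
      h4.trans (mul_le_mul_of_nonneg_right (le_max_left _ _) (by positivity))
    have hP1 : 1 / (4 * K) ≤ ∫ η, (2 * lam * ((Real.tanh η ^ 2 - X / 2) / X) -
        lam ^ 2 * ((Real.tanh η ^ 2 - X / 2) / X) ^ 2) ∂ζ := by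
      rw [hIntP]
      have e1 : (2 * lam / X + lam ^ 2 / X) * X = 2 * lam + lam ^ 2 := by field_simp
      have e2 : (lam ^ 2 / X ^ 2) * ∫ η, Real.tanh η ^ 4 ∂ζ ≤ lam ^ 2 * K := by
        calc (lam ^ 2 / X ^ 2) * ∫ η, Real.tanh η ^ 4 ∂ζ
            ≤ (lam ^ 2 / X ^ 2) * (K * X ^ 2) := mul_le_mul_of_nonneg_left hm4 (by positivity)
          _ = lam ^ 2 * K := by field_simp
      have e3 : lam ^ 2 * K = 1 / (4 * K) := by rw [hlam]; field_simp; norm_num
      have e4 : lam = 1 / (2 * K) := hlam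
      have e5 : 1 / (4 * K) + 1 / (4 * K) = lam := by rw [hlam]; field_simp; norm_num
      nlinarith [sq_nonneg lam]
    have hIntPoly : Integrable (fun η => 2 * lam * ((Real.tanh η ^ 2 - X / 2) / X) -
        lam ^ 2 * ((Real.tanh η ^ 2 - X / 2) / X) ^ 2) ζ := by
      simp_rw [hpoly]
      have i1 : Integrable (fun η => (lam ^ 2 * (- (1 / 4)) - lam) +
          (2 * lam / X + lam ^ 2 / X) * Real.tanh η ^ 2) ζ :=
        (integrable_const _).add (ht2.const_mul _)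
      exact i1.sub (ht4.const_mul _)
    calc ∫ η, ((1 + θ) / 2 * psiF θ (Uf θ η + b) ^ Q + (1 - θ) / 2 * psiF θ (- Uf θ η + b) ^ Q) ∂ζ
        ≤ ∫ η, (1 - w * (2 * lam * ((Real.tanh η ^ 2 - X / 2) / X) -
            lam ^ 2 * ((Real.tanh η ^ 2 - X / 2) / X) ^ 2)) ∂ζ := by
          apply integral_mono (hmix Q b) ((integrable_const _).sub (hIntPoly.const_mul _))
          intro η
          exact msgAC_point2 h0 h1 hX hQ hlam0.le η b
      _ = 1 - w * ∫ η, (2 * lam * ((Real.tanh η ^ 2 - X / 2) / X) -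
            lam ^ 2 * ((Real.tanh η ^ 2 - X / 2) / X) ^ 2) ∂ζ := by
          rw [integral_sub (integrable_const _) (hIntPoly.const_mul _), integral_const_mul]
          simp
      _ ≤ 1 - w * (1 / (4 * K)) := by
          have := mul_le_mul_of_nonneg_left hP1 hw0.le
          linarith
      _ ≤ Real.exp (- (w * (1 / (4 * K)))) := by
          have := Real.add_one_le_exp (- (w * (1 / (4 * K))))
          linarith

end Vale.Agent.Lib.P161B
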