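import Vale.Agent.Lib.P161B.Nish
import Vale.Agent.Lib.P161B.MomScale
import Vale.Agent.Lib.P161B.MomAux
import Vale.Agent.Lib.P161B.MomentsAC

/-!
Bounds on the recursive distributional equation at the critical point `k θ² = 1`, at the level of laws:
the scale `z ≍ √t₀` of the cavity magnetisation, all moments, and the anti concentration of a message.
-/

namespace Vale.Agent.Lib.P161B

open MeasureTheory

/-- The critical point with branching number `k ≥ 2`. -/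
structure Crit (k : ℕ) (θ : ℝ) : Prop where
  hk : 2 ≤ k
  h0 : 0 < θ
  h1 : θ < 1
  hθ : (k : ℝ) * θ ^ 2 = 1

variable {k : ℕ} {θ : ℝ}

lemma MomLow_cvl_assoc (μ ν ρ : Measure ℝ) [SFinite ν] [SFinite ρ] :
    cvl (cvl μ ν) ρ = cvl μ (cvl ν ρ) := by
  have := Measure.conv_assoc μ ν ρ
  simpa [cvl, Measure.conv] using this

/-- `At ≤ 1` and `0 ≤ At` for a Nishimori measure. -/
lemma MomLow_At_bounds {μ : Measure ℝ} (h : Nish μ) : 0 ≤ At μ ∧ At μ ≤ 1 := by
  have := h.prob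
  rw [h.tanh_eq]
  constructor
  · exact integral_nonneg (fun x => sq_nonneg _)
  · have hle : ∀ x : ℝ, Real.tanh x ^ 2 ≤ 1 := by
      intro x
      have h1 := Real.tanh_lt_one x
      have h2 := Real.neg_one_lt_tanh x
      nlinarith
    have hm : Measurable fun x : ℝ => Real.tanh x ^ 2 := by
      have htm : Measurable Real.tanh := by
        have : Real.tanh = fun x => Real.sinh x / Real.cosh x := by
          funext x; exact Real.tanh_eq_sinh_div_cosh x
        rw [this]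
        exact Real.measurable_sinh.div Real.measurable_cosh
      exact htm.pow_const 2
    have hi : Integrable (fun x : ℝ => Real.tanh x ^ 2) μ := by
      refine Integrable.of_bound hm.aestronglyMeasurable 1 ?_
      refine Filter.Eventually.of_forall (fun x => ?_)
      rw [Real.norm_eq_abs, abs_of_nonneg (sq_nonneg _)]
      exact hle x
    calc ∫ x, Real.tanh x ^ 2 ∂μ ≤ ∫ _x, (1 : ℝ) ∂μ :=
          integral_mono hi (integrable_const _) hle
      _ = 1 := by simp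

/-- (K1) in product form. -/
lemma MomLow_K1 {μ ν : Measure ℝ} (h : Nish μ) (h' : Nish ν) :
    1 - 2 * At (cvl μ ν) ≤ (1 - 2 * At μ) * (1 - 2 * At ν) := by
  have := At_cvl_ge h h'
  nlinarith

/-- Iterating (K1) in the first slot: adding `j` independent copies of `ν`. -/
lemma MomLow_iter {μ ν : Measure ℝ} (h : Nish μ) (h' : Nish ν) (ha : 2 * At ν ≤ 1) (j : ℕ) :
    1 - 2 * At (cvl μ (powC ν j)) ≤ (1 - 2 * At μ) * (1 - 2 * At ν) ^ j := by
  have := h'.prob
  induction j with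
  | zero =>
    have : cvl μ (powC ν 0) = μ := by
      simp only [powC, cvl]
      have := h.prob
      have : (μ.prod (Measure.dirac (0 : ℝ))).map (fun p : ℝ × ℝ => p.1 + p.2) = μ := by
        rw [Measure.prod_dirac, Measure.map_map (by fun_prop) (by fun_prop)]
        simp [Function.comp_def]
      exact this
    rw [this]; simp
  | succ j ih =>
    have hpow : Nish (powC ν j) := h'.powC j
    have := hpow.prob
    have hassoc : cvl μ (powC ν (j + 1)) = cvl (cvl μ (powC ν j)) ν := by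
      simp only [powC]
      exact (MomLow_cvl_assoc μ (powC ν j) ν).symm
    rw [hassoc]
    have hc : Nish (cvl μ (powC ν j)) := h.cvl hpow
    have hk1 := MomLow_K1 hc h'
    have hnn : 0 ≤ 1 - 2 * At ν := by linarith
    calc 1 - 2 * At (cvl (cvl μ (powC ν j)) ν)
        ≤ (1 - 2 * At (cvl μ (powC ν j))) * (1 - 2 * At ν) := hk1
      _ ≤ ((1 - 2 * At μ) * (1 - 2 * At ν) ^ j) * (1 - 2 * At ν) :=
          mul_le_mul_of_nonneg_right ih hnn
      _ = (1 - 2 * At μ) * (1 - 2 * At ν) ^ (j + 1) := by ring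

/-- (K1) iterated on a fixed point: `1 - 2 z ≤ (1 - 2 t₀) (1 - 2 z / k)^k`. -/
theorem At_fix_prod (C : Crit k θ) {μ ζ : Measure ℝ} (hμ : Nish μ) (hζ : Nish ζ)
    (hfix : ζ = cvl μ (powC (msg θ ζ) k)) :
    1 - 2 * At ζ ≤ (1 - 2 * At μ) * (1 - 2 * At ζ / k) ^ k := by
  have hm : Nish (msg θ ζ) := hζ.msg C.h0.le C.h1
  have hA : At (msg θ ζ) = θ ^ 2 * At ζ := At_msg hζ C.h0.le C.h1
  have hk0 : (0 : ℝ) < k := by
    have := C.hk
    positivity
  have hθ2 : θ ^ 2 = 1 / k := by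
    have := C.hθ
    field_simp
    linarith
  have hA' : At (msg θ ζ) = At ζ / k := by
    rw [hA, hθ2]; ring
  have hz := MomLow_At_bounds hζ
  have hk2 : (2 : ℝ) ≤ k := by exact_mod_cast C.hk
  have h2 : 2 * At (msg θ ζ) ≤ 1 := by
    rw [hA']
    have : At ζ / k ≤ 1 / 2 := by
      rw [div_le_iff₀ hk0]
      linarith [hz.2]
    linarith
  have := MomLow_iter hμ hm h2 k
  rw [← hfix, hA'] at this
  convert this using 3
  ring

/-- Bonferroni: `(1 - u)^k ≤ 1 - k u + C(k,2) u²` on `[0,1]`. -/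
lemma MomLow_bonf (k : ℕ) {u : ℝ} (h0 : 0 ≤ u) (h1 : u ≤ 1) :
    (1 - u) ^ k ≤ 1 - k * u + (k * (k - 1) / 2) * u ^ 2 := by
  induction k with
  | zero => simp
  | succ n ih =>
    have hn : (0 : ℝ) ≤ n := Nat.cast_nonneg n
    have h1u : 0 ≤ 1 - u := by linarith
    have : (1 - u) ^ (n + 1) = (1 - u) ^ n * (1 - u) := by ring
    rw [this]
    have h2 := mul_le_mul_of_nonneg_right ih h1u
    refine h2.trans ?_
    push_cast
    have h3 : 0 ≤ (n : ℝ) * (n - 1) / 2 * u ^ 3 + 0 ∨ True := Or.inr trivial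
    have hkey : (1 - (n : ℝ) * u + (n * (n - 1) / 2) * u ^ 2) * (1 - u) ≤
        1 - ((n : ℝ) + 1) * u + (((n : ℝ) + 1) * ((n : ℝ) + 1 - 1) / 2) * u ^ 2 := by
      have : (0:ℝ) ≤ (n : ℝ) * u ^ 2 * (1 + (((n : ℝ) - 1) / 2) * u) + 0 ∨ True := Or.inr trivial
      rcases Nat.eq_zero_or_pos n with hn0 | hnpos
      · subst hn0; simp
      · have hn1 : (1 : ℝ) ≤ n := by exact_mod_cast hnpos
        have hu3 : 0 ≤ u ^ 3 := by positivity
        nlinarith [mul_nonneg (mul_nonneg hn (by linarith : (0:ℝ) ≤ (n:ℝ) - 1)) hu3]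
    exact hkey

/-- The lower bound on the scale. -/
theorem At_fix_low (C : Crit k θ) {μ ζ : Measure ℝ} (hμ : Nish μ) (hζ : Nish ζ)
    (hfix : ζ = cvl μ (powC (msg θ ζ) k)) (ht : At μ ≤ 1 / 8) : At μ / 2 ≤ At ζ ^ 2 := by
  have hprod := At_fix_prod C hμ hζ hfix
  have hz := MomLow_At_bounds hζ
  have ht0 := MomLow_At_bounds hμ
  set z := At ζ with hzdef
  set t := At μ with htdef
  by_cases hz4 : z ≤ 1 / 4
  · have hk0 : (0 : ℝ) < k := by
      have := C.hk
      positivity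
    have hk2 : (2 : ℝ) ≤ k := by exact_mod_cast C.hk
    have hu0 : 0 ≤ 2 * z / k := by
      have := hz.1
      positivity
    have hu1 : 2 * z / k ≤ 1 := by
      rw [div_le_one hk0]; linarith [hz.2]
    have hb := MomLow_bonf k hu0 hu1
    have hsimp : 1 - (k : ℝ) * (2 * z / k) + ((k : ℝ) * (k - 1) / 2) * (2 * z / k) ^ 2
        = 1 - 2 * z + 2 * z ^ 2 * ((k - 1) / k) := by
      field_simp
    rw [hsimp] at hb
    have hc1 : ((k : ℝ) - 1) / k ≤ 1 := by
      rw [div_le_one hk0]; linarith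
    have hc0 : 0 ≤ ((k : ℝ) - 1) / k := by
      apply div_nonneg <;> linarith
    set c1 := ((k : ℝ) - 1) / k with hc1def
    have h12t : 0 ≤ 1 - 2 * t := by linarith
    have h3 : 1 - 2 * z ≤ (1 - 2 * t) * (1 - 2 * z + 2 * z ^ 2 * c1) :=
      hprod.trans (mul_le_mul_of_nonneg_left hb h12t)
    -- `t w ≤ c1 z²`
    set w := 1 - 2 * z + 2 * z ^ 2 * c1 with hw
    have hw1 : 1 / 2 ≤ w := by
      have : 0 ≤ 2 * z ^ 2 * c1 := by positivity
      rw [hw]; linarith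
    have h4 : t * w ≤ c1 * z ^ 2 := by
      nlinarith
    have h5 : t / 2 ≤ t * w := by
      nlinarith [ht0.1]
    have h6 : c1 * z ^ 2 ≤ z ^ 2 := by
      have : 0 ≤ z ^ 2 := sq_nonneg _
      nlinarith
    linarith
  · rw [not_le] at hz4
    have : (1 : ℝ) / 16 < z ^ 2 := by nlinarith
    linarith

/-- The lower bound when the own field is not small. -/
theorem At_fix_low' (C : Crit k θ) {μ ζ : Measure ℝ} (hμ : Nish μ) (hζ : Nish ζ)
    (hfix : ζ = cvl μ (powC (msg θ ζ) k)) (ht : 1 / 8 ≤ At μ) : 1 / 8 ≤ At ζ := by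
  have hprod := At_fix_prod C hμ hζ hfix
  have hz := MomLow_At_bounds hζ
  have hk0 : (0 : ℝ) < k := by
    have := C.hk
    positivity
  have hk2 : (2 : ℝ) ≤ k := by exact_mod_cast C.hk
  have hp0 : 0 ≤ 1 - 2 * At ζ / k := by
    have : 2 * At ζ / k ≤ 1 := by
      rw [div_le_one hk0]; linarith [hz.2]
    linarith
  have hp1 : 1 - 2 * At ζ / k ≤ 1 := by
    have : 0 ≤ 2 * At ζ / k := by
      have := hz.1
      positivity
    linarith
  have hpow0 : 0 ≤ (1 - 2 * At ζ / k) ^ k := pow_nonneg hp0 k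
  have hpow1 : (1 - 2 * At ζ / k) ^ k ≤ 1 := pow_le_one₀ hp0 hp1
  have : (1 - 2 * At μ) * (1 - 2 * At ζ / k) ^ k ≤ 3 / 4 := by
    nlinarith
  linarith

/-- Upper bound on the scale, uniformly in the depth, with the fourth moment. Here `|h| ≤ w` under `μ` with
`w² ≤ Cw t₀`, `t₀ = At μ` small. -/
theorem cav_scale (C : Crit k θ) (Cw : ℝ) :
    ∃ tstar C4 : ℝ, 0 < tstar ∧ 0 ≤ C4 ∧ ∀ (μ : Measure ℝ) (w : ℝ), Nish μ → (∀ᵐ h ∂μ, |h| ≤ w) →
      w ^ 2 ≤ Cw * At μ → 0 < At μ → At μ ≤ tstar → ∀ n : ℕ,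
        At (cavN θ k μ n) ≤ 3 * √(At μ) ∧ ∫ h, h ^ 4 ∂(cavN θ k μ n) ≤ C4 * At μ := by
  exact ms_main C.hk C.h0 C.h1 C.hθ Cw

/-- Cumulative form of the moment bounds, by induction on the order. -/
theorem cav_moment_aux (C : Crit k θ) (Cw : ℝ) (P : ℕ) :
    ∃ (t : ℝ) (K : ℕ → ℝ), 0 < t ∧ (∀ q, 0 ≤ K q) ∧ ∀ (μ : Measure ℝ) (w : ℝ), Nish μ →
      (∀ᵐ h ∂μ, |h| ≤ w) → w ^ 2 ≤ Cw * At μ → 0 < At μ → At μ ≤ t → ∀ n : ℕ,
        BdK K (P + 2) (√(At μ)) (cavN θ k μ n) := by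
  induction P with
  | zero =>
    obtain ⟨t0, C4, ht0, hC4, h⟩ := cav_scale C Cw
    refine ⟨t0, fun q => if q = 0 then 1 else if q = 1 then √C4 else C4, ht0, ?_, ?_⟩
    · intro q
      dsimp only
      split_ifs <;> positivity
    · intro μ w hμ hw hw2 hA hAt n q hq
      have hn : Nish (cavN θ k μ n) := hμ.cavN C.h0.le C.h1 k n
      have h4 : Am (cavN θ k μ n) (2 * 2) ≤ C4 * At μ := (h μ w hμ hw hw2 hA hAt n).2
      have hs : √(At μ) ^ 2 = At μ := Real.sq_sqrt hA.le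
      have hs0 : 0 ≤ √(At μ) := Real.sqrt_nonneg _
      have hq' : q = 0 ∨ q = 1 ∨ q = 2 := by omega
      rcases hq' with rfl | rfl | rfl
      · simp only [if_true, pow_zero, mul_one, mul_zero]
        exact (Am_zero hn).le
      · simp only [one_ne_zero, if_false, if_true, pow_one, mul_one]
        have h2 := sq_Am_le hn
        have h3 : Am (cavN θ k μ n) (2 * 1) ^ 2 ≤ (√C4 * √(At μ)) ^ 2 := by
          rw [mul_pow, Real.sq_sqrt hC4, hs]
          exact h2.trans h4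
        exact abs_le_of_sq_le_sq' h3 (by positivity) |>.2
      · simp only [OfNat.ofNat_ne_zero, OfNat.ofNat_ne_one, if_false]
        rw [hs]
        exact h4
  | succ P ih =>
    obtain ⟨t, K, ht, hK, hb⟩ := ih
    have hk := C.hk
    have h0 := C.h0
    have h1 := C.h1
    have hθ := C.hθ
    set r : ℕ := P + 1 with hr
    set Kμ : ℕ → ℝ := fun q => |Cw| ^ q with hKμ
    have hKμ0 : ∀ q, 0 ≤ Kμ q := fun q => by simp only [hKμ]; positivity
    set N : ℝ := ((2 * (r + 2) : ℕ) : ℝ) with hN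
    have hN0 : 0 ≤ N := by positivity
    have hsum0 : ∀ i, 0 ≤ Kpow K i 1 := fun i => Kpow_nonneg hK i 1
    set S : ℝ := ∑ i ∈ Finset.range (k + 1), Kpow K i 1 with hS
    have hS0 : 0 ≤ S := Finset.sum_nonneg (fun i _ => hsum0 i)
    set Cc : ℝ := N * (K 1 + Kμ 1 + S) with hCc
    have hCc0 : 0 ≤ Cc := mul_nonneg hN0 (add_nonneg (add_nonneg (hK 1) (hKμ0 1)) hS0)
    have hC1 : N * K 1 ≤ Cc := mul_le_mul_of_nonneg_left (by linarith [hKμ0 1]) hN0
    have hC3 : N * Kμ 1 ≤ Cc := mul_le_mul_of_nonneg_left (by linarith [hK 1]) hN0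
    have hC2 : ∀ i ≤ k, N * Kpow K i 1 ≤ Cc := by
      intro i hi
      refine mul_le_mul_of_nonneg_left ?_ hN0
      have : Kpow K i 1 ≤ S :=
        Finset.single_le_sum (fun i _ => hsum0 i) (Finset.mem_range.2 (by omega))
      linarith [hK 1, hKμ0 1]
    set D : ℝ := Dp K Kμ Cc r k with hD
    have hD0 : 0 ≤ D := Dp_nonneg hK hKμ0 hCc0 r k
    have hθ2 : 0 < θ ^ 2 := by positivity
    have hθ21 : θ ^ 2 < 1 := by nlinarith
    have hlog : 0 < Real.log (1 / θ ^ 2) := Real.log_pos (by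
      rw [lt_div_iff₀ hθ2]
      linarith)
    have hk1 : (0 : ℝ) < ((k : ℝ) + 1) * (Cc + 1) := by positivity
    set δ : ℝ := Real.log (1 / θ ^ 2) / (((k : ℝ) + 1) * (Cc + 1)) with hδ
    have hδ0 : 0 < δ := div_pos hlog hk1
    refine ⟨min t (min 1 (δ ^ 2)),
      fun q => if q = r + 2 then Kμ (r + 2) + 2 * D else K q, ?_, ?_, ?_⟩
    · exact lt_min ht (lt_min one_pos (by positivity))
    · intro q
      dsimp only
      split_ifs
      · have := hKμ0 (r + 2)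
        positivity
      · exact hK q
    · intro μ w hμ hw hw2 hA hAt n
      have hAt1 : At μ ≤ t := hAt.trans (min_le_left _ _)
      have hAt2 : At μ ≤ 1 := hAt.trans ((min_le_right _ _).trans (min_le_left _ _))
      have hAt3 : At μ ≤ δ ^ 2 := hAt.trans ((min_le_right _ _).trans (min_le_right _ _))
      set s : ℝ := √(At μ) with hs
      have hs0 : 0 ≤ s := Real.sqrt_nonneg _
      have hs1 : s ≤ 1 := by
        rw [hs]
        exact Real.sqrt_le_iff.2 ⟨zero_le_one, by rw [one_pow]; exact hAt2⟩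
      have hsd : s ≤ δ := by
        rw [hs]
        exact Real.sqrt_le_iff.2 ⟨hδ0.le, hAt3⟩
      have hsδ : ((k : ℝ) + 1) * (Cc * s) ≤ Real.log (1 / θ ^ 2) := by
        have e : Real.log (1 / θ ^ 2) = ((k : ℝ) + 1) * (Cc + 1) * δ := by
          rw [hδ]
          field_simp
        have hk0 : (0 : ℝ) ≤ (k : ℝ) + 1 := by positivity
        have a1 : Cc * s ≤ Cc * δ := mul_le_mul_of_nonneg_left hsd hCc0
        have a2 : Cc * s ≤ (Cc + 1) * δ := by linarith
        calc ((k : ℝ) + 1) * (Cc * s) ≤ ((k : ℝ) + 1) * ((Cc + 1) * δ) :=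
              mul_le_mul_of_nonneg_left a2 hk0
          _ = ((k : ℝ) + 1) * (Cc + 1) * δ := by ring
          _ = Real.log (1 / θ ^ 2) := e.symm
      have hbμ : BdK Kμ (r + 2) s μ := BdK_base hμ hw hw2 hA hs1 (r + 2)
      have hsp : 0 ≤ s ^ (r + 2) := pow_nonneg hs0 _
      have htop : ∀ m : ℕ, Am (cavN θ k μ m) (2 * (r + 2)) ≤ (Kμ (r + 2) + 2 * D) * s ^ (r + 2) := by
        intro m
        induction m with
        | zero =>
          have := hbμ (r + 2) le_rfl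
          have e : cavN θ k μ 0 = μ := rfl
          rw [e]
          nlinarith
        | succ m ihm =>
          have hm : Nish (cavN θ k μ m) := hμ.cavN h0.le h1 k m
          have e : cavN θ k μ (m + 1) = cvl μ (powC (msg θ (cavN θ k μ m)) k) := rfl
          rw [e]
          have hb' : BdK K (r + 1) s (cavN θ k μ m) := hb μ w hμ hw hw2 hA hAt1 m
          have := cav_step hk h0 h1 hθ hK hKμ0 (r := r) (by omega) hCc0 hC1 hC2 hC3 hs0 hs1 hsδ hμ hm
            hbμ hb'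
          have h5 : 0 ≤ Kμ (r + 2) * s ^ (r + 2) := mul_nonneg (hKμ0 _) hsp
          nlinarith
      intro q hq
      dsimp only
      split_ifs with hq2
      · subst hq2
        exact htop n
      · exact hb μ w hμ hw hw2 hA hAt1 n q (by omega)

/-- All even moments at depth `n`, uniformly in the depth. -/
theorem cav_moment (C : Crit k θ) (Cw : ℝ) (p : ℕ) :
    ∃ tstar Cp : ℝ, 0 < tstar ∧ 0 ≤ Cp ∧ ∀ (μ : Measure ℝ) (w : ℝ), Nish μ → (∀ᵐ h ∂μ, |h| ≤ w) →
      w ^ 2 ≤ Cw * At μ → 0 < At μ → At μ ≤ tstar → ∀ n : ℕ,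
        ∫ h, h ^ (2 * p) ∂(cavN θ k μ n) ≤ Cp * (√(At μ)) ^ p := by
  obtain ⟨t, K, ht, hK, hb⟩ := cav_moment_aux C Cw p
  exact ⟨t, K p, ht, hK p, fun μ w hμ hw hw2 hA hAt n =>
    hb μ w hμ hw hw2 hA hAt n p (by omega)⟩

/-- One more step of the recursion with `m` messages (used at the root, `m = k + 1`): the moments stay of
the same order. Here `ν` is any law with the moment bounds of the cavity law. -/
theorem root_moment (C : Crit k θ) (Cw : ℝ) (m p : ℕ) (K : ℕ → ℝ) :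
    ∃ tstar Cp : ℝ, 0 < tstar ∧ 0 ≤ Cp ∧ ∀ (μ ν : Measure ℝ) (w : ℝ), Nish μ → Nish ν → (∀ᵐ h ∂μ, |h| ≤ w) →
      w ^ 2 ≤ Cw * At μ → 0 < At μ → At μ ≤ tstar →
      (∀ q ≤ p, ∫ h, h ^ (2 * q) ∂ν ≤ K q * (√(At μ)) ^ q) →
        ∫ h, h ^ (2 * p) ∂(cvl μ (powC (msg θ ν) m)) ≤ Cp * (√(At μ)) ^ p := by
  have h0 := C.h0
  have h1 := C.h1
  set K₀ : ℕ → ℝ := fun q => |K q| with hK₀
  have hK₀0 : ∀ q, 0 ≤ K₀ q := fun q => abs_nonneg _
  set Kμ : ℕ → ℝ := fun q => |Cw| ^ q with hKμ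
  have hKμ0 : ∀ q, 0 ≤ Kμ q := fun q => by simp only [hKμ]; positivity
  refine ⟨1, Kcl Kμ (Kpow K₀ m) p, one_pos, Kcl_nonneg hKμ0 (Kpow_nonneg hK₀0 m) p, ?_⟩
  intro μ ν w hμ hν hw hw2 hA hAt hm
  set s : ℝ := √(At μ) with hs
  have hs0 : 0 ≤ s := Real.sqrt_nonneg _
  have hs1 : s ≤ 1 := by
    rw [hs]
    exact Real.sqrt_le_iff.2 ⟨zero_le_one, by rw [one_pow]; exact hAt⟩
  have hbμ : BdK Kμ p s μ := BdK_base hμ hw hw2 hA hs1 p
  have hbν : BdK K₀ p s ν := by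
    intro q hq
    refine (hm q hq).trans ?_
    exact mul_le_mul_of_nonneg_right (le_abs_self _) (pow_nonneg hs0 _)
  have hν' : Nish (msg θ ν) := Nish.msg hν h0.le h1
  have hbν' := BdK_msg hν h0.le h1 hbν
  have hbP := BdK_powC hν' hK₀0 hs0 hs1 hbν' m
  exact BdK_cvl hμ (hν'.powC m) hKμ0 (Kpow_nonneg hK₀0 m) hs0 hs1 hbμ hbP p le_rfl

/-- Anti concentration of a message (Paley-Zygmund) and its two consequences. -/
theorem msg_ac (C : Crit k θ) (C4 : ℝ) :
    ∃ c6 c5 : ℝ, 0 < c6 ∧ c6 ≤ 1 ∧ 0 < c5 ∧ ∀ ζ : Measure ℝ, Nish ζ → 0 < At ζ →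
      ∫ h, Real.tanh h ^ 4 ∂ζ ≤ C4 * At ζ ^ 2 →
        (∀ b : ℝ, ∫ h, psiF θ (h + b) ∂(msg θ ζ) ≤ 1 - c6 * At ζ) ∧
        (∀ (Q : ℕ), 1 ≤ At ζ * Q → ∀ b : ℝ, ∫ h, psiF θ (h + b) ^ Q ∂(msg θ ζ) ≤ Real.exp (- c5)) := by
  exact msgAC_main C.h0 C.h1 C4

end Vale.Agent.Lib.P161B
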