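import Vale.Agent.Lib.P161B.Defs
import Vale.Agent.Lib.P161B.Moments
import Vale.Agent.Lib.P161B.CanonAux
import Vale.Agent.Lib.P161B.CanonMg

/-!
The canonical product space: coordinates below different vertices are independent; the cavity fields and
their laws; existence of the limit.
-/

namespace Vale.Agent.Lib.P161B

open MeasureTheory ProbabilityTheory Filter
open Vale.Agent.Lib.P161
open scoped Topology

variable {d : ℕ} {θ : ℝ} {μ : Measure ℝ}

instance cnP_prob [Corr θ] [IsProbabilityMeasure μ] : IsProbabilityMeasure (cnP d θ μ) := by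
  unfold cnP
  infer_instance

/-- The sigma algebra of the coordinates in `S`. -/
abbrev cnSig (S : Set (Word d)) : MeasurableSpace (Cn d) :=
  ⨆ i ∈ S, MeasurableSpace.comap (fun ω : Cn d => ω i) inferInstance

lemma cn_meas_sig {S : Set (Word d)} {E : Type*} [MeasurableSpace E] {X : Cn d → E}
    (hX : Measurable X) (hXS : DependsOn X S) : @Measurable _ _ (cnSig S) _ X := by
  classical
  let ext : Cn d → Cn d := fun ω i => if i ∈ S then ω i else (false, 0)
  have hext : @Measurable _ _ (cnSig S) _ ext := by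
    refine @measurable_pi_lambda _ _ _ (cnSig S) _ _ (fun i => ?_)
    by_cases hi : i ∈ S
    · have : (fun ω : Cn d => ext ω i) = fun ω => ω i := by
        funext ω; simp [ext, hi]
      rw [this]
      have hle : MeasurableSpace.comap (fun ω : Cn d => ω i) inferInstance ≤ cnSig S :=
        le_iSup₂_of_le i hi le_rfl
      exact Measurable.mono (comap_measurable _) hle le_rfl
    · have : (fun ω : Cn d => ext ω i) = fun _ => (false, 0) := by
        funext ω; simp [ext, hi]
      rw [this]
      exact @measurable_const _ _ _ (cnSig S) _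
  have : X = X ∘ ext := by
    funext ω
    apply hXS
    intro i hi
    simp [ext, hi]
  rw [this]
  exact hX.comp hext

/-- Functions of disjoint sets of coordinates are independent. -/
theorem cn_indepFun [Corr θ] [IsProbabilityMeasure μ] {S T : Set (Word d)} (hST : Disjoint S T)
    {E F : Type*} [MeasurableSpace E] [MeasurableSpace F] {X : Cn d → E} {Y : Cn d → F}
    (hX : Measurable X) (hY : Measurable Y) (hXS : DependsOn X S) (hYT : DependsOn Y T) :
    IndepFun X Y (cnP d θ μ) := by
  have hI : iIndepFun (fun (i : Word d) (ω : Cn d) => ω i) (cnP d θ μ) := by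
    unfold cnP
    exact iIndepFun_infinitePi (X := fun _ ω => ω) (fun _ => measurable_id)
  have hle : ∀ i : Word d, MeasurableSpace.comap (fun ω : Cn d => ω i) inferInstance ≤
      (inferInstance : MeasurableSpace (Cn d)) := fun i => (measurable_pi_apply i).comap_le
  have h2 : Indep (cnSig S) (cnSig T) (cnP d θ μ) := indep_iSup_of_disjoint hle hI hST
  rw [IndepFun_iff_Indep]
  exact indep_of_indep_of_le_left (indep_of_indep_of_le_right h2 (cn_meas_sig hY hYT).comap_le)
    (cn_meas_sig hX hXS).comap_le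

/-- Functions of disjoint sets of coordinates are independent: the integral of `f (X, W)` is computed by
freezing `W`. -/
theorem cn_split [Corr θ] [IsProbabilityMeasure μ] {S : Set (Word d)} {E : Type*} [MeasurableSpace E]
    {X : Cn d → ℝ} {W : Cn d → E} (hX : Measurable X) (hW : Measurable W)
    (hXS : DependsOn X S) (hWS : DependsOn W Sᶜ) {f : ℝ × E → ℝ} (hf : Measurable f)
    {B : ℝ} (hB : ∀ p, |f p| ≤ B) :
    ∫ ω, f (X ω, W ω) ∂(cnP d θ μ) = ∫ ω, ∫ x, f (x, W ω) ∂((cnP d θ μ).map X) ∂(cnP d θ μ) := by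
  have hI := cn_indepFun (θ := θ) (μ := μ) (disjoint_compl_right (a := S)) hX hW hXS hWS
  have hmap : (cnP d θ μ).map (fun ω => (X ω, W ω)) = ((cnP d θ μ).map X).prod ((cnP d θ μ).map W) :=
    (indepFun_iff_map_prod_eq_prod_map_map hX.aemeasurable hW.aemeasurable).1 hI
  have : IsProbabilityMeasure ((cnP d θ μ).map X) :=
    Measure.isProbabilityMeasure_map hX.aemeasurable
  have : IsProbabilityMeasure ((cnP d θ μ).map W) :=
    Measure.isProbabilityMeasure_map hW.aemeasurable
  have hfint : Integrable f (((cnP d θ μ).map X).prod ((cnP d θ μ).map W)) :=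
    Integrable.of_bound hf.aestronglyMeasurable B (ae_of_all _ fun p => by simpa using hB p)
  have h1 : ∫ ω, f (X ω, W ω) ∂(cnP d θ μ) = ∫ p, f p ∂(((cnP d θ μ).map X).prod ((cnP d θ μ).map W)) := by
    rw [← hmap, integral_map (hX.prodMk hW).aemeasurable hf.aestronglyMeasurable]
  have hinner : Measurable (fun w : E => ∫ x, f (x, w) ∂((cnP d θ μ).map X)) :=
    (hf.stronglyMeasurable.integral_prod_left' (μ := (cnP d θ μ).map X)).measurable
  rw [h1, integral_prod_symm _ hfint, integral_map hW.aemeasurable hinner.aestronglyMeasurable]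

/-- Peeling: if `∫ f (x, w) dX ≤ c` for all `w` and `R ≥ 0`, then `E [f (X, W) R (W)] ≤ c E [R (W)]`. -/
theorem cn_peel [Corr θ] [IsProbabilityMeasure μ] {S : Set (Word d)} {E : Type*} [MeasurableSpace E]
    {X : Cn d → ℝ} {W : Cn d → E} (hX : Measurable X) (hW : Measurable W)
    (hXS : DependsOn X S) (hWS : DependsOn W Sᶜ) {f : ℝ × E → ℝ} (hf : Measurable f)
    (hf0 : ∀ p, 0 ≤ f p) {B : ℝ} (hB : ∀ p, f p ≤ B) {R : E → ℝ} (hR : Measurable R) (hR0 : ∀ w, 0 ≤ R w)
    {B' : ℝ} (hR' : ∀ w, R w ≤ B') {c : ℝ} (hc : ∀ w, ∫ x, f (x, w) ∂((cnP d θ μ).map X) ≤ c) :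
    ∫ ω, f (X ω, W ω) * R (W ω) ∂(cnP d θ μ) ≤ c * ∫ ω, R (W ω) ∂(cnP d θ μ) := by
  have hfR : Measurable (fun p : ℝ × E => f p * R p.2) := hf.mul (hR.comp measurable_snd)
  have hbd : ∀ p : ℝ × E, |f p * R p.2| ≤ B * B' := by
    intro p
    rw [abs_mul, abs_of_nonneg (hf0 p), abs_of_nonneg (hR0 p.2)]
    exact mul_le_mul (hB p) (hR' p.2) (hR0 p.2) ((hf0 p).trans (hB p))
  have h1 := cn_split (θ := θ) (μ := μ) hX hW hXS hWS hfR hbd
  have hRW : Integrable (fun ω => R (W ω)) (cnP d θ μ) :=
    Integrable.of_bound (hR.comp hW).aestronglyMeasurable B'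
      (ae_of_all _ fun ω => by
        rw [Real.norm_of_nonneg (hR0 _)]; exact hR' _)
  calc ∫ ω, f (X ω, W ω) * R (W ω) ∂(cnP d θ μ)
      = ∫ ω, ∫ x, f (x, W ω) * R (W ω) ∂((cnP d θ μ).map X) ∂(cnP d θ μ) := h1
    _ = ∫ ω, (∫ x, f (x, W ω) ∂((cnP d θ μ).map X)) * R (W ω) ∂(cnP d θ μ) := by
        refine integral_congr_ae (ae_of_all _ fun ω => ?_)
        exact integral_mul_const _ _
    _ ≤ ∫ ω, c * R (W ω) ∂(cnP d θ μ) := by
        refine integral_mono_of_nonneg (ae_of_all _ fun ω => ?_) (hRW.const_mul c) (ae_of_all _ fun ω => ?_)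
        · exact mul_nonneg (integral_nonneg fun x => hf0 _) (hR0 _)
        · exact mul_le_mul_of_nonneg_right (hc _) (hR0 _)
    _ = c * ∫ ω, R (W ω) ∂(cnP d θ μ) := integral_const_mul _ _

/-- Products over a finite family of vertices with pairwise disjoint subtrees (exponential moments of a
sum of independent terms). `F c` depends on the coordinates below `c`. -/
theorem cn_prod [Corr θ] [IsProbabilityMeasure μ] {K : Finset (Word d)}
    (hK : ∀ a ∈ K, ∀ b ∈ K, a ≠ b → Disjoint (Sub a) (Sub b))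
    {F : Word d → Cn d → ℝ} (hF : ∀ c ∈ K, Measurable (F c)) (hFS : ∀ c ∈ K, DependsOn (F c) (Sub c))
    {B : ℝ} (hB : ∀ c ∈ K, ∀ ω, |F c ω| ≤ B) :
    ∫ ω, ∏ c ∈ K, F c ω ∂(cnP d θ μ) = ∏ c ∈ K, ∫ ω, F c ω ∂(cnP d θ μ) := by
  classical
  induction K using Finset.induction_on with
  | empty => simp
  | insert a K ha ih =>
    have hK' : ∀ a ∈ K, ∀ b ∈ K, a ≠ b → Disjoint (Sub a) (Sub b) := fun x hx y hy hxy =>
      hK x (Finset.mem_insert_of_mem hx) y (Finset.mem_insert_of_mem hy) hxy
    have hF' : ∀ c ∈ K, Measurable (F c) := fun c hc => hF c (Finset.mem_insert_of_mem hc)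
    have hFS' : ∀ c ∈ K, DependsOn (F c) (Sub c) := fun c hc => hFS c (Finset.mem_insert_of_mem hc)
    have hB' : ∀ c ∈ K, ∀ ω, |F c ω| ≤ B := fun c hc => hB c (Finset.mem_insert_of_mem hc)
    have ih' := ih hK' hF' hFS' hB'
    simp only [Finset.prod_insert ha]
    have hma : Measurable (F a) := hF a (Finset.mem_insert_self a K)
    have hmP : Measurable (fun ω => ∏ c ∈ K, F c ω) := Finset.measurable_prod _ hF'
    have hdP : DependsOn (fun ω => ∏ c ∈ K, F c ω) (⋃ c ∈ K, Sub c) := by
      intro x y hxy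
      refine Finset.prod_congr rfl fun c hc => hFS' c hc fun i hi => hxy i ?_
      exact Set.mem_biUnion hc hi
    have hdisj : Disjoint (Sub a) (⋃ c ∈ K, Sub c) := by
      rw [Set.disjoint_iUnion₂_right]
      intro c hc
      exact hK a (Finset.mem_insert_self a K) c (Finset.mem_insert_of_mem hc)
        (fun h => ha (h ▸ hc))
    have hI := cn_indepFun (θ := θ) (μ := μ) hdisj hma hmP (hFS a (Finset.mem_insert_self a K)) hdP
    have := hI.integral_fun_mul_eq_mul_integral hma.aestronglyMeasurable hmP.aestronglyMeasurable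
    rw [this, ih']

lemma mem_kids {v c : Word d} : c ∈ kids v ↔ c ≠ root ∧ parent c = v := by
  classical
  unfold kids
  simp only [Finset.mem_filter, mem_ball]
  constructor
  · exact fun h => h.2
  · intro h
    refine ⟨?_, h⟩
    have := len_parent h.1
    rw [h.2] at this
    omega

lemma cnSub_self (v : Word d) : v ∈ Sub v := List.suffix_refl _

lemma mem_sub_of_kid {v c : Word d} (hc : c ∈ kids v) : c ∈ Sub v := by
  have h := (mem_kids.1 hc).2
  show v.1 <:+ c.1
  rw [← h]
  exact List.tail_suffix c.1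

lemma sub_subset_of_kid {v c : Word d} (hc : c ∈ kids v) : Sub c ⊆ Sub v := by
  intro u hu
  exact List.IsSuffix.trans (mem_sub_of_kid hc) hu

lemma cn_measurable_sp : Measurable sp := Measurable.of_discrete

lemma measurable_hatH (θ : ℝ) (n : ℕ) (v : Word d) : Measurable (hatH θ n v) := by
  induction n generalizing v with
  | zero =>
    have : (hatH θ 0 v : Cn d → ℝ) = fun ω => (ω v).2 := by funext ω; rfl
    rw [this]
    exact measurable_snd.comp (measurable_pi_apply v)
  | succ n ih =>
    have : (hatH θ (n + 1) v : Cn d → ℝ) =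
        fun ω => (ω v).2 + ∑ c ∈ kids v, sp (ω c).1 * Uf θ (hatH θ n c ω) := by funext ω; rfl
    rw [this]
    refine (measurable_snd.comp (measurable_pi_apply v)).add (Finset.measurable_sum _ fun c _ => ?_)
    exact (cn_measurable_sp.comp (measurable_fst.comp (measurable_pi_apply c))).mul
      (measurable_Uf.comp (ih c))

lemma dependsOn_hatH (θ : ℝ) (n : ℕ) (v : Word d) : DependsOn (hatH θ n v) (Sub v) := by
  induction n generalizing v with
  | zero =>
    intro x y h
    show (x v).2 = (y v).2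
    rw [h v (cnSub_self v)]
  | succ n ih =>
    intro x y h
    show (x v).2 + ∑ c ∈ kids v, sp (x c).1 * Uf θ (hatH θ n c x) =
      (y v).2 + ∑ c ∈ kids v, sp (y c).1 * Uf θ (hatH θ n c y)
    rw [h v (cnSub_self v)]
    congr 1
    refine Finset.sum_congr rfl fun c hc => ?_
    rw [h c (mem_sub_of_kid hc), ih c (fun i hi => h i (sub_subset_of_kid hc hi))]

lemma measurable_hatL (θ : ℝ) (v : Word d) : Measurable (hatL θ v) := by
  unfold hatL
  exact Measurable.limsup (fun n => measurable_hatH θ n v)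

lemma dependsOn_hatL (θ : ℝ) (v : Word d) : DependsOn (hatL θ v) (Sub v) := by
  intro x y h
  unfold hatL
  congr 1
  funext n
  exact dependsOn_hatH θ n v h

lemma sp_xor (a b : Bool) : sp (xor a b) = sp a * sp b := by
  cases a <;> cases b <;> simp [sp]

lemma sp_mul_self (a : Bool) : sp a * sp a = 1 := by
  cases a <;> simp [sp]

lemma Uf_sp_mul (a : Bool) (h : ℝ) : Uf θ (sp a * h) = sp a * Uf θ h := by
  cases a with
  | false => simp [sp]
  | true => simp [sp, Uf_odd]

/-- The gauge identity. -/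
lemma hatH_eq (_hθ0 : 0 ≤ θ) (_hθ1 : θ < 1) (n : ℕ) (v : Word d) (ω : Cn d) :
    hatH θ n v ω = sp (sgC ω v) * hh θ n v (yC ω) := by
  induction n generalizing v with
  | zero =>
    show (ω v).2 = sp (sgC ω v) * (sp (sgC ω v) * (ω v).2)
    rw [← mul_assoc, sp_mul_self, one_mul]
  | succ n ih =>
    show (ω v).2 + ∑ c ∈ kids v, sp (ω c).1 * Uf θ (hatH θ n c ω) =
      sp (sgC ω v) * (sp (sgC ω v) * (ω v).2 + ∑ c ∈ kids v, Uf θ (hh θ n c (yC ω)))
    rw [mul_add, ← mul_assoc, sp_mul_self, one_mul, Finset.mul_sum]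
    congr 1
    refine Finset.sum_congr rfl fun c hc => ?_
    obtain ⟨hc0, hcp⟩ := mem_kids.1 hc
    have hs : sgC ω c = xor (sgC ω v) (ω c).1 := by
      unfold sgC
      rw [tau_step _ hc0, hcp]
    rw [ih c, hs, sp_xor, mul_assoc, Uf_sp_mul, Uf_sp_mul]
    have := sp_mul_self (ω c).1
    calc sp (ω c).1 * (sp (sgC ω v) * (sp (ω c).1 * Uf θ (hh θ n c (yC ω))))
        = (sp (ω c).1 * sp (ω c).1) * (sp (sgC ω v) * Uf θ (hh θ n c (yC ω))) := by ring
      _ = _ := by rw [this, one_mul]

/-- Adding a letter. -/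
def consW (v : Word d) (a : Fin d) (h : ∀ b ∈ v.1.head?, a ≠ b) : Word d :=
  ⟨a :: v.1, by
    obtain ⟨l, hl⟩ := v
    cases l with
    | nil => exact List.isChain_singleton a
    | cons b l => exact List.isChain_cons_cons.mpr ⟨h b (by simp), hl⟩⟩

lemma kids_card_aux (v : Word d) :
    (kids v).card = (Finset.univ.filter (fun a : Fin d => ∀ b ∈ v.1.head?, a ≠ b)).card := by
  classical
  symm
  refine Finset.card_bij (fun a ha => consW v a (Finset.mem_filter.1 ha).2) ?_ ?_ ?_
  · intro a ha
    refine mem_kids.2 ⟨?_, ?_⟩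
    · intro h
      have := congrArg Subtype.val h
      simp [consW, root] at this
    · apply Subtype.ext
      simp [consW, parent]
  · intro a ha b hb hab
    have := congrArg Subtype.val hab
    simpa [consW] using this
  · intro c hc
    obtain ⟨hc0, hcp⟩ := mem_kids.1 hc
    obtain ⟨l, hl⟩ := c
    cases l with
    | nil => exact absurd (Subtype.ext rfl) hc0
    | cons a l =>
      have hv : v.1 = l := by
        rw [← hcp]; rfl
      refine ⟨a, Finset.mem_filter.2 ⟨Finset.mem_univ a, ?_⟩, ?_⟩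
      · intro b hb
        rw [hv] at hb
        cases l with
        | nil => simp at hb
        | cons e l =>
          simp at hb
          subst hb
          exact (List.isChain_cons_cons.mp hl).1
      · apply Subtype.ext
        simp [consW, hv]

/-- Number of children. -/
lemma card_kids {v : Word d} (hv : v ≠ root) : (kids v).card = d - 1 := by
  classical
  rw [kids_card_aux]
  obtain ⟨l, hl⟩ := v
  cases l with
  | nil => exact absurd rfl hv
  | cons b l =>
    have : (Finset.univ.filter (fun a : Fin d => ∀ e ∈ (⟨b :: l, hl⟩ : Word d).1.head?, a ≠ e)) =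
        Finset.univ.erase b := by
      ext a
      simp
    rw [this, Finset.card_erase_of_mem (Finset.mem_univ b), Finset.card_univ, Fintype.card_fin]

lemma card_kids_root : (kids (root : Word d)).card = d := by
  classical
  rw [kids_card_aux]
  simp [root]


/-! ### The sign at a vertex, bounds, limits (Canon.law) -/

lemma signFree_hatH (n : ℕ) (v : Word d) : SignFree v (hatH θ n v) := by
  classical
  intro ω b
  cases n with
  | zero => simp [hatH]
  | succ n =>
    simp only [hatH, Function.update_self]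
    congr 1
    refine Finset.sum_congr rfl fun c hc => ?_
    have hne : c ≠ v := fun h => caux_not_mem_kid hc (h ▸ caux_self_mem c)
    have h1 : Function.update ω v (b, (ω v).2) c = ω c := Function.update_of_ne hne _ _
    have h2 : hatH θ n c (Function.update ω v (b, (ω v).2)) = hatH θ n c ω := by
      refine dependsOn_hatH θ n c ?_
      intro i hi
      have hiv : i ≠ v := fun h => caux_not_mem_kid hc (h ▸ hi)
      exact Function.update_of_ne hiv _ _
    rw [h1, h2]

lemma signFree_hatL (v : Word d) : SignFree v (hatL θ v) := by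
  intro ω b
  unfold hatL
  congr 1
  funext n
  exact signFree_hatH n v ω b

lemma law_hatL_aux_abs (hθ0 : 0 ≤ θ) (hθ1 : θ < 1) (a : ℝ) : |Uf θ a| ≤ Real.artanh θ := by
  have h1 := Uf_abs_le_tanh hθ0 hθ1 a
  have h2 : 0 ≤ Real.artanh θ := Real.artanh_nonneg hθ0
  have h3 : |Real.tanh a| ≤ 1 := by
    rw [abs_le]
    exact ⟨(Real.neg_one_lt_tanh a).le, (Real.tanh_lt_one a).le⟩
  calc |Uf θ a| ≤ Real.artanh θ * |Real.tanh a| := h1
    _ ≤ Real.artanh θ * 1 := mul_le_mul_of_nonneg_left h3 h2
    _ = Real.artanh θ := mul_one _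

/-- Pointwise bound on the depth `n` field at a non root vertex. -/
lemma hatH_abs_le (hθ0 : 0 ≤ θ) (hθ1 : θ < 1) {v : Word d} (hv : v ≠ root) (n : ℕ) (ω : Cn d) :
    |hatH θ n v ω| ≤ |(ω v).2| + ((d - 1 : ℕ) : ℝ) * Real.artanh θ := by
  have hA : 0 ≤ Real.artanh θ := Real.artanh_nonneg hθ0
  cases n with
  | zero =>
    simp only [hatH]
    have : 0 ≤ ((d - 1 : ℕ) : ℝ) * Real.artanh θ := by positivity
    linarith
  | succ n =>
    simp only [hatH]
    refine (abs_add_le _ _).trans ?_
    gcongr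
    refine (Finset.abs_sum_le_sum_abs _ _).trans ?_
    have h : ∀ c ∈ kids v, |sp (ω c).1 * Uf θ (hatH θ n c ω)| ≤ Real.artanh θ := by
      intro c _
      rw [abs_mul, abs_sp, one_mul]
      exact law_hatL_aux_abs hθ0 hθ1 _
    refine (Finset.sum_le_sum h).trans ?_
    rw [Finset.sum_const, nsmul_eq_mul, card_kids hv]

/-- The law of the depth `n` cavity field at a non root vertex. -/
theorem law_hatH (hd : 2 ≤ d) [Corr θ] (hθ1 : θ < 1) (hμ : Nish μ) (n : ℕ) {v : Word d} (hv : v ≠ root) :
    (cnP d θ μ).map (hatH θ n v) = cavN θ (d - 1) μ n := by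
  haveI := hμ.prob
  have hθ0 : 0 ≤ θ := Corr.nonneg
  induction n generalizing v with
  | zero => exact caux_map_field v
  | succ n ih =>
    have hroot : ∀ c ∈ kids v, c ≠ root := by
      intro c hc h
      obtain ⟨a, ha⟩ := caux_kid hc
      rw [h] at ha
      simp [root] at ha
    have h := caux_step (θ := θ) (μ := μ) (v := v) (H := hatH θ n) (ν := cavN θ (d - 1) μ n)
      (fun c _ => measurable_hatH θ n c) (fun c _ => dependsOn_hatH θ n c)
      (fun c _ => signFree_hatH n c) (fun c hc => ih (hroot c hc))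
    rw [card_kids hv] at h
    exact h

/-- The limit exists almost surely (martingale convergence for `tanh hh`). -/
theorem tendsto_hatH [Corr θ] (hθ1 : θ < 1) (hμ : Nish μ) :
    ∀ᵐ ω ∂(cnP d θ μ), ∀ v : Word d, Tendsto (fun n => hatH θ n v ω) atTop (𝓝 (hatL θ v ω)) := by
  exact tendsto_hatH_mg hθ1 hμ

/-- The gauge identity in the limit. -/
theorem hatL_eq [Corr θ] (hθ1 : θ < 1) (hμ : Nish μ) :
    ∀ᵐ ω ∂(cnP d θ μ), ∀ v : Word d, hatL θ v ω = sp (sgC ω v) * hhL θ v (yC ω) := by
  exact hatL_eq_mg hθ1 hμ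

/-- The distributional recursion in the limit, pointwise. -/
theorem hatL_rec [Corr θ] (hθ1 : θ < 1) (hμ : Nish μ) :
    ∀ᵐ ω ∂(cnP d θ μ), ∀ v : Word d,
      hatL θ v ω = (ω v).2 + ∑ c ∈ kids v, sp (ω c).1 * Uf θ (hatL θ c ω) := by
  exact hatL_rec_mg hθ1 hμ


/-- Dominated convergence along the a.s. limit. -/
lemma caux_tendsto_int [Corr θ] [IsProbabilityMeasure μ] (hθ1 : θ < 1) (hμ : Nish μ) (v : Word d) {F : ℝ → ℝ}
    (hF : Continuous F) {B : ℝ} (hB : ∀ x, |F x| ≤ B) :
    Tendsto (fun n => ∫ ω, F (hatH θ n v ω) ∂(cnP d θ μ)) atTop (𝓝 (∫ ω, F (hatL θ v ω) ∂(cnP d θ μ))) := by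
  refine tendsto_integral_of_dominated_convergence (fun _ => B) ?_ (integrable_const B) ?_ ?_
  · intro n
    exact (hF.measurable.comp (measurable_hatH θ n v)).aestronglyMeasurable
  · intro n
    exact ae_of_all _ fun ω => by simpa [Real.norm_eq_abs] using hB _
  · filter_upwards [tendsto_hatH (d := d) (μ := μ) hθ1 hμ] with ω hω
    exact hF.continuousAt.tendsto.comp (hω v)

/-- The integral of a depth `n` law in terms of the canonical space. -/
lemma caux_int_cavN (hd : 2 ≤ d) [Corr θ] (hθ1 : θ < 1) (hμ : Nish μ) (n : ℕ) {v : Word d} (hv : v ≠ root)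
    {F : ℝ → ℝ} (hF : Measurable F) :
    ∫ h, F h ∂(cavN θ (d - 1) μ n) = ∫ ω, F (hatH θ n v ω) ∂(cnP d θ μ) := by
  rw [← law_hatH hd hθ1 hμ n hv, integral_map (measurable_hatH θ n v).aemeasurable hF.aestronglyMeasurable]

lemma caux_letter_ne (hd : 0 < d) : (letter ⟨0, hd⟩ : Word d) ≠ root := by
  intro h
  have := congrArg len h
  simp at this

/-- Integrals against the depth `n` laws converge to the limit law at any non root vertex. -/
lemma caux_tendsto_cavN (hd : 2 ≤ d) [Corr θ] (hθ1 : θ < 1) (hμ : Nish μ) {v : Word d} (hv : v ≠ root)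
    {F : ℝ → ℝ} (hF : Continuous F) {B : ℝ} (hB : ∀ x, |F x| ≤ B) :
    Tendsto (fun n => ∫ h, F h ∂(cavN θ (d - 1) μ n)) atTop (𝓝 (∫ ω, F (hatL θ v ω) ∂(cnP d θ μ))) := by
  have := hμ.prob
  have h := caux_tendsto_int (d := d) (μ := μ) hθ1 hμ v hF hB
  refine h.congr fun n => ?_
  exact (caux_int_cavN hd hθ1 hμ n hv hF.measurable).symm

/-- The limit law does not depend on the non root vertex. -/
theorem law_hatL (hd : 2 ≤ d) [Corr θ] (hθ1 : θ < 1) (hμ : Nish μ) {v : Word d} (hv : v ≠ root) :
    (cnP d θ μ).map (hatL θ v) = cavL d (by omega) θ μ := by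
  have := hμ.prob
  have hv0 := caux_letter_ne (d := d) (by omega)
  have hP1 : IsProbabilityMeasure ((cnP d θ μ).map (hatL θ v)) :=
    Measure.isProbabilityMeasure_map (measurable_hatL θ v).aemeasurable
  have hP2 : IsProbabilityMeasure (cavL d (by omega) θ μ) := by
    unfold cavL
    exact Measure.isProbabilityMeasure_map (measurable_hatL θ _).aemeasurable
  refine ext_of_forall_integral_eq_of_IsFiniteMeasure fun f => ?_
  have hbd : ∀ x, |f x| ≤ ‖f‖ := fun x => f.norm_coe_le_norm x
  have h1 := caux_tendsto_cavN hd hθ1 hμ hv f.continuous hbd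
  have h2 := caux_tendsto_cavN hd hθ1 hμ hv0 f.continuous hbd
  have h3 := tendsto_nhds_unique h1 h2
  rw [integral_map (measurable_hatL θ v).aemeasurable f.continuous.measurable.aestronglyMeasurable]
  unfold cavL
  rw [integral_map (measurable_hatL θ _).aemeasurable f.continuous.measurable.aestronglyMeasurable]
  exact h3

theorem cavL_nish (hd : 2 ≤ d) [Corr θ] (hθ1 : θ < 1) (hμ : Nish μ) : Nish (cavL d (by omega) θ μ) := by
  have := hμ.prob
  have hθ0 : 0 ≤ θ := Corr.nonneg
  have hv0 : (letter ⟨0, by omega⟩ : Word d) ≠ root := caux_letter_ne (by omega)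
  set v0 : Word d := letter ⟨0, by omega⟩ with hv0def
  obtain ⟨M, hM⟩ := hμ.bdd
  set M1 : ℝ := |M + ((d - 1 : ℕ) : ℝ) * Real.artanh θ| with hM1
  have hfm : Measurable (fun ω : Cn d => (ω v0).2) := measurable_snd.comp (measurable_pi_apply v0)
  have hfield : ∀ᵐ ω ∂(cnP d θ μ), |(ω v0).2| ≤ M := by
    have h1 : ∀ᵐ h ∂((cnP d θ μ).map (fun ω : Cn d => (ω v0).2)), |h| ≤ M := by
      rw [caux_map_field]
      exact hM
    exact ae_of_ae_map hfm.aemeasurable h1
  have hall : ∀ᵐ ω ∂(cnP d θ μ), ∀ n, |hatH θ n v0 ω| ≤ M1 := by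
    filter_upwards [hfield] with ω hω n
    refine (hatH_abs_le hθ0 hθ1 hv0 n ω).trans ?_
    refine le_trans ?_ (le_abs_self _)
    linarith
  have hset : MeasurableSet {h : ℝ | |h| ≤ M1} := measurableSet_le measurable_id.abs measurable_const
  have hcavN : ∀ n, ∀ᵐ h ∂(cavN θ (d - 1) μ n), |h| ≤ M1 := by
    intro n
    rw [← law_hatH hd hθ1 hμ n hv0]
    refine (ae_map_iff (measurable_hatH θ n v0).aemeasurable hset).mpr ?_
    filter_upwards [hall] with ω hω using hω n
  have hlim : ∀ᵐ ω ∂(cnP d θ μ), |hatL θ v0 ω| ≤ M1 := by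
    filter_upwards [hall, tendsto_hatH (d := d) (μ := μ) hθ1 hμ] with ω h1 h2
    exact le_of_tendsto (h2 v0).abs (Eventually.of_forall h1)
  have hmL : Measurable (hatL θ v0) := measurable_hatL θ v0
  have hprob : IsProbabilityMeasure (cavL d (by omega) θ μ) := by
    unfold cavL
    exact Measure.isProbabilityMeasure_map hmL.aemeasurable
  have hbd : ∀ᵐ h ∂(cavL d (by omega) θ μ), |h| ≤ M1 := by
    unfold cavL
    exact (ae_map_iff hmL.aemeasurable hset).mpr hlim
  refine ⟨hprob, ⟨M1, hbd⟩, ?_⟩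
  set ζ := cavL d (by omega) θ μ with hζ
  have hM10 : 0 ≤ M1 := abs_nonneg _
  -- the truncation of the density
  let cl : ℝ → ℝ := fun h => max (-M1) (min h M1)
  have hcl : Continuous cl := continuous_const.max (continuous_id.min continuous_const)
  have hcl_eq : ∀ h, |h| ≤ M1 → cl h = h := by
    intro h hh
    rw [abs_le] at hh
    simp only [cl]
    rw [min_eq_left hh.2, max_eq_right hh.1]
  have hcl_bd : ∀ h, -(2 * cl h) ≤ 2 * M1 := by
    intro h
    have : -M1 ≤ cl h := le_max_left _ _
    linarith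
  -- the identity for continuous bounded test functions
  have key : ∀ f : BoundedContinuousFunction ℝ ℝ,
      ∫ h, f (-h) ∂ζ = ∫ h, f h * Real.exp (-2 * h) ∂ζ := by
    intro f
    let g : ℝ → ℝ := fun h => f h * Real.exp (-2 * cl h)
    have hg : Continuous g := f.continuous.mul (Real.continuous_exp.comp (continuous_const.mul hcl))
    have hgb : ∀ x, |g x| ≤ ‖f‖ * Real.exp (2 * M1) := by
      intro x
      simp only [g]
      rw [abs_mul, Real.abs_exp]
      refine mul_le_mul (f.norm_coe_le_norm x) (Real.exp_le_exp.mpr ?_) (Real.exp_pos _).le (norm_nonneg _)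
      have := hcl_bd x
      linarith
    have hfn : Continuous (fun h => f (-h)) := f.continuous.comp continuous_neg
    have hfb : ∀ x, |f (-x)| ≤ ‖f‖ := fun x => f.norm_coe_le_norm _
    have h1 := caux_tendsto_cavN hd hθ1 hμ hv0 hfn hfb
    have h2 := caux_tendsto_cavN hd hθ1 hμ hv0 hg hgb
    have h3 : ∀ n, ∫ h, f (-h) ∂(cavN θ (d - 1) μ n) = ∫ h, g h ∂(cavN θ (d - 1) μ n) := by
      intro n
      have hN := (hμ.cavN hθ0 hθ1 (d - 1) n).symm f ⟨f.continuous.measurable, ‖f‖, fun x => f.norm_coe_le_norm x⟩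
      rw [hN]
      refine integral_congr_ae ?_
      filter_upwards [hcavN n] with h hh
      simp only [g]
      rw [hcl_eq h hh]
    have h4 := tendsto_nhds_unique (h1.congr h3) h2
    have e1 : ∫ h, f (-h) ∂ζ = ∫ ω, f (-hatL θ v0 ω) ∂(cnP d θ μ) := by
      rw [hζ]
      unfold cavL
      rw [integral_map hmL.aemeasurable hfn.measurable.aestronglyMeasurable]
    have e2 : ∫ h, f h * Real.exp (-2 * h) ∂ζ = ∫ ω, g (hatL θ v0 ω) ∂(cnP d θ μ) := by
      have e3 : ∫ h, f h * Real.exp (-2 * h) ∂ζ = ∫ h, g h ∂ζ := by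
        refine integral_congr_ae ?_
        filter_upwards [hbd] with h hh
        simp only [g]
        rw [hcl_eq h hh]
      rw [e3, hζ]
      unfold cavL
      rw [integral_map hmL.aemeasurable hg.measurable.aestronglyMeasurable]
    rw [e1, e2]
    exact h4
  -- as measures
  have hexpm : Measurable (fun h : ℝ => ENNReal.ofReal (Real.exp (-2 * h))) :=
    ENNReal.measurable_ofReal.comp (Real.measurable_exp.comp (measurable_const.mul measurable_id))
  have hfin : IsFiniteMeasure (ζ.withDensity (fun h => ENNReal.ofReal (Real.exp (-2 * h)))) := by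
    refine isFiniteMeasure_withDensity_ofReal ?_
    refine HasFiniteIntegral.of_bounded (C := Real.exp (2 * M1)) ?_
    filter_upwards [hbd] with h hh
    rw [Real.norm_eq_abs, Real.abs_exp]
    refine Real.exp_le_exp.mpr ?_
    have := (abs_le.mp hh).1
    linarith
  have hfin1 : IsProbabilityMeasure (ζ.map (fun h : ℝ => -h)) :=
    Measure.isProbabilityMeasure_map measurable_neg.aemeasurable
  have hmeas : ζ.map (fun h : ℝ => -h) = ζ.withDensity (fun h => ENNReal.ofReal (Real.exp (-2 * h))) := by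
    refine ext_of_forall_integral_eq_of_IsFiniteMeasure fun f => ?_
    rw [integral_map measurable_neg.aemeasurable f.continuous.measurable.aestronglyMeasurable, key f,
      integral_withDensity_eq_integral_toReal_smul hexpm (ae_of_all _ fun _ => ENNReal.ofReal_lt_top)]
    refine integral_congr_ae (ae_of_all _ fun h => ?_)
    simp only [smul_eq_mul]
    rw [ENNReal.toReal_ofReal (Real.exp_pos _).le, mul_comm]
  intro F hF
  have h1 : ∫ h, F (-h) ∂ζ = ∫ h, F h ∂(ζ.map (fun h : ℝ => -h)) := by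
    rw [integral_map measurable_neg.aemeasurable hF.1.aestronglyMeasurable]
  rw [h1, hmeas, integral_withDensity_eq_integral_toReal_smul hexpm (ae_of_all _ fun _ => ENNReal.ofReal_lt_top)]
  refine integral_congr_ae (ae_of_all _ fun h => ?_)
  simp only [smul_eq_mul]
  rw [ENNReal.toReal_ofReal (Real.exp_pos _).le, mul_comm]

theorem cavL_fix (hd : 2 ≤ d) [Corr θ] (hθ1 : θ < 1) (hμ : Nish μ) :
    cavL d (by omega) θ μ = cvl μ (powC (msg θ (cavL d (by omega) θ μ)) (d - 1)) := by
  have := hμ.prob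
  have hv0 : (letter ⟨0, by omega⟩ : Word d) ≠ root := caux_letter_ne (by omega)
  have hroot : ∀ c ∈ kids (letter ⟨0, by omega⟩ : Word d), c ≠ root := by
    intro c hc h
    obtain ⟨a, ha⟩ := caux_kid hc
    rw [h] at ha
    simp [root] at ha
  have hstep := caux_step (θ := θ) (μ := μ) (v := (letter ⟨0, by omega⟩ : Word d)) (H := hatL θ)
    (ν := cavL d (by omega) θ μ)
    (fun c _ => measurable_hatL θ c) (fun c _ => dependsOn_hatL θ c)
    (fun c _ => signFree_hatL c) (fun c hc => law_hatL hd hθ1 hμ (hroot c hc))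
  rw [card_kids hv0] at hstep
  rw [← hstep]
  unfold cavL
  refine Measure.map_congr ?_
  filter_upwards [hatL_rec (d := d) (μ := μ) hθ1 hμ] with ω hω
  exact hω _

/-- The law of one message from a non root vertex. -/
theorem law_msg (hd : 2 ≤ d) [Corr θ] (hθ1 : θ < 1) (hμ : Nish μ) {v : Word d} (hv : v ≠ root) :
    (cnP d θ μ).map (fun ω => sp (ω v).1 * Uf θ (hatL θ v ω)) = msg θ (cavL d (by omega) θ μ) := by
  have := hμ.prob
  rw [caux_law_msg hv (measurable_hatL θ v) (signFree_hatL v), law_hatL hd hθ1 hμ hv]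

/-- Integrals against the depth `n` laws converge to the integral against the limit law. -/
theorem tendsto_cavN (hd : 2 ≤ d) [Corr θ] (hθ1 : θ < 1) (hμ : Nish μ) {F : ℝ → ℝ} (hF : Continuous F)
    {B : ℝ} (hB : ∀ x, |F x| ≤ B) :
    Tendsto (fun n => ∫ h, F h ∂(cavN θ (d - 1) μ n)) atTop (𝓝 (∫ h, F h ∂(cavL d (by omega) θ μ))) := by
  have := hμ.prob
  have h := caux_tendsto_cavN hd hθ1 hμ (caux_letter_ne (d := d) (by omega)) hF hB
  unfold cavL
  rw [integral_map (measurable_hatL θ _).aemeasurable hF.measurable.aestronglyMeasurable]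
  exact h

end Vale.Agent.Lib.P161B
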