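import Mathlib

/-!
The bounded observation channel: the density `(1 + a z) / 2` on `[-1, 1]`, its distribution function
`cdfA`, its quantile `quant`, and the update `Gk` of the posterior mean expressed through the uniform
innovation variable.
-/

namespace Vale.Agent.Lib.P161B

open MeasureTheory Set

/-- The distribution function of the density `(1 + a z) / 2` on `[-1, 1]`. -/
noncomputable def cdfA (a z : ℝ) : ℝ := (z + 1) / 2 + a * (z ^ 2 - 1) / 4

/-- The quantile function of the density `(1 + a z) / 2` on `[-1, 1]`. -/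
noncomputable def quant (a u : ℝ) : ℝ :=
  if a = 0 then 2 * u - 1 else (-1 + √((1 - a) ^ 2 + 4 * a * u)) / a

private lemma abs_mul_le_half {a z : ℝ} (ha : |a| ≤ 1 / 2) (hz : z ∈ Icc (-1 : ℝ) 1) :
    |a * z| ≤ 1 / 2 := by
  rw [abs_mul]
  have hz' : |z| ≤ 1 := abs_le.mpr ⟨hz.1, hz.2⟩
  have := mul_le_mul ha hz' (abs_nonneg z) (by norm_num : (0 : ℝ) ≤ 1 / 2)
  linarith

lemma cdfA_mem {a z : ℝ} (ha : |a| ≤ 1 / 2) (hz : z ∈ Icc (-1 : ℝ) 1) : cdfA a z ∈ Icc (0 : ℝ) 1 := by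
  obtain ⟨ha1, ha2⟩ := abs_le.mp ha
  obtain ⟨hz1, hz2⟩ := hz
  unfold cdfA
  constructor
  · nlinarith [mul_nonneg (by linarith : (0 : ℝ) ≤ z + 1) (by linarith : (0 : ℝ) ≤ 1 - z),
      mul_nonneg (mul_nonneg (by linarith : (0 : ℝ) ≤ z + 1) (by linarith : (0 : ℝ) ≤ 1 - z))
        (by linarith : (0 : ℝ) ≤ 1 / 2 + a),
      mul_nonneg (mul_nonneg (by linarith : (0 : ℝ) ≤ z + 1) (by linarith : (0 : ℝ) ≤ 1 - z))
        (by linarith : (0 : ℝ) ≤ 1 / 2 - a)]
  · nlinarith [mul_nonneg (by linarith : (0 : ℝ) ≤ z + 1) (by linarith : (0 : ℝ) ≤ 1 - z),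
      mul_nonneg (mul_nonneg (by linarith : (0 : ℝ) ≤ z + 1) (by linarith : (0 : ℝ) ≤ 1 - z))
        (by linarith : (0 : ℝ) ≤ 1 / 2 + a),
      mul_nonneg (mul_nonneg (by linarith : (0 : ℝ) ≤ z + 1) (by linarith : (0 : ℝ) ≤ 1 - z))
        (by linarith : (0 : ℝ) ≤ 1 / 2 - a)]

private lemma rad_nonneg {a u : ℝ} (ha : |a| ≤ 1 / 2) (hu : u ∈ Icc (0 : ℝ) 1) :
    0 ≤ (1 - a) ^ 2 + 4 * a * u := by
  obtain ⟨ha1, ha2⟩ := abs_le.mp ha
  obtain ⟨hu1, hu2⟩ := hu
  rcases le_total 0 a with h | h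
  · have := mul_nonneg h hu1
    nlinarith [sq_nonneg (1 - a)]
  · have := mul_nonneg (by linarith : (0 : ℝ) ≤ -a) (by linarith : (0 : ℝ) ≤ 1 - u)
    nlinarith [sq_nonneg (1 + a)]

private lemma quant_ne {a u : ℝ} (h : a ≠ 0) :
    quant a u = (-1 + √((1 - a) ^ 2 + 4 * a * u)) / a := by
  unfold quant; rw [if_neg h]

/-- For `a ≠ 0`: `a * quant a u = -1 + w`. -/
private lemma mul_quant {a u : ℝ} (h : a ≠ 0) :
    a * quant a u = -1 + √((1 - a) ^ 2 + 4 * a * u) := by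
  rw [quant_ne h]; field_simp

lemma quant_mem {a u : ℝ} (ha : |a| ≤ 1 / 2) (hu : u ∈ Icc (0 : ℝ) 1) : quant a u ∈ Icc (-1 : ℝ) 1 := by
  obtain ⟨ha1, ha2⟩ := abs_le.mp ha
  have hrad := rad_nonneg ha hu
  obtain ⟨hu1, hu2⟩ := hu
  by_cases h : a = 0
  · subst h
    unfold quant
    simp only [if_true]
    constructor <;> linarith
  · rw [quant_ne h]
    set w := √((1 - a) ^ 2 + 4 * a * u) with hw
    have hw0 : 0 ≤ w := Real.sqrt_nonneg _
    have hw2 : w ^ 2 = (1 - a) ^ 2 + 4 * a * u := Real.sq_sqrt hrad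
    rcases lt_or_gt_of_ne h with hneg | hpos
    · -- `a < 0`: `1 + a ≤ w ≤ 1 - a`
      have hl : 1 + a ≤ w := by
        have h1 := mul_nonneg (by linarith : (0 : ℝ) ≤ -a) (by linarith : (0 : ℝ) ≤ 1 - u)
        nlinarith
      have hr : w ≤ 1 - a := by
        have h1 := mul_nonneg (by linarith : (0 : ℝ) ≤ -a) hu1
        nlinarith
      constructor
      · rw [le_div_iff_of_neg hneg]; linarith
      · rw [div_le_iff_of_neg hneg]; linarith
    · -- `0 < a`: `1 - a ≤ w ≤ 1 + a`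
      have hl : 1 - a ≤ w := by
        have h1 := mul_nonneg hpos.le hu1
        nlinarith
      have hr : w ≤ 1 + a := by
        have h1 := mul_nonneg hpos.le (by linarith : (0 : ℝ) ≤ 1 - u)
        nlinarith
      constructor
      · rw [le_div_iff₀ hpos]; linarith
      · rw [div_le_iff₀ hpos]; linarith

lemma cdfA_quant {a u : ℝ} (ha : |a| ≤ 1 / 2) (hu : u ∈ Icc (0 : ℝ) 1) : cdfA a (quant a u) = u := by
  have hrad := rad_nonneg ha hu
  by_cases h : a = 0
  · subst h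
    unfold cdfA quant
    simp only [if_true]
    ring
  · have hw2 : √((1 - a) ^ 2 + 4 * a * u) ^ 2 = (1 - a) ^ 2 + 4 * a * u := Real.sq_sqrt hrad
    have hq := mul_quant (u := u) h
    set w := √((1 - a) ^ 2 + 4 * a * u) with hw
    set z := quant a u with hz
    have key : a * (4 * cdfA a z) = a * (4 * u) := by
      unfold cdfA
      have h2 : (a * z) ^ 2 = w ^ 2 - 2 * w + 1 := by rw [hq]; ring
      have : a * (4 * ((z + 1) / 2 + a * (z ^ 2 - 1) / 4)) =
          2 * (a * z) + 2 * a + (a * z) ^ 2 - a ^ 2 := by ring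
      rw [this, h2, hq, hw2]; ring
    have := mul_left_cancel₀ h key
    linarith

lemma quant_cdfA {a z : ℝ} (ha : |a| ≤ 1 / 2) (hz : z ∈ Icc (-1 : ℝ) 1) : quant a (cdfA a z) = z := by
  by_cases h : a = 0
  · subst h
    unfold cdfA quant
    simp only [if_true]
    ring
  · rw [quant_ne h]
    have h1 : (1 - a) ^ 2 + 4 * a * cdfA a z = (1 + a * z) ^ 2 := by
      unfold cdfA; ring
    have h2 : 0 ≤ 1 + a * z := by
      have := abs_le.mp (abs_mul_le_half ha hz)
      linarith [this.1]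
    rw [h1, Real.sqrt_sq h2]
    field_simp
    ring

/-- `|F_a(z) - F_a(z')| ≥ |z - z'| / 4` and `|F_a - F_b| ≤ |a - b| / 4` give the Lipschitz bound. -/
lemma quant_lip {a b u : ℝ} (ha : |a| ≤ 1 / 2) (hb : |b| ≤ 1 / 2) (hu : u ∈ Icc (0 : ℝ) 1) :
    |quant a u - quant b u| ≤ |a - b| := by
  have hz := quant_mem ha hu
  have hz' := quant_mem hb hu
  have e1 := cdfA_quant ha hu
  have e2 := cdfA_quant hb hu
  set z := quant a u with hzdef
  set z' := quant b u with hz'def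
  obtain ⟨ha1, ha2⟩ := abs_le.mp ha
  obtain ⟨hz1, hz2⟩ := hz
  obtain ⟨hz1', hz2'⟩ := hz'
  -- factorisation
  have key : (z - z') * (1 / 2 + a * (z + z') / 4) = (b - a) * (z' ^ 2 - 1) / 4 := by
    have : cdfA a z = cdfA b z' := by rw [e1, e2]
    unfold cdfA at this
    linear_combination this
  have hfac : 1 / 4 ≤ 1 / 2 + a * (z + z') / 4 := by
    have h1 : |a * (z + z')| ≤ 1 := by
      rw [abs_mul]
      have h2 : |z + z'| ≤ 2 := abs_le.mpr ⟨by linarith, by linarith⟩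
      have := mul_le_mul ha h2 (abs_nonneg _) (by norm_num : (0 : ℝ) ≤ 1 / 2)
      linarith
    have := (abs_le.mp h1).1
    linarith
  have habs : |z - z'| * (1 / 4) ≤ |b - a| * (1 / 4) := by
    have h3 : |(z - z') * (1 / 2 + a * (z + z') / 4)| = |z - z'| * (1 / 2 + a * (z + z') / 4) := by
      rw [abs_mul, abs_of_pos (by linarith : (0 : ℝ) < 1 / 2 + a * (z + z') / 4)]
    have h4 : |(b - a) * (z' ^ 2 - 1) / 4| ≤ |b - a| * (1 / 4) := by
      rw [mul_div_assoc, abs_mul]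
      apply mul_le_mul_of_nonneg_left _ (abs_nonneg _)
      rw [abs_div, abs_of_pos (by norm_num : (0 : ℝ) < 4)]
      apply div_le_div_of_nonneg_right _ (by norm_num)
      rw [abs_le]
      constructor <;> nlinarith
    calc |z - z'| * (1 / 4) ≤ |z - z'| * (1 / 2 + a * (z + z') / 4) :=
          mul_le_mul_of_nonneg_left hfac (abs_nonneg _)
      _ = |(z - z') * (1 / 2 + a * (z + z') / 4)| := h3.symm
      _ = |(b - a) * (z' ^ 2 - 1) / 4| := by rw [key]
      _ ≤ _ := h4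
  rw [abs_sub_comm a b]
  linarith

lemma measurable_quant : Measurable (fun p : ℝ × ℝ => quant p.1 p.2) := by
  unfold quant
  apply Measurable.ite
  · exact measurableSet_eq_fun measurable_fst measurable_const
  · fun_prop
  · fun_prop

lemma measurable_cdfA : Measurable (fun p : ℝ × ℝ => cdfA p.1 p.2) := by
  unfold cdfA
  fun_prop

private lemma image_cdfA {a : ℝ} (ha : |a| ≤ 1 / 2) : cdfA a '' Icc (-1 : ℝ) 1 = Icc (0 : ℝ) 1 := by
  ext u
  constructor
  · rintro ⟨z, hz, rfl⟩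
    exact cdfA_mem ha hz
  · intro hu
    exact ⟨quant a u, quant_mem ha hu, cdfA_quant ha hu⟩

private lemma hasDeriv_cdfA (a z : ℝ) : HasDerivAt (cdfA a) ((1 + a * z) / 2) z := by
  unfold cdfA
  have h1 : HasDerivAt (fun z : ℝ => (z + 1) / 2) (1 / 2) z :=
    ((hasDerivAt_id z).add_const 1).div_const 2
  have h2 : HasDerivAt (fun z : ℝ => a * (z ^ 2 - 1) / 4) (a * (2 * z) / 4) z := by
    have h3 : HasDerivAt (fun z : ℝ => z ^ 2 - 1) (2 * z) z := by
      simpa using (hasDerivAt_pow 2 z).sub_const 1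
    exact (h3.const_mul a).div_const 4
  have h4 := h1.add h2
  have e : (1 / 2 : ℝ) + a * (2 * z) / 4 = (1 + a * z) / 2 := by ring
  rw [e] at h4
  exact h4

private lemma density_pos {a z : ℝ} (ha : |a| ≤ 1 / 2) (hz : z ∈ Icc (-1 : ℝ) 1) :
    0 < (1 + a * z) / 2 := by
  have := (abs_le.mp (abs_mul_le_half ha hz)).1
  linarith

private lemma change_var {a : ℝ} (ha : |a| ≤ 1 / 2) (g : ℝ → ℝ) :
    ∫ u in Icc (0 : ℝ) 1, g u = ∫ z in Icc (-1 : ℝ) 1, ((1 + a * z) / 2) * g (cdfA a z) := by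
  have hinj : InjOn (cdfA a) (Icc (-1 : ℝ) 1) := by
    intro x hx y hy hxy
    have := congrArg (quant a) hxy
    rwa [quant_cdfA ha hx, quant_cdfA ha hy] at this
  have := integral_image_eq_integral_abs_deriv_smul (s := Icc (-1 : ℝ) 1) (f := cdfA a)
    (f' := fun z => (1 + a * z) / 2) measurableSet_Icc
    (fun x _ => (hasDeriv_cdfA a x).hasDerivWithinAt) hinj g
  rw [image_cdfA ha] at this
  rw [this]
  apply setIntegral_congr_fun measurableSet_Icc
  intro z hz
  simp only [smul_eq_mul]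
  rw [abs_of_pos (density_pos ha hz)]

private lemma integral_unit (g : ℝ → ℝ) :
    ∫ u : unitInterval, g u = ∫ u in Icc (0 : ℝ) 1, g u :=
  integral_subtype_comap measurableSet_Icc g

/-- Change of variables: the image of the uniform law under `quant a` has density `(1 + a z) / 2`. -/
lemma integral_quant {a : ℝ} (ha : |a| ≤ 1 / 2) {f : ℝ → ℝ} (hf : Measurable f) {C : ℝ}
    (hC : ∀ x ∈ Icc (-1 : ℝ) 1, |f x| ≤ C) :
    ∫ u : unitInterval, f (quant a u) = ∫ z in Icc (-1 : ℝ) 1, f z * ((1 + a * z) / 2) := by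
  rw [integral_unit (fun u => f (quant a u)), change_var ha]
  apply setIntegral_congr_fun measurableSet_Icc
  intro z hz
  simp only
  rw [quant_cdfA ha hz, mul_comm]

/-- The update of the posterior mean in terms of the innovation variable. -/
noncomputable def Gk (κ m u : ℝ) : ℝ :=
  κ * quant (κ * m) u / (1 + κ * m * quant (κ * m) u)

lemma measurable_Gk (κ : ℝ) : Measurable (fun p : ℝ × ℝ => Gk κ p.1 p.2) := by
  unfold Gk
  have h : Measurable (fun p : ℝ × ℝ => quant (κ * p.1) p.2) :=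
    measurable_quant.comp (by fun_prop : Measurable (fun p : ℝ × ℝ => (κ * p.1, p.2)))
  exact (h.const_mul κ).div (((measurable_const.mul measurable_fst).mul h).const_add 1)

private lemma km_abs {κ m : ℝ} (h0 : 0 ≤ κ) (hκ : κ ≤ 1 / 2) (hm : |m| ≤ 1) : |κ * m| ≤ 1 / 2 := by
  rw [abs_mul, abs_of_nonneg h0]
  have := mul_le_mul hκ hm (abs_nonneg m) (by norm_num : (0 : ℝ) ≤ 1 / 2)
  linarith

private lemma denom_ge {κ m z : ℝ} (h0 : 0 ≤ κ) (hκ : κ ≤ 1 / 2) (hm : |m| ≤ 1)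
    (hz : z ∈ Icc (-1 : ℝ) 1) : 1 / 2 ≤ 1 + κ * m * z := by
  have := (abs_le.mp (abs_mul_le_half (km_abs h0 hκ hm) hz)).1
  linarith

lemma Gk_abs {κ m u : ℝ} (h0 : 0 ≤ κ) (hκ : κ ≤ 1 / 2) (hm : |m| ≤ 1) (hu : u ∈ Icc (0 : ℝ) 1) :
    |Gk κ m u| ≤ 2 * κ := by
  unfold Gk
  have hz := quant_mem (km_abs h0 hκ hm) hu
  have hd := denom_ge h0 hκ hm hz
  set z := quant (κ * m) u
  rw [abs_div, abs_of_pos (by linarith : 0 < 1 + κ * m * z), div_le_iff₀ (by linarith)]
  have hz' : |z| ≤ 1 := abs_le.mpr ⟨hz.1, hz.2⟩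
  rw [abs_mul, abs_of_nonneg h0]
  nlinarith [mul_le_mul_of_nonneg_left hz' h0]

lemma Gk_lip {κ m m' u : ℝ} (h0 : 0 ≤ κ) (hκ : κ ≤ 1 / 2) (hm : |m| ≤ 1) (hm' : |m'| ≤ 1)
    (hu : u ∈ Icc (0 : ℝ) 1) : |Gk κ m u - Gk κ m' u| ≤ 8 * κ ^ 2 * |m - m'| := by
  unfold Gk
  have ha := km_abs h0 hκ hm
  have ha' := km_abs h0 hκ hm'
  have hz := quant_mem ha hu
  have hz' := quant_mem ha' hu
  have hlip := quant_lip ha ha' hu
  have hd := denom_ge h0 hκ hm hz
  have hd' := denom_ge h0 hκ hm' hz'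
  set z := quant (κ * m) u
  set z' := quant (κ * m') u
  have hzabs : |z| ≤ 1 := abs_le.mpr ⟨hz.1, hz.2⟩
  have hzabs' : |z'| ≤ 1 := abs_le.mpr ⟨hz'.1, hz'.2⟩
  have hlip' : |z - z'| ≤ κ * |m - m'| := by
    have : κ * m - κ * m' = κ * (m - m') := by ring
    rw [this, abs_mul, abs_of_nonneg h0] at hlip
    exact hlip
  have hD : 0 < 1 + κ * m * z := by linarith
  have hD' : 0 < 1 + κ * m' * z' := by linarith
  have e : κ * z / (1 + κ * m * z) - κ * z' / (1 + κ * m' * z') =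
      κ * ((z - z') + κ * z * z' * (m' - m)) / ((1 + κ * m * z) * (1 + κ * m' * z')) := by
    rw [div_sub_div _ _ hD.ne' hD'.ne']
    congr 1
    ring
  rw [e, abs_div, abs_of_pos (mul_pos hD hD'), div_le_iff₀ (mul_pos hD hD'), abs_mul,
    abs_of_nonneg h0]
  have hprod : (1 / 4 : ℝ) ≤ (1 + κ * m * z) * (1 + κ * m' * z') := by nlinarith
  have hsum : |(z - z') + κ * z * z' * (m' - m)| ≤ 2 * κ * |m - m'| := by
    have h1 : |κ * z * z' * (m' - m)| ≤ κ * |m - m'| := by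
      have e1 : κ * z * z' * (m' - m) = κ * (z * z') * (m' - m) := by ring
      rw [e1, abs_mul, abs_mul, abs_mul, abs_of_nonneg h0, abs_sub_comm m' m]
      have hzz : |z| * |z'| ≤ 1 := by
        have := mul_le_mul hzabs hzabs' (abs_nonneg _) (by norm_num : (0 : ℝ) ≤ 1)
        linarith
      have h2 : κ * (|z| * |z'|) ≤ κ := by nlinarith
      nlinarith [abs_nonneg (m - m')]
    calc _ ≤ |z - z'| + |κ * z * z' * (m' - m)| := abs_add_le _ _
      _ ≤ _ := by linarith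
  have hmm : 0 ≤ |m - m'| := abs_nonneg _
  calc κ * |(z - z') + κ * z * z' * (m' - m)| ≤ κ * (2 * κ * |m - m'|) :=
        mul_le_mul_of_nonneg_left hsum h0
    _ = 2 * κ ^ 2 * |m - m'| := by ring
    _ ≤ 8 * κ ^ 2 * |m - m'| * ((1 + κ * m * z) * (1 + κ * m' * z')) := by
        have : 0 ≤ κ ^ 2 * |m - m'| := by positivity
        nlinarith

/-- The innovation mean vanishes. -/
lemma integral_Gk {κ m : ℝ} (h0 : 0 ≤ κ) (hκ : κ ≤ 1 / 2) (hm : |m| ≤ 1) :
    ∫ u : unitInterval, Gk κ m u = 0 := by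
  have ha := km_abs h0 hκ hm
  have hmeas : Measurable (fun z : ℝ => κ * z / (1 + κ * m * z)) := by fun_prop
  have hbd : ∀ x ∈ Icc (-1 : ℝ) 1, |κ * x / (1 + κ * m * x)| ≤ 2 * κ := by
    intro x hx
    have hd := denom_ge h0 hκ hm hx
    rw [abs_div, abs_of_pos (by linarith : 0 < 1 + κ * m * x), div_le_iff₀ (by linarith)]
    have hx' : |x| ≤ 1 := abs_le.mpr ⟨hx.1, hx.2⟩
    rw [abs_mul, abs_of_nonneg h0]
    nlinarith [mul_le_mul_of_nonneg_left hx' h0]
  have h1 := integral_quant ha hmeas hbd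
  have h2 : ∫ u : unitInterval, Gk κ m u =
      ∫ u : unitInterval, κ * quant (κ * m) u / (1 + κ * m * quant (κ * m) u) := rfl
  rw [h2, h1]
  have h3 : ∫ z in Icc (-1 : ℝ) 1, κ * z / (1 + κ * m * z) * ((1 + κ * m * z) / 2) =
      ∫ z in Icc (-1 : ℝ) 1, κ / 2 * z := by
    apply setIntegral_congr_fun measurableSet_Icc
    intro z hz
    have hd := denom_ge h0 hκ hm hz
    have hne : 1 + κ * m * z ≠ 0 := by linarith
    simp only
    generalize 1 + κ * m * z = D at hne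
    field_simp
  rw [h3, integral_Icc_eq_integral_Ioc, ← intervalIntegral.integral_of_le (by norm_num),
    intervalIntegral.integral_const_mul, integral_id]
  norm_num

private lemma Gk_bdd_integrable {κ m : ℝ} (h0 : 0 ≤ κ) (hκ : κ ≤ 1 / 2) (hm : |m| ≤ 1) :
    Integrable (fun u : unitInterval => Gk κ m u) := by
  have hmeas : Measurable (fun u : unitInterval => Gk κ m u) :=
    (measurable_Gk κ).comp (measurable_const.prodMk measurable_subtype_coe)
  refine Integrable.of_bound hmeas.aestronglyMeasurable (2 * κ) (Filter.Eventually.of_forall ?_)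
  intro u
  rw [Real.norm_eq_abs]
  exact Gk_abs h0 hκ hm u.2

/-- The covariance of two updates. -/
noncomputable def gamK (κ m m' : ℝ) : ℝ := ∫ u : unitInterval, Gk κ m u * Gk κ m' u

lemma gamK_self_le {κ m : ℝ} (h0 : 0 ≤ κ) (hκ : κ ≤ 1 / 2) (hm : |m| ≤ 1) :
    gamK κ m m ≤ 4 * κ ^ 2 := by
  unfold gamK
  have hb : ∀ u : unitInterval, Gk κ m u * Gk κ m u ≤ 4 * κ ^ 2 := by
    intro u
    have := Gk_abs h0 hκ hm u.2
    have h2 := abs_mul_abs_self (Gk κ m u)
    nlinarith [abs_nonneg (Gk κ m u)]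
  have hmeas : Measurable (fun u : unitInterval => Gk κ m u) :=
    (measurable_Gk κ).comp (measurable_const.prodMk measurable_subtype_coe)
  have hint : Integrable (fun u : unitInterval => Gk κ m u * Gk κ m u) := by
    refine Integrable.of_bound (hmeas.mul hmeas).aestronglyMeasurable (4 * κ ^ 2)
      (Filter.Eventually.of_forall ?_)
    intro u
    rw [Real.norm_eq_abs, abs_of_nonneg (mul_self_nonneg _)]
    exact hb u
  calc ∫ u : unitInterval, Gk κ m u * Gk κ m u ≤ ∫ _u : unitInterval, 4 * κ ^ 2 :=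
        integral_mono hint (integrable_const _) hb
    _ = 4 * κ ^ 2 := by simp

/-- Push forward of the density under its own distribution function: the uniform law. -/
lemma integral_cdfA {a : ℝ} (ha : |a| ≤ 1 / 2) {h : ℝ → ℝ} (hh : Measurable h) {C : ℝ}
    (hC : ∀ x ∈ Icc (0 : ℝ) 1, |h x| ≤ C) :
    ∫ z in Icc (-1 : ℝ) 1, h (cdfA a z) * ((1 + a * z) / 2) = ∫ u : unitInterval, h u := by
  rw [integral_unit h, change_var ha]
  apply setIntegral_congr_fun measurableSet_Icc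
  intro z _
  simp only
  rw [mul_comm]

/-- With the innovation of mean parameter `m`, the update of parameter `m` is the likelihood term. -/
lemma Gk_cdfA {κ m z : ℝ} (h0 : 0 ≤ κ) (hκ : κ ≤ 1 / 2) (hm : |m| ≤ 1) (hz : z ∈ Icc (-1 : ℝ) 1) :
    Gk κ m (cdfA (κ * m) z) = κ * z / (1 + κ * m * z) := by
  unfold Gk
  rw [quant_cdfA (km_abs h0 hκ hm) hz]

/-- The formula for `gamK` used to identify `E[σ_o y_e]`. -/
lemma gamK_eq {κ m m' : ℝ} (h0 : 0 ≤ κ) (hκ : κ ≤ 1 / 2) (hm : |m| ≤ 1) (hm' : |m'| ≤ 1) :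
    gamK κ m m' = κ * ∫ z in Icc (-1 : ℝ) 1, (z / 2) * Gk κ m' (cdfA (κ * m) z) := by
  have ha := km_abs h0 hκ hm
  set f : ℝ → ℝ := fun z => κ * z / (1 + κ * m * z) * Gk κ m' (cdfA (κ * m) z) with hf
  have hmeas : Measurable f := by
    have h1 : Measurable (fun z : ℝ => κ * z / (1 + κ * m * z)) := by fun_prop
    have h2 : Measurable (fun z : ℝ => cdfA (κ * m) z) := by
      unfold cdfA; fun_prop
    have h3 : Measurable (fun z : ℝ => Gk κ m' (cdfA (κ * m) z)) :=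
      (measurable_Gk κ).comp (measurable_const.prodMk h2)
    exact h1.mul h3
  have hbd : ∀ x ∈ Icc (-1 : ℝ) 1, |f x| ≤ (2 * κ) * (2 * κ) := by
    intro x hx
    simp only [hf]
    rw [abs_mul]
    have h1 : |κ * x / (1 + κ * m * x)| ≤ 2 * κ := by
      rw [← Gk_cdfA h0 hκ hm hx]
      exact Gk_abs h0 hκ hm (cdfA_mem ha hx)
    have h2 : |Gk κ m' (cdfA (κ * m) x)| ≤ 2 * κ := Gk_abs h0 hκ hm' (cdfA_mem ha hx)
    exact mul_le_mul h1 h2 (abs_nonneg _) (by linarith)
  have h1 := integral_quant ha hmeas hbd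
  unfold gamK
  have h2 : ∫ u : unitInterval, Gk κ m u * Gk κ m' u = ∫ u : unitInterval, f (quant (κ * m) u) := by
    apply integral_congr_ae
    refine Filter.Eventually.of_forall ?_
    intro u
    simp only [hf]
    rw [cdfA_quant ha u.2]
    rfl
  rw [h2, h1, ← integral_const_mul]
  apply setIntegral_congr_fun measurableSet_Icc
  intro z hz
  have hd := denom_ge h0 hκ hm hz
  have hne : 1 + κ * m * z ≠ 0 := by linarith
  simp only [hf]
  generalize Gk κ m' (cdfA (κ * m) z) = g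
  generalize 1 + κ * m * z = D at hne
  field_simp

end Vale.Agent.Lib.P161B
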