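import Vale.Agent.Lib.P161B.Path

/-!
Decay of the covariance of the edge functions at the two ends of a non backtracking path: the cut at the
middle edge gives two independent functionals.
-/

namespace Vale.Agent.Lib.P161B

open MeasureTheory ProbabilityTheory Filter
open Vale.Agent.Lib.P161
open scoped Topology

variable {d : ℕ} {θ : ℝ} {μ : Measure ℝ}

lemma Cut_tanh_measurable : Measurable Real.tanh := by
  have : Real.tanh = fun x => Real.sinh x / Real.cosh x := by
    funext x; exact Real.tanh_eq_sinh_div_cosh x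
  rw [this]
  exact Real.continuous_sinh.measurable.div Real.continuous_cosh.measurable

lemma Cut_tanh_mono {a b : ℝ} (h : a ≤ b) : Real.tanh a ≤ Real.tanh b := by
  rw [Real.tanh_eq_sinh_div_cosh, Real.tanh_eq_sinh_div_cosh,
    div_le_div_iff₀ (Real.cosh_pos _) (Real.cosh_pos _)]
  have h1 : 0 ≤ Real.sinh (b - a) := Real.sinh_nonneg_iff.mpr (by linarith)
  rw [Real.sinh_sub] at h1
  linarith

lemma Cut_tanh_lip (u v : ℝ) : |Real.tanh u - Real.tanh v| ≤ |u - v| := by
  rcases le_total v u with h | h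
  · have h1 := ker_tanh_lip v (u - v) (by linarith)
    rw [add_sub_cancel] at h1
    have hm := Cut_tanh_mono h
    rw [abs_of_nonneg (by linarith), abs_of_nonneg (by linarith)]
    exact h1
  · have h1 := ker_tanh_lip u (v - u) (by linarith)
    rw [add_sub_cancel] at h1
    have hm := Cut_tanh_mono h
    rw [abs_of_nonpos (by linarith), abs_of_nonpos (by linarith)]
    linarith

lemma Cut_abs_tanh_le {u M : ℝ} (h : |u| ≤ M) : |Real.tanh u| ≤ Real.tanh M := by
  have h1 := abs_le.1 h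
  have h2 := Cut_tanh_mono h1.2
  have h3 := Cut_tanh_mono h1.1
  rw [Real.tanh_neg] at h3
  exact abs_le.2 ⟨by linarith, h2⟩

lemma Cut_sp_not (b : Bool) : sp (!b) = - sp b := by
  cases b <;> simp [sp]

lemma Cut_sp_abs (b : Bool) : |sp b| = 1 := by
  cases b <;> simp [sp]

section Flip

variable [Corr θ]

lemma Cut_zb_neg (D : Finset (Word d)) (y : Word d → ℝ) (v : Word d) (b : Bool) :
    zb θ D (fun x => - y x) v b = zb θ D y v (!b) := by
  unfold zb
  conv_lhs => rw [← isingLaw_map_negS θ]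
  rw [integral_map measurable_negS.aemeasurable (slf_meas_ite _ _ _ _).aestronglyMeasurable]
  refine integral_congr_ae (ae_of_all _ fun σ => ?_)
  have h1 : tiltE D (fun x => - y x) (negS σ) = tiltE D y σ := by
    unfold tiltE
    congr 1
    refine Finset.sum_congr rfl fun x _ => ?_
    simp only [negS, Cut_sp_not]
    ring
  have h2 : (negS σ v = b) ↔ (σ v = !b) := by
    simp only [negS]
    cases σ v <;> cases b <;> simp
  simp only [h1, h2]

lemma Cut_hf_neg (D : Finset (Word d)) (y : Word d → ℝ) (v : Word d) :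
    hf θ D (fun x => - y x) v = - hf θ D y v := by
  unfold hf
  rw [Cut_zb_neg, Cut_zb_neg]
  simp only [Bool.not_false, Bool.not_true]
  rw [← inv_div (zb θ D y v false), Real.log_inv]
  ring

end Flip

/-- The edge functional of a finite volume. -/
noncomputable def Cut_Fc (θ : ℝ) (D : Finset (Word d)) (a b : Word d) (y : Word d → ℝ) : ℝ :=
  PsiE θ (mD θ D y a) (mD θ D y b)

lemma Cut_Fc_congr (D : Finset (Word d)) (a b : Word d) {y y' : Word d → ℝ} (h : ∀ x ∈ D, y x = y' x) :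
    Cut_Fc θ D a b y = Cut_Fc θ D a b y' := by
  unfold Cut_Fc mD
  rw [hf_congr θ D h a, hf_congr θ D h b]

lemma Cut_Fc_neg [Corr θ] (D : Finset (Word d)) (a b : Word d) (y : Word d → ℝ) :
    Cut_Fc θ D a b (fun x => - y x) = Cut_Fc θ D a b y := by
  unfold Cut_Fc mD PsiE
  rw [Cut_hf_neg, Cut_hf_neg, Real.tanh_neg, Real.tanh_neg, Rho_neg]

lemma Cut_measurable_Fc [Corr θ] (D : Finset (Word d)) (a b : Word d) : Measurable (Cut_Fc θ D a b) := by
  have h1 : ∀ x : Word d, Measurable (fun y : Word d → ℝ => mD θ D y x) := fun x => by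
    unfold mD
    exact Cut_tanh_measurable.comp (measurable_hf θ D x)
  exact (measurable_PsiE (θ := θ)).comp ((h1 a).prodMk (h1 b))

lemma Cut_measurable_sgC (x : Word d) : Measurable (fun ω : Cn d => sgC ω x) := by
  unfold sgC
  have : Measurable (fun ω : Cn d => fun v => (ω v).1) :=
    measurable_pi_iff.mpr fun v => measurable_fst.comp (measurable_pi_apply v)
  exact (measurable_tau_coord x).comp this

lemma Cut_measurable_yC : Measurable (yC : Cn d → Word d → ℝ) := by
  refine measurable_pi_iff.mpr fun x => ?_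
  unfold yC
  exact ((cn_measurable_sp.comp (Cut_measurable_sgC x))).mul
    (measurable_snd.comp (measurable_pi_apply x))

lemma Cut_sgC_step (ω : Cn d) {v : Word d} (h : v ≠ root) :
    sgC ω v = xor (sgC ω (parent v)) (ω v).1 := by
  unfold sgC
  exact tau_step _ h

lemma Cut_parent_not_mem {w x : Word d} (hx : x ∉ Sub w) : parent x ∉ Sub w := by
  intro h
  exact hx (List.IsSuffix.trans h (List.tail_suffix x.1))

lemma Cut_sgC_S {w : Word d} {ω ω' : Cn d} (h : ∀ v, v ∉ Sub w → ω v = ω' v) :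
    ∀ n (x : Word d), len x = n → x ∉ Sub w → sgC ω x = sgC ω' x := by
  intro n
  induction n with
  | zero =>
    intro x hl hx
    have hr := len_eq_zero hl
    subst hr
    show (ω root).1 = (ω' root).1
    rw [h _ hx]
  | succ n ih =>
    intro x hl hx
    have hr : x ≠ root := by
      rintro rfl
      simp at hl
    rw [Cut_sgC_step ω hr, Cut_sgC_step ω' hr, h _ hx, ih _ (by have := len_parent hr; omega)
      (Cut_parent_not_mem hx)]

lemma Cut_yC_S {w : Word d} {ω ω' : Cn d} (h : ∀ v, v ∉ Sub w → ω v = ω' v) {x : Word d}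
    (hx : x ∉ Sub w) : yC ω x = yC ω' x := by
  unfold yC
  rw [Cut_sgC_S h _ x rfl hx, h _ hx]

lemma Cut_sgC_T {w : Word d} (hw : w ≠ root) {ω ω' : Cn d} (h : ∀ v, v ∈ Sub w → ω v = ω' v) :
    ∀ n (x : Word d), len x = n → x ∈ Sub w →
      sgC ω x = xor (xor (sgC ω (parent w)) (sgC ω' (parent w))) (sgC ω' x) := by
  intro n
  induction n with
  | zero =>
    intro x hl hx
    have hr := len_eq_zero hl
    subst hr
    exfalso
    apply hw
    apply Subtype.ext
    exact List.eq_nil_of_suffix_nil hx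
  | succ n ih =>
    intro x hl hx
    have hr : x ≠ root := by
      rintro rfl
      simp at hl
    have hcase : x = w ∨ parent x ∈ Sub w := by
      obtain ⟨l, hl'⟩ := x
      cases l with
      | nil => exact absurd rfl hr
      | cons a l =>
        have hx' : w.1 <:+ a :: l := hx
        rcases List.suffix_cons_iff.1 hx' with h1 | h1
        · left
          exact Subtype.ext h1.symm
        · right
          exact h1
    rcases hcase with rfl | hp
    · rw [Cut_sgC_step ω hr, Cut_sgC_step ω' hr, h _ (cnSub_self _)]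
      cases sgC ω (parent x) <;> cases sgC ω' (parent x) <;> cases (ω' x).1 <;> rfl
    · rw [Cut_sgC_step ω hr, Cut_sgC_step ω' hr, h _ hx, ih _ (by have := len_parent hr; omega) hp]
      cases sgC ω (parent w) <;> cases sgC ω' (parent w) <;> cases sgC ω' (parent x) <;>
        cases (ω' x).1 <;> rfl

/-- Functions of the field on a set away from the subtree depend on the coordinates away from the subtree. -/
lemma Cut_dep_S {w : Word d} {D : Finset (Word d)} (hD : ∀ x ∈ D, x ∉ Sub w) (a b : Word d) :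
    DependsOn (fun ω : Cn d => Cut_Fc θ D a b (yC ω)) (Sub w)ᶜ := by
  intro ω ω' h
  apply Cut_Fc_congr
  intro x hx
  exact Cut_yC_S (fun v hv => h v hv) (hD x hx)

/-- An even function of the field inside a subtree depends on the coordinates inside the subtree. -/
lemma Cut_dep_T [Corr θ] {w : Word d} (hw : w ≠ root) {D : Finset (Word d)} (hD : ∀ x ∈ D, x ∈ Sub w)
    (a b : Word d) : DependsOn (fun ω : Cn d => Cut_Fc θ D a b (yC ω)) (Sub w) := by
  intro ω ω' h
  have hT := Cut_sgC_T hw (ω := ω) (ω' := ω') (fun v hv => h v hv)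
  show Cut_Fc θ D a b (yC ω) = Cut_Fc θ D a b (yC ω')
  cases hs : xor (sgC ω (parent w)) (sgC ω' (parent w)) with
  | false =>
    apply Cut_Fc_congr
    intro x hx
    have h1 := hT _ x rfl (hD x hx)
    rw [hs] at h1
    simp only [Bool.false_bne] at h1
    unfold yC
    rw [h1, h x (hD x hx)]
  | true =>
    rw [← Cut_Fc_neg D a b (yC ω')]
    apply Cut_Fc_congr
    intro x hx
    have h1 := hT _ x rfl (hD x hx)
    rw [hs] at h1
    simp only [Bool.true_bne] at h1
    unfold yC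
    rw [h1, h x (hD x hx), Cut_sp_not]
    ring

/-- The field is bounded almost surely, at all vertices. -/
lemma Cut_ae_bound [Corr θ] [IsProbabilityMeasure μ] {M : ℝ} (hM : ∀ᵐ h ∂μ, |h| ≤ M) :
    ∀ᵐ ω ∂(cnP d θ μ), ∀ x, |yC ω x| ≤ M := by
  rw [ae_all_iff]
  intro x
  have h1 : (cnP d θ μ).map (fun ω : Cn d => ω x) = (mrg θ x).prod μ := by
    unfold cnP
    exact (measurePreserving_eval_infinitePi (fun x : Word d => (mrg θ x).prod μ) x).map_eq
  have h2 : ∀ᵐ p ∂((mrg θ x).prod μ), |p.2| ≤ M := by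
    have h3 : ((mrg θ x).prod μ).map Prod.snd = μ := by
      rw [Measure.map_snd_prod, measure_univ, one_smul]
    have h4 : ∀ᵐ h ∂(((mrg θ x).prod μ).map Prod.snd), |h| ≤ M := by rw [h3]; exact hM
    exact ae_of_ae_map measurable_snd.aemeasurable h4
  rw [← h1] at h2
  have h5 := ae_of_ae_map (measurable_pi_apply x).aemeasurable h2
  filter_upwards [h5] with ω hω
  unfold yC
  rw [abs_mul, Cut_sp_abs, one_mul]
  exact hω

/-- The abstract limit. -/
lemma Cut_abs {Ω : Type*} [MeasurableSpace Ω] {P : Measure Ω} [IsProbabilityMeasure P]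
    {A B : Ω → ℝ} {An Bn Ac Bc : ℕ → Ω → ℝ} {C δ : ℝ} (hC : 0 ≤ C) (hδ : 0 ≤ δ)
    (hAn : ∀ n, Measurable (An n)) (hBn : ∀ n, Measurable (Bn n))
    (hAc : ∀ n, Measurable (Ac n)) (hBc : ∀ n, Measurable (Bc n))
    (hAnb : ∀ n, ∀ᵐ ω ∂P, |An n ω| ≤ C) (hBnb : ∀ n, ∀ᵐ ω ∂P, |Bn n ω| ≤ C)
    (hAcb : ∀ n, ∀ᵐ ω ∂P, |Ac n ω| ≤ C) (hBcb : ∀ n, ∀ᵐ ω ∂P, |Bc n ω| ≤ C)
    (hA : ∀ᵐ ω ∂P, Tendsto (fun n => An n ω) atTop (𝓝 (A ω)))
    (hB : ∀ᵐ ω ∂P, Tendsto (fun n => Bn n ω) atTop (𝓝 (B ω)))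
    (hAd : ∀ n, ∀ᵐ ω ∂P, |An n ω - Ac n ω| ≤ δ) (hBd : ∀ n, ∀ᵐ ω ∂P, |Bn n ω - Bc n ω| ≤ δ)
    (hI : ∀ n, IndepFun (Ac n) (Bc n) P) :
    |∫ ω, A ω * B ω ∂P - (∫ ω, A ω ∂P) * ∫ ω, B ω ∂P| ≤ 4 * C * δ := by
  have hbd : ∀ {f : Ω → ℝ} {c : ℝ}, (∀ᵐ ω ∂P, |f ω| ≤ c) → |∫ ω, f ω ∂P| ≤ c := by
    intro f c h
    have := norm_integral_le_of_norm_le_const (μ := P) (f := f) (C := c) (by simpa using h)
    simpa using this
  have hint : ∀ {f : Ω → ℝ}, Measurable f → (∀ᵐ ω ∂P, |f ω| ≤ C) → Integrable f P := by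
    intro f hf h
    exact Integrable.of_bound hf.aestronglyMeasurable C (by simpa using h)
  have h1 : Tendsto (fun n => ∫ ω, An n ω ∂P) atTop (𝓝 (∫ ω, A ω ∂P)) :=
    tendsto_integral_of_dominated_convergence (fun _ => C) (fun n => (hAn n).aestronglyMeasurable)
      (integrable_const _) (fun n => by simpa using hAnb n) hA
  have h2 : Tendsto (fun n => ∫ ω, Bn n ω ∂P) atTop (𝓝 (∫ ω, B ω ∂P)) :=
    tendsto_integral_of_dominated_convergence (fun _ => C) (fun n => (hBn n).aestronglyMeasurable)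
      (integrable_const _) (fun n => by simpa using hBnb n) hB
  have h3 : Tendsto (fun n => ∫ ω, An n ω * Bn n ω ∂P) atTop (𝓝 (∫ ω, A ω * B ω ∂P)) := by
    refine tendsto_integral_of_dominated_convergence (fun _ => C * C)
      (fun n => ((hAn n).mul (hBn n)).aestronglyMeasurable) (integrable_const _) (fun n => ?_) ?_
    · filter_upwards [hAnb n, hBnb n] with ω h1 h2
      rw [Real.norm_eq_abs, abs_mul]
      exact mul_le_mul h1 h2 (abs_nonneg _) hC
    · filter_upwards [hA, hB] with ω h1 h2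
      exact h1.mul h2
  have hcov : ∀ n, |∫ ω, An n ω * Bn n ω ∂P - (∫ ω, An n ω ∂P) * ∫ ω, Bn n ω ∂P| ≤ 4 * C * δ := by
    intro n
    have e1 : ∫ ω, Ac n ω * Bc n ω ∂P = (∫ ω, Ac n ω ∂P) * ∫ ω, Bc n ω ∂P :=
      (hI n).integral_fun_mul_eq_mul_integral (hAc n).aestronglyMeasurable (hBc n).aestronglyMeasurable
    have iA := hint (hAn n) (hAnb n)
    have iB := hint (hBn n) (hBnb n)
    have iAc := hint (hAc n) (hAcb n)
    have iBc := hint (hBc n) (hBcb n)
    have iAB : Integrable (fun ω => An n ω * Bn n ω) P :=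
      Integrable.of_bound ((hAn n).mul (hBn n)).aestronglyMeasurable (C * C) (by
        filter_upwards [hAnb n, hBnb n] with ω h1 h2
        rw [Real.norm_eq_abs, abs_mul]
        exact mul_le_mul h1 h2 (abs_nonneg _) hC)
    have iABc : Integrable (fun ω => Ac n ω * Bc n ω) P :=
      Integrable.of_bound ((hAc n).mul (hBc n)).aestronglyMeasurable (C * C) (by
        filter_upwards [hAcb n, hBcb n] with ω h1 h2
        rw [Real.norm_eq_abs, abs_mul]
        exact mul_le_mul h1 h2 (abs_nonneg _) hC)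
    have e2 : |∫ ω, An n ω * Bn n ω ∂P - ∫ ω, Ac n ω * Bc n ω ∂P| ≤ 2 * C * δ := by
      rw [← integral_sub iAB iABc]
      apply hbd
      filter_upwards [hBnb n, hAcb n, hAd n, hBd n] with ω h1 h2 h3 h4
      have : An n ω * Bn n ω - Ac n ω * Bc n ω =
          (An n ω - Ac n ω) * Bn n ω + Ac n ω * (Bn n ω - Bc n ω) := by ring
      rw [this]
      calc _ ≤ |(An n ω - Ac n ω) * Bn n ω| + |Ac n ω * (Bn n ω - Bc n ω)| := abs_add_le _ _
        _ = |An n ω - Ac n ω| * |Bn n ω| + |Ac n ω| * |Bn n ω - Bc n ω| := by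
            rw [abs_mul, abs_mul]
        _ ≤ δ * C + C * δ := add_le_add (mul_le_mul h3 h1 (abs_nonneg _) hδ)
            (mul_le_mul h2 h4 (abs_nonneg _) hC)
        _ = 2 * C * δ := by ring
    have e3 : |∫ ω, An n ω ∂P - ∫ ω, Ac n ω ∂P| ≤ δ := by
      rw [← integral_sub iA iAc]
      exact hbd (hAd n)
    have e4 : |∫ ω, Bn n ω ∂P - ∫ ω, Bc n ω ∂P| ≤ δ := by
      rw [← integral_sub iB iBc]
      exact hbd (hBd n)
    have e5 := hbd (hBnb n)
    have e6 := hbd (hAcb n)
    rw [e1] at e2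
    set a := ∫ ω, An n ω ∂P
    set b := ∫ ω, Bn n ω ∂P
    set a' := ∫ ω, Ac n ω ∂P
    set b' := ∫ ω, Bc n ω ∂P
    set x := ∫ ω, An n ω * Bn n ω ∂P
    have e7 : a' * b' - a * b = - ((a - a') * b + a' * (b - b')) := by ring
    have e8 : |a' * b' - a * b| ≤ 2 * C * δ := by
      rw [e7, abs_neg]
      calc _ ≤ |(a - a') * b| + |a' * (b - b')| := abs_add_le _ _
        _ = |a - a'| * |b| + |a'| * |b - b'| := by rw [abs_mul, abs_mul]
        _ ≤ δ * C + C * δ := add_le_add (mul_le_mul e3 e5 (abs_nonneg _) hδ)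
            (mul_le_mul e6 e4 (abs_nonneg _) hC)
        _ = 2 * C * δ := by ring
    have e9 : x - a * b = (x - a' * b') + (a' * b' - a * b) := by ring
    rw [e9]
    calc _ ≤ |x - a' * b'| + |a' * b' - a * b| := abs_add_le _ _
      _ ≤ 2 * C * δ + 2 * C * δ := add_le_add e2 e8
      _ = 4 * C * δ := by ring
  exact le_of_tendsto ((h3.sub (h1.mul h2)).abs) (Eventually.of_forall hcov)

lemma Cut_artanh_nonneg (h0 : 0 ≤ θ) (h1 : θ < 1) : 0 ≤ Real.artanh θ := by
  rw [Real.artanh]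
  have h2 : 1 ≤ (1 + θ) / (1 - θ) := by
    rw [le_div_iff₀ (by linarith)]
    linarith
  exact Real.log_nonneg (Real.one_le_sqrt.2 h2)

open Classical in
/-- The cut at a root edge: the covariance of edge functions on different sides of the edge. -/
theorem Cut_core [Corr θ] (h0 : 0 < θ) (h1 : θ < 1) (M : ℝ) :
    ∃ K : ℝ, 0 ≤ K ∧ ∀ μ : Measure ℝ, Nish μ → (∀ᵐ h ∂μ, |h| ≤ M) →
      ∀ (i : Fin d) (a b a' b' : Word d) (η : ℝ),
        a ∉ Sub (letter i) → b ∉ Sub (letter i) → a' ∈ Sub (letter i) → b' ∈ Sub (letter i) →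
        θ ^ len a ≤ η → θ ^ len b ≤ η → θ ^ (len a' - 1) ≤ η → θ ^ (len b' - 1) ≤ η →
        |∫ y, PsiE θ (mm θ a y) (mm θ b y) * PsiE θ (mm θ a' y) (mm θ b' y) ∂(LawY d θ μ) -
          (∫ y, PsiE θ (mm θ a y) (mm θ b y) ∂(LawY d θ μ)) *
            ∫ y, PsiE θ (mm θ a' y) (mm θ b' y) ∂(LawY d θ μ)| ≤ K * η := by
  have hAt := Cut_artanh_nonneg h0.le h1
  set M2 : ℝ := |M| + (d + 1) * Real.artanh θ with hM2
  set a0 : ℝ := Real.tanh M2 with ha0
  have ha01 : a0 < 1 := Real.tanh_lt_one _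
  have hM20 : 0 ≤ M2 := by positivity
  have ha00 : 0 ≤ a0 := by
    have := Cut_tanh_mono hM20
    simpa [Real.tanh_zero] using this
  obtain ⟨CL, hCL, hlip⟩ := PsiE_lip h0 h1 ha01
  obtain ⟨CB, hCB, hbdd⟩ := PsiE_bdd h0 h1 ha01
  have hlip' : ∀ m₁ m₂ m₁' m₂' : ℝ, |m₁| ≤ a0 → |m₂| ≤ a0 → |m₁'| ≤ a0 → |m₂'| ≤ a0 →
      |PsiE θ m₁ m₂ - PsiE θ m₁' m₂'| ≤ 4 * CL * (|m₁ - m₁'| + |m₂ - m₂'|) := by
    intro m₁ m₂ m₁' m₂' h₁ h₂ h₃ h₄
    refine (hlip _ _ _ _ h₁ h₂ h₃ h₄).trans ?_
    refine mul_le_mul_of_nonneg_right ?_ (by positivity)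
    have : |m₁| + |m₂| + |m₁'| + |m₂'| ≤ 4 := by linarith
    nlinarith
  refine ⟨4 * CB * (8 * CL * Real.artanh θ), by positivity, ?_⟩
  intro μ hμ hM i a b a' b' η ha hb ha' hb' h1a h1b h1a' h1b'
  have := hμ.prob
  have hθn : ∀ n : ℕ, θ ^ n ≤ 1 := fun n => pow_le_one₀ h0.le h1.le
  have hη : 0 ≤ η := (pow_nonneg h0.le _).trans h1a
  set w : Word d := letter i with hw
  have hwr : w ≠ root := by
    intro h
    have := congrArg len h
    simp [hw] at this
  let D1 : ℕ → Finset (Word d) := fun R => (ball R).filter (fun v => v ∉ Sub (letter i))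
  let D2 : ℕ → Finset (Word d) := fun R => (ball R).filter (fun v => v ∈ Sub (letter i))
  set R0 : ℕ := len a + len b + len a' + len b' with hR0
  have hmem : ∀ x : Word d, len x ≤ R0 → ∀ R : ℕ, x ∈ ball (R + R0) := by
    intro x hx R
    rw [mem_ball]
    omega
  have hfac : ∀ y : Word d → ℝ, (∀ v, |y v| ≤ M) → ∀ (R : ℕ) (x : Word d), x ∈ ball R →
      |mD θ (ball R) y x| ≤ a0 := by
    intro y hy R x hx
    have h2 := hf_bound (d := d) (θ := θ) h1 (ball_connClosed R) hx (y := y) (M := M) (fun v _ => hy v)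
    refine Cut_abs_tanh_le (h2.trans ?_)
    have := le_abs_self M
    have h3 : 0 ≤ Real.artanh θ := hAt
    rw [hM2]
    nlinarith
  have hcut1 : ∀ y : Word d → ℝ, (∀ v, |y v| ≤ M) → ∀ (R : ℕ) (x : Word d), x ∈ ball R →
      x ∉ Sub (letter i) → |mD θ (D1 R) y x| ≤ a0 ∧
        |mD θ (ball R) y x - mD θ (D1 R) y x| ≤ θ ^ len x * Real.artanh θ := by
    intro y hy R x hx hxS
    have h2 := hf_bound (d := d) (θ := θ) h1 (ball_connClosed R) hx (y := y) (M := M) (fun v _ => hy v)
    have h3 := (hf_cut (d := d) h0.le h1 R i y).1 x hx hxS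
    constructor
    · refine Cut_abs_tanh_le ?_
      have h4 : θ ^ len x * Real.artanh θ ≤ Real.artanh θ := by
        have := hθn (len x)
        nlinarith
      have h5 := abs_sub_abs_le_abs_sub (hf θ (D1 R) y x) (hf θ (ball R) y x)
      rw [abs_sub_comm] at h5
      have := le_abs_self M
      rw [hM2]
      have h6 : |hf θ (D1 R) y x| ≤ |hf θ (ball R) y x| + θ ^ len x * Real.artanh θ := by
        have := h3
        linarith
      nlinarith
    · exact (Cut_tanh_lip _ _).trans h3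
  have hcut2 : ∀ y : Word d → ℝ, (∀ v, |y v| ≤ M) → ∀ (R : ℕ) (x : Word d), x ∈ ball R →
      x ∈ Sub (letter i) → |mD θ (D2 R) y x| ≤ a0 ∧
        |mD θ (ball R) y x - mD θ (D2 R) y x| ≤ θ ^ (len x - 1) * Real.artanh θ := by
    intro y hy R x hx hxS
    have h2 := hf_bound (d := d) (θ := θ) h1 (ball_connClosed R) hx (y := y) (M := M) (fun v _ => hy v)
    have h3 := (hf_cut (d := d) h0.le h1 R i y).2 x hx hxS
    constructor
    · refine Cut_abs_tanh_le ?_
      have h4 : θ ^ (len x - 1) * Real.artanh θ ≤ Real.artanh θ := by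
        have := hθn (len x - 1)
        nlinarith
      have h5 := abs_sub_abs_le_abs_sub (hf θ (D2 R) y x) (hf θ (ball R) y x)
      rw [abs_sub_comm] at h5
      have := le_abs_self M
      rw [hM2]
      have h6 : |hf θ (D2 R) y x| ≤ |hf θ (ball R) y x| + θ ^ (len x - 1) * Real.artanh θ := by
        have := h3
        linarith
      nlinarith
    · exact (Cut_tanh_lip _ _).trans h3
  have hae1 : ∀ᵐ ω ∂(cnP d θ μ), ∀ x, |yC ω x| ≤ M := Cut_ae_bound hM
  have hae2 : ∀ᵐ ω ∂(cnP d θ μ), ∀ x : Word d,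
      Tendsto (fun R => mD θ (ball R) (yC ω) x) atTop (𝓝 (mm θ x (yC ω))) := by
    have h3 := ae_of_ae_map Cut_measurable_yC.aemeasurable
      (ae_tendsto_mD (d := d) (θ := θ) (μ := μ) h1 hμ)
    filter_upwards [h3] with ω hω x
    exact (hω x).1
  have hlimb : ∀ᵐ ω ∂(cnP d θ μ), ∀ x : Word d, |mm θ x (yC ω)| ≤ a0 := by
    filter_upwards [hae1, hae2] with ω h1' h2' x
    have h3 : Tendsto (fun R => |mD θ (ball (R + len x)) (yC ω) x|) atTop (𝓝 |mm θ x (yC ω)|) :=
      ((tendsto_add_atTop_iff_nat (len x)).2 (h2' x)).abs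
    refine le_of_tendsto h3 (Eventually.of_forall fun R => ?_)
    exact hfac _ h1' _ x (by rw [mem_ball]; omega)
  have hmeasP : ∀ x x' : Word d, Measurable (fun y : Word d → ℝ => PsiE θ (mm θ x y) (mm θ x' y)) :=
    fun x x' => (measurable_PsiE (θ := θ)).comp ((measurable_mm θ x).prodMk (measurable_mm θ x'))
  have hint : ∀ F : (Word d → ℝ) → ℝ, Measurable F →
      ∫ y, F y ∂(LawY d θ μ) = ∫ ω, F (yC ω) ∂(cnP d θ μ) := fun F hF => by
    unfold LawY
    rw [integral_map Cut_measurable_yC.aemeasurable hF.aestronglyMeasurable]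
  rw [hint (fun y => PsiE θ (mm θ a y) (mm θ b y) * PsiE θ (mm θ a' y) (mm θ b' y))
    ((hmeasP a b).mul (hmeasP a' b')), hint _ (hmeasP a b), hint _ (hmeasP a' b')]
  have hbound := Cut_abs (P := cnP d θ μ)
    (A := fun ω => PsiE θ (mm θ a (yC ω)) (mm θ b (yC ω)))
    (B := fun ω => PsiE θ (mm θ a' (yC ω)) (mm θ b' (yC ω)))
    (An := fun R ω => Cut_Fc θ (ball (R + R0)) a b (yC ω))
    (Bn := fun R ω => Cut_Fc θ (ball (R + R0)) a' b' (yC ω))
    (Ac := fun R ω => Cut_Fc θ (D1 (R + R0)) a b (yC ω))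
    (Bc := fun R ω => Cut_Fc θ (D2 (R + R0)) a' b' (yC ω))
    (C := CB) (δ := 8 * CL * Real.artanh θ * η) hCB (by positivity)
    (fun R => (Cut_measurable_Fc _ _ _).comp Cut_measurable_yC)
    (fun R => (Cut_measurable_Fc _ _ _).comp Cut_measurable_yC)
    (fun R => (Cut_measurable_Fc _ _ _).comp Cut_measurable_yC)
    (fun R => (Cut_measurable_Fc _ _ _).comp Cut_measurable_yC)
    ?_ ?_ ?_ ?_ ?_ ?_ ?_ ?_ ?_
  · calc _ ≤ 4 * CB * (8 * CL * Real.artanh θ * η) := hbound
      _ = 4 * CB * (8 * CL * Real.artanh θ) * η := by ring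
  · intro R
    filter_upwards [hae1] with ω hω
    exact hbdd _ _ (hfac _ hω _ a (hmem a (by omega) R)) (hfac _ hω _ b (hmem b (by omega) R))
  · intro R
    filter_upwards [hae1] with ω hω
    exact hbdd _ _ (hfac _ hω _ a' (hmem a' (by omega) R)) (hfac _ hω _ b' (hmem b' (by omega) R))
  · intro R
    filter_upwards [hae1] with ω hω
    exact hbdd _ _ (hcut1 _ hω _ a (hmem a (by omega) R) ha).1 (hcut1 _ hω _ b (hmem b (by omega) R) hb).1
  · intro R
    filter_upwards [hae1] with ω hω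
    exact hbdd _ _ (hcut2 _ hω _ a' (hmem a' (by omega) R) ha').1 (hcut2 _ hω _ b' (hmem b' (by omega) R) hb').1
  · filter_upwards [hae1, hae2, hlimb] with ω h1' h2' h3'
    have t1 := (tendsto_add_atTop_iff_nat R0).2 (h2' a)
    have t2 := (tendsto_add_atTop_iff_nat R0).2 (h2' b)
    have t3 : Tendsto (fun R => 4 * CL * (|mD θ (ball (R + R0)) (yC ω) a - mm θ a (yC ω)| +
        |mD θ (ball (R + R0)) (yC ω) b - mm θ b (yC ω)|)) atTop (𝓝 (4 * CL * (|0| + |0|))) := by
      refine Tendsto.const_mul _ (Tendsto.add ?_ ?_)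
      · exact (by simpa using t1.sub_const (mm θ a (yC ω)) :
          Tendsto (fun R => mD θ (ball (R + R0)) (yC ω) a - mm θ a (yC ω)) atTop (𝓝 0)).abs
      · exact (by simpa using t2.sub_const (mm θ b (yC ω)) :
          Tendsto (fun R => mD θ (ball (R + R0)) (yC ω) b - mm θ b (yC ω)) atTop (𝓝 0)).abs
    simp only [abs_zero, add_zero, mul_zero] at t3
    rw [tendsto_iff_norm_sub_tendsto_zero]
    refine squeeze_zero (fun _ => norm_nonneg _) (fun R => ?_) t3
    rw [Real.norm_eq_abs]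
    exact hlip' _ _ _ _ (hfac _ h1' _ a (hmem a (by omega) R)) (hfac _ h1' _ b (hmem b (by omega) R))
      (h3' a) (h3' b)
  · filter_upwards [hae1, hae2, hlimb] with ω h1' h2' h3'
    have t1 := (tendsto_add_atTop_iff_nat R0).2 (h2' a')
    have t2 := (tendsto_add_atTop_iff_nat R0).2 (h2' b')
    have t3 : Tendsto (fun R => 4 * CL * (|mD θ (ball (R + R0)) (yC ω) a' - mm θ a' (yC ω)| +
        |mD θ (ball (R + R0)) (yC ω) b' - mm θ b' (yC ω)|)) atTop (𝓝 (4 * CL * (|0| + |0|))) := by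
      refine Tendsto.const_mul _ (Tendsto.add ?_ ?_)
      · exact (by simpa using t1.sub_const (mm θ a' (yC ω)) :
          Tendsto (fun R => mD θ (ball (R + R0)) (yC ω) a' - mm θ a' (yC ω)) atTop (𝓝 0)).abs
      · exact (by simpa using t2.sub_const (mm θ b' (yC ω)) :
          Tendsto (fun R => mD θ (ball (R + R0)) (yC ω) b' - mm θ b' (yC ω)) atTop (𝓝 0)).abs
    simp only [abs_zero, add_zero, mul_zero] at t3
    rw [tendsto_iff_norm_sub_tendsto_zero]
    refine squeeze_zero (fun _ => norm_nonneg _) (fun R => ?_) t3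
    rw [Real.norm_eq_abs]
    exact hlip' _ _ _ _ (hfac _ h1' _ a' (hmem a' (by omega) R)) (hfac _ h1' _ b' (hmem b' (by omega) R))
      (h3' a') (h3' b')
  · intro R
    filter_upwards [hae1] with ω hω
    have e1 := hcut1 _ hω _ a (hmem a (by omega) R) ha
    have e2 := hcut1 _ hω _ b (hmem b (by omega) R) hb
    refine (hlip' _ _ _ _ (hfac _ hω _ a (hmem a (by omega) R)) (hfac _ hω _ b (hmem b (by omega) R))
      e1.1 e2.1).trans ?_
    have e3 : |mD θ (ball (R + R0)) (yC ω) a - mD θ (D1 (R + R0)) (yC ω) a| ≤ η * Real.artanh θ :=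
      e1.2.trans (mul_le_mul_of_nonneg_right h1a hAt)
    have e4 : |mD θ (ball (R + R0)) (yC ω) b - mD θ (D1 (R + R0)) (yC ω) b| ≤ η * Real.artanh θ :=
      e2.2.trans (mul_le_mul_of_nonneg_right h1b hAt)
    calc _ ≤ 4 * CL * (η * Real.artanh θ + η * Real.artanh θ) :=
          mul_le_mul_of_nonneg_left (add_le_add e3 e4) (by positivity)
      _ = 8 * CL * Real.artanh θ * η := by ring
  · intro R
    filter_upwards [hae1] with ω hω
    have e1 := hcut2 _ hω _ a' (hmem a' (by omega) R) ha'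
    have e2 := hcut2 _ hω _ b' (hmem b' (by omega) R) hb'
    refine (hlip' _ _ _ _ (hfac _ hω _ a' (hmem a' (by omega) R)) (hfac _ hω _ b' (hmem b' (by omega) R))
      e1.1 e2.1).trans ?_
    have e3 : |mD θ (ball (R + R0)) (yC ω) a' - mD θ (D2 (R + R0)) (yC ω) a'| ≤ η * Real.artanh θ :=
      e1.2.trans (mul_le_mul_of_nonneg_right h1a' hAt)
    have e4 : |mD θ (ball (R + R0)) (yC ω) b' - mD θ (D2 (R + R0)) (yC ω) b'| ≤ η * Real.artanh θ :=
      e2.2.trans (mul_le_mul_of_nonneg_right h1b' hAt)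
    calc _ ≤ 4 * CL * (η * Real.artanh θ + η * Real.artanh θ) :=
          mul_le_mul_of_nonneg_left (add_le_add e3 e4) (by positivity)
      _ = 8 * CL * Real.artanh θ * η := by ring
  · intro R
    refine cn_indepFun (θ := θ) (μ := μ) (S := (Sub (letter i))ᶜ) (T := Sub (letter i))
      disjoint_compl_left ((Cut_measurable_Fc _ _ _).comp Cut_measurable_yC)
      ((Cut_measurable_Fc _ _ _).comp Cut_measurable_yC) ?_ ?_
    · exact Cut_dep_S (fun x hx => (Finset.mem_filter.1 hx).2) a b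
    · exact Cut_dep_T hwr (fun x hx => (Finset.mem_filter.1 hx).2) a' b'

/-- A non backtracking path that starts by moving away from the root keeps moving away. -/
lemma Cut_away {r : ℕ → Word d} {n : ℕ} (hr : NB r n) (hp : parent (r 1) = r 0) (hne : r 1 ≠ root) :
    ∀ j, j + 1 ≤ n → r (j + 1) ≠ root ∧ parent (r (j + 1)) = r j := by
  intro j
  induction j with
  | zero => exact fun _ => ⟨hne, hp⟩
  | succ j ih =>
    intro hj
    obtain ⟨h1, h2⟩ := ih (by omega)
    have hadj := hr.adj (j + 1) (by omega)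
    have hnb := hr.nb j (by omega)
    rcases adj_len hadj with ⟨_, h4⟩ | ⟨h3, h4⟩
    · exact absurd (by rw [h4, h2]) hnb
    · refine ⟨?_, h4.symm⟩
      intro h
      rw [h] at h3
      simp at h3

lemma Cut_away_len {r : ℕ → Word d} {n : ℕ} (hr : NB r n) (hp : parent (r 1) = r 0) (hne : r 1 ≠ root) :
    ∀ j, j ≤ n → len (r j) = len (r 0) + j := by
  intro j
  induction j with
  | zero => simp
  | succ j ih =>
    intro hj
    obtain ⟨h1, h2⟩ := Cut_away hr hp hne j hj
    have h3 := len_parent h1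
    rw [h2] at h3
    have := ih (by omega)
    omega

lemma Cut_away_sub {r : ℕ → Word d} {n : ℕ} (hr : NB r n) (hp : parent (r 1) = r 0) (hne : r 1 ≠ root) :
    ∀ j, j + 1 ≤ n → r (j + 1) ∈ Sub (r 1) := by
  intro j
  induction j with
  | zero => exact fun _ => cnSub_self _
  | succ j ih =>
    intro hj
    obtain ⟨h1, h2⟩ := Cut_away hr hp hne (j + 1) hj
    refine List.IsSuffix.trans (ih (by omega)) ?_
    show (r (j + 1)).1 <:+ (r (j + 1 + 1)).1
    rw [← h2]
    exact List.tail_suffix _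

lemma Cut_sub_disjoint {a b : Fin d} (hab : a ≠ b) {x : Word d} (h1 : x ∈ Sub (letter a)) :
    x ∉ Sub (letter b) := by
  intro h2
  have h3 : [a] <:+ x.1 := h1
  have h4 : [b] <:+ x.1 := h2
  apply hab
  rcases List.suffix_or_suffix_of_suffix h3 h4 with h | h
  · simpa using h.eq_of_length (by simp)
  · have := h.eq_of_length (by simp)
    simpa using this.symm

lemma Cut_root_not_mem (i : Fin d) : (root : Word d) ∉ Sub (letter i) := by
  intro h
  have h3 : [i] <:+ ([] : List (Fin d)) := h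
  simpa using List.eq_nil_of_suffix_nil h3

/-- The geometry of the cut at the middle edge. -/
lemma Cut_path {p : ℕ → Word d} {L : ℕ} (hp : NB p L) (hL : 3 ≤ L) (hd : 0 < d) :
    ∃ (g : Aut d) (i : Fin d), g (p 0) ∉ Sub (letter i) ∧ g (p 1) ∉ Sub (letter i) ∧
      g (p (L - 1)) ∈ Sub (letter i) ∧ g (p L) ∈ Sub (letter i) ∧
      L ≤ 2 * len (g (p 0)) + 4 ∧ L ≤ 2 * len (g (p 1)) + 4 ∧
      L ≤ 2 * (len (g (p (L - 1))) - 1) + 4 ∧ L ≤ 2 * (len (g (p L)) - 1) + 4 := by
  set t := L / 2 with ht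
  have ht1 : 1 ≤ t := by omega
  have ht2 : t + 2 ≤ L := by omega
  let i0 : Fin d := ⟨0, hd⟩
  have hq : NB (fun j : ℕ => if j = 0 then (root : Word d) else letter i0) 1 := by
    refine ⟨fun i hi => ?_, fun i hi => by omega⟩
    obtain rfl : i = 0 := by omega
    simp only [if_true, Nat.zero_add, one_ne_zero, if_false]
    exact adj_root_iff.2 ⟨i0, rfl⟩
  have hp1 : NB (fun j => p (t + j)) 1 := by
    refine ⟨fun i hi => ?_, fun i hi => by omega⟩
    obtain rfl : i = 0 := by omega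
    exact hp.adj _ (by omega)
  obtain ⟨g, hg⟩ := nb_trans hp1 hq
  have hg0 : g (p t) = root := by simpa using hg 0 (by omega)
  have hg1 : g (p (t + 1)) = letter i0 := by simpa using hg 1 (by omega)
  have hr : NB (fun j => g (p (t + j))) (L - t) := by
    refine ⟨fun i hi => ?_, fun i hi => ?_⟩
    · exact g.map_adj_iff.2 (hp.adj (t + i) (by omega))
    · intro h
      exact hp.nb (t + i) (by omega) (g.injective h)
  have hr1 : (fun j => g (p (t + j))) 1 = letter i0 := hg1
  have hr0 : (fun j => g (p (t + j))) 0 = root := hg0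
  have hpar : parent ((fun j => g (p (t + j))) 1) = (fun j => g (p (t + j))) 0 := by
    rw [hr1, hr0]
    rfl
  have hne : (fun j => g (p (t + j))) 1 ≠ root := by
    rw [hr1]
    intro h
    have := congrArg len h
    simp at this
  have hsub : ∀ j, j + 1 ≤ L - t → g (p (t + (j + 1))) ∈ Sub (letter i0) := fun j hj => by
    have h : g (p (t + (j + 1))) ∈ Sub (g (p (t + 1))) := Cut_away_sub hr hpar hne j hj
    rwa [hg1] at h
  have hlen : ∀ j, j ≤ L - t → len (g (p (t + j))) = j := fun j hj => by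
    have h : len (g (p (t + j))) = len (g (p (t + 0))) + j := Cut_away_len hr hpar hne j hj
    rw [Nat.add_zero, hg0, len_root, Nat.zero_add] at h
    exact h
  have hrev : NB (fun j => g (p (t - j))) t := by
    refine ⟨fun i hi => ?_, fun i hi => ?_⟩
    · have h1 := hp.adj (t - (i + 1)) (by omega)
      have h2 : t - (i + 1) + 1 = t - i := by omega
      rw [h2] at h1
      exact (g.map_adj_iff.2 h1).symm
    · intro h
      have h1 := hp.nb (t - (i + 2)) (by omega)
      have h2 : t - (i + 2) + 2 = t - i := by omega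
      rw [h2] at h1
      exact h1 (g.injective h).symm
  have hadj0 : (treeGraph d).Adj root (g (p (t - 1))) := by
    have h1 := hp.adj (t - 1) (by omega)
    have h2 : t - 1 + 1 = t := by omega
    rw [h2] at h1
    have h3 := (g.map_adj_iff.2 h1).symm
    rwa [hg0] at h3
  obtain ⟨a, ha⟩ := adj_root_iff.1 hadj0
  have hai : a ≠ i0 := by
    intro h
    have h1 := hp.nb (t - 1) (by omega)
    have h2 : t - 1 + 2 = t + 1 := by omega
    rw [h2] at h1
    apply h1
    apply g.injective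
    rw [hg1, ha, h]
  have hrv1 : (fun j => g (p (t - j))) 1 = letter a := ha
  have hrv0 : (fun j => g (p (t - j))) 0 = root := by simpa using hg0
  have hparv : parent ((fun j => g (p (t - j))) 1) = (fun j => g (p (t - j))) 0 := by
    rw [hrv1, hrv0]
    rfl
  have hnev : (fun j => g (p (t - j))) 1 ≠ root := by
    rw [hrv1]
    intro h
    have := congrArg len h
    simp at this
  have hsubv : ∀ j, j + 1 ≤ t → g (p (t - (j + 1))) ∈ Sub (letter a) := fun j hj => by
    have h : g (p (t - (j + 1))) ∈ Sub (g (p (t - 1))) := Cut_away_sub hrev hparv hnev j hj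
    rwa [ha] at h
  have hlenv : ∀ j, j ≤ t → len (g (p (t - j))) = j := fun j hj => by
    have h : len (g (p (t - j))) = len (g (p (t - 0))) + j := Cut_away_len hrev hparv hnev j hj
    rw [Nat.sub_zero, hg0, len_root, Nat.zero_add] at h
    exact h
  have hsubv' : ∀ j, j ≤ t → g (p (t - j)) ∉ Sub (letter i0) := by
    intro j hj
    cases j with
    | zero => simpa [hg0] using Cut_root_not_mem i0
    | succ j => exact Cut_sub_disjoint hai (hsubv j hj)
  have e0 : t - t = 0 := by omega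
  have e1 : t - (t - 1) = 1 := by omega
  have e2 : t + (L - 1 - t) = L - 1 := by omega
  have e3 : t + (L - t) = L := by omega
  have l0 := hlenv t le_rfl
  have l1 := hlenv (t - 1) (by omega)
  have l2 := hlen (L - 1 - t) (by omega)
  have l3 := hlen (L - t) le_rfl
  simp only [e0, e1, e2, e3] at l0 l1 l2 l3
  refine ⟨g, i0, ?_, ?_, ?_, ?_, ?_, ?_, ?_, ?_⟩
  · have := hsubv' t le_rfl
    rwa [e0] at this
  · have := hsubv' (t - 1) (by omega)
    rwa [e1] at this
  · have := hsub (L - 1 - t - 1) (by omega)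
    have h2 : t + (L - 1 - t - 1 + 1) = L - 1 := by omega
    simp only [h2] at this
    exact this
  · have := hsub (L - t - 1) (by omega)
    have h2 : t + (L - t - 1 + 1) = L := by omega
    simp only [h2] at this
    exact this
  · omega
  · omega
  · omega
  · omega

/-- The decay of the covariance of edge functions along a non backtracking path. -/
theorem Cut_main (hd : 3 ≤ d) [Corr θ] (C : Crit (d - 1) θ) (M : ℝ) :
    ∃ K : ℝ, 0 ≤ K ∧ ∀ μ : Measure ℝ, Nish μ → (∀ᵐ h ∂μ, |h| ≤ M) → ∀ (p : ℕ → Word d) (L : ℕ), NB p L → 2 ≤ L →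
      |∫ y, PsiE θ (mm θ (p 0) y) (mm θ (p 1) y) * PsiE θ (mm θ (p (L - 1)) y) (mm θ (p L) y) ∂(LawY d θ μ) -
        (∫ y, PsiE θ (mm θ (p 0) y) (mm θ (p 1) y) ∂(LawY d θ μ)) *
          ∫ y, PsiE θ (mm θ (p (L - 1)) y) (mm θ (p L) y) ∂(LawY d θ μ)| ≤
          K * (√θ) ^ L := by
  have h0 := C.h0
  have h1 := C.h1
  obtain ⟨K0, hK0, hcore⟩ := Cut_core (d := d) h0 h1 M
  have hAt := Cut_artanh_nonneg h0.le h1
  set a0 : ℝ := Real.tanh (|M| + d * Real.artanh θ) with ha0
  have ha01 : a0 < 1 := Real.tanh_lt_one _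
  obtain ⟨CB, hCB, hbdd⟩ := PsiE_bdd h0 h1 ha01
  refine ⟨K0 / θ ^ 2 + 2 * CB ^ 2 / θ + 2 * CB ^ 2, by positivity, ?_⟩
  intro μ hμ hM p L hp hL
  have := hμ.prob
  have hsq0 : 0 < √θ := Real.sqrt_pos.2 h0
  have hsq1 : √θ ≤ 1 := by
    exact Real.sqrt_le_one.2 h1.le
  have hsqL : 0 < (√θ) ^ L := pow_pos hsq0 L
  rcases Nat.lt_or_ge L 3 with hL3 | hL3
  · -- the trivial bound
    obtain rfl : L = 2 := by omega
    have hae : ∀ᵐ y ∂(LawY d θ μ), ∀ x : Word d, |mm θ x y| ≤ a0 := by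
      unfold LawY
      rw [ae_map_iff Cut_measurable_yC.aemeasurable ?_]
      · filter_upwards [Cut_ae_bound (d := d) (θ := θ) hM] with ω hω x
        refine (mm_bound h1 (M := M) hω x).trans (Cut_tanh_mono ?_)
        have := le_abs_self M
        linarith
      · have : {y : Word d → ℝ | ∀ x, |mm θ x y| ≤ a0} = ⋂ x, {y | |mm θ x y| ≤ a0} := by
          ext y
          simp
        rw [this]
        exact MeasurableSet.iInter fun x => measurableSet_le (measurable_mm θ x).abs measurable_const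
    have hmeasP : ∀ x x' : Word d, Measurable (fun y : Word d → ℝ => PsiE θ (mm θ x y) (mm θ x' y)) :=
      fun x x' => (measurable_PsiE (θ := θ)).comp ((measurable_mm θ x).prodMk (measurable_mm θ x'))
    have hb : ∀ x x' : Word d, ∀ᵐ y ∂(LawY d θ μ), |PsiE θ (mm θ x y) (mm θ x' y)| ≤ CB := by
      intro x x'
      filter_upwards [hae] with y hy
      exact hbdd _ _ (hy x) (hy x')
    have hbi : ∀ {f : (Word d → ℝ) → ℝ} {c : ℝ}, (∀ᵐ y ∂(LawY d θ μ), |f y| ≤ c) →
        |∫ y, f y ∂(LawY d θ μ)| ≤ c := by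
      intro f c h
      have := norm_integral_le_of_norm_le_const (μ := LawY d θ μ) (f := f) (C := c) (by simpa using h)
      simpa using this
    have e1 : |∫ y, PsiE θ (mm θ (p 0) y) (mm θ (p 1) y) * PsiE θ (mm θ (p (2 - 1)) y) (mm θ (p 2) y)
        ∂(LawY d θ μ)| ≤ CB * CB := by
      apply hbi
      filter_upwards [hb (p 0) (p 1), hb (p (2 - 1)) (p 2)] with y h1 h2
      rw [abs_mul]
      exact mul_le_mul h1 h2 (abs_nonneg _) hCB
    have e2 := hbi (hb (p 0) (p 1))
    have e3 := hbi (hb (p (2 - 1)) (p 2))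
    have e4 : |(∫ y, PsiE θ (mm θ (p 0) y) (mm θ (p 1) y) ∂(LawY d θ μ)) *
        ∫ y, PsiE θ (mm θ (p (2 - 1)) y) (mm θ (p 2) y) ∂(LawY d θ μ)| ≤ CB * CB := by
      rw [abs_mul]
      exact mul_le_mul e2 e3 (abs_nonneg _) hCB
    refine (abs_sub _ _).trans ((add_le_add e1 e4).trans ?_)
    have e5 : (√θ) ^ 2 = θ := Real.sq_sqrt h0.le
    rw [e5]
    have e6 : (K0 / θ ^ 2 + 2 * CB ^ 2 / θ + 2 * CB ^ 2) * θ =
        K0 / θ + 2 * CB ^ 2 + 2 * CB ^ 2 * θ := by
      field_simp
    rw [e6]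
    have : 0 ≤ K0 / θ := by positivity
    have : 0 ≤ 2 * CB ^ 2 * θ := by positivity
    nlinarith
  · obtain ⟨g, i, h1a, h1b, h1a', h1b', l0, l1, l2, l3⟩ := Cut_path hp hL3 (by omega)
    have hη : ∀ n : ℕ, L ≤ 2 * n + 4 → θ ^ n ≤ (√θ) ^ L / θ ^ 2 := by
      intro n hn
      rw [le_div_iff₀ (by positivity)]
      have e1 : θ ^ n * θ ^ 2 = (√θ) ^ (2 * n + 4) := by
        have e2 : (√θ) ^ 2 = θ := Real.sq_sqrt h0.le
        rw [show 2 * n + 4 = 2 * n + 2 * 2 by ring, pow_add, pow_mul, pow_mul, e2]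
      rw [e1]
      exact pow_le_pow_of_le_one hsq0.le hsq1 hn
    have hcov := hcore μ hμ hM i (g (p 0)) (g (p 1)) (g (p (L - 1))) (g (p L)) ((√θ) ^ L / θ ^ 2)
      h1a h1b h1a' h1b' (hη _ l0) (hη _ l1) (hη _ l2) (hη _ l3)
    have hmap := LawY_map (d := d) (θ := θ) hμ g
    have hmeasP : ∀ x x' : Word d, Measurable (fun y : Word d → ℝ => PsiE θ (mm θ x y) (mm θ x' y)) :=
      fun x x' => (measurable_PsiE (θ := θ)).comp ((measurable_mm θ x).prodMk (measurable_mm θ x'))
    have htr : ∀ F : (Word d → ℝ) → ℝ, Measurable F →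
        ∫ y, F (actS g y) ∂(LawY d θ μ) = ∫ y, F y ∂(LawY d θ μ) := by
      intro F hF
      conv_rhs => rw [← hmap]
      rw [integral_map (measurable_actS g).aemeasurable hF.aestronglyMeasurable]
    have hPe : ∀ (x x' : Word d) (y : Word d → ℝ),
        PsiE θ (mm θ (g x) (actS g y)) (mm θ (g x') (actS g y)) = PsiE θ (mm θ x y) (mm θ x' y) := by
      intro x x' y
      rw [mm_map, mm_map]
    have t1 := htr (fun y => PsiE θ (mm θ (g (p 0)) y) (mm θ (g (p 1)) y) *
      PsiE θ (mm θ (g (p (L - 1))) y) (mm θ (g (p L)) y)) ((hmeasP _ _).mul (hmeasP _ _))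
    have t2 := htr (fun y => PsiE θ (mm θ (g (p 0)) y) (mm θ (g (p 1)) y)) (hmeasP _ _)
    have t3 := htr (fun y => PsiE θ (mm θ (g (p (L - 1))) y) (mm θ (g (p L)) y)) (hmeasP _ _)
    simp only [hPe] at t1 t2 t3
    rw [t1, t2, t3]
    refine hcov.trans ?_
    have e7 : K0 * ((√θ) ^ L / θ ^ 2) = K0 / θ ^ 2 * (√θ) ^ L := by ring
    rw [e7]
    refine mul_le_mul_of_nonneg_right ?_ hsqL.le
    have : 0 ≤ 2 * CB ^ 2 / θ := by positivity
    have : 0 ≤ 2 * CB ^ 2 := by positivity
    linarith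

/-- The conditional expectation commutes with a measure preserving map that fixes the sigma algebra. -/
theorem Cut_condExp_comp {Ω : Type*} {G mΩ : MeasurableSpace Ω} {P : Measure Ω} [IsProbabilityMeasure P]
    (hG : G ≤ mΩ) {a : Ω → Ω} (ha : MeasurePreserving a P P)
    (hinv : MeasurableSpace.comap a G = G) {f : Ω → ℝ} (hf : Integrable f P) :
    condExp G P (f ∘ a) =ᵐ[P] (condExp G P f) ∘ a := by
  have hfa : Integrable (f ∘ a) P := ha.integrable_comp_of_integrable hf
  have hamG : @Measurable _ _ G G a := by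
    intro s hs
    rw [← hinv]
    exact ⟨s, hs, rfl⟩
  have hsm : StronglyMeasurable[G] (condExp G P f) := stronglyMeasurable_condExp
  have hgm : StronglyMeasurable[G] ((condExp G P f) ∘ a) := hsm.comp_measurable hamG
  symm
  refine ae_eq_condExp_of_forall_setIntegral_eq hG hfa ?_ ?_ hgm.aestronglyMeasurable
  · intro s _ _
    have : Integrable ((condExp G P f) ∘ a) P :=
      ha.integrable_comp_of_integrable integrable_condExp
    exact this.integrableOn
  · intro s hs _
    rw [← hinv] at hs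
    obtain ⟨s', hs', rfl⟩ := hs
    have hs'm : MeasurableSet s' := hG _ hs'
    have e0 : ∀ F : Ω → ℝ, AEStronglyMeasurable F P →
        ∫ x in a ⁻¹' s', F (a x) ∂P = ∫ x in s', F x ∂P := by
      intro F hF
      have h := setIntegral_map (μ := P) (g := a) (f := F) hs'm (by rw [ha.map_eq]; exact hF)
        ha.measurable.aemeasurable
      rw [ha.map_eq] at h
      exact h.symm
    have e1 := e0 (condExp G P f) integrable_condExp.aestronglyMeasurable
    have e2 := e0 f hf.aestronglyMeasurable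
    show ∫ x in a ⁻¹' s', (condExp G P f) (a x) ∂P = ∫ x in a ⁻¹' s', f (a x) ∂P
    rw [e1, e2]
    exact setIntegral_condExp hG hf hs'

end Vale.Agent.Lib.P161B
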