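import Mathlib

/-!
Algebra of the two point law on an edge of a tree. With coupling `θ` and cavity tanh values `a, b`, the
correlation `ρ` on the edge is an explicit function `Rho` of the two magnetisations only.
-/

namespace Vale.Agent.Lib.P161B

/-- The constant `c = (1 + θ²) / (2 θ)`. -/
noncomputable def cTh (θ : ℝ) : ℝ := (1 + θ ^ 2) / (2 * θ)

/-- `Λ(m₁, m₂) = (c - m₁ m₂) / √((1 - m₁²)(1 - m₂²))`. -/
noncomputable def Lam (θ m₁ m₂ : ℝ) : ℝ := (cTh θ - m₁ * m₂) / √((1 - m₁ ^ 2) * (1 - m₂ ^ 2))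

/-- The correlation `ρ = Λ - √(Λ² - 1)` of an edge as a function of the magnetisations. -/
noncomputable def Rho (θ m₁ m₂ : ℝ) : ℝ := Lam θ m₁ m₂ - √(Lam θ m₁ m₂ ^ 2 - 1)

/-- `log ρ`. -/
noncomputable def PsiE (θ m₁ m₂ : ℝ) : ℝ := Real.log (Rho θ m₁ m₂)

/-- `log (1 - m²)`. -/
noncomputable def LogV (m : ℝ) : ℝ := Real.log (1 - m ^ 2)

/-- The magnetisations of the two point law with cavity tanh values `a, b`. -/
noncomputable def m₁E (θ a b : ℝ) : ℝ := (a + θ * b) / (1 + θ * a * b)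

/-- The second magnetisation. -/
noncomputable def m₂E (θ a b : ℝ) : ℝ := (b + θ * a) / (1 + θ * a * b)

/-- The covariance of the two point law. -/
noncomputable def uE (θ a b : ℝ) : ℝ := θ * (1 - a ^ 2) * (1 - b ^ 2) / (1 + θ * a * b) ^ 2

variable {θ : ℝ}

lemma cTh_gt_one (h0 : 0 < θ) (h1 : θ < 1) : 1 < cTh θ := by
  unfold cTh
  rw [lt_div_iff₀ (by positivity)]
  nlinarith [sq_pos_of_pos (sub_pos.mpr h1)]

lemma Edge_sq_lt_one {m : ℝ} (h : |m| < 1) : m ^ 2 < 1 := by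
  have := sq_abs m
  nlinarith [abs_nonneg m]

lemma Lam_ge (h0 : 0 < θ) (h1 : θ < 1) {m₁ m₂ : ℝ} (h₁ : |m₁| < 1) (h₂ : |m₂| < 1) :
    cTh θ ≤ Lam θ m₁ m₂ := by
  have hc := cTh_gt_one h0 h1
  have hm1 := Edge_sq_lt_one h₁
  have hm2 := Edge_sq_lt_one h₂
  have hpos : 0 < (1 - m₁ ^ 2) * (1 - m₂ ^ 2) := mul_pos (by linarith) (by linarith)
  have hs : 0 < √((1 - m₁ ^ 2) * (1 - m₂ ^ 2)) := Real.sqrt_pos.mpr hpos
  unfold Lam
  rw [le_div_iff₀ hs]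
  have habs : |m₁ * m₂| < 1 := by
    rw [abs_mul]
    nlinarith [abs_nonneg m₁, abs_nonneg m₂]
  have hle : √((1 - m₁ ^ 2) * (1 - m₂ ^ 2)) ≤ 1 - |m₁ * m₂| := by
    apply Real.sqrt_le_iff.mpr
    constructor
    · linarith
    · have h3 : |m₁ * m₂| ^ 2 = m₁ ^ 2 * m₂ ^ 2 := by rw [sq_abs]; ring
      have h4 : 2 * |m₁ * m₂| ≤ m₁ ^ 2 + m₂ ^ 2 := by
        rw [abs_mul]
        have := sq_abs m₁
        have := sq_abs m₂
        nlinarith [sq_nonneg (|m₁| - |m₂|)]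
      nlinarith
  have h5 : m₁ * m₂ ≤ |m₁ * m₂| := le_abs_self _
  have h6 : 0 ≤ |m₁ * m₂| := abs_nonneg _
  nlinarith

lemma Edge_Lam_gt_one (h0 : 0 < θ) (h1 : θ < 1) {m₁ m₂ : ℝ} (h₁ : |m₁| < 1) (h₂ : |m₂| < 1) :
    1 < Lam θ m₁ m₂ := lt_of_lt_of_le (cTh_gt_one h0 h1) (Lam_ge h0 h1 h₁ h₂)

lemma Edge_sqrt_lt {x : ℝ} (hx : 1 < x) : √(x ^ 2 - 1) < x := by
  rw [Real.sqrt_lt' (by linarith)]
  linarith

lemma Rho_pos (h0 : 0 < θ) (h1 : θ < 1) {m₁ m₂ : ℝ} (h₁ : |m₁| < 1) (h₂ : |m₂| < 1) :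
    0 < Rho θ m₁ m₂ := by
  unfold Rho
  have := Edge_sqrt_lt (Edge_Lam_gt_one h0 h1 h₁ h₂)
  linarith

lemma Rho_le_one (h0 : 0 < θ) (h1 : θ < 1) {m₁ m₂ : ℝ} (h₁ : |m₁| < 1) (h₂ : |m₂| < 1) :
    Rho θ m₁ m₂ ≤ 1 := by
  unfold Rho
  have hL := Edge_Lam_gt_one h0 h1 h₁ h₂
  have : Lam θ m₁ m₂ - 1 ≤ √(Lam θ m₁ m₂ ^ 2 - 1) := by
    apply Real.le_sqrt_of_sq_le
    nlinarith
  linarith

lemma Rho_comm (m₁ m₂ : ℝ) : Rho θ m₁ m₂ = Rho θ m₂ m₁ := by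
  have : Lam θ m₁ m₂ = Lam θ m₂ m₁ := by
    unfold Lam
    rw [mul_comm m₁ m₂, mul_comm (1 - m₁ ^ 2) (1 - m₂ ^ 2)]
  unfold Rho
  rw [this]

lemma Rho_neg (m₁ m₂ : ℝ) : Rho θ (-m₁) (-m₂) = Rho θ m₁ m₂ := by
  have : Lam θ (-m₁) (-m₂) = Lam θ m₁ m₂ := by
    unfold Lam
    simp only [neg_mul_neg, even_two, Even.neg_pow]
  unfold Rho
  rw [this]

section TwoPoint

variable {a b : ℝ}

lemma Edge_D_pos (h0 : 0 < θ) (h1 : θ < 1) (ha : |a| < 1) (hb : |b| < 1) :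
    0 < 1 + θ * a * b := by
  have h2 : |a * b| < 1 := by
    rw [abs_mul]
    nlinarith [abs_nonneg a, abs_nonneg b]
  have h3 := (abs_lt.mp h2).1
  have : θ * a * b = θ * (a * b) := by ring
  rw [this]
  nlinarith

lemma Edge_v1 (hD : 0 < 1 + θ * a * b) :
    1 - m₁E θ a b ^ 2 = (1 - a ^ 2) * (1 - θ ^ 2 * b ^ 2) / (1 + θ * a * b) ^ 2 := by
  have h3 : (1 + θ * a * b) ^ 2 ≠ 0 := by positivity
  unfold m₁E
  rw [div_pow, eq_div_iff h3, sub_mul, div_mul_cancel₀ _ h3]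
  ring

lemma Edge_v2 (hD : 0 < 1 + θ * a * b) :
    1 - m₂E θ a b ^ 2 = (1 - b ^ 2) * (1 - θ ^ 2 * a ^ 2) / (1 + θ * a * b) ^ 2 := by
  have h3 : (1 + θ * a * b) ^ 2 ≠ 0 := by positivity
  unfold m₂E
  rw [div_pow, eq_div_iff h3, sub_mul, div_mul_cancel₀ _ h3]
  ring

lemma Edge_pos_aux (h0 : 0 < θ) (h1 : θ < 1) {x : ℝ} (hx : |x| < 1) : 0 < 1 - θ ^ 2 * x ^ 2 := by
  have hx2 := Edge_sq_lt_one hx
  have : θ ^ 2 < 1 := by nlinarith
  have h3 : θ ^ 2 * x ^ 2 ≤ θ ^ 2 * 1 := by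
    apply mul_le_mul_of_nonneg_left hx2.le (sq_nonneg θ)
  linarith

/-- The quadratic identity `u² - 2 u (c - m₁ m₂) + v₁ v₂ = 0` in the form used. -/
lemma Edge_quad (h0 : 0 < θ) (hD : 0 < 1 + θ * a * b) :
    2 * uE θ a b * (cTh θ - m₁E θ a b * m₂E θ a b) =
      uE θ a b ^ 2 + (1 - m₁E θ a b ^ 2) * (1 - m₂E θ a b ^ 2) := by
  rw [Edge_v1 hD, Edge_v2 hD]
  unfold uE cTh m₁E m₂E
  have h2 : (2 * θ) ≠ 0 := by positivity
  have h3 : (1 + θ * a * b) ≠ 0 := hD.ne'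
  field_simp
  ring

/-- `ρ² = θ² ψ(a) ψ(b)` for the explicit quotient `u / √(v₁ v₂)`. -/
lemma Edge_ratio_sq (h0 : 0 < θ) (h1 : θ < 1) (ha : |a| < 1) (hb : |b| < 1) :
    (uE θ a b / √((1 - m₁E θ a b ^ 2) * (1 - m₂E θ a b ^ 2))) ^ 2 =
      θ ^ 2 * ((1 - a ^ 2) / (1 - θ ^ 2 * a ^ 2)) * ((1 - b ^ 2) / (1 - θ ^ 2 * b ^ 2)) := by
  have hD := Edge_D_pos h0 h1 ha hb
  have ha2 := Edge_sq_lt_one ha
  have hb2 := Edge_sq_lt_one hb
  have hta := Edge_pos_aux h0 h1 ha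
  have htb := Edge_pos_aux h0 h1 hb
  have hv1 : 0 < 1 - m₁E θ a b ^ 2 := by
    rw [Edge_v1 hD]
    exact div_pos (mul_pos (by linarith) htb) (by positivity)
  have hv2 : 0 < 1 - m₂E θ a b ^ 2 := by
    rw [Edge_v2 hD]
    exact div_pos (mul_pos (by linarith) hta) (by positivity)
  rw [div_pow, Real.sq_sqrt (mul_pos hv1 hv2).le, Edge_v1 hD, Edge_v2 hD]
  unfold uE
  have h4 : (1 - a ^ 2) ≠ 0 := by
    have : 0 < 1 - a ^ 2 := by linarith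
    exact this.ne'
  have h5 : (1 - b ^ 2) ≠ 0 := by
    have : 0 < 1 - b ^ 2 := by linarith
    exact this.ne'
  have h6 := hD.ne'
  have h7 := hta.ne'
  have h8 := htb.ne'
  field_simp

/-- The value of `Rho` on a two point law: `ρ = u / √(v₁ v₂)`. -/
theorem Rho_two_point (h0 : 0 < θ) (h1 : θ < 1) {a b : ℝ} (ha : |a| < 1) (hb : |b| < 1) :
    Rho θ (m₁E θ a b) (m₂E θ a b) =
      uE θ a b / √((1 - m₁E θ a b ^ 2) * (1 - m₂E θ a b ^ 2)) := by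
  have hD := Edge_D_pos h0 h1 ha hb
  have ha2 := Edge_sq_lt_one ha
  have hb2 := Edge_sq_lt_one hb
  have hta := Edge_pos_aux h0 h1 ha
  have htb := Edge_pos_aux h0 h1 hb
  have hv1 : 0 < 1 - m₁E θ a b ^ 2 := by
    rw [Edge_v1 hD]
    exact div_pos (mul_pos (by linarith) htb) (by positivity)
  have hv2 : 0 < 1 - m₂E θ a b ^ 2 := by
    rw [Edge_v2 hD]
    exact div_pos (mul_pos (by linarith) hta) (by positivity)
  have hu : 0 < uE θ a b := by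
    unfold uE
    exact div_pos (mul_pos (mul_pos h0 (by linarith)) (by linarith)) (by positivity)
  set s := √((1 - m₁E θ a b ^ 2) * (1 - m₂E θ a b ^ 2)) with hs
  have hs0 : 0 < s := Real.sqrt_pos.mpr (mul_pos hv1 hv2)
  have hss : s ^ 2 = (1 - m₁E θ a b ^ 2) * (1 - m₂E θ a b ^ 2) := Real.sq_sqrt (mul_pos hv1 hv2).le
  set u := uE θ a b with hudef
  have hq := Edge_quad (θ := θ) (a := a) (b := b) h0 hD
  rw [← hudef, ← hss] at hq
  -- `ρ ≤ 1`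
  have hrho2 : (u / s) ^ 2 ≤ 1 := by
    have h2 := Edge_ratio_sq h0 h1 ha hb
    rw [← hudef, ← hs] at h2
    rw [h2]
    have hpsi : ∀ x : ℝ, |x| < 1 → (1 - x ^ 2) / (1 - θ ^ 2 * x ^ 2) ≤ 1 ∧
        0 ≤ (1 - x ^ 2) / (1 - θ ^ 2 * x ^ 2) := by
      intro x hx
      have hx2 := Edge_sq_lt_one hx
      have htx := Edge_pos_aux h0 h1 hx
      constructor
      · rw [div_le_one htx]
        have : θ ^ 2 ≤ 1 := by nlinarith
        nlinarith [sq_nonneg x]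
      · exact div_nonneg (by linarith) htx.le
    have hta' := hpsi a ha
    have htb' := hpsi b hb
    have ht2 : θ ^ 2 ≤ 1 := by nlinarith
    calc θ ^ 2 * ((1 - a ^ 2) / (1 - θ ^ 2 * a ^ 2)) * ((1 - b ^ 2) / (1 - θ ^ 2 * b ^ 2))
        ≤ 1 * 1 * 1 := by
          apply mul_le_mul (mul_le_mul ht2 hta'.1 hta'.2 (by norm_num)) htb'.1 htb'.2 (by norm_num)
      _ = 1 := by norm_num
  have hrho0 : 0 < u / s := div_pos hu hs0
  have hrho1 : u / s ≤ 1 := by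
    nlinarith
  -- the value of `Λ`
  have hLam : Lam θ (m₁E θ a b) (m₂E θ a b) = ((u / s) + (s / u)) / 2 := by
    unfold Lam
    rw [← hs]
    have : cTh θ - m₁E θ a b * m₂E θ a b = (u ^ 2 + s ^ 2) / (2 * u) := by
      field_simp
      linarith
    rw [this]
    field_simp
  have hinv : s / u = (u / s)⁻¹ := by
    field_simp
  set ρ := u / s with hρ
  have hsq : Lam θ (m₁E θ a b) (m₂E θ a b) ^ 2 - 1 = ((ρ⁻¹ - ρ) / 2) ^ 2 := by
    rw [hLam, hinv]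
    field_simp
    ring
  have hnn : 0 ≤ (ρ⁻¹ - ρ) / 2 := by
    have : 1 ≤ ρ⁻¹ := by
      rw [one_le_inv₀ hrho0]
      exact hrho1
    linarith
  unfold Rho
  rw [hsq, Real.sqrt_sq hnn, hLam, hinv]
  ring

/-- `ρ² = θ² ψ(a) ψ(b)` where `ψ(a) = (1 - a²) / (1 - θ² a²)`. -/
theorem Rho_sq_two_point (h0 : 0 < θ) (h1 : θ < 1) {a b : ℝ} (ha : |a| < 1) (hb : |b| < 1) :
    Rho θ (m₁E θ a b) (m₂E θ a b) ^ 2 =
      θ ^ 2 * ((1 - a ^ 2) / (1 - θ ^ 2 * a ^ 2)) * ((1 - b ^ 2) / (1 - θ ^ 2 * b ^ 2)) := by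
  rw [Rho_two_point h0 h1 ha hb, Edge_ratio_sq h0 h1 ha hb]

end TwoPoint

section Lipschitz

/-- `log` is `1/δ`-Lipschitz on `[δ, ∞)`. -/
lemma Edge_log_lip {δ x y : ℝ} (hδ : 0 < δ) (hx : δ ≤ x) (hy : δ ≤ y) :
    |Real.log x - Real.log y| ≤ |x - y| / δ := by
  have key : ∀ {p q : ℝ}, δ ≤ p → p ≤ q → Real.log q - Real.log p ≤ (q - p) / δ := by
    intro p q hp hpq
    have hp0 : 0 < p := lt_of_lt_of_le hδ hp
    have hq0 : 0 < q := lt_of_lt_of_le hp0 hpq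
    rw [← Real.log_div hq0.ne' hp0.ne']
    have h1 : Real.log (q / p) ≤ q / p - 1 := Real.log_le_sub_one_of_pos (div_pos hq0 hp0)
    have h2 : q / p - 1 = (q - p) / p := by
      field_simp
    have h3 : (q - p) / p ≤ (q - p) / δ :=
      div_le_div_of_nonneg_left (by linarith) hδ hp
    linarith
  rcases le_total x y with hxy | hxy
  · have h := key hx hxy
    rw [abs_sub_comm x y, abs_sub_comm (Real.log x)]
    rw [abs_of_nonneg (by linarith [Real.log_le_log (lt_of_lt_of_le hδ hx) hxy]), abs_of_nonneg (by linarith)]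
    exact h
  · have h := key hy hxy
    rw [abs_of_nonneg (by linarith [Real.log_le_log (lt_of_lt_of_le hδ hy) hxy]), abs_of_nonneg (by linarith)]
    exact h

/-- The function `G(m) = 1 / √(1 - m²)`. -/
noncomputable def EdgeG (m : ℝ) : ℝ := 1 / √(1 - m ^ 2)

lemma Edge_sq_le {a m : ℝ} (hm : |m| ≤ a) : m ^ 2 ≤ a ^ 2 := by
  have := sq_abs m
  nlinarith [abs_nonneg m]

lemma EdgeG_bounds {a m : ℝ} (ha1 : a < 1) (hm : |m| ≤ a) :
    1 ≤ EdgeG m ∧ EdgeG m ≤ EdgeG a := by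
  have ha0 : 0 ≤ a := le_trans (abs_nonneg _) hm
  have h2 := Edge_sq_le hm
  have ha2 : a ^ 2 < 1 := by nlinarith
  have h3 : 0 < √(1 - a ^ 2) := Real.sqrt_pos.mpr (by linarith)
  have h4 : √(1 - a ^ 2) ≤ √(1 - m ^ 2) := Real.sqrt_le_sqrt (by linarith)
  have h5 : √(1 - m ^ 2) ≤ 1 := by
    apply Real.sqrt_le_iff.mpr
    constructor
    · norm_num
    · nlinarith [sq_nonneg m]
  have h6 : 0 < √(1 - m ^ 2) := lt_of_lt_of_le h3 h4
  unfold EdgeG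
  constructor
  · rw [le_div_iff₀ h6]
    linarith
  · exact div_le_div_of_nonneg_left (by norm_num) h3 h4

lemma EdgeG_lip {a m m' : ℝ} (ha1 : a < 1) (hm : |m| ≤ a) (hm' : |m'| ≤ a) :
    |EdgeG m - EdgeG m'| ≤ EdgeG a ^ 3 * (|m| + |m'|) * |m - m'| := by
  have ha0 : 0 ≤ a := le_trans (abs_nonneg _) hm
  have h2 := Edge_sq_le hm
  have h2' := Edge_sq_le hm'
  have ha2 : a ^ 2 < 1 := by nlinarith
  have h3 : 0 < √(1 - a ^ 2) := Real.sqrt_pos.mpr (by linarith)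
  have h4 : √(1 - a ^ 2) ≤ √(1 - m ^ 2) := Real.sqrt_le_sqrt (by linarith)
  have h4' : √(1 - a ^ 2) ≤ √(1 - m' ^ 2) := Real.sqrt_le_sqrt (by linarith)
  have hs : 0 < √(1 - m ^ 2) := lt_of_lt_of_le h3 h4
  have hs' : 0 < √(1 - m' ^ 2) := lt_of_lt_of_le h3 h4'
  set s := √(1 - m ^ 2) with hsdef
  set s' := √(1 - m' ^ 2) with hsdef'
  have hss : s ^ 2 = 1 - m ^ 2 := Real.sq_sqrt (by linarith)
  have hss' : s' ^ 2 = 1 - m' ^ 2 := Real.sq_sqrt (by linarith)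
  set g := EdgeG a with hg
  have hgval : g = 1 / √(1 - a ^ 2) := rfl
  have hg1 : 0 < g := by rw [hgval]; positivity
  have hgs : 1 / s ≤ g := by
    rw [hgval]
    exact div_le_div_of_nonneg_left (by norm_num) h3 h4
  have hgs' : 1 / s' ≤ g := by
    rw [hgval]
    exact div_le_div_of_nonneg_left (by norm_num) h3 h4'
  have hdiff : EdgeG m - EdgeG m' = (m ^ 2 - m' ^ 2) * ((1 / s) * (1 / s') * (1 / (s + s'))) := by
    have h1 : EdgeG m = 1 / s := rfl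
    have h1' : EdgeG m' = 1 / s' := rfl
    rw [h1, h1']
    have hadd : s + s' ≠ 0 := by positivity
    field_simp
    nlinarith
  have hsum : 1 / (s + s') ≤ g := by
    have h5 : 1 / (s + s') ≤ 1 / s := div_le_div_of_nonneg_left (by norm_num) hs (by linarith)
    linarith
  rw [hdiff, abs_mul]
  have hmm : |m ^ 2 - m' ^ 2| ≤ (|m| + |m'|) * |m - m'| := by
    have : m ^ 2 - m' ^ 2 = (m + m') * (m - m') := by ring
    rw [this, abs_mul]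
    exact mul_le_mul_of_nonneg_right (abs_add_le _ _) (abs_nonneg _)
  have hprod : |(1 / s) * (1 / s') * (1 / (s + s'))| ≤ g ^ 3 := by
    rw [abs_of_nonneg (by positivity)]
    have h6 : (1 / s) * (1 / s') ≤ g * g :=
      mul_le_mul hgs hgs' (by positivity) hg1.le
    calc (1 / s) * (1 / s') * (1 / (s + s')) ≤ g * g * g :=
          mul_le_mul h6 hsum (by positivity) (by positivity)
      _ = g ^ 3 := by ring
  calc |m ^ 2 - m' ^ 2| * |(1 / s) * (1 / s') * (1 / (s + s'))|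
      ≤ ((|m| + |m'|) * |m - m'|) * g ^ 3 :=
        mul_le_mul hmm hprod (abs_nonneg _) (by positivity)
    _ = g ^ 3 * (|m| + |m'|) * |m - m'| := by ring

lemma Edge_Lam_eq {m₁ m₂ : ℝ} (h₁ : |m₁| < 1) (h₂ : |m₂| < 1) :
    Lam θ m₁ m₂ = (cTh θ - m₁ * m₂) * (EdgeG m₁ * EdgeG m₂) := by
  have hm1 := Edge_sq_lt_one h₁
  have hm2 := Edge_sq_lt_one h₂
  unfold Lam EdgeG
  rw [Real.sqrt_mul (by linarith)]
  have h3 : 0 < √(1 - m₁ ^ 2) := Real.sqrt_pos.mpr (by linarith)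
  have h4 : 0 < √(1 - m₂ ^ 2) := Real.sqrt_pos.mpr (by linarith)
  field_simp

/-- The quadratic Lipschitz bound for `Λ`. -/
lemma Edge_Lam_lip (h0 : 0 < θ) (h1 : θ < 1) {a : ℝ} (ha : a < 1) {m₁ m₂ m₁' m₂' : ℝ}
    (h₁ : |m₁| ≤ a) (h₂ : |m₂| ≤ a) (h₁' : |m₁'| ≤ a) (h₂' : |m₂'| ≤ a) :
    |Lam θ m₁ m₂ - Lam θ m₁' m₂'| ≤
      (EdgeG a ^ 2 + (cTh θ + 1) * EdgeG a ^ 4) *
        ((|m₁| + |m₂| + |m₁'| + |m₂'|) * (|m₁ - m₁'| + |m₂ - m₂'|)) := by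
  have hc := cTh_gt_one h0 h1
  rw [Edge_Lam_eq (lt_of_le_of_lt h₁ ha) (lt_of_le_of_lt h₂ ha),
    Edge_Lam_eq (lt_of_le_of_lt h₁' ha) (lt_of_le_of_lt h₂' ha)]
  obtain ⟨g1l, g1u⟩ := EdgeG_bounds ha h₁
  obtain ⟨g2l, g2u⟩ := EdgeG_bounds ha h₂
  obtain ⟨g1l', g1u'⟩ := EdgeG_bounds ha h₁'
  obtain ⟨g2l', g2u'⟩ := EdgeG_bounds ha h₂'
  have l1 := EdgeG_lip ha h₁ h₁'
  have l2 := EdgeG_lip ha h₂ h₂'
  set G1 := EdgeG m₁
  set G2 := EdgeG m₂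
  set G1' := EdgeG m₁'
  set G2' := EdgeG m₂'
  set g := EdgeG a
  have hg : 1 ≤ g := le_trans g1l g1u
  set d1 := |m₁ - m₁'|
  set d2 := |m₂ - m₂'|
  set A1 := |m₁|
  set A2 := |m₂|
  set A1' := |m₁'|
  set A2' := |m₂'|
  have hd1 : 0 ≤ d1 := abs_nonneg _
  have hd2 : 0 ≤ d2 := abs_nonneg _
  have hA1 : 0 ≤ A1 := abs_nonneg _
  have hA2 : 0 ≤ A2 := abs_nonneg _
  have hA1' : 0 ≤ A1' := abs_nonneg _
  have hA2' : 0 ≤ A2' := abs_nonneg _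
  have hdecomp : (cTh θ - m₁ * m₂) * (G1 * G2) - (cTh θ - m₁' * m₂') * (G1' * G2') =
      (m₁' * m₂' - m₁ * m₂) * (G1 * G2) + (cTh θ - m₁' * m₂') * ((G1 - G1') * G2) +
        (cTh θ - m₁' * m₂') * (G1' * (G2 - G2')) := by ring
  rw [hdecomp]
  have hp : |m₁' * m₂' - m₁ * m₂| ≤ A1 * d2 + A2' * d1 := by
    have : m₁' * m₂' - m₁ * m₂ = m₁ * (m₂' - m₂) + m₂' * (m₁' - m₁) := by ring
    rw [this]
    refine le_trans (abs_add_le _ _) ?_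
    rw [abs_mul, abs_mul, abs_sub_comm m₂', abs_sub_comm m₁']
  have hcp : |cTh θ - m₁' * m₂'| ≤ cTh θ + 1 := by
    have ha1' : A1' ≤ 1 := le_trans h₁' ha.le
    have ha2' : A2' ≤ 1 := le_trans h₂' ha.le
    have h2 : |m₁' * m₂'| ≤ 1 := by
      rw [abs_mul]
      nlinarith
    refine le_trans (abs_sub _ _) ?_
    rw [abs_of_pos (by linarith)]
    linarith
  have hG12 : |G1 * G2| ≤ g ^ 2 := by
    rw [abs_of_nonneg (by positivity)]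
    nlinarith
  have hterm1 : |(m₁' * m₂' - m₁ * m₂) * (G1 * G2)| ≤ (A1 * d2 + A2' * d1) * g ^ 2 := by
    rw [abs_mul]
    exact mul_le_mul hp hG12 (abs_nonneg _) (by positivity)
  have hterm2 : |(cTh θ - m₁' * m₂') * ((G1 - G1') * G2)| ≤
      (cTh θ + 1) * ((g ^ 3 * (A1 + A1') * d1) * g) := by
    rw [abs_mul, abs_mul]
    refine mul_le_mul hcp ?_ (by positivity) (by linarith)
    refine mul_le_mul l1 ?_ (abs_nonneg _) (by positivity)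
    rw [abs_of_nonneg (by linarith)]
    exact g2u
  have hterm3 : |(cTh θ - m₁' * m₂') * (G1' * (G2 - G2'))| ≤
      (cTh θ + 1) * (g * (g ^ 3 * (A2 + A2') * d2)) := by
    rw [abs_mul, abs_mul]
    refine mul_le_mul hcp ?_ (by positivity) (by linarith)
    refine mul_le_mul ?_ l2 (abs_nonneg _) (by linarith)
    rw [abs_of_nonneg (by linarith)]
    exact g1u'
  have htot := abs_add_three ((m₁' * m₂' - m₁ * m₂) * (G1 * G2))
    ((cTh θ - m₁' * m₂') * ((G1 - G1') * G2)) ((cTh θ - m₁' * m₂') * (G1' * (G2 - G2')))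
  have hc1 : 0 ≤ cTh θ + 1 := by linarith
  have hg2 : 0 ≤ g ^ 2 := by positivity
  have hg4 : 0 ≤ (cTh θ + 1) * g ^ 4 := by positivity
  set S := A1 + A2 + A1' + A2'
  have hfin1 : (A1 * d2 + A2' * d1) * g ^ 2 ≤ g ^ 2 * (S * (d1 + d2)) := by
    have : A1 * d2 + A2' * d1 ≤ S * (d1 + d2) := by
      have hS1 : A1 ≤ S := by simp only [S]; linarith
      have hS2 : A2' ≤ S := by simp only [S]; linarith
      have e1 := mul_le_mul_of_nonneg_right hS1 hd2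
      have e2 := mul_le_mul_of_nonneg_right hS2 hd1
      rw [mul_add]
      linarith
    calc (A1 * d2 + A2' * d1) * g ^ 2 = g ^ 2 * (A1 * d2 + A2' * d1) := by ring
      _ ≤ _ := mul_le_mul_of_nonneg_left this hg2
  have hfin2 : (cTh θ + 1) * ((g ^ 3 * (A1 + A1') * d1) * g) +
      (cTh θ + 1) * (g * (g ^ 3 * (A2 + A2') * d2)) ≤
        (cTh θ + 1) * g ^ 4 * (S * (d1 + d2)) := by
    have hS1 : A1 + A1' ≤ S := by simp only [S]; linarith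
    have hS2 : A2 + A2' ≤ S := by simp only [S]; linarith
    have hS0 : 0 ≤ S := by simp only [S]; linarith
    have : (A1 + A1') * d1 + (A2 + A2') * d2 ≤ S * (d1 + d2) := by
      have e1 := mul_le_mul_of_nonneg_right hS1 hd1
      have e2 := mul_le_mul_of_nonneg_right hS2 hd2
      rw [mul_add]
      linarith
    have h2 := mul_le_mul_of_nonneg_left this hg4
    calc _ = (cTh θ + 1) * g ^ 4 * ((A1 + A1') * d1 + (A2 + A2') * d2) := by ring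
      _ ≤ _ := h2
  calc _ ≤ _ := htot
    _ ≤ _ := add_le_add (add_le_add hterm1 hterm2) hterm3
    _ ≤ g ^ 2 * (S * (d1 + d2)) + (cTh θ + 1) * g ^ 4 * (S * (d1 + d2)) := by linarith
    _ = _ := by ring

/-- An upper bound for `Λ`. -/
lemma Edge_Lam_le (h0 : 0 < θ) (h1 : θ < 1) {a : ℝ} (ha : a < 1) {m₁ m₂ : ℝ}
    (h₁ : |m₁| ≤ a) (h₂ : |m₂| ≤ a) :
    Lam θ m₁ m₂ ≤ (cTh θ + 1) * EdgeG a ^ 2 := by
  have hc := cTh_gt_one h0 h1
  rw [Edge_Lam_eq (lt_of_le_of_lt h₁ ha) (lt_of_le_of_lt h₂ ha)]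
  obtain ⟨g1l, g1u⟩ := EdgeG_bounds ha h₁
  obtain ⟨g2l, g2u⟩ := EdgeG_bounds ha h₂
  have hp : |cTh θ - m₁ * m₂| ≤ cTh θ + 1 := by
    have ha1' : |m₁| ≤ 1 := le_trans h₁ ha.le
    have ha2' : |m₂| ≤ 1 := le_trans h₂ ha.le
    have h2 : |m₁ * m₂| ≤ 1 := by
      rw [abs_mul]
      nlinarith [abs_nonneg m₁, abs_nonneg m₂]
    refine le_trans (abs_sub _ _) ?_
    rw [abs_of_pos (by linarith)]
    linarith
  have hG : EdgeG m₁ * EdgeG m₂ ≤ EdgeG a ^ 2 := by nlinarith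
  have hG0 : 0 ≤ EdgeG m₁ * EdgeG m₂ := by positivity
  calc (cTh θ - m₁ * m₂) * (EdgeG m₁ * EdgeG m₂) ≤ |cTh θ - m₁ * m₂| * (EdgeG m₁ * EdgeG m₂) :=
        mul_le_mul_of_nonneg_right (le_abs_self _) hG0
    _ ≤ (cTh θ + 1) * EdgeG a ^ 2 := mul_le_mul hp hG hG0 (by linarith)

/-- `x ↦ x - √(x² - 1)` is Lipschitz on `[c, L]`. -/
lemma Edge_root_lip {c L x y : ℝ} (hc : 1 < c) (hx : c ≤ x) (hy : c ≤ y) (hxL : x ≤ L) (hyL : y ≤ L) :
    |(x - √(x ^ 2 - 1)) - (y - √(y ^ 2 - 1))| ≤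
      (1 + L / √(c ^ 2 - 1)) * |x - y| := by
  have hc2 : 0 < c ^ 2 - 1 := by nlinarith
  have hs0 : 0 < √(c ^ 2 - 1) := Real.sqrt_pos.mpr hc2
  have hx2 : c ^ 2 - 1 ≤ x ^ 2 - 1 := by nlinarith
  have hy2 : c ^ 2 - 1 ≤ y ^ 2 - 1 := by nlinarith
  have hsx : √(c ^ 2 - 1) ≤ √(x ^ 2 - 1) := Real.sqrt_le_sqrt hx2
  have hsy : √(c ^ 2 - 1) ≤ √(y ^ 2 - 1) := Real.sqrt_le_sqrt hy2
  set X := √(x ^ 2 - 1) with hX
  set Y := √(y ^ 2 - 1) with hY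
  set s0 := √(c ^ 2 - 1) with hs0def
  have hXX : X ^ 2 = x ^ 2 - 1 := Real.sq_sqrt (by linarith)
  have hYY : Y ^ 2 = y ^ 2 - 1 := Real.sq_sqrt (by linarith)
  have hXpos : 0 < X := by linarith
  have hYpos : 0 < Y := by linarith
  have hXY : X - Y = (x - y) * ((x + y) / (X + Y)) := by
    have : X + Y ≠ 0 := by positivity
    field_simp
    nlinarith
  have hfrac : |(x + y) / (X + Y)| ≤ L / s0 := by
    have hL0 : 0 < L := by linarith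
    rw [abs_of_nonneg (by apply div_nonneg <;> linarith)]
    rw [div_le_div_iff₀ (by positivity) hs0]
    nlinarith
  have hrew : (x - X) - (y - Y) = (x - y) - (X - Y) := by ring
  rw [hrew]
  refine le_trans (abs_sub _ _) ?_
  rw [hXY, abs_mul]
  have := mul_le_mul_of_nonneg_left hfrac (abs_nonneg (x - y))
  nlinarith

/-- Lipschitz bound for `Ψ` with the constant depending on `a` only. -/
lemma Edge_Psi_lip_aux (h0 : 0 < θ) (h1 : θ < 1) {a : ℝ} (ha : a < 1) :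
    ∃ C : ℝ, 0 ≤ C ∧ ∀ m₁ m₂ m₁' m₂' : ℝ, |m₁| ≤ a → |m₂| ≤ a → |m₁'| ≤ a → |m₂'| ≤ a →
      |PsiE θ m₁ m₂ - PsiE θ m₁' m₂'| ≤
        C * (|m₁| + |m₂| + |m₁'| + |m₂'|) * (|m₁ - m₁'| + |m₂ - m₂'|) := by
  have hc := cTh_gt_one h0 h1
  set c := cTh θ with hcdef
  set g := EdgeG a with hg
  have hg0 : 0 ≤ g := by
    simp only [hg, EdgeG]
    positivity
  set L := (c + 1) * g ^ 2 + c with hL
  have hL0 : 0 < L := by positivity
  set δ := 1 / (2 * L) with hδ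
  have hδ0 : 0 < δ := by positivity
  have hcs : 0 < √(c ^ 2 - 1) := Real.sqrt_pos.mpr (by nlinarith)
  set K := (1 + L / √(c ^ 2 - 1)) with hK
  have hK0 : 0 ≤ K := by positivity
  refine ⟨K / δ * (g ^ 2 + (c + 1) * g ^ 4), by positivity, ?_⟩
  intro m₁ m₂ m₁' m₂' h₁ h₂ h₁' h₂'
  have hlt₁ := lt_of_le_of_lt h₁ ha
  have hlt₂ := lt_of_le_of_lt h₂ ha
  have hlt₁' := lt_of_le_of_lt h₁' ha
  have hlt₂' := lt_of_le_of_lt h₂' ha
  have hge := Lam_ge h0 h1 hlt₁ hlt₂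
  have hge' := Lam_ge h0 h1 hlt₁' hlt₂'
  have hle := Edge_Lam_le h0 h1 ha h₁ h₂
  have hle' := Edge_Lam_le h0 h1 ha h₁' h₂'
  have hle2 : Lam θ m₁ m₂ ≤ L := by
    simp only [hL]
    rw [← hcdef] at hle
    linarith
  have hle2' : Lam θ m₁' m₂' ≤ L := by
    simp only [hL]
    rw [← hcdef] at hle'
    linarith
  -- lower bound for `Rho`
  have hlow : ∀ x : ℝ, 1 < x → x ≤ L → δ ≤ x - √(x ^ 2 - 1) := by
    intro x hx hxL
    have hrt : √(x ^ 2 - 1) < x := Edge_sqrt_lt hx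
    have hs : 0 ≤ √(x ^ 2 - 1) := Real.sqrt_nonneg _
    have hss : √(x ^ 2 - 1) ^ 2 = x ^ 2 - 1 := Real.sq_sqrt (by nlinarith)
    have hprod : (x - √(x ^ 2 - 1)) * (x + √(x ^ 2 - 1)) = 1 := by nlinarith
    have hpos : 0 < x - √(x ^ 2 - 1) := by linarith
    have hsum : x + √(x ^ 2 - 1) ≤ 2 * L := by linarith
    simp only [hδ]
    rw [div_le_iff₀ (by positivity)]
    calc 1 = (x - √(x ^ 2 - 1)) * (x + √(x ^ 2 - 1)) := hprod.symm
      _ ≤ (x - √(x ^ 2 - 1)) * (2 * L) := mul_le_mul_of_nonneg_left hsum hpos.le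
  have hgt : 1 < Lam θ m₁ m₂ := lt_of_lt_of_le hc hge
  have hgt' : 1 < Lam θ m₁' m₂' := lt_of_lt_of_le hc hge'
  have hlog := Edge_log_lip hδ0 (hlow _ hgt hle2) (hlow _ hgt' hle2')
  have hrl := Edge_root_lip hc hge hge' hle2 hle2'
  have hll := Edge_Lam_lip h0 h1 ha h₁ h₂ h₁' h₂'
  rw [← hcdef, ← hg] at hll
  unfold PsiE Rho
  set S := (|m₁| + |m₂| + |m₁'| + |m₂'|) * (|m₁ - m₁'| + |m₂ - m₂'|) with hS
  have hS0 : 0 ≤ S := by positivity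
  calc _ ≤ |(Lam θ m₁ m₂ - √(Lam θ m₁ m₂ ^ 2 - 1)) - (Lam θ m₁' m₂' - √(Lam θ m₁' m₂' ^ 2 - 1))| / δ := hlog
    _ ≤ (K * |Lam θ m₁ m₂ - Lam θ m₁' m₂'|) / δ := by
        apply div_le_div_of_nonneg_right hrl hδ0.le
    _ ≤ (K * ((g ^ 2 + (c + 1) * g ^ 4) * S)) / δ := by
        apply div_le_div_of_nonneg_right _ hδ0.le
        exact mul_le_mul_of_nonneg_left hll hK0
    _ = K / δ * (g ^ 2 + (c + 1) * g ^ 4) * (|m₁| + |m₂| + |m₁'| + |m₂'|) *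
          (|m₁ - m₁'| + |m₂ - m₂'|) := by
        simp only [hS]
        ring

/-- The quadratic Lipschitz bound: `Ψ` is even, so its gradient vanishes at the origin. -/
theorem PsiE_lip (h0 : 0 < θ) (h1 : θ < 1) {a : ℝ} (ha : a < 1) :
    ∃ C : ℝ, 0 ≤ C ∧ ∀ m₁ m₂ m₁' m₂' : ℝ, |m₁| ≤ a → |m₂| ≤ a → |m₁'| ≤ a → |m₂'| ≤ a →
      |PsiE θ m₁ m₂ - PsiE θ m₁' m₂'| ≤
        C * (|m₁| + |m₂| + |m₁'| + |m₂'|) * (|m₁ - m₁'| + |m₂ - m₂'|) :=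
  Edge_Psi_lip_aux h0 h1 ha

theorem PsiE_bdd (h0 : 0 < θ) (h1 : θ < 1) {a : ℝ} (ha : a < 1) :
    ∃ C : ℝ, 0 ≤ C ∧ ∀ m₁ m₂ : ℝ, |m₁| ≤ a → |m₂| ≤ a → |PsiE θ m₁ m₂| ≤ C := by
  obtain ⟨C, hC, hlip⟩ := PsiE_lip h0 h1 (a := max a 0) (max_lt ha (by norm_num))
  refine ⟨C * (4 * (max a 0)) * (2 * (max a 0)) + |PsiE θ 0 0|, by positivity, ?_⟩
  intro m₁ m₂ h₁ h₂
  have ha0 : 0 ≤ max a 0 := le_max_right _ _
  have h₁' : |m₁| ≤ max a 0 := le_trans h₁ (le_max_left _ _)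
  have h₂' : |m₂| ≤ max a 0 := le_trans h₂ (le_max_left _ _)
  have h0' : |(0 : ℝ)| ≤ max a 0 := by rw [abs_zero]; exact ha0
  have h := hlip m₁ m₂ 0 0 h₁' h₂' h0' h0'
  simp only [abs_zero, sub_zero, add_zero] at h
  have h3 : C * (|m₁| + |m₂|) * (|m₁| + |m₂|) ≤ C * (4 * max a 0) * (2 * max a 0) := by
    have hs : |m₁| + |m₂| ≤ 2 * max a 0 := by linarith
    have hs0 : 0 ≤ |m₁| + |m₂| := by positivity
    have hs4 : |m₁| + |m₂| ≤ 4 * max a 0 := by linarith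
    exact mul_le_mul (mul_le_mul_of_nonneg_left hs4 hC) hs hs0 (by positivity)
  have h4 : |PsiE θ m₁ m₂| ≤ |PsiE θ m₁ m₂ - PsiE θ 0 0| + |PsiE θ 0 0| := by
    have := abs_add_le (PsiE θ m₁ m₂ - PsiE θ 0 0) (PsiE θ 0 0)
    simpa using this
  linarith

theorem LogV_lip {a : ℝ} (ha : a < 1) :
    ∃ C : ℝ, 0 ≤ C ∧ ∀ m m' : ℝ, |m| ≤ a → |m'| ≤ a →
      |LogV m - LogV m'| ≤ C * (|m| + |m'|) * |m - m'| := by
  have hb : max a 0 < 1 := max_lt ha (by norm_num)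
  have hb0 : 0 ≤ max a 0 := le_max_right _ _
  have hδ : 0 < 1 - (max a 0) ^ 2 := by nlinarith
  refine ⟨1 / (1 - (max a 0) ^ 2), by positivity, ?_⟩
  intro m m' hm hm'
  have hm1 : |m| ≤ max a 0 := le_trans hm (le_max_left _ _)
  have hm1' : |m'| ≤ max a 0 := le_trans hm' (le_max_left _ _)
  have h2 := Edge_sq_le hm1
  have h2' := Edge_sq_le hm1'
  have h3 := Edge_log_lip (x := 1 - m ^ 2) (y := 1 - m' ^ 2) hδ (by linarith) (by linarith)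
  unfold LogV
  refine le_trans h3 ?_
  have h4 : (1 - m ^ 2) - (1 - m' ^ 2) = (m' + m) * (m' - m) := by ring
  rw [h4, abs_mul, abs_sub_comm m' m]
  have h5 : |m' + m| ≤ |m| + |m'| := by
    rw [add_comm m' m]
    exact abs_add_le _ _
  have h6 := mul_le_mul_of_nonneg_right h5 (abs_nonneg (m - m'))
  rw [div_eq_mul_one_div]
  have h7 : 0 ≤ 1 / (1 - (max a 0) ^ 2) := by positivity
  nlinarith [mul_le_mul_of_nonneg_right h6 h7]

theorem LogV_bdd {a : ℝ} (ha : a < 1) :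
    ∃ C : ℝ, 0 ≤ C ∧ ∀ m : ℝ, |m| ≤ a → |LogV m| ≤ C := by
  obtain ⟨C, hC, hlip⟩ := LogV_lip (a := max a 0) (max_lt ha (by norm_num))
  refine ⟨C * (max a 0) * (max a 0), by positivity, ?_⟩
  intro m hm
  have ha0 : 0 ≤ max a 0 := le_max_right _ _
  have hm1 : |m| ≤ max a 0 := le_trans hm (le_max_left _ _)
  have h0' : |(0 : ℝ)| ≤ max a 0 := by rw [abs_zero]; exact ha0
  have h := hlip m 0 hm1 h0'
  have hz : LogV 0 = 0 := by simp [LogV]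
  simp only [hz, sub_zero, abs_zero, add_zero] at h
  refine le_trans h ?_
  exact mul_le_mul (mul_le_mul_of_nonneg_left hm1 hC) hm1 (abs_nonneg _) (by positivity)

end Lipschitz

lemma measurable_Rho : Measurable (fun p : ℝ × ℝ => Rho θ p.1 p.2) := by
  unfold Rho Lam
  fun_prop

lemma measurable_PsiE : Measurable (fun p : ℝ × ℝ => PsiE θ p.1 p.2) := by
  unfold PsiE
  exact Real.measurable_log.comp measurable_Rho

end Vale.Agent.Lib.P161B
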