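import Mathlib

/-!
Measures on the line with the Nishimori symmetry: these are the laws of log likelihood ratios of a
spin observation. The message map, the convolution, and the two key inequalities on the mean of `tanh`.
-/

namespace Vale.Agent.Lib.P161B

open MeasureTheory

/-- The message function `U h = artanh (θ tanh h)`. -/
noncomputable def Uf (θ h : ℝ) : ℝ := Real.artanh (θ * Real.tanh h)

/-- The bounded even weight `ψ h = (1 - tanh² h) / (1 - θ² tanh² h)`, so that `U' = θ ψ`. -/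
noncomputable def psiF (θ h : ℝ) : ℝ :=
  (1 - Real.tanh h ^ 2) / (1 - θ ^ 2 * Real.tanh h ^ 2)

/-- Bounded measurable test functions. -/
def BddM (F : ℝ → ℝ) : Prop := Measurable F ∧ ∃ C, ∀ x, |F x| ≤ C

/-- The Nishimori symmetry for a probability measure with bounded support. -/
structure Nish (μ : Measure ℝ) : Prop where
  prob : IsProbabilityMeasure μ
  bdd : ∃ M, ∀ᵐ h ∂μ, |h| ≤ M
  symm : ∀ F : ℝ → ℝ, BddM F → ∫ h, F (-h) ∂μ = ∫ h, F h * Real.exp (-2 * h) ∂μ

/-- The convolution of two measures. -/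
noncomputable def cvl (μ ν : Measure ℝ) : Measure ℝ := (μ.prod ν).map (fun p => p.1 + p.2)

/-- The `k`-fold convolution power. -/
noncomputable def powC (ν : Measure ℝ) : ℕ → Measure ℝ
  | 0 => Measure.dirac 0
  | k + 1 => cvl (powC ν k) ν

/-- The law of the message `τ U h`, with `h ∼ μ` and `τ = ±1` with probability `(1 ± θ) / 2`. -/
noncomputable def msg (θ : ℝ) (μ : Measure ℝ) : Measure ℝ :=
  ENNReal.ofReal ((1 + θ) / 2) • μ.map (Uf θ) + ENNReal.ofReal ((1 - θ) / 2) • μ.map (fun h => - Uf θ h)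

/-- The depth `n` cavity law: `cavN 0 = μ`, `cavN (n+1) = μ * (msg (cavN n))^{*k}`. -/
noncomputable def cavN (θ : ℝ) (k : ℕ) (μ : Measure ℝ) : ℕ → Measure ℝ
  | 0 => μ
  | n + 1 => cvl μ (powC (msg θ (cavN θ k μ n)) k)

/-- The mean of `tanh`. -/
noncomputable def At (μ : Measure ℝ) : ℝ := ∫ h, Real.tanh h ∂μ

section Uf

variable {θ : ℝ}

lemma Nish_aux_continuous_tanh : Continuous Real.tanh := by
  have e : Real.tanh = fun x => Real.sinh x / Real.cosh x := by
    ext x; exact Real.tanh_eq_sinh_div_cosh x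
  rw [e]
  exact Real.continuous_sinh.div Real.continuous_cosh (fun x => (Real.cosh_pos x).ne')

lemma Nish_aux_measurable_tanh : Measurable Real.tanh := Nish_aux_continuous_tanh.measurable

lemma Nish_aux_hasDerivAt_tanh (x : ℝ) : HasDerivAt Real.tanh (1 - Real.tanh x ^ 2) x := by
  have h := (Real.hasDerivAt_sinh x).div (Real.hasDerivAt_cosh x) (Real.cosh_pos x).ne'
  have e : Real.tanh = fun x => Real.sinh x / Real.cosh x := by
    ext x; exact Real.tanh_eq_sinh_div_cosh x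
  rw [e]
  refine h.congr_deriv ?_
  have hc := (Real.cosh_pos x).ne'
  simp only []
  field_simp

lemma Nish_aux_artanh_formula {x : ℝ} (hx : x ∈ Set.Ioo (-1 : ℝ) 1) :
    Real.artanh x = 1 / 2 * (Real.log (1 + x) - Real.log (1 - x)) := by
  have h1 : 0 < 1 + x := by linarith [hx.1]
  have h2 : 0 < 1 - x := by linarith [hx.2]
  rw [Real.artanh_eq_half_log ⟨hx.1.le, hx.2.le⟩, Real.log_div h1.ne' h2.ne']

lemma Nish_aux_hasDerivAt_artanh {x : ℝ} (hx : x ∈ Set.Ioo (-1 : ℝ) 1) :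
    HasDerivAt Real.artanh (1 / (1 - x ^ 2)) x := by
  have h1 : 0 < 1 + x := by linarith [hx.1]
  have h2 : 0 < 1 - x := by linarith [hx.2]
  have d1 : HasDerivAt (fun y : ℝ => 1 + y) 1 x := by
    simpa using (hasDerivAt_id x).const_add 1
  have d2 : HasDerivAt (fun y : ℝ => 1 - y) (-1) x := by
    simpa using (hasDerivAt_id x).const_sub 1
  have d3 : HasDerivAt (fun y : ℝ => 1 / 2 * (Real.log (1 + y) - Real.log (1 - y)))
      (1 / 2 * (1 / (1 + x) - (-1) / (1 - x))) x :=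
    ((d1.log h1.ne').sub (d2.log h2.ne')).const_mul (1 / 2)
  have e : Real.artanh =ᶠ[nhds x] fun y : ℝ => 1 / 2 * (Real.log (1 + y) - Real.log (1 - y)) := by
    filter_upwards [Ioo_mem_nhds hx.1 hx.2] with y hy
    exact Nish_aux_artanh_formula hy
  refine (d3.congr_of_eventuallyEq e).congr_deriv ?_
  have h3 : 1 - x ^ 2 = (1 + x) * (1 - x) := by ring
  rw [h3]
  field_simp
  ring

lemma Nish_aux_mem {θ : ℝ} (h0 : 0 ≤ θ) (h1 : θ < 1) (h : ℝ) :
    θ * Real.tanh h ∈ Set.Ioo (-1 : ℝ) 1 := by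
  have h2 := Real.tanh_lt_one h
  have h3 := Real.neg_one_lt_tanh h
  constructor <;> nlinarith

lemma tanh_Uf (h0 : 0 ≤ θ) (h1 : θ < 1) (h : ℝ) : Real.tanh (Uf θ h) = θ * Real.tanh h :=
  Real.tanh_artanh (Nish_aux_mem h0 h1 h)

lemma Nish_aux_artanh_odd (x : ℝ) : Real.artanh (-x) = - Real.artanh x := by
  unfold Real.artanh
  have e : (1 + -x) / (1 - -x) = ((1 + x) / (1 - x))⁻¹ := by
    rw [inv_div]; congr 1; ring
  rw [e, Real.sqrt_inv, Real.log_inv]

lemma Uf_odd (h : ℝ) : Uf θ (-h) = - Uf θ h := by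
  unfold Uf
  rw [Real.tanh_neg, mul_neg, Nish_aux_artanh_odd]

lemma Nish_aux_psi_denominator (h0 : 0 ≤ θ) (h1 : θ < 1) (h : ℝ) :
    0 < 1 - θ ^ 2 * Real.tanh h ^ 2 := by
  have h2 := Real.tanh_sq_lt_one h
  have h3 : θ ^ 2 < 1 := by nlinarith
  have h4 : 0 ≤ Real.tanh h ^ 2 := sq_nonneg _
  have h5 : 0 ≤ θ ^ 2 := sq_nonneg _
  nlinarith

lemma psiF_pos (h0 : 0 ≤ θ) (h1 : θ < 1) (h : ℝ) : 0 < psiF θ h := by
  unfold psiF
  have h2 := Real.tanh_sq_lt_one h
  exact div_pos (by linarith) (Nish_aux_psi_denominator h0 h1 h)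

lemma psiF_le_one (h0 : 0 ≤ θ) (h1 : θ < 1) (h : ℝ) : psiF θ h ≤ 1 := by
  unfold psiF
  have h2 := Real.tanh_sq_lt_one h
  have h3 : θ ^ 2 < 1 := by nlinarith
  have h4 : 0 ≤ Real.tanh h ^ 2 := sq_nonneg _
  rw [div_le_one (Nish_aux_psi_denominator h0 h1 h)]
  nlinarith

lemma psiF_le (h0 : 0 ≤ θ) (h1 : θ < 1) (h : ℝ) : psiF θ h ≤ 1 - (1 - θ ^ 2) * Real.tanh h ^ 2 := by
  unfold psiF
  have hd := Nish_aux_psi_denominator h0 h1 h
  rw [div_le_iff₀ hd]
  have h3 : θ ^ 2 < 1 := by nlinarith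
  have h4 : 0 ≤ Real.tanh h ^ 2 := sq_nonneg _
  have h5 : 0 ≤ θ ^ 2 := sq_nonneg _
  have h6 : 0 ≤ (1 - θ ^ 2) * θ ^ 2 * (Real.tanh h ^ 2) ^ 2 := by
    apply mul_nonneg (mul_nonneg (by linarith) h5) (sq_nonneg _)
  nlinarith

lemma psiF_even (h : ℝ) : psiF θ (-h) = psiF θ h := by
  simp [psiF, Real.tanh_neg]

lemma Nish_aux_hasDerivAt_Uf (h0 : 0 ≤ θ) (h1 : θ < 1) (h : ℝ) :
    HasDerivAt (Uf θ) (θ * psiF θ h) h := by
  have d1 : HasDerivAt (fun x => θ * Real.tanh x) (θ * (1 - Real.tanh h ^ 2)) h :=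
    (Nish_aux_hasDerivAt_tanh h).const_mul θ
  have d2 := (Nish_aux_hasDerivAt_artanh (Nish_aux_mem h0 h1 h)).comp h d1
  refine d2.congr_deriv ?_
  unfold psiF
  have hd := Nish_aux_psi_denominator h0 h1 h
  have e : 1 - (θ * Real.tanh h) ^ 2 = 1 - θ ^ 2 * Real.tanh h ^ 2 := by ring
  rw [e]
  field_simp

lemma Uf_lip (h0 : 0 ≤ θ) (h1 : θ < 1) (a b : ℝ) : |Uf θ a - Uf θ b| ≤ θ * |a - b| := by
  have := Convex.norm_image_sub_le_of_norm_hasDerivWithin_le (𝕜 := ℝ) (G := ℝ) (f := Uf θ)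
    (f' := fun h => θ * psiF θ h) (C := θ) (s := Set.univ) (x := b) (y := a)
    (fun x _ => (Nish_aux_hasDerivAt_Uf h0 h1 x).hasDerivWithinAt)
    (fun x _ => by
      rw [Real.norm_eq_abs, abs_of_nonneg (mul_nonneg h0 (psiF_pos h0 h1 x).le)]
      exact mul_le_of_le_one_right h0 (psiF_le_one h0 h1 x))
    convex_univ (Set.mem_univ _) (Set.mem_univ _)
  simpa [Real.norm_eq_abs] using this

lemma Nish_aux_Uf_zero : Uf θ 0 = 0 := by simp [Uf]

lemma Uf_abs_le (h0 : 0 ≤ θ) (h1 : θ < 1) (a : ℝ) : |Uf θ a| ≤ θ * |a| := by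
  have := Uf_lip h0 h1 a 0
  simpa [Nish_aux_Uf_zero] using this

lemma Nish_aux_abs_tanh_le (x : ℝ) : |Real.tanh x| ≤ |x| := by
  have := Convex.norm_image_sub_le_of_norm_hasDerivWithin_le (𝕜 := ℝ) (G := ℝ) (f := Real.tanh)
    (f' := fun h => 1 - Real.tanh h ^ 2) (C := 1) (s := Set.univ) (x := 0) (y := x)
    (fun x _ => (Nish_aux_hasDerivAt_tanh x).hasDerivWithinAt)
    (fun x _ => by
      have h2 := Real.tanh_sq_lt_one x
      have h4 : 0 ≤ Real.tanh x ^ 2 := sq_nonneg _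
      rw [Real.norm_eq_abs, abs_of_nonneg (by linarith)]
      linarith)
    convex_univ (Set.mem_univ _) (Set.mem_univ _)
  simpa [Real.norm_eq_abs] using this

lemma Uf_abs_ge_tanh (h0 : 0 ≤ θ) (h1 : θ < 1) (a : ℝ) : θ * |Real.tanh a| ≤ |Uf θ a| := by
  have := Nish_aux_abs_tanh_le (Uf θ a)
  rw [tanh_Uf h0 h1, abs_mul, abs_of_nonneg h0] at this
  exact this

lemma Nish_aux_tanh_mono : Monotone Real.tanh := by
  apply monotone_of_hasDerivAt_nonneg (f' := fun x => 1 - Real.tanh x ^ 2)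
  · exact Nish_aux_hasDerivAt_tanh
  · intro x
    have h2 := Real.tanh_sq_lt_one x
    show 0 ≤ 1 - Real.tanh x ^ 2
    linarith

/-- Concavity of `tanh` on the positive half line, at the point `0`. -/
lemma Nish_aux_tanh_concave {w s : ℝ} (hw : 0 ≤ w) (hw1 : w ≤ 1) (hs : 0 ≤ s) :
    w * Real.tanh s ≤ Real.tanh (w * s) := by
  -- the difference is monotone on the half line, and vanishes at zero
  have hmono : MonotoneOn (fun x => Real.tanh (w * x) - w * Real.tanh x) (Set.Ici 0) := by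
    apply monotoneOn_of_deriv_nonneg (convex_Ici 0)
    · exact ((Nish_aux_continuous_tanh.comp (continuous_const.mul continuous_id)).sub
        (continuous_const.mul Nish_aux_continuous_tanh)).continuousOn
    · intro x _
      have d0 : HasDerivAt (fun y => w * y) w x := by simpa using (hasDerivAt_id x).const_mul w
      have d1 : HasDerivAt (fun x => Real.tanh (w * x)) ((1 - Real.tanh (w * x) ^ 2) * w) x :=
        (Nish_aux_hasDerivAt_tanh (w * x)).comp x d0
      have d2 : HasDerivAt (fun x => w * Real.tanh x) (w * (1 - Real.tanh x ^ 2)) x :=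
        (Nish_aux_hasDerivAt_tanh x).const_mul w
      exact (d1.fun_sub d2).differentiableAt.differentiableWithinAt
    · intro x hx
      have hx' : 0 ≤ x := by
        simpa using interior_subset hx
      have d0 : HasDerivAt (fun y => w * y) w x := by simpa using (hasDerivAt_id x).const_mul w
      have d1 : HasDerivAt (fun x => Real.tanh (w * x)) ((1 - Real.tanh (w * x) ^ 2) * w) x :=
        (Nish_aux_hasDerivAt_tanh (w * x)).comp x d0
      have d2 : HasDerivAt (fun x => w * Real.tanh x) (w * (1 - Real.tanh x ^ 2)) x :=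
        (Nish_aux_hasDerivAt_tanh x).const_mul w
      rw [(d1.fun_sub d2).deriv]
      have h3 : w * x ≤ x := mul_le_of_le_one_left hx' hw1
      have h4 : Real.tanh (w * x) ≤ Real.tanh x := Nish_aux_tanh_mono h3
      have h5 : 0 ≤ Real.tanh (w * x) := by
        have := Nish_aux_tanh_mono (mul_nonneg hw hx')
        simpa using this
      have h6 : Real.tanh (w * x) ^ 2 ≤ Real.tanh x ^ 2 := by
        apply pow_le_pow_left₀ h5 h4
      nlinarith
  have := hmono (Set.mem_Ici.mpr le_rfl) (Set.mem_Ici.mpr hs) hs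
  simp only [mul_zero, Real.tanh_zero, sub_self] at this
  linarith

lemma Uf_abs_le_tanh (h0 : 0 ≤ θ) (h1 : θ < 1) (a : ℝ) :
    |Uf θ a| ≤ (Real.artanh θ) * |Real.tanh a| := by
  -- reduce to the nonnegative value of the tanh
  have key : ∀ w : ℝ, 0 ≤ w → w ≤ 1 → Real.artanh (θ * w) ≤ Real.artanh θ * w := by
    intro w hw hw1
    have hs : 0 ≤ Real.artanh θ := Real.artanh_nonneg h0
    have h2 := Nish_aux_tanh_concave hw hw1 hs
    rw [Real.tanh_artanh ⟨by linarith, h1⟩] at h2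
    have h3 : Real.artanh (w * θ) ≤ Real.artanh (Real.tanh (w * Real.artanh θ)) := by
      apply Real.artanh_le_artanh _ (Real.tanh_lt_one _) h2
      nlinarith
    rw [Real.artanh_tanh] at h3
    rw [mul_comm θ w, mul_comm (Real.artanh θ) w]
    exact h3
  have hw0 : 0 ≤ |Real.tanh a| := abs_nonneg _
  have hw1 : |Real.tanh a| ≤ 1 := (Real.abs_tanh_lt_one a).le
  have k := key _ hw0 hw1
  have hn : 0 ≤ Real.artanh (θ * |Real.tanh a|) := Real.artanh_nonneg (mul_nonneg h0 hw0)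
  rcases abs_cases (Real.tanh a) with ⟨e, _⟩ | ⟨e, _⟩
  · rw [e] at k hn
    rw [e]
    unfold Uf
    rwa [abs_of_nonneg hn]
  · rw [e] at k hn
    rw [e]
    unfold Uf
    rw [mul_neg, Nish_aux_artanh_odd] at k hn
    have hn' : Real.artanh (θ * Real.tanh a) ≤ 0 := by linarith
    rw [abs_of_nonpos hn']
    linarith

lemma measurable_Uf : Measurable (Uf θ) := by
  unfold Uf Real.artanh
  have h := Nish_aux_measurable_tanh
  fun_prop

lemma measurable_psiF : Measurable (psiF θ) := by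
  unfold psiF
  have h := Nish_aux_measurable_tanh
  fun_prop

end Uf


section Basic

variable {μ ν : Measure ℝ} {θ : ℝ}

lemma Nish.isProb (h : Nish μ) : IsProbabilityMeasure μ := h.prob

/-- Bounded measurable functions are integrable against finite measures. -/
lemma Nish_aux_int {μ : Measure ℝ} [IsFiniteMeasure μ] {g : ℝ → ℝ} (hg : BddM g) :
    Integrable g μ := by
  obtain ⟨m, C, hC⟩ := hg
  exact Integrable.of_bound m.aestronglyMeasurable C (Filter.Eventually.of_forall hC)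

lemma Nish_aux_bdd_tanh : BddM Real.tanh :=
  ⟨Nish_aux_measurable_tanh, 1, fun x => (Real.abs_tanh_lt_one x).le⟩

lemma Nish_aux_bdd_mul {f g : ℝ → ℝ} (hf : BddM f) (hg : BddM g) : BddM (fun x => f x * g x) := by
  obtain ⟨mf, C, hC⟩ := hf
  obtain ⟨mg, D, hD⟩ := hg
  refine ⟨mf.mul mg, C * D, fun x => ?_⟩
  rw [abs_mul]
  exact mul_le_mul (hC x) (hD x) (abs_nonneg _) ((abs_nonneg _).trans (hC x))

lemma Nish_aux_bdd_add {f g : ℝ → ℝ} (hf : BddM f) (hg : BddM g) : BddM (fun x => f x + g x) := by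
  obtain ⟨mf, C, hC⟩ := hf
  obtain ⟨mg, D, hD⟩ := hg
  exact ⟨mf.add mg, C + D, fun x => (abs_add_le _ _).trans (add_le_add (hC x) (hD x))⟩

lemma Nish_aux_bdd_const (c : ℝ) : BddM (fun _ => c) :=
  ⟨measurable_const, |c|, fun _ => le_rfl⟩

lemma Nish_aux_bdd_neg {g : ℝ → ℝ} (hg : BddM g) : BddM (fun x => g (-x)) := by
  obtain ⟨m, C, hC⟩ := hg
  exact ⟨m.comp measurable_neg, C, fun x => hC (-x)⟩

lemma Nish_aux_exp_tanh (x : ℝ) : (1 + Real.tanh x) * Real.exp (-2 * x) = 1 - Real.tanh x := by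
  rw [Real.tanh_eq]
  have e : Real.exp (-2 * x) = Real.exp (-x) * Real.exp (-x) := by
    rw [← Real.exp_add]; congr 1; ring
  rw [e, Real.exp_neg]
  have hE : Real.exp x ≠ 0 := (Real.exp_pos x).ne'
  have hS : Real.exp x + (Real.exp x)⁻¹ ≠ 0 := by
    have : 0 < (Real.exp x)⁻¹ := inv_pos.mpr (Real.exp_pos x)
    have := Real.exp_pos x
    positivity
  field_simp
  ring

lemma Nish_aux_exp_tanh' (x : ℝ) : (1 - Real.tanh x) * Real.exp (2 * x) = 1 + Real.tanh x := by
  have := Nish_aux_exp_tanh (-x)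
  rw [Real.tanh_neg] at this
  have e : -2 * -x = 2 * x := by ring
  rw [e] at this
  simpa [sub_eq_add_neg] using this

lemma Nish_aux_bdd_p : BddM (fun x => (1 + Real.tanh x) / 2) :=
  ⟨(measurable_const.add Nish_aux_measurable_tanh).div_const 2, 1, fun x => by
    rw [abs_le]; constructor <;> linarith [Real.tanh_lt_one x, Real.neg_one_lt_tanh x]⟩

lemma Nish_aux_bdd_m : BddM (fun x => (1 - Real.tanh x) / 2) :=
  ⟨(measurable_const.sub Nish_aux_measurable_tanh).div_const 2, 1, fun x => by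
    rw [abs_le]; constructor <;> linarith [Real.tanh_lt_one x, Real.neg_one_lt_tanh x]⟩

lemma Nish_aux_bdd_tanh_pow (n : ℕ) : BddM (fun x => Real.tanh x ^ n) :=
  ⟨Nish_aux_measurable_tanh.pow_const n, 1, fun x => by
    rw [abs_pow]; exact pow_le_one₀ (abs_nonneg _) (Real.abs_tanh_lt_one x).le⟩

/-- Symmetrisation: `∫ g = ∫ [g(h) (1 + tanh h) / 2 + g(-h) (1 - tanh h) / 2]`. -/
lemma Nish.symmetrise (h : Nish μ) {g : ℝ → ℝ} (hg : BddM g) :
    ∫ x, g x ∂μ = ∫ x, (g x * ((1 + Real.tanh x) / 2) + g (-x) * ((1 - Real.tanh x) / 2)) ∂μ := by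
  have := h.prob
  have ht := Nish_aux_bdd_tanh
  have hp := Nish_aux_bdd_p
  have hm := Nish_aux_bdd_m
  have hF : BddM (fun x => g (-x) * ((1 + Real.tanh x) / 2)) :=
    Nish_aux_bdd_mul (Nish_aux_bdd_neg hg) hp
  have key := h.symm _ hF
  have e1 : ∀ x, g (- -x) * ((1 + Real.tanh (-x)) / 2) = g x * ((1 - Real.tanh x) / 2) := by
    intro x
    rw [neg_neg, Real.tanh_neg]
    congr 1
  have e2 : ∀ x, g (-x) * ((1 + Real.tanh x) / 2) * Real.exp (-2 * x)
      = g (-x) * ((1 - Real.tanh x) / 2) := by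
    intro x
    rw [← Nish_aux_exp_tanh x]
    ring
  simp only [e1, e2] at key
  have i1 : Integrable (fun x => g x * ((1 + Real.tanh x) / 2)) μ :=
    Nish_aux_int (Nish_aux_bdd_mul hg hp)
  have i2 : Integrable (fun x => g x * ((1 - Real.tanh x) / 2)) μ :=
    Nish_aux_int (Nish_aux_bdd_mul hg hm)
  have i3 : Integrable (fun x => g (-x) * ((1 - Real.tanh x) / 2)) μ :=
    Nish_aux_int (Nish_aux_bdd_mul (Nish_aux_bdd_neg hg) hm)
  rw [integral_add i1 i3, ← key, ← integral_add i1 i2]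
  congr 1
  ext x
  ring

/-- For a bounded odd function, the integral equals the integral of the function times `tanh`. -/
lemma Nish.odd (h : Nish μ) {g : ℝ → ℝ} (hg : BddM g) (hodd : ∀ x, g (-x) = - g x) :
    ∫ x, g x ∂μ = ∫ x, g x * Real.tanh x ∂μ := by
  rw [h.symmetrise hg]
  congr 1
  ext x
  rw [hodd]
  ring

lemma Nish.tanh_eq (h : Nish μ) : At μ = ∫ x, Real.tanh x ^ 2 ∂μ := by
  unfold At
  rw [h.odd Nish_aux_bdd_tanh (fun x => Real.tanh_neg x)]
  congr 1
  ext x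
  ring

lemma Nish.tanh_cube (h : Nish μ) : ∫ x, Real.tanh x ^ 3 ∂μ = ∫ x, Real.tanh x ^ 4 ∂μ := by
  have hb := Nish_aux_bdd_tanh_pow 3
  rw [h.odd hb (fun x => by rw [Real.tanh_neg]; ring)]
  apply integral_congr_ae
  filter_upwards with x
  ring

/-- Odd moments are bounded by the next even moment. -/
lemma Nish.odd_moment (h : Nish μ) (j : ℕ) :
    |∫ x, x ^ (2 * j + 1) ∂μ| ≤ ∫ x, x ^ (2 * j + 2) ∂μ := by
  have := h.prob
  obtain ⟨M, hM⟩ := h.bdd
  -- a truncation of the odd power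
  set g : ℝ → ℝ := fun x => if |x| ≤ M then x ^ (2 * j + 1) else 0 with hgdef
  have hgm : Measurable g := by
    apply Measurable.ite
    · exact measurableSet_le measurable_norm measurable_const
    · exact measurable_id.pow_const _
    · exact measurable_const
  have hgb : ∀ x, |g x| ≤ |M| ^ (2 * j + 1) := by
    intro x
    simp only [hgdef]
    split_ifs with hx
    · rw [abs_pow]
      exact pow_le_pow_left₀ (abs_nonneg _) (hx.trans (le_abs_self M)) _
    · simp [abs_nonneg]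
  have hb : BddM g := ⟨hgm, _, hgb⟩
  have hodd : ∀ x, g (-x) = - g x := by
    intro x
    simp only [hgdef, abs_neg]
    split_ifs with hx
    · exact Odd.neg_pow ⟨j, rfl⟩ x
    · simp
  have e1 : ∀ᵐ x ∂μ, g x = x ^ (2 * j + 1) := by
    filter_upwards [hM] with x hx
    simp [hgdef, hx]
  have i1 : Integrable (fun x => x ^ (2 * j + 2)) μ := by
    refine Integrable.of_bound (measurable_id.pow_const _).aestronglyMeasurable
      (|M| ^ (2 * j + 2)) ?_
    filter_upwards [hM] with x hx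
    rw [Real.norm_eq_abs, abs_pow]
    exact pow_le_pow_left₀ (abs_nonneg _) (hx.trans (le_abs_self M)) _
  calc |∫ x, x ^ (2 * j + 1) ∂μ| = |∫ x, g x ∂μ| := by
        rw [integral_congr_ae e1]
    _ = |∫ x, g x * Real.tanh x ∂μ| := by rw [h.odd hb hodd]
    _ ≤ ∫ x, |g x * Real.tanh x| ∂μ := abs_integral_le_integral_abs
    _ ≤ ∫ x, x ^ (2 * j + 2) ∂μ := by
        apply integral_mono_ae
        · exact (Nish_aux_int (Nish_aux_bdd_mul hb Nish_aux_bdd_tanh)).abs
        · exact i1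
        · filter_upwards [e1] with x hx
          show |g x * Real.tanh x| ≤ x ^ (2 * j + 2)
          rw [hx, abs_mul, abs_pow]
          have h3 := Nish_aux_abs_tanh_le x
          have h4 : x ^ (2 * j + 2) = |x| ^ (2 * j + 1) * |x| := by
            rw [← pow_succ, ← abs_pow, abs_of_nonneg]
            exact Even.pow_nonneg ⟨j + 1, by ring⟩ x
          rw [h4]
          exact mul_le_mul_of_nonneg_left h3 (pow_nonneg (abs_nonneg _) _)

/-- The integrand of the symmetry relation is integrable: the exponential is a.e. bounded. -/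
lemma Nish_aux_int_exp (h : Nish μ) {F : ℝ → ℝ} (hF : BddM F) :
    Integrable (fun x => F x * Real.exp (-2 * x)) μ := by
  have := h.prob
  obtain ⟨M, hM⟩ := h.bdd
  obtain ⟨m, C, hC⟩ := hF
  refine Integrable.of_bound (m.mul (by fun_prop)).aestronglyMeasurable
    (C * Real.exp (2 * |M|)) ?_
  filter_upwards [hM] with x hx
  rw [Real.norm_eq_abs, abs_mul, abs_of_pos (Real.exp_pos _)]
  have h1 : -2 * x ≤ 2 * |M| := by
    have := neg_abs_le x
    have := le_abs_self M
    linarith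
  exact mul_le_mul (hC x) (Real.exp_le_exp.mpr h1) (Real.exp_pos _).le ((abs_nonneg _).trans (hC x))

lemma Nish_aux_cvl_integral {μ ν : Measure ℝ} [IsProbabilityMeasure μ] [IsProbabilityMeasure ν]
    {F : ℝ → ℝ} (hm : Measurable F)
    (hi : Integrable (fun p : ℝ × ℝ => F (p.1 + p.2)) (μ.prod ν)) :
    ∫ z, F z ∂(Vale.Agent.Lib.P161B.cvl μ ν) = ∫ x, ∫ y, F (x + y) ∂ν ∂μ := by
  unfold Vale.Agent.Lib.P161B.cvl
  rw [integral_map (by fun_prop) hm.aestronglyMeasurable]
  exact integral_prod _ hi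

lemma Nish_aux_int_prod {μ ν : Measure ℝ} [IsProbabilityMeasure μ] [IsProbabilityMeasure ν]
    {G : ℝ × ℝ → ℝ} (hm : Measurable G) {M M' C : ℝ}
    (hM : ∀ᵐ x ∂μ, |x| ≤ M) (hM' : ∀ᵐ y ∂ν, |y| ≤ M')
    (hb : ∀ x y, |x| ≤ M → |y| ≤ M' → |G (x, y)| ≤ C) :
    Integrable G (μ.prod ν) := by
  refine Integrable.of_bound hm.aestronglyMeasurable C ?_
  have h1 : ∀ᵐ p ∂(μ.prod ν), |p.1| ≤ M := Measure.quasiMeasurePreserving_fst.ae hM
  have h2 : ∀ᵐ p ∂(μ.prod ν), |p.2| ≤ M' := Measure.quasiMeasurePreserving_snd.ae hM'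
  filter_upwards [h1, h2] with p hp1 hp2
  rw [Real.norm_eq_abs]
  exact hb p.1 p.2 hp1 hp2

lemma Nish.cvl (h : Nish μ) (h' : Nish ν) : Nish (cvl μ ν) := by
  have := h.prob
  have := h'.prob
  obtain ⟨M, hM⟩ := h.bdd
  obtain ⟨M', hM'⟩ := h'.bdd
  have hadd : Measurable (fun p : ℝ × ℝ => p.1 + p.2) := by fun_prop
  refine ⟨?_, ⟨M + M', ?_⟩, ?_⟩
  · exact Measure.isProbabilityMeasure_map hadd.aemeasurable
  · unfold Vale.Agent.Lib.P161B.cvl
    have hs : MeasurableSet {z : ℝ | |z| ≤ M + M'} := measurableSet_le (by fun_prop) measurable_const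
    rw [ae_map_iff hadd.aemeasurable hs]
    have h1 : ∀ᵐ p ∂(μ.prod ν), |p.1| ≤ M := Measure.quasiMeasurePreserving_fst.ae hM
    have h2 : ∀ᵐ p ∂(μ.prod ν), |p.2| ≤ M' := Measure.quasiMeasurePreserving_snd.ae hM'
    filter_upwards [h1, h2] with p hp1 hp2
    exact (abs_add_le _ _).trans (add_le_add hp1 hp2)
  · intro F hF
    obtain ⟨hFm, C, hC⟩ := id hF
    -- exponential bounds on the supports
    have hE : ∀ x : ℝ, |x| ≤ M → Real.exp (-2 * x) ≤ Real.exp (2 * |M|) := by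
      intro x hx
      apply Real.exp_le_exp.mpr
      have := neg_abs_le x
      have := le_abs_self M
      linarith
    have hE' : ∀ x : ℝ, |x| ≤ M' → Real.exp (-2 * x) ≤ Real.exp (2 * |M'|) := by
      intro x hx
      apply Real.exp_le_exp.mpr
      have := neg_abs_le x
      have := le_abs_self M'
      linarith
    have hC0 : 0 ≤ C := (abs_nonneg _).trans (hC 0)
    -- left hand side
    have l1 : ∫ z, F (-z) ∂(Vale.Agent.Lib.P161B.cvl μ ν) = ∫ x, ∫ y, F (-(x + y)) ∂ν ∂μ := by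
      apply Nish_aux_cvl_integral (F := fun z => F (-z)) (hFm.comp measurable_neg)
      exact Nish_aux_int_prod (by fun_prop) hM hM' (C := C) (fun x y _ _ => hC _)
    -- right hand side
    have r1 : ∫ z, F z * Real.exp (-2 * z) ∂(Vale.Agent.Lib.P161B.cvl μ ν)
        = ∫ x, ∫ y, F (x + y) * Real.exp (-2 * (x + y)) ∂ν ∂μ := by
      apply Nish_aux_cvl_integral (F := fun z => F z * Real.exp (-2 * z)) (by fun_prop)
      refine Nish_aux_int_prod (by fun_prop) hM hM'
        (C := C * (Real.exp (2 * |M|) * Real.exp (2 * |M'|))) (fun x y hx hy => ?_)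
      rw [abs_mul, abs_of_pos (Real.exp_pos _)]
      apply mul_le_mul (hC _) _ (Real.exp_pos _).le hC0
      have e : -2 * (x + y) = -2 * x + -2 * y := by ring
      rw [e, Real.exp_add]
      exact mul_le_mul (hE x hx) (hE' y hy) (Real.exp_pos _).le (Real.exp_pos _).le
    rw [l1, r1]
    -- inner symmetry in the second variable
    have s1 : ∀ x, ∫ y, F (-(x + y)) ∂ν = ∫ y, F (-x + y) * Real.exp (-2 * y) ∂ν := by
      intro x
      have hG : BddM (fun y => F (-x + y)) := ⟨by fun_prop, C, fun y => hC _⟩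
      have this : ∫ y, F (-x + -y) ∂ν = ∫ y, F (-x + y) * Real.exp (-2 * y) ∂ν := h'.symm _ hG
      rw [← this]
      congr 1
      ext y
      congr 1
      ring
    simp only [s1]
    -- Fubini
    have sw1 : ∫ x, ∫ y, F (-x + y) * Real.exp (-2 * y) ∂ν ∂μ
        = ∫ y, ∫ x, F (-x + y) * Real.exp (-2 * y) ∂μ ∂ν := by
      apply integral_integral_swap
      refine Nish_aux_int_prod (G := Function.uncurry fun x y => F (-x + y) * Real.exp (-2 * y))
        ?_ hM hM' (C := C * Real.exp (2 * |M'|)) (fun x y _ hy => ?_)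
      · unfold Function.uncurry
        fun_prop
      · simp only [Function.uncurry]
        rw [abs_mul, abs_of_pos (Real.exp_pos _)]
        exact mul_le_mul (hC _) (hE' y hy) (Real.exp_pos _).le hC0
    have sw2 : ∫ x, ∫ y, F (x + y) * Real.exp (-2 * (x + y)) ∂ν ∂μ
        = ∫ y, ∫ x, F (x + y) * Real.exp (-2 * (x + y)) ∂μ ∂ν := by
      apply integral_integral_swap
      refine Nish_aux_int_prod
        (G := Function.uncurry fun x y => F (x + y) * Real.exp (-2 * (x + y)))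
        ?_ hM hM' (C := C * (Real.exp (2 * |M|) * Real.exp (2 * |M'|))) (fun x y hx hy => ?_)
      · unfold Function.uncurry
        fun_prop
      · simp only [Function.uncurry]
        rw [abs_mul, abs_of_pos (Real.exp_pos _)]
        apply mul_le_mul (hC _) _ (Real.exp_pos _).le hC0
        have e : -2 * (x + y) = -2 * x + -2 * y := by ring
        rw [e, Real.exp_add]
        exact mul_le_mul (hE x hx) (hE' y hy) (Real.exp_pos _).le (Real.exp_pos _).le
    rw [sw1, sw2]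
    congr 1
    ext y
    -- outer symmetry in the first variable
    have hG : BddM (fun x => F (y + x)) := ⟨by fun_prop, C, fun x => hC _⟩
    have this : ∫ x, F (y + -x) ∂μ = ∫ x, F (y + x) * Real.exp (-2 * x) ∂μ := h.symm _ hG
    rw [integral_mul_const]
    have e1 : ∫ x, F (-x + y) ∂μ = ∫ x, F (y + x) * Real.exp (-2 * x) ∂μ := by
      rw [← this]
      congr 1
      ext x
      congr 1
      ring
    rw [e1, ← integral_mul_const]
    congr 1
    ext x
    rw [add_comm y x, mul_assoc, ← Real.exp_add]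
    congr 2
    ring

lemma nish_dirac : Nish (Measure.dirac (0 : ℝ)) := by
  refine ⟨inferInstance, ⟨0, ?_⟩, ?_⟩
  · rw [ae_dirac_eq]
    simp
  · intro F hF
    rw [integral_dirac, integral_dirac]
    simp

lemma Nish.powC (h : Nish ν) (k : ℕ) : Nish (powC ν k) := by
  induction k with
  | zero => exact nish_dirac
  | succ k ih => exact ih.cvl h

lemma Nish_aux_Uf_le_artanh (h0 : 0 ≤ θ) (h1 : θ < 1) (h : ℝ) : |Uf θ h| ≤ Real.artanh θ := by
  have h2 := Uf_abs_le_tanh h0 h1 h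
  have h3 : 0 ≤ Real.artanh θ := Real.artanh_nonneg h0
  have h4 := (Real.abs_tanh_lt_one h).le
  have h5 : Real.artanh θ * |Real.tanh h| ≤ Real.artanh θ * 1 := mul_le_mul_of_nonneg_left h4 h3
  linarith

lemma Nish_aux_mix_prob {μ ν : Measure ℝ} [IsProbabilityMeasure μ] [IsProbabilityMeasure ν]
    {p q : ℝ} (hp : 0 ≤ p) (hq : 0 ≤ q) (hpq : p + q = 1) :
    IsProbabilityMeasure (ENNReal.ofReal p • μ + ENNReal.ofReal q • ν) := by
  constructor
  simp only [Measure.add_apply, Measure.smul_apply, measure_univ, smul_eq_mul, mul_one]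
  rw [← ENNReal.ofReal_add hp hq, hpq, ENNReal.ofReal_one]

lemma Nish_aux_mix_integral {μ ν : Measure ℝ} {p q : ℝ} (hp : 0 ≤ p) (hq : 0 ≤ q)
    {F : ℝ → ℝ} (h1 : Integrable F μ) (h2 : Integrable F ν) :
    ∫ z, F z ∂(ENNReal.ofReal p • μ + ENNReal.ofReal q • ν)
      = p * ∫ z, F z ∂μ + q * ∫ z, F z ∂ν := by
  rw [integral_add_measure (h1.smul_measure ENNReal.ofReal_ne_top)
    (h2.smul_measure ENNReal.ofReal_ne_top), integral_smul_measure, integral_smul_measure,
    ENNReal.toReal_ofReal hp, ENNReal.toReal_ofReal hq]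
  simp only [smul_eq_mul]

lemma Nish_aux_msg_integral {μ : Measure ℝ} [IsProbabilityMeasure μ] (h0 : 0 ≤ θ) (h1 : θ < 1)
    {F : ℝ → ℝ} (hF : Measurable F) {C : ℝ} (hC : ∀ z, |z| ≤ Real.artanh θ → |F z| ≤ C) :
    ∫ z, F z ∂(Vale.Agent.Lib.P161B.msg θ μ)
      = (1 + θ) / 2 * ∫ h, F (Uf θ h) ∂μ + (1 - θ) / 2 * ∫ h, F (- Uf θ h) ∂μ := by
  have hU : Measurable (Uf θ) := measurable_Uf
  have hU' : Measurable (fun h => - Uf θ h) := hU.neg
  have i1 : Integrable (fun h => F (Uf θ h)) μ :=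
    Integrable.of_bound (hF.comp hU).aestronglyMeasurable C
      (Filter.Eventually.of_forall fun h => hC _ (Nish_aux_Uf_le_artanh h0 h1 h))
  have i2 : Integrable (fun h => F (- Uf θ h)) μ :=
    Integrable.of_bound (hF.comp hU').aestronglyMeasurable C
      (Filter.Eventually.of_forall fun h => hC _ (by
        rw [abs_neg]; exact Nish_aux_Uf_le_artanh h0 h1 h))
  unfold Vale.Agent.Lib.P161B.msg
  rw [Nish_aux_mix_integral (by linarith) (by linarith)
    ((integrable_map_measure hF.aestronglyMeasurable hU.aemeasurable).mpr i1)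
    ((integrable_map_measure hF.aestronglyMeasurable hU'.aemeasurable).mpr i2),
    integral_map hU.aemeasurable hF.aestronglyMeasurable,
    integral_map hU'.aemeasurable hF.aestronglyMeasurable]

/-- The message map preserves the symmetry. -/
lemma Nish.msg (h : Nish μ) (h0 : 0 ≤ θ) (h1 : θ < 1) : Nish (msg θ μ) := by
  have := h.prob
  have hU : Measurable (Uf θ) := measurable_Uf
  have hU' : Measurable (fun h => - Uf θ h) := hU.neg
  have hA := Nish_aux_Uf_le_artanh h0 h1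
  refine ⟨?_, ⟨Real.artanh θ, ?_⟩, ?_⟩
  · have := Measure.isProbabilityMeasure_map (μ := μ) hU.aemeasurable
    have := Measure.isProbabilityMeasure_map (μ := μ) hU'.aemeasurable
    exact Nish_aux_mix_prob (by linarith) (by linarith) (by ring)
  · have hs : MeasurableSet {z : ℝ | |z| ≤ Real.artanh θ} :=
      measurableSet_le (by fun_prop) measurable_const
    unfold Vale.Agent.Lib.P161B.msg
    rw [ae_add_measure_iff]
    constructor
    · apply Measure.ae_smul_measure
      rw [ae_map_iff hU.aemeasurable hs]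
      exact Filter.Eventually.of_forall hA
    · apply Measure.ae_smul_measure
      rw [ae_map_iff hU'.aemeasurable hs]
      refine Filter.Eventually.of_forall fun x => ?_
      show |(- Uf θ x)| ≤ _
      rw [abs_neg]
      exact hA x
  · intro F hF
    obtain ⟨hFm, C, hC⟩ := id hF
    have hC0 : 0 ≤ C := (abs_nonneg _).trans (hC 0)
    set E := Real.exp (2 * Real.artanh θ) with hE
    have hE0 : 0 < E := Real.exp_pos _
    have hexp : ∀ z, |z| ≤ Real.artanh θ → Real.exp (-2 * z) ≤ E := by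
      intro z hz
      apply Real.exp_le_exp.mpr
      have := neg_abs_le z
      linarith
    have hexp' : ∀ z, |z| ≤ Real.artanh θ → Real.exp (2 * z) ≤ E := by
      intro z hz
      apply Real.exp_le_exp.mpr
      have := le_abs_self z
      linarith
    have l1 : ∫ z, F (-z) ∂(Vale.Agent.Lib.P161B.msg θ μ)
        = (1 + θ) / 2 * ∫ h, F (- Uf θ h) ∂μ + (1 - θ) / 2 * ∫ h, F (Uf θ h) ∂μ := by
      have := Nish_aux_msg_integral (μ := μ) h0 h1 (F := fun z => F (-z))
        (hFm.comp measurable_neg) (C := C) (fun z _ => hC _)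
      simpa only [neg_neg] using this
    have r1 : ∫ z, F z * Real.exp (-2 * z) ∂(Vale.Agent.Lib.P161B.msg θ μ)
        = (1 + θ) / 2 * ∫ h, F (Uf θ h) * Real.exp (-2 * Uf θ h) ∂μ
          + (1 - θ) / 2 * ∫ h, F (- Uf θ h) * Real.exp (2 * Uf θ h) ∂μ := by
      have := Nish_aux_msg_integral (μ := μ) h0 h1 (F := fun z => F z * Real.exp (-2 * z))
        (by fun_prop) (C := C * E) (fun z hz => by
          rw [abs_mul, abs_of_pos (Real.exp_pos _)]
          exact mul_le_mul (hC _) (hexp z hz) (Real.exp_pos _).le hC0)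
      have e : ∀ h, -2 * - Uf θ h = 2 * Uf θ h := fun h => by ring
      simpa only [e] using this
    rw [l1, r1]
    -- the four bounded functions
    have ba : BddM (fun h => F (Uf θ h)) := ⟨hFm.comp hU, C, fun _ => hC _⟩
    have bb : BddM (fun h => F (- Uf θ h)) := ⟨hFm.comp hU', C, fun _ => hC _⟩
    have bc : BddM (fun h => F (Uf θ h) * Real.exp (-2 * Uf θ h)) :=
      ⟨by fun_prop, C * E, fun h => by
        rw [abs_mul, abs_of_pos (Real.exp_pos _)]
        exact mul_le_mul (hC _) (hexp _ (hA h)) (Real.exp_pos _).le hC0⟩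
    have bd : BddM (fun h => F (- Uf θ h) * Real.exp (2 * Uf θ h)) :=
      ⟨by fun_prop, C * E, fun h => by
        rw [abs_mul, abs_of_pos (Real.exp_pos _)]
        exact mul_le_mul (hC _) (hexp' _ (hA h)) (Real.exp_pos _).le hC0⟩
    have hp := Nish_aux_bdd_p
    have hm := Nish_aux_bdd_m
    have sa : ∫ x, F (Uf θ x) ∂μ
        = ∫ x, (F (Uf θ x) * ((1 + Real.tanh x) / 2) + F (- Uf θ x) * ((1 - Real.tanh x) / 2)) ∂μ := by
      have := h.symmetrise ba
      simpa only [Uf_odd] using this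
    have sb : ∫ x, F (- Uf θ x) ∂μ
        = ∫ x, (F (- Uf θ x) * ((1 + Real.tanh x) / 2) + F (Uf θ x) * ((1 - Real.tanh x) / 2)) ∂μ := by
      have := h.symmetrise bb
      simpa only [Uf_odd, neg_neg] using this
    have e3 : ∀ z : ℝ, -2 * -z = 2 * z := fun z => by ring
    have e4 : ∀ z : ℝ, 2 * -z = -2 * z := fun z => by ring
    have sc : ∫ x, F (Uf θ x) * Real.exp (-2 * Uf θ x) ∂μ
        = ∫ x, (F (Uf θ x) * Real.exp (-2 * Uf θ x) * ((1 + Real.tanh x) / 2)
          + F (- Uf θ x) * Real.exp (2 * Uf θ x) * ((1 - Real.tanh x) / 2)) ∂μ := by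
      have := h.symmetrise bc
      simpa only [Uf_odd, e3] using this
    have sd : ∫ x, F (- Uf θ x) * Real.exp (2 * Uf θ x) ∂μ
        = ∫ x, (F (- Uf θ x) * Real.exp (2 * Uf θ x) * ((1 + Real.tanh x) / 2)
          + F (Uf θ x) * Real.exp (-2 * Uf θ x) * ((1 - Real.tanh x) / 2)) ∂μ := by
      have := h.symmetrise bd
      simpa only [Uf_odd, neg_neg, e4] using this
    have ia := Nish_aux_int (μ := μ) (Nish_aux_bdd_add (Nish_aux_bdd_mul ba hp) (Nish_aux_bdd_mul bb hm))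
    have ib := Nish_aux_int (μ := μ) (Nish_aux_bdd_add (Nish_aux_bdd_mul bb hp) (Nish_aux_bdd_mul ba hm))
    have ic := Nish_aux_int (μ := μ) (Nish_aux_bdd_add (Nish_aux_bdd_mul bc hp) (Nish_aux_bdd_mul bd hm))
    have id' := Nish_aux_int (μ := μ) (Nish_aux_bdd_add (Nish_aux_bdd_mul bd hp) (Nish_aux_bdd_mul bc hm))
    rw [sa, sb, sc, sd, ← integral_const_mul, ← integral_const_mul, ← integral_const_mul,
      ← integral_const_mul, ← integral_add (ib.const_mul _) (ia.const_mul _),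
      ← integral_add (ic.const_mul _) (id'.const_mul _)]
    apply integral_congr_ae
    filter_upwards with x
    have e1 := Nish_aux_exp_tanh (Uf θ x)
    have e2 := Nish_aux_exp_tanh' (Uf θ x)
    rw [tanh_Uf h0 h1] at e1 e2
    linear_combination (-(F (Uf θ x)) / 2) * e1 + (-(F (- Uf θ x)) / 2) * e2

lemma Nish.cavN (h : Nish μ) (h0 : 0 ≤ θ) (h1 : θ < 1) (k n : ℕ) : Nish (cavN θ k μ n) := by
  induction n with
  | zero => exact h
  | succ n ih => exact h.cvl ((ih.msg h0 h1).powC k)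

lemma At_msg (h : Nish μ) (h0 : 0 ≤ θ) (h1 : θ < 1) : At (msg θ μ) = θ ^ 2 * At μ := by
  have := h.prob
  unfold At
  rw [Nish_aux_msg_integral h0 h1 Nish_aux_measurable_tanh (C := 1)
    (fun z _ => (Real.abs_tanh_lt_one z).le)]
  simp only [Real.tanh_neg, tanh_Uf h0 h1, integral_neg, integral_const_mul]
  ring

/-- Mixtures with weights, e.g. the thinning with `dirac 0`. -/
lemma Nish.mix (h : Nish μ) (h' : Nish ν) {p : ℝ} (hp : 0 ≤ p) (hp1 : p ≤ 1) :
    Nish (ENNReal.ofReal p • μ + ENNReal.ofReal (1 - p) • ν) := by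
  have := h.prob
  have := h'.prob
  have hq : 0 ≤ 1 - p := by linarith
  obtain ⟨M, hM⟩ := h.bdd
  obtain ⟨M', hM'⟩ := h'.bdd
  refine ⟨Nish_aux_mix_prob hp hq (by ring), ⟨max M M', ?_⟩, ?_⟩
  · rw [ae_add_measure_iff]
    constructor
    · apply Measure.ae_smul_measure
      filter_upwards [hM] with x hx
      exact hx.trans (le_max_left _ _)
    · apply Measure.ae_smul_measure
      filter_upwards [hM'] with x hx
      exact hx.trans (le_max_right _ _)
  · intro F hF
    rw [Nish_aux_mix_integral hp hq (Nish_aux_int (Nish_aux_bdd_neg hF))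
      (Nish_aux_int (Nish_aux_bdd_neg hF)),
      Nish_aux_mix_integral hp hq (Nish_aux_int_exp h hF) (Nish_aux_int_exp h' hF),
      h.symm F hF, h'.symm F hF]

lemma Nish_aux_tanh_add (x y : ℝ) :
    Real.tanh (x + y) = (Real.tanh x + Real.tanh y) / (1 + Real.tanh x * Real.tanh y) := by
  have hx := Real.cosh_pos x
  have hy := Real.cosh_pos y
  have hxy : 0 < Real.cosh x * Real.cosh y + Real.sinh x * Real.sinh y := by
    rw [← Real.cosh_add]; exact Real.cosh_pos _
  have e : 1 + Real.sinh x / Real.cosh x * (Real.sinh y / Real.cosh y)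
      = (Real.cosh x * Real.cosh y + Real.sinh x * Real.sinh y) / (Real.cosh x * Real.cosh y) := by
    field_simp
  rw [Real.tanh_eq_sinh_div_cosh, Real.sinh_add, Real.cosh_add, Real.tanh_eq_sinh_div_cosh x,
    Real.tanh_eq_sinh_div_cosh y, e]
  field_simp

lemma Nish_aux_bdd_parint {ν : Measure ℝ} [IsProbabilityMeasure ν] {H : ℝ × ℝ → ℝ}
    (hm : Measurable H) {C : ℝ} (hC : ∀ p, |H p| ≤ C) :
    BddM (fun x => ∫ y, H (x, y) ∂ν) := by
  refine ⟨(hm.stronglyMeasurable.integral_prod_right' (ν := ν)).measurable, C, fun x => ?_⟩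
  have := norm_integral_le_of_norm_le_const (μ := ν) (f := fun y => H (x, y)) (C := C)
    (Filter.Eventually.of_forall fun y => hC _)
  simpa using this

/-- Symmetrisation in both variables. -/
lemma Nish_aux_symm2 (h : Nish μ) (h' : Nish ν) {H : ℝ × ℝ → ℝ} (hm : Measurable H) {C : ℝ}
    (hC : ∀ p, |H p| ≤ C) :
    ∫ x, ∫ y, H (x, y) ∂ν ∂μ = ∫ x, ∫ y,
      (H (x, y) * ((1 + Real.tanh x) / 2) * ((1 + Real.tanh y) / 2)
        + H (x, -y) * ((1 + Real.tanh x) / 2) * ((1 - Real.tanh y) / 2)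
        + H (-x, y) * ((1 - Real.tanh x) / 2) * ((1 + Real.tanh y) / 2)
        + H (-x, -y) * ((1 - Real.tanh x) / 2) * ((1 - Real.tanh y) / 2)) ∂ν ∂μ := by
  have := h.prob
  have := h'.prob
  have hG : BddM (fun x => ∫ y, H (x, y) ∂ν) := Nish_aux_bdd_parint hm hC
  rw [h.symmetrise hG]
  have hsec : ∀ x, BddM (fun y => H (x, y)) := fun x =>
    ⟨hm.comp (by fun_prop), C, fun _ => hC _⟩
  have hp := Nish_aux_bdd_p
  have hq := Nish_aux_bdd_m
  apply integral_congr_ae
  filter_upwards with x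
  rw [h'.symmetrise (hsec x), h'.symmetrise (hsec (-x)), ← integral_mul_const, ← integral_mul_const,
    ← integral_add]
  · apply integral_congr_ae
    filter_upwards with y
    ring
  · exact Nish_aux_int (Nish_aux_bdd_mul (Nish_aux_bdd_add (Nish_aux_bdd_mul (hsec x) hp)
      (Nish_aux_bdd_mul (Nish_aux_bdd_neg (hsec x)) hq)) (Nish_aux_bdd_const _))
  · exact Nish_aux_int (Nish_aux_bdd_mul (Nish_aux_bdd_add (Nish_aux_bdd_mul (hsec (-x)) hp)
      (Nish_aux_bdd_mul (Nish_aux_bdd_neg (hsec (-x))) hq)) (Nish_aux_bdd_const _))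

lemma Nish_aux_ratio_bounds {u v : ℝ} (hu0 : 0 ≤ u) (hu1 : u < 1) (hv0 : 0 ≤ v) (hv1 : v < 1) :
    0 < 1 - u * v ∧ 0 ≤ (u + v - 2 * u * v) / (1 - u * v) ∧ (u + v - 2 * u * v) / (1 - u * v) ≤ 2 := by
  have h1 : 0 < 1 - u * v := by nlinarith
  refine ⟨h1, div_nonneg (by nlinarith) h1.le, ?_⟩
  rw [div_le_iff₀ h1]
  nlinarith

/-- The function that appears after symmetrising `tanh (x + y)`. -/
noncomputable def Nish_aux_R (p : ℝ × ℝ) : ℝ :=
  (Real.tanh p.1 ^ 2 + Real.tanh p.2 ^ 2 - 2 * Real.tanh p.1 ^ 2 * Real.tanh p.2 ^ 2) /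
    (1 - Real.tanh p.1 ^ 2 * Real.tanh p.2 ^ 2)

lemma Nish_aux_R_meas : Measurable Nish_aux_R := by
  unfold Nish_aux_R
  have h := Nish_aux_measurable_tanh
  fun_prop

lemma Nish_aux_R_bound (p : ℝ × ℝ) : |Nish_aux_R p| ≤ 2 := by
  unfold Nish_aux_R
  obtain ⟨_, h2, h3⟩ := Nish_aux_ratio_bounds (sq_nonneg (Real.tanh p.1)) (Real.tanh_sq_lt_one p.1)
    (sq_nonneg (Real.tanh p.2)) (Real.tanh_sq_lt_one p.2)
  rw [abs_of_nonneg h2]
  exact h3

/-- The exact formula obtained by symmetrising in both variables. -/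
lemma At_cvl_eq (h : Nish μ) (h' : Nish ν) :
    At (Vale.Agent.Lib.P161B.cvl μ ν) =
      ∫ x, ∫ y, (Real.tanh x ^ 2 + Real.tanh y ^ 2 - 2 * Real.tanh x ^ 2 * Real.tanh y ^ 2) /
        (1 - Real.tanh x ^ 2 * Real.tanh y ^ 2) ∂ν ∂μ := by
  have := h.prob
  have := h'.prob
  have htm := Nish_aux_measurable_tanh
  have hHm : Measurable (fun p : ℝ × ℝ => Real.tanh (p.1 + p.2)) := by fun_prop
  have hHb : ∀ p : ℝ × ℝ, |Real.tanh (p.1 + p.2)| ≤ 1 := fun p => (Real.abs_tanh_lt_one _).le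
  unfold At
  rw [Nish_aux_cvl_integral htm (Integrable.of_bound hHm.aestronglyMeasurable 1
    (Filter.Eventually.of_forall hHb))]
  have key := Nish_aux_symm2 h h' hHm hHb
  simp only [] at key
  rw [key]
  apply integral_congr_ae
  filter_upwards with x
  apply integral_congr_ae
  filter_upwards with y
  set a := Real.tanh x with ha
  set b := Real.tanh y with hb
  have e1 : Real.tanh (x + y) = (a + b) / (1 + a * b) := Nish_aux_tanh_add x y
  have e2 : Real.tanh (x + -y) = (a - b) / (1 - a * b) := by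
    rw [Nish_aux_tanh_add, Real.tanh_neg]
    congr 1; ring
  have e3 : Real.tanh (-x + y) = - ((a - b) / (1 - a * b)) := by
    have e0 : -x + y = -(x + -y) := by ring
    rw [e0, Real.tanh_neg, e2]
  have e4 : Real.tanh (-x + -y) = - ((a + b) / (1 + a * b)) := by
    rw [← neg_add, Real.tanh_neg, e1]
  have ha1 : |a| < 1 := Real.abs_tanh_lt_one x
  have hb1 : |b| < 1 := Real.abs_tanh_lt_one y
  have hab : |a * b| < 1 := by
    rw [abs_mul]
    nlinarith [abs_nonneg a, abs_nonneg b]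
  have h1 : 0 < 1 + a * b := by linarith [(abs_lt.mp hab).1]
  have h2 : 0 < 1 - a * b := by linarith [(abs_lt.mp hab).2]
  have h3 : 1 - a ^ 2 * b ^ 2 = (1 + a * b) * (1 - a * b) := by ring
  rw [e1, e2, e3, e4, h3]
  field_simp
  ring

lemma Nish_aux_int_affine {ν : Measure ℝ} [IsProbabilityMeasure ν] {f g : ℝ → ℝ}
    (hf : Integrable f ν) (hg : Integrable g ν) (c d e : ℝ) :
    ∫ y, (c + d * f y + e * g y) ∂ν = c + d * ∫ y, f y ∂ν + e * ∫ y, g y ∂ν := by
  have i1 : Integrable (fun y => c + d * f y) ν := (integrable_const c).add (hf.const_mul d)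
  rw [integral_add i1 (hg.const_mul e), integral_add (integrable_const c) (hf.const_mul d),
    integral_const_mul, integral_const_mul]
  simp

lemma Nish_aux_int_affine1 {ν : Measure ℝ} [IsProbabilityMeasure ν] {f : ℝ → ℝ}
    (hf : Integrable f ν) (c d : ℝ) :
    ∫ y, (c + d * f y) ∂ν = c + d * ∫ y, f y ∂ν := by
  rw [integral_add (integrable_const c) (hf.const_mul d), integral_const_mul]
  simp

lemma Nish_aux_Rsec (x : ℝ) : BddM (fun y =>
    (Real.tanh x ^ 2 + Real.tanh y ^ 2 - 2 * Real.tanh x ^ 2 * Real.tanh y ^ 2) /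
        (1 - Real.tanh x ^ 2 * Real.tanh y ^ 2)) :=
  ⟨Nish_aux_R_meas.comp (f := fun y => (x, y)) (by fun_prop), 2,
    fun y => Nish_aux_R_bound (x, y)⟩

lemma Nish_aux_Rpar {ν : Measure ℝ} [IsProbabilityMeasure ν] : BddM (fun x => ∫ y,
    (Real.tanh x ^ 2 + Real.tanh y ^ 2 - 2 * Real.tanh x ^ 2 * Real.tanh y ^ 2) /
        (1 - Real.tanh x ^ 2 * Real.tanh y ^ 2) ∂ν) :=
  Nish_aux_bdd_parint Nish_aux_R_meas Nish_aux_R_bound

/-- (K1) `1 - 2 A(X+Y) ≤ (1 - 2 A(X)) (1 - 2 A(Y))`. -/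
theorem At_cvl_ge (h : Nish μ) (h' : Nish ν) :
    At μ + At ν - 2 * At μ * At ν ≤ At (Vale.Agent.Lib.P161B.cvl μ ν) := by
  have := h.prob
  have := h'.prob
  rw [At_cvl_eq h h']
  have j2 : Integrable (fun y => Real.tanh y ^ 2) ν := Nish_aux_int (Nish_aux_bdd_tanh_pow 2)
  have k2 : Integrable (fun x => Real.tanh x ^ 2) μ := Nish_aux_int (Nish_aux_bdd_tanh_pow 2)
  have hB : ∫ y, Real.tanh y ^ 2 ∂ν = At ν := h'.tanh_eq.symm
  have hA : ∫ x, Real.tanh x ^ 2 ∂μ = At μ := h.tanh_eq.symm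
  -- the lower bound, integrated over `y`
  have inner : ∀ x, At ν + (1 - 2 * At ν) * Real.tanh x ^ 2 ≤
      ∫ y, (Real.tanh x ^ 2 + Real.tanh y ^ 2 - 2 * Real.tanh x ^ 2 * Real.tanh y ^ 2) /
        (1 - Real.tanh x ^ 2 * Real.tanh y ^ 2) ∂ν := by
    intro x
    have e := Nish_aux_int_affine1 (ν := ν) j2 (Real.tanh x ^ 2) (1 - 2 * Real.tanh x ^ 2)
    rw [hB] at e
    have e' : At ν + (1 - 2 * At ν) * Real.tanh x ^ 2
        = Real.tanh x ^ 2 + (1 - 2 * Real.tanh x ^ 2) * At ν := by ring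
    rw [e', ← e]
    apply integral_mono (((integrable_const _).add (j2.const_mul _))) (Nish_aux_int (Nish_aux_Rsec x))
    intro y
    obtain ⟨hd, _, _⟩ := Nish_aux_ratio_bounds (sq_nonneg (Real.tanh x)) (Real.tanh_sq_lt_one x)
      (sq_nonneg (Real.tanh y)) (Real.tanh_sq_lt_one y)
    show Real.tanh x ^ 2 + (1 - 2 * Real.tanh x ^ 2) * Real.tanh y ^ 2 ≤ _
    rw [le_div_iff₀ hd]
    have h5 := Real.tanh_sq_lt_one x
    have h6 := Real.tanh_sq_lt_one y
    have h7 := sq_nonneg (Real.tanh x)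
    have h8 := sq_nonneg (Real.tanh y)
    generalize Real.tanh x ^ 2 = u at *
    generalize Real.tanh y ^ 2 = v at *
    have h9 : 0 ≤ u * v := mul_nonneg h7 h8
    have h10 : 0 ≤ u + v - 2 * u * v := by nlinarith
    nlinarith [mul_nonneg h10 h9]
  have e := Nish_aux_int_affine1 (ν := μ) k2 (At ν) (1 - 2 * At ν)
  rw [hA] at e
  have e' : At μ + At ν - 2 * At μ * At ν = At ν + (1 - 2 * At ν) * At μ := by ring
  rw [e', ← e]
  exact integral_mono (((integrable_const _).add (k2.const_mul _))) (Nish_aux_int Nish_aux_Rpar) inner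

lemma Nish_aux_ptwise_le {u v t : ℝ} (hu0 : 0 ≤ u) (hu1 : u ≤ 1) (hv0 : 0 ≤ v) (hvt : v ≤ t)
    (ht : t < 1) :
    (u + v - 2 * u * v) / (1 - u * v) ≤ (u + v - 2 * u * v) + (u ^ 2 * v + u * v ^ 2) / (1 - t) := by
  have huv : 0 ≤ u * v := mul_nonneg hu0 hv0
  have huv1 : u * v ≤ t := by nlinarith
  have hd : 0 < 1 - u * v := by linarith
  have hd2 : 0 < 1 - t := by linarith
  rw [div_le_iff₀ hd]
  set K := (u ^ 2 * v + u * v ^ 2) / (1 - t) with hK
  have hK1 : K * (1 - t) = u ^ 2 * v + u * v ^ 2 := by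
    rw [hK]; field_simp
  have hK0 : 0 ≤ K := by
    rw [hK]
    apply div_nonneg _ hd2.le
    positivity
  have h1 : K * (1 - t) ≤ K * (1 - u * v) := mul_le_mul_of_nonneg_left (by linarith) hK0
  nlinarith

/-- (K2) when the second variable has `tanh² ≤ θ²` almost surely. -/
theorem At_cvl_le (h : Nish μ) (h' : Nish ν) (h0 : 0 ≤ θ) (h1 : θ < 1)
    (hν : ∀ᵐ y ∂ν, Real.tanh y ^ 2 ≤ θ ^ 2) :
    At (Vale.Agent.Lib.P161B.cvl μ ν) ≤ At μ + At ν - 2 * At μ * At ν +
      ((∫ x, Real.tanh x ^ 4 ∂μ) * At ν + At μ * ∫ y, Real.tanh y ^ 4 ∂ν) / (1 - θ ^ 2) := by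
  have := h.prob
  have := h'.prob
  rw [At_cvl_eq h h']
  have j2 : Integrable (fun y => Real.tanh y ^ 2) ν := Nish_aux_int (Nish_aux_bdd_tanh_pow 2)
  have k2 : Integrable (fun x => Real.tanh x ^ 2) μ := Nish_aux_int (Nish_aux_bdd_tanh_pow 2)
  have j4 : Integrable (fun y => Real.tanh y ^ 4) ν := Nish_aux_int (Nish_aux_bdd_tanh_pow 4)
  have k4 : Integrable (fun x => Real.tanh x ^ 4) μ := Nish_aux_int (Nish_aux_bdd_tanh_pow 4)
  have hB : ∫ y, Real.tanh y ^ 2 ∂ν = At ν := h'.tanh_eq.symm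
  have hA : ∫ x, Real.tanh x ^ 2 ∂μ = At μ := h.tanh_eq.symm
  have ht : θ ^ 2 < 1 := by nlinarith
  have hd : 0 < 1 - θ ^ 2 := by linarith
  set t := θ ^ 2 with htdef
  set D := ∫ y, Real.tanh y ^ 4 ∂ν with hD
  set K := ∫ x, Real.tanh x ^ 4 ∂μ with hKK
  have inner : ∀ x,
      ∫ y, (Real.tanh x ^ 2 + Real.tanh y ^ 2 - 2 * Real.tanh x ^ 2 * Real.tanh y ^ 2) /
        (1 - Real.tanh x ^ 2 * Real.tanh y ^ 2) ∂ν
      ≤ At ν + (1 - 2 * At ν + D / (1 - t)) * Real.tanh x ^ 2 + (At ν / (1 - t)) * Real.tanh x ^ 4 := by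
    intro x
    have e := Nish_aux_int_affine (ν := ν) j2 j4 (Real.tanh x ^ 2)
      (1 - 2 * Real.tanh x ^ 2 + Real.tanh x ^ 4 / (1 - t)) (Real.tanh x ^ 2 / (1 - t))
    rw [hB, ← hD] at e
    have e' : At ν + (1 - 2 * At ν + D / (1 - t)) * Real.tanh x ^ 2 + (At ν / (1 - t)) * Real.tanh x ^ 4
        = Real.tanh x ^ 2 + (1 - 2 * Real.tanh x ^ 2 + Real.tanh x ^ 4 / (1 - t)) * At ν
          + (Real.tanh x ^ 2 / (1 - t)) * D := by
      field_simp
      ring
    rw [e', ← e]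
    apply integral_mono_ae (Nish_aux_int (Nish_aux_Rsec x))
      (((integrable_const _).add (j2.const_mul _)).add (j4.const_mul _))
    filter_upwards [hν] with y hy
    have h5 := Real.tanh_sq_lt_one x
    have h7 := sq_nonneg (Real.tanh x)
    have h8 := sq_nonneg (Real.tanh y)
    have := Nish_aux_ptwise_le h7 h5.le h8 hy ht
    refine this.trans (le_of_eq ?_)
    show _ = Real.tanh x ^ 2 + (1 - 2 * Real.tanh x ^ 2 + Real.tanh x ^ 4 / (1 - t)) * Real.tanh y ^ 2
          + (Real.tanh x ^ 2 / (1 - t)) * Real.tanh y ^ 4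
    field_simp
    ring
  have e := Nish_aux_int_affine (ν := μ) k2 k4 (At ν) (1 - 2 * At ν + D / (1 - t)) (At ν / (1 - t))
  rw [hA, ← hKK] at e
  have e' : At μ + At ν - 2 * At μ * At ν + (K * At ν + At μ * D) / (1 - t)
      = At ν + (1 - 2 * At ν + D / (1 - t)) * At μ + (At ν / (1 - t)) * K := by
    field_simp
    ring
  rw [e', ← e]
  exact integral_mono (Nish_aux_int Nish_aux_Rpar)
    (((integrable_const _).add (k2.const_mul _)).add (k4.const_mul _)) inner

end Basic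

end Vale.Agent.Lib.P161B
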