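import Vale.Agent.Lib.P161.SLField
import Vale.Agent.Lib.P161B.Nish
import Vale.Agent.Lib.P161B.Edge

/-!
Static objects on the tree: down cavities, the limit magnetisations, the limit covariance with the root,
the canonical product space with bond signs and local fields, and the law of the observed field.
-/

namespace Vale.Agent.Lib.P161B

open MeasureTheory ProbabilityTheory Filter
open Vale.Agent.Lib.P161

variable {d : ℕ}

/-- The children of a vertex (in root coordinates). -/
noncomputable def kids (v : Word d) : Finset (Word d) :=
  open Classical in (ball (len v + 1)).filter (fun c => c ≠ root ∧ parent c = v)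

/-- The depth `n` down cavity field at `v`. -/
noncomputable def hh (θ : ℝ) : ℕ → Word d → (Word d → ℝ) → ℝ
  | 0, v, y => y v
  | n + 1, v, y => y v + ∑ c ∈ kids v, Uf θ (hh θ n c y)

/-- The limit down cavity field. -/
noncomputable def hhL (θ : ℝ) (v : Word d) (y : Word d → ℝ) : ℝ := limsup (fun n => hh θ n v y) atTop

/-- The graph ball of radius `R` around `x`. -/
noncomputable def Bl (x : Word d) (R : ℕ) : Finset (Word d) := (ball R).map (gm x).toEquiv.toEmbedding

/-- The magnetisation on the finite set `D`. -/
noncomputable def mD (θ : ℝ) (D : Finset (Word d)) (y : Word d → ℝ) (x : Word d) : ℝ :=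
  Real.tanh (hf θ D y x)

/-- The limit magnetisation at `x`; exactly equivariant under automorphisms. -/
noncomputable def mm (θ : ℝ) (x : Word d) (y : Word d → ℝ) : ℝ :=
  limsup (fun R => mD θ (Bl x R) y x) atTop

/-- The suffix of length `i` of `x`: the path from the root to `x`. -/
def ch (x : Word d) (i : ℕ) : Word d :=
  ⟨x.1.drop (len x - i), List.IsChain.drop x.2 _⟩

/-- The limit covariance of the spins at the root and at `x`, by the product formula along the path. -/
noncomputable def CCr (θ : ℝ) (x : Word d) (y : Word d → ℝ) : ℝ :=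
  √((1 - mm θ root y ^ 2) * (1 - mm θ x y ^ 2)) *
    ∏ i ∈ Finset.range (len x), Rho θ (mm θ (ch x i) y) (mm θ (ch x (i + 1)) y)

/-- The canonical space: at each vertex an edge sign and a local field. -/
abbrev Cn (d : ℕ) : Type := Word d → Bool × ℝ

/-- The canonical product law with field law `μ`. -/
noncomputable def cnP (d : ℕ) (θ : ℝ) (μ : Measure ℝ) : Measure (Cn d) :=
  Measure.infinitePi (fun x : Word d => (mrg θ x).prod μ)

/-- The spins of a canonical point. -/
def sgC (ω : Cn d) : Word d → Bool := tau (fun v => (ω v).1)

/-- The observed field of a canonical point. -/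
noncomputable def yC (ω : Cn d) (x : Word d) : ℝ := sp (sgC ω x) * (ω x).2

/-- The law of the observed field. -/
noncomputable def LawY (d : ℕ) (θ : ℝ) (μ : Measure ℝ) : Measure (Word d → ℝ) := (cnP d θ μ).map yC

/-- The gauge transformed depth `n` cavity field: a function of the coordinates below `v` only. -/
noncomputable def hatH (θ : ℝ) : ℕ → Word d → Cn d → ℝ
  | 0, v, ω => (ω v).2
  | n + 1, v, ω => (ω v).2 + ∑ c ∈ kids v, sp (ω c).1 * Uf θ (hatH θ n c ω)

/-- The gauge transformed limit cavity field. -/
noncomputable def hatL (θ : ℝ) (v : Word d) (ω : Cn d) : ℝ := limsup (fun n => hatH θ n v ω) atTop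

/-- The vertices below `v`, including `v`. -/
def Sub (v : Word d) : Set (Word d) := {u | v.1 <:+ u.1}

/-- The limit cavity law at a non root vertex. -/
noncomputable def cavL (d : ℕ) (hd : 0 < d) (θ : ℝ) (μ : Measure ℝ) : Measure ℝ :=
  (cnP d θ μ).map (hatL θ (letter ⟨0, hd⟩))

/-- The scale `X`: the mean of `tanh` under the limit cavity law. -/
noncomputable def Xv (d : ℕ) (hd : 0 < d) (θ : ℝ) (μ : Measure ℝ) : ℝ := At (cavL d hd θ μ)

end Vale.Agent.Lib.P161B
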