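import Vale.Agent.Lib.P161B.Space
import Vale.Agent.Lib.P161.SLBShift

/-!
Bayes formula for the dynamic model: the conditional law of the spins given all labels and the observations
before a label dependent time is the Gibbs measure with the observed field. Finite sets of events by the
explicit likelihood; then Levy upward twice.
-/

namespace Vale.Agent.Lib.P161B

open MeasureTheory ProbabilityTheory Filter Set
open Vale.Agent.Lib.P161
open scoped Topology

variable {d : ℕ} {θ : ℝ}

/-! ### One event -/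

lemma gl_abs_kp (j : ℤ) : |kp j| ≤ 1 / 2 := by
  rw [abs_of_pos (kp_pos j)]
  exact kp_le j

lemma gl_uni_ref {g : ℝ → ℝ} (hg : Measurable g) {C : ℝ} (hC : ∀ x ∈ Icc (-1 : ℝ) 1, |g x| ≤ C) :
    ∫ u : unitInterval, g (2 * (u : ℝ) - 1) = ∫ z in Icc (-1 : ℝ) 1, g z * (1 / 2) := by
  have h := integral_quant (a := 0) (by norm_num) hg (C := C) hC
  simpa [quant] using h

lemma gl_integral_neg (F : ℝ → ℝ) : ∫ z in Icc (-1 : ℝ) 1, F (-z) = ∫ z in Icc (-1 : ℝ) 1, F z := by
  rw [← integral_indicator measurableSet_Icc, ← integral_indicator measurableSet_Icc,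
    ← integral_neg_eq_self (fun z => (Icc (-1 : ℝ) 1).indicator F z) volume]
  refine integral_congr_ae (ae_of_all _ fun z => ?_)
  by_cases h : z ∈ Icc (-1 : ℝ) 1
  · have h' : -z ∈ Icc (-1 : ℝ) 1 := ⟨by linarith [h.2], by linarith [h.1]⟩
    simp [indicator, h, h']
  · have h' : -z ∉ Icc (-1 : ℝ) 1 := fun h2 => h ⟨by linarith [h2.2], by linarith [h2.1]⟩
    simp [indicator, h, h']

/-- Change of variables for one observation, against the uniform reference variable. -/
lemma gl_cv_one (b : Bool) {κ : ℝ} (hκ : |κ| ≤ 1 / 2) {f : ℝ → ℝ} (hf : Measurable f) {C : ℝ}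
    (hC : ∀ x, |f x| ≤ C) :
    ∫ u : unitInterval, f (sp b * quant κ u) =
      ∫ u : unitInterval, f (2 * (u : ℝ) - 1) * (1 + κ * sp b * (2 * (u : ℝ) - 1)) := by
  have hsp : Measurable (fun z : ℝ => f (sp b * z)) := hf.comp (measurable_const.mul measurable_id)
  have h1 := integral_quant hκ hsp (C := C) (fun x _ => hC _)
  have hg : Measurable (fun z : ℝ => f z * (1 + κ * sp b * z)) :=
    hf.mul (measurable_const.add (measurable_const.mul measurable_id))
  have hκ' := abs_le.mp hκ
  have hC0 : 0 ≤ C := le_trans (abs_nonneg _) (hC 0)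
  have hgC : ∀ x ∈ Icc (-1 : ℝ) 1, |f x * (1 + κ * sp b * x)| ≤ C * 2 := by
    intro x hx
    rw [abs_mul]
    refine mul_le_mul (hC x) ?_ (abs_nonneg _) hC0
    have h3 : |κ * sp b * x| ≤ 1 / 2 * 1 * 1 := by
      rw [abs_mul, abs_mul, abs_sp]
      have : |x| ≤ 1 := abs_le.mpr ⟨hx.1, hx.2⟩
      exact mul_le_mul (mul_le_mul hκ le_rfl (by norm_num) (by norm_num)) this (abs_nonneg _) (by norm_num)
    have := abs_add_le (1 : ℝ) (κ * sp b * x)
    rw [abs_one] at this
    linarith
  rw [h1, gl_uni_ref hg hgC]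
  cases b with
  | false =>
    refine integral_congr_ae (ae_of_all _ fun z => ?_)
    simp only [sp, Bool.false_eq_true, if_false]
    ring_nf
  | true =>
    have e := gl_integral_neg (fun z => f z * (1 + κ * sp true * z) * (1 / 2))
    rw [← e]
    refine integral_congr_ae (ae_of_all _ fun z => ?_)
    simp only [sp, if_true]
    ring_nf

/-! ### Finitely many events: the reference measure -/

/-- The reference variables. -/
noncomputable def uR (V : LabT d) (e : Ev d) : ℝ := 2 * (V e : ℝ) - 1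

/-- The observations as a function of the spins and the noise. -/
noncomputable def zS (σ : Word d → Bool) (V : LabT d) (e : Ev d) : ℝ := sp (σ e.1) * quant (kp e.2) (V e)

/-- Masking the coordinates outside `A`. -/
def maskA (A : Finset (Ev d)) (z : Ev d → ℝ) : Ev d → ℝ := fun e => if e ∈ A then z e else 0

/-- The likelihood against the reference variables. -/
noncomputable def likA (A : Finset (Ev d)) (σ : Word d → Bool) (V : LabT d) : ℝ :=
  ∏ e ∈ A, (1 + kp e.2 * sp (σ e.1) * uR V e)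

lemma uR_mem (V : LabT d) (e : Ev d) : uR V e ∈ Icc (-1 : ℝ) 1 := by
  have h := (V e).2
  unfold uR
  constructor <;> linarith [h.1, h.2]

lemma gl_factor_bd (j : ℤ) (b : Bool) {u : ℝ} (hu : u ∈ Icc (-1 : ℝ) 1) :
    (1 / 2 : ℝ) ≤ 1 + kp j * sp b * u ∧ 1 + kp j * sp b * u ≤ 3 / 2 := by
  have h3 : |kp j * sp b * u| ≤ 1 / 2 * 1 * 1 := by
    rw [abs_mul, abs_mul, abs_sp]
    have : |u| ≤ 1 := abs_le.mpr ⟨hu.1, hu.2⟩
    exact mul_le_mul (mul_le_mul (gl_abs_kp j) le_rfl (by norm_num) (by norm_num)) this (abs_nonneg _)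
      (by norm_num)
  have := abs_le.mp h3
  constructor <;> linarith [this.1, this.2]

lemma likA_nonneg (A : Finset (Ev d)) (σ : Word d → Bool) (V : LabT d) : 0 ≤ likA A σ V :=
  Finset.prod_nonneg fun e _ => le_trans (by norm_num) (gl_factor_bd e.2 (σ e.1) (uR_mem V e)).1

lemma likA_le (A : Finset (Ev d)) (σ : Word d → Bool) (V : LabT d) : likA A σ V ≤ 2 ^ A.card := by
  unfold likA
  calc ∏ e ∈ A, (1 + kp e.2 * sp (σ e.1) * uR V e) ≤ ∏ _e ∈ A, (2 : ℝ) :=
        Finset.prod_le_prod (fun e _ => le_trans (by norm_num) (gl_factor_bd e.2 (σ e.1) (uR_mem V e)).1)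
          (fun e _ => le_trans (gl_factor_bd e.2 (σ e.1) (uR_mem V e)).2 (by norm_num))
    _ = 2 ^ A.card := by simp

lemma measurable_uR (e : Ev d) : Measurable (fun V : LabT d => uR V e) := by
  unfold uR
  exact (measurable_const.mul (measurable_subtype_coe.comp (measurable_pi_apply e))).sub measurable_const

lemma measurable_likA (A : Finset (Ev d)) :
    Measurable (fun p : (Word d → Bool) × LabT d => likA A p.1 p.2) := by
  unfold likA
  refine Finset.measurable_prod _ fun e _ => ?_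
  refine measurable_const.add (Measurable.mul ?_ ((measurable_uR e).comp measurable_snd))
  refine measurable_const.mul ?_
  exact (Measurable.of_discrete (f := sp)).comp ((measurable_pi_apply e.1).comp measurable_fst)

lemma measurable_zS (e : Ev d) : Measurable (fun p : (Word d → Bool) × LabT d => zS p.1 p.2 e) := by
  unfold zS
  refine Measurable.mul ?_ ?_
  · exact (Measurable.of_discrete (f := sp)).comp ((measurable_pi_apply e.1).comp measurable_fst)
  · exact measurable_quant.comp (measurable_const.prodMk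
      (measurable_subtype_coe.comp ((measurable_pi_apply e).comp measurable_snd)))

lemma measurable_maskA {X : Type*} [MeasurableSpace X] (A : Finset (Ev d)) {z : X → Ev d → ℝ}
    (hz : ∀ e, Measurable (fun x => z x e)) : Measurable (fun x => maskA A (z x)) := by
  refine measurable_pi_iff.mpr fun e => ?_
  unfold maskA
  by_cases h : e ∈ A
  · simpa [h] using hz e
  · simpa [h] using measurable_const

instance : IsProbabilityMeasure (volE d) := by
  unfold volE
  infer_instance

lemma gl_update_mp (e₀ : Ev d) :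
    MeasurePreserving (fun p : LabT d × unitInterval => Function.update p.1 e₀ p.2)
      ((volE d).prod (volume : Measure unitInterval)) (volE d) :=
  slb_update_mp (volume : Measure unitInterval) e₀

lemma gl_bdd_int {X : Type*} [MeasurableSpace X] {μ : Measure X} [IsFiniteMeasure μ] {f : X → ℝ}
    (hf : Measurable f) {C : ℝ} (hC : ∀ x, |f x| ≤ C) : Integrable f μ :=
  Integrable.of_bound hf.aestronglyMeasurable C (ae_of_all _ hC)

lemma maskA_insert {A : Finset (Ev d)} {e₀ : Ev d} (z : Ev d → ℝ) :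
    maskA (insert e₀ A) z = Function.update (maskA A z) e₀ (z e₀) := by
  funext e
  unfold maskA
  by_cases h : e = e₀
  · subst h
    simp
  · simp [h]

lemma maskA_update {A : Finset (Ev d)} {e₀ : Ev d} (he : e₀ ∉ A) (z : Ev d → ℝ) (t : ℝ) :
    maskA A (Function.update z e₀ t) = maskA A z := by
  funext e
  unfold maskA
  by_cases h : e ∈ A
  · have : e ≠ e₀ := fun h' => he (h' ▸ h)
    simp [h, this]
  · simp [h]

lemma zS_update_ne (σ : Word d → Bool) (V : LabT d) {e₀ e : Ev d} (h : e ≠ e₀) (t : unitInterval) :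
    zS σ (Function.update V e₀ t) e = zS σ V e := by
  simp [zS, h]

lemma uR_update_ne (V : LabT d) {e₀ e : Ev d} (h : e ≠ e₀) (t : unitInterval) :
    uR (Function.update V e₀ t) e = uR V e := by
  simp [uR, h]

lemma maskA_zS_update {A : Finset (Ev d)} {e₀ : Ev d} (he : e₀ ∉ A) (σ : Word d → Bool) (V : LabT d)
    (t : unitInterval) : maskA A (zS σ (Function.update V e₀ t)) = maskA A (zS σ V) := by
  funext e
  unfold maskA
  by_cases h : e ∈ A
  · have : e ≠ e₀ := fun h' => he (h' ▸ h)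
    simp [h, zS_update_ne σ V this t]
  · simp [h]

lemma maskA_uR_update {A : Finset (Ev d)} {e₀ : Ev d} (he : e₀ ∉ A) (V : LabT d)
    (t : unitInterval) : maskA A (uR (Function.update V e₀ t)) = maskA A (uR V) := by
  funext e
  unfold maskA
  by_cases h : e ∈ A
  · have : e ≠ e₀ := fun h' => he (h' ▸ h)
    simp [h, uR_update_ne V this t]
  · simp [h]

lemma likA_update {A : Finset (Ev d)} {e₀ : Ev d} (he : e₀ ∉ A) (σ : Word d → Bool) (V : LabT d)
    (t : unitInterval) : likA A σ (Function.update V e₀ t) = likA A σ V := by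
  unfold likA
  refine Finset.prod_congr rfl fun e heA => ?_
  have : e ≠ e₀ := fun h' => he (h' ▸ heA)
  rw [uR_update_ne V this t]

lemma measurable_likA' (A : Finset (Ev d)) (σ : Word d → Bool) : Measurable (fun V : LabT d => likA A σ V) := by
  unfold likA
  refine Finset.measurable_prod _ fun e _ => ?_
  exact measurable_const.add (measurable_const.mul (measurable_uR e))

lemma measurable_zS' (σ : Word d → Bool) (e : Ev d) : Measurable (fun V : LabT d => zS σ V e) := by
  unfold zS
  refine measurable_const.mul ?_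
  exact measurable_quant.comp (measurable_const.prodMk
      (measurable_subtype_coe.comp (measurable_pi_apply e)))

lemma gl_split (e₀ : Ev d) {F : LabT d → ℝ} (hF : Measurable F) {C : ℝ} (hC : ∀ V, |F V| ≤ C) :
    ∫ V, F V ∂(volE d) = ∫ V, ∫ t : unitInterval, F (Function.update V e₀ t) ∂volume ∂(volE d) := by
  have hmp := gl_update_mp e₀
  conv_lhs => rw [← hmp.map_eq]
  rw [integral_map hmp.measurable.aemeasurable hF.aestronglyMeasurable,
    integral_prod (fun p : LabT d × unitInterval => F (Function.update p.1 e₀ p.2))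
      (gl_bdd_int (hF.comp hmp.measurable) (fun p => hC _))]

lemma maskA_empty (z : Ev d → ℝ) : maskA ∅ z = 0 := by
  funext e
  simp [maskA]

/-- Change of measure for finitely many events. -/
lemma gl_cv_finset (σ : Word d → Bool) (A : Finset (Ev d)) :
    ∀ {G : (Ev d → ℝ) → ℝ}, Measurable G → ∀ {C : ℝ}, (∀ z, |G z| ≤ C) →
      ∫ V, G (maskA A (zS σ V)) ∂(volE d) = ∫ V, G (maskA A (uR V)) * likA A σ V ∂(volE d) := by
  induction A using Finset.induction_on with
  | empty =>
    intro G hG C hC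
    simp [likA, maskA_empty]
  | @insert e₀ A he ih =>
    intro G hG C hC
    have hC0 : 0 ≤ C := le_trans (abs_nonneg _) (hC 0)
    set κ := kp e₀.2 with hκ
    set s := sp (σ e₀.1) with hs
    have hfac : ∀ t : unitInterval, (1 / 2 : ℝ) ≤ 1 + κ * s * (2 * (t : ℝ) - 1) ∧
        1 + κ * s * (2 * (t : ℝ) - 1) ≤ 3 / 2 := by
      intro t
      have h := t.2
      exact gl_factor_bd e₀.2 (σ e₀.1) ⟨by linarith [h.1], by linarith [h.2]⟩
    have hfac_abs : ∀ t : unitInterval, |1 + κ * s * (2 * (t : ℝ) - 1)| ≤ 2 := by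
      intro t
      have := hfac t
      rw [abs_le]
      constructor <;> linarith [this.1, this.2]
    have hfac_m : Measurable (fun t : unitInterval => 1 + κ * s * (2 * (t : ℝ) - 1)) :=
      measurable_const.add (measurable_const.mul ((measurable_const.mul measurable_subtype_coe).sub
        measurable_const))
    -- measurability
    have hupd : Measurable (fun p : (Ev d → ℝ) × ℝ => G (Function.update p.1 e₀ p.2)) :=
      hG.comp (measurable_update' (a := e₀))
    have hGt : ∀ t : unitInterval, Measurable (fun z : Ev d → ℝ => G (Function.update z e₀ (2 * (t : ℝ) - 1))) :=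
      fun t => hupd.comp (measurable_id.prodMk measurable_const)
    have hmZ : Measurable (fun V : LabT d => maskA A (zS σ V)) :=
      measurable_maskA _ fun e => measurable_zS' σ e
    have hmU : Measurable (fun V : LabT d => maskA A (uR V)) :=
      measurable_maskA _ fun e => measurable_uR e
    have hlik : Measurable (fun V : LabT d => likA A σ V) := measurable_likA' A σ
    have hLm : Measurable (fun V : LabT d => G (maskA (insert e₀ A) (zS σ V))) :=
      hG.comp (measurable_maskA _ fun e => measurable_zS' σ e)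
    have hRm : Measurable (fun V : LabT d => G (maskA (insert e₀ A) (uR V)) * likA (insert e₀ A) σ V) :=
      (hG.comp (measurable_maskA _ fun e => measurable_uR e)).mul (measurable_likA' (insert e₀ A) σ)
    -- the left side
    have hL : ∫ V, G (maskA (insert e₀ A) (zS σ V)) ∂(volE d) =
        ∫ V, ∫ t : unitInterval, G (Function.update (maskA A (zS σ V)) e₀ (2 * (t : ℝ) - 1)) *
          (1 + κ * s * (2 * (t : ℝ) - 1)) ∂volume ∂(volE d) := by
      rw [gl_split e₀ hLm (fun V => hC _)]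
      refine integral_congr_ae (ae_of_all _ fun V => ?_)
      dsimp only
      have hf : Measurable (fun w : ℝ => G (Function.update (maskA A (zS σ V)) e₀ w)) :=
        hupd.comp (measurable_const.prodMk measurable_id)
      have := gl_cv_one (σ e₀.1) (gl_abs_kp e₀.2) hf (C := C) (fun x => hC _)
      simp only [← hκ, ← hs] at this
      rw [← this]
      refine integral_congr_ae (ae_of_all _ fun t => ?_)
      dsimp only
      rw [maskA_insert, maskA_zS_update he]
      congr 2
      simp [zS, hs, hκ]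
    -- the right side
    have hR : ∫ V, G (maskA (insert e₀ A) (uR V)) * likA (insert e₀ A) σ V ∂(volE d) =
        ∫ V, ∫ t : unitInterval, (G (Function.update (maskA A (uR V)) e₀ (2 * (t : ℝ) - 1)) * likA A σ V) *
          (1 + κ * s * (2 * (t : ℝ) - 1)) ∂volume ∂(volE d) := by
      have hb : ∀ V : LabT d, |G (maskA (insert e₀ A) (uR V)) * likA (insert e₀ A) σ V| ≤
          C * 2 ^ (insert e₀ A).card := by
        intro V
        rw [abs_mul, abs_of_nonneg (likA_nonneg _ _ _)]
        exact mul_le_mul (hC _) (likA_le _ _ _) (likA_nonneg _ _ _) hC0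
      rw [gl_split e₀ hRm hb]
      refine integral_congr_ae (ae_of_all _ fun V => ?_)
      dsimp only
      refine integral_congr_ae (ae_of_all _ fun t => ?_)
      dsimp only
      have hu : uR (Function.update V e₀ t) e₀ = 2 * (t : ℝ) - 1 := by simp [uR]
      rw [maskA_insert, maskA_uR_update he, hu]
      unfold likA
      rw [Finset.prod_insert he, hu]
      have := likA_update he σ V t
      unfold likA at this
      rw [this]
      ring
    rw [hL, hR]
    -- swap in both
    have hintL : Integrable (Function.uncurry fun (V : LabT d) (t : unitInterval) =>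
        G (Function.update (maskA A (zS σ V)) e₀ (2 * (t : ℝ) - 1)) * (1 + κ * s * (2 * (t : ℝ) - 1)))
        ((volE d).prod (volume : Measure unitInterval)) := by
      refine gl_bdd_int (C := C * 2) ?_ ?_
      · refine Measurable.mul ?_ (hfac_m.comp measurable_snd)
        refine hupd.comp ((hmZ.comp measurable_fst).prodMk ?_)
        exact (measurable_const.mul (measurable_subtype_coe.comp measurable_snd)).sub measurable_const
      · rintro ⟨V, t⟩
        simp only [Function.uncurry]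
        rw [abs_mul]
        exact mul_le_mul (hC _) (hfac_abs t) (abs_nonneg _) hC0
    have hintR : Integrable (Function.uncurry fun (V : LabT d) (t : unitInterval) =>
        (G (Function.update (maskA A (uR V)) e₀ (2 * (t : ℝ) - 1)) * likA A σ V) *
          (1 + κ * s * (2 * (t : ℝ) - 1)))
        ((volE d).prod (volume : Measure unitInterval)) := by
      refine gl_bdd_int (C := C * 2 ^ A.card * 2) ?_ ?_
      · refine Measurable.mul (Measurable.mul ?_ (hlik.comp measurable_fst)) (hfac_m.comp measurable_snd)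
        refine hupd.comp ((hmU.comp measurable_fst).prodMk ?_)
        exact (measurable_const.mul (measurable_subtype_coe.comp measurable_snd)).sub measurable_const
      · rintro ⟨V, t⟩
        simp only [Function.uncurry]
        rw [abs_mul, abs_mul, abs_of_nonneg (likA_nonneg A σ V)]
        refine mul_le_mul (mul_le_mul (hC _) (likA_le _ _ _) (likA_nonneg _ _ _) hC0) (hfac_abs t)
          (abs_nonneg _) (by positivity)
    rw [integral_integral_swap hintL, integral_integral_swap hintR]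
    refine integral_congr_ae (ae_of_all _ fun t => ?_)
    dsimp only
    rw [integral_mul_const, integral_mul_const]
    congr 1
    exact ih (hGt t) (C := C) (fun z => hC _)

/-! ### The field of finitely many events, the likelihood as a tilt -/

lemma gl_measurable_artanh : Measurable Real.artanh := by
  unfold Real.artanh
  exact Real.measurable_log.comp (Real.continuous_sqrt.measurable.comp
    ((measurable_const.add measurable_id).div (measurable_const.sub measurable_id)))

/-- The field of the events in `E`. -/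
noncomputable def YE (E : Finset (Ev d)) (z : Ev d → ℝ) (v : Word d) : ℝ :=
  ∑ e ∈ E.filter (fun e => e.1 = v), Real.artanh (kp e.2 * z e)

lemma measurable_YE (E : Finset (Ev d)) : Measurable (YE E) := by
  refine measurable_pi_iff.mpr fun v => ?_
  unfold YE
  refine Finset.measurable_sum _ fun e _ => ?_
  exact gl_measurable_artanh.comp (measurable_const.mul (measurable_pi_apply e))

lemma tiltE_YE (E : Finset (Ev d)) {D : Finset (Word d)} (hD : ∀ e ∈ E, e.1 ∈ D) (z : Ev d → ℝ)
    (σ : Word d → Bool) :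
    tiltE D (YE E z) σ = ∏ e ∈ E, Real.exp (sp (σ e.1) * Real.artanh (kp e.2 * z e)) := by
  unfold tiltE
  rw [← Real.exp_sum]
  congr 1
  unfold YE
  rw [← Finset.sum_fiberwise_of_maps_to (g := fun e : Ev d => e.1) hD]
  refine Finset.sum_congr rfl fun v _ => ?_
  rw [Finset.mul_sum]
  refine Finset.sum_congr rfl fun e he => ?_
  rw [(Finset.mem_filter.mp he).2]

lemma gl_factor_id (b : Bool) {x : ℝ} (hx : x ∈ Ioo (-1 : ℝ) 1) :
    1 + sp b * x = √(1 - x ^ 2) * Real.exp (sp b * Real.artanh x) := by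
  have hpos : 0 < 1 - x ^ 2 := by nlinarith [hx.1, hx.2]
  have hs : √(1 - x ^ 2) ≠ 0 := (Real.sqrt_pos.mpr hpos).ne'
  have h1 := Real.cosh_artanh hx
  have h2 := Real.sinh_artanh hx
  cases b with
  | false =>
    simp only [sp, Bool.false_eq_true, if_false, one_mul]
    rw [← Real.cosh_add_sinh, h1, h2]
    field_simp
  | true =>
    simp only [sp, if_true, neg_mul, one_mul]
    rw [← Real.cosh_sub_sinh, h1, h2]
    field_simp
    ring

/-- The part of the likelihood which does not depend on the spins. -/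
noncomputable def cA (A : Finset (Ev d)) (V : LabT d) : ℝ := ∏ e ∈ A, √(1 - (kp e.2 * uR V e) ^ 2)

lemma gl_kpu_mem (e : Ev d) (V : LabT d) : kp e.2 * uR V e ∈ Ioo (-1 : ℝ) 1 := by
  have h3 : |kp e.2 * uR V e| ≤ 1 / 2 * 1 := by
    rw [abs_mul]
    have := uR_mem V e
    have : |uR V e| ≤ 1 := abs_le.mpr ⟨this.1, this.2⟩
    exact mul_le_mul (gl_abs_kp _) this (abs_nonneg _) (by norm_num)
  have := abs_le.mp h3
  constructor <;> linarith [this.1, this.2]

lemma likA_eq {A E : Finset (Ev d)} (hAE : A ⊆ E) {D : Finset (Word d)} (hD : ∀ e ∈ E, e.1 ∈ D)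
    (σ : Word d → Bool) (V : LabT d) :
    likA A σ V = cA A V * tiltE D (YE E (maskA A (uR V))) σ := by
  rw [tiltE_YE E hD]
  have h2 : ∏ e ∈ E, Real.exp (sp (σ e.1) * Real.artanh (kp e.2 * maskA A (uR V) e)) =
      ∏ e ∈ A, Real.exp (sp (σ e.1) * Real.artanh (kp e.2 * uR V e)) := by
    symm
    calc _ = ∏ e ∈ A, Real.exp (sp (σ e.1) * Real.artanh (kp e.2 * maskA A (uR V) e)) := by
          refine Finset.prod_congr rfl fun e he => ?_
          simp [maskA, he]
      _ = _ := Finset.prod_subset hAE fun e _ he => by simp [maskA, he, Real.artanh_zero]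
  rw [h2]
  unfold likA cA
  rw [← Finset.prod_mul_distrib]
  refine Finset.prod_congr rfl fun e _ => ?_
  have := gl_factor_id (σ e.1) (gl_kpu_mem e V)
  rw [← this]
  ring

/-! ### Gibbs expectations -/

section Gibbs

variable [Corr θ]

lemma gl_tilt_int (D : Finset (Word d)) (y : Word d → ℝ) : Integrable (tiltE D y) (isingLaw d θ) := by
  refine Integrable.of_bound (slf_measurable_tiltE D y).aestronglyMeasurable (Real.exp (∑ x ∈ D, |y x|))
    (ae_of_all _ fun σ => ?_)
  rw [Real.norm_of_nonneg (slf_tiltE_pos D y σ).le]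
  exact slf_tiltE_le D y σ

lemma gl_Phi_tilt_int (D : Finset (Word d)) (y : Word d → ℝ) {Φ : (Word d → Bool) → ℝ} (hΦ : Measurable Φ)
    {B : ℝ} (hΦb : ∀ σ, |Φ σ| ≤ B) : Integrable (fun σ => Φ σ * tiltE D y σ) (isingLaw d θ) :=
  (gl_tilt_int D y).bdd_mul hΦ.aestronglyMeasurable (ae_of_all _ hΦb)

lemma gl_int_tilt_pos (D : Finset (Word d)) (y : Word d → ℝ) : 0 < ∫ σ, tiltE D y σ ∂(isingLaw d θ) := by
  rw [integral_pos_iff_support_of_nonneg (fun σ => (slf_tiltE_pos D y σ).le) (gl_tilt_int D y)]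
  have : Function.support (tiltE D y) = Set.univ := by
    ext σ
    simp [Function.mem_support, (slf_tiltE_pos D y σ).ne']
  rw [this]
  simp

lemma gbE_abs_le (D : Finset (Word d)) (y : Word d → ℝ) {Φ : (Word d → Bool) → ℝ} (hΦ : Measurable Φ)
    (hΦb : ∀ σ, |Φ σ| ≤ 1) : |gbE θ D y Φ| ≤ 1 := by
  unfold gbE
  have hpos := gl_int_tilt_pos (θ := θ) D y
  rw [abs_div, abs_of_pos hpos, div_le_one hpos]
  refine le_trans (abs_integral_le_integral_abs) ?_
  refine integral_mono (gl_Phi_tilt_int D y hΦ hΦb).abs (gl_tilt_int D y) fun σ => ?_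
  have h1 := slf_tiltE_pos D y σ
  simp only
  rw [abs_mul, abs_of_pos h1]
  calc |Φ σ| * tiltE D y σ ≤ 1 * tiltE D y σ := mul_le_mul_of_nonneg_right (hΦb σ) h1.le
    _ = tiltE D y σ := one_mul _

lemma gl_measurable_tilt_joint (D : Finset (Word d)) :
    Measurable (fun p : (Word d → ℝ) × (Word d → Bool) => tiltE D p.1 p.2) := by
  unfold tiltE
  refine Real.measurable_exp.comp (Finset.measurable_sum _ fun x _ => ?_)
  refine Measurable.mul ?_ ((measurable_pi_apply x).comp measurable_fst)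
  exact (Measurable.of_discrete (f := sp)).comp ((measurable_pi_apply x).comp measurable_snd)

lemma measurable_gbE (D : Finset (Word d)) {Φ : (Word d → Bool) → ℝ} (hΦ : Measurable Φ) :
    Measurable (fun y : Word d → ℝ => gbE θ D y Φ) := by
  unfold gbE
  have h1 : Measurable (fun y : Word d → ℝ => ∫ σ, Φ σ * tiltE D y σ ∂(isingLaw d θ)) := by
    refine (StronglyMeasurable.integral_prod_right (f := fun (y : Word d → ℝ) σ => Φ σ * tiltE D y σ)
      ?_).measurable
    exact ((hΦ.comp measurable_snd).mul (gl_measurable_tilt_joint D)).stronglyMeasurable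
  have h2 : Measurable (fun y : Word d → ℝ => ∫ σ, tiltE D y σ ∂(isingLaw d θ)) := by
    refine (StronglyMeasurable.integral_prod_right (f := fun (y : Word d → ℝ) σ => tiltE D y σ)
      ?_).measurable
    exact (gl_measurable_tilt_joint D).stronglyMeasurable
  exact h1.div h2

/-- Bayes for fixed labels. -/
theorem gl_bayes_fixed {A E : Finset (Ev d)} (hAE : A ⊆ E) {D : Finset (Word d)} (hD : ∀ e ∈ E, e.1 ∈ D)
    {Φ : (Word d → Bool) → ℝ} (hΦ : Measurable Φ) (hΦb : ∀ σ, |Φ σ| ≤ 1)
    {T : (Ev d → ℝ) → ℝ} (hT : Measurable T) {C : ℝ} (hC : ∀ z, |T z| ≤ C) :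
    ∫ σ, ∫ V, Φ σ * T (maskA A (zS σ V)) ∂(volE d) ∂(isingLaw d θ) =
      ∫ σ, ∫ V, gbE θ D (YE E (maskA A (zS σ V))) Φ * T (maskA A (zS σ V)) ∂(volE d) ∂(isingLaw d θ) := by
  have hC0 : 0 ≤ C := le_trans (abs_nonneg _) (hC 0)
  have hgb : Measurable (fun z : Ev d → ℝ => gbE θ D (YE E z) Φ) :=
    (measurable_gbE D hΦ).comp (measurable_YE E)
  have hgbb : ∀ z : Ev d → ℝ, |gbE θ D (YE E z) Φ| ≤ 1 := fun z => gbE_abs_le D _ hΦ hΦb
  have hmU : Measurable (fun V : LabT d => maskA A (uR V)) :=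
    measurable_maskA _ fun e => measurable_uR e
  -- change of measure in both
  have hL : ∀ σ : Word d → Bool, ∫ V, Φ σ * T (maskA A (zS σ V)) ∂(volE d) =
      ∫ V, Φ σ * (T (maskA A (uR V)) * likA A σ V) ∂(volE d) := by
    intro σ
    rw [integral_const_mul, integral_const_mul, gl_cv_finset σ A hT hC]
  have hR : ∀ σ : Word d → Bool, ∫ V, gbE θ D (YE E (maskA A (zS σ V))) Φ * T (maskA A (zS σ V)) ∂(volE d) =
      ∫ V, (gbE θ D (YE E (maskA A (uR V))) Φ * T (maskA A (uR V))) * likA A σ V ∂(volE d) := by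
    intro σ
    have := gl_cv_finset σ A (G := fun z => gbE θ D (YE E z) Φ * T z) (hgb.mul hT) (C := 1 * C) (fun z => by
      rw [abs_mul]
      exact mul_le_mul (hgbb z) (hC z) (abs_nonneg _) (by norm_num))
    exact this
  simp_rw [hL, hR]
  -- swap
  have hlik : Measurable (fun p : (Word d → Bool) × LabT d => likA A p.1 p.2) := measurable_likA A
  have hintL : Integrable (Function.uncurry fun (σ : Word d → Bool) (V : LabT d) =>
      Φ σ * (T (maskA A (uR V)) * likA A σ V)) ((isingLaw d θ).prod (volE d)) := by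
    refine gl_bdd_int (C := 1 * (C * 2 ^ A.card)) ?_ ?_
    · exact (hΦ.comp measurable_fst).mul (((hT.comp hmU).comp measurable_snd).mul hlik)
    · rintro ⟨σ, V⟩
      simp only [Function.uncurry]
      rw [abs_mul, abs_mul, abs_of_nonneg (likA_nonneg A σ V)]
      exact mul_le_mul (hΦb σ) (mul_le_mul (hC _) (likA_le _ _ _) (likA_nonneg _ _ _) hC0)
        (mul_nonneg (abs_nonneg _) (likA_nonneg _ _ _)) (by norm_num)
  have hintR : Integrable (Function.uncurry fun (σ : Word d → Bool) (V : LabT d) =>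
      (gbE θ D (YE E (maskA A (uR V))) Φ * T (maskA A (uR V))) * likA A σ V)
      ((isingLaw d θ).prod (volE d)) := by
    refine gl_bdd_int (C := 1 * C * 2 ^ A.card) ?_ ?_
    · exact (((hgb.comp hmU).comp measurable_snd).mul ((hT.comp hmU).comp measurable_snd)).mul hlik
    · rintro ⟨σ, V⟩
      simp only [Function.uncurry]
      rw [abs_mul, abs_mul, abs_of_nonneg (likA_nonneg A σ V)]
      exact mul_le_mul (mul_le_mul (hgbb _) (hC _) (abs_nonneg _) (by norm_num)) (likA_le _ _ _)
        (likA_nonneg _ _ _) (by positivity)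
  rw [integral_integral_swap hintL, integral_integral_swap hintR]
  refine integral_congr_ae (ae_of_all _ fun V => ?_)
  dsimp only
  set y := YE E (maskA A (uR V)) with hy
  have e1 : ∀ σ, Φ σ * (T (maskA A (uR V)) * likA A σ V) =
      (T (maskA A (uR V)) * cA A V) * (Φ σ * tiltE D y σ) := by
    intro σ
    rw [likA_eq hAE hD σ V]
    ring
  have e2 : ∀ σ, (gbE θ D y Φ * T (maskA A (uR V))) * likA A σ V =
      (gbE θ D y Φ * T (maskA A (uR V)) * cA A V) * tiltE D y σ := by
    intro σ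
    rw [likA_eq hAE hD σ V]
    ring
  simp_rw [e1, e2]
  rw [integral_const_mul, integral_const_mul]
  have hpos := gl_int_tilt_pos (θ := θ) D y
  have : gbE θ D y Φ * ∫ σ, tiltE D y σ ∂(isingLaw d θ) = ∫ σ, Φ σ * tiltE D y σ ∂(isingLaw d θ) := by
    unfold gbE
    field_simp
  rw [← this]
  ring

end Gibbs

/-! ### Continuity of Gibbs expectations in the field -/

lemma gbE_congr (D : Finset (Word d)) {y y' : Word d → ℝ} (h : ∀ v ∈ D, y v = y' v)
    (Φ : (Word d → Bool) → ℝ) : gbE θ D y Φ = gbE θ D y' Φ := by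
  have : ∀ σ, tiltE D y σ = tiltE D y' σ := by
    intro σ
    unfold tiltE
    congr 1
    exact Finset.sum_congr rfl fun v hv => by rw [h v hv]
  unfold gbE
  simp_rw [this]

section Cont

variable [Corr θ]

omit [Corr θ] in
lemma gl_tendsto_tilt (D : Finset (Word d)) {yn : ℕ → Word d → ℝ} {y : Word d → ℝ}
    (h : ∀ v ∈ D, Tendsto (fun n => yn n v) atTop (𝓝 (y v))) (σ : Word d → Bool) :
    Tendsto (fun n => tiltE D (yn n) σ) atTop (𝓝 (tiltE D y σ)) := by
  unfold tiltE
  refine (Real.continuous_exp.tendsto _).comp ?_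
  exact tendsto_finsetSum _ fun v hv => (h v hv).const_mul _

lemma gl_tendsto_gbE (D : Finset (Word d)) {yn : ℕ → Word d → ℝ} {y : Word d → ℝ}
    (h : ∀ v ∈ D, Tendsto (fun n => yn n v) atTop (𝓝 (y v)))
    {Φ : (Word d → Bool) → ℝ} (hΦ : Measurable Φ) (hΦb : ∀ σ, |Φ σ| ≤ 1) :
    Tendsto (fun n => gbE θ D (yn n) Φ) atTop (𝓝 (gbE θ D y Φ)) := by
  have hS : Tendsto (fun n => ∑ x ∈ D, |yn n x|) atTop (𝓝 (∑ x ∈ D, |y x|)) :=
    tendsto_finsetSum _ fun v hv => (h v hv).abs
  obtain ⟨K, hK⟩ := hS.bddAbove_range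
  have hK' : ∀ n, ∑ x ∈ D, |yn n x| ≤ K := fun n => hK ⟨n, rfl⟩
  have hb : ∀ n σ, tiltE D (yn n) σ ≤ Real.exp K := fun n σ =>
    (slf_tiltE_le D (yn n) σ).trans (Real.exp_le_exp.mpr (hK' n))
  have h1 : Tendsto (fun n => ∫ σ, Φ σ * tiltE D (yn n) σ ∂(isingLaw d θ)) atTop
      (𝓝 (∫ σ, Φ σ * tiltE D y σ ∂(isingLaw d θ))) := by
    refine tendsto_integral_of_dominated_convergence (fun _ => Real.exp K) ?_ (integrable_const _) ?_ ?_
    · exact fun n => (hΦ.mul (slf_measurable_tiltE D (yn n))).aestronglyMeasurable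
    · refine fun n => ae_of_all _ fun σ => ?_
      rw [Real.norm_eq_abs, abs_mul, abs_of_pos (slf_tiltE_pos D (yn n) σ)]
      calc |Φ σ| * tiltE D (yn n) σ ≤ 1 * Real.exp K :=
            mul_le_mul (hΦb σ) (hb n σ) (slf_tiltE_pos D (yn n) σ).le (by norm_num)
        _ = Real.exp K := one_mul _
    · exact ae_of_all _ fun σ => (gl_tendsto_tilt D h σ).const_mul _
  have h2 : Tendsto (fun n => ∫ σ, tiltE D (yn n) σ ∂(isingLaw d θ)) atTop
      (𝓝 (∫ σ, tiltE D y σ ∂(isingLaw d θ))) := by
    refine tendsto_integral_of_dominated_convergence (fun _ => Real.exp K) ?_ (integrable_const _) ?_ ?_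
    · exact fun n => (slf_measurable_tiltE D (yn n)).aestronglyMeasurable
    · refine fun n => ae_of_all _ fun σ => ?_
      rw [Real.norm_eq_abs, abs_of_pos (slf_tiltE_pos D (yn n) σ)]
      exact hb n σ
    · exact ae_of_all _ fun σ => gl_tendsto_tilt D h σ
  unfold gbE
  exact h1.div h2 (gl_int_tilt_pos D y).ne'

end Cont

/-! ### Fixed labels: a set of events -/

/-- The reference space: spins and noise. -/
abbrev OmF (d : ℕ) : Type := (Word d → Bool) × LabT d

/-- The law of the spins and the noise. -/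
noncomputable abbrev glMu (d : ℕ) (θ : ℝ) : Measure (OmF d) := (isingLaw d θ).prod (volE d)

open Classical in
/-- The observations of the events in `S`. -/
noncomputable def glObs (S : Set (Ev d)) (p : OmF d) : Ev d → ℝ :=
  fun e => if e ∈ S then zS p.1 p.2 e else 0

open Classical in
/-- The field of the events in `S`. -/
noncomputable def glY (S : Set (Ev d)) (p : OmF d) (v : Word d) : ℝ :=
  ∑' j : ℤ, if (v, j) ∈ S then Real.artanh (kp j * zS p.1 p.2 (v, j)) else 0

open Classical in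
/-- The finite part of `S` at level `m`. -/
noncomputable def glA (D : Finset (Word d)) (S : Set (Ev d)) (m : ℕ) : Finset (Ev d) :=
  (D ×ˢ Finset.Icc (-(m : ℤ)) (m : ℤ)).filter (fun e => e ∈ S)

lemma mem_glA {D : Finset (Word d)} {S : Set (Ev d)} {m : ℕ} {e : Ev d} :
    e ∈ glA D S m ↔ e.1 ∈ D ∧ (-(m : ℤ) ≤ e.2 ∧ e.2 ≤ m) ∧ e ∈ S := by
  classical
  simp only [glA, Finset.mem_filter, Finset.mem_product, Finset.mem_Icc]
  tauto

lemma glA_mono (D : Finset (Word d)) (S : Set (Ev d)) {m n : ℕ} (h : m ≤ n) : glA D S m ⊆ glA D S n := by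
  intro e he
  obtain ⟨h1, ⟨h2, h3⟩, h4⟩ := mem_glA.mp he
  have : (m : ℤ) ≤ n := by exact_mod_cast h
  exact mem_glA.mpr ⟨h1, ⟨by omega, by omega⟩, h4⟩

lemma maskA_maskA {A B : Finset (Ev d)} (h : A ⊆ B) (z : Ev d → ℝ) : maskA A (maskA B z) = maskA A z := by
  funext e
  unfold maskA
  by_cases he : e ∈ A
  · simp [he, h he]
  · simp [he]

lemma measurable_maskA_id (A : Finset (Ev d)) : Measurable (maskA A) :=
  measurable_maskA (z := fun z : Ev d → ℝ => z) A fun e => measurable_pi_apply e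

lemma measurable_maskA_zS (A : Finset (Ev d)) : Measurable (fun p : OmF d => maskA A (zS p.1 p.2)) :=
  measurable_maskA A fun e => measurable_zS e

/-- The finite level sigma algebra. -/
noncomputable def glF (D : Finset (Word d)) (S : Set (Ev d)) (m : ℕ) : MeasurableSpace (OmF d) :=
  MeasurableSpace.comap (fun p : OmF d => maskA (glA D S m) (zS p.1 p.2)) inferInstance

lemma glF_le (D : Finset (Word d)) (S : Set (Ev d)) (m : ℕ) :
    glF D S m ≤ (inferInstance : MeasurableSpace (OmF d)) :=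
  (measurable_maskA_zS _).comap_le

lemma glF_mono (D : Finset (Word d)) (S : Set (Ev d)) : Monotone (glF D S) := by
  intro m n h
  have h1 : (fun p : OmF d => maskA (glA D S m) (zS p.1 p.2)) =
      (maskA (glA D S m)) ∘ (fun p : OmF d => maskA (glA D S n) (zS p.1 p.2)) := by
    funext p
    simp only [Function.comp]
    rw [maskA_maskA (glA_mono D S h)]
  unfold glF
  rw [h1, ← MeasurableSpace.comap_comp]
  exact MeasurableSpace.comap_mono (measurable_maskA_id _).comap_le

lemma measurable_glObs (S : Set (Ev d)) : Measurable (glObs (d := d) S) := by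
  classical
  refine measurable_pi_iff.mpr fun e => ?_
  unfold glObs
  by_cases h : e ∈ S
  · simpa [h] using measurable_zS e
  · simpa [h] using measurable_const

/-- A set integral over a preimage as an integral with an indicator. -/
lemma gl_setInt_eq {X Y : Type*} [MeasurableSpace X] [MeasurableSpace Y] {μ : Measure X} {f : X → Y}
    (hf : Measurable f) {C : Set Y} (hC : MeasurableSet C) (g : X → ℝ) :
    ∫ x in f ⁻¹' C, g x ∂μ = ∫ x, g x * C.indicator (fun _ => (1 : ℝ)) (f x) ∂μ := by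
  rw [← integral_indicator (hf hC)]
  refine integral_congr_ae (ae_of_all _ fun x => ?_)
  by_cases h : f x ∈ C
  · have h' : x ∈ f ⁻¹' C := h
    simp [indicator, h, h']
  · have h' : x ∉ f ⁻¹' C := h
    simp [indicator, h, h']

lemma gl_ind_bd {Y : Type*} (C : Set Y) (y : Y) : |C.indicator (fun _ => (1 : ℝ)) y| ≤ 1 := by
  by_cases h : y ∈ C <;> simp [indicator, h]

lemma gl_ind_meas {Y : Type*} [MeasurableSpace Y] {C : Set Y} (hC : MeasurableSet C) :
    Measurable (C.indicator (fun _ => (1 : ℝ))) :=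
  measurable_const.indicator hC

lemma gl_abs_mul_le {a b A B : ℝ} (h1 : |a| ≤ A) (h2 : |b| ≤ B) : |a * b| ≤ A * B := by
  rw [abs_mul]
  exact mul_le_mul h1 h2 (abs_nonneg _) (le_trans (abs_nonneg _) h1)

section Fixed

variable [Corr θ]

/-- Integrals against the reference measure. -/
lemma gl_int_mu {F : OmF d → ℝ} (hF : Measurable F) {C : ℝ} (hC : ∀ p, |F p| ≤ C) :
    ∫ p, F p ∂(glMu d θ) = ∫ σ, ∫ V, F (σ, V) ∂(volE d) ∂(isingLaw d θ) :=
  integral_prod _ (gl_bdd_int hF hC)

/-- The conditional expectation at a finite level. -/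
lemma gl_condExp_finite (D : Finset (Word d)) (S : Set (Ev d)) (hSD : ∀ e ∈ S, e.1 ∈ D) (m : ℕ)
    {Φ : (Word d → Bool) → ℝ} (hΦ : Measurable Φ) (hΦb : ∀ σ, |Φ σ| ≤ 1) :
    (fun p : OmF d => gbE θ D (YE (glA D S m) (maskA (glA D S m) (zS p.1 p.2))) Φ) =ᵐ[glMu d θ]
      (glMu d θ)[fun p => Φ p.1 | glF D S m] := by
  set A := glA D S m with hA
  have hAD : ∀ e ∈ A, e.1 ∈ D := fun e he => (mem_glA.mp he).1
  have hΦ1 : Measurable (fun p : OmF d => Φ p.1) := hΦ.comp measurable_fst
  have hgz : Measurable (fun z : Ev d → ℝ => gbE θ D (YE A z) Φ) :=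
    (measurable_gbE D hΦ).comp (measurable_YE A)
  have hg : Measurable (fun p : OmF d => gbE θ D (YE A (maskA A (zS p.1 p.2))) Φ) :=
    hgz.comp (measurable_maskA_zS A)
  have hgb : ∀ p : OmF d, |gbE θ D (YE A (maskA A (zS p.1 p.2))) Φ| ≤ 1 :=
    fun p => gbE_abs_le D _ hΦ hΦb
  refine ae_eq_condExp_of_forall_setIntegral_eq (glF_le D S m) (gl_bdd_int hΦ1 fun p => hΦb _)
    (fun s _ _ => (gl_bdd_int hg hgb).integrableOn) ?_ ?_
  · rintro s ⟨C, hC, rfl⟩ -
    have hmk := measurable_maskA_zS (d := d) A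
    rw [gl_setInt_eq hmk hC, gl_setInt_eq hmk hC]
    have hT := gl_ind_meas hC
    have hB := gl_bayes_fixed (θ := θ) (Finset.Subset.refl A) hAD hΦ hΦb hT (gl_ind_bd C)
    have e1 := gl_int_mu (θ := θ) (hg.mul (hT.comp hmk)) (C := 1 * 1)
        (fun p => gl_abs_mul_le (hgb p) (gl_ind_bd C _))
    have e2 := gl_int_mu (θ := θ) (hΦ1.mul (hT.comp hmk)) (C := 1 * 1)
      (fun p => gl_abs_mul_le (hΦb _) (gl_ind_bd C _))
    simp only [Pi.mul_apply, Function.comp] at e1 e2
    rw [e1, e2]
    exact hB.symm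
  · have : Measurable[glF D S m] (fun p : OmF d => gbE θ D (YE A (maskA A (zS p.1 p.2))) Φ) :=
      hgz.comp (comap_measurable _)
    exact this.stronglyMeasurable.aestronglyMeasurable

end Fixed

/-! ### The limit of the finite fields -/

lemma gl_abs_zS (σ : Word d → Bool) (V : LabT d) (e : Ev d) : |zS σ V e| ≤ 1 := by
  unfold zS
  rw [abs_mul, abs_sp, one_mul]
  have := quant_mem (gl_abs_kp e.2) (V e).2
  exact abs_le.mpr ⟨this.1, this.2⟩

lemma gl_artanh_odd (x : ℝ) : Real.artanh (-x) = - Real.artanh x := by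
  unfold Real.artanh
  have e : (1 + -x) / (1 - -x) = ((1 + x) / (1 - x))⁻¹ := by
    rw [inv_div, sub_neg_eq_add, ← sub_eq_add_neg]
  rw [e, Real.sqrt_inv, Real.log_inv]

lemma gl_abs_artanh_le {x k : ℝ} (hk : k < 1) (hx : |x| ≤ k) : |Real.artanh x| ≤ Real.artanh k := by
  obtain ⟨h1, h2⟩ := abs_le.mp hx
  rw [abs_le]
  constructor
  · have := Real.artanh_le_artanh (x := -x) (y := k) (by linarith) hk (by linarith)
    rw [gl_artanh_odd] at this
    linarith
  · exact Real.artanh_le_artanh (by linarith) hk h2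

lemma gl_kp_lt (j : ℤ) : kp j < 1 := lt_of_le_of_lt (kp_le j) (by norm_num)

lemma gl_term_le (j : ℤ) {z : ℝ} (hz : |z| ≤ 1) : |Real.artanh (kp j * z)| ≤ Real.artanh (kp j) := by
  refine gl_abs_artanh_le (gl_kp_lt j) ?_
  rw [abs_mul, abs_of_pos (kp_pos j)]
  exact mul_le_of_le_one_right (kp_pos j).le hz

lemma gl_artanh_kp_nonneg (j : ℤ) : 0 ≤ Real.artanh (kp j) :=
  (Real.artanh_pos ⟨kp_pos j, gl_kp_lt j⟩).le

open Classical in
lemma gl_summable {S : Set (Ev d)} {s : ℝ} (hS : ∀ e ∈ S, (e.2 : ℝ) < s) (p : OmF d) (v : Word d) :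
    Summable (fun j : ℤ => if (v, j) ∈ S then Real.artanh (kp j * zS p.1 p.2 (v, j)) else 0) := by
  refine Summable.of_norm_bounded (summable_artanh s) fun j => ?_
  by_cases h : (v, j) ∈ S
  · have h2 : (j : ℝ) < s := hS _ h
    simp only [h, h2, if_true]
    exact gl_term_le j (gl_abs_zS _ _ _)
  · simp only [h, if_false, norm_zero]
    split_ifs
    · exact gl_artanh_kp_nonneg j
    · exact le_rfl

open Classical in
lemma gl_YE_eq {D : Finset (Word d)} {S : Set (Ev d)} (hSD : ∀ e ∈ S, e.1 ∈ D) (p : OmF d) (v : Word d) (m : ℕ) :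
    YE (glA D S m) (maskA (glA D S m) (zS p.1 p.2)) v =
      ∑ j ∈ Finset.Icc (-(m : ℤ)) (m : ℤ), if (v, j) ∈ S then Real.artanh (kp j * zS p.1 p.2 (v, j)) else 0 := by
  rw [← Finset.sum_filter]
  unfold YE
  refine Finset.sum_nbij' (fun e => e.2) (fun j => (v, j)) ?_ ?_ ?_ ?_ ?_
  · intro e he
    obtain ⟨h1, h2⟩ := Finset.mem_filter.mp he
    obtain ⟨h3, ⟨h4, h5⟩, h6⟩ := mem_glA.mp h1
    refine Finset.mem_filter.mpr ⟨Finset.mem_Icc.mpr ⟨h4, h5⟩, ?_⟩
    have : (v, e.2) = e := by rw [← h2]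
    rwa [this]
  · intro j hj
    obtain ⟨h1, h2⟩ := Finset.mem_filter.mp hj
    obtain ⟨h3, h4⟩ := Finset.mem_Icc.mp h1
    exact Finset.mem_filter.mpr ⟨mem_glA.mpr ⟨hSD _ h2, ⟨h3, h4⟩, h2⟩, rfl⟩
  · intro e he
    obtain ⟨_, h2⟩ := Finset.mem_filter.mp he
    show (v, e.2) = e
    rw [← h2]
  · intro j _
    rfl
  · intro e he
    obtain ⟨h1, h2⟩ := Finset.mem_filter.mp he
    have h3 : (v, e.2) = e := by rw [← h2]
    simp only [maskA, h1, if_true]
    rw [h3]

lemma gl_YE_tendsto {D : Finset (Word d)} {S : Set (Ev d)} {s : ℝ} (hSD : ∀ e ∈ S, e.1 ∈ D)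
    (hS : ∀ e ∈ S, (e.2 : ℝ) < s) (p : OmF d) (v : Word d) :
    Tendsto (fun m => YE (glA D S m) (maskA (glA D S m) (zS p.1 p.2)) v) atTop (𝓝 (glY S p v)) := by
  classical
  simp_rw [gl_YE_eq hSD p v]
  exact (gl_summable hS p v).hasSum.comp Finset.tendsto_Icc_neg

lemma gl_meas_limit {X : Type*} (m : MeasurableSpace X) {f : ℕ → X → ℝ} {g : X → ℝ}
    (hf : ∀ n, Measurable[m] (f n)) (h : ∀ x, Tendsto (fun n => f n x) atTop (𝓝 (g x))) :
    Measurable[m] g :=
  measurable_of_tendsto_metrizable hf (tendsto_pi_nhds.mpr h)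

lemma gl_glF_le_iSup (D : Finset (Word d)) (S : Set (Ev d)) (m : ℕ) : glF D S m ≤ ⨆ n, glF D S n :=
  le_iSup (glF D S) m

lemma gl_measurable_glY {D : Finset (Word d)} {S : Set (Ev d)} {s : ℝ} (hSD : ∀ e ∈ S, e.1 ∈ D)
    (hS : ∀ e ∈ S, (e.2 : ℝ) < s) : Measurable[⨆ n, glF D S n] (glY (d := d) S) := by
  refine @measurable_pi_iff _ _ _ (⨆ n, glF D S n) _ _ |>.mpr fun v => ?_
  refine gl_meas_limit (⨆ n, glF D S n) (fun m => ?_) (gl_YE_tendsto hSD hS · v)
  have h1 : Measurable (fun z : Ev d → ℝ => YE (glA D S m) z v) :=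
    (measurable_pi_apply v).comp (measurable_YE _)
  have h2 : Measurable[glF D S m] (fun p : OmF d => YE (glA D S m) (maskA (glA D S m) (zS p.1 p.2)) v) :=
    h1.comp (comap_measurable _)
  exact h2.mono (gl_glF_le_iSup D S m) le_rfl

lemma gl_measurable_glObs_iSup {D : Finset (Word d)} {S : Set (Ev d)} (hSD : ∀ e ∈ S, e.1 ∈ D) :
    Measurable[⨆ n, glF D S n] (glObs (d := d) S) := by
  classical
  refine @measurable_pi_iff _ _ _ (⨆ n, glF D S n) _ _ |>.mpr fun e => ?_
  by_cases he : e ∈ S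
  · -- `e` appears at a finite level
    obtain ⟨m, hm⟩ : ∃ m : ℕ, e ∈ glA D S m := by
      refine ⟨e.2.natAbs, mem_glA.mpr ⟨hSD e he, ⟨?_, ?_⟩, he⟩⟩ <;> omega
    have h1 : (fun p : OmF d => glObs S p e) = (fun z : Ev d → ℝ => z e) ∘
        (fun p : OmF d => maskA (glA D S m) (zS p.1 p.2)) := by
      funext p
      simp [glObs, he, maskA, hm]
    rw [h1]
    have h2 : Measurable[glF D S m] ((fun z : Ev d → ℝ => z e) ∘
        (fun p : OmF d => maskA (glA D S m) (zS p.1 p.2))) :=
      (measurable_pi_apply e).comp (comap_measurable _)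
    exact h2.mono (gl_glF_le_iSup D S m) le_rfl
  · have h1 : (fun p : OmF d => glObs S p e) = fun _ => 0 := by
      funext p
      simp [glObs, he]
    rw [h1]
    exact @measurable_const _ _ _ (⨆ n, glF D S n) _

section Fixed2

variable [Corr θ]

/-- Levy upward at fixed labels. -/
theorem gl_condExp_iSup {D : Finset (Word d)} {S : Set (Ev d)} {s : ℝ} (hSD : ∀ e ∈ S, e.1 ∈ D)
    (hS : ∀ e ∈ S, (e.2 : ℝ) < s) {Φ : (Word d → Bool) → ℝ} (hΦ : Measurable Φ) (hΦb : ∀ σ, |Φ σ| ≤ 1) :
    (glMu d θ)[fun p => Φ p.1 | ⨆ n, glF D S n] =ᵐ[glMu d θ] fun p => gbE θ D (glY S p) Φ := by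
  let ℱ : Filtration ℕ (inferInstance : MeasurableSpace (OmF d)) :=
    ⟨glF D S, glF_mono D S, glF_le D S⟩
  have h1 := tendsto_ae_condExp (μ := glMu d θ) (ℱ := ℱ) (fun p => Φ p.1)
  have h2 : ∀ᵐ p ∂(glMu d θ), ∀ m, gbE θ D (YE (glA D S m) (maskA (glA D S m) (zS p.1 p.2))) Φ =
      ((glMu d θ)[fun p => Φ p.1 | glF D S m]) p :=
    ae_all_iff.mpr fun m => gl_condExp_finite D S hSD m hΦ hΦb
  filter_upwards [h1, h2] with p h3 h4
  refine tendsto_nhds_unique h3 ?_
  have h5 := gl_tendsto_gbE (θ := θ) D (y := glY S p) (fun v _ => gl_YE_tendsto hSD hS p v) hΦ hΦb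
  exact h5.congr fun m => h4 m

/-- Bayes for fixed labels and an infinite set of events. -/
theorem gl_bayes_of_meas {D : Finset (Word d)} {S : Set (Ev d)} {s : ℝ} (hSD : ∀ e ∈ S, e.1 ∈ D)
    (hS : ∀ e ∈ S, (e.2 : ℝ) < s) {Φ : (Word d → Bool) → ℝ} (hΦ : Measurable Φ) (hΦb : ∀ σ, |Φ σ| ≤ 1)
    {F : OmF d → ℝ} (hF : Measurable[⨆ n, glF D S n] F) {C : ℝ} (hC : ∀ p, |F p| ≤ C) :
    ∫ p, Φ p.1 * F p ∂(glMu d θ) = ∫ p, gbE θ D (glY S p) Φ * F p ∂(glMu d θ) := by
  have hle : (⨆ n, glF D S n) ≤ (inferInstance : MeasurableSpace (OmF d)) := iSup_le (glF_le D S)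
  have hΦ1 : Measurable (fun p : OmF d => Φ p.1) := hΦ.comp measurable_fst
  have hi : Integrable (fun p : OmF d => Φ p.1) (glMu d θ) := gl_bdd_int hΦ1 fun p => hΦb _
  have h1 := condExp_stronglyMeasurable_mul_of_bound (μ := glMu d θ) hle hF.stronglyMeasurable hi C
    (ae_of_all _ fun p => by rw [Real.norm_eq_abs]; exact hC p)
  have h2 := gl_condExp_iSup (θ := θ) hSD hS hΦ hΦb
  have h3 : ∫ p, F p * Φ p.1 ∂(glMu d θ) = ∫ p, (glMu d θ)[F * (fun p => Φ p.1) | ⨆ n, glF D S n] p ∂(glMu d θ) :=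
    (integral_condExp hle).symm
  calc ∫ p, Φ p.1 * F p ∂(glMu d θ) = ∫ p, F p * Φ p.1 ∂(glMu d θ) := by simp_rw [mul_comm]
    _ = ∫ p, (glMu d θ)[F * (fun p => Φ p.1) | ⨆ n, glF D S n] p ∂(glMu d θ) := h3
    _ = ∫ p, gbE θ D (glY S p) Φ * F p ∂(glMu d θ) := by
      refine integral_congr_ae ?_
      filter_upwards [h1, h2] with p h4 h5
      rw [h4, Pi.mul_apply, h5, mul_comm]

end Fixed2

/-! ### Fixed labels: the field at time `s` -/

/-- The events at the sites of `D` seen before time `s`. -/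
def glS (s : ℝ) (W : LabT d) (D : Finset (Word d)) : Set (Ev d) := {e | e.1 ∈ D ∧ inA s e W}

lemma glS_site {s : ℝ} {W : LabT d} {D : Finset (Word d)} : ∀ e ∈ glS s W D, e.1 ∈ D := fun _ he => he.1

lemma gl_inA_lt {s : ℝ} {W : LabT d} {e : Ev d} (h : inA s e W) : (e.2 : ℝ) < s := by
  have h1 : tE e W < s := h.2
  have h2 : (0 : ℝ) ≤ (W e : ℝ) := (W e).2.1
  unfold tE at h1
  linarith

lemma glS_time {s : ℝ} {W : LabT d} {D : Finset (Word d)} : ∀ e ∈ glS s W D, (e.2 : ℝ) < s :=
  fun _ he => gl_inA_lt he.2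

lemma glY_eq_yS (s : ℝ) (W : LabT d) {D : Finset (Word d)} (p : OmF d) {v : Word d} (hv : v ∈ D) :
    glY (glS s W D) p v = yS s (p.1, p.2, W) v := by
  classical
  unfold glY yS
  refine tsum_congr fun j => ?_
  have : (v, j) ∈ glS s W D ↔ inA s (v, j) W := ⟨fun h => h.2, fun h => ⟨hv, h⟩⟩
  simp only [this]
  rfl

lemma measurable_yS_fixed (s : ℝ) (W : LabT d) :
    Measurable (fun p : OmF d => yS s (p.1, p.2, W)) :=
  (measurable_yS' s).comp (measurable_fst.prodMk (measurable_snd.prodMk measurable_const))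

/-- Bayes at fixed labels, at time `s`, on a finite set `D`: the conditional law of the spins given the
field on `D`. Integrals against the law of the spins and the noise. -/
theorem gl_bayes_yS [Corr θ] (s : ℝ) (W : LabT d) (D : Finset (Word d)) {Φ : (Word d → Bool) → ℝ}
    (hΦ : Measurable Φ) (hΦb : ∀ σ, |Φ σ| ≤ 1) {f : (Word d → ℝ) → ℝ} (hf : Measurable f) {C : ℝ}
    (hC : ∀ y, |f y| ≤ C) (hfD : DependsOn f (D : Set (Word d))) :
    ∫ p, Φ p.1 * f (yS s (p.1, p.2, W)) ∂((isingLaw d θ).prod (volE d)) =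
      ∫ p, gbE θ D (yS s (p.1, p.2, W)) Φ * f (yS s (p.1, p.2, W)) ∂((isingLaw d θ).prod (volE d)) := by
  have hF : Measurable[⨆ n, glF D (glS s W D) n] (fun p : OmF d => f (glY (glS s W D) p)) :=
    hf.comp (gl_measurable_glY glS_site glS_time)
  have h := gl_bayes_of_meas (θ := θ) glS_site glS_time hΦ hΦb hF (C := C) (fun p => hC _)
  have e1 : ∀ p : OmF d, f (glY (glS s W D) p) = f (yS s (p.1, p.2, W)) := fun p =>
    hfD fun v hv => glY_eq_yS s W p hv
  have e2 : ∀ p : OmF d, gbE θ D (glY (glS s W D) p) Φ = gbE θ D (yS s (p.1, p.2, W)) Φ := fun p =>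
    gbE_congr D (fun v hv => glY_eq_yS s W p hv) Φ
  simp_rw [e1, e2] at h
  exact h

/-! ### All labels -/

open Classical in
/-- All labels and the observations before `tt` at the sites of `D`. -/
noncomputable def obsD (tt : LabT d → ℝ) (D : Finset (Word d)) (ω : OmD d) : LabT d × (Ev d → ℝ) :=
  (ω.2.2, fun e => if e.1 ∈ D ∧ inA (tt ω.2.2) e ω.2.2 then Zo ω e else 0)

/-- The sigma algebra of all labels and the observations before `tt` at the sites of `D`. -/
noncomputable def FD (tt : LabT d → ℝ) (D : Finset (Word d)) : MeasurableSpace (OmD d) :=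
  MeasurableSpace.comap (obsD tt D) inferInstance

lemma measurable_Zo (e : Ev d) : Measurable (fun ω : OmD d => Zo ω e) :=
  (measurable_zS e).comp (measurable_fst.prodMk (measurable_fst.comp measurable_snd))

lemma measurable_W : Measurable (fun ω : OmD d => ω.2.2) := measurable_snd.comp measurable_snd

lemma measurableSet_inA {tt : LabT d → ℝ} (htt : Measurable tt) (e : Ev d) :
    MeasurableSet {W : LabT d | inA (tt W) e W} := by
  have h1 : Measurable (fun W : LabT d => (W e : ℝ)) := measurable_subtype_coe.comp (measurable_pi_apply e)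
  have h2 : Measurable (fun W : LabT d => tE e W) := measurable_const.add (measurable_const.mul h1)
  exact (measurableSet_lt h1 measurable_const).inter (measurableSet_lt h2 htt)

open Classical in
lemma measurable_obs_coord {tt : LabT d → ℝ} (htt : Measurable tt) (e : Ev d) :
    Measurable (fun ω : OmD d => if inA (tt ω.2.2) e ω.2.2 then Zo ω e else 0) :=
  Measurable.ite (measurable_W (measurableSet_inA htt e)) (measurable_Zo e) measurable_const

lemma measurable_obsD {tt : LabT d → ℝ} (htt : Measurable tt) (D : Finset (Word d)) :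
    Measurable (obsD tt D) := by
  classical
  refine measurable_W.prodMk (measurable_pi_iff.mpr fun e => ?_)
  by_cases he : e.1 ∈ D
  · simp only [he, true_and]
    exact measurable_obs_coord htt e
  · simp only [he, false_and, if_false]
    exact measurable_const

lemma FD_le {tt : LabT d → ℝ} (htt : Measurable tt) (D : Finset (Word d)) :
    FD tt D ≤ (inferInstance : MeasurableSpace (OmD d)) :=
  (measurable_obsD htt D).comap_le

lemma FL_le' (tt : LabT d → ℝ) (htt : Measurable tt) : FL tt ≤ (inferInstance : MeasurableSpace (OmD d)) := by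
  refine Measurable.comap_le ?_
  exact measurable_W.prodMk (measurable_pi_iff.mpr fun e => measurable_obs_coord htt e)

open Classical in
/-- The mask of the sites of `D`. -/
def maskD (D : Finset (Word d)) (q : LabT d × (Ev d → ℝ)) : LabT d × (Ev d → ℝ) :=
  (q.1, fun e => if e.1 ∈ D then q.2 e else 0)

lemma measurable_maskD (D : Finset (Word d)) : Measurable (maskD D) := by
  classical
  refine measurable_fst.prodMk (measurable_pi_iff.mpr fun e => ?_)
  by_cases he : e.1 ∈ D
  · simp only [he, if_true]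
    exact (measurable_pi_apply e).comp measurable_snd
  · simp only [he, if_false]
    exact measurable_const

lemma obsD_eq_maskD (tt : LabT d → ℝ) {D D' : Finset (Word d)} (h : D ⊆ D') (ω : OmD d) :
    obsD tt D ω = maskD D (obsD tt D' ω) := by
  classical
  unfold obsD maskD
  refine Prod.ext rfl ?_
  funext e
  by_cases he : e.1 ∈ D
  · have he' := h he
    simp [he, he']
  · simp [he]

lemma obsD_eq_obsL (tt : LabT d → ℝ) (D : Finset (Word d)) (ω : OmD d) :
    obsD tt D ω = maskD D (obsL tt ω) := by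
  classical
  unfold obsD maskD obsL
  refine Prod.ext rfl ?_
  funext e
  by_cases he : e.1 ∈ D
  · simp [he]
  · simp [he]

lemma FD_mono (tt : LabT d → ℝ) {D D' : Finset (Word d)} (h : D ⊆ D') : FD tt D ≤ FD tt D' := by
  have h1 : obsD tt D = maskD D ∘ obsD tt D' := by
    funext ω
    exact obsD_eq_maskD tt h ω
  unfold FD
  rw [h1, ← MeasurableSpace.comap_comp]
  exact MeasurableSpace.comap_mono (measurable_maskD D).comap_le

lemma FD_le_FL (tt : LabT d → ℝ) (D : Finset (Word d)) : FD tt D ≤ FL tt := by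
  have h1 : obsD tt D = maskD D ∘ obsL tt := by
    funext ω
    exact obsD_eq_obsL tt D ω
  unfold FD FL
  rw [h1, ← MeasurableSpace.comap_comp]
  exact MeasurableSpace.comap_mono (measurable_maskD D).comap_le

/-- The labels are measurable for `FD`. -/
lemma measurable_W_FD (tt : LabT d → ℝ) (D : Finset (Word d)) :
    Measurable[FD tt D] (fun ω : OmD d => ω.2.2) :=
  measurable_fst.comp (comap_measurable (obsD tt D))

open Classical in
/-- The observation coordinates are measurable for `FD`. -/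
lemma measurable_obs_FD (tt : LabT d → ℝ) {D : Finset (Word d)} {e : Ev d} (he : e.1 ∈ D) :
    Measurable[FD tt D] (fun ω : OmD d => if inA (tt ω.2.2) e ω.2.2 then Zo ω e else 0) := by
  have h1 : (fun ω : OmD d => if inA (tt ω.2.2) e ω.2.2 then Zo ω e else 0) =
      (fun q : LabT d × (Ev d → ℝ) => q.2 e) ∘ obsD tt D := by
    funext ω
    simp [obsD, he]
  rw [h1]
  exact ((measurable_pi_apply e).comp measurable_snd).comp (comap_measurable (obsD tt D))

/-- The directed union of the sigma algebras `FD` is `FL`. -/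
lemma iSup_FD (tt : LabT d → ℝ) {D : ℕ → Finset (Word d)} (hex : ∀ v, ∃ R, v ∈ D R) :
    (⨆ R, FD tt (D R)) = FL tt := by
  apply le_antisymm
  · exact iSup_le fun R => FD_le_FL tt (D R)
  · refine Measurable.comap_le ?_
    have h1 : Measurable[⨆ R, FD tt (D R)] (fun ω : OmD d => ω.2.2) :=
      (measurable_W_FD tt (D 0)).mono (le_iSup (fun R => FD tt (D R)) 0) le_rfl
    refine Measurable.prodMk h1 ?_
    refine @measurable_pi_iff _ _ _ (⨆ R, FD tt (D R)) _ _ |>.mpr fun e => ?_
    obtain ⟨R, hR⟩ := hex e.1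
    exact (measurable_obs_FD tt hR).mono (le_iSup (fun R => FD tt (D R)) R) le_rfl

/-- The field at the label dependent time, at a site of `D`, is measurable for `FD`. -/
lemma measurable_yS_FD (tt : LabT d → ℝ) {D : Finset (Word d)} {v : Word d} (hv : v ∈ D) :
    Measurable[FD tt D] (fun ω : OmD d => yS (tt ω.2.2) ω v) := by
  classical
  refine gl_meas_limit (FD tt D)
    (f := fun m ω => ∑ j ∈ Finset.Icc (-(m : ℤ)) (m : ℤ),
      Real.artanh (kp j * (if inA (tt ω.2.2) (v, j) ω.2.2 then Zo ω (v, j) else 0))) (fun m => ?_) (fun ω => ?_)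
  · refine @Finset.measurable_sum _ _ _ _ _ _ (FD tt D) _ _ fun j _ => ?_
    refine gl_measurable_artanh.comp ?_
    exact (measurable_const.mul measurable_id).comp (measurable_obs_FD tt hv)
  · have e : ∀ j : ℤ, Real.artanh (kp j * (if inA (tt ω.2.2) (v, j) ω.2.2 then Zo ω (v, j) else 0)) =
        if inA (tt ω.2.2) (v, j) ω.2.2 then Real.artanh (kp j * Zo ω (v, j)) else 0 := by
      intro j
      by_cases h : inA (tt ω.2.2) (v, j) ω.2.2
      · simp [h]
      · simp [h, Real.artanh_zero]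
    simp_rw [e]
    unfold yS
    have hs : Summable (fun j : ℤ => if inA (tt ω.2.2) (v, j) ω.2.2 then Real.artanh (kp j * Zo ω (v, j)) else 0) := by
      have := gl_summable (S := {e | inA (tt ω.2.2) e ω.2.2}) (s := tt ω.2.2) (fun e he => gl_inA_lt he)
        (ω.1, ω.2.1) v
      exact this
    exact hs.hasSum.comp Finset.tendsto_Icc_neg

/-- The field at the label dependent time is measurable for `FL`. -/
lemma measurable_yS_FL (tt : LabT d → ℝ) : Measurable[FL tt] (fun ω : OmD d => yS (tt ω.2.2) ω) := by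
  refine @measurable_pi_iff _ _ _ (FL tt) _ _ |>.mpr fun v => ?_
  exact (measurable_yS_FD tt (D := {v}) (Finset.mem_singleton_self v)).mono (FD_le_FL tt _) le_rfl

section PD

variable [Corr θ]

/-- The order of integration in the law of the dynamic model. -/
lemma integral_PD {F : OmD d → ℝ} (hF : Measurable F) {C : ℝ} (hC : ∀ ω, |F ω| ≤ C) :
    ∫ ω, F ω ∂(PD d θ) = ∫ W, ∫ p, F (p.1, p.2, W) ∂(glMu d θ) ∂(volE d) := by
  have hmp := measurePreserving_prodAssoc (isingLaw d θ) (volE d) (volE d)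
  unfold PD
  rw [← hmp.map_eq, integral_map hmp.measurable.aemeasurable hF.aestronglyMeasurable]
  exact integral_prod_symm _ (gl_bdd_int (hF.comp hmp.measurable) fun q => hC _)

lemma gl_obsD_fix (tt : LabT d → ℝ) (D : Finset (Word d)) (W : LabT d) (p : OmF d) :
    obsD tt D (p.1, p.2, W) = (W, glObs (glS (tt W) W D) p) := by
  classical
  refine Prod.ext rfl ?_
  funext e
  simp only [obsD, glObs, glS, Set.mem_setOf_eq]
  rfl

/-- Bayes given the labels and the observations before `tt` on a finite set. -/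
theorem gl_condExp_FD {tt : LabT d → ℝ} (htt : Measurable tt) (D : Finset (Word d))
    {Φ : (Word d → Bool) → ℝ} (hΦ : Measurable Φ) (hΦb : ∀ σ, |Φ σ| ≤ 1) :
    (fun ω : OmD d => gbE θ D (yS (tt ω.2.2) ω) Φ) =ᵐ[PD d θ] (PD d θ)[fun ω => Φ ω.1 | FD tt D] := by
  classical
  have hΦ1 : Measurable (fun ω : OmD d => Φ ω.1) := hΦ.comp measurable_fst
  -- the field on `D` as a map
  let yD : OmD d → Word d → ℝ := fun ω v => if v ∈ D then yS (tt ω.2.2) ω v else 0
  have hyD : Measurable[FD tt D] yD := by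
    refine @measurable_pi_iff _ _ _ (FD tt D) _ _ |>.mpr fun v => ?_
    by_cases hv : v ∈ D
    · simp only [yD, hv, if_true]
      exact measurable_yS_FD tt hv
    · simp only [yD, hv, if_false]
      exact @measurable_const _ _ _ (FD tt D) _
  have hgeq : ∀ ω : OmD d, gbE θ D (yS (tt ω.2.2) ω) Φ = gbE θ D (yD ω) Φ := fun ω =>
    gbE_congr D (fun v hv => by simp [yD, hv]) Φ
  have hgF : Measurable[FD tt D] (fun ω : OmD d => gbE θ D (yS (tt ω.2.2) ω) Φ) := by
    simp_rw [hgeq]
    exact (measurable_gbE D hΦ).comp hyD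
  have hg : Measurable (fun ω : OmD d => gbE θ D (yS (tt ω.2.2) ω) Φ) := hgF.mono (FD_le htt D) le_rfl
  have hgb : ∀ ω : OmD d, |gbE θ D (yS (tt ω.2.2) ω) Φ| ≤ 1 := fun ω => gbE_abs_le D _ hΦ hΦb
  refine ae_eq_condExp_of_forall_setIntegral_eq (FD_le htt D) (gl_bdd_int hΦ1 fun ω => hΦb _)
    (fun s _ _ => (gl_bdd_int hg hgb).integrableOn) ?_ hgF.stronglyMeasurable.aestronglyMeasurable
  rintro s ⟨C, hC, rfl⟩ -
  have hob := measurable_obsD htt D
  rw [gl_setInt_eq hob hC, gl_setInt_eq hob hC]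
  have hT := gl_ind_meas hC
  have e1 := integral_PD (θ := θ) (hg.mul (hT.comp hob)) (C := 1 * 1)
    (fun ω => gl_abs_mul_le (hgb ω) (gl_ind_bd C _))
  have e2 := integral_PD (θ := θ) (hΦ1.mul (hT.comp hob)) (C := 1 * 1)
    (fun ω => gl_abs_mul_le (hΦb _) (gl_ind_bd C _))
  simp only [Pi.mul_apply, Function.comp] at e1 e2
  rw [e1, e2]
  refine integral_congr_ae (ae_of_all _ fun W => ?_)
  dsimp only
  set S := glS (tt W) W D with hSdef
  have hF : Measurable[⨆ n, glF D S n] (fun p : OmF d => C.indicator (fun _ => (1 : ℝ)) (W, glObs S p)) :=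
    hT.comp (Measurable.prodMk (@measurable_const _ _ _ (⨆ n, glF D S n) _) (gl_measurable_glObs_iSup glS_site))
  have h := gl_bayes_of_meas (θ := θ) (s := tt W) glS_site glS_time hΦ hΦb hF (C := 1) (fun p => gl_ind_bd C _)
  have e3 : ∀ p : OmF d, gbE θ D (yS (tt W) (p.1, p.2, W)) Φ = gbE θ D (glY S p) Φ := fun p =>
    gbE_congr D (fun v hv => (glY_eq_yS (tt W) W p hv).symm) Φ
  simp_rw [gl_obsD_fix, e3]
  exact h.symm

/-- Levy upward over the sets `D R`. -/
theorem gl_tendsto_FL {tt : LabT d → ℝ} (htt : Measurable tt) {D : ℕ → Finset (Word d)} (hmono : Monotone D)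
    (hex : ∀ v, ∃ R, v ∈ D R) {Φ : (Word d → Bool) → ℝ} (hΦ : Measurable Φ) (hΦb : ∀ σ, |Φ σ| ≤ 1) :
    ∀ᵐ ω ∂(PD d θ), Tendsto (fun R => gbE θ (D R) (yS (tt ω.2.2) ω) Φ) atTop
      (𝓝 (((PD d θ)[fun ω => Φ ω.1 | FL tt]) ω)) := by
  let ℱ : Filtration ℕ (inferInstance : MeasurableSpace (OmD d)) :=
    ⟨fun R => FD tt (D R), fun _ _ h => FD_mono tt (hmono h), fun R => FD_le htt (D R)⟩
  have h1 := tendsto_ae_condExp (μ := PD d θ) (ℱ := ℱ) (fun ω => Φ ω.1)
  have h2 : ∀ᵐ ω ∂(PD d θ), ∀ R, gbE θ (D R) (yS (tt ω.2.2) ω) Φ =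
      ((PD d θ)[fun ω => Φ ω.1 | FD tt (D R)]) ω :=
    ae_all_iff.mpr fun R => gl_condExp_FD htt (D R) hΦ hΦb
  have h3 : (⨆ n, ℱ n) = FL tt := iSup_FD tt hex
  rw [h3] at h1
  filter_upwards [h1, h2] with ω h4 h5
  exact h4.congr fun R => (h5 R).symm

lemma gl_measurable_sp (x : Word d) : Measurable (fun σ : Word d → Bool => sp (σ x)) :=
  (Measurable.of_discrete (f := sp)).comp (measurable_pi_apply x)

lemma gl_abs_sp_le (x : Word d) (σ : Word d → Bool) : |sp (σ x)| ≤ 1 := by
  rw [abs_sp]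

lemma gl_Bl_exhaust (x : Word d) (v : Word d) : ∃ R, v ∈ Bl x R := by
  refine ⟨len ((gm x).symm v), ?_⟩
  unfold Bl
  refine Finset.mem_map.2 ⟨(gm x).symm v, mem_ball.2 le_rfl, ?_⟩
  show gm x ((gm x).symm v) = v
  exact (gm x).apply_symm_apply v

lemma gl_ball_exhaust (v : Word d) : ∃ R, v ∈ (ball R : Finset (Word d)) := ⟨len v, mem_ball.2 le_rfl⟩

/-- The limit of the magnetisation along balls around `x`. -/
theorem gl_tendsto_Bl (h1 : θ < 1) {tt : LabT d → ℝ} (htt : Measurable tt) (x : Word d) :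
    ∀ᵐ ω ∂(PD d θ), Tendsto (fun R => mD θ (Bl x R) (yS (tt ω.2.2) ω) x) atTop
      (𝓝 (((PD d θ)[fun ω => sp (ω.1 x) | FL tt]) ω)) := by
  have h := gl_tendsto_FL (θ := θ) htt (lv_Bl_mono x) (gl_Bl_exhaust x) (gl_measurable_sp x) (gl_abs_sp_le x)
  filter_upwards [h] with ω h2
  exact h2.congr fun R => (mD_eq_gbE h1 _ _ x).symm

/-- The limit of the magnetisation along balls around the root. -/
theorem gl_tendsto_ball (h1 : θ < 1) {tt : LabT d → ℝ} (htt : Measurable tt) (x : Word d) :
    ∀ᵐ ω ∂(PD d θ), Tendsto (fun R => mD θ (ball R) (yS (tt ω.2.2) ω) x) atTop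
      (𝓝 (((PD d θ)[fun ω => sp (ω.1 x) | FL tt]) ω)) := by
  have h := gl_tendsto_FL (θ := θ) htt lv_ball_mono gl_ball_exhaust (gl_measurable_sp x) (gl_abs_sp_le x)
  filter_upwards [h] with ω h2
  exact h2.congr fun R => (mD_eq_gbE h1 _ _ x).symm

/-- The posterior mean of a spin. -/
theorem gl_condExp_spin (h1 : θ < 1) {tt : LabT d → ℝ} (htt : Measurable tt) (x : Word d) :
    (PD d θ)[fun ω => sp (ω.1 x) | FL tt] =ᵐ[PD d θ] fun ω => mm θ x (yS (tt ω.2.2) ω) := by
  filter_upwards [gl_tendsto_Bl h1 htt x] with ω h2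
  exact h2.limsup_eq.symm

/-- The posterior mean along balls around the root. -/
theorem gl_tendsto_ball_mm (h1 : θ < 1) {tt : LabT d → ℝ} (htt : Measurable tt) :
    ∀ᵐ ω ∂(PD d θ), ∀ x : Word d, Tendsto (fun R => mD θ (ball R) (yS (tt ω.2.2) ω) x) atTop
      (𝓝 (mm θ x (yS (tt ω.2.2) ω))) := by
  refine ae_all_iff.mpr fun x => ?_
  filter_upwards [gl_tendsto_Bl h1 htt x, gl_tendsto_ball h1 htt x] with ω h2 h3
  rw [show mm θ x (yS (tt ω.2.2) ω) = ((PD d θ)[fun ω => sp (ω.1 x) | FL tt]) ω from h2.limsup_eq]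
  exact h3

lemma gl_mm_yS_abs (h1 : θ < 1) (s : ℝ) (ω : OmD d) (x : Word d) :
    |mm θ x (yS s ω)| ≤ Real.tanh (Mb s + d * Real.artanh θ) :=
  mm_bound h1 (fun v => yS_abs s ω v) x

lemma gl_mm_yS_lt (h1 : θ < 1) (s : ℝ) (ω : OmD d) (x : Word d) : |mm θ x (yS s ω)| < 1 :=
  (gl_mm_yS_abs h1 s ω x).trans_lt (Real.tanh_lt_one _)

/-- The posterior mean of the product of the spins at the root and at `x`. -/
theorem gl_condExp_pair (h0 : 0 < θ) (h1 : θ < 1) {tt : LabT d → ℝ} (htt : Measurable tt) (x : Word d) :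
    (PD d θ)[fun ω => sp (ω.1 root) * sp (ω.1 x) | FL tt] =ᵐ[PD d θ] fun ω =>
      CCr θ x (yS (tt ω.2.2) ω) + mm θ root (yS (tt ω.2.2) ω) * mm θ x (yS (tt ω.2.2) ω) := by
  have hm : Measurable (fun σ : Word d → Bool => sp (σ root) * sp (σ x)) :=
    (gl_measurable_sp root).mul (gl_measurable_sp x)
  have hb : ∀ σ : Word d → Bool, |sp (σ root) * sp (σ x)| ≤ 1 := by
    intro σ
    rw [abs_mul, abs_sp, abs_sp, one_mul]
  have hT := gl_tendsto_FL (θ := θ) htt lv_ball_mono gl_ball_exhaust hm hb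
  filter_upwards [hT, gl_tendsto_ball_mm h1 htt] with ω h2 h3
  set y := yS (tt ω.2.2) ω with hy
  have hlt : ∀ v, |mm θ v y| < 1 := fun v => gl_mm_yS_lt h1 _ ω v
  have hev : ∀ᶠ R in atTop, √((1 - mD θ (ball R) y root ^ 2) * (1 - mD θ (ball R) y x ^ 2)) *
      ∏ i ∈ Finset.range (len x), Rho θ (mD θ (ball R) y (ch x i)) (mD θ (ball R) y (ch x (i + 1))) +
        mD θ (ball R) y root * mD θ (ball R) y x = gbE θ (ball R) y (fun σ => sp (σ root) * sp (σ x)) := by
    filter_upwards [eventually_ge_atTop (len x)] with R hR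
    have := covD_path h0 h1 (ball_connClosed R) (nb_ch x) (fun i _ => lv_ch_mem hR i) y
    rw [lv_ch_zero, lv_ch_len] at this
    rw [← this]
    unfold covD
    ring
  have hlim : Tendsto (fun R => √((1 - mD θ (ball R) y root ^ 2) * (1 - mD θ (ball R) y x ^ 2)) *
      ∏ i ∈ Finset.range (len x), Rho θ (mD θ (ball R) y (ch x i)) (mD θ (ball R) y (ch x (i + 1))) +
        mD θ (ball R) y root * mD θ (ball R) y x) atTop (𝓝 (CCr θ x y + mm θ root y * mm θ x y)) := by
    unfold CCr
    refine Tendsto.add (Tendsto.mul ?_ (tendsto_finsetProd _ fun i _ =>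
      lv_Rho_tendsto (h3 _) (h3 _) (hlt _) (hlt _))) ((h3 root).mul (h3 x))
    exact ((tendsto_const_nhds.sub ((h3 root).pow 2)).mul (tendsto_const_nhds.sub ((h3 x).pow 2))).sqrt
  exact tendsto_nhds_unique h2 (hlim.congr' hev)

/-- The magnetisation at a label dependent time is measurable for `FL`. -/
lemma gl_measurable_mm_FL (tt : LabT d → ℝ) (x : Word d) :
    Measurable[FL tt] (fun ω : OmD d => mm θ x (yS (tt ω.2.2) ω)) :=
  (measurable_mm θ x).comp (measurable_yS_FL tt)

end PD

end Vale.Agent.Lib.P161B
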