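import Vale.Agent.Lib.P161B.Space

/-!
Resampling of one label coordinate in the dynamic model, and the Palm inequality obtained from it.
-/

namespace Vale.Agent.Lib.P161B

open MeasureTheory ProbabilityTheory Filter Set
open Vale.Agent.Lib.P161

variable {d : ℕ} {θ : ℝ}

open Classical in
/-- Replace the label of `e` by `v`. -/
noncomputable def updL (e : Ev d) (W : LabT d) (v : unitInterval) : LabT d :=
  fun e' => if e' = e then v else W e'

/-- Replace the label of `e` in a sample point. -/
noncomputable def rl (e : Ev d) (ω : OmD d) (v : unitInterval) : OmD d := (ω.1, ω.2.1, updL e ω.2.2 v)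

lemma measurable_updL (e : Ev d) : Measurable (fun p : LabT d × unitInterval => updL e p.1 p.2) := by
  classical
  refine measurable_pi_iff.2 fun e' => ?_
  unfold updL
  by_cases h : e' = e
  · simp only [h, if_true]; exact measurable_snd
  · simp only [h, if_false]; exact (measurable_pi_apply e').comp measurable_fst

lemma measurable_rl (e : Ev d) : Measurable (fun p : OmD d × unitInterval => rl e p.1 p.2) := by
  unfold rl
  refine Measurable.prodMk (measurable_fst.comp measurable_fst) ?_
  refine Measurable.prodMk (measurable_fst.comp (measurable_snd.comp measurable_fst)) ?_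
  exact (measurable_updL e).comp
    ((measurable_snd.comp (measurable_snd.comp measurable_fst)).prodMk measurable_snd)

lemma isProb_volE : IsProbabilityMeasure (volE d) := by
  unfold volE; infer_instance

lemma volE_map_updL (e : Ev d) :
    ((volE d).prod (volume : Measure unitInterval)).map (fun p => updL e p.1 p.2) = volE d := by
  classical
  have := isProb_volE (d := d)
  unfold volE
  refine Measure.eq_infinitePi _ fun s t ht => ?_
  rw [Measure.map_apply (measurable_updL e) (MeasurableSet.pi s.countable_toSet fun i _ => ht i)]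
  have hpre : (fun p : LabT d × unitInterval => updL e p.1 p.2) ⁻¹' (Set.pi s t) =
      (Set.pi (s.erase e : Finset (Ev d)) t) ×ˢ (if e ∈ s then t e else Set.univ) := by
    ext ⟨W, v⟩
    simp only [Set.mem_preimage, Set.mem_pi, Set.mem_prod, Finset.mem_coe, Finset.mem_erase, updL]
    constructor
    · intro h
      refine ⟨fun i hi => ?_, ?_⟩
      · have := h i hi.2
        simpa [hi.1] using this
      · by_cases he : e ∈ s
        · have := h e he
          simpa [he] using this
        · simp [he]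
    · rintro ⟨h1, h2⟩ i hi
      by_cases hie : i = e
      · subst hie
        simpa [hi] using h2
      · simpa [hie] using h1 i ⟨hie, hi⟩
  rw [hpre, Measure.prod_prod]
  have h1 : Measure.infinitePi (fun _ : Ev d => (volume : Measure unitInterval))
      (Set.pi (s.erase e : Finset (Ev d)) t) = ∏ i ∈ s.erase e, volume (t i) :=
    Measure.infinitePi_pi _ fun i _ => ht i
  rw [h1]
  by_cases he : e ∈ s
  · simp only [he, if_true]
    exact Finset.prod_erase_mul s _ he
  · simp only [he, if_false, measure_univ, mul_one]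
    rw [Finset.erase_eq_of_notMem he]

lemma lintegral_volE_updL (e : Ev d) {G : LabT d → ENNReal} (hG : Measurable G) :
    ∫⁻ W, (∫⁻ v : unitInterval, G (updL e W v)) ∂(volE d) = ∫⁻ W, G W ∂(volE d) := by
  have := isProb_volE (d := d)
  conv_rhs => rw [← volE_map_updL e]
  rw [lintegral_map hG (measurable_updL e)]
  exact (lintegral_prod (fun p : LabT d × unitInterval => G (updL e p.1 p.2))
    ((hG.comp (measurable_updL e)).aemeasurable)).symm

lemma lintegral_PD_rl [Corr θ] (e : Ev d) {F : OmD d → ENNReal} (hF : Measurable F) :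
    ∫⁻ ω, (∫⁻ v : unitInterval, F (rl e ω v)) ∂(PD d θ) = ∫⁻ ω, F ω ∂(PD d θ) := by
  have := isProb_volE (d := d)
  unfold PD
  have hm : Measurable (fun ω : OmD d => ∫⁻ v : unitInterval, F (rl e ω v)) :=
    (hF.comp (measurable_rl e)).lintegral_prod_right'
  rw [lintegral_prod _ hm.aemeasurable, lintegral_prod _ hF.aemeasurable]
  refine lintegral_congr fun σ => ?_
  have hF1 : Measurable (fun q : LabT d × LabT d => F (σ, q)) := hF.comp measurable_prodMk_left
  have hm1 : Measurable (fun q : LabT d × LabT d => ∫⁻ v : unitInterval, F (rl e (σ, q) v)) :=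
    hm.comp measurable_prodMk_left
  rw [lintegral_prod _ hm1.aemeasurable, lintegral_prod _ hF1.aemeasurable]
  refine lintegral_congr fun V => ?_
  exact lintegral_volE_updL e (hF1.comp measurable_prodMk_left)

lemma tE_updL (e : Ev d) (W : LabT d) (v : unitInterval) : tE e (updL e W v) = e.2 + 2 * (v : ℝ) := by
  simp [tE, updL]

lemma updL_ne (e e' : Ev d) (h : e' ≠ e) (W : LabT d) (v : unitInterval) : updL e W v e' = W e' := by
  simp [updL, h]

lemma updL_self (e : Ev d) (W : LabT d) (v : unitInterval) : updL e W v e = v := by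
  simp [updL]

lemma volume_unit_Ico {l u : ℝ} (h0 : 0 ≤ l) (h1 : u ≤ 1) :
    volume {v : unitInterval | l ≤ (v : ℝ) ∧ (v : ℝ) < u} = ENNReal.ofReal (u - l) := by
  have him : Subtype.val '' {v : unitInterval | l ≤ (v : ℝ) ∧ (v : ℝ) < u} = Set.Ico l u := by
    ext x
    constructor
    · rintro ⟨v, hv, rfl⟩; exact ⟨hv.1, hv.2⟩
    · rintro h
      exact ⟨⟨x, h0.trans h.1, (h.2.trans_le h1).le⟩, ⟨h.1, h.2⟩, rfl⟩
  rw [← Real.volume_Ico, ← him]
  exact (MeasurableEmbedding.subtype_coe isClosed_Icc.measurableSet).comap_apply _ _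

/-- The resampling bound at a fixed time: the function `Φ` at time `s = e.2 + 2 v` does not see the
label of `e` as long as the label is at least `v`. -/
lemma lintegral_rl_le [Corr θ] (e : Ev d) {Ψ : OmD d → ENNReal} (hΨ : Measurable Ψ) (v : unitInterval)
    (hv : (v : ℝ) ≤ 1 / 2)
    (he : ∀ (ω : OmD d) (v' : unitInterval), (v : ℝ) ≤ v' → Ψ (rl e ω v') = Ψ (rl e ω v)) :
    ∫⁻ ω, Ψ (rl e ω v) ∂(PD d θ) ≤ 2 * ∫⁻ ω, Ψ ω ∂(PD d θ) := by
  have hmrl : Measurable (fun ω : OmD d => rl e ω v) :=
    (measurable_rl e).comp (measurable_id.prodMk measurable_const)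
  rw [← lintegral_PD_rl (θ := θ) e hΨ, ← lintegral_const_mul' _ _ (by simp)]
  refine lintegral_mono fun ω => ?_
  -- the part of the label space above `v` has mass at least one half
  have hA : MeasurableSet {w : unitInterval | (v : ℝ) ≤ (w : ℝ) ∧ (w : ℝ) < 1} :=
    (measurableSet_le measurable_const measurable_subtype_coe).inter
      (measurableSet_lt measurable_subtype_coe measurable_const)
  have hvol : volume {w : unitInterval | (v : ℝ) ≤ (w : ℝ) ∧ (w : ℝ) < 1} = ENNReal.ofReal (1 - v) :=
    volume_unit_Ico v.2.1 le_rfl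
  have h2 : (1 : ENNReal) ≤ 2 * ENNReal.ofReal (1 - v) := by
    have : (1 : ENNReal) = 2 * ENNReal.ofReal (1 / 2) := by
      rw [← ENNReal.ofReal_ofNat, ← ENNReal.ofReal_mul (by norm_num)]; norm_num
    rw [this]
    gcongr
    linarith
  calc Ψ (rl e ω v) = 1 * Ψ (rl e ω v) := (one_mul _).symm
    _ ≤ (2 * ENNReal.ofReal (1 - v)) * Ψ (rl e ω v) := by gcongr
    _ = 2 * (volume {w : unitInterval | (v : ℝ) ≤ (w : ℝ) ∧ (w : ℝ) < 1} * Ψ (rl e ω v)) := by
        rw [hvol, mul_assoc]
    _ = 2 * ∫⁻ w in {w : unitInterval | (v : ℝ) ≤ (w : ℝ) ∧ (w : ℝ) < 1}, Ψ (rl e ω v) := by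
        rw [setLIntegral_const, mul_comm (volume _)]
    _ = 2 * ∫⁻ w in {w : unitInterval | (v : ℝ) ≤ (w : ℝ) ∧ (w : ℝ) < 1}, Ψ (rl e ω w) := by
        congr 1
        refine setLIntegral_congr_fun hA fun w hw => ?_
        exact (he ω w hw.1).symm
    _ ≤ 2 * ∫⁻ w : unitInterval, Ψ (rl e ω w) := by
        gcongr
        exact Measure.restrict_le_self

/-- The Palm inequality, with the window event written out. -/
theorem palm_aux [Corr θ] (e : Ev d) {a b : ℝ} (ha : (e.2 : ℝ) ≤ a) (hb : b ≤ e.2 + 1) (hab : a ≤ b)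
    {Φ : ℝ → OmD d → ℝ} (hΦ : Measurable (fun p : ℝ × OmD d => Φ p.1 p.2)) (hΦ0 : ∀ s ω, 0 ≤ Φ s ω)
    {B : ℝ} (hΦB : ∀ s ω, Φ s ω ≤ B)
    (hΦe : ∀ s (ω ω' : OmD d), ω.1 = ω'.1 → ω.2.1 = ω'.2.1 → (∀ e', e' ≠ e → ω.2.2 e' = ω'.2.2 e') →
      s ≤ tE e ω.2.2 → s ≤ tE e ω'.2.2 → Φ s ω = Φ s ω') {C : ℝ}
    (hC : ∀ s, a ≤ s → s < b → ∫ ω, Φ s ω ∂(PD d θ) ≤ C) :
    ∫ ω, Set.indicator {ω : OmD d | actE e ω.2.2 ∧ a ≤ tE e ω.2.2 ∧ tE e ω.2.2 < b}
      (fun ω => Φ (tE e ω.2.2) ω) ω ∂(PD d θ) ≤ (b - a) * C := by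
  classical
  rcases hab.eq_or_lt with rfl | hlt
  · have : {ω : OmD d | actE e ω.2.2 ∧ a ≤ tE e ω.2.2 ∧ tE e ω.2.2 < a} = ∅ := by
      ext ω
      simp only [Set.mem_empty_iff_false, iff_false]
      rintro ⟨_, h1, h2⟩
      exact absurd h2 (not_lt.2 h1)
    rw [this]
    simp
  have hintΦ : ∀ s, Integrable (Φ s) (PD d θ) := fun s =>
    Integrable.of_bound (hΦ.comp (measurable_const.prodMk measurable_id)).aestronglyMeasurable B
      (Eventually.of_forall fun ω => by
        rw [Real.norm_of_nonneg (hΦ0 s ω)]; exact hΦB s ω)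
  have hC0 : 0 ≤ C := (integral_nonneg (hΦ0 a)).trans (hC a le_rfl hlt)
  have hmW : Measurable (fun ω : OmD d => ((ω.2.2 e : unitInterval) : ℝ)) := by
    have h1 : Measurable (fun W : LabT d => W e) := measurable_pi_apply e
    exact measurable_subtype_coe.comp (h1.comp (measurable_snd.comp measurable_snd))
  have hmtE : Measurable (fun ω : OmD d => tE e ω.2.2) := by
    unfold tE
    exact (hmW.const_mul 2).const_add _
  set S : Set (OmD d) := {ω : OmD d | actE e ω.2.2 ∧ a ≤ tE e ω.2.2 ∧ tE e ω.2.2 < b} with hS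
  have hSm : MeasurableSet S := by
    refine MeasurableSet.inter ?_ (MeasurableSet.inter ?_ ?_)
    · exact measurableSet_lt hmW measurable_const
    · exact measurableSet_le measurable_const hmtE
    · exact measurableSet_lt hmtE measurable_const
  set g : OmD d → ℝ := S.indicator (fun ω => Φ (tE e ω.2.2) ω) with hg
  have hgm : Measurable g :=
    (hΦ.comp (hmtE.prodMk measurable_id)).indicator hSm
  have hg0 : ∀ ω, 0 ≤ g ω := fun ω => Set.indicator_nonneg (fun ω _ => hΦ0 _ ω) ω
  -- the label set
  set A : Set unitInterval := {v : unitInterval | (a - e.2) / 2 ≤ (v : ℝ) ∧ (v : ℝ) < (b - e.2) / 2}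
    with hA
  have hAm : MeasurableSet A :=
    (measurableSet_le measurable_const measurable_subtype_coe).inter
      (measurableSet_lt measurable_subtype_coe measurable_const)
  have hvolA : volume A = ENNReal.ofReal ((b - a) / 2) := by
    have := volume_unit_Ico (l := (a - e.2) / 2) (u := (b - e.2) / 2) (by linarith) (by linarith)
    rw [hA, this]
    congr 1
    ring
  have hF : Measurable (fun ω => ENNReal.ofReal (g ω)) := hgm.ennreal_ofReal
  have hstep : ∀ v : unitInterval, ∫⁻ ω, ENNReal.ofReal (g (rl e ω v)) ∂(PD d θ) ≤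
      A.indicator (fun _ => 2 * ENNReal.ofReal C) v := by
    intro v
    by_cases hv : v ∈ A
    · rw [Set.indicator_of_mem hv]
      have hvb : (v : ℝ) < 1 / 2 := by
        have := hv.2
        linarith
      set s : ℝ := e.2 + 2 * (v : ℝ) with hs
      have hgrl : ∀ ω, g (rl e ω v) = Φ s (rl e ω v) := by
        intro ω
        have hmem : rl e ω v ∈ S := by
          refine ⟨?_, ?_, ?_⟩
          · simp only [actE, rl, updL_self]
            exact hvb
          · simp only [rl, tE_updL]
            have := hv.1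
            linarith
          · simp only [rl, tE_updL]
            have := hv.2
            linarith
        rw [hg, Set.indicator_of_mem hmem]
        simp only [rl, tE_updL, hs]
      have hΨ : Measurable (fun ω : OmD d => ENNReal.ofReal (Φ s ω)) :=
        (hΦ.comp (measurable_const.prodMk measurable_id)).ennreal_ofReal
      have h1 := lintegral_rl_le (θ := θ) e hΨ v hvb.le (fun ω v' hvv' => by
        congr 1
        refine hΦe s _ _ rfl rfl (fun e' he' => ?_) ?_ ?_
        · simp [rl, updL_ne e e' he']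
        · simp only [rl, tE_updL, hs]
          linarith
        · simp only [rl, tE_updL, hs]
          exact le_rfl)
      have hsl : a ≤ s := by
        have := hv.1
        rw [hs]
        linarith
      have hsu : s < b := by
        have := hv.2
        rw [hs]
        linarith
      have h2 : ∫⁻ ω, ENNReal.ofReal (Φ s ω) ∂(PD d θ) ≤ ENNReal.ofReal C := by
        rw [← ofReal_integral_eq_lintegral_ofReal (hintΦ s) (Eventually.of_forall (hΦ0 s))]
        exact ENNReal.ofReal_le_ofReal (hC s hsl hsu)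
      calc ∫⁻ ω, ENNReal.ofReal (g (rl e ω v)) ∂(PD d θ)
          = ∫⁻ ω, ENNReal.ofReal (Φ s (rl e ω v)) ∂(PD d θ) := by
            refine lintegral_congr fun ω => ?_
            rw [hgrl]
        _ ≤ 2 * ∫⁻ ω, ENNReal.ofReal (Φ s ω) ∂(PD d θ) := h1
        _ ≤ 2 * ENNReal.ofReal C := by gcongr
    · rw [Set.indicator_of_notMem hv]
      have hzero : ∀ ω, g (rl e ω v) = 0 := by
        intro ω
        refine Set.indicator_of_notMem ?_ _
        rintro ⟨_, h1, h2⟩
        simp only [rl, tE_updL] at h1 h2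
        refine hv ⟨?_, ?_⟩ <;> linarith
      simp [hzero]
  have hmain : ∫⁻ ω, ENNReal.ofReal (g ω) ∂(PD d θ) ≤ ENNReal.ofReal ((b - a) * C) := by
    rw [← lintegral_PD_rl (θ := θ) e hF]
    have hswap : ∫⁻ ω, (∫⁻ v : unitInterval, ENNReal.ofReal (g (rl e ω v))) ∂(PD d θ) =
        ∫⁻ v : unitInterval, ∫⁻ ω, ENNReal.ofReal (g (rl e ω v)) ∂(PD d θ) :=
      lintegral_lintegral_swap ((hF.comp (measurable_rl e)).aemeasurable)
    rw [hswap]
    calc ∫⁻ v : unitInterval, ∫⁻ ω, ENNReal.ofReal (g (rl e ω v)) ∂(PD d θ)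
        ≤ ∫⁻ v : unitInterval, A.indicator (fun _ => 2 * ENNReal.ofReal C) v :=
          lintegral_mono hstep
      _ = (2 * ENNReal.ofReal C) * volume A := by
          rw [lintegral_indicator hAm, setLIntegral_const]
      _ = ENNReal.ofReal ((b - a) * C) := by
          rw [hvolA, ← ENNReal.ofReal_ofNat, ← ENNReal.ofReal_mul (by norm_num),
            ← ENNReal.ofReal_mul (by positivity)]
          congr 1
          ring
  rw [integral_eq_lintegral_of_nonneg_ae (Eventually.of_forall hg0) hgm.aestronglyMeasurable]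
  exact ENNReal.toReal_le_of_le_ofReal (mul_nonneg (by linarith) hC0) hmain

end Vale.Agent.Lib.P161B
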