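import Vale.Agent.Lib.P161B.Space
import Vale.Agent.Lib.P161B.DynGL
import Vale.Agent.Lib.P161.SLBShift
import Vale.Agent.Lib.P161B.DynPalm
import Vale.Agent.Lib.P161.EfronStein

/-!
Conditional laws in the dynamic model. Posterior means given all labels and the observations before a label
dependent time. The conditional law of the next observation. Innovations are i.i.d. uniform. Palm formulas
for the label of one event.
-/

namespace Vale.Agent.Lib.P161B

open MeasureTheory ProbabilityTheory Filter Set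
open Vale.Agent.Lib.P161

variable {d : ℕ} {θ : ℝ} [Corr θ]

lemma FL_le (tt : LabT d → ℝ) (htt : Measurable tt) : FL tt ≤ (inferInstance : MeasurableSpace (OmD d)) :=
  FL_le' tt htt

/-- The posterior mean of a spin. -/
theorem condExp_spin (h0 : 0 < θ) (h1 : θ < 1) {tt : LabT d → ℝ} (htt : Measurable tt)
    (hb : ∃ J : ℝ, ∀ W, tt W ≤ J) (x : Word d) :
    condExp (FL tt) (PD d θ) (fun ω => sp (ω.1 x)) =ᵐ[PD d θ] fun ω => mm θ x (yS (tt ω.2.2) ω) :=
  gl_condExp_spin h1 htt x

/-- The posterior mean of the product of the spins at the root and at `x`. -/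
theorem condExp_pair (h0 : 0 < θ) (h1 : θ < 1) {tt : LabT d → ℝ} (htt : Measurable tt)
    (hb : ∃ J : ℝ, ∀ W, tt W ≤ J) (x : Word d) :
    condExp (FL tt) (PD d θ) (fun ω => sp (ω.1 root) * sp (ω.1 x)) =ᵐ[PD d θ] fun ω =>
      CCr θ x (yS (tt ω.2.2) ω) + mm θ root (yS (tt ω.2.2) ω) * mm θ x (yS (tt ω.2.2) ω) :=
  gl_condExp_pair h0 h1 htt x

/-- The magnetisation at a label dependent time is measurable for `FL`. -/
lemma measurable_mm_FL (tt : LabT d → ℝ) (htt : Measurable tt) (x : Word d) :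
    Measurable[FL tt] (fun ω : OmD d => mm θ x (yS (tt ω.2.2) ω)) :=
  gl_measurable_mm_FL tt x

lemma mm_yS_abs (h1 : θ < 1) (s : ℝ) (ω : OmD d) (x : Word d) :
    |mm θ x (yS s ω)| ≤ Real.tanh (Mb s + d * Real.artanh θ) :=
  gl_mm_yS_abs h1 s ω x

lemma mm_yS_le_one (h1 : θ < 1) (s : ℝ) (ω : OmD d) (x : Word d) : |mm θ x (yS s ω)| ≤ 1 :=
  (gl_mm_yS_lt h1 s ω x).le

instance innov_volE_isProb : IsProbabilityMeasure (volE d) := by
  unfold volE; infer_instance

open Classical in
/-- Resampling the noise coordinate `e`. -/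
noncomputable def innov_rsV (e : Ev d) (p : OmD d × LabT d) : OmD d :=
  (p.1.1, es_repl ({e} : Finset (Ev d)) p.1.2.1 p.2, p.1.2.2)

open Classical in
lemma measurable_rsV (e : Ev d) : Measurable (innov_rsV (d := d) e) := by
  unfold innov_rsV
  have h1 : Measurable (fun p : OmD d × LabT d => (p.1.2.1, p.2)) := by fun_prop
  have h2 := (es_repl_measurable (X := unitInterval) ({e} : Finset (Ev d))).comp h1
  exact (measurable_fst.comp measurable_fst).prodMk
    (h2.prodMk (measurable_snd.comp (measurable_snd.comp measurable_fst)))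

open Classical in
lemma mp_rsV (e : Ev d) :
    MeasurePreserving (innov_rsV (d := d) e) ((PD d θ).prod (volE d)) (PD d θ) := by
  have hes : MeasurePreserving (fun p : LabT d × LabT d => es_repl ({e} : Finset (Ev d)) p.1 p.2)
      ((volE d).prod (volE d)) (volE d) := es_mp (volume : Measure unitInterval) ({e} : Finset (Ev d))
  have a1 : MeasurePreserving (MeasurableEquiv.prodAssoc : (OmD d) × LabT d ≃ᵐ _)
      ((PD d θ).prod (volE d)) ((isingLaw d θ).prod (((volE d).prod (volE d)).prod (volE d))) :=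
    measurePreserving_prodAssoc _ _ _
  have a2 : MeasurePreserving (fun p : (LabT d × LabT d) × LabT d => ((p.1.1, p.2), p.1.2))
      (((volE d).prod (volE d)).prod (volE d)) (((volE d).prod (volE d)).prod (volE d)) := by
    have b1 : MeasurePreserving (MeasurableEquiv.prodAssoc : (LabT d × LabT d) × LabT d ≃ᵐ _)
        (((volE d).prod (volE d)).prod (volE d)) ((volE d).prod ((volE d).prod (volE d))) :=
      measurePreserving_prodAssoc _ _ _
    have b2 : MeasurePreserving (Prod.map (id : LabT d → LabT d) (Prod.swap : LabT d × LabT d → _))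
        ((volE d).prod ((volE d).prod (volE d))) ((volE d).prod ((volE d).prod (volE d))) :=
      (MeasurePreserving.id _).prod Measure.measurePreserving_swap
    have b3 : MeasurePreserving (MeasurableEquiv.prodAssoc : (LabT d × LabT d) × LabT d ≃ᵐ _).symm
        ((volE d).prod ((volE d).prod (volE d))) (((volE d).prod (volE d)).prod (volE d)) :=
      (measurePreserving_prodAssoc _ _ _).symm
    have := b3.comp (b2.comp b1)
    exact this
  have a3 : MeasurePreserving (Prod.map (fun p : LabT d × LabT d => es_repl ({e} : Finset (Ev d)) p.1 p.2)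
      (id : LabT d → LabT d)) (((volE d).prod (volE d)).prod (volE d)) ((volE d).prod (volE d)) :=
    hes.prod (MeasurePreserving.id _)
  have a4 := a3.comp a2
  have a5 : MeasurePreserving (Prod.map (id : (Word d → Bool) → _) _)
      ((isingLaw d θ).prod (((volE d).prod (volE d)).prod (volE d))) (PD d θ) :=
    (MeasurePreserving.id _).prod a4
  have a6 := a5.comp a1
  exact a6

/-- Integrating out the noise coordinate `e`. -/
lemma innov_resample (e : Ev d) {Ψ : unitInterval → OmD d → ℝ}
    (hΨ : Measurable (fun p : unitInterval × OmD d => Ψ p.1 p.2)) {C : ℝ} (hC : ∀ v ω, |Ψ v ω| ≤ C)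
    (hdep : ∀ v (σ : Word d → Bool) (V V' W : LabT d), (∀ e', e' ≠ e → V e' = V' e') →
      Ψ v (σ, V, W) = Ψ v (σ, V', W)) :
    ∫ ω, Ψ (ω.2.1 e) ω ∂(PD d θ) = ∫ ω, (∫ v : unitInterval, Ψ v ω) ∂(PD d θ) := by
  classical
  have hG : Measurable (fun ω : OmD d => Ψ (ω.2.1 e) ω) := by
    have : Measurable (fun ω : OmD d => ((ω.2.1 e : unitInterval), ω)) := by
      exact ((measurable_pi_apply e).comp (measurable_fst.comp measurable_snd)).prodMk measurable_id
    exact hΨ.comp this
  have hmap := (mp_rsV (θ := θ) e).map_eq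
  have h1 : ∫ ω, Ψ (ω.2.1 e) ω ∂(PD d θ) =
      ∫ p, Ψ ((innov_rsV e p).2.1 e) (innov_rsV e p) ∂((PD d θ).prod (volE d)) := by
    conv_lhs => rw [← hmap]
    rw [integral_map (measurable_rsV e).aemeasurable hG.aestronglyMeasurable]
  have hint : Integrable (fun p : OmD d × LabT d => Ψ ((innov_rsV e p).2.1 e) (innov_rsV e p))
      ((PD d θ).prod (volE d)) :=
    Integrable.of_bound (hG.comp (measurable_rsV e)).aestronglyMeasurable C
      (Eventually.of_forall fun p => by simpa using hC _ _)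
  rw [h1, integral_prod _ hint]
  refine integral_congr_ae (Eventually.of_forall fun ω => ?_)
  have hpt : ∀ t : LabT d, Ψ ((innov_rsV e (ω, t)).2.1 e) (innov_rsV e (ω, t)) = Ψ (t e) ω := by
    intro t
    have h2 : (innov_rsV e (ω, t)).2.1 e = t e := by simp [innov_rsV, es_repl]
    rw [h2]
    obtain ⟨σ, V, W⟩ := ω
    exact hdep (t e) σ _ _ W (fun e' he' => by simp [es_repl, he'])
  simp only [hpt]
  have hev : MeasurePreserving (fun t : LabT d => t e) (volE d) (volume : Measure unitInterval) :=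
    measurePreserving_eval_infinitePi _ e
  have hsec : Measurable (fun v : unitInterval => Ψ v ω) := hΨ.comp (measurable_id.prodMk measurable_const)
  rw [← hev.map_eq, integral_map hev.measurable.aemeasurable hsec.aestronglyMeasurable]

/-- Testing the conditional expectation. -/
lemma innov_int_test {Ω : Type*} {m m0 : MeasurableSpace Ω} {P : Measure Ω} [IsProbabilityMeasure P] (hm : m ≤ m0)
    {f g : Ω → ℝ} (hf : Integrable f P) (hg : Measurable[m] g) {C : ℝ} (hgb : ∀ ω, |g ω| ≤ C) :
    ∫ ω, g ω * f ω ∂P = ∫ ω, g ω * condExp m P f ω ∂P := by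
  have hgi : Integrable (fun ω => g ω * f ω) P := by
    refine Integrable.bdd_mul (c := C) hf ((hg.mono hm le_rfl).aestronglyMeasurable) ?_
    exact Eventually.of_forall fun ω => by simpa using hgb ω
  have h1 : condExp m P (fun ω => g ω * f ω) =ᵐ[P] fun ω => g ω * condExp m P f ω :=
    condExp_mul_of_stronglyMeasurable_left hg.stronglyMeasurable hgi hf
  rw [← integral_condExp hm (f := fun ω => g ω * f ω)]
  exact integral_congr_ae h1

section density

variable {E : Type*} [MeasurableSpace E]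

/-- Integral of `H` against Lebesgue on `[-1, 1]`, halved. -/
noncomputable def innov_JZ0 (H : ℝ × E → ℝ) (a : E) : ℝ := ∫ z in Icc (-1 : ℝ) 1, H (z, a) / 2

/-- First moment of `H` against Lebesgue on `[-1, 1]`, halved. -/
noncomputable def innov_JZ1 (H : ℝ × E → ℝ) (a : E) : ℝ := ∫ z in Icc (-1 : ℝ) 1, H (z, a) * (z / 2)

lemma innov_JZ_integrable {H : ℝ × E → ℝ} (hH : Measurable H) {H₀ : ℝ} (hHb : ∀ p, |H p| ≤ H₀) (a : E) :
    IntegrableOn (fun z => H (z, a)) (Icc (-1 : ℝ) 1) := by
  have hs : Measurable (fun z : ℝ => H (z, a)) := hH.comp (measurable_id.prodMk measurable_const)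
  refine Measure.integrableOn_of_bounded (M := H₀) (by simp) hs.aestronglyMeasurable ?_
  exact Eventually.of_forall fun z => by simpa using hHb (z, a)

lemma innov_JZ_split {H : ℝ × E → ℝ} (hH : Measurable H) {H₀ : ℝ} (hHb : ∀ p, |H p| ≤ H₀) (a : E) (c : ℝ) :
    ∫ z in Icc (-1 : ℝ) 1, H (z, a) * ((1 + c * z) / 2) = innov_JZ0 H a + c * innov_JZ1 H a := by
  have hi := innov_JZ_integrable hH hHb a
  have hs : Measurable (fun z : ℝ => H (z, a)) := hH.comp (measurable_id.prodMk measurable_const)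
  have h0 : IntegrableOn (fun z => H (z, a) / 2) (Icc (-1 : ℝ) 1) := hi.div_const 2
  have h1 : IntegrableOn (fun z => H (z, a) * (z / 2)) (Icc (-1 : ℝ) 1) := by
    refine Measure.integrableOn_of_bounded (M := H₀) (by simp)
      (hs.mul (by fun_prop)).aestronglyMeasurable ?_
    rw [ae_restrict_iff' measurableSet_Icc]
    refine Eventually.of_forall fun z hz => ?_
    have hz' : |z / 2| ≤ 1 := by
      rw [abs_le]; constructor <;> linarith [hz.1, hz.2]
    rw [Real.norm_eq_abs, abs_mul]
    have := hHb (z, a)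
    nlinarith [abs_nonneg (H (z, a)), abs_nonneg (z / 2)]
  unfold innov_JZ0 innov_JZ1
  rw [← integral_const_mul, ← integral_add h0 (h1.const_mul c)]
  refine integral_congr_ae (Eventually.of_forall fun z => ?_)
  simp only
  ring

lemma innov_JZ0_meas {H : ℝ × E → ℝ} (hH : Measurable H) : Measurable (innov_JZ0 H) := by
  have h : Measurable (fun p : ℝ × E => H p / 2) := hH.div_const 2
  exact (h.stronglyMeasurable.integral_prod_left' (μ := volume.restrict (Icc (-1 : ℝ) 1))).measurable

lemma innov_JZ1_meas {H : ℝ × E → ℝ} (hH : Measurable H) : Measurable (innov_JZ1 H) := by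
  have h : Measurable (fun p : ℝ × E => H p * (p.1 / 2)) :=
    hH.mul ((measurable_fst).div_const 2)
  exact (h.stronglyMeasurable.integral_prod_left' (μ := volume.restrict (Icc (-1 : ℝ) 1))).measurable

lemma innov_JZ0_bd {H : ℝ × E → ℝ} {H₀ : ℝ} (hHb : ∀ p, |H p| ≤ H₀) (a : E) : |innov_JZ0 H a| ≤ H₀ := by
  unfold innov_JZ0
  have h := norm_setIntegral_le_of_norm_le_const (μ := volume) (s := Icc (-1 : ℝ) 1)
    (f := fun z => H (z, a) / 2) (C := H₀ / 2) (by simp) (fun z _ => by
      rw [Real.norm_eq_abs, abs_div]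
      have := hHb (z, a)
      norm_num
      linarith)
  simp only [Real.norm_eq_abs] at h
  refine h.trans (le_of_eq ?_)
  simp [Measure.real]
  norm_num

lemma innov_JZ1_bd {H : ℝ × E → ℝ} {H₀ : ℝ} (hHb : ∀ p, |H p| ≤ H₀) (a : E) : |innov_JZ1 H a| ≤ H₀ := by
  unfold innov_JZ1
  have h := norm_setIntegral_le_of_norm_le_const (μ := volume) (s := Icc (-1 : ℝ) 1)
    (f := fun z => H (z, a) * (z / 2)) (C := H₀ / 2) (by simp) (fun z hz => by
      rw [Real.norm_eq_abs, abs_mul]
      have hz' : |z / 2| ≤ 1 / 2 := by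
        rw [abs_le]; constructor <;> linarith [hz.1, hz.2]
      have := hHb (z, a)
      nlinarith [abs_nonneg (H (z, a)), abs_nonneg (z / 2)])
  simp only [Real.norm_eq_abs] at h
  refine h.trans (le_of_eq ?_)
  simp [Measure.real]
  norm_num

end density

lemma innov_Icc_neg_integral (g : ℝ → ℝ) :
    ∫ z in Icc (-1 : ℝ) 1, g (-z) = ∫ z in Icc (-1 : ℝ) 1, g z := by
  rw [← integral_indicator measurableSet_Icc, ← integral_indicator measurableSet_Icc]
  rw [← integral_neg_eq_self]
  refine integral_congr_ae (Eventually.of_forall fun z => ?_)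
  by_cases hz : z ∈ Icc (-1 : ℝ) 1
  · have hz' : -z ∈ Icc (-1 : ℝ) 1 := ⟨by linarith [hz.2], by linarith [hz.1]⟩
    simp [indicator_of_mem, hz, hz']
  · have hz' : -z ∉ Icc (-1 : ℝ) 1 := fun h => hz ⟨by linarith [h.2], by linarith [h.1]⟩
    simp [indicator_of_notMem, hz, hz']

lemma innov_sp_sq (b : Bool) : sp b * sp b = 1 := by
  cases b <;> simp [sp]

lemma innov_sp_abs (b : Bool) : |sp b| = 1 := by
  cases b <;> simp [sp]

lemma innov_measurable_sp : Measurable sp := measurable_of_countable _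

section spinint

variable {E : Type*} [MeasurableSpace E]

/-- The law of `s * quant κ V`. -/
lemma innov_int_quant_spin {κ : ℝ} (hκ : |κ| ≤ 1 / 2) (b : Bool) {H : ℝ × E → ℝ} (hH : Measurable H) {H₀ : ℝ}
    (hHb : ∀ p, |H p| ≤ H₀) (a : E) :
    ∫ u : unitInterval, H (sp b * quant κ u, a) = innov_JZ0 H a + κ * sp b * innov_JZ1 H a := by
  have hf : Measurable (fun z : ℝ => H (sp b * z, a)) :=
    hH.comp ((measurable_const.mul measurable_id).prodMk measurable_const)
  have h1 := integral_quant hκ hf (C := H₀) (fun x _ => hHb _)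
  rw [h1, ← innov_JZ_split hH hHb a (κ * sp b)]
  cases b
  · simp [sp]
  · have := innov_Icc_neg_integral (fun z => H (z, a) * ((1 + κ * sp true * z) / 2))
    simp only [sp, if_true] at this ⊢
    rw [← this]
    refine integral_congr_ae (Eventually.of_forall fun z => ?_)
    simp only
    have e1 : (-1 : ℝ) * z = -z := by ring
    rw [e1]
    congr 1
    ring

end spinint

variable (d θ) in
lemma innov_measurable_tE (e : Ev d) : Measurable (tE e : LabT d → ℝ) := by
  unfold tE
  exact measurable_const.add (measurable_const.mul (measurable_subtype_coe.comp (measurable_pi_apply e)))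

lemma innov_tE_le (e : Ev d) (W : LabT d) : tE e W ≤ e.2 + 2 := by
  unfold tE
  have := (W e).2.2
  linarith

open Classical in
lemma innov_FL_dep (e : Ev d) {f : OmD d → ℝ} (hf : Measurable[FL (tE e)] f) (σ : Word d → Bool) (V V' W : LabT d)
    (h : ∀ e', e' ≠ e → V e' = V' e') : f (σ, V, W) = f (σ, V', W) := by
  refine hf.factorsThrough ?_
  unfold obsL
  refine Prod.ext rfl ?_
  funext e'
  by_cases he : e' = e
  · subst he
    have : ¬ inA (tE e' W) e' W := fun h => lt_irrefl _ h.2
    simp [this]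
  · simp only [Zo, zh]
    rw [h e' he]

lemma innov_spin_test (h0 : 0 < θ) (h1 : θ < 1) (e : Ev d) (x : Word d) {g : OmD d → ℝ}
    (hg : Measurable[FL (tE e)] g) {C : ℝ} (hgb : ∀ ω, |g ω| ≤ C) :
    ∫ ω, g ω * sp (ω.1 x) ∂(PD d θ) = ∫ ω, g ω * mm θ x (yS (tE e ω.2.2) ω) ∂(PD d θ) := by
  have hFL := FL_le (tE e) (innov_measurable_tE d e)
  have hf : Integrable (fun ω : OmD d => sp (ω.1 x)) (PD d θ) := by
    refine Integrable.of_bound (C := 1) ?_ ?_
    · exact (innov_measurable_sp.comp ((measurable_pi_apply x).comp measurable_fst)).aestronglyMeasurable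
    · exact Eventually.of_forall fun ω => by simp [innov_sp_abs]
  rw [innov_int_test hFL hf hg hgb]
  have hs := condExp_spin (d := d) (θ := θ) h0 h1 (tt := tE e) (innov_measurable_tE d e) ⟨e.2 + 2, innov_tE_le e⟩ x
  exact integral_congr_ae (hs.mono fun ω h => by simp only [h])

lemma innov_pair_test (h0 : 0 < θ) (h1 : θ < 1) (e : Ev d) (x : Word d) {g : OmD d → ℝ}
    (hg : Measurable[FL (tE e)] g) {C : ℝ} (hgb : ∀ ω, |g ω| ≤ C) :
    ∫ ω, g ω * (sp (ω.1 root) * sp (ω.1 x)) ∂(PD d θ) =
      ∫ ω, g ω * (CCr θ x (yS (tE e ω.2.2) ω) +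
        mm θ root (yS (tE e ω.2.2) ω) * mm θ x (yS (tE e ω.2.2) ω)) ∂(PD d θ) := by
  have hFL := FL_le (tE e) (innov_measurable_tE d e)
  have hf : Integrable (fun ω : OmD d => sp (ω.1 root) * sp (ω.1 x)) (PD d θ) := by
    refine Integrable.of_bound (C := 1) ?_ ?_
    · exact ((innov_measurable_sp.comp ((measurable_pi_apply root).comp measurable_fst)).mul
        (innov_measurable_sp.comp ((measurable_pi_apply x).comp measurable_fst))).aestronglyMeasurable
    · exact Eventually.of_forall fun ω => by simp [innov_sp_abs]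
  rw [innov_int_test hFL hf hg hgb]
  have hs := condExp_pair (d := d) (θ := θ) h0 h1 (tt := tE e) (innov_measurable_tE d e) ⟨e.2 + 2, innov_tE_le e⟩ x
  exact integral_congr_ae (hs.mono fun ω h => by simp only [h])

lemma innov_kp_abs (j : ℤ) : |kp j| ≤ 1 / 2 := by
  rw [abs_of_pos (kp_pos j)]; exact kp_le j

/-- Integrating out the observation of `e`, before identifying the spins. -/
lemma innov_int_Z_aux (e : Ev d) {E : Type*} [MeasurableSpace E] {G : OmD d → ℝ} (hG : Measurable[FL (tE e)] G) {G₀ : ℝ} (hGb : ∀ ω, |G ω| ≤ G₀)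
    {Sg : OmD d → ℝ} (hSg : Measurable Sg) (hSgb : ∀ ω, |Sg ω| ≤ 1)
    (hSgd : ∀ (σ : Word d → Bool) (V V' W : LabT d), Sg (σ, V, W) = Sg (σ, V', W))
    {A : OmD d → E} (hA : Measurable[FL (tE e)] A) {H : ℝ × E → ℝ} (hH : Measurable H) {H₀ : ℝ}
    (hHb : ∀ p, |H p| ≤ H₀) :
    ∫ ω, Sg ω * G ω * H (Zo ω e, A ω) ∂(PD d θ) =
      ∫ ω, Sg ω * G ω * (innov_JZ0 H (A ω) + kp e.2 * sp (ω.1 e.1) * innov_JZ1 H (A ω)) ∂(PD d θ) := by
  have hFL := FL_le (tE e) (innov_measurable_tE d e)
  have hGm : Measurable G := hG.mono hFL le_rfl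
  have hAm : Measurable A := hA.mono hFL le_rfl
  have hG₀ : 0 ≤ G₀ := (abs_nonneg _).trans (hGb (Classical.choice inferInstance))
  have hH₀ : 0 ≤ H₀ := (abs_nonneg _).trans (hHb (0, A (Classical.choice inferInstance)))
  have key := innov_resample (θ := θ) e
    (Ψ := fun v ω => Sg ω * G ω * H (sp (ω.1 e.1) * quant (kp e.2) v, A ω)) (C := 1 * G₀ * H₀) ?_ ?_ ?_
  · simp only [Zo, zh]
    rw [key]
    refine integral_congr_ae (Eventually.of_forall fun ω => ?_)
    simp only
    rw [integral_const_mul, innov_int_quant_spin (innov_kp_abs e.2) _ hH hHb]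
  · have hq : Measurable (fun p : unitInterval × OmD d => quant (kp e.2) (p.1 : ℝ)) :=
      measurable_quant.comp (measurable_const.prodMk (measurable_subtype_coe.comp measurable_fst))
    have hs : Measurable (fun p : unitInterval × OmD d => sp (p.2.1 e.1)) :=
      innov_measurable_sp.comp ((measurable_pi_apply e.1).comp (measurable_fst.comp measurable_snd))
    exact ((hSg.comp measurable_snd).mul (hGm.comp measurable_snd)).mul
      (hH.comp ((hs.mul hq).prodMk (hAm.comp measurable_snd)))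
  · intro v ω
    rw [abs_mul, abs_mul]
    have h1 := hSgb ω
    have h2 := hGb ω
    have h3 := hHb (sp (ω.1 e.1) * quant (kp e.2) v, A ω)
    exact mul_le_mul (mul_le_mul h1 h2 (abs_nonneg _) zero_le_one) h3 (abs_nonneg _)
      (mul_nonneg zero_le_one hG₀)
  · intro v σ V V' W hVV
    have h2 := innov_FL_dep e hG σ V V' W hVV
    have hz : Measurable[FL (tE e)]
        (fun ω : OmD d => H (sp (σ e.1) * quant (kp e.2) v, A ω)) :=
      hH.comp (measurable_const.prodMk hA)
    have h3 := innov_FL_dep e hz σ V V' W hVV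
    simp only at h3 ⊢
    rw [hSgd σ V V' W, h2, h3]

/-- The conditional law of the observation `Z_e` given the past of the event `e`. -/
theorem int_Z (h0 : 0 < θ) (h1 : θ < 1) (e : Ev d) {E : Type*} [MeasurableSpace E] {B : OmD d → ℝ} {A : OmD d → E}
    (hB : Measurable[FL (tE e)] B) {B₀ : ℝ} (hBb : ∀ ω, |B ω| ≤ B₀) (hA : Measurable[FL (tE e)] A)
    {H : ℝ × E → ℝ} (hH : Measurable H) {H₀ : ℝ} (hHb : ∀ p, |H p| ≤ H₀) :
    ∫ ω, B ω * H (Zo ω e, A ω) ∂(PD d θ) =
      ∫ ω, B ω * (∫ z in Icc (-1 : ℝ) 1, H (z, A ω) *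
        ((1 + kp e.2 * mm θ e.1 (yS (tE e ω.2.2) ω) * z) / 2)) ∂(PD d θ) := by
  have hFL := FL_le (tE e) (innov_measurable_tE d e)
  have hBm : Measurable B := hB.mono hFL le_rfl
  have hAm : Measurable A := hA.mono hFL le_rfl
  have aux := innov_int_Z_aux (θ := θ) e hB hBb (Sg := fun _ => 1) measurable_const (by simp) (by simp) hA hH hHb
  simp only [one_mul] at aux
  rw [aux]
  simp only [innov_JZ_split hH hHb]
  have hJ0 : Measurable[FL (tE e)] (fun ω => innov_JZ0 H (A ω)) := (innov_JZ0_meas hH).comp hA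
  have hJ1 : Measurable[FL (tE e)] (fun ω => innov_JZ1 H (A ω)) := (innov_JZ1_meas hH).comp hA
  have hg : Measurable[FL (tE e)] (fun ω => B ω * (kp e.2 * innov_JZ1 H (A ω))) :=
    hB.mul (measurable_const.mul hJ1)
  have hB₀ : 0 ≤ B₀ := (abs_nonneg _).trans (hBb (Classical.choice inferInstance))
  have hH₀ : 0 ≤ H₀ := (abs_nonneg _).trans (hHb (0, A (Classical.choice inferInstance)))
  have hgb : ∀ ω, |B ω * (kp e.2 * innov_JZ1 H (A ω))| ≤ B₀ * (1 * H₀) := by
    intro ω
    rw [abs_mul, abs_mul]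
    refine mul_le_mul (hBb ω) (mul_le_mul ?_ (innov_JZ1_bd hHb _) (abs_nonneg _) zero_le_one)
      (mul_nonneg (abs_nonneg _) (abs_nonneg _)) hB₀
    have := innov_kp_abs e.2
    linarith
  have ht := innov_spin_test (θ := θ) h0 h1 e e.1 hg hgb
  have hint0 : Integrable (fun ω => B ω * innov_JZ0 H (A ω)) (PD d θ) := by
    refine Integrable.of_bound (C := B₀ * H₀) (hBm.mul ((innov_JZ0_meas hH).comp hAm)).aestronglyMeasurable ?_
    refine Eventually.of_forall fun ω => ?_
    rw [Real.norm_eq_abs, abs_mul]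
    exact mul_le_mul (hBb ω) (innov_JZ0_bd hHb _) (abs_nonneg _) hB₀
  have hm1 : Measurable (fun ω : OmD d => B ω * (kp e.2 * innov_JZ1 H (A ω))) := hg.mono hFL le_rfl
  have hint1 : Integrable (fun ω : OmD d => B ω * (kp e.2 * innov_JZ1 H (A ω)) * sp (ω.1 e.1)) (PD d θ) := by
    refine Integrable.of_bound (C := B₀ * (1 * H₀) * 1)
      (hm1.mul (innov_measurable_sp.comp ((measurable_pi_apply e.1).comp measurable_fst))).aestronglyMeasurable ?_
    refine Eventually.of_forall fun ω => ?_
    rw [Real.norm_eq_abs, abs_mul, innov_sp_abs]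
    exact mul_le_mul (hgb ω) le_rfl zero_le_one (mul_nonneg hB₀ (mul_nonneg zero_le_one hH₀))
  have hmeasm : Measurable (fun ω : OmD d => mm θ e.1 (yS (tE e ω.2.2) ω)) :=
    (measurable_mm_FL (θ := θ) (tE e) (innov_measurable_tE d e) e.1).mono hFL le_rfl
  have hint2 : Integrable (fun ω : OmD d => B ω * (kp e.2 * innov_JZ1 H (A ω)) * mm θ e.1 (yS (tE e ω.2.2) ω)) (PD d θ) := by
    refine Integrable.of_bound (C := B₀ * (1 * H₀) * 1) (hm1.mul hmeasm).aestronglyMeasurable ?_
    refine Eventually.of_forall fun ω => ?_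
    rw [Real.norm_eq_abs, abs_mul]
    exact mul_le_mul (hgb ω) (mm_yS_le_one h1 _ _ _) (abs_nonneg _) (mul_nonneg hB₀ (mul_nonneg zero_le_one hH₀))
  have e1 : ∀ ω : OmD d, B ω * (innov_JZ0 H (A ω) + kp e.2 * sp (ω.1 e.1) * innov_JZ1 H (A ω)) =
      B ω * innov_JZ0 H (A ω) + B ω * (kp e.2 * innov_JZ1 H (A ω)) * sp (ω.1 e.1) := fun ω => by ring
  have e2 : ∀ ω : OmD d, B ω * (innov_JZ0 H (A ω) + kp e.2 * mm θ e.1 (yS (tE e ω.2.2) ω) * innov_JZ1 H (A ω)) =
      B ω * innov_JZ0 H (A ω) + B ω * (kp e.2 * innov_JZ1 H (A ω)) * mm θ e.1 (yS (tE e ω.2.2) ω) := fun ω => by ring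
  simp only [e1, e2]
  rw [integral_add hint0 hint1, integral_add hint0 hint2, ht]

/-- The same with the spin at the root: the likelihood is linear in the spin at the site of `e`. -/
theorem int_Z_spin (h0 : 0 < θ) (h1 : θ < 1) (e : Ev d) {E : Type*} [MeasurableSpace E] {B : OmD d → ℝ} {A : OmD d → E}
    (hB : Measurable[FL (tE e)] B) {B₀ : ℝ} (hBb : ∀ ω, |B ω| ≤ B₀) (hA : Measurable[FL (tE e)] A)
    {H : ℝ × E → ℝ} (hH : Measurable H) {H₀ : ℝ} (hHb : ∀ p, |H p| ≤ H₀) :
    ∫ ω, sp (ω.1 root) * B ω * H (Zo ω e, A ω) ∂(PD d θ) =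
      ∫ ω, B ω * (mm θ root (yS (tE e ω.2.2) ω) * (∫ z in Icc (-1 : ℝ) 1, H (z, A ω) / 2) +
        kp e.2 * (CCr θ e.1 (yS (tE e ω.2.2) ω) +
          mm θ root (yS (tE e ω.2.2) ω) * mm θ e.1 (yS (tE e ω.2.2) ω)) *
          (∫ z in Icc (-1 : ℝ) 1, H (z, A ω) * (z / 2))) ∂(PD d θ) := by
  have hFL := FL_le (tE e) (innov_measurable_tE d e)
  have hBm : Measurable B := hB.mono hFL le_rfl
  have hAm : Measurable A := hA.mono hFL le_rfl
  have hsr : Measurable (fun ω : OmD d => sp (ω.1 root)) :=
    innov_measurable_sp.comp ((measurable_pi_apply root).comp measurable_fst)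
  have hsx : Measurable (fun ω : OmD d => sp (ω.1 e.1)) :=
    innov_measurable_sp.comp ((measurable_pi_apply e.1).comp measurable_fst)
  have aux := innov_int_Z_aux (θ := θ) e hB hBb (Sg := fun ω => sp (ω.1 root)) hsr
    (fun ω => (innov_sp_abs _).le) (fun _ _ _ _ => rfl) hA hH hHb
  rw [aux]
  have hJ0 : Measurable[FL (tE e)] (fun ω => innov_JZ0 H (A ω)) := (innov_JZ0_meas hH).comp hA
  have hJ1 : Measurable[FL (tE e)] (fun ω => innov_JZ1 H (A ω)) := (innov_JZ1_meas hH).comp hA
  have hB₀ : 0 ≤ B₀ := (abs_nonneg _).trans (hBb (Classical.choice inferInstance))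
  have hH₀ : 0 ≤ H₀ := (abs_nonneg _).trans (hHb (0, A (Classical.choice inferInstance)))
  have hg0 : Measurable[FL (tE e)] (fun ω => B ω * innov_JZ0 H (A ω)) := hB.mul hJ0
  have hg1 : Measurable[FL (tE e)] (fun ω => B ω * (kp e.2 * innov_JZ1 H (A ω))) :=
    hB.mul (measurable_const.mul hJ1)
  have hg0b : ∀ ω, |B ω * innov_JZ0 H (A ω)| ≤ B₀ * H₀ := fun ω => by
    rw [abs_mul]; exact mul_le_mul (hBb ω) (innov_JZ0_bd hHb _) (abs_nonneg _) hB₀
  have hg1b : ∀ ω, |B ω * (kp e.2 * innov_JZ1 H (A ω))| ≤ B₀ * (1 * H₀) := by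
    intro ω
    rw [abs_mul, abs_mul]
    refine mul_le_mul (hBb ω) (mul_le_mul ?_ (innov_JZ1_bd hHb _) (abs_nonneg _) zero_le_one)
      (mul_nonneg (abs_nonneg _) (abs_nonneg _)) hB₀
    have := innov_kp_abs e.2
    linarith
  have ht0 := innov_spin_test (θ := θ) h0 h1 e root hg0 hg0b
  have ht1 := innov_pair_test (θ := θ) h0 h1 e e.1 hg1 hg1b
  have hg0m : Measurable (fun ω : OmD d => B ω * innov_JZ0 H (A ω)) := hg0.mono hFL le_rfl
  have hg1m : Measurable (fun ω : OmD d => B ω * (kp e.2 * innov_JZ1 H (A ω))) := hg1.mono hFL le_rfl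
  have hmr : Measurable (fun ω : OmD d => mm θ root (yS (tE e ω.2.2) ω)) :=
    (measurable_mm_FL (θ := θ) (tE e) (innov_measurable_tE d e) root).mono hFL le_rfl
  have hint_a : Integrable (fun ω : OmD d => B ω * innov_JZ0 H (A ω) * sp (ω.1 root)) (PD d θ) := by
    refine Integrable.of_bound (C := B₀ * H₀ * 1) (hg0m.mul hsr).aestronglyMeasurable ?_
    refine Eventually.of_forall fun ω => ?_
    rw [Real.norm_eq_abs, abs_mul, innov_sp_abs]
    exact mul_le_mul (hg0b ω) le_rfl zero_le_one (mul_nonneg hB₀ hH₀)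
  have hint_b : Integrable (fun ω : OmD d => B ω * (kp e.2 * innov_JZ1 H (A ω)) * (sp (ω.1 root) * sp (ω.1 e.1))) (PD d θ) := by
    refine Integrable.of_bound (C := B₀ * (1 * H₀) * 1) (hg1m.mul (hsr.mul hsx)).aestronglyMeasurable ?_
    refine Eventually.of_forall fun ω => ?_
    rw [Real.norm_eq_abs, abs_mul, abs_mul (sp _) (sp _), innov_sp_abs, innov_sp_abs, mul_one, mul_one, mul_one]
    exact hg1b ω
  have hint_c : Integrable (fun ω : OmD d => B ω * innov_JZ0 H (A ω) * mm θ root (yS (tE e ω.2.2) ω)) (PD d θ) := by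
    refine Integrable.of_bound (C := B₀ * H₀ * 1) (hg0m.mul hmr).aestronglyMeasurable ?_
    refine Eventually.of_forall fun ω => ?_
    rw [Real.norm_eq_abs, abs_mul]
    exact mul_le_mul (hg0b ω) (mm_yS_le_one h1 _ _ _) (abs_nonneg _) (mul_nonneg hB₀ hH₀)
  have hint_d : Integrable (fun ω : OmD d => B ω * (kp e.2 * innov_JZ1 H (A ω)) * (CCr θ e.1 (yS (tE e ω.2.2) ω) +
        mm θ root (yS (tE e ω.2.2) ω) * mm θ e.1 (yS (tE e ω.2.2) ω))) (PD d θ) := by
    have hs := condExp_pair (d := d) (θ := θ) h0 h1 (tt := tE e) (innov_measurable_tE d e) ⟨e.2 + 2, innov_tE_le e⟩ e.1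
    have hF : Integrable (fun ω : OmD d => CCr θ e.1 (yS (tE e ω.2.2) ω) +
        mm θ root (yS (tE e ω.2.2) ω) * mm θ e.1 (yS (tE e ω.2.2) ω)) (PD d θ) :=
      (integrable_condExp).congr hs
    exact Integrable.bdd_mul (c := B₀ * (1 * H₀)) hF hg1m.aestronglyMeasurable
      (Eventually.of_forall fun ω => by simpa using hg1b ω)
  have e1 : ∀ ω : OmD d, sp (ω.1 root) * B ω * (innov_JZ0 H (A ω) + kp e.2 * sp (ω.1 e.1) * innov_JZ1 H (A ω)) =
      B ω * innov_JZ0 H (A ω) * sp (ω.1 root) + B ω * (kp e.2 * innov_JZ1 H (A ω)) * (sp (ω.1 root) * sp (ω.1 e.1)) :=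
    fun ω => by ring
  have e2 : ∀ ω : OmD d, B ω * (mm θ root (yS (tE e ω.2.2) ω) * (∫ z in Icc (-1 : ℝ) 1, H (z, A ω) / 2) +
        kp e.2 * (CCr θ e.1 (yS (tE e ω.2.2) ω) +
          mm θ root (yS (tE e ω.2.2) ω) * mm θ e.1 (yS (tE e ω.2.2) ω)) *
          (∫ z in Icc (-1 : ℝ) 1, H (z, A ω) * (z / 2))) =
      B ω * innov_JZ0 H (A ω) * mm θ root (yS (tE e ω.2.2) ω) +
      B ω * (kp e.2 * innov_JZ1 H (A ω)) * (CCr θ e.1 (yS (tE e ω.2.2) ω) +
        mm θ root (yS (tE e ω.2.2) ω) * mm θ e.1 (yS (tE e ω.2.2) ω)) := fun ω => by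
    unfold innov_JZ0 innov_JZ1; ring
  simp only [e1, e2]
  rw [integral_add hint_a hint_b, integral_add hint_c hint_d, ht0, ht1]

/-- The innovation is uniform given the past of the event. -/
theorem int_U (h0 : 0 < θ) (h1 : θ < 1) (e : Ev d) {E : Type*} [MeasurableSpace E] {B : OmD d → ℝ} {A : OmD d → E}
    (hB : Measurable[FL (tE e)] B) {B₀ : ℝ} (hBb : ∀ ω, |B ω| ≤ B₀) (hBa : ∀ ω, B ω ≠ 0 → actE e ω.2.2)
    (hA : Measurable[FL (tE e)] A) {H : ℝ × E → ℝ} (hH : Measurable H) {H₀ : ℝ} (hHb : ∀ p, |H p| ≤ H₀) :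
    ∫ ω, B ω * H (Uo θ ω e, A ω) ∂(PD d θ) = ∫ ω, B ω * (∫ u : unitInterval, H (u, A ω)) ∂(PD d θ) := by
  classical
  have hm : Measurable[FL (tE e)] (fun ω : OmD d => mm θ e.1 (yS (tE e ω.2.2) ω)) :=
    measurable_mm_FL (θ := θ) (tE e) (innov_measurable_tE d e) e.1
  have hH' : Measurable (fun p : ℝ × (E × ℝ) => H (cdfA (kp e.2 * p.2.2) p.1, p.2.1)) := by
    have hc : Measurable (fun p : ℝ × (E × ℝ) => cdfA (kp e.2 * p.2.2) p.1) :=
      measurable_cdfA.comp ((measurable_const.mul (measurable_snd.comp measurable_snd)).prodMk measurable_fst)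
    exact hH.comp (hc.prodMk (measurable_fst.comp measurable_snd))
  have key := int_Z (θ := θ) h0 h1 e (E := E × ℝ) hB hBb (hA.prodMk hm) hH' (H₀ := H₀) (fun p => hHb _)
  have e1 : ∀ ω : OmD d, B ω * H (Uo θ ω e, A ω) =
      B ω * H (cdfA (kp e.2 * mm θ e.1 (yS (tE e ω.2.2) ω)) (Zo ω e), A ω) := by
    intro ω
    by_cases hB0 : B ω = 0
    · simp [hB0]
    · have hact := hBa ω hB0
      simp only [Uo, if_pos hact]
  simp only [e1]
  refine key.trans (integral_congr_ae (Eventually.of_forall fun ω => ?_))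
  simp only
  congr 1
  have hκ : |kp e.2 * mm θ e.1 (yS (tE e ω.2.2) ω)| ≤ 1 / 2 := by
    rw [abs_mul]
    have a1 := innov_kp_abs e.2
    have a2 := mm_yS_le_one (d := d) h1 (tE e ω.2.2) ω e.1
    nlinarith [abs_nonneg (kp e.2), abs_nonneg (mm θ e.1 (yS (tE e ω.2.2) ω))]
  exact integral_cdfA hκ (hH.comp (measurable_id.prodMk measurable_const)) (C := H₀) (fun x _ => hHb _)

open Classical in
/-- The observed field as a function of the labels and of the observations. -/
noncomputable def innov_ysZ (s : ℝ) (W : LabT d) (z : Ev d → ℝ) (x : Word d) : ℝ :=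
  ∑' j : ℤ, if inA s (x, j) W then Real.artanh (kp j * z (x, j)) else 0

lemma innov_measurableSet_inA (e : Ev d) :
    MeasurableSet {p : ℝ × LabT d | inA p.1 e p.2} := by
  have h1 : MeasurableSet {p : ℝ × LabT d | actE e p.2} := by
    unfold actE
    exact measurableSet_lt (measurable_subtype_coe.comp ((measurable_pi_apply e).comp measurable_snd))
      measurable_const
  have h2 : MeasurableSet {p : ℝ × LabT d | tE e p.2 < p.1} :=
    measurableSet_lt ((innov_measurable_tE d e).comp measurable_snd) measurable_fst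
  exact h1.inter h2

lemma innov_measurable_ysZ : Measurable (fun p : ℝ × LabT d × (Ev d → ℝ) => innov_ysZ p.1 p.2.1 p.2.2) := by
  classical
  refine measurable_pi_iff.2 fun x => ?_
  unfold innov_ysZ
  refine Measurable.tsum fun j => ?_
  refine Measurable.ite ?_ ?_ measurable_const
  · have : Measurable (fun p : ℝ × LabT d × (Ev d → ℝ) => (p.1, p.2.1)) := by fun_prop
    exact this (innov_measurableSet_inA (x, j))
  · have h1 : Measurable Real.artanh := by
      unfold Real.artanh
      fun_prop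
    exact h1.comp (measurable_const.mul ((measurable_pi_apply (x, j)).comp (measurable_snd.comp measurable_snd)))

lemma innov_inA_of_lt {s t : ℝ} {e : Ev d} {W : LabT d} (h : inA s e W) (hst : s ≤ t) : inA t e W :=
  ⟨h.1, lt_of_lt_of_le h.2 hst⟩

open Classical in
lemma innov_ysZ_obsL (tt : LabT d → ℝ) {s : ℝ} (ω : OmD d) (hs : s ≤ tt ω.2.2) :
    innov_ysZ s ω.2.2 (obsL tt ω).2 = yS s ω := by
  funext x
  unfold innov_ysZ yS
  refine tsum_congr fun j => ?_
  by_cases h : inA s (x, j) ω.2.2
  · simp only [if_pos h, obsL, if_pos (innov_inA_of_lt h hs)]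
  · simp only [if_neg h]

open Classical in
/-- If `e` comes before `e'`, functions of the innovation of `e` are measurable in the past of `e'`. -/
lemma measurable_Uo_FL (e e' : Ev d) (hne : e ≠ e') :
    Measurable[FL (tE e')] (fun ω : OmD d =>
      (if actE e ω.2.2 ∧ tE e ω.2.2 < tE e' ω.2.2 then Uo θ ω e else 0)) := by
  set Ξ : LabT d × (Ev d → ℝ) → ℝ := fun q =>
    if actE e q.1 ∧ tE e q.1 < tE e' q.1 then
      cdfA (kp e.2 * mm θ e.1 (innov_ysZ (tE e q.1) q.1 q.2)) (q.2 e) else 0 with hΞ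
  have hΞm : Measurable Ξ := by
    refine Measurable.ite ?_ ?_ measurable_const
    · exact (innov_measurableSet_inA e).preimage
        (f := fun q : LabT d × (Ev d → ℝ) => (tE e' q.1, q.1)) (by
          exact ((innov_measurable_tE d e').comp measurable_fst).prodMk measurable_fst)
    · have hy : Measurable (fun q : LabT d × (Ev d → ℝ) => innov_ysZ (tE e q.1) q.1 q.2) :=
        innov_measurable_ysZ.comp (((innov_measurable_tE d e).comp measurable_fst).prodMk
          (measurable_fst.prodMk measurable_snd))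
      have hm : Measurable (fun q : LabT d × (Ev d → ℝ) => mm θ e.1 (innov_ysZ (tE e q.1) q.1 q.2)) :=
        (measurable_mm θ e.1).comp hy
      exact measurable_cdfA.comp ((measurable_const.mul hm).prodMk
        ((measurable_pi_apply e).comp measurable_snd))
  have heq : (fun ω : OmD d => (if actE e ω.2.2 ∧ tE e ω.2.2 < tE e' ω.2.2 then Uo θ ω e else 0)) =
      Ξ ∘ obsL (tE e') := by
    funext ω
    simp only [hΞ, Function.comp, obsL]
    by_cases hc : actE e ω.2.2 ∧ tE e ω.2.2 < tE e' ω.2.2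
    · rw [if_pos hc, if_pos hc]
      have h3 : inA (tE e' ω.2.2) e ω.2.2 := hc
      have h4 := innov_ysZ_obsL (tE e') (s := tE e ω.2.2) ω hc.2.le
      simp only [obsL] at h4
      rw [h4, if_pos h3]
      simp only [Uo, if_pos hc.1]
    · rw [if_neg hc, if_neg hc]
  rw [heq]
  exact hΞm.comp (comap_measurable _)

open Classical in
/-- Stopped data functions are measurable in the past of a later event. -/
lemma measurable_FOs_FL {T : ℝ} (e : Ev d) {Φ : OmD d → ℝ} (hΦ : Measurable[FOs T] Φ) :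
    Measurable[FL (tE e)] (fun ω : OmD d => if T ≤ tE e ω.2.2 then Φ ω else 0) := by
  obtain ⟨Φ', hΦ', hΦeq⟩ := hΦ.exists_eq_measurable_comp
  set Ξ : LabT d × (Ev d → ℝ) → ℝ := fun q =>
    if T ≤ tE e q.1 then
      Φ' (fun e' => (min (tE e' q.1) T, if inA T e' q.1 then q.2 e' else 0)) else 0 with hΞ
  have hΞm : Measurable Ξ := by
    refine Measurable.ite ?_ ?_ measurable_const
    · exact measurableSet_le measurable_const ((innov_measurable_tE d e).comp measurable_fst)
    · refine hΦ'.comp (measurable_pi_iff.2 fun e' => ?_)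
      refine (((innov_measurable_tE d e').comp measurable_fst).min measurable_const).prodMk ?_
      refine Measurable.ite ?_ ((measurable_pi_apply e').comp measurable_snd) measurable_const
      exact (innov_measurableSet_inA e').preimage (f := fun q : LabT d × (Ev d → ℝ) => (T, q.1))
        (measurable_const.prodMk measurable_fst)
  have heq : (fun ω : OmD d => if T ≤ tE e ω.2.2 then Φ ω else 0) = Ξ ∘ obsL (tE e) := by
    funext ω
    simp only [hΞ, Function.comp, obsL]
    by_cases hc : T ≤ tE e ω.2.2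
    · rw [if_pos hc, if_pos hc, hΦeq]
      simp only [Function.comp]
      congr 1
      funext e'
      simp only [Dd]
      congr 1
      by_cases h : inA T e' ω.2.2
      · rw [if_pos h, if_pos h, if_pos (innov_inA_of_lt h hc)]
      · rw [if_neg h, if_neg h]
    · rw [if_neg hc, if_neg hc]
  rw [heq]
  exact hΞm.comp (comap_measurable _)

open Classical in
/-- The innovations are measurable in the `G` sigma algebra at later times. -/
lemma measurable_Uo_GGs (s : ℝ) (e : Ev d) :
    Measurable[GGs θ s] (fun ω : OmD d => if inA s e ω.2.2 then Uo θ ω e else 0) := by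
  have h : (fun ω : OmD d => if inA s e ω.2.2 then Uo θ ω e else 0) =
      (fun q : Ev d → ℝ × ℝ => (q e).2) ∘ Gd θ s := by
    funext ω; simp [Gd]
  rw [h]
  exact (measurable_snd.comp (measurable_pi_apply e)).comp (comap_measurable _)

/-- The innovation variable in the unit interval. -/
noncomputable def UoI (θ : ℝ) (ω : OmD d) (e : Ev d) : unitInterval := ⟨Uo θ ω e, Uo_mem ω e⟩

section Iid

instance iidVolEProb : IsProbabilityMeasure (volE d) := by
  unfold volE
  infer_instance

lemma iid_meas_tE (e : Ev d) : Measurable (tE e) := by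
  unfold tE
  exact measurable_const.add (measurable_const.mul (measurable_subtype_coe.comp (measurable_pi_apply e)))

lemma iid_meas_act (e : Ev d) : MeasurableSet {W : LabT d | actE e W} := by
  unfold actE
  exact measurableSet_lt (measurable_subtype_coe.comp (measurable_pi_apply e)) measurable_const

lemma iid_map_label : (PD d θ).map (fun ω => ω.2.2) = volE d := by
  have h1 : (PD d θ).map Prod.snd = (volE d).prod (volE d) := by
    unfold PD
    rw [Measure.map_snd_prod]
    simp
  have h2 : ((volE d).prod (volE d)).map Prod.snd = volE d := by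
    rw [Measure.map_snd_prod]
    simp
  have h3 : (fun ω : OmD d => ω.2.2) = Prod.snd ∘ Prod.snd := rfl
  rw [h3, ← Measure.map_map measurable_snd measurable_snd, h1, h2]

lemma iid_integral_label (g : LabT d → ℝ) (hg : Measurable g) :
    ∫ ω, g ω.2.2 ∂(PD d θ) = ∫ W, g W ∂(volE d) := by
  conv_rhs => rw [← iid_map_label (θ := θ)]
  exact (integral_map (φ := fun ω : OmD d => ω.2.2) (measurable_snd.comp measurable_snd).aemeasurable
    hg.aestronglyMeasurable).symm

lemma iid_ae_label {p : LabT d → Prop} (hp : ∀ᵐ W ∂(volE d), p W) : ∀ᵐ ω ∂(PD d θ), p ω.2.2 := by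
  have hq : (PD d θ).map (fun ω => ω.2.2) = volE d := iid_map_label
  rw [← hq] at hp
  exact ae_of_ae_map (measurable_snd.comp measurable_snd).aemeasurable hp

lemma iid_tie_null (e e' : Ev d) (hne : e ≠ e') : volE d {W | tE e W = tE e' W} = 0 := by
  classical
  have hmp := slb_update_mp (ι := Ev d) (volume : Measure unitInterval) e
  have hS : MeasurableSet {W : LabT d | tE e W = tE e' W} :=
    measurableSet_eq_fun (iid_meas_tE e) (iid_meas_tE e')
  have h2 := hmp.measure_preimage hS.nullMeasurableSet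
  unfold volE
  rw [← h2, Measure.measure_prod_null (hmp.measurable hS)]
  filter_upwards with W
  apply Set.Subsingleton.measure_zero
  intro u hu v hv
  simp only [Set.mem_preimage, Set.mem_ofPred_eq, tE, Function.update_self,
    Function.update_of_ne hne.symm] at hu hv
  have : (u : ℝ) = v := by linarith
  exact Subtype.ext this

end Iid

section Iid2

open Classical in
/-- The event `e` is the last one of the finite set `S`. -/
noncomputable def iidLast (S : Finset (Ev d)) (e : Ev d) (W : LabT d) : ℝ :=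
  if ∀ e' ∈ S, e' ≠ e → tE e' W < tE e W then 1 else 0

lemma iidLast_meas (S : Finset (Ev d)) (e : Ev d) : Measurable (iidLast S e) := by
  classical
  unfold iidLast
  refine Measurable.ite ?_ measurable_const measurable_const
  have : {W : LabT d | ∀ e' ∈ S, e' ≠ e → tE e' W < tE e W} =
      ⋂ e' ∈ S, {W : LabT d | e' ≠ e → tE e' W < tE e W} := by
    ext W; simp
  rw [this]
  refine Finset.measurableSet_biInter S fun e' _ => ?_
  by_cases h : e' = e
  · simp [h]
  · simp only [ne_eq, h, not_false_eq_true, forall_const]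
    exact measurableSet_lt (iid_meas_tE e') (iid_meas_tE e)

lemma iidLast_abs (S : Finset (Ev d)) (e : Ev d) (W : LabT d) : |iidLast S e W| ≤ 1 := by
  classical
  unfold iidLast
  split_ifs <;> simp

lemma iidLast_sum (S : Finset (Ev d)) (hS : S.Nonempty) :
    ∀ᵐ W ∂(volE d), ∑ e ∈ S, iidLast S e W = 1 := by
  classical
  have hno : ∀ᵐ W ∂(volE d), ∀ e ∈ S, ∀ e' ∈ S, e ≠ e' → tE e W ≠ tE e' W := by
    refine (Filter.eventually_all_finset S).2 fun e _ => ?_
    refine (Filter.eventually_all_finset S).2 fun e' _ => ?_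
    by_cases h : e = e'
    · simp [h]
    · have := iid_tie_null e e' h
      filter_upwards [measure_eq_zero_iff_ae_notMem.mp this] with W hW _
      exact hW
  filter_upwards [hno] with W hW
  obtain ⟨m, hm, hmax⟩ := S.exists_max_image (fun e => tE e W) hS
  rw [Finset.sum_eq_single m]
  · unfold iidLast
    rw [if_pos]
    intro e' he' hne
    exact lt_of_le_of_ne (hmax e' he') (hW e' he' m hm hne)
  · intro e he hne
    unfold iidLast
    rw [if_neg]
    intro hall
    have h1 := hall m hm hne.symm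
    have h2 := hmax e he
    exact absurd h1 (not_lt.mpr h2)
  · intro h
    exact absurd hm h

lemma iid_label_FL (tt : LabT d → ℝ) {g : LabT d → ℝ} (hg : Measurable g) :
    Measurable[FL tt] (fun ω : OmD d => g ω.2.2) := by
  have h1 : Measurable[FL tt] (obsL tt : OmD d → LabT d × (Ev d → ℝ)) := comap_measurable (obsL tt)
  exact (hg.comp measurable_fst).comp h1

lemma iid_prod_abs_le (S : Finset (Ev d)) (f : Ev d → ℝ → ℝ) (hfb : ∀ e u, |f e u| ≤ 1)
    (a : Ev d → ℝ) : |∏ e ∈ S, f e (a e)| ≤ 1 := by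
  rw [Finset.abs_prod]
  exact Finset.prod_le_one (fun _ _ => abs_nonneg _) (fun e _ => hfb e _)

lemma iid_integrable {φ : OmD d → ℝ} (hφ : Measurable φ) {C : ℝ} (hb : ∀ ω, |φ ω| ≤ C) :
    Integrable φ (PD d θ) :=
  Integrable.of_bound hφ.aestronglyMeasurable C (Eventually.of_forall fun ω => by
    simpa [Real.norm_eq_abs] using hb ω)

lemma iid_integrable' {φ : LabT d → ℝ} (hφ : Measurable φ) {C : ℝ} (hb : ∀ ω, |φ ω| ≤ C) :
    Integrable φ (volE d) := by
  have : IsProbabilityMeasure (volE d) := by unfold volE; infer_instance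
  exact Integrable.of_bound hφ.aestronglyMeasurable C (Eventually.of_forall fun ω => by
    simpa [Real.norm_eq_abs] using hb ω)

lemma iid_meas_prodU (S : Finset (Ev d)) (f : Ev d → ℝ → ℝ) (hf : ∀ e, Measurable (f e)) :
    Measurable (fun ω : OmD d => ∏ e ∈ S, f e (Uo θ ω e)) :=
  Finset.measurable_prod S fun e _ => (hf e).comp (measurable_Uo e)

/-- Events known to be active: split on the last event, and use `int_U`. -/
lemma iid_active (h0 : 0 < θ) (h1 : θ < 1) (f : Ev d → ℝ → ℝ) (hf : ∀ e, Measurable (f e))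
    (hfb : ∀ e u, |f e u| ≤ 1) :
    ∀ (n : ℕ) (S : Finset (Ev d)), S.card = n → ∀ (g : LabT d → ℝ), Measurable g →
      ∀ G₀ : ℝ, (∀ W, |g W| ≤ G₀) → (∀ W, g W ≠ 0 → ∀ e ∈ S, actE e W) →
      ∫ ω, (∏ e ∈ S, f e (Uo θ ω e)) * g ω.2.2 ∂(PD d θ) =
        (∏ e ∈ S, ∫ u : unitInterval, f e u) * ∫ W, g W ∂(volE d) := by
  classical
  intro n
  induction n with
  | zero =>
    intro S hS g hg G₀ _ _
    have hS' : S = ∅ := Finset.card_eq_zero.mp hS
    subst hS'
    simp only [Finset.prod_empty, one_mul]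
    exact iid_integral_label g hg
  | succ n ih =>
    intro S hS g hg G₀ hgb hga
    have hne : S.Nonempty := by
      rw [← Finset.card_pos]; omega
    -- the piece on which `e` is last
    have key : ∀ e ∈ S, ∫ ω, (∏ e ∈ S, f e (Uo θ ω e)) * (g ω.2.2 * iidLast S e ω.2.2) ∂(PD d θ) =
        (∏ e ∈ S, ∫ u : unitInterval, f e u) * ∫ W, g W * iidLast S e W ∂(volE d) := by
      intro e he
      set ge : LabT d → ℝ := fun W => g W * iidLast S e W with hge
      have hgem : Measurable ge := hg.mul (iidLast_meas S e)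
      have hgeb : ∀ W, |ge W| ≤ G₀ := by
        intro W
        rw [hge]
        simp only [abs_mul]
        calc |g W| * |iidLast S e W| ≤ |g W| * 1 :=
              mul_le_mul_of_nonneg_left (iidLast_abs S e W) (abs_nonneg _)
          _ ≤ G₀ := by rw [mul_one]; exact hgb W
      have hG0 : 0 ≤ G₀ := (abs_nonneg _).trans (hgb (fun _ => 0))
      have hgea : ∀ W, ge W ≠ 0 → ∀ e' ∈ S, actE e' W := by
        intro W hW e' he'
        refine hga W ?_ e' he'
        intro h0'
        apply hW
        simp [hge, h0']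
      have hlast : ∀ W, ge W ≠ 0 → ∀ e' ∈ S, e' ≠ e → tE e' W < tE e W := by
        intro W hW
        by_contra hcon
        apply hW
        simp only [hge]
        unfold iidLast
        rw [if_neg hcon, mul_zero]
      -- the past part
      set B : OmD d → ℝ := fun ω => (∏ e' ∈ S.erase e, f e' (if actE e' ω.2.2 ∧ tE e' ω.2.2 < tE e ω.2.2
        then Uo θ ω e' else 0)) * ge ω.2.2 with hB
      have hB_eq : ∀ ω, B ω = (∏ e' ∈ S.erase e, f e' (Uo θ ω e')) * ge ω.2.2 := by
        intro ω
        by_cases h : ge ω.2.2 = 0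
        · simp [hB, h]
        · simp only [hB]
          congr 1
          refine Finset.prod_congr rfl fun e' he' => ?_
          rw [if_pos ⟨hgea _ h e' (Finset.mem_of_mem_erase he'),
            hlast _ h e' (Finset.mem_of_mem_erase he') (Finset.ne_of_mem_erase he')⟩]
      have hBm : Measurable[FL (tE e)] B := by
        refine Measurable.mul ?_ (iid_label_FL (tE e) hgem)
        refine Finset.measurable_prod _ fun e' he' => ?_
        exact (hf e').comp (measurable_Uo_FL (θ := θ) e' e (Finset.ne_of_mem_erase he'))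
      have hBb : ∀ ω, |B ω| ≤ G₀ := by
        intro ω
        rw [hB_eq, abs_mul]
        calc _ ≤ 1 * G₀ := mul_le_mul (iid_prod_abs_le _ f hfb _) (hgeb _) (abs_nonneg _) zero_le_one
          _ = G₀ := one_mul _
      have hBa : ∀ ω, B ω ≠ 0 → actE e ω.2.2 := by
        intro ω hω
        rw [hB_eq] at hω
        exact hgea _ (right_ne_zero_of_mul hω) e he
      have hU := int_U (θ := θ) h0 h1 e (E := Unit) (A := fun _ => ()) hBm hBb hBa measurable_const
        (H := fun p => f e p.1) ((hf e).comp measurable_fst) (H₀ := 1) (fun p => hfb e p.1)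
      simp only at hU
      rw [integral_mul_const] at hU
      have hIH := ih (S.erase e) (by rw [Finset.card_erase_of_mem he]; omega) ge hgem G₀ hgeb
        (fun W hW e' he' => hgea W hW e' (Finset.mem_of_mem_erase he'))
      have hintB : ∫ ω, B ω ∂(PD d θ) =
          (∏ e' ∈ S.erase e, ∫ u : unitInterval, f e' u) * ∫ W, ge W ∂(volE d) := by
        rw [← hIH]
        exact integral_congr_ae (Eventually.of_forall hB_eq)
      have hL : ∀ ω, (∏ e ∈ S, f e (Uo θ ω e)) * ge ω.2.2 = B ω * f e (Uo θ ω e) := by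
        intro ω
        rw [hB_eq, ← Finset.mul_prod_erase S _ he]
        ring
      calc ∫ ω, (∏ e ∈ S, f e (Uo θ ω e)) * (g ω.2.2 * iidLast S e ω.2.2) ∂(PD d θ)
          = ∫ ω, B ω * f e (Uo θ ω e) ∂(PD d θ) := integral_congr_ae (Eventually.of_forall hL)
        _ = (∫ ω, B ω ∂(PD d θ)) * ∫ u : unitInterval, f e u := hU
        _ = (∏ e ∈ S, ∫ u : unitInterval, f e u) * ∫ W, g W * iidLast S e W ∂(volE d) := by
          rw [hintB, ← Finset.mul_prod_erase S _ he]
          ring
    -- sum over the pieces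
    have hsum : ∀ᵐ ω ∂(PD d θ), (∏ e ∈ S, f e (Uo θ ω e)) * g ω.2.2 =
        ∑ e ∈ S, (∏ e ∈ S, f e (Uo θ ω e)) * (g ω.2.2 * iidLast S e ω.2.2) := by
      filter_upwards [iid_ae_label (θ := θ) (iidLast_sum S hne)] with ω hω
      rw [← Finset.mul_sum, ← Finset.mul_sum, hω, mul_one]
    have hsum' : ∀ᵐ W ∂(volE d), g W = ∑ e ∈ S, g W * iidLast S e W := by
      filter_upwards [iidLast_sum S hne] with W hW
      rw [← Finset.mul_sum, hW, mul_one]
    have hpiece_meas : ∀ e ∈ S, Measurable (fun W => g W * iidLast S e W) :=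
      fun e _ => hg.mul (iidLast_meas S e)
    have hpiece_bd : ∀ e ∈ S, ∀ W, |g W * iidLast S e W| ≤ G₀ := by
      intro e _ W
      rw [abs_mul]
      calc |g W| * |iidLast S e W| ≤ |g W| * 1 :=
            mul_le_mul_of_nonneg_left (iidLast_abs S e W) (abs_nonneg _)
        _ ≤ G₀ := by rw [mul_one]; exact hgb W
    have hG0 : 0 ≤ G₀ := (abs_nonneg _).trans (hgb (fun _ => 0))
    rw [integral_congr_ae hsum, integral_congr_ae hsum', integral_finsetSum,
      integral_finsetSum, Finset.mul_sum]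
    · exact Finset.sum_congr rfl key
    · intro e he
      exact iid_integrable' (hpiece_meas e he) (hpiece_bd e he)
    · intro e he
      refine iid_integrable (C := 1 * G₀) ?_ ?_
      · exact (iid_meas_prodU S f hf).mul ((hpiece_meas e he).comp (measurable_snd.comp measurable_snd))
      · intro ω
        rw [abs_mul]
        exact mul_le_mul (iid_prod_abs_le _ f hfb _) (hpiece_bd e he _) (abs_nonneg _) zero_le_one

/-- The map replacing one noise coordinate is measure preserving. -/
lemma iid_T_mp (a : Ev d) :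
    MeasurePreserving (fun p : OmD d × unitInterval =>
      ((p.1.1, Function.update p.1.2.1 a p.2, p.1.2.2) : OmD d))
      ((PD d θ).prod (volume : Measure unitInterval)) (PD d θ) := by
  classical
  have : IsProbabilityMeasure (volE d) := by unfold volE; infer_instance
  have hU := slb_update_mp (ι := Ev d) (volume : Measure unitInterval) a
  have hU' : MeasurePreserving (fun p : LabT d × unitInterval => Function.update p.1 a p.2)
      ((volE d).prod (volume : Measure unitInterval)) (volE d) := hU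
  -- `((V, W), u) ↦ (V, (W, u)) ↦ (V, (u, W)) ↦ ((V, u), W) ↦ (update V a u, W)`
  have m1 := measurePreserving_prodAssoc (volE d) (volE d) (volume : Measure unitInterval)
  have m2 : MeasurePreserving (Prod.map (id : LabT d → LabT d) (Prod.swap : LabT d × unitInterval → _))
      ((volE d).prod ((volE d).prod (volume : Measure unitInterval)))
      ((volE d).prod ((volume : Measure unitInterval).prod (volE d))) :=
    (MeasurePreserving.id _).prod Measure.measurePreserving_swap
  have m3 := (measurePreserving_prodAssoc (volE d) (volume : Measure unitInterval) (volE d)).symm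
  have m4 : MeasurePreserving (Prod.map (fun p : LabT d × unitInterval => Function.update p.1 a p.2)
      (id : LabT d → LabT d)) (((volE d).prod (volume : Measure unitInterval)).prod (volE d))
      ((volE d).prod (volE d)) :=
    hU'.prod (MeasurePreserving.id _)
  have hin : MeasurePreserving (fun q : (LabT d × LabT d) × unitInterval =>
      ((Function.update q.1.1 a q.2, q.1.2) : LabT d × LabT d))
      (((volE d).prod (volE d)).prod (volume : Measure unitInterval)) ((volE d).prod (volE d)) :=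
    m4.comp (m3.comp (m2.comp m1))
  have m5 := measurePreserving_prodAssoc (isingLaw d θ) ((volE d).prod (volE d))
    (volume : Measure unitInterval)
  have m6 : MeasurePreserving (Prod.map (id : (Word d → Bool) → (Word d → Bool))
      (fun q : (LabT d × LabT d) × unitInterval =>
        ((Function.update q.1.1 a q.2, q.1.2) : LabT d × LabT d)))
      ((isingLaw d θ).prod (((volE d).prod (volE d)).prod (volume : Measure unitInterval)))
      ((isingLaw d θ).prod ((volE d).prod (volE d))) :=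
    (MeasurePreserving.id _).prod hin
  exact m6.comp m5

/-- A function not depending on a noise coordinate. -/
lemma iid_inactive (a : Ev d) (F : ℝ → ℝ) (hF : Measurable F)
    {Φ : OmD d → ℝ} (hΦ : Measurable Φ)
    (hΦu : ∀ (σ : Word d → Bool) (V W : LabT d) (v : unitInterval),
      Φ (σ, Function.update V a v, W) = Φ (σ, V, W)) :
    ∫ ω, F (ω.2.1 a : ℝ) * Φ ω ∂(PD d θ) = (∫ u : unitInterval, F u) * ∫ ω, Φ ω ∂(PD d θ) := by
  classical
  have hT := iid_T_mp (θ := θ) a
  have hm : Measurable (fun ω : OmD d => F (ω.2.1 a : ℝ) * Φ ω) :=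
    (hF.comp (measurable_subtype_coe.comp ((measurable_pi_apply a).comp
      (measurable_fst.comp measurable_snd)))).mul hΦ
  conv_lhs => rw [← hT.map_eq]
  rw [integral_map hT.measurable.aemeasurable hm.aestronglyMeasurable]
  have h2 : ∀ p : OmD d × unitInterval,
      F ((Function.update p.1.2.1 a p.2) a : ℝ) * Φ (p.1.1, Function.update p.1.2.1 a p.2, p.1.2.2) =
        Φ p.1 * F (p.2 : ℝ) := by
    intro p
    rw [Function.update_self, hΦu]
    ring
  simp only [h2]
  rw [integral_prod_mul (μ := PD d θ) (ν := (volume : Measure unitInterval)) Φ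
    (fun u : unitInterval => F u)]
  ring

lemma iid_yS_update (a : Ev d) (σ : Word d → Bool) (V W : LabT d) (v : unitInterval)
    (hW : ¬ actE a W) (s : ℝ) : yS s (σ, Function.update V a v, W) = yS s (σ, V, W) := by
  classical
  funext x
  unfold yS
  refine tsum_congr fun j => ?_
  by_cases hin : inA s (x, j) W
  · have hne : (x, j) ≠ a := by
      rintro rfl
      exact hW hin.1
    simp only [hin, if_true]
    unfold Zo zh
    simp only [Function.update_of_ne hne]
  · simp [hin]

lemma iid_Uo_update (a e : Ev d) (hne : e ≠ a) (σ : Word d → Bool) (V W : LabT d) (v : unitInterval)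
    (hW : ¬ actE a W) : Uo θ (σ, Function.update V a v, W) e = Uo θ (σ, V, W) e := by
  classical
  unfold Uo
  simp only [iid_yS_update a σ V W v hW]
  unfold Zo zh
  simp only [Function.update_of_ne hne]

lemma iid_int_prod (f : Ev d → ℝ → ℝ) (hf : ∀ e, Measurable (f e)) (hfb : ∀ e u, |f e u| ≤ 1)
    (S : Finset (Ev d)) {g : LabT d → ℝ} (hg : Measurable g) {G₀ : ℝ} (hgb : ∀ W, |g W| ≤ G₀) :
    Integrable (fun ω : OmD d => (∏ e ∈ S, f e (Uo θ ω e)) * g ω.2.2) (PD d θ) := by
  refine iid_integrable (C := 1 * G₀) ((iid_meas_prodU _ f hf).mul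
    (hg.comp (measurable_snd.comp measurable_snd))) (fun ω => ?_)
  rw [abs_mul]
  exact mul_le_mul (iid_prod_abs_le _ f hfb _) (hgb _) (abs_nonneg _) zero_le_one

/-- One more event which is inactive on the support of `g`. -/
lemma iid_step_inactive (f : Ev d → ℝ → ℝ) (hf : ∀ e, Measurable (f e))
    (U : Finset (Ev d)) (a : Ev d) (haU : a ∉ U) {g : LabT d → ℝ} (hg : Measurable g)
    (hinact : ∀ W, g W ≠ 0 → ¬ actE a W) :
    ∫ ω, (∏ e ∈ insert a U, f e (Uo θ ω e)) * g ω.2.2 ∂(PD d θ) =
      (∫ u : unitInterval, f a u) * ∫ ω, (∏ e ∈ U, f e (Uo θ ω e)) * g ω.2.2 ∂(PD d θ) := by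
  classical
  have hΦm : Measurable (fun ω : OmD d => (∏ e ∈ U, f e (Uo θ ω e)) * g ω.2.2) :=
    (iid_meas_prodU _ f hf).mul (hg.comp (measurable_snd.comp measurable_snd))
  have hu : ∀ (σ : Word d → Bool) (V W : LabT d) (v : unitInterval),
      (∏ e ∈ U, f e (Uo θ ((σ, Function.update V a v, W) : OmD d) e)) * g W =
        (∏ e ∈ U, f e (Uo θ ((σ, V, W) : OmD d) e)) * g W := by
    intro σ V W v
    by_cases hz : g W = 0
    · rw [hz, mul_zero, mul_zero]
    · have hprod : (∏ e ∈ U, f e (Uo θ ((σ, Function.update V a v, W) : OmD d) e)) =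
          ∏ e ∈ U, f e (Uo θ ((σ, V, W) : OmD d) e) := by
        refine Finset.prod_congr rfl fun e he => ?_
        have hne : e ≠ a := by
          rintro rfl
          exact haU he
        rw [iid_Uo_update a e hne σ V W v (hinact W hz)]
      rw [hprod]
  have hI := iid_inactive (θ := θ) a (f a) (hf a) hΦm hu
  rw [← hI]
  refine integral_congr_ae (Eventually.of_forall fun ω => ?_)
  simp only
  rw [Finset.prod_insert haU]
  by_cases hz : g ω.2.2 = 0
  · rw [hz, mul_zero, mul_zero, mul_zero]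
  · have hna := hinact _ hz
    have : Uo θ ω a = (ω.2.1 a : ℝ) := by
      unfold Uo
      rw [if_neg hna]
    rw [this]
    ring

/-- General finite sets of events: split on activity. -/
lemma iid_all (h0 : 0 < θ) (h1 : θ < 1) (f : Ev d → ℝ → ℝ) (hf : ∀ e, Measurable (f e))
    (hfb : ∀ e u, |f e u| ≤ 1) (R : Finset (Ev d)) :
    ∀ (S : Finset (Ev d)), Disjoint R S → ∀ (g : LabT d → ℝ), Measurable g →
      ∀ G₀ : ℝ, (∀ W, |g W| ≤ G₀) → (∀ W, g W ≠ 0 → ∀ e ∈ S, actE e W) →
      ∫ ω, (∏ e ∈ R ∪ S, f e (Uo θ ω e)) * g ω.2.2 ∂(PD d θ) =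
        (∏ e ∈ R ∪ S, ∫ u : unitInterval, f e u) * ∫ W, g W ∂(volE d) := by
  classical
  induction R using Finset.induction_on with
  | empty =>
    intro S _ g hg G₀ hgb hga
    simp only [Finset.empty_union]
    exact iid_active h0 h1 f hf hfb _ S rfl g hg G₀ hgb hga
  | insert a R' ha ih =>
    intro S hdis g hg G₀ hgb hga
    have haS : a ∉ S := by
      intro h
      exact (Finset.disjoint_left.mp hdis) (Finset.mem_insert_self a R') h
    have hdis' : Disjoint R' S := Finset.disjoint_of_subset_left (Finset.subset_insert a R') hdis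
    have haU : a ∉ R' ∪ S := by simp [ha, haS]
    have hU : insert a R' ∪ S = insert a (R' ∪ S) := Finset.insert_union a R' S
    set g1 : LabT d → ℝ := fun W => g W * (if actE a W then 1 else 0) with hg1
    set g2 : LabT d → ℝ := fun W => g W * (if actE a W then 0 else 1) with hg2
    have hg12 : ∀ W, g W = g1 W + g2 W := by
      intro W
      simp only [hg1, hg2]
      split_ifs <;> ring
    have hm1 : Measurable g1 := hg.mul (Measurable.ite (iid_meas_act a) measurable_const measurable_const)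
    have hm2 : Measurable g2 := hg.mul (Measurable.ite (iid_meas_act a) measurable_const measurable_const)
    have hb1 : ∀ W, |g1 W| ≤ G₀ := by
      intro W
      have := hgb W
      simp only [hg1]
      split_ifs <;> simp [this, (abs_nonneg _).trans this]
    have hb2 : ∀ W, |g2 W| ≤ G₀ := by
      intro W
      have := hgb W
      simp only [hg2]
      split_ifs <;> simp [this, (abs_nonneg _).trans this]
    -- the active part
    have E1 : ∫ ω, (∏ e ∈ insert a R' ∪ S, f e (Uo θ ω e)) * g1 ω.2.2 ∂(PD d θ) =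
        (∏ e ∈ insert a R' ∪ S, ∫ u : unitInterval, f e u) * ∫ W, g1 W ∂(volE d) := by
      have h := ih (insert a S) (by
        rw [Finset.disjoint_insert_right]; exact ⟨ha, hdis'⟩) g1 hm1 G₀ hb1 (by
        intro W hW e he
        have hne1 : g W ≠ 0 := fun h => hW (by simp [hg1, h])
        rcases Finset.mem_insert.mp he with rfl | he'
        · by_contra hna
          exact hW (by simp [hg1, hna])
        · exact hga W hne1 e he')
      have hset : R' ∪ insert a S = insert a R' ∪ S := by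
        rw [Finset.union_insert, Finset.insert_union]
      rwa [hset] at h
    -- the inactive part
    have E2 : ∫ ω, (∏ e ∈ insert a R' ∪ S, f e (Uo θ ω e)) * g2 ω.2.2 ∂(PD d θ) =
        (∏ e ∈ insert a R' ∪ S, ∫ u : unitInterval, f e u) * ∫ W, g2 W ∂(volE d) := by
      have h := ih S hdis' g2 hm2 G₀ hb2 (by
        intro W hW e he
        exact hga W (fun h => hW (by simp [hg2, h])) e he)
      have hinact : ∀ W, g2 W ≠ 0 → ¬ actE a W := by
        intro W hW hact
        exact hW (by simp [hg2, hact])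
      rw [hU, iid_step_inactive f hf (R' ∪ S) a haU hm2 hinact, h, Finset.prod_insert haU]
      ring
    -- sum
    have hint1 := iid_int_prod (θ := θ) f hf hfb (insert a R' ∪ S) hm1 hb1
    have hint2 := iid_int_prod (θ := θ) f hf hfb (insert a R' ∪ S) hm2 hb2
    have hsplit : ∀ ω : OmD d, (∏ e ∈ insert a R' ∪ S, f e (Uo θ ω e)) * g ω.2.2 =
        (∏ e ∈ insert a R' ∪ S, f e (Uo θ ω e)) * g1 ω.2.2 +
          (∏ e ∈ insert a R' ∪ S, f e (Uo θ ω e)) * g2 ω.2.2 := by
      intro ω
      rw [hg12 ω.2.2]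
      ring
    have hsplit' : ∫ W, g W ∂(volE d) = ∫ W, g1 W ∂(volE d) + ∫ W, g2 W ∂(volE d) := by
      rw [← integral_add (iid_integrable' hm1 hb1) (iid_integrable' hm2 hb2)]
      exact integral_congr_ae (Eventually.of_forall hg12)
    simp only [hsplit]
    rw [integral_add hint1 hint2, E1, E2, hsplit']
    ring

/-- The general product formula. -/
lemma iid_prod_formula (h0 : 0 < θ) (h1 : θ < 1) (f : Ev d → ℝ → ℝ) (hf : ∀ e, Measurable (f e))
    (hfb : ∀ e u, |f e u| ≤ 1) (F : Finset (Ev d)) (g : LabT d → ℝ) (hg : Measurable g)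
    {G₀ : ℝ} (hgb : ∀ W, |g W| ≤ G₀) :
    ∫ ω, (∏ e ∈ F, f e (Uo θ ω e)) * g ω.2.2 ∂(PD d θ) =
      (∏ e ∈ F, ∫ u : unitInterval, f e u) * ∫ W, g W ∂(volE d) := by
  classical
  have := iid_all h0 h1 f hf hfb F ∅ (Finset.disjoint_empty_right F) g hg G₀ hgb (by simp)
  simpa using this

end Iid2

/-- The innovations and the labels are i.i.d. uniform. -/
theorem law_UW (h0 : 0 < θ) (h1 : θ < 1) :
    (PD d θ).map (fun ω => (UoI θ ω, ω.2.2)) = (volE d).prod (volE d) := by
  classical
  symm
  have hpi : IsPiSystem (squareCylinders fun _ : Ev d => {s : Set unitInterval | MeasurableSet s}) :=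
    isPiSystem_squareCylinders (fun _ => MeasurableSpace.isPiSystem_measurableSet)
      (fun _ => by simp)
  have huniv : (univ : Set (LabT d)) ∈
      squareCylinders fun _ : Ev d => {s : Set unitInterval | MeasurableSet s} :=
    ⟨∅, fun _ => univ, by simp, by simp⟩
  let fs : (volE d).FiniteSpanningSetsIn
      (squareCylinders fun _ : Ev d => {s : Set unitInterval | MeasurableSet s}) :=
    ⟨fun _ => univ, fun _ => huniv, fun _ => measure_lt_top _ _, iUnion_const _⟩
  refine Measure.prod_eq_generateFrom generateFrom_squareCylinders generateFrom_squareCylinders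
    hpi hpi fs fs ?_
  rintro s ⟨F, t, ht, rfl⟩ s' ⟨F', t', ht', rfl⟩
  have hts : ∀ e, MeasurableSet (t e) := fun e => ht e (mem_univ e)
  have hts' : ∀ e, MeasurableSet (t' e) := fun e => ht' e (mem_univ e)
  have hs : MeasurableSet ((F : Set (Ev d)).pi t) :=
    MeasurableSet.pi F.countable_toSet fun e _ => hts e
  have hs' : MeasurableSet ((F' : Set (Ev d)).pi t') :=
    MeasurableSet.pi F'.countable_toSet fun e _ => hts' e
  have hUI : Measurable (fun ω : OmD d => UoI θ ω) :=
    measurable_pi_iff.mpr fun e => (measurable_Uo e).subtype_mk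
  have hφ : Measurable (fun ω : OmD d => (UoI θ ω, ω.2.2)) :=
    hUI.prodMk (measurable_snd.comp measurable_snd)
  rw [Measure.map_apply hφ (hs.prod hs')]
  set Q : Set (OmD d) := (fun ω : OmD d => (UoI θ ω, ω.2.2)) ⁻¹' ((F : Set (Ev d)).pi t ×ˢ (F' : Set (Ev d)).pi t')
    with hQ
  have hQm : MeasurableSet Q := hφ (hs.prod hs')
  -- test functions
  set f : Ev d → ℝ → ℝ := fun e => (Subtype.val '' t e).indicator (fun _ => (1 : ℝ)) with hf
  have hfm : ∀ e, Measurable (f e) := fun e =>
    measurable_const.indicator ((MeasurableEmbedding.subtype_coe measurableSet_Icc).measurableSet_image.mpr (hts e))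
  have hfb : ∀ e u, |f e u| ≤ 1 := by
    intro e u
    simp only [hf, Set.indicator]
    split_ifs <;> simp
  have hfI : ∀ e (u : unitInterval), f e u = (t e).indicator 1 u := by
    intro e u
    simp only [hf, Set.indicator]
    have : ((u : ℝ) ∈ Subtype.val '' t e) ↔ u ∈ t e := Subtype.val_injective.mem_set_image
    simp [this]
  set g : LabT d → ℝ := ((F' : Set (Ev d)).pi t').indicator (fun _ => (1 : ℝ)) with hg
  have hgm : Measurable g := measurable_const.indicator hs'
  have hgb : ∀ W, |g W| ≤ 1 := by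
    intro W
    simp only [hg, Set.indicator]
    split_ifs <;> simp
  have hmain := iid_prod_formula (θ := θ) h0 h1 f hfm hfb F g hgm hgb
  have hL : ∀ ω : OmD d, (∏ e ∈ F, f e (Uo θ ω e)) * g ω.2.2 = Q.indicator 1 ω := by
    intro ω
    have h1' : ∀ e, f e (Uo θ ω e) = if UoI θ ω e ∈ t e then 1 else 0 := by
      intro e
      have := hfI e (UoI θ ω e)
      change f e (Uo θ ω e) = _ at this
      rw [this]
      by_cases h : UoI θ ω e ∈ t e <;> simp [h]
    simp only [h1']
    rw [Finset.prod_ite_zero]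
    simp only [Finset.prod_const_one, hg, Set.indicator, Pi.one_apply, hQ]
    by_cases h2 : ∀ e ∈ F, UoI θ ω e ∈ t e <;> by_cases h3 : ω.2.2 ∈ (F' : Set (Ev d)).pi t' <;>
      simp [h2, h3, Set.mem_pi]
    all_goals simp_all [Set.mem_pi]
  have hLint : ∫ ω, (∏ e ∈ F, f e (Uo θ ω e)) * g ω.2.2 ∂(PD d θ) = (PD d θ).real Q := by
    rw [← integral_indicator_one hQm]
    exact integral_congr_ae (Eventually.of_forall hL)
  have hcI : ∀ e, ∫ u : unitInterval, f e u = (volume : Measure unitInterval).real (t e) := by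
    intro e
    rw [← integral_indicator_one (hts e)]
    exact integral_congr_ae (Eventually.of_forall (hfI e))
  have hgI : ∫ W, g W ∂(volE d) = (volE d).real ((F' : Set (Ev d)).pi t') := by
    have : g = ((F' : Set (Ev d)).pi t').indicator 1 := rfl
    rw [this, integral_indicator_one hs']
  rw [hLint, hgI] at hmain
  simp only [hcI] at hmain
  have hvol : volE d ((F : Set (Ev d)).pi t) = ∏ e ∈ F, (volume : Measure unitInterval) (t e) := by
    unfold volE
    exact Measure.infinitePi_pi _ (fun e _ => hts e)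
  have htr : (PD d θ Q).toReal =
      (volE d ((F : Set (Ev d)).pi t) * volE d ((F' : Set (Ev d)).pi t')).toReal := by
    rw [ENNReal.toReal_mul, hvol, ENNReal.toReal_prod]
    exact hmain
  exact (ENNReal.toReal_eq_toReal_iff' (measure_ne_top _ _)
    (ENNReal.mul_ne_top (measure_ne_top _ _) (measure_ne_top _ _))).mp htr

/-- The window of an event. -/
def inW (a b : ℝ) (e : Ev d) (W : LabT d) : Prop := actE e W ∧ a ≤ tE e W ∧ tE e W < b

open Classical in
/-- Palm formula for functions depending on the label of `e` only through the event that `e` has not yet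
occurred. `Φ s` must not change if `W e` is changed within `tE e W ≥ s`. -/
theorem palm_explicit (e : Ev d) {a b : ℝ} (ha : (e.2 : ℝ) ≤ a) (hb : b ≤ e.2 + 1) (hab : a ≤ b)
    {Φ : ℝ → OmD d → ℝ} (hΦ : Measurable (fun p : ℝ × OmD d => Φ p.1 p.2)) (hΦ0 : ∀ s ω, 0 ≤ Φ s ω)
    {B : ℝ} (hΦB : ∀ s ω, Φ s ω ≤ B)
    (hΦe : ∀ s (ω ω' : OmD d), ω.1 = ω'.1 → ω.2.1 = ω'.2.1 → (∀ e', e' ≠ e → ω.2.2 e' = ω'.2.2 e') →
      s ≤ tE e ω.2.2 → s ≤ tE e ω'.2.2 → Φ s ω = Φ s ω') {C : ℝ}
    (hC : ∀ s, a ≤ s → s < b → ∫ ω, Φ s ω ∂(PD d θ) ≤ C) :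
    ∫ ω, Set.indicator {ω : OmD d | inW a b e ω.2.2} (fun ω => Φ (tE e ω.2.2) ω) ω ∂(PD d θ) ≤ (b - a) * C :=
  palm_aux e ha hb hab hΦ hΦ0 hΦB hΦe hC

/-- A function measurable for a comap sigma algebra factors through the map. -/
lemma palm_comap_eq {α β : Type*} [MeasurableSpace β] {f : α → β} {Φ : α → ℝ}
    (h : Measurable[MeasurableSpace.comap f inferInstance] Φ) {x y : α} (hxy : f x = f y) : Φ x = Φ y := by
  obtain ⟨S, _, hpre⟩ := h (measurableSet_singleton (Φ x))
  have hx : x ∈ f ⁻¹' S := by rw [hpre]; rfl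
  have hy : y ∈ f ⁻¹' S := by
    change f y ∈ S
    rw [← hxy]
    exact hx
  rw [hpre] at hy
  exact hy.symm

omit [Corr θ] in
lemma Zo_congr {ω ω' : OmD d} (h1 : ω.1 = ω'.1) (h2 : ω.2.1 = ω'.2.1) (e : Ev d) : Zo ω e = Zo ω' e := by
  simp only [Zo, zh, h1, h2]

omit [Corr θ] in
/-- The stopped data at time `T` do not see the label of `e` while `e` has not occurred. -/
lemma Dd_label_indep (T : ℝ) (e : Ev d) {ω ω' : OmD d} (h1 : ω.1 = ω'.1) (h2 : ω.2.1 = ω'.2.1)
    (h3 : ∀ e', e' ≠ e → ω.2.2 e' = ω'.2.2 e') (h4 : T ≤ tE e ω.2.2) (h5 : T ≤ tE e ω'.2.2) :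
    Dd T ω = Dd T ω' := by
  classical
  funext e'
  by_cases he : e' = e
  · subst he
    have h6 : ¬ inA T e' ω.2.2 := fun h => absurd h.2 (not_lt.2 h4)
    have h7 : ¬ inA T e' ω'.2.2 := fun h => absurd h.2 (not_lt.2 h5)
    simp only [Dd, if_neg h6, if_neg h7, min_eq_right h4, min_eq_right h5]
  · have h8 : ω.2.2 e' = ω'.2.2 e' := h3 e' he
    have h9 : tE e' ω.2.2 = tE e' ω'.2.2 := by simp only [tE, h8]
    have h10 : inA T e' ω.2.2 ↔ inA T e' ω'.2.2 := by
      simp only [inA, actE, h9, h8]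
    simp only [Dd, h9, h10, Zo_congr h1 h2 e']

open Classical in
/-- Palm formula at the left end point for functions of the stopped data. -/
theorem palm_fixed (e : Ev d) {T b : ℝ} (ha : (e.2 : ℝ) ≤ T) (hb : b ≤ e.2 + 1) (hab : T ≤ b)
    {Φ : OmD d → ℝ} (hΦ : Measurable[FOs T] Φ) (hΦ0 : ∀ ω, 0 ≤ Φ ω) {B : ℝ} (hΦB : ∀ ω, Φ ω ≤ B) :
    ∫ ω, Set.indicator {ω : OmD d | inW T b e ω.2.2} Φ ω ∂(PD d θ) ≤ (b - T) * ∫ ω, Φ ω ∂(PD d θ) := by
  have hΦm : Measurable Φ := hΦ.mono (FOs_le T) le_rfl
  let Φ' : ℝ → OmD d → ℝ := fun s ω => if T ≤ s then Φ ω else 0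
  have hΦ'm : Measurable (fun p : ℝ × OmD d => Φ' p.1 p.2) :=
    Measurable.ite (measurableSet_le measurable_const measurable_fst) (hΦm.comp measurable_snd)
      measurable_const
  have hΦ'0 : ∀ s ω, 0 ≤ Φ' s ω := by
    intro s ω
    by_cases h : T ≤ s
    · simp only [Φ', if_pos h]; exact hΦ0 ω
    · simp only [Φ', if_neg h]; exact le_rfl
  have hΦ'B : ∀ s ω, Φ' s ω ≤ max B 0 := by
    intro s ω
    by_cases h : T ≤ s
    · simp only [Φ', if_pos h]; exact (hΦB ω).trans (le_max_left _ _)
    · simp only [Φ', if_neg h]; exact le_max_right _ _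
  have hΦ'e : ∀ s (ω ω' : OmD d), ω.1 = ω'.1 → ω.2.1 = ω'.2.1 →
      (∀ e', e' ≠ e → ω.2.2 e' = ω'.2.2 e') →
      s ≤ tE e ω.2.2 → s ≤ tE e ω'.2.2 → Φ' s ω = Φ' s ω' := by
    intro s ω ω' h1 h2 h3 h4 h5
    by_cases h : T ≤ s
    · simp only [Φ', if_pos h]
      exact palm_comap_eq hΦ (Dd_label_indep T e h1 h2 h3 (h.trans h4) (h.trans h5))
    · simp only [Φ', if_neg h]
  have hC : ∀ s, T ≤ s → s < b → ∫ ω, Φ' s ω ∂(PD d θ) ≤ ∫ ω, Φ ω ∂(PD d θ) := by
    intro s hs _
    simp only [Φ', if_pos hs]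
    exact le_rfl
  have key := palm_explicit (θ := θ) e ha hb hab hΦ'm hΦ'0 hΦ'B hΦ'e hC
  refine le_trans (le_of_eq ?_) key
  refine integral_congr_ae (Eventually.of_forall fun ω => ?_)
  by_cases hω : inW T b e ω.2.2
  · have hmem : ω ∈ {ω : OmD d | inW T b e ω.2.2} := hω
    rw [Set.indicator_of_mem hmem, Set.indicator_of_mem hmem]
    simp only [Φ', if_pos hω.2.1]
  · have hmem : ω ∉ {ω : OmD d | inW T b e ω.2.2} := hω
    rw [Set.indicator_of_notMem hmem, Set.indicator_of_notMem hmem]

omit [Corr θ] in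
/-- The explicit functions at a fixed time do not see the label of a later event. -/
lemma yS_label_indep (s : ℝ) (e : Ev d) {ω ω' : OmD d} (h1 : ω.1 = ω'.1) (h2 : ω.2.1 = ω'.2.1)
    (h3 : ∀ e', e' ≠ e → ω.2.2 e' = ω'.2.2 e') (h4 : s ≤ tE e ω.2.2) (h5 : s ≤ tE e ω'.2.2) :
    yS s ω = yS s ω' := by
  classical
  funext x
  unfold yS
  refine tsum_congr fun j => ?_
  by_cases he : (x, j) = e
  · subst he
    have h6 : ¬ inA s (x, j) ω.2.2 := fun h => absurd h.2 (not_lt.2 h4)
    have h7 : ¬ inA s (x, j) ω'.2.2 := fun h => absurd h.2 (not_lt.2 h5)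
    rw [if_neg h6, if_neg h7]
  · have h8 : ω.2.2 (x, j) = ω'.2.2 (x, j) := h3 _ he
    have h10 : inA s (x, j) ω.2.2 ↔ inA s (x, j) ω'.2.2 := by
      simp only [inA, actE, tE, h8]
    simp only [h10, Zo_congr h1 h2 (x, j)]

end Vale.Agent.Lib.P161B
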