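import Vale.Agent.Lib.P161B.EnergyBayes
import Vale.Agent.Lib.P161B.DynGL

/-!
The energy identity on a finite set of sites: for fixed labels the second moment of the posterior mean at the
root grows by the squared covariance at each event, computed exactly by one step of Bayes algebra.
-/

namespace Vale.Agent.Lib.P161B

open MeasureTheory ProbabilityTheory Filter Set
open Vale.Agent.Lib.P161
open scoped Topology

variable {d : ℕ} {θ : ℝ}

/-! ### Tilting the Gibbs measure at one site -/

/-- Add `c` to the field at the site `x`. -/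
def addAt (x : Word d) (c : ℝ) (y : Word d → ℝ) : Word d → ℝ := Function.update y x (y x + c)

lemma en_tilt_add {D : Finset (Word d)} {x : Word d} (hx : x ∈ D) (c : ℝ) (y : Word d → ℝ) (σ : Word d → Bool) :
    tiltE D (addAt x c y) σ = tiltE D y σ * Real.exp (sp (σ x) * c) := by
  unfold tiltE
  rw [← Real.exp_add]
  congr 1
  rw [← Finset.add_sum_erase D _ hx, ← Finset.add_sum_erase D (fun v => sp (σ v) * y v) hx]
  have h1 : ∑ v ∈ D.erase x, sp (σ v) * addAt x c y v = ∑ v ∈ D.erase x, sp (σ v) * y v := by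
    refine Finset.sum_congr rfl fun v hv => ?_
    have hne : v ≠ x := Finset.ne_of_mem_erase hv
    simp [addAt, Function.update_of_ne hne]
  rw [h1]
  simp only [addAt, Function.update_self]
  ring

lemma en_exp_sp (b : Bool) (c : ℝ) :
    Real.exp (sp b * c) = Real.cosh c * (1 + sp b * Real.tanh c) := by
  have hc := (Real.cosh_pos c).ne'
  rw [Real.tanh_eq_sinh_div_cosh]
  cases b with
  | false =>
    simp only [sp_false, one_mul]
    rw [mul_add, mul_one, mul_div_cancel₀ _ hc, Real.cosh_add_sinh]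
  | true =>
    simp only [sp_true]
    have e : (-1 : ℝ) * c = -c := by ring
    rw [e, ← Real.cosh_sub_sinh]
    field_simp
    ring

section Tilt

variable [Corr θ]

lemma en_ebZ_add {D : Finset (Word d)} {x : Word d} (hx : x ∈ D) (c : ℝ) (y : Word d → ℝ)
    {Φ : (Word d → Bool) → ℝ} (hΦ : Measurable Φ) {B : ℝ} (hB : ∀ σ, |Φ σ| ≤ B) :
    ebZ θ D Φ (addAt x c y) =
      Real.cosh c * (ebZ θ D Φ y + Real.tanh c * ebZ θ D (fun σ => Φ σ * sp (σ x)) y) := by
  unfold ebZ
  have h1 := eb_integrable_tilt (θ := θ) D y hΦ hB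
  have hsp : Measurable (fun σ : Word d → Bool => Φ σ * sp (σ x)) :=
    hΦ.mul (slf_measurable_sp.comp (measurable_pi_apply x))
  have h2 := eb_integrable_tilt (θ := θ) D y hsp (B := B) (fun _ => by
    rw [abs_mul, abs_sp, mul_one]; exact hB _)
  rw [← integral_const_mul (Real.tanh c), ← integral_add h1 (h2.const_mul _), ← integral_const_mul]
  refine integral_congr_ae (ae_of_all _ fun σ => ?_)
  simp only
  rw [en_tilt_add hx, en_exp_sp]
  ring

lemma en_abs_m (D : Finset (Word d)) (y : Word d → ℝ) (x : Word d) :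
    |gbE θ D y (fun σ => sp (σ x))| ≤ 1 :=
  eb_gbE_abs_le D y (slf_measurable_sp.comp (measurable_pi_apply x)) (B := 1) (fun σ => (abs_sp _).le)

/-- The effect of the tilt on `gbE`. -/
lemma en_gbE_add {D : Finset (Word d)} {x : Word d} (hx : x ∈ D) (c : ℝ) (y : Word d → ℝ)
    {Φ : (Word d → Bool) → ℝ} (hΦ : Measurable Φ) {B : ℝ} (hB : ∀ σ, |Φ σ| ≤ B) :
    gbE θ D (addAt x c y) Φ =
      (gbE θ D y Φ + Real.tanh c * gbE θ D y (fun σ => Φ σ * sp (σ x))) /
        (1 + Real.tanh c * gbE θ D y (fun σ => sp (σ x))) := by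
  rw [eb_gbE_eq, en_ebZ_add hx c y hΦ hB, en_ebZ_add hx c y measurable_const (B := 1) (by simp)]
  have hZ := ebZ_one_pos (θ := θ) D y
  have hc := (Real.cosh_pos c).ne'
  rw [eb_gbE_eq, eb_gbE_eq, eb_gbE_eq]
  simp only [one_mul]
  set Z := ebZ θ D (fun _ => (1 : ℝ)) y with hZdef
  have hne : Z ≠ 0 := hZ.ne'
  have hden : 1 + Real.tanh c * (ebZ θ D (fun σ => sp (σ x)) y / Z) ≠ 0 := by
    have hm := en_abs_m (θ := θ) D y x
    rw [eb_gbE_eq, ← hZdef] at hm
    have ht := Real.tanh_lt_one c
    have ht' := Real.neg_one_lt_tanh c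
    have h3 : |Real.tanh c * (ebZ θ D (fun σ => sp (σ x)) y / Z)| < 1 := by
      rw [abs_mul]
      have h4 : |Real.tanh c| < 1 := abs_lt.mpr ⟨ht', ht⟩
      calc |Real.tanh c| * |ebZ θ D (fun σ => sp (σ x)) y / Z| ≤ |Real.tanh c| * 1 :=
            mul_le_mul_of_nonneg_left hm (abs_nonneg _)
        _ < 1 := by linarith
    have h5 := (abs_lt.mp h3).1
    linarith
  have hden2 : Z + Real.tanh c * ebZ θ D (fun σ => sp (σ x)) y ≠ 0 := by
    intro h
    apply hden
    field_simp
    linarith
  field_simp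

/-- The magnetisation after the tilt, with `t = tanh c`. -/
lemma en_mD_add (hθ1 : θ < 1) {D : Finset (Word d)} {x : Word d} (hx : x ∈ D) (c : ℝ) (y : Word d → ℝ)
    (o : Word d) :
    mD θ D (addAt x c y) o =
      mD θ D y o + Real.tanh c * covD θ D y o x / (1 + Real.tanh c * mD θ D y x) := by
  have hmo : Measurable (fun σ : Word d → Bool => sp (σ o)) := slf_measurable_sp.comp (measurable_pi_apply o)
  rw [mD_eq_gbE hθ1, en_gbE_add hx c y hmo (B := 1) (fun σ => (abs_sp _).le)]
  unfold covD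
  rw [mD_eq_gbE hθ1 D y o, mD_eq_gbE hθ1 D y x]
  set mo := gbE θ D y (fun σ => sp (σ o))
  set mx := gbE θ D y (fun σ => sp (σ x))
  set pp := gbE θ D y (fun σ => sp (σ o) * sp (σ x))
  set t := Real.tanh c
  have ht := Real.tanh_lt_one c
  have ht' := Real.neg_one_lt_tanh c
  have hm := abs_le.mp (en_abs_m (θ := θ) D y x)
  have hden : 1 + t * mx ≠ 0 := by
    have hh : 0 < 1 + t * mx := by
      rcases le_total 0 t with h | h
      · nlinarith [hm.1, hm.2]
      · nlinarith [hm.1, hm.2]
    exact hh.ne'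
  field_simp
  ring

end Tilt

/-! ### The integral over one observation -/

lemma en_den_pos {κ m z : ℝ} (h0 : 0 ≤ κ) (hκ : κ ≤ 1 / 2) (hm : |m| ≤ 1) (hz : z ∈ Icc (-1 : ℝ) 1) :
    1 / 2 ≤ 1 + κ * m * z := by
  have h1 : |κ * m * z| ≤ 1 / 2 := by
    rw [abs_mul, abs_mul, abs_of_nonneg h0]
    have h2 : |z| ≤ 1 := abs_le.mpr ⟨hz.1, hz.2⟩
    have h3 : |m| * |z| ≤ 1 := by nlinarith [abs_nonneg m, abs_nonneg z]
    calc κ * |m| * |z| = κ * (|m| * |z|) := by ring
      _ ≤ 1 / 2 * 1 := mul_le_mul hκ h3 (by positivity) (by norm_num)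
      _ = 1 / 2 := by norm_num
  linarith [(abs_le.mp h1).1]

lemma en_int_lin (a : ℝ) : ∫ z in Icc (-1 : ℝ) 1, (1 + a * z) / 2 = 1 := by
  rw [integral_Icc_eq_integral_Ioc, ← intervalIntegral.integral_of_le (by norm_num)]
  rw [intervalIntegral.integral_div, intervalIntegral.integral_add (by simp)
    (Continuous.intervalIntegrable (by fun_prop) _ _), intervalIntegral.integral_const,
    intervalIntegral.integral_const_mul, integral_id]
  norm_num

lemma en_int_id : ∫ z in Icc (-1 : ℝ) 1, z = 0 := by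
  rw [integral_Icc_eq_integral_Ioc, ← intervalIntegral.integral_of_le (by norm_num), integral_id]
  norm_num

lemma en_measurable_gamK (κ : ℝ) : Measurable (fun m : ℝ => gamK κ m m) := by
  unfold gamK
  have hG := measurable_Gk κ
  have hF : Measurable (Function.uncurry (fun (m : ℝ) (u : unitInterval) => Gk κ m u * Gk κ m u)) := by
    have h1 : Measurable (fun p : ℝ × unitInterval => Gk κ p.1 (p.2 : ℝ)) :=
      hG.comp (measurable_fst.prodMk (measurable_subtype_coe.comp measurable_snd))
    exact h1.mul h1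
  exact hF.stronglyMeasurable.integral_prod_right.measurable

lemma en_gamK_nonneg (κ m : ℝ) : 0 ≤ gamK κ m m := by
  unfold gamK
  exact integral_nonneg fun u => mul_self_nonneg _

/-- The integral of the square of the updated mean against the law of the observation. -/
lemma en_integral_square {κ m : ℝ} (h0 : 0 ≤ κ) (hκ : κ ≤ 1 / 2) (hm : |m| ≤ 1) (A c : ℝ) :
    ∫ z in Icc (-1 : ℝ) 1, (A + κ * z * c / (1 + κ * z * m)) ^ 2 * ((1 + κ * m * z) / 2) =
      A ^ 2 + c ^ 2 * gamK κ m m := by
  have hkm : |κ * m| ≤ 1 / 2 := by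
    rw [abs_mul, abs_of_nonneg h0]
    nlinarith [abs_nonneg m]
  set J : ℝ → ℝ := fun z => (z / 2) * Gk κ m (cdfA (κ * m) z) with hJ
  have hJmeas : Measurable J := by
    have h2 : Measurable (fun z : ℝ => cdfA (κ * m) z) := by
      unfold cdfA; fun_prop
    have h3 : Measurable (fun z : ℝ => Gk κ m (cdfA (κ * m) z)) :=
      (measurable_Gk κ).comp (measurable_const.prodMk h2)
    exact (measurable_id.div_const 2).mul h3
  have hJbd : ∀ z ∈ Icc (-1 : ℝ) 1, ‖J z‖ ≤ 1 := by
    intro z hz
    rw [Real.norm_eq_abs, hJ]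
    simp only
    rw [abs_mul]
    have h1 := Gk_abs h0 hκ hm (cdfA_mem hkm hz)
    have hz2 : |z| ≤ 1 := abs_le.mpr ⟨hz.1, hz.2⟩
    have h2 : |z / 2| ≤ 1 / 2 := by
      rw [abs_div, abs_of_pos (by norm_num : (0 : ℝ) < 2)]
      linarith
    calc |z / 2| * |Gk κ m (cdfA (κ * m) z)| ≤ (1 / 2) * (2 * κ) :=
          mul_le_mul h2 h1 (abs_nonneg _) (by norm_num)
      _ ≤ 1 := by linarith
  have hJint : IntegrableOn J (Icc (-1 : ℝ) 1) := by
    refine Measure.integrableOn_of_bounded (M := 1) (by simp) hJmeas.aestronglyMeasurable ?_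
    exact (ae_restrict_iff' measurableSet_Icc).mpr (ae_of_all _ hJbd)
  have hgam := gamK_eq h0 hκ hm hm
  have hcongr : ∀ z ∈ Icc (-1 : ℝ) 1, (A + κ * z * c / (1 + κ * z * m)) ^ 2 * ((1 + κ * m * z) / 2) =
      A ^ 2 * ((1 + κ * m * z) / 2) + (A * c * κ) * z + (c ^ 2 * κ) * J z := by
    intro z hz
    have hd := en_den_pos h0 hκ hm hz
    have hne : 1 + κ * m * z ≠ 0 := by linarith
    have e1 : 1 + κ * z * m = 1 + κ * m * z := by ring
    simp only [hJ]
    rw [Gk_cdfA h0 hκ hm hz, e1]
    generalize 1 + κ * m * z = D at hne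
    field_simp
    ring
  rw [setIntegral_congr_fun measurableSet_Icc hcongr]
  have i1 : IntegrableOn (fun z : ℝ => A ^ 2 * ((1 + κ * m * z) / 2)) (Icc (-1 : ℝ) 1) :=
    (Continuous.integrableOn_Icc (by fun_prop))
  have i2 : IntegrableOn (fun z : ℝ => (A * c * κ) * z) (Icc (-1 : ℝ) 1) :=
    (Continuous.integrableOn_Icc (by fun_prop))
  have i3 : IntegrableOn (fun z : ℝ => (c ^ 2 * κ) * J z) (Icc (-1 : ℝ) 1) := hJint.const_mul _
  have i12 : IntegrableOn (fun z : ℝ => A ^ 2 * ((1 + κ * m * z) / 2) + (A * c * κ) * z) (Icc (-1 : ℝ) 1) :=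
    i1.add i2
  have e1 := integral_add (μ := volume.restrict (Icc (-1 : ℝ) 1)) i12 i3
  have e2 := integral_add (μ := volume.restrict (Icc (-1 : ℝ) 1)) i1 i2
  rw [e1, e2, integral_const_mul, integral_const_mul, integral_const_mul, en_int_lin, en_int_id, hgam]
  ring

/-! ### One observation -/

section OneObs

variable [Corr θ]

/-- The square of the magnetisation at `o` after adding `c` at `x`. -/
noncomputable def PsiC (θ : ℝ) (D : Finset (Word d)) (o x : Word d) (y : Word d → ℝ) (c : ℝ) : ℝ :=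
  mD θ D (addAt x c y) o ^ 2

lemma en_measurable_addAt (x : Word d) :
    Measurable (fun p : (Word d → ℝ) × ℝ => addAt x p.2 p.1) := by
  refine measurable_pi_iff.mpr fun v => ?_
  by_cases h : v = x
  · subst h
    simp only [addAt, Function.update_self]
    exact ((measurable_pi_apply v).comp measurable_fst).add measurable_snd
  · simp only [addAt, Function.update_of_ne h]
    exact (measurable_pi_apply v).comp measurable_fst

lemma en_measurable_tanh : Measurable Real.tanh := Nish_aux_measurable_tanh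

lemma en_measurable_mD (D : Finset (Word d)) (o : Word d) :
    Measurable (fun y : Word d → ℝ => mD θ D y o) :=
  en_measurable_tanh.comp (measurable_hf θ D o)

lemma en_measurable_PsiC (D : Finset (Word d)) (o x : Word d) :
    Measurable (fun p : (Word d → ℝ) × ℝ => PsiC θ D o x p.1 p.2) := by
  unfold PsiC
  exact ((en_measurable_mD D o).comp (en_measurable_addAt x)).pow_const 2

omit [Corr θ] in
lemma en_abs_mD (D : Finset (Word d)) (y : Word d → ℝ) (o : Word d) : |mD θ D y o| ≤ 1 := by
  unfold mD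
  rw [abs_le]
  exact ⟨(Real.neg_one_lt_tanh _).le, (Real.tanh_lt_one _).le⟩

omit [Corr θ] in
lemma en_PsiC_bounds (D : Finset (Word d)) (o x : Word d) (y : Word d → ℝ) (c : ℝ) :
    0 ≤ PsiC θ D o x y c ∧ PsiC θ D o x y c ≤ 1 := by
  unfold PsiC
  have h := abs_le.mp (en_abs_mD (θ := θ) D (addAt x c y) o)
  constructor
  · positivity
  · nlinarith [h.1, h.2]

/-- The part of the integral which does not see the spin. -/
noncomputable def enK (θ : ℝ) (D : Finset (Word d)) (o x : Word d) (κ : ℝ) (y : Word d → ℝ) : ℝ :=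
  ∫ z in Icc (-1 : ℝ) 1, PsiC θ D o x y (Real.artanh (κ * z)) * (1 / 2)

/-- The part of the integral which is linear in the spin. -/
noncomputable def enL (θ : ℝ) (D : Finset (Word d)) (o x : Word d) (κ : ℝ) (y : Word d → ℝ) : ℝ :=
  ∫ z in Icc (-1 : ℝ) 1, PsiC θ D o x y (Real.artanh (κ * z)) * (κ * z / 2)

lemma en_measurable_PsiArt (D : Finset (Word d)) (o x : Word d) (κ : ℝ) :
    Measurable (fun p : (Word d → ℝ) × ℝ => PsiC θ D o x p.1 (Real.artanh (κ * p.2))) := by
  have h1 : Measurable (fun p : (Word d → ℝ) × ℝ => Real.artanh (κ * p.2)) := by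
    have h2 : Measurable (fun p : (Word d → ℝ) × ℝ => κ * p.2) := by fun_prop
    exact eb_measurable_artanh.comp h2
  have h3 : Measurable (fun p : (Word d → ℝ) × ℝ => (p.1, Real.artanh (κ * p.2))) :=
    measurable_fst.prodMk h1
  have h4 := (en_measurable_PsiC (θ := θ) D o x).comp h3
  exact h4

lemma en_measurable_K (D : Finset (Word d)) (o x : Word d) (κ : ℝ) :
    Measurable (enK θ D o x κ) := by
  unfold enK
  have hF : Measurable (Function.uncurry (fun (y : Word d → ℝ) (z : ℝ) =>
      PsiC θ D o x y (Real.artanh (κ * z)) * (1 / 2))) :=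
    (en_measurable_PsiArt D o x κ).mul_const _
  exact hF.stronglyMeasurable.integral_prod_right.measurable

lemma en_measurable_L (D : Finset (Word d)) (o x : Word d) (κ : ℝ) :
    Measurable (enL θ D o x κ) := by
  unfold enL
  have hF : Measurable (Function.uncurry (fun (y : Word d → ℝ) (z : ℝ) =>
      PsiC θ D o x y (Real.artanh (κ * z)) * (κ * z / 2))) :=
    (en_measurable_PsiArt D o x κ).mul (by fun_prop)
  exact hF.stronglyMeasurable.integral_prod_right.measurable

omit [Corr θ] in
lemma en_L_abs (D : Finset (Word d)) (o x : Word d) {κ : ℝ} (h0 : 0 ≤ κ) (hκ : κ ≤ 1 / 2) (y : Word d → ℝ) :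
    |enL θ D o x κ y| ≤ 2 := by
  unfold enL
  have h1 : ∀ z ∈ Icc (-1 : ℝ) 1, ‖PsiC θ D o x y (Real.artanh (κ * z)) * (κ * z / 2)‖ ≤ 1 := by
    intro z hz
    rw [Real.norm_eq_abs, abs_mul]
    obtain ⟨h2, h3⟩ := en_PsiC_bounds (θ := θ) D o x y (Real.artanh (κ * z))
    rw [abs_of_nonneg h2]
    obtain ⟨h4, h5⟩ := eb_mul_mem h0 hκ hz
    have h6 : |κ * z / 2| ≤ 1 := by
      rw [abs_le]
      constructor <;> linarith
    calc _ ≤ 1 * 1 := mul_le_mul h3 h6 (abs_nonneg _) (by norm_num)
      _ = 1 := by norm_num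
  have h2 := norm_setIntegral_le_of_norm_le_const (μ := volume) (s := Icc (-1 : ℝ) 1) (C := 1)
    (by simp) h1
  rw [Real.norm_eq_abs] at h2
  refine h2.trans ?_
  simp
  norm_num

lemma en_int_PsiArt (D : Finset (Word d)) (o x : Word d) {κ : ℝ} (y : Word d → ℝ) {g : ℝ → ℝ} (hg : Measurable g)
    {C : ℝ} (hC : ∀ z ∈ Icc (-1 : ℝ) 1, |g z| ≤ C) :
    IntegrableOn (fun z => PsiC θ D o x y (Real.artanh (κ * z)) * g z) (Icc (-1 : ℝ) 1) := by
  have hm : Measurable (fun z : ℝ => PsiC θ D o x y (Real.artanh (κ * z)) * g z) := by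
    have h3 : Measurable (fun z : ℝ => ((y, z) : (Word d → ℝ) × ℝ)) := measurable_const.prodMk measurable_id
    have h4 := (en_measurable_PsiArt (θ := θ) D o x κ).comp h3
    exact Measurable.mul h4 hg
  refine Measure.integrableOn_of_bounded (M := |C|) (by simp) hm.aestronglyMeasurable ?_
  refine (ae_restrict_iff' measurableSet_Icc).mpr (ae_of_all _ fun z hz => ?_)
  rw [Real.norm_eq_abs, abs_mul]
  obtain ⟨h2, h3⟩ := en_PsiC_bounds (θ := θ) D o x y (Real.artanh (κ * z))
  rw [abs_of_nonneg h2]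
  calc _ ≤ 1 * |C| := mul_le_mul h3 ((hC z hz).trans (le_abs_self _)) (abs_nonneg _) (by norm_num)
    _ = |C| := by ring

/-- The integral over the noise of one observation, in terms of the spin. -/
lemma en_obs_integral (D : Finset (Word d)) (o x : Word d) {κ : ℝ} (h0 : 0 ≤ κ) (hκ : κ ≤ 1 / 2) (b : Bool)
    (y : Word d → ℝ) :
    ∫ v : unitInterval, PsiC θ D o x y (Real.artanh (κ * (sp b * quant κ v))) =
      enK θ D o x κ y + sp b * enL θ D o x κ y := by
  have hκa : |κ| ≤ 1 / 2 := by rwa [abs_of_nonneg h0]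
  have hf : Measurable (fun z : ℝ => PsiC θ D o x y (Real.artanh (κ * (sp b * z)))) := by
    have h1 : Measurable (fun z : ℝ => Real.artanh (κ * (sp b * z))) := by
      have h2 : Measurable (fun z : ℝ => κ * (sp b * z)) := by fun_prop
      exact eb_measurable_artanh.comp h2
    have h3 : Measurable (fun z : ℝ => (y, Real.artanh (κ * (sp b * z)))) := measurable_const.prodMk h1
    have h4 := (en_measurable_PsiC (θ := θ) D o x).comp h3
    exact h4
  have h1 := integral_quant hκa hf (C := 1) (fun z _ => by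
    obtain ⟨h2, h3⟩ := en_PsiC_bounds (θ := θ) D o x y (Real.artanh (κ * (sp b * z)))
    rwa [abs_of_nonneg h2])
  rw [h1]
  have i1 := en_int_PsiArt (θ := θ) D o x (κ := κ) y (g := fun _ => (1 / 2 : ℝ)) measurable_const (C := 1 / 2)
    (fun z _ => by norm_num)
  have i2 := en_int_PsiArt (θ := θ) D o x (κ := κ) y (g := fun z => κ * z / 2)
    (by fun_prop) (C := 1 / 4) (fun z hz => by
      obtain ⟨h4, h5⟩ := eb_mul_mem h0 hκ hz
      rw [abs_le]
      constructor <;> linarith)
  unfold enK enL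
  cases b with
  | false =>
    simp only [sp_false, one_mul]
    rw [← integral_add i1 i2]
    refine setIntegral_congr_fun measurableSet_Icc fun z _ => ?_
    ring
  | true =>
    simp only [sp_true]
    have e : (-1 : ℝ) * ∫ z in Icc (-1 : ℝ) 1, PsiC θ D o x y (Real.artanh (κ * z)) * (κ * z / 2) =
        ∫ z in Icc (-1 : ℝ) 1, PsiC θ D o x y (Real.artanh (κ * z)) * -(κ * z / 2) := by
      rw [← integral_const_mul]
      refine setIntegral_congr_fun measurableSet_Icc fun z _ => ?_
      ring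
    have i3 := en_int_PsiArt (θ := θ) D o x (κ := κ) y (g := fun z => -(κ * z / 2))
      (by fun_prop) (C := 1 / 4) (fun z hz => by
        obtain ⟨h4, h5⟩ := eb_mul_mem h0 hκ hz
        rw [abs_le]
        constructor <;> linarith)
    rw [e, ← integral_add i1 i3]
    rw [← eb_reflect (fun z => PsiC θ D o x y (Real.artanh (κ * z)) * (1 / 2) +
      PsiC θ D o x y (Real.artanh (κ * z)) * -(κ * z / 2))]
    refine setIntegral_congr_fun measurableSet_Icc fun z _ => ?_
    have e2 : κ * (-1 * z) = κ * -z := by ring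
    rw [e2]
    ring

/-- The pointwise algebra: after replacing the spin by the magnetisation the integral is exact. -/
lemma en_KL (hθ1 : θ < 1) {D : Finset (Word d)} {x : Word d} (hx : x ∈ D) (o : Word d) {κ : ℝ} (h0 : 0 ≤ κ)
    (hκ : κ ≤ 1 / 2) (y : Word d → ℝ) :
    enK θ D o x κ y + mD θ D y x * enL θ D o x κ y =
      mD θ D y o ^ 2 + covD θ D y o x ^ 2 * gamK κ (mD θ D y x) (mD θ D y x) := by
  set m := mD θ D y x with hm
  have hmabs : |m| ≤ 1 := en_abs_mD D y x
  rw [← en_integral_square h0 hκ hmabs]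
  have i1 := en_int_PsiArt (θ := θ) D o x (κ := κ) y (g := fun _ => (1 / 2 : ℝ)) measurable_const (C := 1 / 2)
    (fun z _ => by norm_num)
  have i2 := en_int_PsiArt (θ := θ) D o x (κ := κ) y (g := fun z => κ * z / 2)
    (by fun_prop) (C := 1 / 4) (fun z hz => by
      obtain ⟨h4, h5⟩ := eb_mul_mem h0 hκ hz
      rw [abs_le]
      constructor <;> linarith)
  unfold enK enL
  rw [← integral_const_mul, ← integral_add i1 (i2.const_mul m)]
  refine setIntegral_congr_fun measurableSet_Icc fun z hz => ?_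
  obtain ⟨h4, h5⟩ := eb_mul_mem h0 hκ hz
  have htanh : Real.tanh (Real.artanh (κ * z)) = κ * z :=
    Real.tanh_artanh ⟨by linarith, by linarith⟩
  unfold PsiC
  rw [en_mD_add hθ1 hx, htanh, ← hm]
  ring

end OneObs

/-! ### One event for fixed labels -/

section OneStep

variable [Corr θ]

/-- The law of the spins and the noise variables. -/
noncomputable abbrev PW (d : ℕ) (θ : ℝ) : Measure ((Word d → Bool) × LabT d) := (isingLaw d θ).prod (volE d)

/-- The field at time `s` with fixed labels. -/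
noncomputable abbrev yW (s : ℝ) (W : LabT d) (p : (Word d → Bool) × LabT d) : Word d → ℝ := yS s (p.1, p.2, W)

lemma en_measurable_yW (s : ℝ) (W : LabT d) : Measurable (yW (d := d) s W) := by
  have h : Measurable (fun p : (Word d → Bool) × LabT d => ((p.1, p.2, W) : OmD d)) :=
    measurable_fst.prodMk (measurable_snd.prodMk measurable_const)
  exact (measurable_yS' s).comp h

omit [Corr θ] in
lemma en_tE_not_inA (e : Ev d) (W : LabT d) : ¬ inA (tE e W) e W := by
  intro h
  exact lt_irrefl _ h.2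

omit [Corr θ] in
/-- The field before an event does not depend on the noise of this event. -/
lemma en_yW_update (e : Ev d) (W : LabT d) (σ : Word d → Bool) (V : LabT d) (v : unitInterval) :
    yW (tE e W) W (σ, Function.update V e v) = yW (tE e W) W (σ, V) := by
  funext x'
  simp only [yW, yS]
  refine tsum_congr fun j' => ?_
  by_cases h : (x', j') = e
  · subst h
    simp [en_tE_not_inA]
  · have hZ : Zo (σ, Function.update V e v, W) (x', j') = Zo (σ, V, W) (x', j') := by
      simp [Zo, zh, Function.update_of_ne h]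
    simp only [hZ]

omit [Corr θ] in
lemma en_Zo_update (e : Ev d) (W : LabT d) (σ : Word d → Bool) (V : LabT d) (v : unitInterval) :
    Zo (σ, Function.update V e v, W) e = sp (σ e.1) * quant (kp e.2) v := by
  simp [Zo, zh]

omit [Corr θ] in
lemma en_measurable_Zo (e : Ev d) (W : LabT d) :
    Measurable (fun p : (Word d → Bool) × LabT d => Zo (p.1, p.2, W) e) := by
  have h1 : Measurable (fun p : (Word d → Bool) × LabT d => sp (p.1 e.1)) :=
    slf_measurable_sp.comp ((measurable_pi_apply e.1).comp measurable_fst)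
  have h2 : Measurable (fun p : (Word d → Bool) × LabT d => quant (kp e.2) (p.2 e)) := by
    have h3 : Measurable (fun p : (Word d → Bool) × LabT d => ((kp e.2, (p.2 e : ℝ)) : ℝ × ℝ)) :=
      measurable_const.prodMk (measurable_subtype_coe.comp ((measurable_pi_apply e).comp measurable_snd))
    have h4 := measurable_quant.comp h3
    exact h4
  exact h1.mul h2

omit [Corr θ] in
lemma en_dep_L (D : Finset (Word d)) (o x : Word d) (κ : ℝ) :
    DependsOn (enL θ D o x κ) (D : Set (Word d)) := by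
  intro y y' h
  unfold enL
  refine setIntegral_congr_fun measurableSet_Icc fun z _ => ?_
  congr 1
  unfold PsiC mD
  congr 2
  apply hf_congr
  intro v hv
  by_cases hvx : v = x
  · subst hvx
    simp [addAt, h v hv]
  · simp [addAt, Function.update_of_ne hvx, h v hv]

/-- One event for fixed labels: the exact computation. -/
theorem en_one_step (hθ1 : θ < 1) (W : LabT d) {D : Finset (Word d)} {x : Word d} (hx : x ∈ D) (o : Word d) (j : ℤ) :
    ∫ p, PsiC θ D o x (yW (tE (x, j) W) W p) (Real.artanh (kp j * Zo (p.1, p.2, W) (x, j))) ∂(PW d θ) =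
      ∫ p, (mD θ D (yW (tE (x, j) W) W p) o ^ 2 + covD θ D (yW (tE (x, j) W) W p) o x ^ 2 *
        gamK (kp j) (mD θ D (yW (tE (x, j) W) W p) x) (mD θ D (yW (tE (x, j) W) W p) x)) ∂(PW d θ) := by
  set s := tE (x, j) W with hs
  set e : Ev d := (x, j) with he
  set κ := kp j with hκ
  have h0 : 0 ≤ κ := (kp_pos j).le
  have h1 : κ ≤ 1 / 2 := kp_le j
  have hy := en_measurable_yW (d := d) s W
  -- the left integrand
  let G : (Word d → Bool) × LabT d → ℝ := fun p =>
    PsiC θ D o x (yW s W p) (Real.artanh (κ * Zo (p.1, p.2, W) e))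
  have hGm : Measurable G := by
    have h2 : Measurable (fun p : (Word d → Bool) × LabT d => Real.artanh (κ * Zo (p.1, p.2, W) e)) := by
      have h3 : Measurable (fun p : (Word d → Bool) × LabT d => κ * Zo (p.1, p.2, W) e) :=
        Measurable.const_mul (en_measurable_Zo e W) κ
      exact eb_measurable_artanh.comp h3
    have h4 := (en_measurable_PsiC (θ := θ) D o x).comp (hy.prodMk h2)
    exact h4
  have hGb : ∀ p, ‖G p‖ ≤ 1 := by
    intro p
    obtain ⟨h2, h3⟩ := en_PsiC_bounds (θ := θ) D o x (yW s W p) (Real.artanh (κ * Zo (p.1, p.2, W) e))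
    rw [Real.norm_of_nonneg h2]
    exact h3
  have hGint : Integrable G (PW d θ) :=
    Integrable.of_bound hGm.aestronglyMeasurable 1 (ae_of_all _ hGb)
  have hKm := en_measurable_K (θ := θ) D o x κ
  have hLm := en_measurable_L (θ := θ) D o x κ
  have hLb := en_L_abs (θ := θ) D o x h0 h1
  have hKb : ∀ y, |enK θ D o x κ y| ≤ 1 := by
    intro y
    unfold enK
    have h2 : ∀ z ∈ Icc (-1 : ℝ) 1, ‖PsiC θ D o x y (Real.artanh (κ * z)) * (1 / 2)‖ ≤ 1 / 2 := by
      intro z _
      rw [Real.norm_eq_abs, abs_mul]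
      obtain ⟨h3, h4⟩ := en_PsiC_bounds (θ := θ) D o x y (Real.artanh (κ * z))
      rw [abs_of_nonneg h3, abs_of_pos (by norm_num : (0 : ℝ) < 1 / 2)]
      nlinarith
    have h3 := norm_setIntegral_le_of_norm_le_const (μ := volume) (s := Icc (-1 : ℝ) 1) (C := 1 / 2)
      (by simp) h2
    rw [Real.norm_eq_abs] at h3
    refine h3.trans ?_
    simp
    norm_num
  -- the integral over the noise of the event
  have key : ∀ σ : Word d → Bool, ∫ V, G (σ, V) ∂(volE d) =
      ∫ V, (enK θ D o x κ (yW s W (σ, V)) + sp (σ x) * enL θ D o x κ (yW s W (σ, V))) ∂(volE d) := by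
    intro σ
    have hint : Integrable (fun V => G (σ, V)) (volE d) := by
      refine Integrable.of_bound (C := 1) ?_ (ae_of_all _ fun V => hGb _)
      exact (hGm.comp (measurable_const.prodMk measurable_id)).aestronglyMeasurable
    rw [eb_fubini e hint]
    refine integral_congr_ae (ae_of_all _ fun V => ?_)
    simp only
    have e1 : ∀ v : unitInterval, G (σ, Function.update V e v) =
        PsiC θ D o x (yW s W (σ, V)) (Real.artanh (κ * (sp (σ x) * quant κ v))) := by
      intro v
      simp only [G]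
      rw [en_Zo_update, hs, en_yW_update]
    simp_rw [e1]
    exact en_obs_integral D o x h0 h1 (σ x) _
  let H : (Word d → Bool) × LabT d → ℝ := fun p =>
    enK θ D o x κ (yW s W p) + sp (p.1 x) * enL θ D o x κ (yW s W p)
  have hsx : Measurable (fun σ : Word d → Bool => sp (σ x)) := slf_measurable_sp.comp (measurable_pi_apply x)
  have hHint1 : Integrable (fun p => enK θ D o x κ (yW s W p)) (PW d θ) :=
    Integrable.of_bound (hKm.comp hy).aestronglyMeasurable 1 (ae_of_all _ fun p => hKb _)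
  have hHint2 : Integrable (fun p : (Word d → Bool) × LabT d => sp (p.1 x) * enL θ D o x κ (yW s W p)) (PW d θ) := by
    refine Integrable.of_bound (((hsx.comp measurable_fst).mul (hLm.comp hy)).aestronglyMeasurable) 2
      (ae_of_all _ fun p => ?_)
    rw [Real.norm_eq_abs, abs_mul, abs_sp, one_mul]
    exact hLb _
  have hHint : Integrable H (PW d θ) := hHint1.add hHint2
  have hLHS : ∫ p, G p ∂(PW d θ) = ∫ p, H p ∂(PW d θ) := by
    rw [integral_prod _ hGint, integral_prod _ hHint]
    refine integral_congr_ae (ae_of_all _ fun σ => ?_)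
    exact key σ
  have hb := gl_bayes_yS (θ := θ) s W D (Φ := fun σ => sp (σ x)) hsx (fun σ => (abs_sp _).le)
    (f := enL θ D o x κ) hLm hLb (en_dep_L D o x κ)
  have hmgb : ∀ y : Word d → ℝ, gbE θ D y (fun σ => sp (σ x)) = mD θ D y x := fun y =>
    (mD_eq_gbE hθ1 D y x).symm
  simp_rw [hmgb] at hb
  have hint3 : Integrable (fun p => mD θ D (yW s W p) x * enL θ D o x κ (yW s W p)) (PW d θ) := by
    refine Integrable.of_bound
      ((((en_measurable_mD (θ := θ) D x).comp hy).mul (hLm.comp hy)).aestronglyMeasurable) 2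
      (ae_of_all _ fun p => ?_)
    rw [Real.norm_eq_abs, abs_mul]
    calc _ ≤ 1 * 2 := mul_le_mul (en_abs_mD _ _ _) (hLb _) (abs_nonneg _) (by norm_num)
      _ = 2 := by norm_num
  calc ∫ p, PsiC θ D o x (yW s W p) (Real.artanh (κ * Zo (p.1, p.2, W) e)) ∂(PW d θ)
      = ∫ p, H p ∂(PW d θ) := hLHS
    _ = ∫ p, enK θ D o x κ (yW s W p) ∂(PW d θ) +
          ∫ p, sp (p.1 x) * enL θ D o x κ (yW s W p) ∂(PW d θ) := integral_add hHint1 hHint2
    _ = ∫ p, enK θ D o x κ (yW s W p) ∂(PW d θ) +
          ∫ p, mD θ D (yW s W p) x * enL θ D o x κ (yW s W p) ∂(PW d θ) := by rw [hb]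
    _ = ∫ p, (enK θ D o x κ (yW s W p) + mD θ D (yW s W p) x * enL θ D o x κ (yW s W p)) ∂(PW d θ) :=
        (integral_add hHint1 hint3).symm
    _ = _ := by
        refine integral_congr_ae (ae_of_all _ fun p => ?_)
        exact en_KL hθ1 hx o h0 h1 _

/-! ### The field between two times -/

omit [Corr θ] in
lemma en_Zo_mem (ω : OmD d) (e : Ev d) : Zo ω e ∈ Icc (-1 : ℝ) 1 := by
  have h := quant_mem (eb_kp_abs e.2) (ω.2.1 e).2
  unfold Zo zh
  cases h2 : ω.1 e.1 with
  | false =>
    simpa using h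
  | true =>
    simp only [sp_true]
    constructor <;> linarith [h.1, h.2]

omit [Corr θ] in
lemma en_artanh_kp_nonneg (j : ℤ) : 0 ≤ Real.artanh (kp j) := Real.artanh_nonneg (kp_pos j).le

open Classical in
omit [Corr θ] in
lemma en_term_bound (s : ℝ) (ω : OmD d) (x : Word d) (j' : ℤ) :
    ‖(if inA s (x, j') ω.2.2 then Real.artanh (kp j' * Zo ω (x, j')) else 0 : ℝ)‖ ≤
      if (j' : ℝ) < s then Real.artanh (kp j') else 0 := by
  by_cases h : inA s (x, j') ω.2.2
  · have hlt : (j' : ℝ) < s := by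
      have h2 := h.2
      unfold tE at h2
      have h3 := (ω.2.2 (x, j')).2.1
      simp only at h2
      linarith
    simp only [h, if_true, hlt]
    rw [Real.norm_eq_abs]
    exact eb_artanh_abs (kp_pos j').le (kp_le j') (en_Zo_mem ω _)
  · simp only [h, if_false, norm_zero]
    split_ifs
    · exact en_artanh_kp_nonneg j'
    · exact le_rfl

open Classical in
omit [Corr θ] in
lemma en_summable (s : ℝ) (ω : OmD d) (x : Word d) :
    Summable (fun j' : ℤ => (if inA s (x, j') ω.2.2 then Real.artanh (kp j' * Zo ω (x, j')) else 0 : ℝ)) :=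
  Summable.of_norm_bounded (summable_artanh s) (en_term_bound s ω x)

open Classical in
omit [Corr θ] in
/-- The field at a later time in the same block: at most one more observation. -/
lemma en_yS_diff {j : ℤ} {t' t : ℝ} (h1 : (j : ℝ) ≤ t') (h2 : t' ≤ t) (h3 : t ≤ j + 1) (ω : OmD d) (x : Word d) :
    yS t ω x = yS t' ω x + if inW t' t (x, j) ω.2.2 then Real.artanh (kp j * Zo ω (x, j)) else 0 := by
  have hs := en_summable t ω x
  have hs' := en_summable t' ω x
  have hdiff : yS t ω x - yS t' ω x =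
      ∑' j' : ℤ, ((if inA t (x, j') ω.2.2 then Real.artanh (kp j' * Zo ω (x, j')) else 0) -
        (if inA t' (x, j') ω.2.2 then Real.artanh (kp j' * Zo ω (x, j')) else 0) : ℝ) := by
    unfold yS
    rw [hs.tsum_sub hs']
  have hsingle : ∑' j' : ℤ, ((if inA t (x, j') ω.2.2 then Real.artanh (kp j' * Zo ω (x, j')) else 0) -
        (if inA t' (x, j') ω.2.2 then Real.artanh (kp j' * Zo ω (x, j')) else 0) : ℝ) =
      ((if inA t (x, j) ω.2.2 then Real.artanh (kp j * Zo ω (x, j)) else 0) -
        (if inA t' (x, j) ω.2.2 then Real.artanh (kp j * Zo ω (x, j)) else 0) : ℝ) := by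
    refine tsum_eq_single j fun j' hj' => ?_
    have hW0 := (ω.2.2 (x, j')).2.1
    have hiff : inA t (x, j') ω.2.2 ↔ inA t' (x, j') ω.2.2 := by
      unfold inA actE tE
      simp only
      rcases lt_or_gt_of_ne hj' with hlt | hgt
      · have h4 : (j' : ℝ) + 1 ≤ j := by exact_mod_cast hlt
        constructor
        · rintro ⟨ha, _⟩
          exact ⟨ha, by linarith⟩
        · rintro ⟨ha, hb⟩
          exact ⟨ha, by linarith⟩
      · have h4 : (j : ℝ) + 1 ≤ j' := by exact_mod_cast hgt
        constructor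
        · rintro ⟨_, hb⟩
          exfalso
          linarith
        · rintro ⟨_, hb⟩
          exfalso
          linarith
    simp only [hiff, sub_self]
  have hval : ((if inA t (x, j) ω.2.2 then Real.artanh (kp j * Zo ω (x, j)) else 0) -
        (if inA t' (x, j) ω.2.2 then Real.artanh (kp j * Zo ω (x, j)) else 0) : ℝ) =
      if inW t' t (x, j) ω.2.2 then Real.artanh (kp j * Zo ω (x, j)) else 0 := by
    by_cases hact : actE (x, j) ω.2.2
    · by_cases hlt : tE (x, j) ω.2.2 < t'
      · have hA : inA t' (x, j) ω.2.2 := ⟨hact, hlt⟩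
        have hB : inA t (x, j) ω.2.2 := ⟨hact, lt_of_lt_of_le hlt h2⟩
        have hC : ¬ inW t' t (x, j) ω.2.2 := fun h => absurd h.2.1 (not_le.mpr hlt)
        simp [hA, hB, hC]
      · have hA : ¬ inA t' (x, j) ω.2.2 := fun h => hlt h.2
        by_cases hlt2 : tE (x, j) ω.2.2 < t
        · have hB : inA t (x, j) ω.2.2 := ⟨hact, hlt2⟩
          have hC : inW t' t (x, j) ω.2.2 := ⟨hact, not_lt.mp hlt, hlt2⟩
          simp [hA, hB, hC]
        · have hB : ¬ inA t (x, j) ω.2.2 := fun h => hlt2 h.2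
          have hC : ¬ inW t' t (x, j) ω.2.2 := fun h => hlt2 h.2.2
          simp [hA, hB, hC]
    · have hA : ¬ inA t' (x, j) ω.2.2 := fun h => hact h.1
      have hB : ¬ inA t (x, j) ω.2.2 := fun h => hact h.1
      have hC : ¬ inW t' t (x, j) ω.2.2 := fun h => hact h.1
      simp [hA, hB, hC]
  rw [← hval, ← hsingle, ← hdiff]
  ring

/-! ### Telescoping for fixed labels -/

/-- The second moment of the magnetisation at time `t` for fixed labels. -/
noncomputable def phiW (θ : ℝ) (D : Finset (Word d)) (o : Word d) (W : LabT d) (t : ℝ) : ℝ :=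
  ∫ p, mD θ D (yW t W p) o ^ 2 ∂(PW d θ)

/-- The integrand of the rate. -/
noncomputable def rI (θ : ℝ) (D : Finset (Word d)) (o x : Word d) (κ : ℝ) (y : Word d → ℝ) : ℝ :=
  covD θ D y o x ^ 2 * gamK κ (mD θ D y x) (mD θ D y x)

/-- The rate at one event for fixed labels. -/
noncomputable def rW (θ : ℝ) (D : Finset (Word d)) (o : Word d) (j : ℤ) (W : LabT d) (x : Word d) : ℝ :=
  ∫ p, rI θ D o x (kp j) (yW (tE (x, j) W) W p) ∂(PW d θ)

lemma en_measurable_covD (D : Finset (Word d)) (o x : Word d) :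
    Measurable (fun y : Word d → ℝ => covD θ D y o x) := by
  unfold covD
  have hΦ : Measurable (fun σ : Word d → Bool => sp (σ o) * sp (σ x)) :=
    (slf_measurable_sp.comp (measurable_pi_apply o)).mul (slf_measurable_sp.comp (measurable_pi_apply x))
  exact (eb_gbE_measurable D hΦ).sub ((en_measurable_mD D o).mul (en_measurable_mD D x))

lemma en_abs_covD (D : Finset (Word d)) (y : Word d → ℝ) (o x : Word d) : |covD θ D y o x| ≤ 2 := by
  unfold covD
  have hΦ : Measurable (fun σ : Word d → Bool => sp (σ o) * sp (σ x)) :=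
    (slf_measurable_sp.comp (measurable_pi_apply o)).mul (slf_measurable_sp.comp (measurable_pi_apply x))
  have h1 := eb_gbE_abs_le (θ := θ) D y hΦ (B := 1) (fun σ => by
    rw [abs_mul, abs_sp, abs_sp, one_mul])
  have h2 : |mD θ D y o * mD θ D y x| ≤ 1 := by
    rw [abs_mul]
    calc _ ≤ (1 : ℝ) * 1 := mul_le_mul (en_abs_mD _ _ _) (en_abs_mD _ _ _) (abs_nonneg _) (by norm_num)
      _ = 1 := by norm_num
  refine (abs_sub _ _).trans ?_
  linarith

lemma en_measurable_rI (D : Finset (Word d)) (o x : Word d) (κ : ℝ) : Measurable (rI θ D o x κ) := by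
  unfold rI
  exact ((en_measurable_covD D o x).pow_const 2).mul ((en_measurable_gamK κ).comp (en_measurable_mD D x))

omit [Corr θ] in
lemma en_rI_bounds (D : Finset (Word d)) (o x : Word d) {κ : ℝ} (h0 : 0 ≤ κ) (hκ : κ ≤ 1 / 2) (y : Word d → ℝ) :
    0 ≤ rI θ D o x κ y ∧ rI θ D o x κ y ≤ covD θ D y o x ^ 2 * 1 := by
  unfold rI
  have h1 := en_gamK_nonneg κ (mD θ D y x)
  have h2 := gamK_self_le h0 hκ (en_abs_mD (θ := θ) D y x)
  refine ⟨by positivity, mul_le_mul_of_nonneg_left ?_ (sq_nonneg _)⟩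
  nlinarith

lemma en_rI_abs (D : Finset (Word d)) (o x : Word d) {κ : ℝ} (h0 : 0 ≤ κ) (hκ : κ ≤ 1 / 2) (y : Word d → ℝ) :
    |rI θ D o x κ y| ≤ 4 := by
  obtain ⟨h1, h2⟩ := en_rI_bounds (θ := θ) D o x h0 hκ y
  rw [abs_of_nonneg h1]
  have h3 := abs_le.mp (en_abs_covD (θ := θ) D y o x)
  nlinarith [h3.1, h3.2]

lemma en_phi_step (hθ1 : θ < 1) (W : LabT d) {D : Finset (Word d)} {x : Word d} (hx : x ∈ D) (o : Word d) (j : ℤ)
    {t : ℝ} (hyt : ∀ p : (Word d → Bool) × LabT d, ∀ v ∈ D, yW t W p v =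
      addAt x (Real.artanh (kp j * Zo (p.1, p.2, W) (x, j))) (yW (tE (x, j) W) W p) v) :
    phiW θ D o W t = phiW θ D o W (tE (x, j) W) + rW θ D o j W x := by
  have hone := en_one_step hθ1 W hx o j
  have h1 : phiW θ D o W t =
      ∫ p, PsiC θ D o x (yW (tE (x, j) W) W p) (Real.artanh (kp j * Zo (p.1, p.2, W) (x, j))) ∂(PW d θ) := by
    unfold phiW
    refine integral_congr_ae (ae_of_all _ fun p => ?_)
    simp only [PsiC, mD]
    rw [hf_congr θ D (hyt p) o]
  rw [h1, hone]
  have hy := en_measurable_yW (d := d) (tE (x, j) W) W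
  have i1 : Integrable (fun p => mD θ D (yW (tE (x, j) W) W p) o ^ 2) (PW d θ) := by
    refine Integrable.of_bound ((((en_measurable_mD (θ := θ) D o).comp hy).pow_const 2).aestronglyMeasurable) 1
      (ae_of_all _ fun p => ?_)
    rw [Real.norm_eq_abs, abs_pow]
    exact pow_le_one₀ (abs_nonneg _) (en_abs_mD _ _ _)
  have i2 : Integrable (fun p => rI θ D o x (kp j) (yW (tE (x, j) W) W p)) (PW d θ) := by
    refine Integrable.of_bound ((en_measurable_rI (θ := θ) D o x (kp j)).comp hy).aestronglyMeasurable 4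
      (ae_of_all _ fun p => ?_)
    rw [Real.norm_eq_abs]
    exact en_rI_abs D o x (kp_pos j).le (kp_le j) _
  unfold phiW rW
  exact integral_add i1 i2

open Classical in
/-- Telescoping along the events in the window, for fixed labels with distinct values. -/
theorem en_tele (hθ1 : θ < 1) (W : LabT d) {D : Finset (Word d)} (o : Word d) {j : ℤ} {a b : ℝ}
    (ha : (j : ℝ) ≤ a) (hb : b ≤ j + 1)
    (hW : ∀ x ∈ D, ∀ x' ∈ D, x ≠ x' → W (x, j) ≠ W (x', j)) :
    ∀ (n : ℕ) (t : ℝ), a ≤ t → t ≤ b → (D.filter fun x => inW a t (x, j) W).card = n →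
      phiW θ D o W t - phiW θ D o W a = ∑ x ∈ D, if inW a t (x, j) W then rW θ D o j W x else 0 := by
  intro n
  induction n with
  | zero =>
    intro t hat htb hcard
    have hnone : ∀ x ∈ D, ¬ inW a t (x, j) W := by
      intro x hx h
      have : x ∈ D.filter fun x => inW a t (x, j) W := Finset.mem_filter.mpr ⟨hx, h⟩
      rw [Finset.card_eq_zero.mp hcard] at this
      exact absurd this (Finset.notMem_empty _)
    have hsum : ∑ x ∈ D, (if inW a t (x, j) W then rW θ D o j W x else 0) = 0 :=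
      Finset.sum_eq_zero fun x hx => by simp [hnone x hx]
    rw [hsum]
    have hphi : phiW θ D o W t = phiW θ D o W a := by
      unfold phiW
      refine integral_congr_ae (ae_of_all _ fun p => ?_)
      simp only [mD]
      rw [hf_congr θ D (y := yW t W p) (y' := yW a W p) (fun v hv => ?_) o]
      have h2 := en_yS_diff ha hat (htb.trans hb) (p.1, p.2, W) v
      simp only [hnone v hv, if_false, add_zero] at h2
      exact h2
    rw [hphi, sub_self]
  | succ n ih =>
    intro t hat htb hcard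
    have hne : (D.filter fun x => inW a t (x, j) W).Nonempty := Finset.card_pos.mp (by omega)
    obtain ⟨y₀, hy₀, hmax⟩ := Finset.exists_max_image (D.filter fun x => inW a t (x, j) W)
      (fun x => tE (x, j) W) hne
    obtain ⟨hy₀D, hy₀W⟩ := Finset.mem_filter.mp hy₀
    set τ := tE (y₀, j) W with hτ
    have hτ1 : a ≤ τ := hy₀W.2.1
    have hτ2 : τ < t := hy₀W.2.2
    have hτne : ∀ x ∈ D, x ≠ y₀ → tE (x, j) W ≠ τ := by
      intro x hx hne' h
      apply hW x hx y₀ hy₀D hne'
      apply Subtype.ext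
      unfold tE at h
      simp only at h
      have : (2 : ℝ) * (W (x, j) : ℝ) = 2 * (W (y₀, j) : ℝ) := by
        rw [hτ] at h
        unfold tE at h
        simp only at h
        linarith
      linarith
    have hiff : ∀ x ∈ D, (inW a τ (x, j) W ↔ inW a t (x, j) W ∧ x ≠ y₀) := by
      intro x hx
      constructor
      · rintro ⟨h1, h2, h3⟩
        refine ⟨⟨h1, h2, h3.trans hτ2⟩, ?_⟩
        rintro rfl
        exact lt_irrefl _ h3
      · rintro ⟨⟨h1, h2, _⟩, h4⟩
        refine ⟨h1, h2, ?_⟩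
        have h5 := hmax x (Finset.mem_filter.mpr ⟨hx, ⟨h1, h2, ‹_›⟩⟩)
        exact lt_of_le_of_ne h5 (hτne x hx h4)
    have hfil : (D.filter fun x => inW a τ (x, j) W) = (D.filter fun x => inW a t (x, j) W).erase y₀ := by
      ext x
      simp only [Finset.mem_filter, Finset.mem_erase]
      constructor
      · rintro ⟨hx, h⟩
        obtain ⟨h1, h2⟩ := (hiff x hx).mp h
        exact ⟨h2, hx, h1⟩
      · rintro ⟨h1, hx, h2⟩
        exact ⟨hx, (hiff x hx).mpr ⟨h2, h1⟩⟩
    have hcard' : (D.filter fun x => inW a τ (x, j) W).card = n := by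
      rw [hfil, Finset.card_erase_of_mem hy₀, hcard]
      rfl
    have hih := ih τ hτ1 (hτ2.le.trans htb) hcard'
    have hτj : (j : ℝ) ≤ τ := ha.trans hτ1
    have hstep := en_phi_step hθ1 W hy₀D o j (t := t) (fun p v hv => by
      have h2 := en_yS_diff hτj hτ2.le (htb.trans hb) (p.1, p.2, W) v
      by_cases hvy : v = y₀
      · subst hvy
        have hin : inW τ t (v, j) W := ⟨hy₀W.1, le_rfl, hτ2⟩
        simp only [hin, if_true] at h2
        simp only [addAt, Function.update_self]
        exact h2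
      · have hout : ¬ inW τ t (v, j) W := by
          rintro ⟨h1, h3, h4⟩
          have h5 := hmax v (Finset.mem_filter.mpr ⟨hv, ⟨h1, hτ1.trans h3, h4⟩⟩)
          exact hτne v hv hvy (le_antisymm h5 h3)
        simp only [hout, if_false, add_zero] at h2
        simp only [addAt, Function.update_of_ne hvy]
        exact h2)
    rw [← hτ] at hstep
    have hsum1 : ∑ x ∈ D, (if inW a t (x, j) W then rW θ D o j W x else 0) =
        rW θ D o j W y₀ + ∑ x ∈ D, (if inW a τ (x, j) W then rW θ D o j W x else 0) := by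
      rw [← Finset.sum_filter, ← Finset.sum_filter, hfil, Finset.add_sum_erase _ _ hy₀]
    rw [hsum1, ← hih, hstep]
    ring

end OneStep

/-! ### Integration over the labels -/

section Labels

variable [Corr θ]

lemma en_pd_fubini {F : OmD d → ℝ} (hF : Integrable F (PD d θ)) :
    Integrable (fun W : LabT d => ∫ p, F (p.1, p.2, W) ∂(PW d θ)) (volE d) ∧
      ∫ ω, F ω ∂(PD d θ) = ∫ W, ∫ p, F (p.1, p.2, W) ∂(PW d θ) ∂(volE d) := by
  have hmp := measurePreserving_prodAssoc (isingLaw d θ) (volE d) (volE d)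
  have hG : Integrable (fun q : ((Word d → Bool) × LabT d) × LabT d => F (q.1.1, q.1.2, q.2))
      ((PW d θ).prod (volE d)) := by
    have := hmp.integrable_comp_emb (MeasurableEquiv.prodAssoc).measurableEmbedding (g := F)
    exact this.mpr hF
  refine ⟨hG.integral_prod_right, ?_⟩
  have h1 : ∫ ω, F ω ∂(PD d θ) = ∫ q, F (q.1.1, q.1.2, q.2) ∂((PW d θ).prod (volE d)) :=
    (hmp.integral_comp' F).symm
  rw [h1, integral_prod_symm _ hG]

omit [Corr θ] in
lemma en_vol_singleton (c : unitInterval) : (volume : Measure unitInterval) {c} = 0 := by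
  exact measure_singleton c

omit [Corr θ] in
lemma en_ae_ne {e e' : Ev d} (h : e ≠ e') : ∀ᵐ W ∂(volE d), W e ≠ W e' := by
  have hS : MeasurableSet {W : LabT d | W e = W e'} :=
    measurableSet_eq_fun (measurable_pi_apply e) (measurable_pi_apply e')
  set Q : LabT d → ℝ := Set.indicator {W : LabT d | W e = W e'} (fun _ => 1) with hQ
  have hQm : Measurable Q := measurable_const.indicator hS
  have hQb : ∀ W, ‖Q W‖ ≤ 1 := by
    intro W
    simp only [hQ, Set.indicator]
    split_ifs <;> simp
  have hQi : Integrable Q (volE d) := Integrable.of_bound hQm.aestronglyMeasurable 1 (ae_of_all _ hQb)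
  have h0 : ∫ W, Q W ∂(volE d) = 0 := by
    rw [eb_fubini e hQi]
    refine integral_eq_zero_of_ae (ae_of_all _ fun W => ?_)
    have h1 : (fun v : unitInterval => Q (Function.update W e v)) =
        Set.indicator {W e'} (fun _ => (1 : ℝ)) := by
      funext v
      simp only [hQ, Set.indicator, Set.mem_setOf_eq, Function.update_self,
        Function.update_of_ne h.symm, Set.mem_singleton_iff]
    simp only [Pi.zero_apply]
    rw [h1, integral_indicator (measurableSet_singleton _)]
    rw [Measure.restrict_eq_zero.mpr (en_vol_singleton _)]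
    simp
  have hQ0 : 0 ≤ᵐ[volE d] Q := ae_of_all _ fun W => by
    simp only [hQ, Set.indicator, Pi.zero_apply]
    split_ifs <;> norm_num
  have h2 := (integral_eq_zero_iff_of_nonneg_ae hQ0 hQi).mp h0
  filter_upwards [h2] with W hW hne
  simp only [hQ, Set.indicator, Set.mem_setOf_eq, hne, if_true, Pi.zero_apply] at hW
  exact one_ne_zero hW

omit [Corr θ] in
lemma en_ae_distinct (D : Finset (Word d)) (j : ℤ) :
    ∀ᵐ W ∂(volE d), ∀ x ∈ D, ∀ x' ∈ D, x ≠ x' → W (x, j) ≠ W (x', j) := by
  rw [Finset.eventually_all]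
  intro x _
  rw [Finset.eventually_all]
  intro x' _
  by_cases h : x = x'
  · exact ae_of_all _ fun W hne => absurd h hne
  · filter_upwards [en_ae_ne (e := (x, j)) (e' := (x', j)) (by simpa using h)] with W hW _
    exact hW

omit [Corr θ] in
lemma en_measurable_tE (e : Ev d) : Measurable (fun ω : OmD d => tE e ω.2.2) := by
  unfold tE
  have h : Measurable (fun ω : OmD d => ((ω.2.2 e : unitInterval) : ℝ)) :=
    measurable_subtype_coe.comp ((measurable_pi_apply e).comp (measurable_snd.comp measurable_snd))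
  have h2 : Measurable (fun ω : OmD d => 2 * ((ω.2.2 e : unitInterval) : ℝ)) := by fun_prop
  exact measurable_const.add h2

omit [Corr θ] in
lemma en_measurableSet_inW (a b : ℝ) (e : Ev d) : MeasurableSet {ω : OmD d | inW a b e ω.2.2} := by
  have h0 : Measurable (fun ω : OmD d => ((ω.2.2 e : unitInterval) : ℝ)) :=
    measurable_subtype_coe.comp ((measurable_pi_apply e).comp (measurable_snd.comp measurable_snd))
  have hT := en_measurable_tE e
  have h1 : MeasurableSet {ω : OmD d | ((ω.2.2 e : unitInterval) : ℝ) < 1 / 2} :=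
    measurableSet_lt h0 measurable_const
  have h2 : MeasurableSet {ω : OmD d | a ≤ tE e ω.2.2} := measurableSet_le measurable_const hT
  have h3 : MeasurableSet {ω : OmD d | tE e ω.2.2 < b} := measurableSet_lt hT measurable_const
  exact h1.inter (h2.inter h3)

omit [Corr θ] in
lemma en_measurable_yS_tE (e : Ev d) : Measurable (fun ω : OmD d => yS (tE e ω.2.2) ω) := by
  refine measurable_pi_iff.mpr fun x => ?_
  have h := (measurable_yS x).comp ((en_measurable_tE e).prodMk measurable_id)
  exact h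

/-- The energy identity on a finite set, integrated over the labels. -/
theorem en_finite_energy (hθ1 : θ < 1) (D : Finset (Word d)) (o : Word d) {j : ℤ} {a b : ℝ} (ha : (j : ℝ) ≤ a)
    (hab : a ≤ b) (hb : b ≤ j + 1) :
    ∫ ω, mD θ D (yS b ω) o ^ 2 ∂(PD d θ) - ∫ ω, mD θ D (yS a ω) o ^ 2 ∂(PD d θ) =
      ∑ x ∈ D, ∫ ω, Set.indicator {ω : OmD d | inW a b (x, j) ω.2.2}
        (fun ω => rI θ D o x (kp j) (yS (tE (x, j) ω.2.2) ω)) ω ∂(PD d θ) := by
  classical
  -- the second moments
  have hF : ∀ t : ℝ, Integrable (fun ω : OmD d => mD θ D (yS t ω) o ^ 2) (PD d θ) := by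
    intro t
    refine Integrable.of_bound (((en_measurable_mD (θ := θ) D o).comp (measurable_yS' t)).pow_const 2).aestronglyMeasurable 1
      (ae_of_all _ fun ω => ?_)
    rw [Real.norm_eq_abs, abs_pow]
    exact pow_le_one₀ (abs_nonneg _) (en_abs_mD _ _ _)
  have hR : ∀ x : Word d, Integrable (fun ω : OmD d => Set.indicator {ω : OmD d | inW a b (x, j) ω.2.2}
      (fun ω => rI θ D o x (kp j) (yS (tE (x, j) ω.2.2) ω)) ω) (PD d θ) := by
    intro x
    refine Integrable.of_bound (C := 4) ?_ (ae_of_all _ fun ω => ?_)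
    · have h1 : Measurable (fun ω : OmD d => rI θ D o x (kp j) (yS (tE (x, j) ω.2.2) ω)) :=
        (en_measurable_rI (θ := θ) D o x (kp j)).comp (en_measurable_yS_tE (x, j))
      exact (h1.indicator (en_measurableSet_inW a b (x, j))).aestronglyMeasurable
    · simp only [Set.indicator, Set.mem_setOf_eq]
      split_ifs
      · rw [Real.norm_eq_abs]
        exact en_rI_abs D o x (kp_pos j).le (kp_le j) _
      · simp
  obtain ⟨hIb, hEb⟩ := en_pd_fubini (hF b)
  obtain ⟨hIa, hEa⟩ := en_pd_fubini (hF a)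
  rw [hEb, hEa, ← integral_sub hIb hIa]
  have hRx : ∀ x : Word d, Integrable (fun W : LabT d => ∫ p, Set.indicator {ω : OmD d | inW a b (x, j) ω.2.2}
      (fun ω => rI θ D o x (kp j) (yS (tE (x, j) ω.2.2) ω)) ((p.1, p.2, W) : OmD d) ∂(PW d θ)) (volE d) :=
    fun x => (en_pd_fubini (hR x)).1
  have hsum : ∑ x ∈ D, ∫ ω, Set.indicator {ω : OmD d | inW a b (x, j) ω.2.2}
        (fun ω => rI θ D o x (kp j) (yS (tE (x, j) ω.2.2) ω)) ω ∂(PD d θ) =
      ∫ W, ∑ x ∈ D, ∫ p, Set.indicator {ω : OmD d | inW a b (x, j) ω.2.2}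
        (fun ω => rI θ D o x (kp j) (yS (tE (x, j) ω.2.2) ω)) ((p.1, p.2, W) : OmD d) ∂(PW d θ) ∂(volE d) := by
    rw [integral_finset_sum _ fun x _ => hRx x]
    exact Finset.sum_congr rfl fun x _ => (en_pd_fubini (hR x)).2
  rw [hsum]
  refine integral_congr_ae ?_
  filter_upwards [en_ae_distinct D j] with W hW
  have htele := en_tele (θ := θ) hθ1 W o ha hb hW _ b hab le_rfl rfl
  have h1 : ∀ t : ℝ, ∫ p, mD θ D (yS t (p.1, p.2, W)) o ^ 2 ∂(PW d θ) = phiW θ D o W t := fun t => rfl
  simp only [h1]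
  rw [htele]
  refine Finset.sum_congr rfl fun x _ => ?_
  by_cases hin : inW a b (x, j) W
  · rw [if_pos hin]
    unfold rW
    refine integral_congr_ae (ae_of_all _ fun p => ?_)
    simp only [Set.indicator, Set.mem_setOf_eq, hin, if_true]
  · rw [if_neg hin]
    symm
    refine integral_eq_zero_of_ae (ae_of_all _ fun p => ?_)
    simp only [Set.indicator, Set.mem_setOf_eq, hin, if_false, Pi.zero_apply]

end Labels

end Vale.Agent.Lib.P161B
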