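import Vale.Agent.Lib.P161B.Mu
import Vale.Agent.Lib.P161.SLBShift

/-!
The Bayes identity for fixed labels on a finite set of sites: given the labels, the conditional law of the
spins on `D` given the observed field on `D` is the Gibbs measure on `D`. First for finitely many events, by
the flip of one event at a time, then in the limit for continuous test functions.
-/

namespace Vale.Agent.Lib.P161B

open MeasureTheory ProbabilityTheory Filter Set
open Vale.Agent.Lib.P161
open scoped Topology

variable {d : ℕ} {θ : ℝ}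

instance eb_volE_prob : IsProbabilityMeasure (volE d) := by
  unfold volE
  infer_instance

/-- The log likelihood of one observation before the gauge transformation. -/
noncomputable def etaU (j : ℤ) (v : ℝ) : ℝ := Real.artanh (kp j * quant (kp j) v)

/-- The same for all events of a noise configuration. -/
noncomputable def etaV (V : LabT d) (e : Ev d) : ℝ := etaU e.2 (V e)

lemma eb_measurable_artanh : Measurable Real.artanh := by
  unfold Real.artanh
  fun_prop

lemma eb_measurable_etaU (j : ℤ) : Measurable (etaU j) := by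
  unfold etaU
  refine eb_measurable_artanh.comp ?_
  refine measurable_const.mul ?_
  exact measurable_quant.comp (measurable_const.prodMk measurable_id)

lemma eb_measurable_etaV : Measurable (etaV : LabT d → Ev d → ℝ) := by
  refine measurable_pi_iff.mpr fun e => ?_
  unfold etaV
  exact (eb_measurable_etaU e.2).comp (measurable_subtype_coe.comp (measurable_pi_apply e))

lemma eb_kp_abs (j : ℤ) : |kp j| ≤ 1 / 2 := by
  rw [abs_of_pos (kp_pos j)]
  exact kp_le j

lemma eb_mul_mem {κ z : ℝ} (h0 : 0 ≤ κ) (hκ : κ ≤ 1 / 2) (hz : z ∈ Icc (-1 : ℝ) 1) :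
    κ * z ∈ Icc (-(1 / 2) : ℝ) (1 / 2) := by
  obtain ⟨h1, h2⟩ := hz
  constructor <;> nlinarith

/-- The value of the exponential of twice `artanh`. -/
lemma eb_exp_artanh {x : ℝ} (h1 : -1 < x) (h2 : x < 1) :
    Real.exp (-2 * Real.artanh x) * (1 + x) = 1 - x := by
  have hm : x ∈ Icc (-1 : ℝ) 1 := ⟨h1.le, h2.le⟩
  have hp : 0 < 1 + x := by linarith
  have hq : 0 < 1 - x := by linarith
  rw [Real.artanh_eq_half_log hm]
  have e : -2 * (1 / 2 * Real.log ((1 + x) / (1 - x))) = - Real.log ((1 + x) / (1 - x)) := by ring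
  rw [e, Real.exp_neg, Real.exp_log (div_pos hp hq), inv_div]
  field_simp

lemma eb_artanh_odd (x : ℝ) : Real.artanh (-x) = - Real.artanh x := Nish_aux_artanh_odd x

lemma eb_artanh_abs {κ z : ℝ} (h0 : 0 ≤ κ) (hκ : κ ≤ 1 / 2) (hz : z ∈ Icc (-1 : ℝ) 1) :
    |Real.artanh (κ * z)| ≤ Real.artanh κ := by
  obtain ⟨h1, h2⟩ := eb_mul_mem h0 hκ hz
  have hκ1 : κ < 1 := by linarith
  obtain ⟨hz1, hz2⟩ := hz
  rw [abs_le]
  constructor
  · have : -Real.artanh κ = Real.artanh (-κ) := (eb_artanh_odd κ).symm
    rw [this]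
    exact Real.artanh_le_artanh (by linarith) (by linarith) (by nlinarith)
  · exact Real.artanh_le_artanh (by linarith) (by linarith) (by nlinarith)

lemma eb_etaU_abs (j : ℤ) {v : ℝ} (hv : v ∈ Icc (0 : ℝ) 1) : |etaU j v| ≤ Real.artanh (kp j) :=
  eb_artanh_abs (kp_pos j).le (kp_le j) (quant_mem (eb_kp_abs j) hv)

lemma eb_artanh_half_mono (j : ℤ) : Real.artanh (kp j) ≤ Real.artanh (1 / 2) :=
  Real.artanh_le_artanh (by linarith [kp_pos j]) (by norm_num) (kp_le j)

lemma eb_etaV_abs (V : LabT d) (e : Ev d) : |etaV V e| ≤ Real.artanh (1 / 2) :=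
  (eb_etaU_abs e.2 (V e).2).trans (eb_artanh_half_mono e.2)

/-- Reflection on the interval `[-1, 1]`. -/
lemma eb_reflect (g : ℝ → ℝ) : ∫ z in Icc (-1 : ℝ) 1, g (-z) = ∫ z in Icc (-1 : ℝ) 1, g z := by
  rw [integral_Icc_eq_integral_Ioc, integral_Icc_eq_integral_Ioc,
    ← intervalIntegral.integral_of_le (by norm_num), ← intervalIntegral.integral_of_le (by norm_num),
    intervalIntegral.integral_comp_neg]
  norm_num

/-- The flip of one event. -/
lemma eb_flip_one (j : ℤ) (b : Bool) {H : ℝ → ℝ} (hH : Measurable H) {B : ℝ} (hB : ∀ x, |H x| ≤ B) :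
    ∫ v : unitInterval, H (sp b * etaU j v) =
      ∫ v : unitInterval, H (etaU j v) * Real.exp ((sp b - 1) * etaU j v) := by
  cases b with
  | false => simp
  | true =>
    have hκ0 := kp_pos j
    have hκ1 := kp_le j
    set κ := kp j with hκ
    have hart : Measurable (fun z : ℝ => Real.artanh (κ * z)) :=
      eb_measurable_artanh.comp (measurable_const.mul measurable_id)
    have hmem : ∀ z ∈ Icc (-1 : ℝ) 1, -1 < κ * z ∧ κ * z < 1 := by
      intro z hz
      obtain ⟨h1, h2⟩ := eb_mul_mem hκ0.le hκ1 hz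
      constructor <;> linarith
    -- left side
    have hB0 : 0 ≤ B := (abs_nonneg _).trans (hB 0)
    have h1 := integral_quant (a := κ) (eb_kp_abs j) (f := fun z => H (sp true * Real.artanh (κ * z)))
      (hH.comp (measurable_const.mul hart)) (C := B) (fun x _ => hB _)
    -- right side
    have hexpbd : ∀ z ∈ Icc (-1 : ℝ) 1, |H (Real.artanh (κ * z)) * Real.exp ((sp true - 1) * Real.artanh (κ * z))| ≤
        B * 3 := by
      intro z hz
      rw [abs_mul, abs_of_pos (Real.exp_pos _)]
      have hm := hmem z hz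
      have hm2 := eb_mul_mem hκ0.le hκ1 hz
      have h3 := eb_exp_artanh hm.1 hm.2
      have h4 : Real.exp ((sp true - 1) * Real.artanh (κ * z)) ≤ 3 := by
        have e : (sp true - 1) = -2 := by simp; norm_num
        rw [e]
        have hpos : 0 < 1 + κ * z := by linarith [hm2.1]
        have hexp := Real.exp_pos (-2 * Real.artanh (κ * z))
        by_contra hcon
        rw [not_le] at hcon
        have : 3 * (1 + κ * z) < Real.exp (-2 * Real.artanh (κ * z)) * (1 + κ * z) :=
          mul_lt_mul_of_pos_right hcon hpos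
        linarith [hm2.1, hm2.2]
      exact mul_le_mul (hB _) h4 (Real.exp_pos _).le hB0
    have h2 := integral_quant (a := κ) (eb_kp_abs j)
      (f := fun z => H (Real.artanh (κ * z)) * Real.exp ((sp true - 1) * Real.artanh (κ * z)))
      ((hH.comp hart).mul (Real.measurable_exp.comp (measurable_const.mul hart))) (C := B * 3) hexpbd
    simp only [etaU]
    rw [← hκ] at *
    rw [h1, h2]
    -- reflect the left side
    rw [← eb_reflect]
    apply setIntegral_congr_fun measurableSet_Icc
    intro z hz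
    have hm := hmem z hz
    have h3 := eb_exp_artanh hm.1 hm.2
    have e2 : κ * -z = -(κ * z) := by ring
    have e : (sp true - 1) = -2 := by simp; norm_num
    simp only [e2, eb_artanh_odd, sp_true]
    have e3 : (-1 : ℝ) * -Real.artanh (κ * z) = Real.artanh (κ * z) := by ring
    rw [e3]
    calc H (Real.artanh (κ * z)) * ((1 + -(κ * z)) / 2)
        = H (Real.artanh (κ * z)) * ((Real.exp (-2 * Real.artanh (κ * z)) * (1 + κ * z)) / 2) := by
          rw [h3]; ring_nf
      _ = _ := by rw [show ((-1 : ℝ) - 1) = -2 by norm_num]; ring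

open Classical in
/-- Multiply the coordinates in `A` by the signs `b`. -/
noncomputable def flipE (A : Finset (Ev d)) (b : Ev d → Bool) (u : Ev d → ℝ) : Ev d → ℝ :=
  fun e => if e ∈ A then sp (b e) * u e else u e

lemma eb_fubini (a : Ev d) {Q : LabT d → ℝ} (hQ : Integrable Q (volE d)) :
    ∫ V, Q V ∂(volE d) = ∫ V, ∫ v, Q (Function.update V a v) ∂(volume : Measure unitInterval) ∂(volE d) := by
  have U := slb_update_mp (ι := Ev d) (volume : Measure unitInterval) a
  have hQ' : Integrable Q (Measure.infinitePi fun _ : Ev d => (volume : Measure unitInterval)) := hQ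
  have h1 : ∫ V, Q V ∂(volE d) =
      ∫ p, Q (Function.update p.1 a p.2) ∂((volE d).prod (volume : Measure unitInterval)) := by
    have := integral_map (μ := (volE d).prod (volume : Measure unitInterval)) U.measurable.aemeasurable (f := Q)
      (by
        have h3 := U.map_eq
        have h4 : Measure.map (fun p : (Ev d → unitInterval) × unitInterval => Function.update p.1 a p.2)
            ((volE d).prod (volume : Measure unitInterval)) = volE d := h3
        rw [h4]
        exact hQ.1)
    have h4 : Measure.map (fun p : (Ev d → unitInterval) × unitInterval => Function.update p.1 a p.2)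
        ((volE d).prod (volume : Measure unitInterval)) = volE d := U.map_eq
    rw [h4] at this
    exact this
  rw [h1]
  exact integral_prod _ ((U.integrable_comp hQ'.1).mpr hQ')

lemma eb_etaV_update (a : Ev d) (V : LabT d) (v : unitInterval) :
    etaV (Function.update V a v) = Function.update (etaV V) a (etaU a.2 v) := by
  funext e
  by_cases h : e = a
  · subst h
    simp [etaV]
  · simp [etaV, Function.update_of_ne h]

/-- The density of the flip. -/
noncomputable def eb_W (A : Finset (Ev d)) (b : Ev d → Bool) (u : Ev d → ℝ) : ℝ :=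
  Real.exp (∑ e ∈ A, (sp (b e) - 1) * u e)

lemma eb_W_measurable (A : Finset (Ev d)) (b : Ev d → Bool) : Measurable (eb_W A b) := by
  unfold eb_W
  refine Real.measurable_exp.comp ?_
  exact Finset.measurable_sum _ fun x _ => (measurable_pi_apply x).const_mul _

lemma eb_W_pos (A : Finset (Ev d)) (b : Ev d → Bool) (u : Ev d → ℝ) : 0 < eb_W A b u := Real.exp_pos _

lemma eb_W_le (A : Finset (Ev d)) (b : Ev d → Bool) (V : LabT d) :
    eb_W A b (etaV V) ≤ Real.exp (2 * Real.artanh (1 / 2) * A.card) := by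
  unfold eb_W
  apply Real.exp_le_exp.mpr
  have h1 : ∀ e ∈ A, (sp (b e) - 1) * etaV V e ≤ 2 * Real.artanh (1 / 2) := by
    intro e _
    have h2 := abs_le.mp (eb_etaV_abs V e)
    cases h : b e <;> simp only [sp_true, sp_false] <;> nlinarith
  calc ∑ e ∈ A, (sp (b e) - 1) * etaV V e ≤ ∑ _e ∈ A, 2 * Real.artanh (1 / 2) := Finset.sum_le_sum h1
    _ = 2 * Real.artanh (1 / 2) * A.card := by rw [Finset.sum_const, nsmul_eq_mul]; ring

lemma eb_integrable_W (A : Finset (Ev d)) (b : Ev d → Bool) {G : (Ev d → ℝ) → ℝ} (hG : Measurable G) {B : ℝ}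
    (hB : ∀ y, |G y| ≤ B) : Integrable (fun V : LabT d => G (etaV V) * eb_W A b (etaV V)) (volE d) := by
  refine Integrable.of_bound (C := B * Real.exp (2 * Real.artanh (1 / 2) * A.card))
    ((hG.comp eb_measurable_etaV).mul ((eb_W_measurable A b).comp eb_measurable_etaV)).aestronglyMeasurable
    (ae_of_all _ fun V => ?_)
  rw [Real.norm_eq_abs, abs_mul, abs_of_pos (eb_W_pos A b _)]
  have hB0 : 0 ≤ B := (abs_nonneg _).trans (hB 0)
  exact mul_le_mul (hB _) (eb_W_le A b V) (eb_W_pos A b _).le hB0

open Classical in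
/-- The flip formula for finitely many events. -/
theorem flip_events (b : Ev d → Bool) (A : Finset (Ev d)) :
    ∀ {G : (Ev d → ℝ) → ℝ}, Measurable G → ∀ {B : ℝ}, (∀ y, |G y| ≤ B) →
      ∫ V, G (flipE A b (etaV V)) ∂(volE d) = ∫ V, G (etaV V) * eb_W A b (etaV V) ∂(volE d) := by
  induction A using Finset.induction_on with
  | empty =>
    intro G _ B _
    refine integral_congr_ae (ae_of_all _ fun V => ?_)
    have h0 : flipE ∅ b (etaV V) = etaV V := by
      funext e
      simp [flipE]
    simp [eb_W, h0]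
  | insert a A ha ih =>
    intro G hG B hB
    let upd : (Ev d → ℝ) → Ev d → ℝ := fun u => Function.update u a (sp (b a) * u a)
    have hupd : Measurable upd := by
      refine measurable_pi_iff.mpr fun x => ?_
      by_cases hx : x = a
      · subst hx
        simp only [upd, Function.update_self]
        exact (measurable_pi_apply x).const_mul _
      · simp only [upd, Function.update_of_ne hx]
        exact measurable_pi_apply x
    have hflip : ∀ u, flipE (insert a A) b u = upd (flipE A b u) := by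
      intro u
      funext x
      by_cases hx : x = a
      · subst hx
        simp [flipE, upd, ha]
      · simp only [upd, Function.update_of_ne hx, flipE, Finset.mem_insert, hx, false_or]
    simp_rw [hflip]
    have hG' : Measurable (G ∘ upd) := hG.comp hupd
    have h1 := ih (G := G ∘ upd) hG' (B := B) (fun y => hB _)
    simp only [Function.comp] at h1
    rw [h1]
    have hQ1 : Integrable (fun V : LabT d => G (upd (etaV V)) * eb_W A b (etaV V)) (volE d) :=
      eb_integrable_W A b hG' (B := B) (fun y => hB _)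
    have hQ2 := eb_integrable_W (insert a A) b hG hB
    rw [eb_fubini a hQ1, eb_fubini a hQ2]
    refine integral_congr_ae (ae_of_all _ fun V => ?_)
    simp only
    -- the density on `A` does not see the coordinate `a`
    have hWA : ∀ x : ℝ, eb_W A b (Function.update (etaV V) a x) = eb_W A b (etaV V) := by
      intro x
      unfold eb_W
      congr 1
      refine Finset.sum_congr rfl fun e he => ?_
      have hne : e ≠ a := fun h => ha (h ▸ he)
      rw [Function.update_of_ne hne]
    have hWins : ∀ x : ℝ, eb_W (insert a A) b (Function.update (etaV V) a x) =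
        eb_W A b (etaV V) * Real.exp ((sp (b a) - 1) * x) := by
      intro x
      unfold eb_W
      rw [Finset.sum_insert ha, add_comm, Real.exp_add, Function.update_self]
      congr 2
      refine Finset.sum_congr rfl fun e he => ?_
      have hne : e ≠ a := fun h => ha (h ▸ he)
      rw [Function.update_of_ne hne]
    have hupd2 : ∀ x : ℝ, upd (Function.update (etaV V) a x) = Function.update (etaV V) a (sp (b a) * x) := by
      intro x
      funext e
      by_cases h : e = a
      · subst h
        simp [upd]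
      · simp [upd, Function.update_of_ne h]
    simp only [eb_etaV_update, hWA, hWins, hupd2]
    have hH : Measurable (fun x : ℝ => G (Function.update (etaV V) a x)) :=
      hG.comp (measurable_update _)
    have h3 := eb_flip_one a.2 (b a) hH (B := B) (fun x => hB _)
    have e1 : ∀ v : unitInterval, G (Function.update (etaV V) a (sp (b a) * etaU a.2 v)) * eb_W A b (etaV V) =
        (fun v : unitInterval => G (Function.update (etaV V) a (sp (b a) * etaU a.2 v))) v * eb_W A b (etaV V) :=
      fun v => rfl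
    rw [integral_mul_const, h3, ← integral_mul_const]
    refine integral_congr_ae (ae_of_all _ fun v => ?_)
    simp only
    ring

section Gibbs

variable [Corr θ]

omit [Corr θ] in
lemma eb_measurable_tilt (D : Finset (Word d)) :
    Measurable (fun p : (Word d → ℝ) × (Word d → Bool) => tiltE D p.1 p.2) := by
  unfold tiltE
  refine Real.measurable_exp.comp ?_
  refine Finset.measurable_sum _ (fun x _ => ?_)
  exact (slf_measurable_sp.comp ((measurable_pi_apply x).comp measurable_snd)).mul
    ((measurable_pi_apply x).comp measurable_fst)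

/-- The partition function with insertion `Φ`. -/
noncomputable def ebZ (θ : ℝ) (D : Finset (Word d)) (Φ : (Word d → Bool) → ℝ) (y : Word d → ℝ) : ℝ :=
  ∫ σ, Φ σ * tiltE D y σ ∂(isingLaw d θ)

lemma ebZ_measurable (D : Finset (Word d)) {Φ : (Word d → Bool) → ℝ} (hΦ : Measurable Φ) :
    Measurable (ebZ (d := d) θ D Φ) := by
  unfold ebZ
  have hF : Measurable (Function.uncurry (fun (y : Word d → ℝ) (σ : Word d → Bool) => Φ σ * tiltE D y σ)) :=
    (hΦ.comp measurable_snd).mul (eb_measurable_tilt D)
  exact hF.stronglyMeasurable.integral_prod_right.measurable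

omit [Corr θ] in
lemma eb_tilt_congr (D : Finset (Word d)) {y y' : Word d → ℝ} (h : ∀ x ∈ D, y x = y' x) (σ : Word d → Bool) :
    tiltE D y σ = tiltE D y' σ := by
  unfold tiltE
  congr 1
  exact Finset.sum_congr rfl fun x hx => by rw [h x hx]

lemma eb_integrable_tilt (D : Finset (Word d)) (y : Word d → ℝ) {Φ : (Word d → Bool) → ℝ} (hΦ : Measurable Φ)
    {B : ℝ} (hB : ∀ σ, |Φ σ| ≤ B) : Integrable (fun σ => Φ σ * tiltE D y σ) (isingLaw d θ) := by
  refine Integrable.of_bound (C := B * Real.exp (∑ x ∈ D, |y x|))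
    (hΦ.mul (slf_measurable_tiltE D y)).aestronglyMeasurable (ae_of_all _ fun σ => ?_)
  rw [Real.norm_eq_abs, abs_mul, abs_of_pos (slf_tiltE_pos D y σ)]
  have hB0 : 0 ≤ B := (abs_nonneg _).trans (hB σ)
  exact mul_le_mul (hB σ) (slf_tiltE_le D y σ) (slf_tiltE_pos D y σ).le hB0

lemma ebZ_one_pos (D : Finset (Word d)) (y : Word d → ℝ) : 0 < ebZ θ D (fun _ => 1) y := by
  unfold ebZ
  have h1 : ∀ σ : Word d → Bool, Real.exp (- ∑ x ∈ D, |y x|) ≤ 1 * tiltE D y σ := by
    intro σ
    rw [one_mul]
    unfold tiltE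
    apply Real.exp_le_exp.mpr
    have : - ∑ x ∈ D, |y x| = ∑ x ∈ D, - |y x| := by rw [Finset.sum_neg_distrib]
    rw [this]
    apply Finset.sum_le_sum
    intro x _
    have h3 : sp (σ x) * y x ≥ -|sp (σ x) * y x| := neg_abs_le _
    rwa [abs_mul, abs_sp, one_mul] at h3
  have hint := eb_integrable_tilt (θ := θ) D y (Φ := fun _ => 1) measurable_const (B := 1) (by simp)
  have h2 : ∫ _σ, Real.exp (- ∑ x ∈ D, |y x|) ∂(isingLaw d θ) ≤ ∫ σ, 1 * tiltE D y σ ∂(isingLaw d θ) :=
    integral_mono (integrable_const _) hint h1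
  rw [integral_const, probReal_univ, one_smul] at h2
  exact lt_of_lt_of_le (Real.exp_pos _) h2

omit [Corr θ] in
lemma eb_gbE_eq (D : Finset (Word d)) (y : Word d → ℝ) (Φ : (Word d → Bool) → ℝ) :
    gbE θ D y Φ = ebZ θ D Φ y / ebZ θ D (fun _ => 1) y := by
  unfold gbE ebZ
  simp only [one_mul]

lemma ebZ_abs_le (D : Finset (Word d)) (y : Word d → ℝ) {Φ : (Word d → Bool) → ℝ} (hΦ : Measurable Φ) {B : ℝ}
    (hB : ∀ σ, |Φ σ| ≤ B) : |ebZ θ D Φ y| ≤ B * ebZ θ D (fun _ => 1) y := by
  unfold ebZ
  have h1 := eb_integrable_tilt (θ := θ) D y hΦ hB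
  have h2 := eb_integrable_tilt (θ := θ) D y (Φ := fun _ => 1) measurable_const (B := 1) (by simp)
  calc |∫ σ, Φ σ * tiltE D y σ ∂(isingLaw d θ)| ≤ ∫ σ, |Φ σ * tiltE D y σ| ∂(isingLaw d θ) :=
        abs_integral_le_integral_abs
    _ ≤ ∫ σ, B * (1 * tiltE D y σ) ∂(isingLaw d θ) := by
        refine integral_mono h1.abs (h2.const_mul B) fun σ => ?_
        simp only
        rw [abs_mul, abs_of_pos (slf_tiltE_pos D y σ), one_mul]
        exact mul_le_mul_of_nonneg_right (hB σ) (slf_tiltE_pos D y σ).le
    _ = _ := by rw [integral_const_mul]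

lemma eb_gbE_abs_le (D : Finset (Word d)) (y : Word d → ℝ) {Φ : (Word d → Bool) → ℝ} (hΦ : Measurable Φ) {B : ℝ}
    (hB : ∀ σ, |Φ σ| ≤ B) : |gbE θ D y Φ| ≤ B := by
  rw [eb_gbE_eq, abs_div, abs_of_pos (ebZ_one_pos D y), div_le_iff₀ (ebZ_one_pos D y)]
  exact ebZ_abs_le D y hΦ hB

lemma eb_gbE_measurable (D : Finset (Word d)) {Φ : (Word d → Bool) → ℝ} (hΦ : Measurable Φ) :
    Measurable (fun y : Word d → ℝ => gbE θ D y Φ) := by
  simp_rw [eb_gbE_eq]
  exact (ebZ_measurable D hΦ).div (ebZ_measurable D measurable_const)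

omit [Corr θ] in
lemma eb_gbE_congr (D : Finset (Word d)) {y y' : Word d → ℝ} (h : ∀ x ∈ D, y x = y' x)
    (Φ : (Word d → Bool) → ℝ) : gbE θ D y Φ = gbE θ D y' Φ := by
  unfold gbE
  simp_rw [eb_tilt_congr D h]

/-- Multiplying `gbE` with the partition function. -/
lemma eb_gbE_mul_Z (D : Finset (Word d)) (y : Word d → ℝ) (Φ : (Word d → Bool) → ℝ) :
    gbE θ D y Φ * ebZ θ D (fun _ => 1) y = ebZ θ D Φ y := by
  rw [eb_gbE_eq]
  exact div_mul_cancel₀ _ (ebZ_one_pos D y).ne'

/-- Continuity of the partition function along bounded pointwise convergent sequences. -/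
lemma ebZ_tendsto (D : Finset (Word d)) {Φ : (Word d → Bool) → ℝ} (hΦ : Measurable Φ) {B : ℝ}
    (hB : ∀ σ, |Φ σ| ≤ B) {y : ℕ → Word d → ℝ} {y₀ : Word d → ℝ} {M : ℝ} (hM : ∀ n, ∀ x ∈ D, |y n x| ≤ M)
    (hy : ∀ x ∈ D, Tendsto (fun n => y n x) atTop (𝓝 (y₀ x))) :
    Tendsto (fun n => ebZ θ D Φ (y n)) atTop (𝓝 (ebZ θ D Φ y₀)) := by
  unfold ebZ
  refine tendsto_integral_of_dominated_convergence (fun _ => B * Real.exp (∑ _x ∈ D, M)) ?_
    (integrable_const _) ?_ ?_
  · intro n
    exact (hΦ.mul (slf_measurable_tiltE D (y n))).aestronglyMeasurable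
  · intro n
    refine ae_of_all _ fun σ => ?_
    rw [Real.norm_eq_abs, abs_mul, abs_of_pos (slf_tiltE_pos D _ σ)]
    have hB0 : 0 ≤ B := (abs_nonneg _).trans (hB σ)
    refine mul_le_mul (hB σ) ?_ (slf_tiltE_pos D _ σ).le hB0
    refine (slf_tiltE_le D (y n) σ).trans (Real.exp_le_exp.mpr (Finset.sum_le_sum fun x hx => hM n x hx))
  · refine ae_of_all _ fun σ => ?_
    refine Tendsto.const_mul _ ?_
    unfold tiltE
    refine Real.continuous_exp.continuousAt.tendsto.comp ?_
    exact tendsto_finsetSum _ fun x hx => (hy x hx).const_mul _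

lemma eb_gbE_tendsto (D : Finset (Word d)) {Φ : (Word d → Bool) → ℝ} (hΦ : Measurable Φ) {B : ℝ}
    (hB : ∀ σ, |Φ σ| ≤ B) {y : ℕ → Word d → ℝ} {y₀ : Word d → ℝ} {M : ℝ} (hM : ∀ n, ∀ x ∈ D, |y n x| ≤ M)
    (hy : ∀ x ∈ D, Tendsto (fun n => y n x) atTop (𝓝 (y₀ x))) :
    Tendsto (fun n => gbE θ D (y n) Φ) atTop (𝓝 (gbE θ D y₀ Φ)) := by
  simp_rw [eb_gbE_eq]
  exact (ebZ_tendsto D hΦ hB hM hy).div
    (ebZ_tendsto D measurable_const (B := 1) (by simp) hM hy) (ebZ_one_pos D y₀).ne'

end Gibbs

section Trunc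

open Classical in
/-- The truncated local field on a site. -/
noncomputable def xiN (n : ℕ) (s : ℝ) (W : LabT d) (V : LabT d) (x : Word d) : ℝ :=
  ∑ j ∈ Finset.Icc (-(n : ℤ)) n, if inA s (x, j) W then etaV V (x, j) else 0

lemma eb_xiN_measurable (n : ℕ) (s : ℝ) (W : LabT d) (x : Word d) :
    Measurable (fun V : LabT d => xiN n s W V x) := by
  unfold xiN
  refine Finset.measurable_sum _ fun j _ => ?_
  by_cases h : inA s (x, j) W
  · simp only [h, if_true]
    exact (measurable_pi_apply _).comp eb_measurable_etaV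
  · simp only [h, if_false]
    exact measurable_const

lemma eb_xiN_measurable' (n : ℕ) (s : ℝ) (W : LabT d) : Measurable (xiN n s W : LabT d → Word d → ℝ) :=
  measurable_pi_iff.mpr fun x => eb_xiN_measurable n s W x

open Classical in
/-- The flip formula for the truncated local fields: the sign of the spin is replaced by a density. -/
theorem flip_field (σ : Word d → Bool) (D : Finset (Word d)) (n : ℕ) (s : ℝ) (W : LabT d)
    {f : (Word d → ℝ) → ℝ} (hf : Measurable f) {B : ℝ} (hB : ∀ y, |f y| ≤ B)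
    (hfD : ∀ y y', (∀ x ∈ D, y x = y' x) → f y = f y') :
    ∫ V, f (fun x => sp (σ x) * xiN n s W V x) ∂(volE d) =
      ∫ V, f (xiN n s W V) * Real.exp (∑ x ∈ D, (sp (σ x) - 1) * xiN n s W V x) ∂(volE d) := by
  set I := Finset.Icc (-(n : ℤ)) n with hI
  set A : Finset (Ev d) := (D ×ˢ I).filter (fun e => inA s e W) with hA
  let b : Ev d → Bool := fun e => σ e.1
  let G : (Ev d → ℝ) → ℝ := fun u => f (fun x => ∑ j ∈ I, if inA s (x, j) W then u (x, j) else 0)
  have hG : Measurable G := by
    refine hf.comp (measurable_pi_iff.mpr fun x => ?_)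
    refine Finset.measurable_sum _ fun j _ => ?_
    by_cases h : inA s (x, j) W
    · simp only [h, if_true]
      exact measurable_pi_apply _
    · simp only [h, if_false]
      exact measurable_const
  have key := flip_events b A hG (B := B) (fun y => hB _)
  have h1 : ∀ V : LabT d, G (flipE A b (etaV V)) = f (fun x => sp (σ x) * xiN n s W V x) := by
    intro V
    apply hfD
    intro x hx
    unfold xiN
    rw [Finset.mul_sum]
    refine Finset.sum_congr rfl fun j hj => ?_
    by_cases h : inA s (x, j) W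
    · have hmem : (x, j) ∈ A := Finset.mem_filter.mpr ⟨Finset.mem_product.mpr ⟨hx, hj⟩, h⟩
      simp only [h, if_true, flipE, hmem, b]
    · simp only [h, if_false, mul_zero]
  have h2 : ∀ V : LabT d, G (etaV V) = f (xiN n s W V) := fun V => rfl
  have h3 : ∀ V : LabT d, eb_W A b (etaV V) = Real.exp (∑ x ∈ D, (sp (σ x) - 1) * xiN n s W V x) := by
    intro V
    unfold eb_W
    congr 1
    rw [hA, Finset.sum_filter, Finset.sum_product]
    refine Finset.sum_congr rfl fun x _ => ?_
    unfold xiN
    rw [Finset.mul_sum]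
    refine Finset.sum_congr rfl fun j _ => ?_
    by_cases h : inA s (x, j) W
    · simp only [h, if_true, b]
    · simp only [h, if_false, mul_zero]
  simp only [h1, h2, h3] at key
  exact key

end Trunc

section KBn

variable [Corr θ]

/-- The truncated observed field. -/
noncomputable def yN (n : ℕ) (s : ℝ) (W : LabT d) (p : (Word d → Bool) × LabT d) (x : Word d) : ℝ :=
  sp (p.1 x) * xiN n s W p.2 x

lemma eb_yN_measurable (n : ℕ) (s : ℝ) (W : LabT d) :
    Measurable (yN (d := d) n s W) := by
  refine measurable_pi_iff.mpr fun x => ?_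
  unfold yN
  exact (slf_measurable_sp.comp ((measurable_pi_apply x).comp measurable_fst)).mul
    ((eb_xiN_measurable n s W x).comp measurable_snd)

lemma eb_exp_split (D : Finset (Word d)) (σ : Word d → Bool) (ξ : Word d → ℝ) :
    Real.exp (∑ x ∈ D, (sp (σ x) - 1) * ξ x) = Real.exp (- ∑ x ∈ D, ξ x) * tiltE D ξ σ := by
  unfold tiltE
  rw [← Real.exp_add]
  congr 1
  rw [← Finset.sum_neg_distrib, ← Finset.sum_add_distrib]
  refine Finset.sum_congr rfl fun x _ => ?_
  ring

open Classical in
/-- Integration over the spins and the noise of the truncated field, in terms of the noise alone. -/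
theorem eb_pair_eq (D : Finset (Word d)) (n : ℕ) (s : ℝ) (W : LabT d)
    {Φ : (Word d → Bool) → ℝ} (hΦ : Measurable Φ) {C : ℝ} (hC : ∀ σ, |Φ σ| ≤ C)
    {f : (Word d → ℝ) → ℝ} (hf : Measurable f) {B : ℝ} (hB : ∀ y, |f y| ≤ B)
    (hfD : ∀ y y', (∀ x ∈ D, y x = y' x) → f y = f y') :
    ∫ p, Φ p.1 * f (yN n s W p) ∂((isingLaw d θ).prod (volE d)) =
      ∫ V, f (xiN n s W V) * Real.exp (- ∑ x ∈ D, xiN n s W V x) * ebZ θ D Φ (xiN n s W V) ∂(volE d) := by
  have hC0 : 0 ≤ C := (abs_nonneg _).trans (hC (fun _ => false))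
  have hB0 : 0 ≤ B := (abs_nonneg _).trans (hB 0)
  have hmeas : Measurable (fun p : (Word d → Bool) × LabT d => Φ p.1 * f (yN n s W p)) :=
    (hΦ.comp measurable_fst).mul (hf.comp (eb_yN_measurable n s W))
  have hint : Integrable (fun p : (Word d → Bool) × LabT d => Φ p.1 * f (yN n s W p))
      ((isingLaw d θ).prod (volE d)) := by
    refine Integrable.of_bound (C := C * B) hmeas.aestronglyMeasurable (ae_of_all _ fun p => ?_)
    rw [Real.norm_eq_abs, abs_mul]
    exact mul_le_mul (hC _) (hB _) (abs_nonneg _) hC0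
  rw [integral_prod _ hint]
  -- the bound on the truncated field
  have hξbd : ∀ (V : LabT d) (x : Word d), |xiN n s W V x| ≤ (2 * n + 1 : ℕ) * Real.artanh (1 / 2) := by
    intro V x
    unfold xiN
    refine (Finset.abs_sum_le_sum_abs _ _).trans ?_
    have h2 : ∀ j ∈ Finset.Icc (-(n : ℤ)) n,
        |if inA s (x, j) W then etaV V (x, j) else 0| ≤ Real.artanh (1 / 2) := by
      intro j _
      split_ifs
      · exact eb_etaV_abs V _
      · rw [abs_zero]
        exact (abs_nonneg _).trans (eb_etaV_abs V (x, j))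
    refine (Finset.sum_le_sum h2).trans ?_
    rw [Finset.sum_const, nsmul_eq_mul, Int.card_Icc]
    apply le_of_eq
    congr 2
    omega
  set M : ℝ := (2 * n + 1 : ℕ) * Real.artanh (1 / 2) with hM
  have hM0 : 0 ≤ M := (abs_nonneg _).trans (hξbd (fun _ => 0) root)
  have hmeasF : Measurable (fun q : (Word d → Bool) × LabT d =>
      Φ q.1 * (f (xiN n s W q.2) * Real.exp (- ∑ x ∈ D, xiN n s W q.2 x) * tiltE D (xiN n s W q.2) q.1)) := by
    refine (hΦ.comp measurable_fst).mul (((hf.comp ((eb_xiN_measurable' n s W).comp measurable_snd))).mul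
      (Real.measurable_exp.comp ?_) |>.mul ?_)
    · exact (Finset.measurable_sum _ fun x _ => (eb_xiN_measurable n s W x).comp measurable_snd).neg
    · exact (eb_measurable_tilt D).comp
        (((eb_xiN_measurable' n s W).comp measurable_snd).prodMk measurable_fst)
  have hintF : Integrable (fun q : (Word d → Bool) × LabT d =>
      Φ q.1 * (f (xiN n s W q.2) * Real.exp (- ∑ x ∈ D, xiN n s W q.2 x) * tiltE D (xiN n s W q.2) q.1))
      ((isingLaw d θ).prod (volE d)) := by
    refine Integrable.of_bound (C := C * (B * Real.exp (∑ _x ∈ D, M) * Real.exp (∑ _x ∈ D, M)))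
      hmeasF.aestronglyMeasurable (ae_of_all _ fun q => ?_)
    rw [Real.norm_eq_abs, abs_mul]
    refine mul_le_mul (hC _) ?_ (abs_nonneg _) hC0
    rw [abs_mul, abs_mul, abs_of_pos (Real.exp_pos _), abs_of_pos (slf_tiltE_pos D _ _)]
    refine mul_le_mul (mul_le_mul (hB _) ?_ (Real.exp_pos _).le hB0) ?_ (slf_tiltE_pos D _ _).le (by positivity)
    · apply Real.exp_le_exp.mpr
      rw [← Finset.sum_neg_distrib]
      exact Finset.sum_le_sum fun x _ => (neg_le_abs _).trans (hξbd _ _)
    · exact (slf_tiltE_le D _ _).trans (Real.exp_le_exp.mpr (Finset.sum_le_sum fun x _ => hξbd _ _))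
  have hstep : ∀ σ : Word d → Bool, ∫ V, Φ σ * f (yN n s W (σ, V)) ∂(volE d) =
      ∫ V, Φ σ * (f (xiN n s W V) * Real.exp (- ∑ x ∈ D, xiN n s W V x) * tiltE D (xiN n s W V) σ) ∂(volE d) := by
    intro σ
    rw [integral_const_mul, integral_const_mul]
    congr 1
    have := flip_field σ D n s W hf hB hfD
    have e : ∀ V : LabT d, yN n s W (σ, V) = fun x => sp (σ x) * xiN n s W V x := fun V => rfl
    simp_rw [e]
    rw [this]
    refine integral_congr_ae (ae_of_all _ fun V => ?_)
    simp only
    rw [eb_exp_split]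
    ring
  simp_rw [hstep]
  rw [integral_integral_swap (f := fun σ V =>
    Φ σ * (f (xiN n s W V) * Real.exp (- ∑ x ∈ D, xiN n s W V x) * tiltE D (xiN n s W V) σ)) hintF]
  refine integral_congr_ae (ae_of_all _ fun V => ?_)
  simp only
  unfold ebZ
  rw [← integral_const_mul]
  refine integral_congr_ae (ae_of_all _ fun σ => ?_)
  simp only
  ring

/-- The Bayes identity for the truncated field, with bounded measurable test functions. -/
theorem eb_bayes_trunc (D : Finset (Word d)) (n : ℕ) (s : ℝ) (W : LabT d)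
    {Φ : (Word d → Bool) → ℝ} (hΦ : Measurable Φ) {C : ℝ} (hC : ∀ σ, |Φ σ| ≤ C)
    {f : (Word d → ℝ) → ℝ} (hf : Measurable f) {B : ℝ} (hB : ∀ y, |f y| ≤ B)
    (hfD : ∀ y y', (∀ x ∈ D, y x = y' x) → f y = f y') :
    ∫ p, Φ p.1 * f (yN n s W p) ∂((isingLaw d θ).prod (volE d)) =
      ∫ p, gbE θ D (yN n s W p) Φ * f (yN n s W p) ∂((isingLaw d θ).prod (volE d)) := by
  have hC0 : 0 ≤ C := (abs_nonneg _).trans (hC (fun _ => false))
  have hB0 : 0 ≤ B := (abs_nonneg _).trans (hB 0)
  rw [eb_pair_eq D n s W hΦ hC hf hB hfD]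
  -- the right side with `Φ = 1`
  have h1 := eb_pair_eq (θ := θ) D n s W (Φ := fun _ => 1) measurable_const (C := 1) (by simp)
    (f := fun y => gbE θ D y Φ * f y) ((eb_gbE_measurable D hΦ).mul hf) (B := C * B)
    (fun y => by
      rw [abs_mul]
      exact mul_le_mul (eb_gbE_abs_le D y hΦ hC) (hB y) (abs_nonneg _) hC0)
    (fun y y' h => by
      rw [eb_gbE_congr D h, hfD y y' h])
  simp only [one_mul] at h1
  rw [h1]
  refine integral_congr_ae (ae_of_all _ fun V => ?_)
  simp only
  have h2 := eb_gbE_mul_Z (θ := θ) D (xiN n s W V) Φ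
  rw [← h2]
  ring

end KBn

end Vale.Agent.Lib.P161B
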