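import Vale.Agent.Lib.P161B.Mu

/-!
The martingale property of the posterior means between two fixed times, and the uniform tail of the
covariances with the root.
-/

namespace Vale.Agent.Lib.P161B

open MeasureTheory ProbabilityTheory Filter Set
open Vale.Agent.Lib.P161
open scoped Topology

variable {d : ℕ} {θ : ℝ}

lemma wm_measurableSet_inA (s : ℝ) (e : Ev d) : MeasurableSet {W : LabT d | inA s e W} := by
  have h1 : Measurable (fun W : LabT d => (W e : ℝ)) :=
    measurable_subtype_coe.comp (measurable_pi_apply e)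
  have h2 : Measurable (fun W : LabT d => tE e W) := by
    unfold tE
    exact (measurable_const.add (measurable_const.mul h1))
  exact (measurableSet_lt h1 measurable_const).inter (measurableSet_lt h2 measurable_const)

lemma wm_inA_mono {s t : ℝ} (hst : s ≤ t) {e : Ev d} {W : LabT d} (h : inA s e W) : inA t e W :=
  ⟨h.1, h.2.trans_le hst⟩

/-- The sigma algebra of the observations before a fixed time increases with the time. -/
lemma FL_const_mono {s t : ℝ} (hst : s ≤ t) :
    FL (d := d) (fun _ => s) ≤ FL (d := d) (fun _ => t) := by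
  classical
  let φ : LabT d × (Ev d → ℝ) → LabT d × (Ev d → ℝ) :=
    fun p => (p.1, fun e => if inA s e p.1 then p.2 e else 0)
  have hφ : Measurable φ := by
    refine measurable_fst.prodMk (measurable_pi_lambda _ fun e => ?_)
    exact Measurable.ite (measurable_fst (wm_measurableSet_inA s e)) ((measurable_pi_apply e).comp measurable_snd)
      measurable_const
  have heq : obsL (d := d) (fun _ => s) = φ ∘ obsL (fun _ => t) := by
    funext ω
    simp only [obsL, φ, Function.comp]
    congr 1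
    funext e
    by_cases h : inA s e ω.2.2
    · simp [h, wm_inA_mono hst h]
    · simp [h]
  unfold FL
  rw [heq, ← MeasurableSpace.comap_comp]
  exact MeasurableSpace.comap_mono hφ.comap_le

/-- Pull out the measurable factor and use the tower property. -/
lemma wm_integral_mul_of_condExp {Ω : Type*} {m m0 : MeasurableSpace Ω} {P : Measure Ω}
    [IsProbabilityMeasure P] (hm : m ≤ m0) {f g B : Ω → ℝ} (hf : Integrable f P)
    (hB : Measurable[m] B) {B₀ : ℝ} (hBb : ∀ ω, |B ω| ≤ B₀) (hg : P[f | m] =ᵐ[P] g) :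
    ∫ ω, g ω * B ω ∂P = ∫ ω, f ω * B ω ∂P := by
  have hBm : StronglyMeasurable[m] B := hB.stronglyMeasurable
  have hfB : Integrable (f * B) P := by
    have := hf.mul_bdd (c := B₀) (hBm.mono hm).aestronglyMeasurable
      (ae_of_all _ fun ω => by simpa [Real.norm_eq_abs] using hBb ω)
    exact this
  have h1 := condExp_mul_of_stronglyMeasurable_right hBm hfB hf
  calc ∫ ω, g ω * B ω ∂P = ∫ ω, (P[f * B | m]) ω ∂P := by
        refine integral_congr_ae ?_
        filter_upwards [h1, hg] with ω h2 h3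
        rw [h2]
        simp [h3]
    _ = ∫ ω, (f * B) ω ∂P := integral_condExp hm
    _ = ∫ ω, f ω * B ω ∂P := rfl

variable [Corr θ]

lemma wm_PD_integrable_of_bound {f : OmD d → ℝ} (hf : Measurable f) {C : ℝ} (hC : ∀ ω, |f ω| ≤ C) :
    Integrable f (PD d θ) :=
  Integrable.of_bound hf.aestronglyMeasurable C (ae_of_all _ fun ω => by simpa [Real.norm_eq_abs] using hC ω)

lemma wm_measurable_sp_comp {α : Type*} [MeasurableSpace α] {f : α → Bool} (hf : Measurable f) :
    Measurable (fun a => sp (f a)) :=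
  (measurable_of_countable sp).comp hf

lemma wm_abs_sp_eq (b : Bool) : |sp b| = 1 := by
  cases b <;> simp [sp]

/-- The martingale property between two fixed times. -/
theorem mm_martingale (h0 : 0 < θ) (h1 : θ < 1) {s t : ℝ} (hst : s ≤ t) (x : Word d) {B : OmD d → ℝ}
    (hB : Measurable[FL (fun _ => s)] B) {B₀ : ℝ} (hBb : ∀ ω, |B ω| ≤ B₀) :
    ∫ ω, mm θ x (yS t ω) * B ω ∂(PD d θ) = ∫ ω, mm θ x (yS s ω) * B ω ∂(PD d θ) := by
  have hf : Integrable (fun ω : OmD d => sp (ω.1 x)) (PD d θ) :=
    wm_PD_integrable_of_bound (C := 1)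
      (wm_measurable_sp_comp ((measurable_pi_apply x).comp measurable_fst))
      (fun ω => (wm_abs_sp_eq _).le)
  have e1 := wm_integral_mul_of_condExp (FL_le _ measurable_const) hf (hB.mono (FL_const_mono hst) le_rfl) hBb
    (condExp_spin h0 h1 (tt := fun _ => t) measurable_const ⟨t, fun _ => le_rfl⟩ x)
  have e2 := wm_integral_mul_of_condExp (FL_le _ measurable_const) hf hB hBb
    (condExp_spin h0 h1 (tt := fun _ => s) measurable_const ⟨s, fun _ => le_rfl⟩ x)
  exact e1.trans e2.symm

/-- The same for the pair function. -/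
theorem pair_martingale (h0 : 0 < θ) (h1 : θ < 1) {s t : ℝ} (hst : s ≤ t) (x : Word d) {B : OmD d → ℝ}
    (hB : Measurable[FL (fun _ => s)] B) {B₀ : ℝ} (hBb : ∀ ω, |B ω| ≤ B₀) :
    ∫ ω, (CCr θ x (yS t ω) + mm θ root (yS t ω) * mm θ x (yS t ω)) * B ω ∂(PD d θ) =
      ∫ ω, (CCr θ x (yS s ω) + mm θ root (yS s ω) * mm θ x (yS s ω)) * B ω ∂(PD d θ) := by
  have hf : Integrable (fun ω : OmD d => sp (ω.1 root) * sp (ω.1 x)) (PD d θ) :=
    wm_PD_integrable_of_bound (C := 1)
      ((wm_measurable_sp_comp ((measurable_pi_apply root).comp measurable_fst)).mul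
        (wm_measurable_sp_comp ((measurable_pi_apply x).comp measurable_fst)))
      (fun ω => by rw [abs_mul, wm_abs_sp_eq, wm_abs_sp_eq, one_mul])
  have e1 := wm_integral_mul_of_condExp (FL_le _ measurable_const) hf (hB.mono (FL_const_mono hst) le_rfl) hBb
    (condExp_pair h0 h1 (tt := fun _ => t) measurable_const ⟨t, fun _ => le_rfl⟩ x)
  have e2 := wm_integral_mul_of_condExp (FL_le _ measurable_const) hf hB hBb
    (condExp_pair h0 h1 (tt := fun _ => s) measurable_const ⟨s, fun _ => le_rfl⟩ x)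
  exact e1.trans e2.symm

omit [Corr θ] in
lemma wm_measurable_hh_aux (n : ℕ) (v : Word d) : Measurable (hh (d := d) θ n v) := by
  induction n generalizing v with
  | zero => exact measurable_pi_apply v
  | succ n ih =>
    show Measurable (fun y => y v + ∑ c ∈ kids v, Uf θ (hh θ n c y))
    exact (measurable_pi_apply v).add
      (Finset.measurable_sum _ (fun c _ => measurable_Uf.comp (ih c)))

lemma wm_measurable_CCr_aux (x : Word d) : Measurable (CCr (d := d) θ x) := by
  unfold CCr
  refine Measurable.mul ?_ ?_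
  · exact (((measurable_const.sub ((measurable_mm θ root).pow_const 2))).mul
      (measurable_const.sub ((measurable_mm θ x).pow_const 2))).sqrt
  · exact Finset.measurable_prod _ (fun i _ =>
      measurable_Rho.comp ((measurable_mm θ _).prodMk (measurable_mm θ _)))

/-- Integral of `psiPath` as a limit of the finite depth products. -/
lemma wm_integral_psiPath_le (hd : 3 ≤ d) (C : Crit (d - 1) θ) {μ : Measure ℝ} (hμ : Nish μ) {ε : ℝ}
    (hε : ∀ b : ℝ, ∫ h, psiF θ (h + b) ∂μ ≤ 1 - ε) (x : Word d) :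
    ∫ y, psiPath θ x y ∂(LawY d θ μ) ≤ (1 - ε) ^ len x := by
  have := hμ.prob
  have h0 := C.h0
  have h1 := C.h1
  have hg0 : ∀ h : ℝ, 0 ≤ psiF θ h := fun h => (psiF_pos h0.le h1 h).le
  have hg1 : ∀ h : ℝ, psiF θ h ≤ 1 := fun h => psiF_le_one h0.le h1 h
  have hyC : Measurable (yC (d := d)) := PathPeel_measurable_yC
  -- the finite depth products
  let G : ℕ → (Word d → ℝ) → ℝ := fun R y =>
    ∏ i ∈ Finset.range (len x), psiF θ (hh θ (R - (i + 1)) (ch x (i + 1)) y)
  have hGm : ∀ R, Measurable (G R) := fun R =>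
    Finset.measurable_prod _ (fun i _ => measurable_psiF.comp (wm_measurable_hh_aux _ _))
  have hPm : Measurable (psiPath (d := d) θ x) :=
    Finset.measurable_prod _ (fun i _ => measurable_psiF.comp (measurable_hhL θ _))
  have e1 : ∀ R, ∫ y, G R y ∂(LawY d θ μ) = ∫ ω, G R (yC ω) ∂(cnP d θ μ) := fun R => by
    unfold LawY
    rw [integral_map hyC.aemeasurable (hGm R).aestronglyMeasurable]
  have e2 : ∫ y, psiPath θ x y ∂(LawY d θ μ) = ∫ ω, psiPath θ x (yC ω) ∂(cnP d θ μ) := by
    unfold LawY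
    rw [integral_map hyC.aemeasurable hPm.aestronglyMeasurable]
  rw [e2]
  have hT : Tendsto (fun R => ∫ ω, G R (yC ω) ∂(cnP d θ μ)) atTop
      (𝓝 (∫ ω, psiPath θ x (yC ω) ∂(cnP d θ μ))) := by
    refine tendsto_integral_of_dominated_convergence (fun _ => (1 : ℝ))
      (fun R => ((hGm R).comp hyC).aestronglyMeasurable) (integrable_const _) ?_ ?_
    · intro R
      refine ae_of_all _ fun ω => ?_
      rw [Real.norm_eq_abs, abs_of_nonneg (Finset.prod_nonneg fun i _ => hg0 _)]
      exact Finset.prod_le_one (fun i _ => hg0 _) (fun i _ => hg1 _)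
    · filter_upwards [lv_tendsto_hh (d := d) h1 hμ] with ω hω
      refine tendsto_finsetProd _ fun i _ => ?_
      exact ((lv_continuous_psiF h0.le h1).tendsto _).comp
        ((hω _).comp (tendsto_sub_atTop_nat (i + 1)))
  refine le_of_tendsto hT ?_
  filter_upwards [eventually_ge_atTop (len x)] with R hR
  rw [← e1]
  exact path_peel_own hd C hμ hε x hR

/-- Uniform tail of the covariances: fresh noise of the previous block at each vertex of the path. -/
theorem CC_tail (hd : 3 ≤ d) (C : Crit (d - 1) θ) (j : ℤ) :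
    ∃ ε : ℝ, 0 < ε ∧ ε ≤ 1 ∧ ∀ (s : ℝ), (j : ℝ) ≤ s → ∀ x : Word d,
      ∫ ω, CCr θ x (yS s ω) ^ 2 ∂(PD d θ) ≤ θ ^ (2 * len x) * (1 - ε) ^ len x := by
  obtain ⟨ε, hε0, hε1, hε⟩ := mu_own_ac (θ := θ) hd C j
  refine ⟨ε, hε0, hε1, fun s hs x => ?_⟩
  have hd0 : 0 < d := by omega
  have h0 := C.h0
  have h1 := C.h1
  have hμ : Nish (muS d θ hd0 s) := mu_nish h0 h1 hd0 s
  have := hμ.prob
  have hg0 : ∀ h : ℝ, 0 ≤ psiF θ h := fun h => (psiF_pos h0.le h1 h).le
  have hg1 : ∀ h : ℝ, psiF θ h ≤ 1 := fun h => psiF_le_one h0.le h1 h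
  have hm : Measurable (fun y : Word d → ℝ => CCr θ x y ^ 2) := (wm_measurable_CCr_aux x).pow_const 2
  have hPm : Measurable (psiPath (d := d) θ x) :=
    Finset.measurable_prod _ (fun i _ => measurable_psiF.comp (measurable_hhL θ _))
  have e1 : ∫ ω, CCr θ x (yS s ω) ^ 2 ∂(PD d θ) = ∫ y, CCr θ x y ^ 2 ∂(LawY d θ (muS d θ hd0 s)) := by
    rw [← law_yS hd0 s, integral_map (measurable_yS' s).aemeasurable hm.aestronglyMeasurable]
  rw [e1]
  have hPnn : ∀ y : Word d → ℝ, 0 ≤ psiPath θ x y := fun y => Finset.prod_nonneg fun i _ => hg0 _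
  have hPle : ∀ y : Word d → ℝ, psiPath θ x y ≤ 1 := fun y =>
    Finset.prod_le_one (fun i _ => hg0 _) (fun i _ => hg1 _)
  have hPi : Integrable (psiPath (d := d) θ x) (LawY d θ (muS d θ hd0 s)) :=
    Integrable.of_bound hPm.aestronglyMeasurable 1 (ae_of_all _ fun y => by
      rw [Real.norm_eq_abs, abs_of_nonneg (hPnn y)]
      exact hPle y)
  have hae := ae_CCr_sq_le (d := d) (μ := muS d θ hd0 s) h0 h1 hμ
  have hle2 : ∫ y, CCr θ x y ^ 2 ∂(LawY d θ (muS d θ hd0 s)) ≤
      ∫ y, θ ^ (2 * len x) * psiPath θ x y ∂(LawY d θ (muS d θ hd0 s)) := by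
    refine integral_mono_of_nonneg (ae_of_all _ fun y => sq_nonneg _) (hPi.const_mul _) ?_
    filter_upwards [hae] with y hy
    exact hy x
  refine hle2.trans ?_
  rw [integral_const_mul]
  exact mul_le_mul_of_nonneg_left (wm_integral_psiPath_le hd C hμ (fun b => hε s hs b) x) (by positivity)

end Vale.Agent.Lib.P161B
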