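import Vale.Agent.Lib.P161B.Energy
import Vale.Agent.Lib.P161B.WindowMart
import Vale.Agent.Lib.P161.SLSum

/-!
The energy identity on the whole tree: the limit of the energy identity on balls, with a uniform tail bound
from the product formula on a ball and the own noise of the vertices on a path.
-/

namespace Vale.Agent.Lib.P161B

open MeasureTheory ProbabilityTheory Filter Set
open Vale.Agent.Lib.P161
open scoped Topology

variable {d : ℕ} {θ : ℝ} [Corr θ]

omit [Corr θ] in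
/-- Continuity of the function `gamK` along sequences in `[-1, 1]`. -/
lemma enl_gamK_tendsto {κ : ℝ} (h0 : 0 ≤ κ) (hκ : κ ≤ 1 / 2) {m : ℕ → ℝ} {m₀ : ℝ} (hm : ∀ n, |m n| ≤ 1)
    (hm₀ : |m₀| ≤ 1) (hlim : Tendsto m atTop (𝓝 m₀)) :
    Tendsto (fun n => gamK κ (m n) (m n)) atTop (𝓝 (gamK κ m₀ m₀)) := by
  unfold gamK
  have hmeas : ∀ c : ℝ, Measurable (fun u : unitInterval => Gk κ c u) := by
    intro c
    have h1 : Measurable (fun u : unitInterval => ((c, (u : ℝ)) : ℝ × ℝ)) :=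
      measurable_const.prodMk measurable_subtype_coe
    exact (measurable_Gk κ).comp h1
  refine tendsto_integral_of_dominated_convergence (fun _ => (2 * κ) * (2 * κ)) ?_ (integrable_const _) ?_ ?_
  · intro n
    exact ((hmeas (m n)).mul (hmeas (m n))).aestronglyMeasurable
  · intro n
    refine ae_of_all _ fun u => ?_
    rw [Real.norm_eq_abs, abs_mul]
    have h1 := Gk_abs h0 hκ (hm n) u.2
    exact mul_le_mul h1 h1 (abs_nonneg _) (by positivity)
  · refine ae_of_all _ fun u => ?_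
    have h1 : Tendsto (fun n => Gk κ (m n) u) atTop (𝓝 (Gk κ m₀ u)) := by
      rw [tendsto_iff_dist_tendsto_zero]
      have h2 : Tendsto (fun n => 8 * κ ^ 2 * |m n - m₀|) atTop (𝓝 0) := by
        have h3 : Tendsto (fun n => |m n - m₀|) atTop (𝓝 0) := by
          have := (tendsto_iff_dist_tendsto_zero.mp hlim)
          simpa [Real.dist_eq] using this
        simpa using h3.const_mul (8 * κ ^ 2)
      refine squeeze_zero (fun n => dist_nonneg) (fun n => ?_) h2
      rw [Real.dist_eq]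
      exact Gk_lip h0 hκ (hm n) hm₀ u.2
    exact h1.mul h1

omit [Corr θ] in
lemma enl_ch_ne_root {x : Word d} {i : ℕ} (hi : i < len x) : ch x (i + 1) ≠ root := by
  intro h
  have h1 := PathPeel_len_ch x (i := i + 1) (by omega)
  rw [h] at h1
  simp at h1

/-- The square of the covariance on a ball is bounded by the product of `ψ`. -/
lemma enl_cov_sq_le (h0 : 0 < θ) (h1 : θ < 1) {R : ℕ} {x : Word d} (hx : x ∈ ball R) (y : Word d → ℝ) :
    covD θ (ball R) y root x ^ 2 ≤
      θ ^ (2 * len x) * ∏ i ∈ Finset.range (len x), psiF θ (hh θ (R - (i + 1)) (ch x (i + 1)) y) := by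
  have hR : len x ≤ R := mem_ball.mp hx
  have hpath := covD_path h0 h1 (ball_connClosed R) (nb_ch x) (fun i _ => lv_ch_mem hR i) y
  rw [lv_ch_zero, lv_ch_len] at hpath
  rw [hpath, mul_pow]
  have hm1 : mD θ (ball R) y root ^ 2 ≤ 1 := by
    have := abs_le.mp (en_abs_mD (θ := θ) (ball R) y root)
    nlinarith [this.1, this.2]
  have hm2 : mD θ (ball R) y x ^ 2 ≤ 1 := by
    have := abs_le.mp (en_abs_mD (θ := θ) (ball R) y x)
    nlinarith [this.1, this.2]
  have hA0 : 0 ≤ (1 - mD θ (ball R) y root ^ 2) * (1 - mD θ (ball R) y x ^ 2) :=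
    mul_nonneg (by linarith) (by linarith)
  rw [Real.sq_sqrt hA0]
  have hA1 : (1 - mD θ (ball R) y root ^ 2) * (1 - mD θ (ball R) y x ^ 2) ≤ 1 := by
    have h3 : 0 ≤ mD θ (ball R) y root ^ 2 := sq_nonneg _
    have h4 : 0 ≤ mD θ (ball R) y x ^ 2 := sq_nonneg _
    have h5 : 1 - mD θ (ball R) y root ^ 2 ≤ 1 := by linarith
    have h6 : 1 - mD θ (ball R) y x ^ 2 ≤ 1 := by linarith
    calc _ ≤ (1 : ℝ) * 1 := mul_le_mul h5 h6 (by linarith) (by norm_num)
      _ = 1 := by norm_num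
  have hprod : (∏ i ∈ Finset.range (len x), Rho θ (mD θ (ball R) y (ch x i)) (mD θ (ball R) y (ch x (i + 1)))) ^ 2 ≤
      θ ^ (2 * len x) * ∏ i ∈ Finset.range (len x), psiF θ (hh θ (R - (i + 1)) (ch x (i + 1)) y) := by
    rw [← Finset.prod_pow]
    have e : θ ^ (2 * len x) = ∏ _i ∈ Finset.range (len x), θ ^ 2 := by
      rw [Finset.prod_const, Finset.card_range, ← pow_mul]
    rw [e, ← Finset.prod_mul_distrib]
    refine Finset.prod_le_prod (fun i _ => sq_nonneg _) fun i hi => ?_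
    have hi' : i < len x := Finset.mem_range.mp hi
    have hc := enl_ch_ne_root hi'
    have hlen := PathPeel_len_ch x (i := i + 1) (by omega)
    have hle : len (ch x (i + 1)) ≤ R := by omega
    have h3 := Rho_sq_le h0 h1 hc hle y
    rw [PathPeel_parent_ch x hi', hlen] at h3
    exact h3
  have hprod0 : 0 ≤ (∏ i ∈ Finset.range (len x), Rho θ (mD θ (ball R) y (ch x i)) (mD θ (ball R) y (ch x (i + 1)))) ^ 2 :=
    sq_nonneg _
  calc _ ≤ 1 * (∏ i ∈ Finset.range (len x), Rho θ (mD θ (ball R) y (ch x i)) (mD θ (ball R) y (ch x (i + 1)))) ^ 2 :=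
        mul_le_mul_of_nonneg_right hA1 hprod0
    _ ≤ _ := by rw [one_mul]; exact hprod

/-- The tail bound at a fixed time. -/
lemma enl_cov_int_le (hd : 3 ≤ d) (C : Crit (d - 1) θ) {ε : ℝ} {s : ℝ}
    (hε : ∀ b : ℝ, ∫ h, psiF θ (h + b) ∂(muS d θ (by omega) s) ≤ 1 - ε) {R : ℕ} {x : Word d} (hx : x ∈ ball R) :
    ∫ ω, covD θ (ball R) (yS s ω) root x ^ 2 ∂(PD d θ) ≤ θ ^ (2 * len x) * (1 - ε) ^ len x := by
  have hd0 : 0 < d := by omega
  have h0 := C.h0
  have h1 := C.h1
  have hlaw := law_yS (θ := θ) hd0 s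
  have hmu := mu_nish h0 h1 hd0 s
  have := hmu.prob
  have hm : Measurable (fun y : Word d → ℝ => covD θ (ball R) y root x ^ 2) :=
    (en_measurable_covD (ball R) root x).pow_const 2
  have e1 : ∫ ω, covD θ (ball R) (yS s ω) root x ^ 2 ∂(PD d θ) =
      ∫ y, covD θ (ball R) y root x ^ 2 ∂(LawY d θ (muS d θ hd0 s)) := by
    rw [← hlaw, integral_map (measurable_yS' s).aemeasurable hm.aestronglyMeasurable]
  rw [e1]
  have hpeel := path_peel_own hd C hmu hε x (mem_ball.mp hx)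
  have hPm : Measurable (fun y : Word d → ℝ =>
      ∏ i ∈ Finset.range (len x), psiF θ (hh θ (R - (i + 1)) (ch x (i + 1)) y)) := by
    refine Finset.measurable_prod _ fun i _ => ?_
    exact (lv_continuous_psiF h0.le h1).measurable.comp (gibbsAlg_measurable_hh θ _ _)
  have hPb : ∀ y : Word d → ℝ, ‖∏ i ∈ Finset.range (len x), psiF θ (hh θ (R - (i + 1)) (ch x (i + 1)) y)‖ ≤ 1 := by
    intro y
    rw [Real.norm_eq_abs, Finset.abs_prod]
    refine Finset.prod_le_one (fun i _ => abs_nonneg _) fun i _ => ?_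
    rw [abs_of_pos (psiF_pos h0.le h1 _)]
    exact psiF_le_one h0.le h1 _
  have hPi : Integrable (fun y : Word d → ℝ =>
      ∏ i ∈ Finset.range (len x), psiF θ (hh θ (R - (i + 1)) (ch x (i + 1)) y)) (LawY d θ (muS d θ hd0 s)) :=
    Integrable.of_bound hPm.aestronglyMeasurable 1 (ae_of_all _ hPb)
  have hCi : Integrable (fun y : Word d → ℝ => covD θ (ball R) y root x ^ 2) (LawY d θ (muS d θ hd0 s)) := by
    refine Integrable.of_bound hm.aestronglyMeasurable 4 (ae_of_all _ fun y => ?_)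
    rw [Real.norm_eq_abs, abs_pow]
    have h2 := en_abs_covD (θ := θ) (ball R) y root x
    nlinarith [abs_nonneg (covD θ (ball R) y root x)]
  calc ∫ y, covD θ (ball R) y root x ^ 2 ∂(LawY d θ (muS d θ hd0 s))
      ≤ ∫ y, θ ^ (2 * len x) * ∏ i ∈ Finset.range (len x), psiF θ (hh θ (R - (i + 1)) (ch x (i + 1)) y)
          ∂(LawY d θ (muS d θ hd0 s)) :=
        integral_mono hCi (hPi.const_mul _) fun y => enl_cov_sq_le h0 h1 hx y
    _ = θ ^ (2 * len x) * ∫ y, ∏ i ∈ Finset.range (len x), psiF θ (hh θ (R - (i + 1)) (ch x (i + 1)) y)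
          ∂(LawY d θ (muS d θ hd0 s)) := integral_const_mul _ _
    _ ≤ _ := mul_le_mul_of_nonneg_left hpeel (by positivity)

/-- The term of the sum on a ball. -/
noncomputable def aR (θ : ℝ) (R : ℕ) (j : ℤ) (a b : ℝ) (x : Word d) : ℝ :=
  ∫ ω, Set.indicator {ω : OmD d | inW a b (x, j) ω.2.2}
    (fun ω => rI θ (ball R) root x (kp j) (yS (tE (x, j) ω.2.2) ω)) ω ∂(PD d θ)

/-- The term of the sum in the limit. -/
noncomputable def aI (θ : ℝ) (j : ℤ) (a b : ℝ) (x : Word d) : ℝ :=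
  ∫ ω, Set.indicator {ω : OmD d | inW a b (x, j) ω.2.2}
    (fun ω => CCr θ x (yS (tE (x, j) ω.2.2) ω) ^ 2 *
      gamK (kp j) (mm θ x (yS (tE (x, j) ω.2.2) ω)) (mm θ x (yS (tE (x, j) ω.2.2) ω))) ω ∂(PD d θ)

/-- The uniform tail bound for the terms on a ball. -/
lemma enl_aR_bound (hd : 3 ≤ d) (C : Crit (d - 1) θ) {j : ℤ} {a b : ℝ} (ha : (j : ℝ) ≤ a) (hab : a ≤ b)
    (hb : b ≤ j + 1) {ε : ℝ}
    (hε : ∀ s : ℝ, (j : ℝ) ≤ s → ∀ b : ℝ, ∫ h, psiF θ (h + b) ∂(muS d θ (by omega) s) ≤ 1 - ε)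
    {R : ℕ} {x : Word d} (hx : x ∈ ball R) :
    ‖aR θ R j a b x‖ ≤ (b - a) * (θ ^ 2 * (1 - ε)) ^ len x := by
  have hκ0 := (kp_pos j).le
  have hκ1 := kp_le j
  have hF : Measurable (fun ω : OmD d => rI θ (ball R) root x (kp j) (yS (tE (x, j) ω.2.2) ω)) :=
    (en_measurable_rI (θ := θ) (ball R) root x (kp j)).comp (en_measurable_yS_tE (x, j))
  have hS := en_measurableSet_inW (d := d) a b (x, j)
  have hnn : ∀ ω : OmD d, 0 ≤ Set.indicator {ω : OmD d | inW a b (x, j) ω.2.2}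
      (fun ω => rI θ (ball R) root x (kp j) (yS (tE (x, j) ω.2.2) ω)) ω := by
    intro ω
    exact Set.indicator_nonneg (fun ω _ => (en_rI_bounds (θ := θ) _ _ _ hκ0 hκ1 _).1) ω
  have h0' : 0 ≤ aR θ R j a b x := integral_nonneg hnn
  rw [Real.norm_of_nonneg h0']
  -- palm
  let Φ : ℝ → OmD d → ℝ := fun s ω => covD θ (ball R) (yS s ω) root x ^ 2
  have hΦm : Measurable (fun p : ℝ × OmD d => Φ p.1 p.2) := by
    have hy : Measurable (fun p : ℝ × OmD d => yS p.1 p.2) :=
      measurable_pi_iff.mpr fun v => measurable_yS v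
    have h2 := ((en_measurable_covD (θ := θ) (ball R) root x).pow_const 2).comp hy
    exact h2
  have hΦ0 : ∀ s ω, 0 ≤ Φ s ω := fun s ω => sq_nonneg _
  have hΦB : ∀ s ω, Φ s ω ≤ 4 := by
    intro s ω
    have h2 := abs_le.mp (en_abs_covD (θ := θ) (ball R) (yS s ω) root x)
    simp only [Φ]
    nlinarith [h2.1, h2.2]
  have hΦe : ∀ s (ω ω' : OmD d), ω.1 = ω'.1 → ω.2.1 = ω'.2.1 →
      (∀ e', e' ≠ (x, j) → ω.2.2 e' = ω'.2.2 e') → s ≤ tE (x, j) ω.2.2 → s ≤ tE (x, j) ω'.2.2 →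
      Φ s ω = Φ s ω' := by
    intro s ω ω' h1 h2 h3 h4 h5
    simp only [Φ]
    rw [yS_label_indep s (x, j) h1 h2 h3 h4 h5]
  have hC : ∀ s, a ≤ s → s < b → ∫ ω, Φ s ω ∂(PD d θ) ≤ θ ^ (2 * len x) * (1 - ε) ^ len x :=
    fun s hs _ => enl_cov_int_le hd C (hε s (ha.trans hs)) hx
  have hpalm := palm_explicit (θ := θ) (x, j) ha hb hab hΦm hΦ0 hΦB hΦe hC
  have hmono : aR θ R j a b x ≤ ∫ ω, Set.indicator {ω : OmD d | inW a b (x, j) ω.2.2}
      (fun ω => Φ (tE (x, j) ω.2.2) ω) ω ∂(PD d θ) := by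
    unfold aR
    refine integral_mono ?_ ?_ fun ω => ?_
    · refine Integrable.of_bound (C := 4) (hF.indicator hS).aestronglyMeasurable (ae_of_all _ fun ω => ?_)
      simp only [Set.indicator]
      split_ifs
      · rw [Real.norm_eq_abs]
        exact en_rI_abs _ _ _ hκ0 hκ1 _
      · simp
    · have hG : Measurable (fun ω : OmD d => Φ (tE (x, j) ω.2.2) ω) := by
        have h5 := hΦm.comp ((en_measurable_tE (d := d) (x, j)).prodMk measurable_id)
        exact h5
      refine Integrable.of_bound (C := 4) (hG.indicator hS).aestronglyMeasurable (ae_of_all _ fun ω => ?_)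
      simp only [Set.indicator]
      split_ifs
      · rw [Real.norm_of_nonneg (hΦ0 _ _)]
        exact hΦB _ _
      · simp
    · refine Set.indicator_le_indicator ?_
      exact (en_rI_bounds (θ := θ) _ _ _ hκ0 hκ1 _).2.trans (by simp [Φ])
  calc aR θ R j a b x ≤ _ := hmono
    _ ≤ _ := hpalm
    _ = _ := by rw [mul_pow, ← pow_mul]

/-- Almost surely on the window, the ball quantities at the time of the event converge. -/
lemma enl_ae_good (hd : 3 ≤ d) (C : Crit (d - 1) θ) {j : ℤ} {a b : ℝ} (ha : (j : ℝ) ≤ a) (hab : a ≤ b)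
    (hb : b ≤ j + 1) (x : Word d) :
    ∀ᵐ ω ∂(PD d θ), inW a b (x, j) ω.2.2 →
      Tendsto (fun R => mD θ (ball R) (yS (tE (x, j) ω.2.2) ω) x) atTop
        (𝓝 (mm θ x (yS (tE (x, j) ω.2.2) ω))) ∧
      Tendsto (fun R => covD θ (ball R) (yS (tE (x, j) ω.2.2) ω) root x) atTop
        (𝓝 (CCr θ x (yS (tE (x, j) ω.2.2) ω))) := by
  have hd0 : 0 < d := by omega
  have h0 := C.h0
  have h1 := C.h1
  set Good : Set (Word d → ℝ) := {y | Tendsto (fun R => mD θ (ball R) y x) atTop (𝓝 (mm θ x y)) ∧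
    Tendsto (fun R => covD θ (ball R) y root x) atTop (𝓝 (CCr θ x y))} with hGood
  have hGm : MeasurableSet Good := by
    have h2 : MeasurableSet {y : Word d → ℝ | Tendsto (fun R => mD θ (ball R) y x) atTop (𝓝 (mm θ x y))} :=
      measurableSet_tendsto_fun (fun R => en_measurable_mD (θ := θ) (ball R) x) (measurable_mm θ x)
    have h3 : MeasurableSet {y : Word d → ℝ | Tendsto (fun R => covD θ (ball R) y root x) atTop (𝓝 (CCr θ x y))} :=
      measurableSet_tendsto_fun (fun R => en_measurable_covD (θ := θ) (ball R) root x) (wm_measurable_CCr_aux x)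
    exact h2.inter h3
  let Φ : ℝ → OmD d → ℝ := fun s ω => Set.indicator Goodᶜ (fun _ => (1 : ℝ)) (yS s ω)
  have hy : Measurable (fun p : ℝ × OmD d => yS p.1 p.2) :=
    measurable_pi_iff.mpr fun v => measurable_yS v
  have hΦm : Measurable (fun p : ℝ × OmD d => Φ p.1 p.2) := by
    have h2 : Measurable (Set.indicator Goodᶜ (fun _ : Word d → ℝ => (1 : ℝ))) :=
      measurable_const.indicator hGm.compl
    have h5 := h2.comp hy
    exact h5
  have hΦ0 : ∀ s ω, 0 ≤ Φ s ω := fun s ω => Set.indicator_nonneg (fun _ _ => zero_le_one) _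
  have hΦB : ∀ s ω, Φ s ω ≤ 1 := fun s ω => by
    simp only [Φ, Set.indicator]
    split_ifs <;> norm_num
  have hΦe : ∀ s (ω ω' : OmD d), ω.1 = ω'.1 → ω.2.1 = ω'.2.1 →
      (∀ e', e' ≠ (x, j) → ω.2.2 e' = ω'.2.2 e') → s ≤ tE (x, j) ω.2.2 → s ≤ tE (x, j) ω'.2.2 →
      Φ s ω = Φ s ω' := by
    intro s ω ω' h1 h2 h3 h4 h5
    simp only [Φ]
    rw [yS_label_indep s (x, j) h1 h2 h3 h4 h5]
  have hC : ∀ s, a ≤ s → s < b → ∫ ω, Φ s ω ∂(PD d θ) ≤ 0 := by
    intro s _ _
    have hlaw := law_yS (θ := θ) hd0 s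
    have hmu := mu_nish h0 h1 hd0 s
    have hae : ∀ᵐ y ∂(LawY d θ (muS d θ hd0 s)), y ∈ Good := by
      filter_upwards [ae_tendsto_mD h1 hmu, ae_tendsto_covD h0 h1 hmu] with y h2 h3
      exact ⟨(h2 x).1, h3 x⟩
    have hae2 : ∀ᵐ ω ∂(PD d θ), yS s ω ∈ Good := by
      rw [← hlaw] at hae
      exact ae_of_ae_map (measurable_yS' s).aemeasurable hae
    have : ∫ ω, Φ s ω ∂(PD d θ) = 0 := by
      refine integral_eq_zero_of_ae ?_
      filter_upwards [hae2] with ω hω
      simp [Φ, Set.indicator, hω]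
    exact this.le
  have hpalm := palm_explicit (θ := θ) (x, j) ha hb hab hΦm hΦ0 hΦB hΦe hC
  rw [mul_zero] at hpalm
  have hS := en_measurableSet_inW (d := d) a b (x, j)
  have hG : Measurable (fun ω : OmD d => Φ (tE (x, j) ω.2.2) ω) := by
    have h5 := hΦm.comp ((en_measurable_tE (d := d) (x, j)).prodMk measurable_id)
    exact h5
  have hI : Integrable (Set.indicator {ω : OmD d | inW a b (x, j) ω.2.2}
      (fun ω => Φ (tE (x, j) ω.2.2) ω)) (PD d θ) := by
    refine Integrable.of_bound (C := 1) (hG.indicator hS).aestronglyMeasurable (ae_of_all _ fun ω => ?_)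
    simp only [Set.indicator]
    split_ifs
    · rw [Real.norm_of_nonneg (hΦ0 _ _)]
      exact hΦB _ _
    · simp
  have hI0 : 0 ≤ᵐ[PD d θ] Set.indicator {ω : OmD d | inW a b (x, j) ω.2.2}
      (fun ω => Φ (tE (x, j) ω.2.2) ω) := ae_of_all _ fun ω => Set.indicator_nonneg (fun ω _ => hΦ0 _ _) ω
  have hz := (integral_eq_zero_iff_of_nonneg_ae hI0 hI).mp (le_antisymm hpalm (integral_nonneg_of_ae hI0))
  filter_upwards [hz] with ω hω hin
  have h2 : Φ (tE (x, j) ω.2.2) ω = 0 := by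
    have h3 : ω ∈ {ω : OmD d | inW a b (x, j) ω.2.2} := hin
    rw [Set.indicator_of_mem h3] at hω
    exact hω
  by_contra hcon
  have h3 : yS (tE (x, j) ω.2.2) ω ∈ Goodᶜ := fun h => hcon h
  simp only [Φ, Set.indicator_of_mem h3] at h2
  exact one_ne_zero h2

/-- Convergence of the terms. -/
lemma enl_aR_tendsto (hd : 3 ≤ d) (C : Crit (d - 1) θ) {j : ℤ} {a b : ℝ} (ha : (j : ℝ) ≤ a) (hab : a ≤ b)
    (hb : b ≤ j + 1) (x : Word d) :
    Tendsto (fun R => aR θ R j a b x) atTop (𝓝 (aI θ j a b x)) := by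
  have hκ0 := (kp_pos j).le
  have hκ1 := kp_le j
  have hS := en_measurableSet_inW (d := d) a b (x, j)
  unfold aR aI
  refine tendsto_integral_of_dominated_convergence (fun _ => 4) ?_ (integrable_const _) ?_ ?_
  · intro R
    have hF : Measurable (fun ω : OmD d => rI θ (ball R) root x (kp j) (yS (tE (x, j) ω.2.2) ω)) :=
      (en_measurable_rI (θ := θ) (ball R) root x (kp j)).comp (en_measurable_yS_tE (x, j))
    exact (hF.indicator hS).aestronglyMeasurable
  · intro R
    refine ae_of_all _ fun ω => ?_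
    simp only [Set.indicator]
    split_ifs
    · rw [Real.norm_eq_abs]
      exact en_rI_abs _ _ _ hκ0 hκ1 _
    · simp
  · filter_upwards [enl_ae_good hd C ha hab hb x] with ω hω
    by_cases hin : inW a b (x, j) ω.2.2
    · have h3 : ω ∈ {ω : OmD d | inW a b (x, j) ω.2.2} := hin
      simp only [Set.indicator_of_mem h3]
      obtain ⟨h1, h2⟩ := hω hin
      unfold rI
      refine (h2.pow 2).mul ?_
      have hm₀ : |mm θ x (yS (tE (x, j) ω.2.2) ω)| ≤ 1 := by
        have := PathPeel_mm_abs θ x (yS (tE (x, j) ω.2.2) ω)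
        rw [abs_le]
        constructor <;> nlinarith
      exact enl_gamK_tendsto hκ0 hκ1 (fun R => en_abs_mD _ _ _) hm₀ h1
    · have h3 : ω ∉ {ω : OmD d | inW a b (x, j) ω.2.2} := hin
      simp only [Set.indicator_of_notMem h3]
      exact tendsto_const_nhds

/-- The second moment at a fixed time on balls. -/
lemma enl_q_tendsto (hd : 3 ≤ d) (C : Crit (d - 1) θ) (s : ℝ) :
    Tendsto (fun R => ∫ ω, mD θ (ball R) (yS s ω) root ^ 2 ∂(PD d θ)) atTop
      (𝓝 (∫ ω, mm θ root (yS s ω) ^ 2 ∂(PD d θ))) := by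
  have hd0 : 0 < d := by omega
  have h0 := C.h0
  have h1 := C.h1
  have hlaw := law_yS (θ := θ) hd0 s
  have hmu := mu_nish h0 h1 hd0 s
  have hae : ∀ᵐ y ∂((PD d θ).map (yS s)), Tendsto (fun R => mD θ (ball R) y root) atTop (𝓝 (mm θ root y)) := by
    rw [hlaw]
    filter_upwards [ae_tendsto_mD h1 hmu] with y h2
    exact (h2 root).1
  have hae2 := ae_of_ae_map (measurable_yS' s).aemeasurable hae
  refine tendsto_integral_of_dominated_convergence (fun _ => 1) ?_ (integrable_const _) ?_ ?_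
  · intro R
    exact (((en_measurable_mD (θ := θ) (ball R) root).comp (measurable_yS' s)).pow_const 2).aestronglyMeasurable
  · intro R
    refine ae_of_all _ fun ω => ?_
    rw [Real.norm_eq_abs, abs_pow]
    exact pow_le_one₀ (abs_nonneg _) (en_abs_mD _ _ _)
  · filter_upwards [hae2] with ω hω
    exact hω.pow 2

omit [Corr θ] in
lemma enl_ball_tendsto : Tendsto (ball : ℕ → Finset (Word d)) atTop atTop := by
  refine tendsto_atTop_finset_of_monotone (fun a b h v hv => ?_) (fun x => ⟨len x, mem_ball.mpr le_rfl⟩)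
  rw [mem_ball] at hv ⊢
  omega

/-- The energy identity on the tree. -/
theorem en_energy_id (hd : 3 ≤ d) (C : Crit (d - 1) θ) {j : ℤ} {a b : ℝ} (ha : (j : ℝ) ≤ a) (hab : a ≤ b)
    (hb : b ≤ j + 1) :
    Tendsto (fun R : ℕ => ∑ x ∈ (ball R : Finset (Word d)), aI θ j a b x) atTop
      (𝓝 (∫ ω, mm θ root (yS b ω) ^ 2 ∂(PD d θ) - ∫ ω, mm θ root (yS a ω) ^ 2 ∂(PD d θ))) := by
  classical
  have hd0 : 0 < d := by omega
  have h0 := C.h0
  have h1 := C.h1
  obtain ⟨ε, hε0, hε1, hε⟩ := mu_own_ac hd C j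
  set q : ℝ := θ ^ 2 * (1 - ε) with hq
  have hq0 : 0 ≤ q := mul_nonneg (sq_nonneg _) (by linarith)
  have hcrit : ((d : ℝ) - 1) * θ ^ 2 = 1 := by
    have h2 := C.hθ
    have h3 : ((d - 1 : ℕ) : ℝ) = (d : ℝ) - 1 := by
      rw [Nat.cast_sub (by omega)]
      simp
    rw [h3] at h2
    exact h2
  have hρ : ((d : ℝ) - 1) * q < 1 := by
    rw [hq, ← mul_assoc, hcrit]
    linarith
  have hsum : Summable (fun x : Word d => (b - a) * q ^ len x) :=
    (summable_weight hq0 (by omega) hρ).mul_left _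
  have hba : 0 ≤ b - a := by linarith
  -- the bound
  have hbd : ∀ R, ∀ x ∈ (ball R : Finset (Word d)), ‖aR θ R j a b x‖ ≤ (b - a) * q ^ len x :=
    fun R x hx => enl_aR_bound hd C ha hab hb hε hx
  -- the limit of the terms is also bounded
  have hbdI : ∀ x : Word d, ‖aI θ j a b x‖ ≤ (b - a) * q ^ len x := by
    intro x
    refine le_of_tendsto ((enl_aR_tendsto hd C ha hab hb x).norm) ?_
    filter_upwards [eventually_ge_atTop (len x)] with R hR
    exact hbd R x (mem_ball.mpr hR)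
  have hsumI : Summable (aI (d := d) θ j a b) := Summable.of_norm_bounded hsum hbdI
  -- Tannery
  let f : ℕ → Word d → ℝ := fun R x => if x ∈ (ball R : Finset (Word d)) then aR θ R j a b x else 0
  have hf1 : ∀ x, Tendsto (fun R => f R x) atTop (𝓝 (aI θ j a b x)) := by
    intro x
    refine (enl_aR_tendsto hd C ha hab hb x).congr' ?_
    filter_upwards [eventually_ge_atTop (len x)] with R hR
    simp only [f]
    rw [if_pos (mem_ball.mpr hR)]
  have hf2 : ∀ᶠ R in atTop, ∀ x, ‖f R x‖ ≤ (b - a) * q ^ len x := by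
    refine Eventually.of_forall fun R x => ?_
    simp only [f]
    split_ifs with hx
    · exact hbd R x hx
    · rw [norm_zero]
      positivity
  have hT := tendsto_tsum_of_dominated_convergence hsum hf1 hf2
  have hval : ∀ R, ∑' x, f R x = ∫ ω, mD θ (ball R) (yS b ω) root ^ 2 ∂(PD d θ) -
      ∫ ω, mD θ (ball R) (yS a ω) root ^ 2 ∂(PD d θ) := by
    intro R
    have h2 : ∑' x, f R x = ∑ x ∈ (ball R : Finset (Word d)), aR θ R j a b x := by
      rw [tsum_eq_sum (s := ball R) (fun x hx => by simp only [f]; rw [if_neg hx])]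
      exact Finset.sum_congr rfl fun x hx => by simp only [f]; rw [if_pos hx]
    rw [h2, en_finite_energy h1 (ball R) root ha hab hb]
    rfl
  simp_rw [hval] at hT
  have hq2 := (enl_q_tendsto hd C b).sub (enl_q_tendsto hd C a)
  have huniq := tendsto_nhds_unique hT hq2
  rw [← huniq]
  exact hsumI.hasSum.comp enl_ball_tendsto

end Vale.Agent.Lib.P161B
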