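import Vale.Agent.Lib.P161B.Dyn
import Vale.Agent.Lib.P161.SLMain

/-!
The passage from a measurable function of the innovations and the labels, giving the spin at the root, to a
factor map on the space of priorities and noise, and from that factor map to the closed range of parameters.
-/

namespace Vale.Agent.Lib.P161B

open MeasureTheory ProbabilityTheory Filter Set
open Vale.Agent.Lib.P161

variable {d : ℕ} {θ : ℝ}

/-- The action of the automorphisms on pairs of label arrays. -/
def actL (g : Aut d) (w : LabT d × LabT d) : LabT d × LabT d :=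
  (fun e => w.1 (g.symm e.1, e.2), fun e => w.2 (g.symm e.1, e.2))

lemma measurable_actL (g : Aut d) : Measurable (actL (d := d) g) :=
  (measurable_pi_lambda _ fun _ => (measurable_pi_apply _).comp measurable_fst).prodMk
    (measurable_pi_lambda _ fun _ => (measurable_pi_apply _).comp measurable_snd)

/-- The index map used for decoding the noise. -/
def ixS : Ev d ⊕ Ev d → Ix d
  | Sum.inl e => (e.1, Encodable.encode (false, e.2))
  | Sum.inr e => (e.1, Encodable.encode (true, e.2))

lemma ixS_inj : Function.Injective (ixS (d := d)) := by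
  have key : ∀ {b b' : Bool} {j j' : ℤ}, Encodable.encode (b, j) = Encodable.encode (b', j') →
      b = b' ∧ j = j' := by
    intro b b' j j' h
    have h1 := Encodable.encode_injective h
    exact ⟨(Prod.mk.inj h1).1, (Prod.mk.inj h1).2⟩
  rintro (⟨v, j⟩ | ⟨v, j⟩) (⟨v', j'⟩ | ⟨v', j'⟩) h
  · have h1 := Prod.mk.inj h
    have h2 := key h1.2
    have h3 : v = v' := h1.1
    have h4 : j = j' := h2.2
    rw [h3, h4]
  · have h1 := Prod.mk.inj h
    have h2 := key h1.2
    exact absurd h2.1 (by simp)
  · have h1 := Prod.mk.inj h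
    have h2 := key h1.2
    exact absurd h2.1 (by simp)
  · have h1 := Prod.mk.inj h
    have h2 := key h1.2
    have h3 : v = v' := h1.1
    have h4 : j = j' := h2.2
    rw [h3, h4]

lemma finalAux_volE_prob : IsProbabilityMeasure (volE d) := by
  unfold volE
  infer_instance

/-- Joining two arrays. -/
def joinS (w : LabT d × LabT d) : Ev d ⊕ Ev d → unitInterval := Sum.elim w.1 w.2

/-- Splitting an array into two arrays. -/
def splitS (x : Ev d ⊕ Ev d → unitInterval) : LabT d × LabT d :=
  (fun e => x (Sum.inl e), fun e => x (Sum.inr e))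

lemma measurable_joinS : Measurable (joinS (d := d)) := by
  refine measurable_pi_lambda _ fun i => ?_
  rcases i with e | e
  · exact (measurable_pi_apply e).comp measurable_fst
  · exact (measurable_pi_apply e).comp measurable_snd

lemma measurable_splitS : Measurable (splitS (d := d)) :=
  (measurable_pi_lambda _ fun _ => measurable_pi_apply _).prodMk
    (measurable_pi_lambda _ fun _ => measurable_pi_apply _)

/-- The uniform law on the sum of two copies of the index set. -/
noncomputable def volS (d : ℕ) : Measure (Ev d ⊕ Ev d → unitInterval) :=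
  Measure.infinitePi (fun _ : Ev d ⊕ Ev d => (volume : Measure unitInterval))

lemma mp_joinS : MeasurePreserving (joinS (d := d)) ((volE d).prod (volE d)) (volS d) := by
  classical
  have := finalAux_volE_prob (d := d)
  refine ⟨measurable_joinS, ?_⟩
  refine Measure.eq_infinitePi _ ?_
  intro s t ht
  rw [Measure.map_apply measurable_joinS (MeasurableSet.pi (Finset.countable_toSet s) fun i _ => ht i)]
  have hset : joinS (d := d) ⁻¹' (Set.pi (s : Set (Ev d ⊕ Ev d)) t) =
      (Set.pi (s.toLeft : Set (Ev d)) (fun e => t (Sum.inl e))) ×ˢ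
        (Set.pi (s.toRight : Set (Ev d)) (fun e => t (Sum.inr e))) := by
    ext w
    simp only [Set.mem_preimage, Set.mem_pi, Finset.mem_coe, Set.mem_prod, Finset.mem_toLeft,
      Finset.mem_toRight]
    constructor
    · intro h
      exact ⟨fun e he => h _ he, fun e he => h _ he⟩
    · rintro ⟨h1, h2⟩ i hi
      rcases i with e | e
      · exact h1 e hi
      · exact h2 e hi
  rw [hset]
  unfold volE
  rw [Measure.prod_prod, Measure.infinitePi_pi _ (fun v _ => ht _),
    Measure.infinitePi_pi _ (fun v _ => ht _)]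
  conv_rhs => rw [← Finset.toLeft_disjSum_toRight (u := s), Finset.prod_disjSum]

lemma mp_splitS : MeasurePreserving (splitS (d := d)) (volS d) ((volE d).prod (volE d)) := by
  refine ⟨measurable_splitS, ?_⟩
  rw [← mp_joinS.map_eq, Measure.map_map measurable_splitS measurable_joinS]
  have : splitS (d := d) ∘ joinS = id := rfl
  rw [this, Measure.map_id]

/-- Decoding the noise into two arrays of labels. -/
def decL (p : Xi d) : LabT d × LabT d :=
  (fun e => p.2 (e.1, Encodable.encode (false, e.2)), fun e => p.2 (e.1, Encodable.encode (true, e.2)))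

lemma decL_actX (g : Aut d) (p : Xi d) : decL (actX g p) = actL g (decL p) := rfl

lemma mp_decL : MeasurePreserving (decL (d := d)) (LX d) ((volE d).prod (volE d)) := by
  have h1 : MeasurePreserving (fun (u : UN d) (i : Ev d ⊕ Ev d) => u (ixS i)) (unu d) (volS d) :=
    ⟨measurable_pi_lambda _ fun _ => measurable_pi_apply _,
      Measure.map_infinitePi_infinitePi_of_inj (P := fun _ : Ix d => (volume : Measure unitInterval))
        ixS_inj⟩
  have h3 : MeasurePreserving (Prod.snd : Xi d → UN d) (LX d) (unu d) := by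
    unfold LX
    exact measurePreserving_snd
  exact (mp_splitS.comp h1).comp h3

/-- The map from the sample space to innovations and labels. -/
noncomputable def PsiL (θ : ℝ) (ω : OmD d) : LabT d × LabT d := (UoI θ ω, ω.2.2)

lemma measurable_PsiL [Corr θ] : Measurable (PsiL (d := d) θ) := by
  refine Measurable.prodMk (measurable_pi_lambda _ fun e => ?_) (measurable_snd.comp measurable_snd)
  exact (measurable_Uo e).subtype_mk

lemma PsiL_actO [Corr θ] (g : Aut d) (ω : OmD d) : PsiL θ (actO g ω) = actL g (PsiL θ ω) := by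
  refine Prod.ext (funext fun e => Subtype.ext ?_) rfl
  show Uo θ (actO g ω) e = Uo θ ω (g.symm e.1, e.2)
  have h := Uo_actO (θ := θ) g ω (g.symm e.1, e.2)
  simpa using h

section Factor

variable [Corr θ] {f : LabT d × LabT d → ℝ}

lemma ae_spin_act (hae : ∀ᵐ ω ∂(PD d θ), sp (ω.1 (root : Word d)) = f (PsiL θ ω)) (g : Aut d) :
    ∀ᵐ ω ∂(PD d θ), sp (ω.1 (g.symm root)) = f (actL g (PsiL θ ω)) := by
  have h := (mp_actO (θ := θ) g).quasiMeasurePreserving.ae hae
  filter_upwards [h] with ω hω
  rw [PsiL_actO] at hω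
  exact hω

lemma inv_of_spin (hf : Measurable f) (hae : ∀ᵐ ω ∂(PD d θ), sp (ω.1 (root : Word d)) = f (PsiL θ ω))
    (hUW : (PD d θ).map (PsiL θ) = (volE d).prod (volE d)) (k : Aut d) (hk : k root = root) :
    ∀ᵐ p ∂(LX d), (f ∘ decL) (actX k p) = (f ∘ decL) p := by
  have h1 : ∀ᵐ w ∂((volE d).prod (volE d)), f (actL k w) = f w := by
    have hset : MeasurableSet {w | f (actL k w) = f w} :=
      measurableSet_eq_fun (hf.comp (measurable_actL k)) hf
    rw [← hUW, ae_map_iff measurable_PsiL.aemeasurable hset]
    filter_upwards [ae_spin_act hae k, hae] with ω h1 h2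
    have h3 : k.symm root = root := by
      have := k.symm_apply_apply root
      rwa [hk] at this
    rw [h3] at h1
    rw [← h1, h2]
  exact mp_decL.quasiMeasurePreserving.ae h1

lemma PhiX_eq_iff (F : Xi d → ℝ) (p : Xi d) (v : Word d) (b : Bool) :
    PhiX F p v = b ↔ (F (actX (gm v).symm p) < 0 ↔ b = true) := by
  unfold PhiX
  cases b <;> simp

lemma sp_neg_iff (b c : Bool) : (sp b < 0 ↔ c = true) ↔ b = c := by
  cases b <;> cases c <;> simp [sp]

/-- From the spin at the root as a function of innovations and labels to the factor map. -/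
theorem factor_of_spin (hf : Measurable f)
    (hae : ∀ᵐ ω ∂(PD d θ), sp (ω.1 (root : Word d)) = f (PsiL θ ω))
    (hUW : (PD d θ).map (PsiL θ) = (volE d).prod (volE d)) :
    ∃ Φ : Xi d → Word d → Bool, Measurable Φ ∧
      (∀ g : Aut d, ∀ᵐ p ∂(LX d), Φ (actX g p) = actS g (Φ p)) ∧
      ∀ (D : Finset (Word d)) (η : Word d → Bool),
        (LX d) {p | ∀ v ∈ D, Φ p v = η v} = isingLaw d θ (cyl D η) := by
  classical
  have := finalAux_volE_prob (d := d)
  refine ⟨PhiX (f ∘ decL), measurable_PhiX (hf.comp mp_decL.measurable),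
    fun g => equivariant_PhiX (inv_of_spin hf hae hUW) g, fun D η => ?_⟩
  set T : Set (LabT d × LabT d) := {w | ∀ v ∈ D, (f (actL (gm v).symm w) < 0 ↔ η v = true)} with hT
  have hTm : MeasurableSet T := by
    have e : T = ⋂ v ∈ D, {w | f (actL (gm v).symm w) < 0 ↔ η v = true} := by
      ext w
      simp [hT]
    rw [e]
    refine Finset.measurableSet_biInter _ fun v _ => ?_
    have hm : MeasurableSet {w | f (actL (gm v).symm w) < 0} :=
      measurableSet_lt (hf.comp (measurable_actL _)) measurable_const
    by_cases hb : η v = true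
    · have e2 : {w | f (actL (gm v).symm w) < 0 ↔ η v = true} = {w | f (actL (gm v).symm w) < 0} := by
        ext w
        simp only [Set.mem_ofPred_eq, hb, iff_true]
      rw [e2]
      exact hm
    · have e2 : {w | f (actL (gm v).symm w) < 0 ↔ η v = true} = {w | f (actL (gm v).symm w) < 0}ᶜ := by
        ext w
        simp only [Set.mem_ofPred_eq, Set.mem_compl_iff, hb, Bool.false_eq_true, iff_false]
      rw [e2]
      exact hm.compl
  have e1 : {p : Xi d | ∀ v ∈ D, PhiX (f ∘ decL) p v = η v} = decL ⁻¹' T := by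
    ext p
    simp only [Set.mem_ofPred_eq, Set.mem_preimage, hT, PhiX_eq_iff, Function.comp, decL_actX]
  rw [e1, mp_decL.measure_preimage hTm.nullMeasurableSet, ← hUW,
    Measure.map_apply measurable_PsiL hTm]
  have hall : ∀ᵐ ω ∂(PD d θ), ∀ v : Word d,
      sp (ω.1 v) = f (actL (gm v).symm (PsiL θ ω)) := by
    refine ae_all_iff.mpr fun v => ?_
    have h := ae_spin_act hae (gm v).symm
    filter_upwards [h] with ω hω
    have e2 : (gm v).symm.symm root = v := gm_root v
    rwa [e2] at hω
  have e3 : (PD d θ) (PsiL θ ⁻¹' T) = (PD d θ) (cyl D η ×ˢ Set.univ) := by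
    refine measure_congr ?_
    filter_upwards [hall] with ω hω
    refine propext ?_
    show (∀ v ∈ D, (f (actL (gm v).symm (PsiL θ ω)) < 0 ↔ η v = true)) ↔ (ω.1 ∈ cyl D η ∧ ω.2 ∈ Set.univ)
    constructor
    · intro h
      refine ⟨fun v hv => ?_, Set.mem_univ _⟩
      have h2 := h v hv
      rw [← hω v] at h2
      exact (sp_neg_iff _ _).mp h2
    · rintro ⟨h, -⟩ v hv
      rw [← hω v]
      exact (sp_neg_iff _ _).mpr (h v hv)
  rw [e3]
  unfold PD
  rw [Measure.prod_prod, measure_univ, mul_one]

end Factor

/-- The closed range from the boundary. -/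
theorem closed_of_boundary {β : ℝ} [Corr (Real.tanh β)] (hβ : 0 ≤ β) (hd : 3 ≤ d)
    (h : Real.tanh β * √((d : ℝ) - 1) ≤ 1)
    (hB : Crit (d - 1) (Real.tanh β) →
      ∃ Φ : Xi d → Word d → Bool, Measurable Φ ∧
      (∀ g : Aut d, ∀ᵐ p ∂(LX d), Φ (actX g p) = actS g (Φ p)) ∧
      ∀ (D : Finset (Word d)) (η : Word d → Bool),
        (LX d) {p | ∀ v ∈ D, Φ p v = η v} = isingLaw d (Real.tanh β) (cyl D η)) :
    ∃ Φ : (Word d → unitInterval) → Word d → Bool, Measurable Φ ∧
      (∀ g : Aut d, ∀ᵐ U ∂(Measure.infinitePi fun _ : Word d => (volume : Measure unitInterval)),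
        Φ (fun v => U (g.symm v)) = fun v => Φ U (g.symm v)) ∧
      ∀ D : Finset (Word d), ((treeGraph d).induce (D : Set (Word d))).Connected →
        ∀ η : Word d → Bool, (Measure.infinitePi fun _ : Word d => (volume : Measure unitInterval))
            {U | ∀ v ∈ D, Φ U v = η v} =
          ENNReal.ofReal (1 / 2 * ∏ e ∈ edgesIn D, eWt (Real.tanh β) η e) := by
  rcases h.lt_or_eq with hlt | heq
  · exact main_factor_threshold hβ (by omega) hlt
  · have C : Crit (d - 1) (Real.tanh β) := by
      refine ⟨by omega, ?_, Real.tanh_lt_one β, ?_⟩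
      · rcases (tanh_nonneg' hβ).lt_or_eq with h' | h'
        · exact h'
        · rw [← h'] at heq
          simp at heq
      · have hc : (((d - 1 : ℕ) : ℕ) : ℝ) = (d : ℝ) - 1 := by
          rw [Nat.cast_sub (by omega)]
          simp
        rw [hc]
        have hd1 : (0 : ℝ) ≤ (d : ℝ) - 1 := by
          have : (3 : ℝ) ≤ d := by exact_mod_cast hd
          linarith
        have hs := Real.sq_sqrt hd1
        have h2 : (Real.tanh β * √((d : ℝ) - 1)) ^ 2 = 1 := by
          rw [heq]
          norm_num
        rw [mul_pow, hs] at h2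
        linarith
    obtain ⟨Φ, hΦ, heq', hlaw⟩ := hB C
    obtain ⟨τ, hτ, hτg⟩ := exists_labelsX (d := d)
    refine ⟨Φ ∘ τ, hΦ.comp hτ.measurable, fun g => ?_, fun D hD η => ?_⟩
    · filter_upwards [hτ.quasiMeasurePreserving.ae (heq' g)] with U hU
      show Φ (τ (fun v => U (g.symm v))) = _
      rw [hτg, hU]
      rfl
    · have hms : MeasurableSet {z : Xi d | ∀ v ∈ D, Φ z v = η v} := by
        have : {z : Xi d | ∀ v ∈ D, Φ z v = η v} =
            ⋂ v ∈ D, (fun z => Φ z v) ⁻¹' {η v} := by
          ext z
          simp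
        rw [this]
        exact Finset.measurableSet_biInter _ fun v _ =>
          ((measurable_pi_apply v).comp hΦ) (measurableSet_singleton _)
      have e := hτ.measure_preimage hms.nullMeasurableSet
      rw [hlaw, isingLaw_cyl _ (connClosed_of_connected hD)] at e
      exact e

end Vale.Agent.Lib.P161B
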