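import Vale.Agent.Lib.P161B.Dyn
import Vale.Agent.Lib.P161B.BridgeOde

/-!
Auxiliary lemmas for the assembly: the spin at the root is predicted by the own observations.
Best prediction in L², the elementary variance bound, integrals under the uniform product law.
-/

namespace Vale.Agent.Lib.P161B

open MeasureTheory ProbabilityTheory Filter Set
open Vale.Agent.Lib.P161
open scoped Topology

section Abstract

variable {Ω : Type*}

/-- Best prediction in `L²`: the conditional expectation beats every bounded measurable predictor. -/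
lemma best_pred {m m0 : MeasurableSpace Ω} (hm : m ≤ m0) {P : @Measure Ω m0}
    [IsProbabilityMeasure P] {X h : Ω → ℝ} (hX : Measurable[m0] X) {A : ℝ} (hXb : ∀ ω, |X ω| ≤ A)
    (hh : Measurable[m] h) {B : ℝ} (hhb : ∀ ω, |h ω| ≤ B) :
    ∫ ω, (X ω - (condExp m P X) ω) ^ 2 ∂P ≤ ∫ ω, (X ω - h ω) ^ 2 ∂P := by
  set M := condExp m P X with hMdef
  have hXint : Integrable X P :=
    Integrable.of_bound hX.aestronglyMeasurable A (ae_of_all _ (by simpa using hXb))
  have hMb : ∀ᵐ ω ∂P, |M ω| ≤ (A.toNNReal : ℝ) := by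
    apply ae_bdd_abs_condExp_of_ae_bdd_abs
    exact ae_of_all _ (fun ω => (hXb ω).trans (Real.le_coe_toNNReal A))
  have hMs : StronglyMeasurable[m] M := stronglyMeasurable_condExp
  have hMae : AEStronglyMeasurable M P := (hMs.mono hm).aestronglyMeasurable
  have hMint : Integrable M P := integrable_condExp
  have hhs : StronglyMeasurable[m] h := hh.stronglyMeasurable
  have hhae : AEStronglyMeasurable h P := (hhs.mono hm).aestronglyMeasurable
  have hhint : Integrable h P := Integrable.of_bound hhae B (ae_of_all _ (by simpa using hhb))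
  set g : Ω → ℝ := M - h with hg
  have hgs : StronglyMeasurable[m] g := hMs.sub hhs
  have hgae : AEStronglyMeasurable g P := (hgs.mono hm).aestronglyMeasurable
  have hgb : ∀ᵐ ω ∂P, ‖g ω‖ ≤ (A.toNNReal : ℝ) + B := by
    filter_upwards [hMb] with ω hω
    have := hhb ω
    simp only [hg, Pi.sub_apply, Real.norm_eq_abs]
    calc |M ω - h ω| ≤ |M ω| + |h ω| := abs_sub _ _
      _ ≤ _ := add_le_add hω this
  have hgint : Integrable g P := hMint.sub hhint
  have hXMint : Integrable (X - M) P := hXint.sub hMint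
  have hXMb : ∀ᵐ ω ∂P, ‖(X - M) ω‖ ≤ A + (A.toNNReal : ℝ) := by
    filter_upwards [hMb] with ω hω
    have := hXb ω
    simp only [Pi.sub_apply, Real.norm_eq_abs]
    calc |X ω - M ω| ≤ |X ω| + |M ω| := abs_sub _ _
      _ ≤ _ := add_le_add this hω
  have hgX : Integrable (g * X) P := hXint.bdd_mul hgae hgb
  have hgM : Integrable (g * M) P := hMint.bdd_mul hgae hgb
  have hgg : Integrable (g * g) P := hgint.bdd_mul hgae hgb
  have hXM2 : Integrable ((X - M) * (X - M)) P := hXMint.bdd_mul hXMint.aestronglyMeasurable hXMb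
  -- the orthogonality relation
  have hpull : condExp m P (g * X) =ᵐ[P] g * M :=
    condExp_stronglyMeasurable_mul_of_bound hm hgs hXint _ hgb
  have horth : ∫ ω, (g * X) ω ∂P = ∫ ω, (g * M) ω ∂P := by
    rw [← integral_condExp hm (f := g * X) (μ := P)]
    exact integral_congr_ae hpull
  have e1 : ∀ ω, (X ω - h ω) ^ 2 =
      ((X - M) * (X - M)) ω + ((g * g) ω + 2 * ((g * X) ω - (g * M) ω)) := by
    intro ω
    simp only [hg, Pi.sub_apply, Pi.mul_apply]
    ring
  have e2 : ∀ ω, (X ω - M ω) ^ 2 = ((X - M) * (X - M)) ω := by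
    intro ω
    simp only [Pi.sub_apply, Pi.mul_apply]
    ring
  rw [integral_congr_ae (ae_of_all _ e1), integral_congr_ae (ae_of_all _ e2)]
  have hsub : Integrable (fun ω => (g * X) ω - (g * M) ω) P := hgX.sub hgM
  have h3 : Integrable (fun ω => (g * g) ω + 2 * ((g * X) ω - (g * M) ω)) P := hgg.add (hsub.const_mul 2)
  rw [integral_add hXM2 h3, integral_add hgg (hsub.const_mul 2),
    integral_const_mul, integral_sub hgX hgM, horth]
  have : 0 ≤ ∫ ω, (g * g) ω ∂P := integral_nonneg (fun ω => mul_self_nonneg (g ω))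
  linarith

/-- The elementary variance bound for pairwise uncorrelated bounded variables of mean `1 / 12`. -/
lemma var_bound {mΩ : MeasurableSpace Ω} {P : Measure Ω} [IsProbabilityMeasure P] (n : ℕ) (hn : 1 ≤ n)
    (ξ : ℕ → Ω → ℝ) (hm : ∀ j, Measurable (ξ j)) (hb : ∀ j ω, |ξ j ω| ≤ 1)
    (h1 : ∀ j, ∫ ω, ξ j ω ∂P = 1 / 12)
    (h2 : ∀ i j, i ≠ j → ∫ ω, ξ i ω * ξ j ω ∂P = 1 / 144) :
    ∫ ω, (1 - (12 / (n : ℝ)) * ∑ j ∈ Finset.range n, ξ j ω) ^ 2 ∂P ≤ 144 / (n : ℝ) := by
  have hn0 : (0 : ℝ) < n := by exact_mod_cast hn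
  have hint : ∀ j, Integrable (ξ j) P := fun j =>
    Integrable.of_bound (hm j).aestronglyMeasurable 1 (ae_of_all _ (by simpa using hb j))
  have hint2 : ∀ i j, Integrable (fun ω => ξ i ω * ξ j ω) P := fun i j =>
    Integrable.of_bound ((hm i).mul (hm j)).aestronglyMeasurable 1 (ae_of_all _ (fun ω => by
      simp only [Real.norm_eq_abs, abs_mul]
      have := hb i ω
      have := hb j ω
      have h0 := abs_nonneg (ξ i ω)
      have h0' := abs_nonneg (ξ j ω)
      nlinarith))
  have hpt : ∀ i j, ∫ ω, ξ i ω * ξ j ω ∂P ≤ 1 / 144 + if i = j then 1 else 0 := by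
    intro i j
    by_cases hij : i = j
    · subst hij
      simp only [if_true]
      have : ∫ ω, ξ i ω * ξ i ω ∂P ≤ ∫ _ω, (1 : ℝ) ∂P := by
        apply integral_mono (hint2 i i) (integrable_const _)
        intro ω
        have := hb i ω
        have h0 := abs_nonneg (ξ i ω)
        have : ξ i ω * ξ i ω = |ξ i ω| * |ξ i ω| := (abs_mul_abs_self _).symm
        show ξ i ω * ξ i ω ≤ 1
        nlinarith
      simp only [integral_const, probReal_univ, smul_eq_mul, mul_one] at this
      linarith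
    · rw [h2 i j hij, if_neg hij]
      norm_num
  -- the sum
  have hS : ∫ ω, ∑ j ∈ Finset.range n, ξ j ω ∂P = (n : ℝ) * (1 / 12) := by
    rw [integral_finsetSum _ (fun j _ => hint j)]
    simp [h1]
  have hS2 : ∫ ω, (∑ j ∈ Finset.range n, ξ j ω) * (∑ j ∈ Finset.range n, ξ j ω) ∂P ≤
      (n : ℝ) * ((n : ℝ) * (1 / 144) + 1) := by
    have : ∀ ω, (∑ j ∈ Finset.range n, ξ j ω) * (∑ j ∈ Finset.range n, ξ j ω) =
        ∑ i ∈ Finset.range n, ∑ j ∈ Finset.range n, ξ i ω * ξ j ω := fun ω => Finset.sum_mul_sum _ _ _ _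
    simp_rw [this]
    rw [integral_finsetSum _ (fun i _ => integrable_finsetSum _ (fun j _ => hint2 i j))]
    have hi : ∀ i ∈ Finset.range n, ∫ ω, ∑ j ∈ Finset.range n, ξ i ω * ξ j ω ∂P ≤
        (n : ℝ) * (1 / 144) + 1 := by
      intro i hi
      rw [integral_finsetSum _ (fun j _ => hint2 i j)]
      calc ∑ j ∈ Finset.range n, ∫ ω, ξ i ω * ξ j ω ∂P
          ≤ ∑ j ∈ Finset.range n, ((1 : ℝ) / 144 + if i = j then 1 else 0) :=
            Finset.sum_le_sum (fun j _ => hpt i j)
        _ = (n : ℝ) * (1 / 144) + 1 := by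
            rw [Finset.sum_add_distrib, Finset.sum_ite_eq, if_pos hi]
            simp
    calc ∑ i ∈ Finset.range n, ∫ ω, ∑ j ∈ Finset.range n, ξ i ω * ξ j ω ∂P
        ≤ ∑ _i ∈ Finset.range n, ((n : ℝ) * (1 / 144) + 1) := Finset.sum_le_sum hi
      _ = _ := by simp only [Finset.sum_const, Finset.card_range, nsmul_eq_mul]
  set S : Ω → ℝ := fun ω => ∑ j ∈ Finset.range n, ξ j ω with hSdef
  have hSint : Integrable S P := integrable_finsetSum _ (fun j _ => hint j)
  have hSSint : Integrable (fun ω => S ω * S ω) P := by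
    have : (fun ω => S ω * S ω) = fun ω => ∑ i ∈ Finset.range n, ∑ j ∈ Finset.range n, ξ i ω * ξ j ω := by
      funext ω
      exact Finset.sum_mul_sum _ _ _ _
    rw [this]
    exact integrable_finsetSum _ (fun i _ => integrable_finsetSum _ (fun j _ => hint2 i j))
  have e : ∀ ω, (1 - (12 / (n : ℝ)) * S ω) ^ 2 =
      1 - (2 * (12 / (n : ℝ))) * S ω + (12 / (n : ℝ)) ^ 2 * (S ω * S ω) := fun ω => by ring
  rw [integral_congr_ae (ae_of_all _ e)]
  have hA : Integrable (fun ω => 1 - (2 * (12 / (n : ℝ))) * S ω) P := (integrable_const _).sub (hSint.const_mul _)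
  have hB : Integrable (fun ω => (12 / (n : ℝ)) ^ 2 * (S ω * S ω)) P := hSSint.const_mul _
  have hS2' : ∫ ω, S ω * S ω ∂P ≤ (n : ℝ) * ((n : ℝ) * (1 / 144) + 1) := hS2
  rw [integral_add hA hB, integral_sub (integrable_const _) (hSint.const_mul _), integral_const_mul,
    integral_const_mul, hS]
  simp only [integral_const, probReal_univ, smul_eq_mul, mul_one]
  have hpos : 0 ≤ (12 / (n : ℝ)) ^ 2 := sq_nonneg _
  have := mul_le_mul_of_nonneg_left hS2' hpos
  have key : (12 / (n : ℝ)) ^ 2 * ((n : ℝ) * ((n : ℝ) * (1 / 144) + 1)) = 1 + 144 / n := by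
    field_simp
    ring
  have key2 : 2 * (12 / (n : ℝ)) * ((n : ℝ) * (1 / 12)) = 2 := by
    field_simp
  rw [key] at this
  rw [key2]
  linarith

/-- Squares summable in `L¹` along a sequence: almost sure convergence. -/
lemma ae_tendsto_of_sq {mΩ : MeasurableSpace Ω} {P : Measure Ω} {X : Ω → ℝ} {m : ℕ → Ω → ℝ}
    (hmeas : ∀ k, Measurable (fun ω => (X ω - m k ω) ^ 2))
    (hint : ∀ k, Integrable (fun ω => (X ω - m k ω) ^ 2) P) {a : ℕ → ℝ} (hs : Summable a)
    (h : ∀ k, ∫ ω, (X ω - m k ω) ^ 2 ∂P ≤ a k) :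
    ∀ᵐ ω ∂P, Tendsto (fun k => m k ω) atTop (𝓝 (X ω)) := by
  set F : ℕ → Ω → ENNReal := fun k ω => ENNReal.ofReal ((X ω - m k ω) ^ 2) with hF
  have hFm : ∀ k, Measurable (F k) := fun k => (hmeas k).ennreal_ofReal
  have hsum : ∫⁻ ω, ∑' k, F k ω ∂P ≠ ⊤ := by
    rw [lintegral_tsum (fun k => (hFm k).aemeasurable)]
    have hle : ∀ k, ∫⁻ ω, F k ω ∂P ≤ ENNReal.ofReal (a k) := by
      intro k
      simp only [hF]
      rw [← ofReal_integral_eq_lintegral_ofReal (hint k) (ae_of_all _ (fun ω => sq_nonneg _))]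
      exact ENNReal.ofReal_le_ofReal (h k)
    exact ne_top_of_le_ne_top hs.tsum_ofReal_ne_top (ENNReal.tsum_le_tsum hle)
  have hae : ∀ᵐ ω ∂P, ∑' k, F k ω < ⊤ :=
    ae_lt_top' (Measurable.tsum hFm).aemeasurable hsum
  filter_upwards [hae] with ω hω
  have h0 : Tendsto (fun k => F k ω) atTop (𝓝 0) := by
    have := ENNReal.tendsto_cofinite_zero_of_tsum_ne_top hω.ne
    rwa [Nat.cofinite_eq_atTop] at this
  have h1 : Tendsto (fun k => (X ω - m k ω) ^ 2) atTop (𝓝 0) := by
    have h2 := (ENNReal.tendsto_toReal ENNReal.zero_ne_top).comp h0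
    simp only [ENNReal.toReal_zero] at h2
    refine h2.congr (fun k => ?_)
    simp only [Function.comp, hF]
    exact ENNReal.toReal_ofReal (sq_nonneg _)
  have h2 : Tendsto (fun k => |X ω - m k ω|) atTop (𝓝 0) := by
    have := h1.sqrt
    simpa [Real.sqrt_sq_eq_abs] using this
  have h3 : Tendsto (fun k => X ω - m k ω) atTop (𝓝 0) := (tendsto_zero_iff_abs_tendsto_zero _).2 h2
  have h4 : Tendsto (fun k => X ω - (X ω - m k ω)) atTop (𝓝 (X ω - 0)) := tendsto_const_nhds.sub h3
  simpa using h4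

end Abstract

section Uniform

variable {d : ℕ}

instance isProb_volE_spin : IsProbabilityMeasure (volE d) := by
  unfold volE
  infer_instance

lemma integral_volE_eval (e : Ev d) {f : unitInterval → ℝ} (hf : Measurable f) :
    ∫ V, f (V e) ∂(volE d) = ∫ u, f u := by
  have h := measurePreserving_eval_infinitePi (fun _ : Ev d => (volume : Measure unitInterval)) e
  unfold volE
  rw [← h.map_eq, integral_map h.measurable.aemeasurable hf.aestronglyMeasurable, h.map_eq]

lemma integral_volE_pair {e e' : Ev d} (hne : e ≠ e') {f g : unitInterval → ℝ} (hf : Measurable f)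
    (hg : Measurable g) :
    ∫ V, f (V e) * g (V e') ∂(volE d) = (∫ u, f u) * ∫ u, g u := by
  have hi := iIndepFun_infinitePi (P := fun _ : Ev d => (volume : Measure unitInterval))
    (X := fun _ u => u) (fun _ => measurable_id)
  have h2 : IndepFun (fun V : LabT d => f (V e)) (fun V : LabT d => g (V e')) (volE d) :=
    (hi.indepFun hne).comp hf hg
  rw [h2.integral_fun_mul_eq_mul_integral ((hf.comp (measurable_pi_apply e)).aestronglyMeasurable)
    ((hg.comp (measurable_pi_apply e')).aestronglyMeasurable),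
    integral_volE_eval e hf, integral_volE_eval e' hg]

lemma integral_unit_quant : ∫ u : unitInterval, quant (1 / 2) (u : ℝ) = 1 / 6 := by
  have h := integral_quant (a := 1 / 2) (by norm_num [abs_of_pos]) (f := fun z => z) measurable_id
    (C := 1) (fun x hx => abs_le.mpr hx)
  rw [h]
  have : ∫ z in Icc (-1 : ℝ) 1, z * ((1 + 1 / 2 * z) / 2) = ∫ z in (-1 : ℝ)..1, (z / 2 + z ^ 2 / 4) := by
    rw [integral_Icc_eq_integral_Ioc, intervalIntegral.integral_of_le (by norm_num)]
    apply setIntegral_congr_fun measurableSet_Ioc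
    intro z _
    simp only
    ring
  rw [this]
  have hF : ∀ x ∈ uIcc (-1 : ℝ) 1, HasDerivAt (fun z : ℝ => z ^ 2 / 4 + z ^ 3 / 12) (x / 2 + x ^ 2 / 4) x := by
    intro x _
    have h1 := (hasDerivAt_pow 2 x).div_const 4
    have h2 := (hasDerivAt_pow 3 x).div_const 12
    refine (h1.fun_add h2).congr_deriv ?_
    norm_num
    ring
  rw [intervalIntegral.integral_eq_sub_of_hasDerivAt hF (by
    apply Continuous.intervalIntegrable
    fun_prop)]
  norm_num

lemma integral_unit_half : ∫ u : unitInterval, (if (u : ℝ) < 1 / 2 then (1 : ℝ) else 0) = 1 / 2 := by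
  have h := integral_subtype_comap (μ := volume) (measurableSet_Icc (a := (0 : ℝ)) (b := 1))
    (fun u : ℝ => if u < 1 / 2 then (1 : ℝ) else 0)
  have h' : ∫ u : unitInterval, (if (u : ℝ) < 1 / 2 then (1 : ℝ) else 0) =
      ∫ u in Icc (0 : ℝ) 1, (if u < 1 / 2 then (1 : ℝ) else 0) := h
  rw [h']
  have e : ∀ u : ℝ, (if u < 1 / 2 then (1 : ℝ) else 0) = (Iio (1 / 2 : ℝ)).indicator (fun _ => (1 : ℝ)) u := by
    intro u
    simp [indicator, Iio]
  simp_rw [e]
  rw [setIntegral_indicator measurableSet_Iio]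
  have : Icc (0 : ℝ) 1 ∩ Iio (1 / 2) = Ico 0 (1 / 2) := by
    ext x
    simp only [mem_inter_iff, mem_Icc, mem_Iio, mem_Ico]
    constructor
    · rintro ⟨⟨h1, _⟩, h3⟩
      exact ⟨h1, h3⟩
    · rintro ⟨h1, h3⟩
      exact ⟨⟨h1, by linarith⟩, h3⟩
  rw [this]
  simp [Measure.real]

end Uniform

section Stat

variable {d : ℕ} {θ : ℝ} [Corr θ]

lemma measurable_sp_root : Measurable (fun ω : OmD d => sp (ω.1 (root : Word d))) :=
  (Measurable.of_discrete (f := sp)).comp ((measurable_pi_apply _).comp measurable_fst)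

lemma integral_PD_prod (F G : LabT d → ℝ) :
    ∫ ω, F ω.2.1 * G ω.2.2 ∂(PD d θ) = (∫ V, F V ∂(volE d)) * ∫ W, G W ∂(volE d) := by
  unfold PD
  have h1 := integral_prod_mul (μ := isingLaw d θ) (ν := (volE d).prod (volE d))
    (fun _ => (1 : ℝ)) (fun p : LabT d × LabT d => F p.1 * G p.2)
  simp only [one_mul, integral_const, probReal_univ, smul_eq_mul, mul_one] at h1
  rw [h1, integral_prod_mul]

lemma kp_natCast (j : ℕ) : kp (j : ℤ) = 1 / 2 := by
  unfold kp
  rw [min_eq_right (Int.natCast_nonneg j)]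
  norm_num

/-- The own statistic of block `j`: the sign of the spin removed. -/
noncomputable def xiJ (j : ℕ) (ω : OmD d) : ℝ :=
  quant (1 / 2) (ω.2.1 (root, (j : ℤ))) * (if ((ω.2.2 (root, (j : ℤ)) : unitInterval) : ℝ) < 1 / 2 then 1 else 0)

lemma measurable_quant_half : Measurable (fun u : unitInterval => quant (1 / 2) (u : ℝ)) :=
  measurable_quant.comp (measurable_const.prodMk measurable_subtype_coe)

lemma measurable_half_ind : Measurable (fun u : unitInterval => if (u : ℝ) < 1 / 2 then (1 : ℝ) else 0) :=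
  Measurable.ite (measurableSet_lt measurable_subtype_coe measurable_const) measurable_const measurable_const

lemma measurable_xiJ (j : ℕ) : Measurable (xiJ (d := d) j) := by
  unfold xiJ
  refine Measurable.mul ?_ ?_
  · exact measurable_quant_half.comp ((measurable_pi_apply _).comp (measurable_fst.comp measurable_snd))
  · exact measurable_half_ind.comp ((measurable_pi_apply _).comp (measurable_snd.comp measurable_snd))

lemma abs_quant_half (u : unitInterval) : |quant (1 / 2) (u : ℝ)| ≤ 1 :=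
  abs_le.mpr (quant_mem (by norm_num [abs_of_pos]) u.2)

lemma abs_xiJ (j : ℕ) (ω : OmD d) : |xiJ j ω| ≤ 1 := by
  unfold xiJ
  rw [abs_mul]
  have h1 := abs_quant_half (ω.2.1 (root, (j : ℤ)))
  have h2 : |(if ((ω.2.2 (root, (j : ℤ)) : unitInterval) : ℝ) < 1 / 2 then (1 : ℝ) else 0)| ≤ 1 := by
    split_ifs <;> simp
  have := abs_nonneg (quant (1 / 2) ((ω.2.1 (root, (j : ℤ)) : unitInterval) : ℝ))
  have := abs_nonneg (if ((ω.2.2 (root, (j : ℤ)) : unitInterval) : ℝ) < 1 / 2 then (1 : ℝ) else 0)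
  nlinarith

lemma integral_xiJ (j : ℕ) : ∫ ω, xiJ (d := d) j ω ∂(PD d θ) = 1 / 12 := by
  unfold xiJ
  rw [integral_PD_prod (fun V : LabT d => quant (1 / 2) (V (root, (j : ℤ))))
    (fun W : LabT d => if ((W (root, (j : ℤ)) : unitInterval) : ℝ) < 1 / 2 then (1 : ℝ) else 0),
    integral_volE_eval _ measurable_quant_half, integral_volE_eval _ measurable_half_ind,
    integral_unit_quant, integral_unit_half]
  norm_num

lemma integral_xiJ_mul {i j : ℕ} (hij : i ≠ j) :
    ∫ ω, xiJ (d := d) i ω * xiJ j ω ∂(PD d θ) = 1 / 144 := by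
  have hne : ((root : Word d), (i : ℤ)) ≠ (root, (j : ℤ)) := by
    intro h
    apply hij
    have h5 : (i : ℤ) = j := (Prod.ext_iff.mp h).2
    exact_mod_cast h5
  have e : ∀ ω : OmD d, xiJ i ω * xiJ j ω =
      (quant (1 / 2) (ω.2.1 (root, (i : ℤ))) * quant (1 / 2) (ω.2.1 (root, (j : ℤ)))) *
      ((if ((ω.2.2 (root, (i : ℤ)) : unitInterval) : ℝ) < 1 / 2 then (1 : ℝ) else 0) *
        (if ((ω.2.2 (root, (j : ℤ)) : unitInterval) : ℝ) < 1 / 2 then (1 : ℝ) else 0)) := by
    intro ω
    unfold xiJ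
    ring
  simp_rw [e]
  rw [integral_PD_prod (fun V : LabT d => quant (1 / 2) (V (root, (i : ℤ))) * quant (1 / 2) (V (root, (j : ℤ))))
    (fun W : LabT d => (if ((W (root, (i : ℤ)) : unitInterval) : ℝ) < 1 / 2 then (1 : ℝ) else 0) *
      (if ((W (root, (j : ℤ)) : unitInterval) : ℝ) < 1 / 2 then (1 : ℝ) else 0)),
    integral_volE_pair hne measurable_quant_half measurable_quant_half,
    integral_volE_pair hne measurable_half_ind measurable_half_ind, integral_unit_quant, integral_unit_half]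
  norm_num

/-- The predictor. -/
noncomputable def hJ (j : ℕ) (ω : OmD d) : ℝ :=
  open Classical in if actE ((root : Word d), (j : ℤ)) ω.2.2 then Zo ω (root, (j : ℤ)) else 0

lemma hJ_eq (j : ℕ) (ω : OmD d) : hJ j ω = sp (ω.1 root) * xiJ j ω := by
  unfold hJ xiJ Zo zh actE
  simp only [kp_natCast]
  split_ifs <;> simp

lemma sp_sq (b : Bool) : sp b ^ 2 = 1 := by
  cases b <;> simp

lemma abs_hJ (j : ℕ) (ω : OmD d) : |hJ j ω| ≤ 1 := by
  rw [hJ_eq, abs_mul, abs_sp, one_mul]
  exact abs_xiJ j ω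

lemma measurable_actE (e : Ev d) : MeasurableSet {W : LabT d | actE e W} :=
  measurableSet_lt (measurable_subtype_coe.comp (measurable_pi_apply e)) measurable_const

lemma measurable_tE (e : Ev d) : Measurable (tE e) := by
  unfold tE
  exact measurable_const.add (measurable_const.mul (measurable_subtype_coe.comp (measurable_pi_apply e)))

lemma measurable_inA (s : ℝ) (e : Ev d) : MeasurableSet {W : LabT d | inA s e W} :=
  (measurable_actE e).inter (measurableSet_lt (measurable_tE e) measurable_const)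

/-- The predictor at time `n` uses only observations before the time `n`. -/
lemma measurable_hJ_FL (n j : ℕ) (hj : j < n) :
    Measurable[FL (fun _ : LabT d => (n : ℝ))] (hJ (d := d) j) := by
  classical
  set H : LabT d × (Ev d → ℝ) → ℝ := fun p =>
    if actE ((root : Word d), (j : ℤ)) p.1 then p.2 (root, (j : ℤ)) else 0 with hH
  have hHm : Measurable H :=
    Measurable.ite ((measurable_actE _).preimage measurable_fst)
      ((measurable_pi_apply _).comp measurable_snd) measurable_const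
  have h2 : hJ (d := d) j = H ∘ obsL (fun _ : LabT d => (n : ℝ)) := by
    funext ω
    simp only [hJ, hH, Function.comp, obsL]
    by_cases ha : actE ((root : Word d), (j : ℤ)) ω.2.2
    · have hin : inA (n : ℝ) ((root : Word d), (j : ℤ)) ω.2.2 := by
        refine ⟨ha, ?_⟩
        have h1 : (ω.2.2 (root, (j : ℤ)) : ℝ) < 1 / 2 := ha
        have h3 : ((j : ℕ) : ℝ) + 1 ≤ n := by exact_mod_cast hj
        unfold tE
        simp only [Int.cast_natCast]
        linarith
      simp [ha, hin]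
    · simp [ha]
  rw [h2]
  exact hHm.comp (comap_measurable _)

/-- The error of the predictor. -/
lemma spin_limit_aux (h0 : 0 < θ) (h1 : θ < 1) (n : ℕ) (hn : 1 ≤ n) :
    ∫ ω, (sp (ω.1 (root : Word d)) - mm θ root (yS (n : ℝ) ω)) ^ 2 ∂(PD d θ) ≤ 144 / (n : ℝ) := by
  have hn0 : (0 : ℝ) < n := by exact_mod_cast hn
  set tt : LabT d → ℝ := fun _ => (n : ℝ) with htt
  have hce := condExp_spin (d := d) h0 h1 (tt := tt) measurable_const ⟨n, fun _ => le_rfl⟩ root
  set X : OmD d → ℝ := fun ω => sp (ω.1 (root : Word d)) with hX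
  set H : OmD d → ℝ := fun ω => (12 / (n : ℝ)) * ∑ j ∈ Finset.range n, hJ j ω with hH
  have hHm : Measurable[FL tt] H := by
    refine Measurable.const_mul ?_ _
    refine Finset.measurable_sum _ (fun j hj => ?_)
    exact measurable_hJ_FL n j (Finset.mem_range.mp hj)
  have hHb : ∀ ω, |H ω| ≤ 12 := by
    intro ω
    simp only [hH, abs_mul]
    have h2 : |∑ j ∈ Finset.range n, hJ j ω| ≤ n := by
      refine (Finset.abs_sum_le_sum_abs _ _).trans ?_
      calc ∑ j ∈ Finset.range n, |hJ j ω| ≤ ∑ _j ∈ Finset.range n, (1 : ℝ) :=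
            Finset.sum_le_sum (fun j _ => abs_hJ j ω)
        _ = n := by simp
    have h3 : |12 / (n : ℝ)| = 12 / n := abs_of_pos (by positivity)
    rw [h3]
    calc 12 / (n : ℝ) * |∑ j ∈ Finset.range n, hJ j ω| ≤ 12 / (n : ℝ) * n :=
          mul_le_mul_of_nonneg_left h2 (by positivity)
      _ = 12 := by field_simp
  have hbest := best_pred (FL_le tt measurable_const) (P := PD d θ) (X := X) (h := H)
    measurable_sp_root (A := 1) (fun ω => (abs_sp _).le) hHm hHb
  have hleft : ∫ ω, (X ω - condExp (FL tt) (PD d θ) X ω) ^ 2 ∂(PD d θ) =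
      ∫ ω, (X ω - mm θ root (yS (n : ℝ) ω)) ^ 2 ∂(PD d θ) := by
    apply integral_congr_ae
    filter_upwards [hce] with ω hω
    simp only [hX] at hω ⊢
    rw [hω]
  have hright : ∀ ω, (X ω - H ω) ^ 2 = (1 - (12 / (n : ℝ)) * ∑ j ∈ Finset.range n, xiJ j ω) ^ 2 := by
    intro ω
    have e : H ω = X ω * ((12 / (n : ℝ)) * ∑ j ∈ Finset.range n, xiJ j ω) := by
      simp only [hH, hX, hJ_eq]
      rw [← Finset.mul_sum]
      ring
    rw [e]
    have hs : X ω ^ 2 = 1 := sp_sq _
    set A := (12 / (n : ℝ)) * ∑ j ∈ Finset.range n, xiJ j ω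
    calc (X ω - X ω * A) ^ 2 = X ω ^ 2 * (1 - A) ^ 2 := by ring
      _ = (1 - A) ^ 2 := by rw [hs, one_mul]
  have hv := var_bound (P := PD d θ) n hn (xiJ (d := d)) measurable_xiJ abs_xiJ integral_xiJ
    (fun i j hij => integral_xiJ_mul hij)
  rw [hleft, integral_congr_ae (ae_of_all _ hright)] at hbest
  exact hbest.trans hv

end Stat

section Factor

variable {d : ℕ} {θ : ℝ} [Corr θ]

open Classical in
/-- The stopped data of the innovations as a function of the innovations and the labels. -/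
noncomputable def PsiGd (s : ℝ) (p : LabT d × LabT d) : Ev d → ℝ × ℝ :=
  fun e => (min (tE e p.2) s, if inA s e p.2 then ((p.1 e : unitInterval) : ℝ) else 0)

lemma measurable_PsiGd (s : ℝ) : Measurable (PsiGd (d := d) s) := by
  classical
  refine measurable_pi_iff.mpr (fun e => ?_)
  unfold PsiGd
  refine Measurable.prodMk ?_ ?_
  · exact ((measurable_tE e).comp measurable_snd).min measurable_const
  · exact Measurable.ite ((measurable_inA s e).preimage measurable_snd)
      (measurable_subtype_coe.comp ((measurable_pi_apply e).comp measurable_fst)) measurable_const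

omit [Corr θ] in
lemma Gd_eq_PsiGd (s : ℝ) (ω : OmD d) : Gd θ s ω = PsiGd s (UoI θ ω, ω.2.2) := by
  funext e
  simp [Gd, PsiGd, UoI]

lemma measurable_mm_yS (s : ℝ) : Measurable (fun ω : OmD d => mm θ root (yS s ω)) :=
  (measurable_mm_FL (θ := θ) (fun _ => s) measurable_const root).mono
    (FL_le (fun _ => s) measurable_const) le_rfl

/-- The magnetisation at any time is a measurable function of the innovations and labels. -/
lemma mm_factor (hd : 3 ≤ d) (C : Crit (d - 1) θ) (s : ℝ) :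
    ∃ f : LabT d × LabT d → ℝ, Measurable f ∧
      ∀ᵐ ω ∂(PD d θ), mm θ root (yS s ω) = f (UoI θ ω, ω.2.2) := by
  have hd0 : 0 < d := by omega
  set Y : OmD d → ℝ := fun ω => mm θ root (yS s ω) with hY
  set M := condExp (GGs θ s) (PD d θ) Y with hM
  have hr : ∫ ω, (Y ω - M ω) ^ 2 ∂(PD d θ) = 0 := rD_zero hd C s
  have hYm : Measurable Y := measurable_mm_yS s
  have hYb : ∀ ω, |Y ω| ≤ 1 := fun ω => mm_yS_le_one C.h1 s ω root
  have hYint : Integrable Y (PD d θ) :=
    Integrable.of_bound hYm.aestronglyMeasurable 1 (ae_of_all _ (by simpa using hYb))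
  have hMs : StronglyMeasurable[GGs θ s] M := stronglyMeasurable_condExp
  have hMint : Integrable M (PD d θ) := integrable_condExp
  have hMb : ∀ᵐ ω ∂(PD d θ), |M ω| ≤ ((1 : NNReal) : ℝ) := by
    apply ae_bdd_abs_condExp_of_ae_bdd_abs
    exact ae_of_all _ (fun ω => by simpa using hYb ω)
  have hsub : Integrable (Y - M) (PD d θ) := hYint.sub hMint
  have hsubb : ∀ᵐ ω ∂(PD d θ), ‖(Y - M) ω‖ ≤ 1 + ((1 : NNReal) : ℝ) := by
    filter_upwards [hMb] with ω hω
    simp only [Pi.sub_apply, Real.norm_eq_abs]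
    calc |Y ω - M ω| ≤ |Y ω| + |M ω| := abs_sub _ _
      _ ≤ _ := add_le_add (hYb ω) hω
  have hint : Integrable (fun ω => (Y ω - M ω) ^ 2) (PD d θ) := by
    have h2 : Integrable ((Y - M) * (Y - M)) (PD d θ) := hsub.bdd_mul hsub.aestronglyMeasurable hsubb
    refine h2.congr (ae_of_all _ (fun ω => ?_))
    simp only [Pi.sub_apply, Pi.mul_apply]
    ring
  have h0 := (integral_eq_zero_iff_of_nonneg (fun ω => sq_nonneg _) hint).mp hr
  obtain ⟨g, hg, hgM⟩ := StronglyMeasurable.exists_eq_measurable_comp (f := Gd θ s) (g := M) hMs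
  refine ⟨g ∘ PsiGd s, hg.measurable.comp (measurable_PsiGd s), ?_⟩
  filter_upwards [h0] with ω hω
  have h1 : (Y ω - M ω) ^ 2 = 0 := hω
  have h2 : Y ω = M ω := by
    have := pow_eq_zero_iff (two_ne_zero) |>.mp h1
    linarith
  show Y ω = g (PsiGd s (UoI θ ω, ω.2.2))
  rw [h2, ← Gd_eq_PsiGd, hgM]
  rfl

/-- The spin at the root is a function of the innovations and labels. -/
theorem spin_factor_aux (hd : 3 ≤ d) (C : Crit (d - 1) θ) :
    ∃ f : LabT d × LabT d → ℝ, Measurable f ∧
      ∀ᵐ ω ∂(PD d θ), sp (ω.1 (root : Word d)) = f (UoI θ ω, ω.2.2) := by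
  choose F hFm hFe using fun k : ℕ => mm_factor hd C (((2 ^ k : ℕ) : ℝ))
  set X : OmD d → ℝ := fun ω => sp (ω.1 (root : Word d)) with hX
  set m : ℕ → OmD d → ℝ := fun k ω => mm θ root (yS (((2 ^ k : ℕ) : ℝ)) ω) with hm
  have hXm : Measurable X := measurable_sp_root
  have hmm : ∀ k, Measurable (m k) := fun k => measurable_mm_yS _
  have hmeas : ∀ k, Measurable (fun ω => (X ω - m k ω) ^ 2) := fun k => (hXm.sub (hmm k)).pow_const 2
  have hint : ∀ k, Integrable (fun ω => (X ω - m k ω) ^ 2) (PD d θ) := by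
    intro k
    refine Integrable.of_bound (hmeas k).aestronglyMeasurable 4 (ae_of_all _ (fun ω => ?_))
    have h1 : |X ω| = 1 := abs_sp _
    have h2 : |m k ω| ≤ 1 := mm_yS_le_one C.h1 _ ω root
    have h3 : |X ω - m k ω| ≤ 2 := by
      calc |X ω - m k ω| ≤ |X ω| + |m k ω| := abs_sub _ _
        _ ≤ 2 := by rw [h1]; linarith
    rw [Real.norm_eq_abs, abs_pow]
    have := abs_nonneg (X ω - m k ω)
    nlinarith
  have hs : Summable (fun k : ℕ => 144 * ((1 : ℝ) / 2) ^ k) :=
    (summable_geometric_of_lt_one (by norm_num) (by norm_num)).mul_left _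
  have hle : ∀ k, ∫ ω, (X ω - m k ω) ^ 2 ∂(PD d θ) ≤ 144 * ((1 : ℝ) / 2) ^ k := by
    intro k
    have h := spin_limit_aux (d := d) C.h0 C.h1 (2 ^ k) (Nat.one_le_two_pow)
    refine h.trans (le_of_eq ?_)
    push_cast
    rw [one_div, inv_pow]
    rfl
  have hae := ae_tendsto_of_sq hmeas hint hs hle
  refine ⟨fun p => limsup (fun k => F k p) atTop, Measurable.limsup hFm, ?_⟩
  have hall : ∀ᵐ ω ∂(PD d θ), ∀ k, m k ω = F k (UoI θ ω, ω.2.2) := ae_all_iff.mpr hFe
  filter_upwards [hae, hall] with ω h1 h2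
  have h3 : Tendsto (fun k => F k (UoI θ ω, ω.2.2)) atTop (𝓝 (X ω)) := by
    refine h1.congr (fun k => h2 k)
    
  exact h3.limsup_eq.symm

end Factor

end Vale.Agent.Lib.P161B
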