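import Vale.Agent.Lib.P161B.BridgeOde
import Vale.Agent.Lib.P161B.FinalSpin
import Vale.Agent.Lib.P161B.FinalAux
import Vale.Agent.Lib.P161.SLMain
import Vale.Agent.Lib.P161.TreeExtra

/-!
Assembly: the spin at the root is a measurable function of the innovations and the labels, which are i.i.d.
uniform and equivariant. The final factor map, at the boundary of the range and for the closed range.
-/

namespace Vale.Agent.Lib.P161B

open MeasureTheory ProbabilityTheory Filter Set
open Vale.Agent.Lib.P161

variable {d : ℕ} {θ : ℝ} [Corr θ]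

/-- The best predictor at time `n` is close to the spin: own observations suffice. -/
theorem spin_limit (h0 : 0 < θ) (h1 : θ < 1) (n : ℕ) (hn : 1 ≤ n) :
    ∫ ω, (sp (ω.1 (root : Word d)) - mm θ root (yS (n : ℝ) ω)) ^ 2 ∂(PD d θ) ≤ 1000 / n := by
  have hn0 : (0 : ℝ) < n := by exact_mod_cast hn
  exact (spin_limit_aux h0 h1 n hn).trans (div_le_div_of_nonneg_right (by norm_num) hn0.le)

/-- The spin at the root is a function of the innovations and labels. -/
theorem spin_factor (hd : 3 ≤ d) (C : Crit (d - 1) θ) :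
    ∃ f : LabT d × LabT d → ℝ, Measurable f ∧
      ∀ᵐ ω ∂(PD d θ), sp (ω.1 (root : Word d)) = f (UoI θ ω, ω.2.2) :=
  spin_factor_aux hd C

/-- The law and equivariance: factor of the space `Xi` in the sense of `exists_factor_X`. -/
theorem exists_factor_boundary (hd : 3 ≤ d) (C : Crit (d - 1) θ) :
    ∃ Φ : Xi d → Word d → Bool, Measurable Φ ∧
      (∀ g : Aut d, ∀ᵐ p ∂(LX d), Φ (actX g p) = actS g (Φ p)) ∧
      ∀ (D : Finset (Word d)) (η : Word d → Bool),
        (LX d) {p | ∀ v ∈ D, Φ p v = η v} = isingLaw d θ (cyl D η) := by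
  obtain ⟨f, hf, hae⟩ := spin_factor hd C
  exact factor_of_spin hf hae (law_UW C.h0 C.h1)

omit [Corr θ] in
/-- The main theorem for the closed range. -/
theorem main_factor_closed {β : ℝ} (hβ : 0 ≤ β) (hd : 3 ≤ d) (h : Real.tanh β * √((d : ℝ) - 1) ≤ 1) :
    ∃ Φ : (Word d → unitInterval) → Word d → Bool, Measurable Φ ∧
      (∀ g : Aut d, ∀ᵐ U ∂(Measure.infinitePi fun _ : Word d => (volume : Measure unitInterval)),
        Φ (fun v => U (g.symm v)) = fun v => Φ U (g.symm v)) ∧
      ∀ D : Finset (Word d), ((treeGraph d).induce (D : Set (Word d))).Connected →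
        ∀ η : Word d → Bool, (Measure.infinitePi fun _ : Word d => (volume : Measure unitInterval))
            {U | ∀ v ∈ D, Φ U v = η v} =
          ENNReal.ofReal (1 / 2 * ∏ e ∈ edgesIn D, eWt (Real.tanh β) η e) := by
  have := corr_tanh' hβ
  exact closed_of_boundary hβ hd h (fun C => exists_factor_boundary hd C)

end Vale.Agent.Lib.P161B
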