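import Vale.Agent.Lib.P161B.Canon
import Vale.Agent.Lib.P161.SLBShift

/-!
Bayes for the static model: decomposition of the canonical product law into the Ising law and the iid
fields, the Nishimori flip on a finite set of sites, and the resulting conditional law of the spins.
-/

namespace Vale.Agent.Lib.P161B

open MeasureTheory ProbabilityTheory Filter
open Vale.Agent.Lib.P161
open scoped ENNReal

variable {d : ℕ} {θ : ℝ} {μ : Measure ℝ}

/-- The iid field law. -/
noncomputable abbrev GbGam (d : ℕ) (μ : Measure ℝ) : Measure (Word d → ℝ) :=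
  Measure.infinitePi (fun _ : Word d => μ)

/-- Join the signs and the fields into a canonical point. -/
def GbJoin (p : (Word d → Bool) × (Word d → ℝ)) : Cn d := fun x => (p.1 x, p.2 x)

lemma GbJoin_measurable : Measurable (GbJoin : (Word d → Bool) × (Word d → ℝ) → Cn d) := by
  refine measurable_pi_iff.mpr fun x => ?_
  exact ((measurable_pi_apply x).comp measurable_fst).prodMk
    ((measurable_pi_apply x).comp measurable_snd)

/-- The canonical law is the product of the law of the signs and of the law of the fields. -/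
theorem Gb_decomp [Corr θ] [IsProbabilityMeasure μ] :
    ((tLaw d θ).prod (GbGam d μ)).map GbJoin = cnP d θ μ := by
  unfold cnP
  refine Measure.eq_infinitePi _ fun s A hA => ?_
  have hset : MeasurableSet ((s : Set (Word d)).pi A) :=
    MeasurableSet.pi s.countable_toSet fun i _ => hA i
  rw [Measure.map_apply GbJoin_measurable hset]
  have hmeas : MeasurableSet (GbJoin ⁻¹' ((s : Set (Word d)).pi A)) :=
    GbJoin_measurable hset
  rw [Measure.prod_apply hmeas]
  -- the sections
  have hsec : ∀ t : Word d → Bool, (GbGam d μ) (Prod.mk t ⁻¹' (GbJoin ⁻¹' ((s : Set (Word d)).pi A))) =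
      ∏ i ∈ s, μ (Prod.mk (t i) ⁻¹' A i) := by
    intro t
    have h1 : Prod.mk t ⁻¹' (GbJoin ⁻¹' ((s : Set (Word d)).pi A)) =
        (s : Set (Word d)).pi (fun i => Prod.mk (t i) ⁻¹' A i) := by
      ext ξ
      simp [GbJoin, Set.mem_pi]
    rw [h1, Measure.infinitePi_pi _ (fun i _ => (hA i).preimage measurable_prodMk_left)]
  simp_rw [hsec]
  -- independence of the coordinates under the sign law
  have hg : ∀ i : Word d, Measurable (fun b : Bool => μ (Prod.mk b ⁻¹' A i)) := fun i =>
    measurable_of_countable _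
  have hind : iIndepFun (fun (i : Word d) (t : Word d → Bool) => μ (Prod.mk (t i) ⁻¹' A i)) (tLaw d θ) := by
    unfold tLaw
    exact iIndepFun_infinitePi (P := mrg θ) (X := fun i b => μ (Prod.mk b ⁻¹' A i)) hg
  rw [lintegral_prod_eq_prod_lintegral_of_indepFun s _ hind
    (fun i => (hg i).comp (measurable_pi_apply i))]
  refine Finset.prod_congr rfl fun i _ => ?_
  rw [Measure.prod_apply (hA i)]
  have h2 : (tLaw d θ).map (fun t : Word d → Bool => t i) = mrg θ i := by
    unfold tLaw
    exact Measure.infinitePi_map_eval _ i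
  rw [← h2, lintegral_map (hg i) (measurable_pi_apply i)]

/-- The spins and the fields of a canonical point. -/
def GbPair (ω : Cn d) : (Word d → Bool) × (Word d → ℝ) := (sgC ω, fun x => (ω x).2)

/-- The observed field from the spins and the local fields. -/
noncomputable def GbMul (p : (Word d → Bool) × (Word d → ℝ)) : Word d → ℝ := fun x => sp (p.1 x) * p.2 x

lemma GbMul_measurable : Measurable (GbMul : (Word d → Bool) × (Word d → ℝ) → Word d → ℝ) := by
  refine measurable_pi_iff.mpr fun x => ?_
  have h1 : Measurable sp := Measurable.of_discrete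
  exact (h1.comp ((measurable_pi_apply x).comp measurable_fst)).mul
    ((measurable_pi_apply x).comp measurable_snd)

lemma Gb_sgC_measurable : Measurable (sgC : Cn d → Word d → Bool) := by
  unfold sgC
  refine measurable_tau.comp ?_
  exact measurable_pi_iff.mpr fun x => measurable_fst.comp (measurable_pi_apply x)

lemma GbPair_measurable : Measurable (GbPair : Cn d → (Word d → Bool) × (Word d → ℝ)) := by
  refine Gb_sgC_measurable.prodMk ?_
  exact measurable_pi_iff.mpr fun x => measurable_snd.comp (measurable_pi_apply x)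

lemma Gb_yC_eq (ω : Cn d) : yC ω = GbMul (GbPair ω) := rfl

lemma Gb_yC_measurable : Measurable (yC : Cn d → Word d → ℝ) :=
  GbMul_measurable.comp GbPair_measurable

/-- The law of the spins and local fields of a canonical point. -/
theorem Gb_law [Corr θ] [IsProbabilityMeasure μ] :
    (cnP d θ μ).map GbPair = (isingLaw d θ).prod (GbGam d μ) := by
  rw [← Gb_decomp, Measure.map_map GbPair_measurable GbJoin_measurable]
  have h : GbPair ∘ GbJoin = Prod.map (tau : (Word d → Bool) → Word d → Bool) (id : (Word d → ℝ) → Word d → ℝ) := by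
    funext p
    rfl
  rw [h]
  unfold isingLaw
  rw [← Measure.map_id (μ := GbGam d μ)]
  rw [Measure.map_id]
  have h3 := Measure.map_prod_map (tLaw d θ) (GbGam d μ) (f := tau) (g := id) measurable_tau measurable_id
  rw [Measure.map_id] at h3
  exact h3.symm

lemma Gb_LawY_eq [Corr θ] [IsProbabilityMeasure μ] :
    LawY d θ μ = ((isingLaw d θ).prod (GbGam d μ)).map GbMul := by
  unfold LawY
  rw [← Gb_law, Measure.map_map GbMul_measurable GbPair_measurable]
  rfl

/-- Invariance of the law of the field under automorphisms. -/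
theorem Gb_LawY_map [Corr θ] (hμ : Nish μ) (g : Aut d) : (LawY d θ μ).map (actS g) = LawY d θ μ := by
  have := hμ.prob
  rw [Gb_LawY_eq, Measure.map_map (measurable_actS g) GbMul_measurable]
  have h : actS g ∘ GbMul =
      GbMul ∘ Prod.map (actS g : (Word d → Bool) → Word d → Bool) (actS g : (Word d → ℝ) → Word d → ℝ) := by
    funext p
    rfl
  rw [h, ← Measure.map_map GbMul_measurable ((measurable_actS g).prodMap (measurable_actS g))]
  rw [← Measure.map_prod_map _ _ (measurable_actS g) (measurable_actS g)]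
  rw [isingLaw_map_actS]
  have hgam : (GbGam d μ).map (actS g) = GbGam d μ := by
    have := Measure.map_infinitePi_infinitePi_of_inj (P := fun _ : Word d => μ)
      (f := g.symm) g.symm.injective
    exact this
  rw [hgam]

instance Gb_LawY_prob [Corr θ] [IsProbabilityMeasure μ] : IsProbabilityMeasure (LawY d θ μ) := by
  unfold LawY
  exact Measure.isProbabilityMeasure_map Gb_yC_measurable.aemeasurable

/-! ### The flip on a finite set of sites -/

open Classical in
/-- Multiply the fields on `T` by the spins. -/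
noncomputable def GbFlip (T : Finset (Word d)) (σ : Word d → Bool) (ξ : Word d → ℝ) : Word d → ℝ :=
  fun x => if x ∈ T then sp (σ x) * ξ x else ξ x

/-- The density of the flipped field law. -/
noncomputable def GbW (T : Finset (Word d)) (σ : Word d → Bool) (ξ : Word d → ℝ) : ℝ :=
  Real.exp (∑ x ∈ T, (sp (σ x) - 1) * ξ x)

lemma GbFlip_measurable (T : Finset (Word d)) (σ : Word d → Bool) : Measurable (GbFlip T σ) := by
  refine measurable_pi_iff.mpr fun x => ?_
  unfold GbFlip
  by_cases h : x ∈ T
  · simp only [h, if_true]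
    exact (measurable_pi_apply x).const_mul _
  · simp only [h, if_false]
    exact measurable_pi_apply x

lemma GbW_measurable (T : Finset (Word d)) (σ : Word d → Bool) : Measurable (GbW T σ) := by
  unfold GbW
  refine Real.measurable_exp.comp ?_
  exact Finset.measurable_sum _ fun x _ => (measurable_pi_apply x).const_mul _

lemma GbW_pos (T : Finset (Word d)) (σ : Word d → Bool) (ξ : Word d → ℝ) : 0 < GbW T σ ξ := Real.exp_pos _

/-- The local fields are bounded almost surely. -/
lemma Gb_ae_bound [IsProbabilityMeasure μ] {M : ℝ} (hM : ∀ᵐ h ∂μ, |h| ≤ M) (T : Finset (Word d)) :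
    ∀ᵐ ξ ∂(GbGam d μ), ∀ x ∈ T, |ξ x| ≤ M := by
  rw [Finset.eventually_all]
  intro x _
  exact (measurePreserving_eval_infinitePi (fun _ : Word d => μ) x).quasiMeasurePreserving.ae hM

lemma GbW_le {M : ℝ} (T : Finset (Word d)) (σ : Word d → Bool) {ξ : Word d → ℝ}
    (hξ : ∀ x ∈ T, |ξ x| ≤ M) : GbW T σ ξ ≤ Real.exp (2 * M * T.card) := by
  unfold GbW
  apply Real.exp_le_exp.mpr
  have h1 : ∀ x ∈ T, (sp (σ x) - 1) * ξ x ≤ 2 * M := by
    intro x hx
    have h2 := abs_le.mp (hξ x hx)
    cases h : σ x <;> simp only [sp] <;> norm_num <;> linarith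
  calc ∑ x ∈ T, (sp (σ x) - 1) * ξ x ≤ ∑ _x ∈ T, 2 * M := Finset.sum_le_sum h1
    _ = 2 * M * T.card := by rw [Finset.sum_const, nsmul_eq_mul]; ring

/-- Bounded function times the density is integrable. -/
lemma GbW_integrable [IsProbabilityMeasure μ] {M : ℝ} (hM : ∀ᵐ h ∂μ, |h| ≤ M) (T : Finset (Word d))
    (σ : Word d → Bool) {F : (Word d → ℝ) → ℝ} (hF : Measurable F) {B : ℝ} (hB : ∀ y, |F y| ≤ B) :
    Integrable (fun ξ => F ξ * GbW T σ ξ) (GbGam d μ) := by
  refine Integrable.of_bound (C := B * Real.exp (2 * M * T.card))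
    (hF.mul (GbW_measurable T σ)).aestronglyMeasurable ?_
  filter_upwards [Gb_ae_bound hM T] with ξ hξ
  rw [Real.norm_eq_abs, abs_mul, abs_of_pos (GbW_pos T σ ξ)]
  have hB0 : 0 ≤ B := (abs_nonneg _).trans (hB ξ)
  exact mul_le_mul (hB ξ) (GbW_le T σ hξ) (GbW_pos T σ ξ).le hB0

/-- The law of `s h` has density `exp ((s - 1) h)`. -/
lemma Gb_site (hμ : Nish μ) (b : Bool) {F : ℝ → ℝ} (hF : Measurable F) {B : ℝ} (hB : ∀ x, |F x| ≤ B) :
    ∫ h, F (sp b * h) ∂μ = ∫ h, F h * Real.exp ((sp b - 1) * h) ∂μ := by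
  cases b with
  | false => simp [sp]
  | true =>
    have := hμ.symm F ⟨hF, B, hB⟩
    simp only [sp, if_true]
    have h1 : ∀ h : ℝ, (-1 : ℝ) * h = -h := fun h => by ring
    have h2 : ((-1 : ℝ) - 1) = -2 := by norm_num
    simp only [h1, h2]
    exact this

/-- Fubini in one coordinate of the field law. -/
lemma Gb_fubini [IsProbabilityMeasure μ] (a : Word d) {Q : (Word d → ℝ) → ℝ}
    (hQ : Integrable Q (GbGam d μ)) :
    ∫ ξ, Q ξ ∂(GbGam d μ) = ∫ ξ, ∫ h, Q (Function.update ξ a h) ∂μ ∂(GbGam d μ) := by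
  have U := slb_update_mp (ι := Word d) μ a
  have h1 : ∫ ξ, Q ξ ∂(GbGam d μ) =
      ∫ p, Q (Function.update p.1 a p.2) ∂((GbGam d μ).prod μ) := by
    have := integral_map (μ := (GbGam d μ).prod μ) U.measurable.aemeasurable (f := Q)
      (by rw [U.map_eq]; exact hQ.1)
    rw [U.map_eq] at this
    exact this
  rw [h1]
  exact integral_prod _ ((U.integrable_comp hQ.1).mpr hQ)

open Classical in
/-- The Nishimori flip on a finite set of sites. -/
theorem Gb_flip_integral (hμ : Nish μ) (T : Finset (Word d)) (σ : Word d → Bool) :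
    ∀ {G : (Word d → ℝ) → ℝ}, Measurable G → ∀ {B : ℝ}, (∀ y, |G y| ≤ B) →
      ∫ ξ, G (GbFlip T σ ξ) ∂(GbGam d μ) = ∫ ξ, G ξ * GbW T σ ξ ∂(GbGam d μ) := by
  have hprob := hμ.prob
  obtain ⟨M, hM⟩ := hμ.bdd
  induction T using Finset.induction_on with
  | empty =>
    intro G _ B _
    refine integral_congr_ae (ae_of_all _ fun ξ => ?_)
    have h0 : GbFlip ∅ σ ξ = ξ := by
      funext x
      simp [GbFlip]
    simp [GbW, h0]
  | insert a T ha ih =>
    intro G hG B hB
    -- the single site change
    set s := sp (σ a) with hs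
    let upd : (Word d → ℝ) → Word d → ℝ := fun ξ => Function.update ξ a (s * ξ a)
    have hupd : Measurable upd := by
      refine measurable_pi_iff.mpr fun x => ?_
      by_cases hx : x = a
      · subst hx
        simp only [upd, Function.update_self]
        exact (measurable_pi_apply x).const_mul _
      · simp only [upd, Function.update_of_ne hx]
        exact measurable_pi_apply x
    have hflip : ∀ ξ, GbFlip (insert a T) σ ξ = upd (GbFlip T σ ξ) := by
      intro ξ
      funext x
      by_cases hx : x = a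
      · subst hx
        simp [GbFlip, upd, ha, hs]
      · simp only [upd, Function.update_of_ne hx, GbFlip, Finset.mem_insert, hx, false_or]
    simp_rw [hflip]
    have hG' : Measurable (G ∘ upd) := hG.comp hupd
    have h1 := ih (G := G ∘ upd) hG' (B := B) (fun y => hB _)
    simp only [Function.comp] at h1
    rw [h1]
    -- Fubini in the coordinate `a`
    have hQ1 : Integrable (fun ξ => G (upd ξ) * GbW T σ ξ) (GbGam d μ) :=
      GbW_integrable hM T σ (F := fun ξ => G (upd ξ)) hG' (fun y => hB _)
    have hQ2 : Integrable (fun ξ => G ξ * GbW (insert a T) σ ξ) (GbGam d μ) :=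
      GbW_integrable hM (insert a T) σ hG hB
    have hW : ∀ (ξ : Word d → ℝ) (h : ℝ), GbW T σ (Function.update ξ a h) = GbW T σ ξ := by
      intro ξ h
      unfold GbW
      congr 1
      refine Finset.sum_congr rfl fun x hx => ?_
      have : x ≠ a := fun h' => ha (h' ▸ hx)
      rw [Function.update_of_ne this]
    have hW2 : ∀ ξ : Word d → ℝ, GbW (insert a T) σ ξ = GbW T σ ξ * Real.exp ((s - 1) * ξ a) := by
      intro ξ
      unfold GbW
      rw [Finset.sum_insert ha, ← Real.exp_add, add_comm]
    have hupd2 : ∀ (ξ : Word d → ℝ) (h : ℝ), upd (Function.update ξ a h) = Function.update ξ a (s * h) := by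
      intro ξ h
      simp only [upd, Function.update_self, Function.update_idem]
    have e1 := Gb_fubini (d := d) a hQ1
    have e2 := Gb_fubini (d := d) a hQ2
    rw [e1, e2]
    refine integral_congr_ae (ae_of_all _ fun ξ => ?_)
    simp only [hW, hupd2, hW2, Function.update_self]
    have hFm : Measurable (fun h : ℝ => G (Function.update ξ a h)) :=
      hG.comp (measurable_update ξ (a := a))
    have hsite := Gb_site hμ (σ a) (F := fun h : ℝ => G (Function.update ξ a h)) hFm (B := B) (fun _ => hB _)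
    simp only [← hs] at hsite
    rw [integral_mul_const, hsite, ← integral_mul_const]
    refine integral_congr_ae (ae_of_all _ fun h => ?_)
    simp only
    ring

/-! ### The key formula -/

/-- Integrals of functions of the spins and of the observed field on `D`. -/
theorem Gb_key [Corr θ] (hμ : Nish μ) (D : Finset (Word d))
    {Ψ : (Word d → Bool) × (Word d → ℝ) → ℝ} (hΨ : Measurable Ψ) {B : ℝ} (hB : ∀ p, |Ψ p| ≤ B)
    (hdep : ∀ σ y y', (∀ x ∈ D, y x = y' x) → Ψ (σ, y) = Ψ (σ, y')) :
    ∫ ω, Ψ (sgC ω, yC ω) ∂(cnP d θ μ) =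
      ∫ ξ, ∫ σ, Ψ (σ, ξ) * GbW D σ ξ ∂(isingLaw d θ) ∂(GbGam d μ) := by
  have hprob := hμ.prob
  obtain ⟨M, hM⟩ := hμ.bdd
  have hB0 : 0 ≤ B := (abs_nonneg _).trans (hB (fun _ => false, fun _ => 0))
  have h1 : ∫ ω, Ψ (sgC ω, yC ω) ∂(cnP d θ μ) =
      ∫ p, Ψ (p.1, GbMul p) ∂((isingLaw d θ).prod (GbGam d μ)) := by
    rw [← Gb_law, integral_map GbPair_measurable.aemeasurable]
    · rfl
    · exact (hΨ.comp (measurable_fst.prodMk GbMul_measurable)).aestronglyMeasurable
  rw [h1]
  have hm1 : Measurable (fun p : (Word d → Bool) × (Word d → ℝ) => Ψ (p.1, GbMul p)) :=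
    hΨ.comp (measurable_fst.prodMk GbMul_measurable)
  have hint1 : Integrable (fun p : (Word d → Bool) × (Word d → ℝ) => Ψ (p.1, GbMul p))
      ((isingLaw d θ).prod (GbGam d μ)) :=
    Integrable.of_bound hm1.aestronglyMeasurable B (ae_of_all _ fun p => by simpa using hB _)
  rw [integral_prod _ hint1]
  -- integrate out the fields for fixed spins
  have h2 : ∀ σ : Word d → Bool, ∫ ξ, Ψ (σ, GbMul (σ, ξ)) ∂(GbGam d μ) =
      ∫ ξ, Ψ (σ, ξ) * GbW D σ ξ ∂(GbGam d μ) := by
    intro σ
    have hflip : ∀ ξ, Ψ (σ, GbMul (σ, ξ)) = Ψ (σ, GbFlip D σ ξ) := by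
      intro ξ
      refine hdep σ _ _ fun x hx => ?_
      simp [GbMul, GbFlip, hx]
    simp_rw [hflip]
    have hGm : Measurable (fun y : Word d → ℝ => Ψ (σ, y)) := hΨ.comp (measurable_const.prodMk measurable_id)
    exact Gb_flip_integral hμ D σ hGm (B := B) (fun y => hB _)
  simp_rw [h2]
  -- swap
  have hWm : Measurable (fun p : (Word d → Bool) × (Word d → ℝ) => Ψ p * GbW D p.1 p.2) := by
    refine hΨ.mul ?_
    unfold GbW
    refine Real.measurable_exp.comp ?_
    refine Finset.measurable_sum _ fun x _ => ?_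
    have h3 : Measurable sp := Measurable.of_discrete
    exact ((h3.comp ((measurable_pi_apply x).comp measurable_fst)).sub_const _).mul
      ((measurable_pi_apply x).comp measurable_snd)
  have hint2 : Integrable (Function.uncurry fun (σ : Word d → Bool) (ξ : Word d → ℝ) => Ψ (σ, ξ) * GbW D σ ξ)
      ((isingLaw d θ).prod (GbGam d μ)) := by
    refine Integrable.of_bound (C := B * Real.exp (2 * M * D.card)) hWm.aestronglyMeasurable ?_
    have hae := (Measure.quasiMeasurePreserving_snd (μ := isingLaw d θ) (ν := GbGam d μ)).ae (Gb_ae_bound hM D)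
    filter_upwards [hae] with p hp
    simp only [Function.uncurry, Real.norm_eq_abs]
    rw [abs_mul, abs_of_pos (GbW_pos D p.1 p.2)]
    exact mul_le_mul (hB _) (GbW_le D p.1 hp) (GbW_pos D p.1 p.2).le hB0
  exact integral_integral_swap hint2

lemma GbW_eq (D : Finset (Word d)) (σ : Word d → Bool) (ξ : Word d → ℝ) :
    GbW D σ ξ = tiltE D ξ σ * Real.exp (- ∑ x ∈ D, ξ x) := by
  unfold GbW tiltE
  rw [← Real.exp_add]
  congr 1
  rw [← Finset.sum_neg_distrib, ← Finset.sum_add_distrib]
  refine Finset.sum_congr rfl fun x _ => ?_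
  ring

/-- The denominator of the Gibbs expectation is positive. -/
lemma Gb_den_pos [Corr θ] (D : Finset (Word d)) (y : Word d → ℝ) :
    0 < ∫ σ, tiltE D y σ ∂(isingLaw d θ) := by
  have hint : Integrable (fun σ : Word d → Bool => tiltE D y σ) (isingLaw d θ) :=
    Integrable.of_bound (slf_measurable_tiltE D y).aestronglyMeasurable _
      (ae_of_all _ fun σ => by
        rw [Real.norm_of_nonneg (slf_tiltE_pos D y σ).le]
        exact slf_tiltE_le D y σ)
  rw [integral_pos_iff_support_of_nonneg (fun σ => (slf_tiltE_pos D y σ).le) hint]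
  have : Function.support (fun σ : Word d → Bool => tiltE D y σ) = Set.univ := by
    ext σ
    simp [(slf_tiltE_pos D y σ).ne']
  rw [this]
  simp

/-- Bayes for the static model, with the Gibbs expectation written out. -/
theorem Gb_bayes [Corr θ] (hμ : Nish μ) (D : Finset (Word d))
    {Φ : (Word d → Bool) → ℝ} (hΦ : Measurable Φ) (hΦb : ∀ σ, |Φ σ| ≤ 1)
    (hΦD : DependsOn Φ (D : Set (Word d)))
    {F : (Word d → ℝ) → ℝ} (hF : Measurable F) {B : ℝ} (hFb : ∀ y, |F y| ≤ B)
    (hFD : DependsOn F (D : Set (Word d))) :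
    ∫ ω, Φ (sgC ω) * F (yC ω) ∂(cnP d θ μ) =
      ∫ ω, ((∫ σ, Φ σ * tiltE D (yC ω) σ ∂(isingLaw d θ)) / ∫ σ, tiltE D (yC ω) σ ∂(isingLaw d θ)) *
        F (yC ω) ∂(cnP d θ μ) := by
  have hprob := hμ.prob
  have hB0 : 0 ≤ B := (abs_nonneg _).trans (hFb 0)
  have hFdep : ∀ y y' : Word d → ℝ, (∀ x ∈ D, y x = y' x) → F y = F y' :=
    fun y y' h => hFD (fun x hx => h x (Finset.mem_coe.mp hx))
  -- the Gibbs expectation
  let E : (Word d → ℝ) → ℝ := fun y =>
    (∫ σ, Φ σ * tiltE D y σ ∂(isingLaw d θ)) / ∫ σ, tiltE D y σ ∂(isingLaw d θ)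
  have htilt_joint : Measurable (fun p : (Word d → ℝ) × (Word d → Bool) => tiltE D p.1 p.2) := by
    unfold tiltE
    refine Real.measurable_exp.comp ?_
    refine Finset.measurable_sum _ fun x _ => ?_
    have h3 : Measurable sp := Measurable.of_discrete
    exact (h3.comp ((measurable_pi_apply x).comp measurable_snd)).mul
      ((measurable_pi_apply x).comp measurable_fst)
  have hEm : Measurable E := by
    refine Measurable.div ?_ ?_
    · have hj : Measurable (Function.uncurry fun (y : Word d → ℝ) (σ : Word d → Bool) => Φ σ * tiltE D y σ) :=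
        (hΦ.comp measurable_snd).mul htilt_joint
      exact (hj.stronglyMeasurable.integral_prod_right (ν := isingLaw d θ)).measurable
    · have hj : Measurable (Function.uncurry fun (y : Word d → ℝ) (σ : Word d → Bool) => tiltE D y σ) :=
        htilt_joint
      exact (hj.stronglyMeasurable.integral_prod_right (ν := isingLaw d θ)).measurable
  have hEb : ∀ y, |E y| ≤ 1 := by
    intro y
    have hden := Gb_den_pos (θ := θ) D y
    have hint : Integrable (fun σ : Word d → Bool => tiltE D y σ) (isingLaw d θ) :=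
      Integrable.of_bound (slf_measurable_tiltE D y).aestronglyMeasurable _
        (ae_of_all _ fun σ => by
          rw [Real.norm_of_nonneg (slf_tiltE_pos D y σ).le]
          exact slf_tiltE_le D y σ)
    simp only [E]
    rw [abs_div, abs_of_pos hden, div_le_one hden]
    rw [← Real.norm_eq_abs]
    refine (norm_integral_le_integral_norm _).trans ?_
    refine integral_mono_of_nonneg (ae_of_all _ fun σ => norm_nonneg _) hint (ae_of_all _ fun σ => ?_)
    simp only [Real.norm_eq_abs, abs_mul, abs_of_pos (slf_tiltE_pos D y σ)]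
    have := hΦb σ
    nlinarith [slf_tiltE_pos D y σ]
  have hEdep : ∀ y y' : Word d → ℝ, (∀ x ∈ D, y x = y' x) → E y = E y' := by
    intro y y' h
    have h1 : ∀ σ, tiltE D y σ = tiltE D y' σ := by
      intro σ
      unfold tiltE
      congr 1
      exact Finset.sum_congr rfl fun x hx => by rw [h x hx]
    simp only [E, h1]
  -- apply the key formula to both sides
  have L := Gb_key (θ := θ) hμ D (Ψ := fun p => Φ p.1 * F p.2)
    ((hΦ.comp measurable_fst).mul (hF.comp measurable_snd)) (B := B)
    (fun p => by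
      rw [abs_mul]
      have h1 := hΦb p.1
      have h2 := hFb p.2
      nlinarith [abs_nonneg (Φ p.1), abs_nonneg (F p.2)])
    (fun σ y y' h => by simp only [hFdep y y' h])
  have R := Gb_key (θ := θ) hμ D (Ψ := fun p => E p.2 * F p.2)
    ((hEm.comp measurable_snd).mul (hF.comp measurable_snd)) (B := B)
    (fun p => by
      rw [abs_mul]
      have h1 := hEb p.2
      have h2 := hFb p.2
      nlinarith [abs_nonneg (E p.2), abs_nonneg (F p.2)])
    (fun σ y y' h => by simp only [hFdep y y' h, hEdep y y' h])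
  simp only at L R
  change ∫ ω, Φ (sgC ω) * F (yC ω) ∂(cnP d θ μ) = ∫ ω, E (yC ω) * F (yC ω) ∂(cnP d θ μ)
  rw [L, R]
  refine integral_congr_ae (ae_of_all _ fun ξ => ?_)
  simp only
  have hden := Gb_den_pos (θ := θ) D ξ
  simp_rw [GbW_eq]
  have e1 : ∫ σ, Φ σ * F ξ * (tiltE D ξ σ * Real.exp (- ∑ x ∈ D, ξ x)) ∂(isingLaw d θ) =
      F ξ * Real.exp (- ∑ x ∈ D, ξ x) * ∫ σ, Φ σ * tiltE D ξ σ ∂(isingLaw d θ) := by
    rw [← integral_const_mul]
    refine integral_congr_ae (ae_of_all _ fun σ => ?_)
    simp only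
    ring
  have e2 : ∫ σ, E ξ * F ξ * (tiltE D ξ σ * Real.exp (- ∑ x ∈ D, ξ x)) ∂(isingLaw d θ) =
      E ξ * F ξ * Real.exp (- ∑ x ∈ D, ξ x) * ∫ σ, tiltE D ξ σ ∂(isingLaw d θ) := by
    rw [← integral_const_mul]
    refine integral_congr_ae (ae_of_all _ fun σ => ?_)
    simp only
    ring
  rw [e1, e2]
  simp only [E]
  field_simp

end Vale.Agent.Lib.P161B
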