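import Vale.Agent.Lib.P161.SLRun
import Vale.Agent.Lib.P161B.Defs

/-!
The influence of a cut: removing a hanging subtree moves the effective field at a vertex by at most
`θ ^ dist * artanh θ`. This file contains the deterministic lemmas for `hf_cut` of `Gibbs.lean`.
-/

namespace Vale.Agent.Lib.P161B

open Vale.Agent.Lib.P161

variable {d : ℕ} {θ : ℝ}

lemma gcut_gg_abs [Corr θ] (hθ : θ < 1) (u : ℝ) : |slf_gg θ u| ≤ Real.artanh θ := by
  have h0 : 0 ≤ θ := Corr.nonneg
  have h1 : θ ≤ 1 := Corr.le_one
  have hA := slf_A_pos θ h0 h1 u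
  have hB := slf_B_pos θ h0 h1 u
  have hmem : θ ∈ Set.Icc (-1 : ℝ) 1 := ⟨by linarith, h1⟩
  rw [Real.artanh_eq_half_log hmem]
  have hp : 0 < (1 + θ) / (1 - θ) := div_pos (by linarith) (by linarith)
  have hsc : Real.sinh u ≤ Real.cosh u := (Real.sinh_lt_cosh u).le
  have hsc' : - Real.sinh u ≤ Real.cosh u := by
    have := Real.sinh_lt_cosh (-u)
    rw [Real.sinh_neg, Real.cosh_neg] at this
    exact this.le
  have up1 : slf_A θ u / slf_B θ u ≤ (1 + θ) / (1 - θ) := by
    rw [div_le_div_iff₀ hB (by linarith)]
    unfold slf_A slf_B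
    nlinarith
  have up2 : slf_B θ u / slf_A θ u ≤ (1 + θ) / (1 - θ) := by
    rw [div_le_div_iff₀ hA (by linarith)]
    unfold slf_A slf_B
    nlinarith
  have l1 := Real.log_le_log (div_pos hA hB) up1
  have l2 := Real.log_le_log (div_pos hB hA) up2
  rw [Real.log_div hA.ne' hB.ne'] at l1
  rw [Real.log_div hB.ne' hA.ne'] at l2
  unfold slf_gg
  rw [abs_le]
  constructor <;> linarith

lemma gcut_sub_parent {c v : Word d} (hv : c.1 <:+ v.1) (hne : v ≠ c) : c.1 <:+ (parent v).1 := by
  obtain ⟨s, hs⟩ := hv
  cases s with
  | nil =>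
    exfalso
    apply hne
    apply Subtype.ext
    simpa using hs.symm
  | cons a s =>
    refine ⟨s, ?_⟩
    show s ++ c.1 = v.1.tail
    rw [← hs]
    rfl

lemma gcut_parent_sub {c v : Word d} (h : c.1 <:+ (parent v).1) : c.1 <:+ v.1 :=
  h.trans (List.tail_suffix _)

/-- Removing a subtree hanging from `parent c` adds one bounded message to the field at `parent c`. -/
lemma gcut_hang [Corr θ] (hθ : θ < 1) (c top : Word d) (D₁ : Finset (Word d)) (hD₁ : Rooted D₁ top)
    (hdisj : ∀ v ∈ D₁, ¬ c.1 <:+ v.1) :
    ∀ (n : ℕ) (D' : Finset (Word d)), (D' \ D₁).card = n → D₁ ⊆ D' → Rooted D' top →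
      (∀ v ∈ D', v ∉ D₁ → c.1 <:+ v.1) → ∀ y : Word d → ℝ, ∃ w : ℝ, |w| ≤ Real.artanh θ ∧
        ∀ v ∈ D₁, hf θ D' y v = hf θ D₁ (Function.update y (parent c) (y (parent c) + w)) v := by
  classical
  intro n
  induction n with
  | zero =>
    intro D' hcard hsub hR hdesc y
    have hEq : D' = D₁ := by
      have h2 : D' \ D₁ = ∅ := Finset.card_eq_zero.mp hcard
      exact Finset.Subset.antisymm (Finset.sdiff_eq_empty_iff_subset.mp h2) hsub
    subst hEq
    refine ⟨0, ?_, fun v _ => ?_⟩
    · rw [abs_zero]
      exact (abs_nonneg _).trans (gcut_gg_abs hθ 0)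
    · rw [add_zero, Function.update_eq_self]
  | succ n ih =>
    intro D' hcard hsub hR hdesc y
    have hne : (D' \ D₁).Nonempty := Finset.card_pos.mp (by omega)
    obtain ⟨l, hl, hmax⟩ := Finset.exists_max_image (D' \ D₁) len hne
    obtain ⟨hlD', hlD₁⟩ := Finset.mem_sdiff.mp hl
    have hltop : l ≠ top := fun h => hlD₁ (h ▸ hD₁.mem)
    have hpD' : parent l ∈ D' := hR.closed l hlD' hltop
    have hroot_top : ∀ x ∈ D', x ≠ top → x ≠ root := by
      rintro x hx hxt rfl
      have h2 := hR.min root hx
      simp only [len_root, Nat.le_zero_eq] at h2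
      exact hxt (len_eq_zero h2).symm
    have hlroot : l ≠ root := hroot_top l hlD' hltop
    have hlen := len_parent hlroot
    have hpl : parent l ≠ l := by
      intro h
      rw [h] at hlen
      omega
    set D'' := D'.erase l with hD''
    have hins : insert l D'' = D' := Finset.insert_erase hlD'
    have hlD'' : l ∉ D'' := Finset.notMem_erase l D'
    have hpD'' : parent l ∈ D'' := Finset.mem_erase.mpr ⟨hpl, hpD'⟩
    have hR'' : Rooted D'' top := by
      refine ⟨Finset.mem_erase.mpr ⟨hltop.symm, hR.mem⟩, fun v hv => hR.min v (Finset.mem_of_mem_erase hv), ?_⟩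
      intro x hx hxt
      have hx1 := Finset.mem_erase.mp hx
      refine Finset.mem_erase.mpr ⟨?_, hR.closed x hx1.2 hxt⟩
      intro hxl
      by_cases hxD : x ∈ D₁
      · exact hlD₁ (hxl ▸ hD₁.closed x hxD hxt)
      · have h2 := len_parent (hroot_top x hx1.2 hxt)
        rw [hxl] at h2
        have h3 := hmax x (Finset.mem_sdiff.mpr ⟨hx1.2, hxD⟩)
        omega
    have hleaf : ∀ v ∈ D'', hf θ D' y v =
        hf θ D'' (Function.update y (parent l) (y (parent l) + slf_gg θ (y l))) v := by
      intro v hv
      conv_lhs => rw [← hins]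
      exact slf_hf_leaf θ hθ hR'' hlD'' hpD'' y hv
    have hsub'' : D₁ ⊆ D'' := by
      intro v hv
      refine Finset.mem_erase.mpr ⟨?_, hsub hv⟩
      rintro rfl
      exact hlD₁ hv
    by_cases hlc : l = c
    · subst hlc
      have hEq : D'' = D₁ := by
        refine Finset.Subset.antisymm ?_ hsub''
        intro v hv
        by_contra hvD
        have hv1 := Finset.mem_erase.mp hv
        have h2 := hmax v (Finset.mem_sdiff.mpr ⟨hv1.2, hvD⟩)
        have h3 := hdesc v hv1.2 hvD
        have h4 : l.1 = v.1 := h3.eq_of_length_le h2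
        exact hv1.1 (Subtype.ext h4).symm
      refine ⟨slf_gg θ (y l), gcut_gg_abs hθ _, fun v hv => ?_⟩
      rw [hleaf v (hsub'' hv), hEq]
    · have hpsub : c.1 <:+ (parent l).1 := gcut_sub_parent (hdesc l hlD' hlD₁) hlc
      have hplD₁ : parent l ∉ D₁ := fun h => hdisj _ h hpsub
      set y' := Function.update y (parent l) (y (parent l) + slf_gg θ (y l)) with hy'
      have hcard'' : (D'' \ D₁).card = n := by
        have h2 : D'' \ D₁ = (D' \ D₁).erase l := by
          ext v
          simp only [hD'', Finset.mem_sdiff, Finset.mem_erase]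
          tauto
        rw [h2, Finset.card_erase_of_mem hl, hcard]
        rfl
      obtain ⟨w, hw, hval⟩ := ih D'' hcard'' hsub'' hR''
        (fun v hv hvD => hdesc v (Finset.mem_of_mem_erase hv) hvD) y'
      refine ⟨w, hw, fun v hv => ?_⟩
      rw [hleaf v (hsub'' hv), hval v hv]
      apply hf_congr
      intro x hx
      have hxp : x ≠ parent l := by
        rintro rfl
        exact hplD₁ hx
      by_cases hxc : x = parent c
      · subst hxc
        rw [Function.update_self, Function.update_self, hy', Function.update_of_ne hxp]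
      · rw [Function.update_of_ne hxc, Function.update_of_ne hxc, hy', Function.update_of_ne hxp]

/-- One perturbed site: the influence at the root. -/
lemma gcut_influence_root [Corr θ] (hθ : θ < 1) {D : Finset (Word d)} (hD : Rooted D root)
    {y y' : Word d → ℝ} {z : Word d} {t : ℝ} (ht : 0 ≤ t) (hy : ∀ x ∈ D, x ≠ z → y x = y' x)
    (hz : |y z - y' z| ≤ t) : |hf θ D y root - hf θ D y' root| ≤ θ ^ len z * t := by
  classical
  have h0 : 0 ≤ θ := Corr.nonneg
  let ε : Word d → ℝ := fun x => if x = z then t else 0
  let b : Word d → ℝ := fun x => if x.1 <:+ z.1 then θ ^ (len z - len x) * t else 0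
  have hb0 : ∀ x, 0 ≤ b x := by
    intro x
    simp only [b]
    split_ifs
    · positivity
    · exact le_rfl
  have hmain := slf_rooted_bound θ hθ D.card D rfl hD y y' ε b ?_ ?_
  · have h2 : b root = θ ^ len z * t := by
      simp only [b]
      rw [if_pos (show (root : Word d).1 <:+ z.1 from List.nil_suffix)]
      simp
    rwa [h2] at hmain
  · intro x hx
    simp only [ε]
    by_cases hxz : x = z
    · subst hxz
      rw [if_pos rfl]
      exact hz
    · rw [if_neg hxz, hy x hx hxz, sub_self, abs_zero]
  · intro x hx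
    set F := D.filter (fun c => c ≠ root ∧ parent c = x) with hF
    have hFp : ∀ c ∈ F, c ≠ root ∧ parent c = x := fun c hc => (Finset.mem_filter.mp hc).2
    have hsuffchild : ∀ c ∈ F, x.1 <:+ c.1 := by
      intro c hc
      rw [← (hFp c hc).2]
      exact List.tail_suffix _
    have hlenchild : ∀ c ∈ F, len c = len x + 1 := by
      intro c hc
      obtain ⟨h1, h2⟩ := hFp c hc
      have := len_parent h1
      rw [h2] at this
      omega
    by_cases hxs : x.1 <:+ z.1
    · by_cases hxz : x = z
      · subst hxz
        have hzero : ∀ c ∈ F, b c = 0 := by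
          intro c hc
          simp only [b]
          rw [if_neg]
          intro h
          have h2 := h.length_le
          have h3 := hlenchild c hc
          unfold len at h3
          omega
        rw [Finset.sum_eq_zero hzero]
        simp [ε, b]
      · have hlt : len x < len z := by
          have h2 := hxs.length_le
          have h3 : x.1.length ≠ z.1.length := by
            intro h
            exact hxz (Subtype.ext (hxs.eq_of_length h))
          unfold len
          omega
        have hsum : ∑ c ∈ F, b c ≤ θ ^ (len z - len x - 1) * t := by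
          by_cases hex : ∃ c₀ ∈ F, c₀.1 <:+ z.1
          · obtain ⟨c₀, hc₀, hc₀s⟩ := hex
            rw [Finset.sum_eq_single_of_mem c₀ hc₀]
            · simp only [b]
              rw [if_pos hc₀s, hlenchild c₀ hc₀]
              have : len z - (len x + 1) = len z - len x - 1 := by omega
              rw [this]
            · intro c hc hne
              simp only [b]
              rw [if_neg]
              intro hcs
              apply hne
              have h2 := hlenchild c hc
              have h3 := hlenchild c₀ hc₀
              apply Subtype.ext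
              rcases List.suffix_or_suffix_of_suffix hcs hc₀s with h4 | h4
              · exact h4.eq_of_length (by unfold len at h2 h3; omega)
              · exact (h4.eq_of_length (by unfold len at h2 h3; omega)).symm
          · have hzero : ∀ c ∈ F, b c = 0 := by
              intro c hc
              simp only [b]
              rw [if_neg]
              intro h
              exact hex ⟨c, hc, h⟩
            rw [Finset.sum_eq_zero hzero]
            positivity
        have hexpo : θ ^ (len z - len x) = θ * θ ^ (len z - len x - 1) := by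
          rw [← pow_succ']
          congr 1
          omega
        simp only [ε, b]
        rw [if_neg hxz, if_pos hxs, zero_add, hexpo, mul_assoc]
        exact mul_le_mul_of_nonneg_left hsum h0
    · have hxz : x ≠ z := by
        rintro rfl
        exact hxs List.suffix_rfl
      have hzero : ∀ c ∈ F, b c = 0 := by
        intro c hc
        simp only [b]
        rw [if_neg]
        intro h
        exact hxs ((hsuffchild c hc).trans h)
      rw [Finset.sum_eq_zero hzero]
      simp [ε, b, hxs, hxz]

lemma gcut_connClosed_of_rooted {D : Finset (Word d)} (hD : Rooted D root) : ConnClosed D := by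
  classical
  refine ⟨⟨root, hD.mem⟩, fun A hAD hA hcl => ?_⟩
  refine Finset.Subset.antisymm hAD ?_
  obtain ⟨a, ha⟩ := hA
  have hup : ∀ (k : ℕ) (v : Word d), len v = k → v ∈ A → root ∈ A := by
    intro k
    induction k with
    | zero =>
      intro v hv hvA
      rwa [← len_eq_zero hv]
    | succ k ih =>
      intro v hv hvA
      have hvr : v ≠ root := by
        rintro rfl
        simp at hv
      have h2 := len_parent hvr
      refine ih (parent v) (by omega) ?_
      exact hcl v hvA _ (hD.closed v (hAD hvA) hvr) (adj_parent hvr)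
  have hroot : root ∈ A := hup _ a rfl ha
  have hdown : ∀ (k : ℕ) (v : Word d), len v = k → v ∈ D → v ∈ A := by
    intro k
    induction k with
    | zero =>
      intro v hv _
      rwa [len_eq_zero hv]
    | succ k ih =>
      intro v hv hvD
      have hvr : v ≠ root := by
        rintro rfl
        simp at hv
      have h2 := len_parent hvr
      have hpD := hD.closed v hvD hvr
      have hpA := ih (parent v) (by omega) hpD
      exact hcl _ hpA v hvD (adj_parent hvr).symm
  intro v hv
  exact hdown _ v rfl hv

/-- The rooted image of a connected set under an automorphism moving a member to the root. -/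
lemma gcut_rooted_map {D : Finset (Word d)} (hD : ConnClosed D) (g : Aut d) {x : Word d} (hx : x ∈ D)
    (hg : g x = root) : Rooted (D.map g.toEquiv.toEmbedding) root := by
  have hrootD : root ∈ D.map g.toEquiv.toEmbedding := Finset.mem_map.mpr ⟨x, hx, hg⟩
  obtain ⟨top, htop⟩ := rooted_of_connClosed (connClosed_image hD g)
  have h2 := htop.min root hrootD
  simp only [len_root, Nat.le_zero_eq] at h2
  have h3 := len_eq_zero h2
  rw [h3] at htop
  exact htop

/-- One perturbed site: the influence at any vertex. -/
lemma gcut_influence [Corr θ] (hθ : θ < 1) {D : Finset (Word d)} (hD : ConnClosed D) {x z : Word d}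
    (hx : x ∈ D) {y y' : Word d → ℝ} {t : ℝ} (ht : 0 ≤ t) (hy : ∀ u ∈ D, u ≠ z → y u = y' u)
    (hz : |y z - y' z| ≤ t) : |hf θ D y x - hf θ D y' x| ≤ θ ^ rho x z * t := by
  set g : Aut d := (gm x).symm with hg
  have hgx : g x = root := gm_symm_self x
  have hR := gcut_rooted_map hD g hx hgx
  have h1 := gcut_influence_root hθ hR (y := actS g y) (y' := actS g y') (z := g z) ht (by
    intro u hu hne
    obtain ⟨u', hu', rfl⟩ := Finset.mem_map.mp hu
    have hne' : u' ≠ z := by
      rintro rfl
      exact hne rfl
    simpa [actS] using hy u' hu' hne') (by simpa [actS] using hz)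
  have h3 := hf_map θ g D y x
  have h4 := hf_map θ g D y' x
  rw [hgx] at h3 h4
  rw [h3, h4] at h1
  exact h1

lemma gcut_root_not_sub (i : Fin d) : ¬ (letter i : Word d).1 <:+ (root : Word d).1 := by
  intro h
  have := h.length_le
  simp [letter, root] at this

open Classical in
/-- Cutting the subtree below `letter i` from a set rooted at the root. -/
lemma gcut_main [Corr θ] (hθ : θ < 1) {D : Finset (Word d)} (hD : Rooted D root) (i : Fin d)
    (y : Word d → ℝ) {x : Word d} (hx : x ∈ D) (hxi : x ∉ Sub (letter i)) :
    |hf θ D y x - hf θ (D.filter (fun v => v ∉ Sub (letter i))) y x| ≤ θ ^ len x * Real.artanh θ := by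
  set D₁ := D.filter (fun v => v ∉ Sub (letter i)) with hD₁
  have hmem₁ : ∀ v, v ∈ D₁ ↔ v ∈ D ∧ ¬ (letter i : Word d).1 <:+ v.1 := by
    intro v
    rw [hD₁, Finset.mem_filter]
    rfl
  have hR₁ : Rooted D₁ root := by
    refine ⟨(hmem₁ _).mpr ⟨hD.mem, gcut_root_not_sub i⟩, fun v _ => by simp, ?_⟩
    intro v hv hvr
    obtain ⟨h1, h2⟩ := (hmem₁ v).mp hv
    refine (hmem₁ _).mpr ⟨hD.closed v h1 hvr, fun h => h2 (gcut_parent_sub h)⟩
  obtain ⟨w, hw, hval⟩ := gcut_hang hθ (letter i) root D₁ hR₁ (fun v hv => ((hmem₁ v).mp hv).2) _ D rfl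
    (Finset.filter_subset _ _) hD (fun v hv hv' => by
      by_contra h
      exact hv' ((hmem₁ v).mpr ⟨hv, h⟩)) y
  have hxD₁ : x ∈ D₁ := (hmem₁ x).mpr ⟨hx, hxi⟩
  rw [hval x hxD₁]
  have hparent : parent (letter i : Word d) = root := rfl
  rw [hparent]
  have ht : 0 ≤ Real.artanh θ := (abs_nonneg _).trans hw
  have h2 := gcut_influence hθ (gcut_connClosed_of_rooted hR₁) hxD₁
    (y := Function.update y root (y root + w)) (y' := y) (z := root) ht (by
      intro u _ hne
      rw [Function.update_of_ne hne]) (by
      rw [Function.update_self]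
      have : y root + w - y root = w := by ring
      rwa [this])
  rwa [rho_root] at h2

lemma gcut_flipL_pos (i : Fin d) : ∀ l : List (Fin d), l.IsChain (· ≠ ·) → [i] <:+ l →
    (flipL i l).length + 1 = l.length ∧ ¬ [i] <:+ flipL i l
  | [], _, h => by
    have := h.length_le
    simp at this
  | [j], _, h => by
    have h2 : [i] = [j] := h.eq_of_length rfl
    have h3 : i = j := by simpa using h2
    subst h3
    simp [flipL]
  | j :: k :: w, hl, h => by
    have h1 := List.isChain_cons_cons.mp hl
    have hs : [i] <:+ k :: w := by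
      rcases List.suffix_cons_iff.mp h with h2 | h2
      · simp at h2
      · exact h2
    obtain ⟨ih1, ih2⟩ := gcut_flipL_pos i (k :: w) h1.2 hs
    show (j :: flipL i (k :: w)).length + 1 = _ ∧ ¬ [i] <:+ j :: flipL i (k :: w)
    refine ⟨by simp only [List.length_cons] at ih1 ⊢; omega, ?_⟩
    intro h3
    rcases List.suffix_cons_iff.mp h3 with h4 | h4
    · -- `flipL i (k :: w) = []` and `j = i`
      have h5 : i = j := by simpa using (List.cons.inj h4).1
      have h6 : flipL i (k :: w) = [] := (List.cons.inj h4).2.symm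
      have h7 : w = [] ∧ k = i := by
        cases w with
        | nil =>
          refine ⟨rfl, ?_⟩
          by_contra hk
          simp [flipL, hk] at h6
        | cons a w => simp [flipL] at h6
      exact h1.1 (by rw [h7.2, h5])
    · exact ih2 h4

lemma gcut_flipL_neg (i : Fin d) : ∀ l : List (Fin d), ¬ [i] <:+ l → [i] <:+ flipL i l
  | [], _ => by simp [flipL]
  | [j], h => by
    have hj : j ≠ i := by
      rintro rfl
      exact h List.suffix_rfl
    simp only [flipL, if_neg hj]
    exact ⟨[j], rfl⟩
  | j :: k :: w, h => by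
    have hs : ¬ [i] <:+ k :: w := fun h2 => h (h2.trans (List.suffix_cons _ _))
    have ih := gcut_flipL_neg i (k :: w) hs
    show [i] <:+ j :: flipL i (k :: w)
    exact ih.trans (List.suffix_cons _ _)

lemma gcut_flip_sub (i : Fin d) (v : Word d) :
    flipAut i v ∈ Sub (letter i) ↔ v ∉ Sub (letter i) := by
  constructor
  · intro h hv
    exact (gcut_flipL_pos i v.1 v.2 hv).2 h
  · exact fun h => gcut_flipL_neg i v.1 h

lemma gcut_flip_len (i : Fin d) {v : Word d} (h : v ∈ Sub (letter i)) :
    len (flipAut i v) + 1 = len v :=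
  (gcut_flipL_pos i v.1 v.2 h).1

open Classical in
/-- The two parts of the cut bound on a ball. -/
theorem gcut_ball [Corr θ] (hθ1 : θ < 1) (R : ℕ) (i : Fin d) (y : Word d → ℝ) :
    (∀ x ∈ ball R, x ∉ Sub (letter i) →
      |hf θ (ball R) y x - hf θ ((ball R).filter (fun v => v ∉ Sub (letter i))) y x| ≤
        θ ^ len x * Real.artanh θ) ∧
    (∀ x ∈ ball R, x ∈ Sub (letter i) →
      |hf θ (ball R) y x - hf θ ((ball R).filter (fun v => v ∈ Sub (letter i))) y x| ≤
        θ ^ (len x - 1) * Real.artanh θ) := by
  refine ⟨fun x hx hxi => gcut_main hθ1 (ball_rooted R) i y hx hxi, ?_⟩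
  intro x hx hxi
  set φ : Aut d := flipAut i with hφ
  have hlen : len (φ x) + 1 = len x := gcut_flip_len i hxi
  have hR : 1 ≤ R := by
    have := mem_ball.mp hx
    omega
  have hletter : letter i ∈ ball R := mem_ball.mpr (by simpa using hR)
  have hE : Rooted ((ball R).map φ.toEquiv.toEmbedding) root :=
    gcut_rooted_map (ball_connClosed R) φ hletter (flipAut_letter i)
  have hxE : φ x ∈ (ball R).map φ.toEquiv.toEmbedding := Finset.mem_map.mpr ⟨x, hx, rfl⟩
  have hφx : φ x ∉ Sub (letter i) := by
    intro h
    exact (gcut_flip_sub i x).mp h hxi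
  have hmain := gcut_main hθ1 hE i (actS φ y) hxE hφx
  have hfil : ((ball R).map φ.toEquiv.toEmbedding).filter (fun v => v ∉ Sub (letter i)) =
      ((ball R).filter (fun v => v ∈ Sub (letter i))).map φ.toEquiv.toEmbedding := by
    ext v
    simp only [Finset.mem_filter, Finset.mem_map]
    constructor
    · rintro ⟨⟨u, hu, rfl⟩, hv⟩
      refine ⟨u, ⟨hu, ?_⟩, rfl⟩
      by_contra hu'
      exact hv ((gcut_flip_sub i u).mpr hu')
    · rintro ⟨u, ⟨hu, hu'⟩, rfl⟩
      refine ⟨⟨u, hu, rfl⟩, ?_⟩
      intro h
      exact (gcut_flip_sub i u).mp h hu'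
  rw [hfil] at hmain
  have h3 := hf_map θ φ (ball R) y x
  have h4 := hf_map θ φ ((ball R).filter (fun v => v ∈ Sub (letter i))) y x
  rw [h3, h4] at hmain
  have h5 : len (φ x) = len x - 1 := by omega
  rwa [h5] at hmain

end Vale.Agent.Lib.P161B
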