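import Vale.Agent.Lib.P161B.Defs

/-!
Factorisation of Gibbs integrals on a finite subtree across an edge, the conditional independence it gives,
and the two point law on an edge.
-/

namespace Vale.Agent.Lib.P161B

open MeasureTheory ProbabilityTheory
open Vale.Agent.Lib.P161

variable {d : ℕ} {θ : ℝ}

/-- Functions of the configuration depending on the coordinates in `D` only. -/
def DepD (D : Finset (Word d)) (F : (Word d → Bool) → ℝ) : Prop :=
  ∀ σ σ' : Word d → Bool, (∀ x ∈ D, σ x = σ' x) → F σ = F σ'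

lemma gf_int [Corr θ] {D : Finset (Word d)} {top : Word d} (hD : Rooted D top)
    {F : (Word d → Bool) → ℝ} (hF : DepD D F) :
    ∫ σ, F σ ∂(isingLaw d θ) =
      ∑ S ∈ D.powerset, F (slf_cfg S) * (1 / 2 * wProd θ D top (slf_cfg S)) := by
  rw [slf_integral_fin (isingLaw d θ) D F hF]
  refine Finset.sum_congr rfl fun S _ => ?_
  rw [slf_mass_rooted θ hD]

lemma gf_sum_split {D₁ : Finset (Word d)} (f : Finset (Word d) → ℝ) (D₂ : Finset (Word d))
    (hdisj : Disjoint D₁ D₂) :
    ∑ S ∈ (D₁ ∪ D₂).powerset, f S = ∑ S₁ ∈ D₁.powerset, ∑ S₂ ∈ D₂.powerset, f (S₁ ∪ S₂) := by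
  induction D₂ using Finset.induction_on generalizing f with
  | empty => simp
  | insert a s ha ih =>
    have hdisj' : Disjoint D₁ s := Finset.disjoint_of_subset_right (Finset.subset_insert a s) hdisj
    have ha1 : a ∉ D₁ := fun h => (Finset.disjoint_left.mp hdisj) h (Finset.mem_insert_self a s)
    have ha2 : a ∉ D₁ ∪ s := by
      simp [ha1, ha]
    rw [Finset.union_insert, Finset.sum_powerset_insert ha2, ih f hdisj',
      ih (fun S => f (insert a S)) hdisj', ← Finset.sum_add_distrib]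
    refine Finset.sum_congr rfl fun S₁ _ => ?_
    rw [Finset.sum_powerset_insert ha]
    congr 1
    refine Finset.sum_congr rfl fun S₂ _ => ?_
    rw [Finset.union_insert]

lemma gf_wProd {D₁ D₂ : Finset (Word d)} {top c : Word d} (h₂ : Rooted D₂ c)
    (hdisj : Disjoint D₁ D₂) (htop : top ∈ D₁) (η : Word d → Bool) :
    wProd θ (D₁ ∪ D₂) top η =
      wProd θ D₁ top η * wt θ (η c) (η (parent c)) * wProd θ D₂ c η := by
  unfold wProd
  have h1 : top ∉ D₂ := fun h => (Finset.disjoint_left.mp hdisj) htop h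
  have h2 : (D₁ ∪ D₂).erase top = D₁.erase top ∪ D₂ := by
    ext x
    simp only [Finset.mem_erase, Finset.mem_union]
    constructor
    · rintro ⟨hx, hx' | hx'⟩
      · exact Or.inl ⟨hx, hx'⟩
      · exact Or.inr hx'
    · rintro (⟨hx, hx'⟩ | hx')
      · exact ⟨hx, Or.inl hx'⟩
      · exact ⟨fun h => h1 (h ▸ hx'), Or.inr hx'⟩
  have h3 : Disjoint (D₁.erase top) D₂ :=
    Finset.disjoint_of_subset_left (Finset.erase_subset _ _) hdisj
  rw [h2, Finset.prod_union h3, ← Finset.mul_prod_erase D₂ _ h₂.mem, mul_assoc]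

lemma gf_cfg_left {D₁ D₂ : Finset (Word d)} (hdisj : Disjoint D₁ D₂) {S₁ S₂ : Finset (Word d)}
    (h₂ : S₂ ⊆ D₂) {x : Word d} (hx : x ∈ D₁) : slf_cfg (S₁ ∪ S₂) x = slf_cfg S₁ x := by
  have : x ∉ S₂ := fun h => (Finset.disjoint_left.mp hdisj) hx (h₂ h)
  simp [slf_cfg, this]

lemma gf_cfg_right {D₁ D₂ : Finset (Word d)} (hdisj : Disjoint D₁ D₂) {S₁ S₂ : Finset (Word d)}
    (h₁ : S₁ ⊆ D₁) {x : Word d} (hx : x ∈ D₂) : slf_cfg (S₁ ∪ S₂) x = slf_cfg S₂ x := by
  have : x ∉ S₁ := fun h => (Finset.disjoint_right.mp hdisj) hx (h₁ h)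
  simp [slf_cfg, this]

lemma gf_sum_aux {ι κ : Type*} (A' : Finset ι) (B' : Finset κ) (A : Bool → ι → ℝ) (B : Bool → κ → ℝ)
    (w : Bool → Bool → ℝ) :
    2 * ∑ s : Bool, ∑ t : Bool, w t s * (∑ i ∈ A', A s i) * (∑ j ∈ B', B t j) =
      ∑ i ∈ A', ∑ j ∈ B', (2 * ∑ s : Bool, ∑ t : Bool, w t s * A s i * B t j) := by
  have h : ∀ s t, w t s * (∑ i ∈ A', A s i) * (∑ j ∈ B', B t j) =
      ∑ i ∈ A', ∑ j ∈ B', w t s * A s i * B t j := by
    intro s t
    rw [mul_assoc, Finset.sum_mul_sum, Finset.mul_sum]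
    refine Finset.sum_congr rfl fun i _ => ?_
    rw [Finset.mul_sum]
    refine Finset.sum_congr rfl fun j _ => ?_
    ring
  simp_rw [h]
  simp only [Fintype.sum_bool, Finset.mul_sum, mul_add, Finset.sum_add_distrib]

/-- Factorisation of an integral of a product across the edge `(parent c, c)`. -/
theorem gf_fact [Corr θ] {D₁ D₂ : Finset (Word d)} {top c : Word d} (h₁ : Rooted D₁ top)
    (h₂ : Rooted D₂ c) (hU : Rooted (D₁ ∪ D₂) top) (hdisj : Disjoint D₁ D₂)
    (hb : parent c ∈ D₁) {Φ₁ Φ₂ : (Word d → Bool) → ℝ} (dep₁ : DepD D₁ Φ₁) (dep₂ : DepD D₂ Φ₂) :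
    ∫ σ, Φ₁ σ * Φ₂ σ ∂(isingLaw d θ) =
      2 * ∑ s : Bool, ∑ t : Bool, wt θ t s *
        (∫ σ, (if σ (parent c) = s then Φ₁ σ else 0) ∂(isingLaw d θ)) *
        (∫ σ, (if σ c = t then Φ₂ σ else 0) ∂(isingLaw d θ)) := by
  have depU : DepD (D₁ ∪ D₂) (fun σ => Φ₁ σ * Φ₂ σ) := by
    intro σ σ' h
    have e1 := dep₁ σ σ' (fun x hx => h x (Finset.mem_union_left _ hx))
    have e2 := dep₂ σ σ' (fun x hx => h x (Finset.mem_union_right _ hx))
    simp only [e1, e2]
  have dep₁' : ∀ s : Bool, DepD D₁ (fun σ => if σ (parent c) = s then Φ₁ σ else 0) := by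
    intro s σ σ' h
    simp only [h _ hb, dep₁ σ σ' h]
  have dep₂' : ∀ t : Bool, DepD D₂ (fun σ => if σ c = t then Φ₂ σ else 0) := by
    intro t σ σ' h
    simp only [h _ h₂.mem, dep₂ σ σ' h]
  simp_rw [gf_int h₁ (dep₁' _), gf_int h₂ (dep₂' _)]
  rw [gf_int hU depU, gf_sum_split _ D₂ hdisj, gf_sum_aux]
  refine Finset.sum_congr rfl fun S₁ hS₁ => Finset.sum_congr rfl fun S₂ hS₂ => ?_
  have hS₁' := Finset.mem_powerset.mp hS₁
  have hS₂' := Finset.mem_powerset.mp hS₂
  have e1 : Φ₁ (slf_cfg (S₁ ∪ S₂)) = Φ₁ (slf_cfg S₁) :=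
    dep₁ _ _ (fun x hx => gf_cfg_left hdisj hS₂' hx)
  have e2 : Φ₂ (slf_cfg (S₁ ∪ S₂)) = Φ₂ (slf_cfg S₂) :=
    dep₂ _ _ (fun x hx => gf_cfg_right hdisj hS₁' hx)
  have e3 : slf_cfg (S₁ ∪ S₂) c = slf_cfg S₂ c := gf_cfg_right hdisj hS₁' h₂.mem
  have e4 : slf_cfg (S₁ ∪ S₂) (parent c) = slf_cfg S₁ (parent c) := gf_cfg_left hdisj hS₂' hb
  have e5 : wProd θ D₁ top (slf_cfg (S₁ ∪ S₂)) = wProd θ D₁ top (slf_cfg S₁) :=
    slf_wProd_congr θ h₁ (fun x hx => gf_cfg_left hdisj hS₂' hx)
  have e6 : wProd θ D₂ c (slf_cfg (S₁ ∪ S₂)) = wProd θ D₂ c (slf_cfg S₂) :=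
    slf_wProd_congr θ h₂ (fun x hx => gf_cfg_right hdisj hS₁' hx)
  rw [gf_wProd h₂ hdisj h₁.mem, e1, e2, e3, e4, e5, e6]
  simp only [Fintype.sum_bool]
  cases slf_cfg S₁ (parent c) <;> cases slf_cfg S₂ c <;> simp <;> ring

/-- Expectation under the Gibbs measure on `D` with field `y`. -/
noncomputable def gbE (θ : ℝ) (D : Finset (Word d)) (y : Word d → ℝ) (Φ : (Word d → Bool) → ℝ) : ℝ :=
  (∫ σ, Φ σ * tiltE D y σ ∂(isingLaw d θ)) / ∫ σ, tiltE D y σ ∂(isingLaw d θ)

/-- The Gibbs covariance of the spins at `a` and `b`. -/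
noncomputable def covD (θ : ℝ) (D : Finset (Word d)) (y : Word d → ℝ) (a b : Word d) : ℝ :=
  gbE θ D y (fun σ => sp (σ a) * sp (σ b)) - mD θ D y a * mD θ D y b

/-- The tilted integral. -/
noncomputable def Zf (θ : ℝ) (D : Finset (Word d)) (y : Word d → ℝ) (φ : (Word d → Bool) → ℝ) : ℝ :=
  ∫ σ, φ σ * tiltE D y σ ∂(isingLaw d θ)

lemma gf_depD_tilt (D : Finset (Word d)) (y : Word d → ℝ) : DepD D (tiltE D y) := by
  intro σ σ' h
  unfold tiltE
  congr 1
  exact Finset.sum_congr rfl fun x hx => by rw [h x hx]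

lemma gf_depD_mul {D : Finset (Word d)} {F G : (Word d → Bool) → ℝ} (hF : DepD D F) (hG : DepD D G) :
    DepD D (fun σ => F σ * G σ) := by
  intro σ σ' h
  simp only [hF σ σ' h, hG σ σ' h]

lemma gf_depD_sp {D : Finset (Word d)} {x : Word d} (hx : x ∈ D) : DepD D (fun σ => sp (σ x)) := by
  intro σ σ' h
  simp only [h x hx]

lemma gf_depD_const (D : Finset (Word d)) (a : ℝ) : DepD D (fun _ => a) := fun _ _ _ => rfl

lemma gf_tilt_union {D₁ D₂ : Finset (Word d)} (hdisj : Disjoint D₁ D₂) (y : Word d → ℝ)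
    (σ : Word d → Bool) : tiltE (D₁ ∪ D₂) y σ = tiltE D₁ y σ * tiltE D₂ y σ := by
  unfold tiltE
  rw [Finset.sum_union hdisj, Real.exp_add]

/-- Splitting a finite rooted set along the edge `(parent c, c)`. -/
structure EdgeSplit (D₁ D₂ : Finset (Word d)) (top c : Word d) : Prop where
  r₁ : Rooted D₁ top
  r₂ : Rooted D₂ c
  rU : Rooted (D₁ ∪ D₂) top
  disj : Disjoint D₁ D₂
  hb : parent c ∈ D₁

lemma gf_Zf_fact [Corr θ] {D₁ D₂ : Finset (Word d)} {top c : Word d} (h : EdgeSplit D₁ D₂ top c)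
    (y : Word d → ℝ) {φ₁ φ₂ : (Word d → Bool) → ℝ} (dep₁ : DepD D₁ φ₁) (dep₂ : DepD D₂ φ₂) :
    Zf θ (D₁ ∪ D₂) y (fun σ => φ₁ σ * φ₂ σ) =
      2 * ∑ s : Bool, ∑ t : Bool, wt θ t s *
        Zf θ D₁ y (fun σ => if σ (parent c) = s then φ₁ σ else 0) *
        Zf θ D₂ y (fun σ => if σ c = t then φ₂ σ else 0) := by
  have h1 := gf_fact (θ := θ) h.r₁ h.r₂ h.rU h.disj h.hb
    (gf_depD_mul dep₁ (gf_depD_tilt D₁ y)) (gf_depD_mul dep₂ (gf_depD_tilt D₂ y))
  unfold Zf
  have e1 : ∀ σ, φ₁ σ * φ₂ σ * tiltE (D₁ ∪ D₂) y σ =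
      φ₁ σ * tiltE D₁ y σ * (φ₂ σ * tiltE D₂ y σ) := by
    intro σ
    rw [gf_tilt_union h.disj]
    ring
  have e2 : ∀ s, ∫ σ, (if σ (parent c) = s then φ₁ σ * tiltE D₁ y σ else 0) ∂(isingLaw d θ) =
      ∫ σ, (if σ (parent c) = s then φ₁ σ else 0) * tiltE D₁ y σ ∂(isingLaw d θ) := by
    intro s
    refine integral_congr_ae (ae_of_all _ fun σ => ?_)
    by_cases hs : σ (parent c) = s <;> simp [hs]
  have e3 : ∀ t, ∫ σ, (if σ c = t then φ₂ σ * tiltE D₂ y σ else 0) ∂(isingLaw d θ) =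
      ∫ σ, (if σ c = t then φ₂ σ else 0) * tiltE D₂ y σ ∂(isingLaw d θ) := by
    intro t
    refine integral_congr_ae (ae_of_all _ fun σ => ?_)
    by_cases ht : σ c = t <;> simp [ht]
  simp_rw [e1, h1, e2, e3]

/-- The partition function restricted to `σ v = b` as a tilted integral. -/
lemma gf_zb_eq (D : Finset (Word d)) (y : Word d → ℝ) (v : Word d) (b : Bool) :
    Zf θ D y (fun σ => if σ v = b then 1 else 0) = zb θ D y v b := by
  unfold Zf zb
  refine integral_congr_ae (ae_of_all _ fun σ => ?_)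
  by_cases hs : σ v = b <;> simp [hs]

lemma gf_zb_sp_eq (D : Finset (Word d)) (y : Word d → ℝ) (v : Word d) (b : Bool) :
    Zf θ D y (fun σ => if σ v = b then sp (σ v) else 0) = sp b * zb θ D y v b := by
  unfold Zf zb
  rw [← integral_const_mul]
  refine integral_congr_ae (ae_of_all _ fun σ => ?_)
  by_cases hs : σ v = b
  · simp [hs]
  · simp [hs]

lemma gf_wt_pos [Corr θ] (hθ : θ < 1) (a b : Bool) : 0 < wt θ a b := by
  have h0 : 0 ≤ θ := Corr.nonneg
  cases a <;> cases b <;> simp [wt, sp] <;> linarith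

section Split

variable [Corr θ] {D₁ D₂ : Finset (Word d)} {top c : Word d}

/-- The integral over `D₁ ∪ D₂` of a function on `D₁`. -/
lemma gf_eq1 (h : EdgeSplit D₁ D₂ top c) (y : Word d → ℝ) {φ : (Word d → Bool) → ℝ} (dep : DepD D₁ φ) :
    Zf θ (D₁ ∪ D₂) y φ = 2 * ∑ s : Bool, ∑ t : Bool, wt θ t s *
        Zf θ D₁ y (fun σ => if σ (parent c) = s then φ σ else 0) * zb θ D₂ y c t := by
  have h1 := gf_Zf_fact (θ := θ) h y dep (gf_depD_const D₂ 1)
  simp only [mul_one, gf_zb_eq] at h1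
  exact h1

/-- The integral of a function on `D₁` times the spin at `c`. -/
lemma gf_eq2 (h : EdgeSplit D₁ D₂ top c) (y : Word d → ℝ) {φ : (Word d → Bool) → ℝ} (dep : DepD D₁ φ) :
    Zf θ (D₁ ∪ D₂) y (fun σ => φ σ * sp (σ c)) = 2 * ∑ s : Bool, ∑ t : Bool, wt θ t s *
        Zf θ D₁ y (fun σ => if σ (parent c) = s then φ σ else 0) * (sp t * zb θ D₂ y c t) := by
  have h1 := gf_Zf_fact (θ := θ) h y dep (gf_depD_sp h.r₂.mem)
  simp only [gf_zb_sp_eq] at h1
  exact h1

/-- The integral of a function on `D₁` times the spin at the parent of `c`. -/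
lemma gf_eq3 (h : EdgeSplit D₁ D₂ top c) (y : Word d → ℝ) {φ : (Word d → Bool) → ℝ} (dep : DepD D₁ φ) :
    Zf θ (D₁ ∪ D₂) y (fun σ => φ σ * sp (σ (parent c))) = 2 * ∑ s : Bool, ∑ t : Bool, wt θ t s *
        (sp s * Zf θ D₁ y (fun σ => if σ (parent c) = s then φ σ else 0)) * zb θ D₂ y c t := by
  have h1 := gf_eq1 (θ := θ) h y (gf_depD_mul dep (gf_depD_sp h.hb))
  rw [h1]
  have e : ∀ s, Zf θ D₁ y (fun σ => if σ (parent c) = s then φ σ * sp (σ (parent c)) else 0) =
      sp s * Zf θ D₁ y (fun σ => if σ (parent c) = s then φ σ else 0) := by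
    intro s
    unfold Zf
    rw [← integral_const_mul]
    refine integral_congr_ae (ae_of_all _ fun σ => ?_)
    by_cases hs : σ (parent c) = s
    · simp [hs]
      ring
    · simp [hs]
  simp_rw [e]

/-- Markov property: given the configuration on `D₁`, the spin at `c` is an affine function of the spin
at its parent. -/
theorem gf_markov (hθ : θ < 1) (h : EdgeSplit D₁ D₂ top c) (y : Word d → ℝ) :
    ∃ α β : ℝ, ∀ φ : (Word d → Bool) → ℝ, DepD D₁ φ →
      Zf θ (D₁ ∪ D₂) y (fun σ => φ σ * sp (σ c)) =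
        α * Zf θ (D₁ ∪ D₂) y φ + β * Zf θ (D₁ ∪ D₂) y (fun σ => φ σ * sp (σ (parent c))) := by
  have hT := fun t => zb_pos θ hθ D₂ y c t
  have hw := fun a b => gf_wt_pos (θ := θ) hθ a b
  set K₀ := wt θ false false * zb θ D₂ y c false + wt θ true false * zb θ D₂ y c true with hK₀
  set K₁ := wt θ false true * zb θ D₂ y c false + wt θ true true * zb θ D₂ y c true with hK₁
  set K₀' := wt θ false false * zb θ D₂ y c false - wt θ true false * zb θ D₂ y c true with hK₀'
  set K₁' := wt θ false true * zb θ D₂ y c false - wt θ true true * zb θ D₂ y c true with hK₁'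
  have hK₀p : 0 < K₀ := add_pos (mul_pos (hw _ _) (hT _)) (mul_pos (hw _ _) (hT _))
  have hK₁p : 0 < K₁ := add_pos (mul_pos (hw _ _) (hT _)) (mul_pos (hw _ _) (hT _))
  refine ⟨(K₀' / K₀ + K₁' / K₁) / 2, (K₀' / K₀ - K₁' / K₁) / 2, fun φ dep => ?_⟩
  rw [gf_eq1 h y dep, gf_eq2 h y dep, gf_eq3 h y dep]
  simp only [Fintype.sum_bool, sp_true, sp_false]
  set P := Zf θ D₁ y (fun σ => if σ (parent c) = false then φ σ else 0)
  set Q := Zf θ D₁ y (fun σ => if σ (parent c) = true then φ σ else 0)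
  have e : ∀ a b : ℝ, a + b = ((K₀' / K₀ + K₁' / K₁) / 2 + (K₀' / K₀ - K₁' / K₁) / 2) * a +
      ((K₀' / K₀ + K₁' / K₁) / 2 - (K₀' / K₀ - K₁' / K₁) / 2) * b - (K₀' / K₀ - 1) * a - (K₁' / K₁ - 1) * b := by
    intro a b
    ring
  have e1 : K₀' / K₀ * K₀ = K₀' := div_mul_cancel₀ _ hK₀p.ne'
  have e2 : K₁' / K₁ * K₁ = K₁' := div_mul_cancel₀ _ hK₁p.ne'
  set u := K₀' / K₀
  set v := K₁' / K₁
  have e3 : wt θ false false * zb θ D₂ y c false - wt θ true false * zb θ D₂ y c true = u * K₀ := by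
    rw [e1]
  have e4 : wt θ false true * zb θ D₂ y c false - wt θ true true * zb θ D₂ y c true = v * K₁ := by
    rw [e2]
  have e5 : wt θ false false * zb θ D₂ y c false + wt θ true false * zb θ D₂ y c true = K₀ := rfl
  have e6 : wt θ false true * zb θ D₂ y c false + wt θ true true * zb θ D₂ y c true = K₁ := rfl
  linear_combination (2 * P) * e3 + (2 * Q) * e4 - (u + v - (u - v)) * (Q) * e6 * 0
    + ((u + v) / 2 * (2 * P) + (u - v) / 2 * (2 * P) - 2 * P * u) * (-e5)
    + ((u + v) / 2 * (2 * Q) - (u - v) / 2 * (2 * Q) - 2 * Q * v) * (-e6)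

end Split

section Mag

variable [Corr θ]

lemma gf_Z_pos (D : Finset (Word d)) (y : Word d → ℝ) (v : Word d) :
    ∫ σ, tiltE D y σ ∂(isingLaw d θ) = zb θ D y v false + zb θ D y v true := by
  unfold zb
  rw [← integral_add (slf_integrable_ite θ D y v false) (slf_integrable_ite θ D y v true)]
  refine integral_congr_ae (ae_of_all _ fun σ => ?_)
  cases hs : σ v <;> simp [hs]

lemma gf_spin_int (D : Finset (Word d)) (y : Word d → ℝ) (v : Word d) :
    ∫ σ, sp (σ v) * tiltE D y σ ∂(isingLaw d θ) = zb θ D y v false - zb θ D y v true := by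
  unfold zb
  rw [← integral_sub (slf_integrable_ite θ D y v false) (slf_integrable_ite θ D y v true)]
  refine integral_congr_ae (ae_of_all _ fun σ => ?_)
  cases hs : σ v <;> simp [hs]

/-- The magnetisation is the Gibbs expectation of the spin. -/
lemma gf_mD_eq (hθ : θ < 1) (D : Finset (Word d)) (y : Word d → ℝ) (x : Word d) :
    mD θ D y x = gbE θ D y (fun σ => sp (σ x)) := by
  unfold mD gbE
  rw [tanh_hf θ hθ, gf_spin_int, gf_Z_pos D y x]

omit [Corr θ] in
lemma gf_gbE_eq (D : Finset (Word d)) (y : Word d → ℝ) (Φ : (Word d → Bool) → ℝ) :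
    gbE θ D y Φ = Zf θ D y Φ / Zf θ D y (fun _ => 1) := by
  unfold gbE Zf
  simp only [one_mul]

lemma gf_Zf_one_pos (hθ : θ < 1) (D : Finset (Word d)) (y : Word d → ℝ) (v : Word d) :
    0 < Zf θ D y (fun _ => 1) := by
  unfold Zf
  simp only [one_mul]
  rw [gf_Z_pos D y v]
  exact add_pos (zb_pos θ hθ _ _ _ _) (zb_pos θ hθ _ _ _ _)

omit [Corr θ] in
lemma gf_abs_mD_lt (D : Finset (Word d)) (y : Word d → ℝ) (x : Word d) : |mD θ D y x| < 1 :=
  Real.abs_tanh_lt_one _

/-- The Markov property on the level of covariances. -/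
theorem gf_cov_markov (hθ : θ < 1) {D₁ D₂ : Finset (Word d)} {top c : Word d}
    (h : EdgeSplit D₁ D₂ top c) (y : Word d → ℝ) {x : Word d} (hx : x ∈ D₁) :
    covD θ (D₁ ∪ D₂) y x c * (1 - mD θ (D₁ ∪ D₂) y (parent c) ^ 2) =
      covD θ (D₁ ∪ D₂) y x (parent c) * covD θ (D₁ ∪ D₂) y (parent c) c := by
  obtain ⟨α, β, hab⟩ := gf_markov hθ h y
  set D := D₁ ∪ D₂ with hD
  have hZ : 0 < Zf θ D y (fun _ => 1) := gf_Zf_one_pos hθ D y c
  set Z := Zf θ D y (fun _ => 1) with hZdef
  have h1 := hab (fun _ => 1) (gf_depD_const D₁ 1)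
  have h2 := hab (fun σ => sp (σ x)) (gf_depD_sp hx)
  have h3 := hab (fun σ => sp (σ (parent c))) (gf_depD_sp h.hb)
  simp only [one_mul] at h1
  have hsq : (fun σ : Word d → Bool => sp (σ (parent c)) * sp (σ (parent c))) = fun _ => 1 := by
    funext σ
    exact sp_mul_self _
  rw [hsq] at h3
  unfold covD
  simp only [gf_mD_eq hθ D y, gf_gbE_eq D y]
  rw [← hZdef]
  set Ec := Zf θ D y (fun σ => sp (σ c))
  set Eb := Zf θ D y (fun σ => sp (σ (parent c)))
  set Ex := Zf θ D y (fun σ => sp (σ x))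
  set Exb := Zf θ D y (fun σ => sp (σ x) * sp (σ (parent c)))
  set Exc := Zf θ D y (fun σ => sp (σ x) * sp (σ c))
  set Ebc := Zf θ D y (fun σ => sp (σ (parent c)) * sp (σ c))
  rw [h1] at *
  have hZ' : Z ≠ 0 := hZ.ne'
  rw [h2, h3]
  field_simp
  ring

/-- The two point law on an edge. -/
theorem gf_two_point (hθ : θ < 1) {D₁ D₂ : Finset (Word d)} {top c : Word d}
    (h : EdgeSplit D₁ D₂ top c) (y : Word d → ℝ) :
    mD θ (D₁ ∪ D₂) y (parent c) =
        m₁E θ (Real.tanh (hf θ D₁ y (parent c))) (Real.tanh (hf θ D₂ y c)) ∧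
      mD θ (D₁ ∪ D₂) y c =
        m₂E θ (Real.tanh (hf θ D₁ y (parent c))) (Real.tanh (hf θ D₂ y c)) ∧
      covD θ (D₁ ∪ D₂) y (parent c) c =
        uE θ (Real.tanh (hf θ D₁ y (parent c))) (Real.tanh (hf θ D₂ y c)) := by
  have h0 : 0 ≤ θ := Corr.nonneg
  set A₀ := zb θ D₁ y (parent c) false with hA₀
  set A₁ := zb θ D₁ y (parent c) true with hA₁
  set T₀ := zb θ D₂ y c false with hT₀
  set T₁ := zb θ D₂ y c true with hT₁
  have hA₀p : 0 < A₀ := zb_pos θ hθ _ _ _ _
  have hA₁p : 0 < A₁ := zb_pos θ hθ _ _ _ _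
  have hT₀p : 0 < T₀ := zb_pos θ hθ _ _ _ _
  have hT₁p : 0 < T₁ := zb_pos θ hθ _ _ _ _
  have ha : Real.tanh (hf θ D₁ y (parent c)) = (A₀ - A₁) / (A₀ + A₁) := tanh_hf θ hθ _ _ _
  have hb : Real.tanh (hf θ D₂ y c) = (T₀ - T₁) / (T₀ + T₁) := tanh_hf θ hθ _ _ _
  set D := D₁ ∪ D₂ with hD
  have hZ : Zf θ D y (fun _ => 1) =
      (1 + θ) * (A₀ * T₀ + A₁ * T₁) + (1 - θ) * (A₀ * T₁ + A₁ * T₀) := by
    have := gf_eq1 (θ := θ) h y (gf_depD_const D₁ 1)
    simp only [gf_zb_eq, Fintype.sum_bool] at this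
    rw [← hD, ← hA₀, ← hA₁, ← hT₀, ← hT₁] at this
    rw [this]
    simp only [wt, sp_true, sp_false]
    ring
  have hZb : Zf θ D y (fun σ => sp (σ (parent c))) =
      (1 + θ) * (A₀ * T₀ - A₁ * T₁) + (1 - θ) * (A₀ * T₁ - A₁ * T₀) := by
    have := gf_eq3 (θ := θ) h y (gf_depD_const D₁ 1)
    simp only [gf_zb_eq, Fintype.sum_bool, one_mul] at this
    rw [← hD, ← hA₀, ← hA₁, ← hT₀, ← hT₁] at this
    rw [this]
    simp only [wt, sp_true, sp_false]
    ring
  have hZc : Zf θ D y (fun σ => sp (σ c)) =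
      (1 + θ) * (A₀ * T₀ - A₁ * T₁) - (1 - θ) * (A₀ * T₁ - A₁ * T₀) := by
    have := gf_eq2 (θ := θ) h y (gf_depD_const D₁ 1)
    simp only [gf_zb_eq, Fintype.sum_bool, one_mul] at this
    rw [← hD, ← hA₀, ← hA₁, ← hT₀, ← hT₁] at this
    rw [this]
    simp only [wt, sp_true, sp_false]
    ring
  have hZbc : Zf θ D y (fun σ => sp (σ (parent c)) * sp (σ c)) =
      (1 + θ) * (A₀ * T₀ + A₁ * T₁) - (1 - θ) * (A₀ * T₁ + A₁ * T₀) := by
    have := gf_eq2 (θ := θ) h y (gf_depD_sp h.hb)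
    simp only [gf_zb_sp_eq, Fintype.sum_bool] at this
    rw [← hD, ← hA₀, ← hA₁, ← hT₀, ← hT₁] at this
    rw [this]
    simp only [wt, sp_true, sp_false]
    ring
  have hNA : A₀ + A₁ ≠ 0 := by positivity
  have hNT : T₀ + T₁ ≠ 0 := by positivity
  have hZp : 0 < (1 + θ) * (A₀ * T₀ + A₁ * T₁) + (1 - θ) * (A₀ * T₁ + A₁ * T₀) := by
    have : 0 < 1 - θ := by linarith
    positivity
  have hDen : 1 + θ * ((A₀ - A₁) / (A₀ + A₁)) * ((T₀ - T₁) / (T₀ + T₁)) =
      ((1 + θ) * (A₀ * T₀ + A₁ * T₁) + (1 - θ) * (A₀ * T₁ + A₁ * T₀)) / ((A₀ + A₁) * (T₀ + T₁)) := by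
    field_simp
    ring
  have hDen' : 1 + θ * ((A₀ - A₁) / (A₀ + A₁)) * ((T₀ - T₁) / (T₀ + T₁)) ≠ 0 := by
    rw [hDen]
    positivity
  have hm1 : gbE θ D y (fun σ => sp (σ (parent c))) =
      m₁E θ ((A₀ - A₁) / (A₀ + A₁)) ((T₀ - T₁) / (T₀ + T₁)) := by
    rw [gf_gbE_eq, hZb, hZ]
    unfold m₁E
    rw [hDen]
    field_simp
    ring
  have hm2 : gbE θ D y (fun σ => sp (σ c)) =
      m₂E θ ((A₀ - A₁) / (A₀ + A₁)) ((T₀ - T₁) / (T₀ + T₁)) := by
    rw [gf_gbE_eq, hZc, hZ]
    unfold m₂E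
    rw [hDen]
    field_simp
    ring
  have hm12 : gbE θ D y (fun σ => sp (σ (parent c)) * sp (σ c)) =
      (θ + ((A₀ - A₁) / (A₀ + A₁)) * ((T₀ - T₁) / (T₀ + T₁))) /
        (1 + θ * ((A₀ - A₁) / (A₀ + A₁)) * ((T₀ - T₁) / (T₀ + T₁))) := by
    rw [gf_gbE_eq, hZbc, hZ, hDen]
    field_simp
    ring
  rw [ha, hb]
  refine ⟨by rw [gf_mD_eq hθ, hm1], by rw [gf_mD_eq hθ, hm2], ?_⟩
  unfold covD
  rw [gf_mD_eq hθ, gf_mD_eq hθ, hm1, hm2, hm12]
  unfold m₁E m₂E uE
  set a := (A₀ - A₁) / (A₀ + A₁)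
  set b := (T₀ - T₁) / (T₀ + T₁)
  field_simp
  ring

/-- The edge covariance is the edge correlation times the geometric mean of the variances. -/
theorem gf_edge_cov (h0 : 0 < θ) (hθ : θ < 1) {D₁ D₂ : Finset (Word d)} {top c : Word d}
    (h : EdgeSplit D₁ D₂ top c) (y : Word d → ℝ) :
    covD θ (D₁ ∪ D₂) y (parent c) c =
      √((1 - mD θ (D₁ ∪ D₂) y (parent c) ^ 2) * (1 - mD θ (D₁ ∪ D₂) y c ^ 2)) *
        Rho θ (mD θ (D₁ ∪ D₂) y (parent c)) (mD θ (D₁ ∪ D₂) y c) := by
  obtain ⟨e1, e2, e3⟩ := gf_two_point hθ h y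
  have ha := Real.abs_tanh_lt_one (hf θ D₁ y (parent c))
  have hb := Real.abs_tanh_lt_one (hf θ D₂ y c)
  rw [e1, e2, e3, Rho_two_point h0 hθ ha hb]
  have hv1 : 0 < 1 - mD θ (D₁ ∪ D₂) y (parent c) ^ 2 := by
    have := Edge_sq_lt_one (gf_abs_mD_lt (θ := θ) (D₁ ∪ D₂) y (parent c))
    linarith
  have hv2 : 0 < 1 - mD θ (D₁ ∪ D₂) y c ^ 2 := by
    have := Edge_sq_lt_one (gf_abs_mD_lt (θ := θ) (D₁ ∪ D₂) y c)
    linarith
  rw [e1] at hv1
  rw [e2] at hv2
  have hs := Real.sqrt_pos.mpr (mul_pos hv1 hv2)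
  field_simp

/-- The correlation on an edge, with the bound through the field on the part below the edge. -/
theorem gf_edge_rho_sq (h0 : 0 < θ) (hθ : θ < 1) {D₁ D₂ : Finset (Word d)} {top c : Word d}
    (h : EdgeSplit D₁ D₂ top c) (y : Word d → ℝ) :
    Rho θ (mD θ (D₁ ∪ D₂) y (parent c)) (mD θ (D₁ ∪ D₂) y c) ^ 2 ≤
      θ ^ 2 * psiF θ (hf θ D₂ y c) := by
  obtain ⟨e1, e2, _⟩ := gf_two_point hθ h y
  have ha := Real.abs_tanh_lt_one (hf θ D₁ y (parent c))
  have hb := Real.abs_tanh_lt_one (hf θ D₂ y c)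
  rw [e1, e2, Rho_sq_two_point h0 hθ ha hb]
  unfold psiF
  set a := Real.tanh (hf θ D₁ y (parent c))
  set b := Real.tanh (hf θ D₂ y c)
  have ha2 := Edge_sq_lt_one ha
  have hb2 := Edge_sq_lt_one hb
  have hta := Edge_pos_aux h0 hθ ha
  have htb := Edge_pos_aux h0 hθ hb
  have h1 : (1 - a ^ 2) / (1 - θ ^ 2 * a ^ 2) ≤ 1 := by
    rw [div_le_one hta]
    have : θ ^ 2 ≤ 1 := by nlinarith
    nlinarith [sq_nonneg a]
  have h2 : 0 ≤ (1 - b ^ 2) / (1 - θ ^ 2 * b ^ 2) := div_nonneg (by linarith) htb.le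
  have h3 : 0 ≤ θ ^ 2 := sq_nonneg θ
  calc θ ^ 2 * ((1 - a ^ 2) / (1 - θ ^ 2 * a ^ 2)) * ((1 - b ^ 2) / (1 - θ ^ 2 * b ^ 2))
      ≤ θ ^ 2 * 1 * ((1 - b ^ 2) / (1 - θ ^ 2 * b ^ 2)) := by
        apply mul_le_mul_of_nonneg_right _ h2
        exact mul_le_mul_of_nonneg_left h1 h3
    _ = _ := by ring

end Mag

section Splitting

lemma gf_mem_sub_self (c : Word d) : c ∈ Sub c := List.suffix_refl _

lemma gf_len_le_of_mem_sub {c v : Word d} (h : v ∈ Sub c) : len c ≤ len v :=
  List.IsSuffix.length_le h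

lemma gf_eq_of_mem_sub {c v : Word d} (h : v ∈ Sub c) (hl : len v ≤ len c) : v = c := by
  apply Subtype.ext
  exact (List.IsSuffix.eq_of_length_le h hl).symm

lemma gf_parent_mem_sub {c v : Word d} (h : v ∈ Sub c) (hne : v ≠ c) : parent v ∈ Sub c := by
  obtain ⟨l, hl⟩ := h
  have hl0 : l ≠ [] := by
    rintro rfl
    apply hne
    apply Subtype.ext
    simpa using hl.symm
  obtain ⟨a, l', rfl⟩ := List.exists_cons_of_ne_nil hl0
  refine ⟨l', ?_⟩
  simp only [parent]
  rw [← hl]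
  simp

lemma gf_mem_sub_of_parent {c v : Word d} (h : parent v ∈ Sub c) : v ∈ Sub c :=
  List.IsSuffix.trans h (List.tail_suffix _)

open Classical in
/-- The part of `D` outside the branch at `c`. -/
noncomputable def spL (D : Finset (Word d)) (c : Word d) : Finset (Word d) := D.filter (fun v => v ∉ Sub c)

open Classical in
/-- The part of `D` in the branch at `c`. -/
noncomputable def spR (D : Finset (Word d)) (c : Word d) : Finset (Word d) := D.filter (fun v => v ∈ Sub c)

lemma gf_spL_union (D : Finset (Word d)) (c : Word d) : spL D c ∪ spR D c = D := by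
  classical
  ext x
  simp only [spL, spR, Finset.mem_union, Finset.mem_filter]
  tauto

lemma gf_sp_disj (D : Finset (Word d)) (c : Word d) : Disjoint (spL D c) (spR D c) := by
  classical
  rw [Finset.disjoint_left]
  intro x hx hx'
  simp only [spL, spR, Finset.mem_filter] at hx hx'
  exact hx.2 hx'.2

/-- Splitting a rooted set at a vertex. -/
theorem gf_split {D : Finset (Word d)} {top c : Word d} (hD : Rooted D top) (hc : c ∈ D) (hct : c ≠ top) :
    EdgeSplit (spL D c) (spR D c) top c := by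
  classical
  have htopc : top ∉ Sub c := by
    intro h
    exact hct (gf_eq_of_mem_sub h (hD.min c hc)).symm
  have hcr : c ≠ root := by
    rintro rfl
    have := hD.min _ hc
    simp only [len_root, Nat.le_zero_eq] at this
    exact hct (len_eq_zero this).symm
  refine ⟨⟨?_, ?_, ?_⟩, ⟨?_, ?_, ?_⟩, ?_, gf_sp_disj D c, ?_⟩
  · exact Finset.mem_filter.mpr ⟨hD.mem, htopc⟩
  · intro v hv
    exact hD.min v (Finset.mem_filter.mp hv).1
  · intro v hv hvt
    obtain ⟨hv1, hv2⟩ := Finset.mem_filter.mp hv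
    exact Finset.mem_filter.mpr ⟨hD.closed v hv1 hvt, fun h => hv2 (gf_mem_sub_of_parent h)⟩
  · exact Finset.mem_filter.mpr ⟨hc, gf_mem_sub_self c⟩
  · intro v hv
    exact gf_len_le_of_mem_sub (Finset.mem_filter.mp hv).2
  · intro v hv hvc
    obtain ⟨hv1, hv2⟩ := Finset.mem_filter.mp hv
    have hvt : v ≠ top := fun h => htopc (h ▸ hv2)
    exact Finset.mem_filter.mpr ⟨hD.closed v hv1 hvt, gf_parent_mem_sub hv2 hvc⟩
  · rw [gf_spL_union]
    exact hD
  · refine Finset.mem_filter.mpr ⟨hD.closed c hc hct, fun h => ?_⟩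
    have h1 := gf_len_le_of_mem_sub h
    have h2 := len_parent hcr
    omega

end Splitting

section Path

variable [Corr θ]

/-- The product formula along a descending path from the root. -/
theorem gf_path_rooted (h0 : 0 < θ) (hθ : θ < 1) {D : Finset (Word d)} (hD : Rooted D root)
    (y : Word d → ℝ) {q : ℕ → Word d} (hq0 : q 0 = root) (n : ℕ)
    (hstep : ∀ i < n, q (i + 1) ≠ root ∧ parent (q (i + 1)) = q i) (hqD : ∀ i ≤ n, q i ∈ D) :
    covD θ D y (q 0) (q n) =
      √((1 - mD θ D y (q 0) ^ 2) * (1 - mD θ D y (q n) ^ 2)) *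
        ∏ i ∈ Finset.range n, Rho θ (mD θ D y (q i)) (mD θ D y (q (i + 1))) := by
  have hv : ∀ x, 0 < 1 - mD θ D y x ^ 2 := by
    intro x
    have := Edge_sq_lt_one (gf_abs_mD_lt (θ := θ) D y x)
    linarith
  induction n with
  | zero =>
    simp only [Finset.range_zero, Finset.prod_empty, mul_one]
    rw [Real.sqrt_mul_self (hv _).le]
    unfold covD
    have hsq : (fun σ : Word d → Bool => sp (σ (q 0)) * sp (σ (q 0))) = fun _ => 1 := by
      funext σ
      exact sp_mul_self _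
    rw [hsq, gf_gbE_eq, div_self (gf_Zf_one_pos hθ D y (q 0)).ne']
    ring
  | succ n ih =>
    have ih' := ih (fun i hi => hstep i (by omega)) (fun i hi => hqD i (by omega))
    obtain ⟨hc1, hc2⟩ := hstep n (by omega)
    set c := q (n + 1) with hc
    have hcD : c ∈ D := hqD (n + 1) le_rfl
    have hsplit := gf_split hD hcD hc1
    have hU := gf_spL_union D c
    have hx : q 0 ∈ spL D c := by
      classical
      refine Finset.mem_filter.mpr ⟨hqD 0 (by omega), ?_⟩
      rw [hq0]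
      intro h
      have h1 := gf_len_le_of_mem_sub h
      simp only [len_root, Nat.le_zero_eq] at h1
      exact hc1 (len_eq_zero h1)
    have hM := gf_cov_markov hθ hsplit y hx
    have hE := gf_edge_cov h0 hθ hsplit y
    rw [hU, hc2] at hM hE
    rw [Finset.prod_range_succ]
    have hvn := hv (q n)
    have hv0 := hv (q 0)
    have hvc := hv c
    rw [ih', hE] at hM
    rw [Real.sqrt_mul hv0.le] at hM ⊢
    rw [Real.sqrt_mul hvn.le] at hM
    have hs : √(1 - mD θ D y (q n) ^ 2) * √(1 - mD θ D y (q n) ^ 2) = 1 - mD θ D y (q n) ^ 2 :=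
      Real.mul_self_sqrt hvn.le
    have hne : 1 - mD θ D y (q n) ^ 2 ≠ 0 := hvn.ne'
    apply mul_right_cancel₀ hne
    rw [hM]
    conv_rhs => rw [← hs]
    ring

end Path

section Branch

variable [Corr θ]

lemma gf_gg_eq_Uf (u : ℝ) : slf_gg θ u = Uf θ u := by
  have h0 : 0 ≤ θ := Corr.nonneg
  have h1 : θ ≤ 1 := Corr.le_one
  have hA := slf_A_pos θ h0 h1 u
  have hB := slf_B_pos θ h0 h1 u
  have hc := Real.cosh_pos u
  have ht := Real.abs_tanh_lt_one u
  have hx : θ * Real.tanh u ∈ Set.Icc (-1 : ℝ) 1 := by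
    have : |θ * Real.tanh u| ≤ 1 := by
      rw [abs_mul, abs_of_nonneg h0]
      nlinarith [abs_nonneg (Real.tanh u)]
    exact abs_le.mp this
  unfold slf_gg Uf
  rw [Real.artanh_eq_half_log hx, ← Real.log_div hA.ne' hB.ne']
  have e : (1 + θ * Real.tanh u) / (1 - θ * Real.tanh u) = slf_A θ u / slf_B θ u := by
    unfold slf_A slf_B
    rw [Real.tanh_eq_sinh_div_cosh]
    have hA' : Real.cosh u + θ * Real.sinh u ≠ 0 := hA.ne'
    have hB' : Real.cosh u - θ * Real.sinh u ≠ 0 := hB.ne'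
    have e1 : 1 + θ * (Real.sinh u / Real.cosh u) = (Real.cosh u + θ * Real.sinh u) / Real.cosh u := by
      field_simp
    have e2 : 1 - θ * (Real.sinh u / Real.cosh u) = (Real.cosh u - θ * Real.sinh u) / Real.cosh u := by
      field_simp
    rw [e1, e2, div_div_div_cancel_right₀ hc.ne']
  rw [e]
  ring

/-- Integrals of functions on a rooted set are linear, without integrability conditions. -/
lemma gf_int_lin {D : Finset (Word d)} {top : Word d} (hD : Rooted D top)
    {F G₀ G₁ : (Word d → Bool) → ℝ} {a b : ℝ} (hF : DepD D F) (hG₀ : DepD D G₀) (hG₁ : DepD D G₁)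
    (h : ∀ σ, F σ = a * G₀ σ + b * G₁ σ) :
    ∫ σ, F σ ∂(isingLaw d θ) =
      a * ∫ σ, G₀ σ ∂(isingLaw d θ) + b * ∫ σ, G₁ σ ∂(isingLaw d θ) := by
  rw [gf_int hD hF, gf_int hD hG₀, gf_int hD hG₁, Finset.mul_sum, Finset.mul_sum,
    ← Finset.sum_add_distrib]
  refine Finset.sum_congr rfl fun S _ => ?_
  rw [h]
  ring

/-- Removing a whole branch: the field on the rest changes at the parent only. -/
theorem gf_branch (hθ : θ < 1) {D₁ D₂ : Finset (Word d)} {top c : Word d}
    (h : EdgeSplit D₁ D₂ top c) (y : Word d → ℝ) {v : Word d} (hv : v ∈ D₁) :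
    hf θ (D₁ ∪ D₂) y v = hf θ D₁
      (Function.update y (parent c) (y (parent c) + slf_gg θ (hf θ D₂ y c))) v := by
  have h0 : 0 ≤ θ := Corr.nonneg
  have h1 : θ ≤ 1 := Corr.le_one
  set B := hf θ D₂ y c with hB
  set g := slf_gg θ B with hg
  set y' := Function.update y (parent c) (y (parent c) + g) with hy'
  set T₀ := zb θ D₂ y c false with hT₀
  set T₁ := zb θ D₂ y c true with hT₁
  have hT₀p : 0 < T₀ := zb_pos θ hθ _ _ _ _
  have hT₁p : 0 < T₁ := zb_pos θ hθ _ _ _ _
  have hE : Real.exp B * Real.exp B = T₀ / T₁ := by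
    rw [← Real.exp_add]
    have : B + B = Real.log (T₀ / T₁) := by
      rw [hB]
      unfold hf
      ring
    rw [this, Real.exp_log (div_pos hT₀p hT₁p)]
  set N := T₁ * Real.exp B with hN
  have hNp : 0 < N := mul_pos hT₁p (Real.exp_pos _)
  have hE0 : Real.exp B ≠ 0 := (Real.exp_pos _).ne'
  have eT₀ : T₀ = N * Real.exp B := by
    rw [hN, mul_assoc, hE]
    field_simp
  have eT₁ : T₁ = N * Real.exp (-B) := by
    rw [hN, Real.exp_neg, mul_assoc, mul_inv_cancel₀ hE0, mul_one]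
  have hC : 0 < slf_C θ B := Real.exp_pos _
  have key : ∀ w : Bool, zb θ (D₁ ∪ D₂) y v w = (2 * N * slf_C θ B) * zb θ D₁ y' v w := by
    intro w
    have hdep : DepD D₁ (fun σ : Word d → Bool => if σ v = w then (1 : ℝ) else 0) := by
      intro σ σ' hh
      simp only [hh v hv]
    have h2 := gf_eq1 (θ := θ) h y hdep
    rw [gf_zb_eq] at h2
    rw [h2]
    simp only [Fintype.sum_bool]
    rw [← hT₀, ← hT₁]
    -- the field changed at the parent
    have hkf := slf_keyid θ h0 h1 B false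
    have hkt := slf_keyid θ h0 h1 B true
    simp only [sp_false, sp_true, one_mul, neg_mul] at hkf hkt
    set X₀ := Zf θ D₁ y (fun σ => if σ (parent c) = false then (if σ v = w then (1 : ℝ) else 0) else 0)
    set X₁ := Zf θ D₁ y (fun σ => if σ (parent c) = true then (if σ v = w then (1 : ℝ) else 0) else 0)
    have hz' : zb θ D₁ y' v w = Real.exp g * X₀ + Real.exp (-g) * X₁ := by
      unfold zb
      have hdF : DepD D₁ (fun σ : Word d → Bool => if σ v = w then tiltE D₁ y' σ else 0) := by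
        intro σ σ' hh
        simp only [hh v hv, gf_depD_tilt D₁ y' σ σ' hh]
      have hdG : ∀ s, DepD D₁ (fun σ : Word d → Bool =>
          (if σ (parent c) = s then (if σ v = w then (1 : ℝ) else 0) else 0) * tiltE D₁ y σ) := by
        intro s σ σ' hh
        simp only [hh v hv, hh _ h.hb, gf_depD_tilt D₁ y σ σ' hh]
      refine gf_int_lin h.r₁ hdF (hdG false) (hdG true) fun σ => ?_
      rw [hy', slf_tiltE_update h.hb]
      by_cases hs : σ v = w <;> cases hb : σ (parent c) <;> simp [hs, hb]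
    rw [hz']
    have e0 : wt θ false false * T₀ + wt θ true false * T₁ = N * (slf_C θ B * Real.exp g) := by
      rw [← hkf, eT₀, eT₁]
      ring
    have e1 : wt θ false true * T₀ + wt θ true true * T₁ = N * (slf_C θ B * Real.exp (-g)) := by
      rw [← hkt, eT₀, eT₁]
      ring
    linear_combination (2 * X₀) * e0 + (2 * X₁) * e1
  unfold hf
  rw [key, key, mul_div_mul_left _ _ (by positivity)]

/-- Two branches at the same level containing a common vertex coincide. -/
lemma gf_sub_sibling {k k' v : Word d} (hk : v ∈ Sub k) (hk' : v ∈ Sub k') (hl : len k = len k') :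
    k = k' := by
  apply Subtype.ext
  rcases List.suffix_or_suffix_of_suffix hk hk' with h | h
  · exact h.eq_of_length hl
  · exact (h.eq_of_length hl.symm).symm

/-- The field at the top of a rooted set as a sum over the branches at the children. -/
theorem gf_hf_rooted (hθ : θ < 1) {c : Word d} : ∀ (n : ℕ) (D : Finset (Word d)), D.card = n →
    Rooted D c → ∀ y : Word d → ℝ,
    hf θ D y c = y c + ∑ k ∈ (open Classical in D.filter (fun k => k ≠ root ∧ parent k = c)),
      slf_gg θ (hf θ (spR D k) y k) := by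
  classical
  intro n
  induction n using Nat.strong_induction_on with
  | _ n ih =>
    intro D hcard hD y
    by_cases hK : D.filter (fun k => k ≠ root ∧ parent k = c) = ∅
    · -- the set is a singleton
      have hDs : D = {c} := by
        by_contra hne
        have hex : (D.erase c).Nonempty := by
          by_contra hemp
          rw [Finset.not_nonempty_iff_eq_empty] at hemp
          apply hne
          ext x
          simp only [Finset.mem_singleton]
          constructor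
          · intro hx
            by_contra hxc
            have : x ∈ D.erase c := Finset.mem_erase.mpr ⟨hxc, hx⟩
            rw [hemp] at this
            exact absurd this (Finset.notMem_empty x)
          · rintro rfl
            exact hD.mem
        obtain ⟨v, hv, hmin⟩ := Finset.exists_min_image (D.erase c) len hex
        obtain ⟨hvc, hvD⟩ := Finset.mem_erase.mp hv
        have hpD := hD.closed v hvD hvc
        have hvr : v ≠ root := by
          rintro rfl
          have := hD.min _ hvD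
          simp only [len_root, Nat.le_zero_eq] at this
          exact hvc (len_eq_zero this).symm
        have hl := len_parent hvr
        have hpc : parent v = c := by
          by_contra hpc
          have := hmin _ (Finset.mem_erase.mpr ⟨hpc, hpD⟩)
          omega
        have : v ∈ D.filter (fun k => k ≠ root ∧ parent k = c) :=
          Finset.mem_filter.mpr ⟨hvD, hvr, hpc⟩
        rw [hK] at this
        exact absurd this (Finset.notMem_empty v)
      rw [hK, Finset.sum_empty, add_zero, hDs]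
      exact slf_hf_single θ c y
    · obtain ⟨k, hk⟩ := Finset.nonempty_iff_ne_empty.mpr hK
      obtain ⟨hkD, hkr, hkp⟩ := Finset.mem_filter.mp hk
      have hl := len_parent hkr
      rw [hkp] at hl
      have hkc : k ≠ c := by
        rintro rfl
        omega
      have hsplit := gf_split hD hkD hkc
      have hU := gf_spL_union D k
      have hcL : c ∈ spL D k := hsplit.r₁.mem
      have hb := gf_branch hθ hsplit y hcL
      rw [hU, hkp] at hb
      rw [hb]
      set y' := Function.update y c (y c + slf_gg θ (hf θ (spR D k) y k)) with hy'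
      have hcard' : (spL D k).card < n := by
        rw [← hcard]
        apply Finset.card_lt_card
        refine ⟨Finset.filter_subset _ _, fun hsub => ?_⟩
        have := hsub hkD
        exact (Finset.mem_filter.mp this).2 (gf_mem_sub_self k)
      rw [ih _ hcard' _ rfl hsplit.r₁ y']
      have hyc : y' c = y c + slf_gg θ (hf θ (spR D k) y k) := by
        rw [hy', Function.update_self]
      rw [hyc]
      -- the children
      have hfil : (spL D k).filter (fun k' => k' ≠ root ∧ parent k' = c) =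
          (D.filter (fun k' => k' ≠ root ∧ parent k' = c)).erase k := by
        ext x
        simp only [Finset.mem_filter, Finset.mem_erase, spL]
        constructor
        · rintro ⟨⟨hx1, hx2⟩, hx3, hx4⟩
          exact ⟨fun h => hx2 (h ▸ gf_mem_sub_self k), hx1, hx3, hx4⟩
        · rintro ⟨hx0, hx1, hx3, hx4⟩
          refine ⟨⟨hx1, fun hs => hx0 ?_⟩, hx3, hx4⟩
          have hlx := len_parent hx3
          rw [hx4] at hlx
          exact gf_eq_of_mem_sub hs (by omega)
      rw [hfil, ← Finset.add_sum_erase _ _ hk, add_assoc]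
      congr 2
      refine Finset.sum_congr rfl fun k' hk' => ?_
      obtain ⟨hne, hk'2⟩ := Finset.mem_erase.mp hk'
      obtain ⟨hk'D, hk'r, hk'p⟩ := Finset.mem_filter.mp hk'2
      have hl' := len_parent hk'r
      rw [hk'p] at hl'
      have hset : spR (spL D k) k' = spR D k' := by
        ext x
        simp only [spL, spR, Finset.mem_filter]
        constructor
        · rintro ⟨⟨hx1, _⟩, hx3⟩
          exact ⟨hx1, hx3⟩
        · rintro ⟨hx1, hx3⟩
          refine ⟨⟨hx1, fun hs => hne ?_⟩, hx3⟩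
          exact gf_sub_sibling hx3 hs (by omega)
      rw [hset]
      congr 1
      refine hf_congr θ _ (fun x hx => ?_) k'
      have hx2 := (Finset.mem_filter.mp hx).2
      have hxc : x ≠ c := by
        rintro rfl
        have := gf_len_le_of_mem_sub hx2
        omega
      rw [hy', Function.update_of_ne hxc]

lemma gf_rooted_ball (R : ℕ) : Rooted (ball R : Finset (Word d)) root := by
  refine ⟨by simp, fun v _ => by simp, fun v hv hvr => ?_⟩
  have := len_parent hvr
  simp only [mem_ball] at hv ⊢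
  omega

lemma gf_rooted_spR {R : ℕ} {c : Word d} (hc : len c ≤ R) : Rooted (spR (ball R) c) c := by
  classical
  refine ⟨?_, ?_, ?_⟩
  · exact Finset.mem_filter.mpr ⟨mem_ball.mpr hc, gf_mem_sub_self c⟩
  · intro v hv
    exact gf_len_le_of_mem_sub (Finset.mem_filter.mp hv).2
  · intro v hv hvc
    obtain ⟨hv1, hv2⟩ := Finset.mem_filter.mp hv
    have hvr : v ≠ root := by
      rintro rfl
      have := gf_len_le_of_mem_sub hv2
      simp only [len_root, Nat.le_zero_eq] at this
      exact hvc (len_eq_zero this).symm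
    have := len_parent hvr
    refine Finset.mem_filter.mpr ⟨?_, gf_parent_mem_sub hv2 hvc⟩
    simp only [mem_ball] at hv1 ⊢
    omega

/-- The field at `c` from the part of the ball below `c` is the cavity field. -/
theorem gf_hf_sub (hθ : θ < 1) (y : Word d → ℝ) : ∀ (n R : ℕ) (c : Word d), len c + n = R →
    hf θ (spR (ball R) c) y c = hh θ n c y := by
  classical
  intro n
  induction n with
  | zero =>
    intro R c hR
    have hs : spR (ball R) c = {c} := by
      ext x
      simp only [spR, Finset.mem_filter, mem_ball, Finset.mem_singleton]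
      constructor
      · rintro ⟨hx1, hx2⟩
        exact gf_eq_of_mem_sub hx2 (by omega)
      · rintro rfl
        exact ⟨by omega, gf_mem_sub_self _⟩
    rw [hs, slf_hf_single]
    rfl
  | succ n ih =>
    intro R c hR
    rw [gf_hf_rooted hθ _ _ rfl (gf_rooted_spR (by omega)) y]
    show _ = y c + ∑ k ∈ kids c, Uf θ (hh θ n k y)
    congr 1
    have hfil : (spR (ball R) c).filter (fun k => k ≠ root ∧ parent k = c) = kids c := by
      ext x
      simp only [kids, spR, Finset.mem_filter, mem_ball]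
      constructor
      · rintro ⟨⟨_, _⟩, hx3, hx4⟩
        have := len_parent hx3
        rw [hx4] at this
        exact ⟨by omega, hx3, hx4⟩
      · rintro ⟨_, hx3, hx4⟩
        have := len_parent hx3
        rw [hx4] at this
        refine ⟨⟨by omega, ?_⟩, hx3, hx4⟩
        apply gf_mem_sub_of_parent
        rw [hx4]
        exact gf_mem_sub_self c
    have : (open Classical in (spR (ball R) c).filter (fun k => k ≠ root ∧ parent k = c)) = kids c := hfil
    rw [this]
    refine Finset.sum_congr rfl fun k hk => ?_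
    obtain ⟨_, hkr, hkp⟩ := Finset.mem_filter.mp hk
    have hl := len_parent hkr
    rw [hkp] at hl
    have hset : spR (spR (ball R) c) k = spR (ball R) k := by
      ext x
      simp only [spR, Finset.mem_filter]
      constructor
      · rintro ⟨⟨hx1, _⟩, hx3⟩
        exact ⟨hx1, hx3⟩
      · rintro ⟨hx1, hx3⟩
        refine ⟨⟨hx1, ?_⟩, hx3⟩
        refine List.IsSuffix.trans ?_ hx3
        have : parent k = c := hkp
        rw [← this]
        exact List.tail_suffix _
    rw [hset, gf_gg_eq_Uf, ih R k (by omega)]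

/-- The ball as a branch at the root. -/
lemma gf_spR_root (R : ℕ) : spR (ball R) (root : Word d) = ball R := by
  classical
  ext x
  simp only [spR, Finset.mem_filter, and_iff_left_iff_imp]
  intro _
  exact List.nil_suffix

/-- The field at the root of a ball is the cavity field. -/
theorem gf_hf_ball_root (hθ : θ < 1) (R : ℕ) (y : Word d → ℝ) :
    hf θ (ball R) y root = hh θ R root y := by
  have := gf_hf_sub hθ y R R root (by simp)
  rwa [gf_spR_root] at this

end Branch

section Map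

variable [Corr θ]

lemma gf_mD_map (g : Aut d) (D : Finset (Word d)) (y : Word d → ℝ) (x : Word d) :
    mD θ (D.map g.toEquiv.toEmbedding) (actS g y) (g x) = mD θ D y x := by
  unfold mD
  rw [hf_map]

lemma gf_tilt_map (g : Aut d) (D : Finset (Word d)) (y : Word d → ℝ) (σ : Word d → Bool) :
    tiltE (D.map g.toEquiv.toEmbedding) (actS g y) (actS g σ) = tiltE D y σ := by
  unfold tiltE
  rw [Finset.sum_map]
  simp [actS]

lemma gf_gbE_map (g : Aut d) (D : Finset (Word d)) (y : Word d → ℝ) {Φ : (Word d → Bool) → ℝ}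
    (hΦ : Measurable Φ) :
    gbE θ (D.map g.toEquiv.toEmbedding) (actS g y) Φ = gbE θ D y (fun σ => Φ (actS g σ)) := by
  unfold gbE
  have h1 : ∫ σ, Φ σ * tiltE (D.map g.toEquiv.toEmbedding) (actS g y) σ ∂(isingLaw d θ) =
      ∫ σ, Φ (actS g σ) * tiltE D y σ ∂(isingLaw d θ) := by
    have hm : Measurable (fun σ => Φ σ * tiltE (D.map g.toEquiv.toEmbedding) (actS g y) σ) :=
      hΦ.mul (slf_measurable_tiltE _ _)
    conv_lhs => rw [← isingLaw_map_actS θ g]
    rw [integral_map (measurable_actS g).aemeasurable hm.aestronglyMeasurable]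
    simp only [gf_tilt_map]
  have h2 : ∫ σ, tiltE (D.map g.toEquiv.toEmbedding) (actS g y) σ ∂(isingLaw d θ) =
      ∫ σ, tiltE D y σ ∂(isingLaw d θ) := by
    conv_lhs => rw [← isingLaw_map_actS θ g]
    rw [integral_map (measurable_actS g).aemeasurable
      (slf_measurable_tiltE _ _).aestronglyMeasurable]
    simp only [gf_tilt_map]
  rw [h1, h2]

lemma gf_covD_map (g : Aut d) (D : Finset (Word d)) (y : Word d → ℝ) (a b : Word d) :
    covD θ (D.map g.toEquiv.toEmbedding) (actS g y) (g a) (g b) = covD θ D y a b := by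
  unfold covD
  rw [gf_mD_map, gf_mD_map]
  have hΦ : Measurable (fun σ : Word d → Bool => sp (σ (g a)) * sp (σ (g b))) :=
    (slf_measurable_sp.comp (measurable_pi_apply _)).mul (slf_measurable_sp.comp (measurable_pi_apply _))
  rw [gf_gbE_map g D y hΦ]
  simp [actS]

end Map

end Vale.Agent.Lib.P161B
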