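import Vale.Agent.Lib.P161B.GibbsAux
import Vale.Agent.Lib.P161B.GibbsB
import Vale.Agent.Lib.P161B.GibbsCut
import Vale.Agent.Lib.P161B.GibbsFact

/-!
Gibbs measures on finite subtrees with a field: Bayes formula for the law `LawY`, product formula for the
covariance along a path, the edge bound, the influence of a cut. Limits almost surely under `LawY`.
-/

namespace Vale.Agent.Lib.P161B

open MeasureTheory ProbabilityTheory Filter
open Vale.Agent.Lib.P161
open scoped Topology

variable {d : ℕ} {θ : ℝ} {μ : Measure ℝ}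

/-- A non backtracking path of length `n`. -/
structure NB (p : ℕ → Word d) (n : ℕ) : Prop where
  adj : ∀ i < n, (treeGraph d).Adj (p i) (p (i + 1))
  nb : ∀ i, i + 2 ≤ n → p (i + 2) ≠ p i

/-- The product formula expression along a path. -/
noncomputable def CCp (θ : ℝ) (p : ℕ → Word d) (n : ℕ) (y : Word d → ℝ) : ℝ :=
  √((1 - mm θ (p 0) y ^ 2) * (1 - mm θ (p n) y ^ 2)) *
    ∏ i ∈ Finset.range n, Rho θ (mm θ (p i) y) (mm θ (p (i + 1)) y)

lemma nb_ch (x : Word d) : NB (ch x) (len x) := by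
  have hlen : ∀ i ≤ len x, (ch x i).1.length = i := by
    intro i hi
    have h1 : x.1.length = len x := rfl
    show (x.1.drop (len x - i)).length = i
    rw [List.length_drop, h1]
    omega
  refine ⟨fun i hi => Or.inr ⟨?_, ?_⟩, fun i hi => ?_⟩
  · intro h
    have := hlen (i + 1) hi
    rw [h] at this
    simp at this
  · show (x.1.drop (len x - (i + 1))).tail = x.1.drop (len x - i)
    rw [List.tail_drop]
    congr 1
    omega
  · intro h
    have h1 := hlen (i + 2) hi
    have h2 := hlen i (by omega)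
    rw [h] at h1
    omega

lemma CCr_eq_CCp (θ : ℝ) (x : Word d) (y : Word d → ℝ) : CCr θ x y = CCp θ (ch x) (len x) y := by
  have h0 : ch x 0 = root := by
    apply Subtype.ext
    show x.1.drop (len x - 0) = []
    simp [len]
  have h1 : ch x (len x) = x := by
    apply Subtype.ext
    show x.1.drop (len x - len x) = x.1
    simp
  unfold CCr CCp
  rw [h0, h1]

lemma gibbsAlg_NB_map {p : ℕ → Word d} {n : ℕ} (hp : NB p n) (g : Aut d) : NB (fun i => g (p i)) n :=
  ⟨fun i hi => g.map_adj_iff.mpr (hp.adj i hi), fun i hi h => hp.nb i hi (g.injective h)⟩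

lemma gibbsAlg_NB_root {p : ℕ → Word d} {n : ℕ} (hp : NB p n) (h0 : p 0 = root) :
    (∀ i ≤ n, len (p i) = i) ∧ ∀ i < n, parent (p (i + 1)) = p i := by
  have h1 : ∀ i, i ≤ n → len (p i) = i ∧ ∀ j, j + 1 ≤ i → parent (p (j + 1)) = p j := by
    intro i
    induction i with
    | zero =>
      intro _
      exact ⟨by rw [h0]; rfl, fun j hj => by omega⟩
    | succ i ih =>
      intro hi
      obtain ⟨h2, h3⟩ := ih (by omega)
      rcases adj_len (hp.adj i (by omega)) with ⟨h5, h6⟩ | ⟨h5, h6⟩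
      · exfalso
        rcases i with _ | i
        · omega
        · have h7 := h3 i le_rfl
          exact hp.nb i (by omega) (h6.trans h7)
      · refine ⟨by omega, fun j hj => ?_⟩
        by_cases hji : j = i
        · subst hji
          exact h6.symm
        · exact h3 j (by omega)
  exact ⟨fun i hi => (h1 i hi).1, fun i hi => (h1 (i + 1) hi).2 i le_rfl⟩

/-- Any two non backtracking paths of the same length are conjugate under an automorphism. -/
theorem nb_trans {p q : ℕ → Word d} {n : ℕ} (hp : NB p n) (hq : NB q n) :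
    ∃ g : Aut d, ∀ i ≤ n, g (p i) = q i := by
  set g1 : Aut d := (gm (p 0)).symm with hg1
  set g2 : Aut d := (gm (q 0)).symm with hg2
  have hg10 : g1 (p 0) = root := by
    have := (gm (p 0)).symm_apply_apply root
    rwa [gm_root] at this
  have hg20 : g2 (q 0) = root := by
    have := (gm (q 0)).symm_apply_apply root
    rwa [gm_root] at this
  obtain ⟨hp1, hp2⟩ := gibbsAlg_NB_root (gibbsAlg_NB_map hp g1) hg10
  obtain ⟨hq1, hq2⟩ := gibbsAlg_NB_root (gibbsAlg_NB_map hq g2) hg20
  obtain ⟨k, hk0, hkn⟩ := exists_stab (d := d) (v := g1 (p n)) (w := g2 (q n))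
    ((hp1 n le_rfl).trans (hq1 n le_rfl).symm)
  have hk : ∀ m, m ≤ n → k (g1 (p (n - m))) = g2 (q (n - m)) := by
    intro m
    induction m with
    | zero =>
      intro _
      exact hkn
    | succ m ih =>
      intro hm
      have h1 := ih (by omega)
      have hi : n - (m + 1) + 1 = n - m := by omega
      have hp3 := hp2 (n - (m + 1)) (by omega)
      have hq3 := hq2 (n - (m + 1)) (by omega)
      simp only [hi] at hp3 hq3
      have hne : g1 (p (n - m)) ≠ root := by
        intro h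
        have := hp1 (n - m) (by omega)
        rw [h, len_root] at this
        omega
      rw [← hp3, ← hq3, gibbsAlg_stab_parent hk0 hne, h1]
  refine ⟨g1.trans (k.trans g2.symm), fun i hi => ?_⟩
  have h1 := hk (n - i) (by omega)
  have h2 : n - (n - i) = i := by omega
  rw [h2] at h1
  show g2.symm (k (g1 (p i))) = q i
  rw [h1]
  exact g2.symm_apply_apply _

lemma mm_map (θ : ℝ) [Corr θ] (g : Aut d) (x : Word d) (y : Word d → ℝ) : mm θ (g x) (actS g y) = mm θ x y := by
  unfold mm mD
  congr 1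
  funext R
  rw [gibbsAlg_Bl_map, hf_map]

lemma CCp_map (θ : ℝ) [Corr θ] (g : Aut d) (p : ℕ → Word d) (n : ℕ) (y : Word d → ℝ) :
    CCp θ (fun i => g (p i)) n (actS g y) = CCp θ p n y := by
  unfold CCp
  simp only [mm_map]

lemma measurable_mm (θ : ℝ) [Corr θ] (x : Word d) : Measurable (mm θ x) := by
  unfold mm mD
  have htanh : Measurable Real.tanh := by
    have : Real.tanh = fun u => Real.sinh u / Real.cosh u := by
      funext u
      exact Real.tanh_eq_sinh_div_cosh u
    rw [this]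
    exact Real.measurable_sinh.div Real.measurable_cosh
  exact Measurable.limsup fun R => htanh.comp (measurable_hf θ _ x)

lemma gibbsAlg_measurable_hh (θ : ℝ) (n : ℕ) (v : Word d) : Measurable (hh θ n v) := by
  induction n generalizing v with
  | zero =>
    exact measurable_pi_apply v
  | succ n ih =>
    have : (hh θ (n + 1) v : (Word d → ℝ) → ℝ) = fun y => y v + ∑ c ∈ kids v, Uf θ (hh θ n c y) := by
      funext y; rfl
    rw [this]
    exact (measurable_pi_apply v).add (Finset.measurable_sum _ fun c _ => measurable_Uf.comp (ih c))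

lemma measurable_hhL (θ : ℝ) (v : Word d) : Measurable (hhL θ v) := by
  unfold hhL
  exact Measurable.limsup fun n => gibbsAlg_measurable_hh θ n v

lemma mD_eq_gbE [Corr θ] (hθ1 : θ < 1) (D : Finset (Word d)) (y : Word d → ℝ) (x : Word d) :
    mD θ D y x = gbE θ D y (fun σ => sp (σ x)) := by
  have hfalse := slf_integrable_ite θ D y x false
  have htrue := slf_integrable_ite θ D y x true
  have h1 : ∀ σ : Word d → Bool, tiltE D y σ =
      (if σ x = false then tiltE D y σ else 0) + (if σ x = true then tiltE D y σ else 0) := by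
    intro σ
    cases σ x <;> simp
  have h2 : ∀ σ : Word d → Bool, sp (σ x) * tiltE D y σ =
      (if σ x = false then tiltE D y σ else 0) - (if σ x = true then tiltE D y σ else 0) := by
    intro σ
    cases σ x <;> simp
  have h3 : ∫ σ, tiltE D y σ ∂(isingLaw d θ) = zb θ D y x false + zb θ D y x true := by
    unfold zb
    rw [← integral_add hfalse htrue]
    exact integral_congr_ae (ae_of_all _ h1)
  have h4 : ∫ σ, sp (σ x) * tiltE D y σ ∂(isingLaw d θ) = zb θ D y x false - zb θ D y x true := by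
    unfold zb
    rw [← integral_sub hfalse htrue]
    exact integral_congr_ae (ae_of_all _ h2)
  unfold mD gbE
  rw [tanh_hf θ hθ1, h3, h4]

/-- The field `hf` on a ball in terms of the cavity recursion. -/
lemma hf_ball_root [Corr θ] (hθ1 : θ < 1) (R : ℕ) (y : Word d → ℝ) :
    hf θ (ball R) y root = hh θ R root y := by
  exact gibbsAlg_hf_ball_root θ hθ1 R y

/-- Deterministic bound on the field: at most `M` plus `d` messages. -/
lemma hf_bound [Corr θ] (hθ1 : θ < 1) {D : Finset (Word d)} (hD : ConnClosed D) {x : Word d} (hx : x ∈ D)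
    {y : Word d → ℝ} {M : ℝ} (hy : ∀ v ∈ D, |y v| ≤ M) :
    |hf θ D y x| ≤ M + d * Real.artanh θ := by
  classical
  have h0 : 0 ≤ θ := Corr.nonneg
  have hart : 0 ≤ Real.artanh θ := Real.artanh_nonneg h0
  set g : Aut d := (gm x).symm with hg
  have hgv : g x = root := by
    have := (gm x).symm_apply_apply root
    rwa [gm_root] at this
  have hgsymm : g.symm root = x := by
    rw [← hgv]
    simp
  set D₁ := D.map g.toEquiv.toEmbedding with hD₁
  have hrootD : root ∈ D₁ := Finset.mem_map.mpr ⟨x, hx, hgv⟩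
  have hR : Rooted D₁ root := by
    obtain ⟨top, htop⟩ := rooted_of_connClosed (connClosed_image hD g)
    have h2 := htop.min root hrootD
    simp only [len_root, Nat.le_zero_eq] at h2
    have h3 := len_eq_zero h2
    rw [h3] at htop
    exact htop
  have h3 := hf_map θ g D y x
  rw [hgv] at h3
  rw [← h3]
  have h4 := gibbsAlg_hf_root_bound θ hθ1 _ D₁ rfl hR (actS g y)
  have h5 : actS g y root = y x := by
    show y (g.symm root) = y x
    rw [hgsymm]
  rw [h5] at h4
  have hcard := (slf_card_children (D₁.filter (fun c => c ≠ root ∧ parent c = root)) root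
    (fun c hc => (Finset.mem_filter.mp hc).2)).1
  have hcard' : ((D₁.filter (fun c => c ≠ root ∧ parent c = root)).card : ℝ) ≤ d := by
    exact_mod_cast hcard
  have h6 := hy x hx
  calc |hf θ D₁ (actS g y) root|
      = |y x + (hf θ D₁ (actS g y) root - y x)| := by congr 1; ring
    _ ≤ |y x| + |hf θ D₁ (actS g y) root - y x| := abs_add_le _ _
    _ ≤ M + d * Real.artanh θ :=
        add_le_add h6 (h4.trans (mul_le_mul_of_nonneg_right hcard' hart))

lemma mm_bound [Corr θ] (hθ1 : θ < 1) {y : Word d → ℝ} {M : ℝ} (hy : ∀ v, |y v| ≤ M) (x : Word d) :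
    |mm θ x y| ≤ Real.tanh (M + d * Real.artanh θ) := by
  unfold mm mD
  apply gibbsAlg_abs_limsup_le
  intro R
  have h := hf_bound (θ := θ) hθ1 (gibbsAlg_connClosed_Bl x R) (gibbsAlg_mem_Bl x R) (y := y) (M := M)
    (fun v _ => hy v)
  have h2 := abs_le.mp h
  rw [abs_le]
  constructor
  · have := msgAC_tanh_mono h2.1
    rwa [Real.tanh_neg] at this
  · exact msgAC_tanh_mono h2.2

/-- (TF1) The product formula on a finite connected set. -/
theorem covD_path [Corr θ] (h0 : 0 < θ) (hθ1 : θ < 1) {D : Finset (Word d)} (hD : ConnClosed D)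
    {p : ℕ → Word d} {n : ℕ} (hp : NB p n) (hpD : ∀ i ≤ n, p i ∈ D) (y : Word d → ℝ) :
    covD θ D y (p 0) (p n) =
      √((1 - mD θ D y (p 0) ^ 2) * (1 - mD θ D y (p n) ^ 2)) *
        ∏ i ∈ Finset.range n, Rho θ (mD θ D y (p i)) (mD θ D y (p (i + 1))) := by
  set g : Aut d := (gm (p 0)).symm with hg
  have hgv : g (p 0) = root := by
    have := (gm (p 0)).symm_apply_apply root
    rwa [gm_root] at this
  set D₁ := D.map g.toEquiv.toEmbedding with hD₁
  have hrootD : root ∈ D₁ := Finset.mem_map.mpr ⟨p 0, hpD 0 (Nat.zero_le _), hgv⟩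
  have hR : Rooted D₁ root := by
    obtain ⟨top, htop⟩ := rooted_of_connClosed (connClosed_image hD g)
    have h2 := htop.min root hrootD
    simp only [len_root, Nat.le_zero_eq] at h2
    have h3 := len_eq_zero h2
    rw [h3] at htop
    exact htop
  set q : ℕ → Word d := fun i => g (p i) with hq
  have hq0 : q 0 = root := hgv
  have hadj : ∀ i < n, (treeGraph d).Adj (q i) (q (i + 1)) := fun i hi =>
    g.map_adj_iff.mpr (hp.adj i hi)
  have hstep : ∀ i < n, q (i + 1) ≠ root ∧ parent (q (i + 1)) = q i := by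
    intro i
    induction i with
    | zero =>
      intro hi
      rcases adj_len (hadj 0 hi) with ⟨h3, _⟩ | ⟨h3, h4⟩
      · rw [hq0] at h3
        simp at h3
      · refine ⟨fun h => ?_, h4.symm⟩
        rw [h] at h3
        simp at h3
    | succ i ih =>
      intro hi
      obtain ⟨h1, h2⟩ := ih (by omega)
      rcases adj_len (hadj (i + 1) hi) with ⟨_, h4⟩ | ⟨h3, h4⟩
      · rw [h2] at h4
        exact absurd (g.injective h4) (hp.nb i (by omega))
      · refine ⟨fun h => ?_, h4.symm⟩
        rw [h] at h3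
        simp at h3
  have hqD : ∀ i ≤ n, q i ∈ D₁ := fun i hi => Finset.mem_map.mpr ⟨p i, hpD i hi, rfl⟩
  have hmain := gf_path_rooted h0 hθ1 hR (actS g y) hq0 n hstep hqD
  have e1 : ∀ i, mD θ D₁ (actS g y) (q i) = mD θ D y (p i) := fun i => gf_mD_map g D y (p i)
  simp only [e1] at hmain
  rw [← gf_covD_map (θ := θ) g D y (p 0) (p n)]
  exact hmain

/-- (TF2) The edge bound on a ball: keep only the direction from the child to the parent. -/
theorem Rho_sq_le [Corr θ] (h0 : 0 < θ) (hθ1 : θ < 1) {R : ℕ} {c : Word d} (hc : c ≠ root) (hR : len c ≤ R)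
    (y : Word d → ℝ) :
    Rho θ (mD θ (ball R) y (parent c)) (mD θ (ball R) y c) ^ 2 ≤ θ ^ 2 * psiF θ (hh θ (R - len c) c y) := by
  have hsplit := gf_split (gf_rooted_ball R) (mem_ball.mpr hR) hc
  have h1 := gf_edge_rho_sq h0 hθ1 hsplit y
  rw [gf_spL_union] at h1
  rwa [gf_hf_sub hθ1 y (R - len c) R c (by omega)] at h1

open Classical in
/-- (TF4) The influence of a cut at the root edge `{root, letter i}`. -/
theorem hf_cut [Corr θ] (h0 : 0 ≤ θ) (hθ1 : θ < 1) (R : ℕ) (i : Fin d) (y : Word d → ℝ) :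
    (∀ x ∈ ball R, x ∉ Sub (letter i) →
      |hf θ (ball R) y x - hf θ ((ball R).filter (fun v => v ∉ Sub (letter i))) y x| ≤
        θ ^ len x * Real.artanh θ) ∧
    (∀ x ∈ ball R, x ∈ Sub (letter i) →
      |hf θ (ball R) y x - hf θ ((ball R).filter (fun v => v ∈ Sub (letter i))) y x| ≤
        θ ^ (len x - 1) * Real.artanh θ) :=
  gcut_ball hθ1 R i y

/-- Bayes for the static model: the Gibbs measure on `D` is the conditional law of the spins given the
observed field on `D`. -/
theorem bayes_static [Corr θ] (hθ1 : θ < 1) (hμ : Nish μ) (D : Finset (Word d))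
    {Φ : (Word d → Bool) → ℝ} (hΦ : Measurable Φ) (hΦb : ∀ σ, |Φ σ| ≤ 1)
    (hΦD : DependsOn Φ (D : Set (Word d)))
    {F : (Word d → ℝ) → ℝ} (hF : Measurable F) {B : ℝ} (hFb : ∀ y, |F y| ≤ B)
    (hFD : DependsOn F (D : Set (Word d))) :
    ∫ ω, Φ (sgC ω) * F (yC ω) ∂(cnP d θ μ) = ∫ ω, gbE θ D (yC ω) Φ * F (yC ω) ∂(cnP d θ μ) :=
  Gb_bayes hμ D hΦ hΦb hΦD hF hFb hFD

/-- Invariance of the law of the field under automorphisms. -/
theorem LawY_map [Corr θ] (hμ : Nish μ) (g : Aut d) : (LawY d θ μ).map (actS g) = LawY d θ μ :=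
  Gb_LawY_map hμ g

instance LawY_prob [Corr θ] [IsProbabilityMeasure μ] : IsProbabilityMeasure (LawY d θ μ) :=
  Gb_LawY_prob

/-! ### Levy's upward theorem for the observed field -/

lemma lv_measurable_tanh : Measurable Real.tanh := by
  have : Real.tanh = fun x => Real.sinh x / Real.cosh x := by
    funext x
    exact Real.tanh_eq_sinh_div_cosh x
  rw [this]
  exact Real.measurable_sinh.div Real.measurable_cosh

lemma lv_measurable_sgC (x : Word d) : Measurable (fun ω : Cn d => sgC ω x) :=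
  (measurable_tau_coord x).comp
    (measurable_pi_iff.2 fun v => measurable_fst.comp (measurable_pi_apply v))

lemma lv_measurable_yC : Measurable (yC : Cn d → Word d → ℝ) :=
  measurable_pi_iff.2 fun x => (cn_measurable_sp.comp (lv_measurable_sgC x)).mul
    (measurable_snd.comp (measurable_pi_apply x))

/-- The sigma algebra of the observed field on `D`, on the canonical space. -/
noncomputable abbrev lvSig (D : Finset (Word d)) : MeasurableSpace (Cn d) :=
  MeasurableSpace.comap (fun (ω : Cn d) (v : D) => yC ω v.1) inferInstance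

lemma lvSig_mono {D D' : Finset (Word d)} (h : D ⊆ D') : lvSig D ≤ lvSig D' := by
  have h1 : (fun (ω : Cn d) (v : D) => yC ω v.1) =
      (fun (z : D' → ℝ) (v : D) => z ⟨v.1, h v.2⟩) ∘ (fun (ω : Cn d) (v : D') => yC ω v.1) := rfl
  unfold lvSig
  rw [h1, ← MeasurableSpace.comap_comp]
  refine MeasurableSpace.comap_mono ?_
  have hm : Measurable (fun (z : D' → ℝ) (v : D) => z ⟨v.1, h v.2⟩) :=
    measurable_pi_iff.2 fun v => measurable_pi_apply _
  exact hm.comap_le

lemma lvSig_le (D : Finset (Word d)) : lvSig D ≤ (inferInstance : MeasurableSpace (Cn d)) := by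
  have hm : Measurable (fun (ω : Cn d) (v : D) => yC ω v.1) :=
    measurable_pi_iff.2 fun v => (measurable_pi_apply v.1).comp lv_measurable_yC
  exact hm.comap_le

lemma lv_abs_mD_le (D : Finset (Word d)) (y : Word d → ℝ) (x : Word d) : |mD θ D y x| ≤ 1 :=
  (Real.abs_tanh_lt_one _).le

lemma lv_abs_sp (b : Bool) : |sp b| = 1 := by
  cases b <;> simp [sp]

open Classical in
/-- The Gibbs magnetisation is the conditional expectation of the spin given the field on `D`. -/
theorem lv_ae_eq [Corr θ] (hθ1 : θ < 1) (hμ : Nish μ) {D : Finset (Word d)} {x : Word d} (hx : x ∈ D) :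
    (fun ω => mD θ D (yC ω) x) =ᵐ[cnP d θ μ]
      (cnP d θ μ)[fun ω => sp (sgC ω x) | lvSig D] := by
  have := hμ.prob
  have hmf : Measurable (fun ω : Cn d => sp (sgC ω x)) := cn_measurable_sp.comp (lv_measurable_sgC x)
  have hmg : Measurable (fun ω : Cn d => mD θ D (yC ω) x) := by
    unfold mD
    exact lv_measurable_tanh.comp ((measurable_hf θ D x).comp lv_measurable_yC)
  have hfi : Integrable (fun ω : Cn d => sp (sgC ω x)) (cnP d θ μ) :=
    Integrable.of_bound hmf.aestronglyMeasurable 1 (ae_of_all _ fun ω => by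
      rw [Real.norm_eq_abs, lv_abs_sp])
  have hgi : Integrable (fun ω : Cn d => mD θ D (yC ω) x) (cnP d θ μ) :=
    Integrable.of_bound hmg.aestronglyMeasurable 1 (ae_of_all _ fun ω => by
      rw [Real.norm_eq_abs]; exact lv_abs_mD_le _ _ _)
  refine ae_eq_condExp_of_forall_setIntegral_eq (lvSig_le D) hfi (fun s _ _ => hgi.integrableOn) ?_ ?_
  · rintro s hs -
    obtain ⟨t, ht, rfl⟩ := hs
    let F : (Word d → ℝ) → ℝ := fun y => if (fun v : D => y v.1) ∈ t then 1 else 0
    have hFm : Measurable F := by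
      refine Measurable.ite ?_ measurable_const measurable_const
      have : Measurable (fun (y : Word d → ℝ) (v : D) => y v.1) :=
        measurable_pi_iff.2 fun v => measurable_pi_apply _
      exact this ht
    have hFb : ∀ y, |F y| ≤ 1 := by
      intro y
      by_cases h : (fun v : D => y v.1) ∈ t <;> simp [F, h]
    have hFD : DependsOn F (D : Set (Word d)) := by
      intro y y' h
      have : (fun v : D => y v.1) = fun v : D => y' v.1 := by
        funext v
        exact h v.1 v.2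
      simp only [F, this]
    have hΦ : Measurable (fun σ : Word d → Bool => sp (σ x)) :=
      cn_measurable_sp.comp (measurable_pi_apply x)
    have hΦb : ∀ σ : Word d → Bool, |sp (σ x)| ≤ 1 := fun σ => (lv_abs_sp _).le
    have hΦD : DependsOn (fun σ : Word d → Bool => sp (σ x)) (D : Set (Word d)) := by
      intro σ σ' h
      show sp (σ x) = sp (σ' x)
      rw [h x hx]
    have hB := bayes_static (μ := μ) hθ1 hμ D hΦ hΦb hΦD hFm hFb hFD
    have hsm : MeasurableSet ((fun (ω : Cn d) (v : D) => yC ω v.1) ⁻¹' t) := lvSig_le D _ ⟨t, ht, rfl⟩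
    rw [← integral_indicator hsm, ← integral_indicator hsm]
    have h1 : ∀ ω : Cn d, ((fun (ω : Cn d) (v : D) => yC ω v.1) ⁻¹' t).indicator
        (fun ω => mD θ D (yC ω) x) ω = gbE θ D (yC ω) (fun σ => sp (σ x)) * F (yC ω) := by
      intro ω
      rw [← mD_eq_gbE hθ1]
      by_cases h : (fun v : D => yC ω v.1) ∈ t
      · have hm : ω ∈ ((fun (ω : Cn d) (v : D) => yC ω v.1) ⁻¹' t) := h
        simp [F, h]
      · have hm : ω ∉ ((fun (ω : Cn d) (v : D) => yC ω v.1) ⁻¹' t) := h
        simp [F, h]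
    have h2 : ∀ ω : Cn d, ((fun (ω : Cn d) (v : D) => yC ω v.1) ⁻¹' t).indicator
        (fun ω => sp (sgC ω x)) ω = sp (sgC ω x) * F (yC ω) := by
      intro ω
      by_cases h : (fun v : D => yC ω v.1) ∈ t
      · have hm : ω ∈ ((fun (ω : Cn d) (v : D) => yC ω v.1) ⁻¹' t) := h
        simp [F, h]
      · have hm : ω ∉ ((fun (ω : Cn d) (v : D) => yC ω v.1) ⁻¹' t) := h
        simp [F, h]
    simp_rw [h1, h2]
    exact hB.symm
  · -- measurability with respect to the coordinates on `D`
    let ext : (D → ℝ) → Word d → ℝ := fun z v => if h : v ∈ D then z ⟨v, h⟩ else 0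
    have hext : Measurable ext := by
      refine measurable_pi_iff.2 fun v => ?_
      by_cases h : v ∈ D
      · simp only [ext, h, dif_pos]
        exact measurable_pi_apply _
      · simp only [ext, h, dif_neg, not_false_eq_true]
        exact measurable_const
    have heq : (fun ω : Cn d => mD θ D (yC ω) x) =
        (fun z => mD θ D (ext z) x) ∘ (fun (ω : Cn d) (v : D) => yC ω v.1) := by
      funext ω
      unfold mD
      simp only [Function.comp]
      rw [hf_congr θ D (y := yC ω) (y' := ext (fun v : D => yC ω v.1))]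
      intro v hv
      simp [ext, hv]
    have hG : Measurable (fun z : D → ℝ => mD θ D (ext z) x) := by
      unfold mD
      exact lv_measurable_tanh.comp ((measurable_hf θ D x).comp hext)
    have hm2 : @Measurable _ _ (lvSig D) _ (fun ω : Cn d => mD θ D (yC ω) x) := by
      rw [heq]
      exact hG.comp (comap_measurable _)
    exact hm2.stronglyMeasurable.aestronglyMeasurable

/-- Levy's upward theorem along an increasing sequence of finite sets. -/
theorem lv_tendsto [Corr θ] (hθ1 : θ < 1) (hμ : Nish μ) (x : Word d) {D : ℕ → Finset (Word d)}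
    (hD : Monotone D) {R0 : ℕ} (hx : ∀ R, R0 ≤ R → x ∈ D R) :
    ∀ᵐ ω ∂(cnP d θ μ), Tendsto (fun R => mD θ (D R) (yC ω) x) atTop
      (𝓝 (((cnP d θ μ)[fun ω => sp (sgC ω x) | ⨆ R, lvSig (D R)]) ω)) := by
  have := hμ.prob
  let ℱ : Filtration ℕ (inferInstance : MeasurableSpace (Cn d)) :=
    ⟨fun R => lvSig (D R), fun _ _ h => lvSig_mono (hD h), fun R => lvSig_le _⟩
  have h1 := tendsto_ae_condExp (μ := cnP d θ μ) (ℱ := ℱ) (fun ω => sp (sgC ω x))
  have h2 : ∀ᵐ ω ∂(cnP d θ μ), ∀ R, R0 ≤ R → mD θ (D R) (yC ω) x =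
      ((cnP d θ μ)[fun ω => sp (sgC ω x) | lvSig (D R)]) ω := by
    refine ae_all_iff.2 fun R => ?_
    by_cases hR : R0 ≤ R
    · filter_upwards [lv_ae_eq hθ1 hμ (hx R hR)] with ω h _ using h
    · exact ae_of_all _ fun ω h => absurd h hR
  filter_upwards [h1, h2] with ω h3 h4
  refine Tendsto.congr' ?_ h3
  filter_upwards [eventually_ge_atTop R0] with R hR
  exact (h4 R hR).symm

lemma lv_ball_mono : Monotone (ball : ℕ → Finset (Word d)) := fun a b h v hv =>
  mem_ball.2 ((mem_ball.1 hv).trans h)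

lemma lv_Bl_mono (x : Word d) : Monotone (Bl x : ℕ → Finset (Word d)) := fun _ _ h =>
  Finset.map_subset_map.2 (lv_ball_mono h)

lemma lv_self_mem_Bl (x : Word d) (R : ℕ) : x ∈ Bl x R := by
  unfold Bl
  refine Finset.mem_map.2 ⟨root, mem_ball.2 (by simp), ?_⟩
  show gm x root = x
  exact gm_root x

lemma lv_ball_subset_Bl (x : Word d) (R : ℕ) : ∃ R', ball R ⊆ Bl x R' := by
  classical
  obtain ⟨r, hr⟩ := exists_ball_superset ((ball R : Finset (Word d)).image (gm x).symm)
  refine ⟨r, fun v hv => ?_⟩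
  unfold Bl
  refine Finset.mem_map.2 ⟨(gm x).symm v, hr (Finset.mem_image_of_mem _ hv), ?_⟩
  show gm x ((gm x).symm v) = v
  exact (gm x).apply_symm_apply v

lemma lv_sup_eq (x : Word d) : (⨆ R, lvSig (ball R : Finset (Word d))) = ⨆ R, lvSig (Bl x R) := by
  apply le_antisymm
  · refine iSup_le fun R => ?_
    obtain ⟨R', h⟩ := lv_ball_subset_Bl x R
    exact (lvSig_mono h).trans (le_iSup (fun R => lvSig (Bl x R)) R')
  · refine iSup_le fun R => ?_
    obtain ⟨R', h⟩ := exists_ball_superset (Bl x R)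
    exact (lvSig_mono h).trans (le_iSup (fun R => lvSig (ball R : Finset (Word d))) R')

/-- Levy: limits along the balls around the root and around `x` agree. -/
theorem ae_tendsto_mD [Corr θ] (hθ1 : θ < 1) (hμ : Nish μ) :
    ∀ᵐ y ∂(LawY d θ μ), ∀ x : Word d,
      Tendsto (fun R => mD θ (ball R) y x) atTop (𝓝 (mm θ x y)) ∧
      Tendsto (fun R => mD θ (Bl x R) y x) atTop (𝓝 (mm θ x y)) := by
  have hmD : ∀ (x : Word d) (D : Finset (Word d)), Measurable (fun y => mD θ D y x) := by
    intro x D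
    unfold mD
    exact lv_measurable_tanh.comp (measurable_hf θ D x)
  have hset : MeasurableSet {y : Word d → ℝ | ∀ x : Word d,
      Tendsto (fun R => mD θ (ball R) y x) atTop (𝓝 (mm θ x y)) ∧
      Tendsto (fun R => mD θ (Bl x R) y x) atTop (𝓝 (mm θ x y))} := by
    have heq : {y : Word d → ℝ | ∀ x : Word d,
      Tendsto (fun R => mD θ (ball R) y x) atTop (𝓝 (mm θ x y)) ∧
      Tendsto (fun R => mD θ (Bl x R) y x) atTop (𝓝 (mm θ x y))} =
        ⋂ x : Word d, ({y | Tendsto (fun R => mD θ (ball R) y x) atTop (𝓝 (mm θ x y))} ∩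
          {y | Tendsto (fun R => mD θ (Bl x R) y x) atTop (𝓝 (mm θ x y))}) := by
      ext y
      simp
    rw [heq]
    refine MeasurableSet.iInter fun x => MeasurableSet.inter ?_ ?_
    · exact measurableSet_tendsto_fun (fun R => hmD x _) (measurable_mm θ x)
    · exact measurableSet_tendsto_fun (fun R => hmD x _) (measurable_mm θ x)
  unfold LawY
  refine (ae_map_iff lv_measurable_yC.aemeasurable hset).2 ?_
  refine ae_all_iff.2 fun x => ?_
  have h1 := lv_tendsto (μ := μ) hθ1 hμ x (D := ball) lv_ball_mono (R0 := len x)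
    (fun R hR => mem_ball.2 hR)
  have h2 := lv_tendsto (μ := μ) hθ1 hμ x (D := Bl x) (lv_Bl_mono x) (R0 := 0)
    (fun R _ => lv_self_mem_Bl x R)
  rw [lv_sup_eq x] at h1
  filter_upwards [h1, h2] with ω h3 h4
  have hmm : mm θ x (yC ω) = ((cnP d θ μ)[fun ω => sp (sgC ω x) | ⨆ R, lvSig (Bl x R)]) ω :=
    h4.limsup_eq
  rw [hmm]
  exact ⟨h3, h4⟩

/-- The observed field is bounded at every vertex, almost surely. -/
lemma lv_ae_bound [Corr θ] (hμ : Nish μ) {M : ℝ} (hM : ∀ᵐ h ∂μ, |h| ≤ M) :
    ∀ᵐ ω ∂(cnP d θ μ), ∀ v : Word d, |(ω v).2| ≤ M := by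
  have := hμ.prob
  refine ae_all_iff.2 fun v => ?_
  have h1 : (cnP d θ μ).map (fun ω : Cn d => ω v) = (mrg θ v).prod μ := by
    unfold cnP
    exact Measure.infinitePi_map_eval _ v
  have hs : MeasurableSet {p : Bool × ℝ | |p.2| ≤ M} :=
    measurableSet_le (measurable_snd.abs) measurable_const
  have h2 : ∀ᵐ p ∂((mrg θ v).prod μ), |p.2| ≤ M := by
    have h3 : ∀ᵐ p ∂((mrg θ v).prod μ).map Prod.snd, |p| ≤ M := by
      rw [Measure.map_snd_prod, measure_univ, one_smul]
      exact hM
    exact ae_of_ae_map measurable_snd.aemeasurable h3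
  rw [← h1] at h2
  exact ae_of_ae_map (measurable_pi_apply v).aemeasurable h2

/-- The law of the field is bounded. -/
lemma lv_ae_y_bound [Corr θ] (hμ : Nish μ) {M : ℝ} (hM : ∀ᵐ h ∂μ, |h| ≤ M) :
    ∀ᵐ y ∂(LawY d θ μ), ∀ v : Word d, |y v| ≤ M := by
  unfold LawY
  have hset : MeasurableSet {y : Word d → ℝ | ∀ v, |y v| ≤ M} := by
    have heq : {y : Word d → ℝ | ∀ v, |y v| ≤ M} = ⋂ v : Word d, {y | |y v| ≤ M} := by
      ext y
      simp
    rw [heq]
    exact MeasurableSet.iInter fun v =>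
      measurableSet_le (measurable_pi_apply v).abs measurable_const
  refine (ae_map_iff lv_measurable_yC.aemeasurable hset).2 ?_
  filter_upwards [lv_ae_bound hμ hM] with ω h v
  show |sp (sgC ω v) * (ω v).2| ≤ M
  rw [abs_mul, lv_abs_sp, one_mul]
  exact h v

/-- The limit magnetisations are strictly inside `(-1, 1)`. -/
lemma lv_ae_mm_lt [Corr θ] (hθ1 : θ < 1) (hμ : Nish μ) :
    ∀ᵐ y ∂(LawY d θ μ), ∀ x : Word d, |mm θ x y| < 1 := by
  obtain ⟨M, hM⟩ := hμ.bdd
  filter_upwards [lv_ae_y_bound hμ hM] with y hy x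
  exact (mm_bound hθ1 hy x).trans_lt (Real.tanh_lt_one _)

lemma lv_Rho_tendsto {ι : Type*} {l : Filter ι} {a b : ι → ℝ} {A B : ℝ} (ha : Tendsto a l (𝓝 A))
    (hb : Tendsto b l (𝓝 B)) (hA : |A| < 1) (hB : |B| < 1) :
    Tendsto (fun i => Rho θ (a i) (b i)) l (𝓝 (Rho θ A B)) := by
  have hA2 : A ^ 2 < 1 := Edge_sq_lt_one hA
  have hB2 : B ^ 2 < 1 := Edge_sq_lt_one hB
  have hpos : 0 < (1 - A ^ 2) * (1 - B ^ 2) := mul_pos (by linarith) (by linarith)
  have hne : √((1 - A ^ 2) * (1 - B ^ 2)) ≠ 0 := (Real.sqrt_pos.2 hpos).ne'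
  have hL : Tendsto (fun i => Lam θ (a i) (b i)) l (𝓝 (Lam θ A B)) := by
    unfold Lam
    refine Tendsto.div (tendsto_const_nhds.sub (ha.mul hb)) ?_ hne
    exact ((tendsto_const_nhds.sub (ha.pow 2)).mul (tendsto_const_nhds.sub (hb.pow 2))).sqrt
  unfold Rho
  exact hL.sub ((hL.pow 2).sub tendsto_const_nhds).sqrt

lemma lv_ch_zero (x : Word d) : ch x 0 = root := by
  apply Subtype.ext
  simp [ch, len, root]

lemma lv_ch_len (x : Word d) : ch x (len x) = x := by
  apply Subtype.ext
  simp [ch]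

lemma lv_ch_mem {x : Word d} {R : ℕ} (hR : len x ≤ R) (i : ℕ) : ch x i ∈ ball R := by
  refine mem_ball.2 ?_
  have : len (ch x i) ≤ len x := by
    simp only [ch, len, List.length_drop]
    omega
  omega

/-- The limit of the covariance, by (TF1). -/
theorem ae_tendsto_covD [Corr θ] (h0 : 0 < θ) (hθ1 : θ < 1) (hμ : Nish μ) :
    ∀ᵐ y ∂(LawY d θ μ), ∀ x : Word d,
      Tendsto (fun R => covD θ (ball R) y root x) atTop (𝓝 (CCr θ x y)) := by
  filter_upwards [ae_tendsto_mD hθ1 hμ, lv_ae_mm_lt hθ1 hμ] with y h1 h2 x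
  have hev : ∀ᶠ R in atTop, √((1 - mD θ (ball R) y root ^ 2) * (1 - mD θ (ball R) y x ^ 2)) *
      ∏ i ∈ Finset.range (len x), Rho θ (mD θ (ball R) y (ch x i)) (mD θ (ball R) y (ch x (i + 1))) =
        covD θ (ball R) y root x := by
    filter_upwards [eventually_ge_atTop (len x)] with R hR
    have := covD_path h0 hθ1 (ball_connClosed R) (nb_ch x)
      (fun i _ => lv_ch_mem hR i) y
    rw [lv_ch_zero, lv_ch_len] at this
    exact this.symm
  refine Tendsto.congr' hev ?_
  unfold CCr
  refine Tendsto.mul ?_ (tendsto_finsetProd _ fun i _ =>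
    lv_Rho_tendsto (h1 _).1 (h1 _).1 (h2 _) (h2 _))
  exact ((tendsto_const_nhds.sub ((h1 root).1.pow 2)).mul
    (tendsto_const_nhds.sub ((h1 x).1.pow 2))).sqrt

lemma lv_sp_cases (b : Bool) : sp b = 1 ∨ sp b = -1 := by
  cases b <;> simp [sp]

/-- The gauge identity on the level of `ψ`. -/
theorem ae_psi_hatL [Corr θ] (hθ1 : θ < 1) (hμ : Nish μ) :
    ∀ᵐ ω ∂(cnP d θ μ), ∀ v : Word d, psiF θ (hhL θ v (yC ω)) = psiF θ (hatL θ v ω) := by
  filter_upwards [hatL_eq (d := d) hθ1 hμ] with ω h v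
  rw [h v]
  rcases lv_sp_cases (sgC ω v) with h1 | h1 <;> rw [h1]
  · rw [one_mul]
  · rw [neg_one_mul, psiF_even]

/-- The finite depth cavity fields converge almost surely to the limit field. -/
theorem lv_tendsto_hh [Corr θ] (hθ1 : θ < 1) (hμ : Nish μ) :
    ∀ᵐ ω ∂(cnP d θ μ), ∀ v : Word d, Tendsto (fun n => hh θ n v (yC ω)) atTop (𝓝 (hhL θ v (yC ω))) := by
  have h0 : 0 ≤ θ := Corr.nonneg
  filter_upwards [tendsto_hatH (d := d) hθ1 hμ, hatL_eq (d := d) hθ1 hμ] with ω h1 h2 v
  have h3 : ∀ n, hh θ n v (yC ω) = sp (sgC ω v) * hatH θ n v ω := by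
    intro n
    rw [hatH_eq h0 hθ1, ← mul_assoc, sp_mul_self, one_mul]
  have h4 : hhL θ v (yC ω) = sp (sgC ω v) * hatL θ v ω := by
    rw [h2 v, ← mul_assoc, sp_mul_self, one_mul]
  simp_rw [h3, h4]
  exact (h1 v).const_mul _

lemma lv_continuous_tanh : Continuous Real.tanh := by
  have : Real.tanh = fun x => Real.sinh x / Real.cosh x := by
    funext x
    exact Real.tanh_eq_sinh_div_cosh x
  rw [this]
  exact Real.continuous_sinh.div Real.continuous_cosh fun x => (Real.cosh_pos x).ne'

lemma lv_continuous_psiF (h0 : 0 ≤ θ) (hθ1 : θ < 1) : Continuous (psiF θ) := by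
  unfold psiF
  refine Continuous.div (by have := lv_continuous_tanh; fun_prop) (by have := lv_continuous_tanh; fun_prop) ?_
  intro x
  have h1 : Real.tanh x ^ 2 < 1 := Real.tanh_sq_lt_one x
  have h2 : θ ^ 2 < 1 := by nlinarith
  have h3 : θ ^ 2 * Real.tanh x ^ 2 < 1 := by nlinarith [sq_nonneg θ, sq_nonneg (Real.tanh x)]
  linarith

lemma lv_measurable_Rho : Measurable (fun p : ℝ × ℝ => Rho θ p.1 p.2) := by
  have hL : Measurable (fun p : ℝ × ℝ => Lam θ p.1 p.2) := by
    unfold Lam
    fun_prop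
  unfold Rho
  exact hL.sub ((hL.pow_const 2).sub_const 1).sqrt

lemma lv_measurable_psiF_comp {α : Type*} [MeasurableSpace α] {f : α → ℝ} (hf : Measurable f) :
    Measurable (fun a => psiF θ (f a)) := measurable_psiF.comp hf

/-- (TF2) in the limit. -/
theorem ae_Rho_sq_le [Corr θ] (h0 : 0 < θ) (hθ1 : θ < 1) (hμ : Nish μ) :
    ∀ᵐ y ∂(LawY d θ μ), ∀ c : Word d, c ≠ root →
      Rho θ (mm θ (parent c) y) (mm θ c y) ^ 2 ≤ θ ^ 2 * psiF θ (hhL θ c y) := by
  have hset : MeasurableSet {y : Word d → ℝ | ∀ c : Word d, c ≠ root →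
      Rho θ (mm θ (parent c) y) (mm θ c y) ^ 2 ≤ θ ^ 2 * psiF θ (hhL θ c y)} := by
    have heq : {y : Word d → ℝ | ∀ c : Word d, c ≠ root →
        Rho θ (mm θ (parent c) y) (mm θ c y) ^ 2 ≤ θ ^ 2 * psiF θ (hhL θ c y)} =
        ⋂ c : Word d, ⋂ _ : c ≠ root, {y |
          Rho θ (mm θ (parent c) y) (mm θ c y) ^ 2 ≤ θ ^ 2 * psiF θ (hhL θ c y)} := by
      ext y
      simp
    rw [heq]
    refine MeasurableSet.iInter fun c => MeasurableSet.iInter fun _ => measurableSet_le ?_ ?_
    · exact (lv_measurable_Rho.comp ((measurable_mm θ _).prodMk (measurable_mm θ _))).pow_const 2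
    · exact (lv_measurable_psiF_comp (measurable_hhL θ c)).const_mul _
  have hLaw := ae_tendsto_mD (d := d) hθ1 hμ
  have hLaw2 := lv_ae_mm_lt (d := d) hθ1 hμ
  unfold LawY at hLaw hLaw2 ⊢
  refine (ae_map_iff lv_measurable_yC.aemeasurable hset).2 ?_
  filter_upwards [ae_of_ae_map lv_measurable_yC.aemeasurable hLaw,
    ae_of_ae_map lv_measurable_yC.aemeasurable hLaw2, lv_tendsto_hh (d := d) hθ1 hμ] with ω h1 h2 h3 c hc
  have hL : Tendsto (fun R => Rho θ (mD θ (ball R) (yC ω) (parent c)) (mD θ (ball R) (yC ω) c) ^ 2)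
      atTop (𝓝 (Rho θ (mm θ (parent c) (yC ω)) (mm θ c (yC ω)) ^ 2)) :=
    (lv_Rho_tendsto (h1 _).1 (h1 _).1 (h2 _) (h2 _)).pow 2
  have hR : Tendsto (fun R => θ ^ 2 * psiF θ (hh θ (R - len c) c (yC ω))) atTop
      (𝓝 (θ ^ 2 * psiF θ (hhL θ c (yC ω)))) := by
    refine Tendsto.const_mul _ ?_
    exact ((lv_continuous_psiF h0.le hθ1).tendsto _).comp
      ((h3 c).comp (tendsto_sub_atTop_nat (len c)))
  refine le_of_tendsto_of_tendsto hL hR ?_
  filter_upwards [eventually_ge_atTop (len c)] with R hR'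
  exact Rho_sq_le h0 hθ1 hc hR' (yC ω)

/-! ### The law at the root and the moment bound -/

/-- The law of the sum of two functions of disjoint sets of coordinates. -/
lemma lv_map_add [Corr θ] [IsProbabilityMeasure μ] {S T : Set (Word d)} (hST : Disjoint S T)
    {X Y : Cn d → ℝ} (hX : Measurable X) (hY : Measurable Y) (hXS : DependsOn X S) (hYT : DependsOn Y T) :
    (cnP d θ μ).map (fun ω => X ω + Y ω) = cvl ((cnP d θ μ).map X) ((cnP d θ μ).map Y) := by
  have hI := cn_indepFun (θ := θ) (μ := μ) hST hX hY hXS hYT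
  have hmap : (cnP d θ μ).map (fun ω => (X ω, Y ω)) = ((cnP d θ μ).map X).prod ((cnP d θ μ).map Y) :=
    (indepFun_iff_map_prod_eq_prod_map_map hX.aemeasurable hY.aemeasurable).1 hI
  unfold cvl
  rw [← hmap, Measure.map_map (by fun_prop) (hX.prodMk hY)]
  rfl

lemma lv_sub_root {c : Word d} (hc : c ≠ root) : root ∉ Sub c := by
  intro h
  apply hc
  have h1 : c.1 <:+ ([] : List (Fin d)) := h
  exact Subtype.ext (List.suffix_nil.1 h1)

lemma lv_kids_root_disjoint {a b : Word d} (ha : a ∈ kids (root : Word d))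
    (hb : b ∈ kids (root : Word d)) (hab : a ≠ b) : Disjoint (Sub a) (Sub b) := by
  rw [Set.disjoint_left]
  intro u hu hu'
  apply hab
  have ha' := mem_kids.1 ha
  have hb' := mem_kids.1 hb
  have hla : len a = 1 := by
    have := len_parent ha'.1
    rw [ha'.2] at this
    simpa using this.symm
  have hlb : len b = 1 := by
    have := len_parent hb'.1
    rw [hb'.2] at this
    simpa using this.symm
  have hab' : a.1 <:+ u.1 := hu
  have hba' : b.1 <:+ u.1 := hu'
  have h := List.suffix_of_suffix_length_le hab' hba' (by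
    show len a ≤ len b
    omega)
  exact Subtype.ext (h.eq_of_length (by
    show len a = len b
    omega))

/-- The law of a sum of independent messages. -/
lemma lv_law_sum [Corr θ] [IsProbabilityMeasure μ] {ν : Measure ℝ} {K : Finset (Word d)}
    (hK : ∀ a ∈ K, ∀ b ∈ K, a ≠ b → Disjoint (Sub a) (Sub b))
    {Z : Word d → Cn d → ℝ} (hZ : ∀ c ∈ K, Measurable (Z c)) (hZS : ∀ c ∈ K, DependsOn (Z c) (Sub c))
    (hZl : ∀ c ∈ K, (cnP d θ μ).map (Z c) = ν) :
    (cnP d θ μ).map (fun ω => ∑ c ∈ K, Z c ω) = powC ν K.card := by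
  classical
  induction K using Finset.induction_on with
  | empty =>
    simp [powC]
  | insert a K ha ih =>
    have hK' : ∀ a ∈ K, ∀ b ∈ K, a ≠ b → Disjoint (Sub a) (Sub b) := fun x hx y hy hxy =>
      hK x (Finset.mem_insert_of_mem hx) y (Finset.mem_insert_of_mem hy) hxy
    have hZ' : ∀ c ∈ K, Measurable (Z c) := fun c hc => hZ c (Finset.mem_insert_of_mem hc)
    have hZS' : ∀ c ∈ K, DependsOn (Z c) (Sub c) := fun c hc => hZS c (Finset.mem_insert_of_mem hc)
    have hZl' : ∀ c ∈ K, (cnP d θ μ).map (Z c) = ν := fun c hc => hZl c (Finset.mem_insert_of_mem hc)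
    have ih' := ih hK' hZ' hZS' hZl'
    have hma : Measurable (Z a) := hZ a (Finset.mem_insert_self a K)
    have hmP : Measurable (fun ω => ∑ c ∈ K, Z c ω) := Finset.measurable_sum _ hZ'
    have hdP : DependsOn (fun ω => ∑ c ∈ K, Z c ω) (⋃ c ∈ K, Sub c) := by
      intro x y hxy
      refine Finset.sum_congr rfl fun c hc => hZS' c hc fun i hi => hxy i ?_
      exact Set.mem_biUnion hc hi
    have hdisj : Disjoint (⋃ c ∈ K, Sub c) (Sub a) := by
      rw [Set.disjoint_iUnion₂_left]
      intro c hc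
      exact hK c (Finset.mem_insert_of_mem hc) a (Finset.mem_insert_self a K)
        (fun h => ha (h ▸ hc))
    have h1 := lv_map_add (θ := θ) (μ := μ) hdisj hmP hma hdP (hZS a (Finset.mem_insert_self a K))
    have h2 : (fun ω => ∑ c ∈ insert a K, Z c ω) = fun ω => (∑ c ∈ K, Z c ω) + Z a ω := by
      funext ω
      rw [Finset.sum_insert ha, add_comm]
    rw [h2, h1, ih', hZl a (Finset.mem_insert_self a K), Finset.card_insert_of_notMem ha]
    rfl

lemma lv_map_snd_root [Corr θ] [IsProbabilityMeasure μ] (v : Word d) :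
    (cnP d θ μ).map (fun ω : Cn d => (ω v).2) = μ := by
  have h1 : (cnP d θ μ).map (fun ω : Cn d => ω v) = (mrg θ v).prod μ := by
    unfold cnP
    exact Measure.infinitePi_map_eval _ v
  have h2 : (fun ω : Cn d => (ω v).2) = Prod.snd ∘ fun ω : Cn d => ω v := rfl
  rw [h2, ← Measure.map_map measurable_snd (measurable_pi_apply v), h1, Measure.map_snd_prod,
    measure_univ, one_smul]

/-- The law of the limit field at the root: `d` messages instead of `d - 1`. -/
theorem lv_law_root (hd : 2 ≤ d) [Corr θ] (hθ1 : θ < 1) (hμ : Nish μ) :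
    (cnP d θ μ).map (hatL θ (root : Word d)) = cvl μ (powC (msg θ (cavL d (by omega) θ μ)) d) := by
  have := hμ.prob
  let Z : Word d → Cn d → ℝ := fun c ω => sp (ω c).1 * Uf θ (hatL θ c ω)
  have hZm : ∀ c, Measurable (Z c) := fun c =>
    (cn_measurable_sp.comp (measurable_fst.comp (measurable_pi_apply c))).mul
      (measurable_Uf.comp (measurable_hatL θ c))
  have hZd : ∀ c, DependsOn (Z c) (Sub c) := by
    intro c x y h
    show sp (x c).1 * Uf θ (hatL θ c x) = sp (y c).1 * Uf θ (hatL θ c y)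
    rw [h c (cnSub_self c), dependsOn_hatL θ c h]
  have hsum := lv_law_sum (θ := θ) (μ := μ) (ν := msg θ (cavL d (by omega) θ μ))
    (K := kids (root : Word d)) (fun a ha b hb hab => lv_kids_root_disjoint ha hb hab)
    (fun c _ => hZm c) (fun c _ => hZd c)
    (fun c hc => law_msg hd hθ1 hμ (mem_kids.1 hc).1)
  rw [card_kids_root] at hsum
  have h1 : (cnP d θ μ).map (hatL θ (root : Word d)) =
      (cnP d θ μ).map (fun ω => (ω root).2 + ∑ c ∈ kids (root : Word d), Z c ω) := by
    refine Measure.map_congr ?_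
    filter_upwards [hatL_rec (d := d) hθ1 hμ] with ω h
    exact h root
  have hdisj : Disjoint ({root} : Set (Word d)) (⋃ c ∈ kids (root : Word d), Sub c) := by
    rw [Set.disjoint_singleton_left]
    simp only [Set.mem_iUnion, not_exists]
    intro c hc
    exact lv_sub_root (mem_kids.1 hc).1
  have hdP : DependsOn (fun ω => ∑ c ∈ kids (root : Word d), Z c ω) (⋃ c ∈ kids (root : Word d), Sub c) := by
    intro x y hxy
    refine Finset.sum_congr rfl fun c hc => hZd c fun i hi => hxy i ?_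
    exact Set.mem_biUnion hc hi
  have hd0 : DependsOn (fun ω : Cn d => (ω root).2) ({root} : Set (Word d)) := by
    intro x y h
    show (x root).2 = (y root).2
    rw [h root rfl]
  have h2 := lv_map_add (θ := θ) (μ := μ) (X := fun ω : Cn d => (ω root).2)
    (Y := fun ω => ∑ c ∈ kids (root : Word d), Z c ω) hdisj
    (measurable_snd.comp (measurable_pi_apply root)) (Finset.measurable_sum _ fun c _ => hZm c) hd0 hdP
  rw [h1, h2, hsum, lv_map_snd_root]

lemma lv_abs_tanh_le (x : ℝ) : |Real.tanh x| ≤ |x| := by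
  have h : ∀ a : ℝ, 0 ≤ a → |Real.tanh a| ≤ a := by
    intro a ha
    have h1 : 0 ≤ Real.tanh a := by
      rw [Real.tanh_eq_sinh_div_cosh]
      exact div_nonneg (Real.sinh_nonneg_iff.2 ha) (Real.cosh_pos a).le
    rw [abs_of_nonneg h1]
    have := ker_tanh_lip 0 a ha
    simpa using this
  rcases le_total 0 x with hx | hx
  · rw [abs_of_nonneg hx]
    exact h x hx
  · rw [abs_of_nonpos hx]
    have := h (-x) (by linarith)
    rwa [Real.tanh_neg, abs_neg] at this

lemma lv_abs_Uf_le (h0 : 0 ≤ θ) (hθ1 : θ < 1) (a : ℝ) : |Uf θ a| ≤ Real.artanh θ := by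
  have h1 := Uf_abs_le_tanh h0 hθ1 a
  have h2 : 0 ≤ Real.artanh θ := by
    rcases h0.eq_or_lt with h | h
    · rw [← h, Real.artanh_zero]
    · exact (Real.artanh_pos ⟨h, hθ1⟩).le
  have h3 : |Real.tanh a| ≤ 1 := (Real.abs_tanh_lt_one a).le
  nlinarith

/-- The Gibbs magnetisation at `x` is a conditional expectation: limit form used with `L²` bounds. -/
theorem integral_mm_sq_le_moment [Corr θ] (hθ1 : θ < 1) (hμ : Nish μ) (p : ℕ) (hd : 2 ≤ d) :
    ∫ y, mm θ root y ^ (2 * p) ∂(LawY d θ μ) ≤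
      ∫ h, h ^ (2 * p) ∂(cvl μ (powC (msg θ (cavL d (by omega) θ μ)) d)) := by
  have := hμ.prob
  have h0 : 0 ≤ θ := Corr.nonneg
  obtain ⟨M, hM⟩ := hμ.bdd
  rw [← lv_law_root hd hθ1 hμ,
    integral_map (measurable_hatL θ root).aemeasurable (by fun_prop)]
  unfold LawY
  rw [integral_map lv_measurable_yC.aemeasurable ((measurable_mm θ root).pow_const _).aestronglyMeasurable]
  have hbd : ∀ᵐ ω ∂(cnP d θ μ), |hatL θ (root : Word d) ω| ≤ M + d * Real.artanh θ := by
    filter_upwards [hatL_rec (d := d) hθ1 hμ, lv_ae_bound hμ hM] with ω h1 h2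
    rw [h1 root]
    refine (abs_add_le _ _).trans (add_le_add (h2 root) ?_)
    refine (Finset.abs_sum_le_sum_abs _ _).trans ?_
    have h3 : ∀ c ∈ kids (root : Word d), |sp (ω c).1 * Uf θ (hatL θ c ω)| ≤ Real.artanh θ := by
      intro c _
      rw [abs_mul, lv_abs_sp, one_mul]
      exact lv_abs_Uf_le h0 hθ1 _
    refine (Finset.sum_le_card_nsmul _ _ _ h3).trans ?_
    rw [card_kids_root, nsmul_eq_mul]
  have hint : Integrable (fun ω => hatL θ (root : Word d) ω ^ (2 * p)) (cnP d θ μ) := by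
    refine Integrable.of_bound ((measurable_hatL θ root).pow_const _).aestronglyMeasurable
      ((M + d * Real.artanh θ) ^ (2 * p)) ?_
    filter_upwards [hbd] with ω h
    rw [Real.norm_eq_abs, abs_pow]
    exact pow_le_pow_left₀ (abs_nonneg _) h _
  refine integral_mono_of_nonneg (ae_of_all _ fun ω => ?_) hint ?_
  · show 0 ≤ mm θ root (yC ω) ^ (2 * p)
    rw [pow_mul]
    positivity
  have hLaw := ae_tendsto_mD (d := d) hθ1 hμ
  unfold LawY at hLaw
  filter_upwards [ae_of_ae_map lv_measurable_yC.aemeasurable hLaw, lv_tendsto_hh (d := d) hθ1 hμ,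
    hatL_eq (d := d) hθ1 hμ] with ω h1 h2 h3
  have h4 : Tendsto (fun R => Real.tanh (hh θ R root (yC ω))) atTop (𝓝 (mm θ root (yC ω))) := by
    refine (h1 root).1.congr fun R => ?_
    unfold mD
    rw [hf_ball_root hθ1]
  have h5 : Tendsto (fun R => Real.tanh (hh θ R root (yC ω))) atTop
      (𝓝 (Real.tanh (hhL θ root (yC ω)))) :=
    (lv_continuous_tanh.tendsto _).comp (h2 root)
  have h6 : mm θ root (yC ω) = Real.tanh (hhL θ root (yC ω)) := tendsto_nhds_unique h4 h5
  show mm θ root (yC ω) ^ (2 * p) ≤ hatL θ root ω ^ (2 * p)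
  rw [h6, h3 root, pow_mul, pow_mul]
  refine pow_le_pow_left₀ (sq_nonneg _) ?_ p
  rw [mul_pow]
  have h7 : sp (sgC ω root) ^ 2 = 1 := by
    rw [sq]
    exact sp_mul_self _
  rw [h7, one_mul]
  exact sq_le_sq.2 (lv_abs_tanh_le _)

end Vale.Agent.Lib.P161B
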