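import Vale.Agent.Lib.P161B.Canon

/-!
Algebraic helpers for the Gibbs measures on finite subtrees: stabilisers of the root, the identity
between the leaf message and `Uf`, leaf removal on balls, and the deterministic bound on the field.
-/

namespace Vale.Agent.Lib.P161B

open MeasureTheory ProbabilityTheory Filter
open Vale.Agent.Lib.P161
open scoped Topology

variable {d : ℕ} {θ : ℝ}

/-! ### Stabilisers of the root -/

lemma gibbsAlg_len_aut_le (γ : Aut d) (u : Word d) : len (γ u) ≤ len (γ root) + len u := by
  obtain ⟨l, hl⟩ := u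
  induction l with
  | nil => exact Nat.le_add_right _ _
  | cons a l ih =>
    have hadj : (treeGraph d).Adj (γ ⟨l, hl.tail⟩) (γ ⟨a :: l, hl⟩) :=
      γ.map_adj_iff.mpr (Or.inr ⟨by simp, rfl⟩)
    have h1 := ih hl.tail
    have h3 : len (⟨a :: l, hl⟩ : Word d) = len (⟨l, hl.tail⟩ : Word d) + 1 := by
      simp [len]
    rcases adj_len hadj with ⟨h2, _⟩ | ⟨h2, _⟩ <;> omega

lemma gibbsAlg_stab_symm {k : Aut d} (hk : k root = root) : k.symm root = root := by
  have := k.symm_apply_apply root
  rwa [hk] at this

lemma gibbsAlg_len_stab {k : Aut d} (hk : k root = root) (u : Word d) : len (k u) = len u := by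
  apply le_antisymm
  · have := gibbsAlg_len_aut_le k u
    rw [hk] at this
    simpa using this
  · have := gibbsAlg_len_aut_le k.symm (k u)
    rw [gibbsAlg_stab_symm hk, k.symm_apply_apply] at this
    simpa using this

lemma gibbsAlg_stab_parent {k : Aut d} (hk : k root = root) {u : Word d} (hu : u ≠ root) :
    k (parent u) = parent (k u) := by
  have hadj : (treeGraph d).Adj (k u) (k (parent u)) := k.map_adj_iff.mpr (adj_parent hu)
  have h1 := gibbsAlg_len_stab hk u
  have h2 := gibbsAlg_len_stab hk (parent u)
  have h3 := len_parent hu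
  rcases adj_len hadj with ⟨_, h5⟩ | ⟨h4, _⟩
  · exact h5
  · omega

lemma gibbsAlg_Bl_map (g : Aut d) (x : Word d) (R : ℕ) :
    Bl (g x) R = (Bl x R).map g.toEquiv.toEmbedding := by
  ext z
  simp only [Bl, Finset.mem_map, mem_ball]
  let k : Aut d := (gm (g x)).trans (g.symm.trans (gm x).symm)
  have hk : k root = root := by
    show (gm x).symm (g.symm (gm (g x) root)) = root
    rw [gm_root, g.symm_apply_apply]
    have := (gm x).symm_apply_apply root
    rwa [gm_root] at this
  constructor
  · rintro ⟨u, hu, rfl⟩
    refine ⟨gm x (k u), ⟨k u, ?_, rfl⟩, ?_⟩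
    · rw [gibbsAlg_len_stab hk]; exact hu
    · show g (gm x ((gm x).symm (g.symm (gm (g x) u)))) = _
      simp
  · rintro ⟨_, ⟨u, hu, rfl⟩, rfl⟩
    refine ⟨k.symm u, ?_, ?_⟩
    · rw [gibbsAlg_len_stab (gibbsAlg_stab_symm hk)]; exact hu
    · have h2 : k (k.symm u) = u := k.apply_symm_apply u
      have h3 : (gm x).symm (g.symm (gm (g x) (k.symm u))) = u := h2
      calc gm (g x) (k.symm u)
          = g (gm x ((gm x).symm (g.symm (gm (g x) (k.symm u))))) := by simp
        _ = g (gm x u) := by rw [h3]

lemma gibbsAlg_mem_Bl (x : Word d) (R : ℕ) : x ∈ Bl x R := by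
  simp only [Bl, Finset.mem_map, mem_ball]
  exact ⟨root, by simp, gm_root x⟩

lemma gibbsAlg_connClosed_Bl (x : Word d) (R : ℕ) : ConnClosed (Bl x R) :=
  connClosed_image (ball_connClosed R) (gm x)

/-! ### Leaf messages -/

lemma gibbsAlg_gg_eq_Uf (h0 : 0 ≤ θ) (h1 : θ < 1) (u : ℝ) : slf_gg θ u = Uf θ u := by
  apply Real.tanh_injective
  rw [tanh_Uf h0 h1]
  have hA := slf_A_pos θ h0 h1.le u
  have hB := slf_B_pos θ h0 h1.le u
  have hc := Real.cosh_pos u
  set x := slf_gg θ u with hx
  have hCA : Real.exp ((Real.log (slf_A θ u) + Real.log (slf_B θ u)) / 2) * Real.exp x = slf_A θ u := by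
    rw [hx]
    unfold slf_gg
    rw [← Real.exp_add]
    have : (Real.log (slf_A θ u) + Real.log (slf_B θ u)) / 2 +
        (Real.log (slf_A θ u) - Real.log (slf_B θ u)) / 2 = Real.log (slf_A θ u) := by ring
    rw [this, Real.exp_log hA]
  have hCB : Real.exp ((Real.log (slf_A θ u) + Real.log (slf_B θ u)) / 2) * Real.exp (-x) = slf_B θ u := by
    rw [hx]
    unfold slf_gg
    rw [← Real.exp_add]
    have : (Real.log (slf_A θ u) + Real.log (slf_B θ u)) / 2 +
        -((Real.log (slf_A θ u) - Real.log (slf_B θ u)) / 2) = Real.log (slf_B θ u) := by ring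
    rw [this, Real.exp_log hB]
  set C := Real.exp ((Real.log (slf_A θ u) + Real.log (slf_B θ u)) / 2) with hC
  have hCpos : 0 < C := Real.exp_pos _
  have hsum : Real.exp x + Real.exp (-x) > 0 := by positivity
  have h3 : Real.tanh x = (slf_A θ u - slf_B θ u) / (slf_A θ u + slf_B θ u) := by
    rw [Real.tanh_eq_sinh_div_cosh, Real.sinh_eq, Real.cosh_eq, ← hCA, ← hCB]
    field_simp
  rw [h3, Real.tanh_eq_sinh_div_cosh]
  unfold slf_A slf_B
  have : Real.cosh u + θ * Real.sinh u + (Real.cosh u - θ * Real.sinh u) = 2 * Real.cosh u := by ring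
  rw [this]
  field_simp
  ring

lemma gibbsAlg_abs_Uf_le (h0 : 0 ≤ θ) (h1 : θ < 1) (u : ℝ) : |Uf θ u| ≤ Real.artanh θ := by
  have h2 := Uf_abs_le_tanh h0 h1 u
  have h3 : 0 ≤ Real.artanh θ := Real.artanh_nonneg h0
  have h4 := (Real.abs_tanh_lt_one u).le
  calc |Uf θ u| ≤ Real.artanh θ * |Real.tanh u| := h2
    _ ≤ Real.artanh θ * 1 := mul_le_mul_of_nonneg_left h4 h3
    _ = Real.artanh θ := mul_one _

/-! ### The deterministic bound -/

section Bound

variable (θ) [Corr θ]

open Classical in
lemma gibbsAlg_hf_root_bound (hθ1 : θ < 1) : ∀ (n : ℕ) (D : Finset (Word d)), D.card = n →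
    Rooted D root → ∀ y : Word d → ℝ,
      |hf θ D y root - y root| ≤
        ((D.filter (fun c => c ≠ root ∧ parent c = root)).card : ℝ) * Real.artanh θ := by
  have h0 : 0 ≤ θ := Corr.nonneg
  have hart : 0 ≤ Real.artanh θ := Real.artanh_nonneg h0
  intro n
  induction n with
  | zero =>
    intro D hD hR
    exact absurd hR.mem (by simp [Finset.card_eq_zero.mp hD])
  | succ n ih =>
    intro D hD hR y
    obtain ⟨l, hl, hmax⟩ := Finset.exists_max_image D len ⟨root, hR.mem⟩
    by_cases hlr : l = root
    · have hDs : D = {root} := by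
        ext v
        simp only [Finset.mem_singleton]
        constructor
        · intro hv
          have := hmax v hv
          rw [hlr, len_root] at this
          exact len_eq_zero (by omega)
        · rintro rfl
          exact hR.mem
      subst hDs
      rw [slf_hf_single θ root y, sub_self, abs_zero]
      positivity
    · set D' := D.erase l with hD'
      have hl' : l ∉ D' := Finset.notMem_erase l D
      have hpl : parent l ≠ l := by
        intro h
        have := len_parent hlr
        rw [h] at this
        omega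
      have hp : parent l ∈ D' := Finset.mem_erase.mpr ⟨hpl, hR.closed l hl hlr⟩
      have hR' : Rooted D' root := by
        refine ⟨Finset.mem_erase.mpr ⟨fun h => hlr h.symm, hR.mem⟩, fun v _ => by simp, ?_⟩
        intro v hv hvr
        have hvD := (Finset.mem_erase.mp hv).2
        refine Finset.mem_erase.mpr ⟨?_, hR.closed v hvD hvr⟩
        intro h
        have h2 := len_parent hvr
        have h3 := hmax v hvD
        rw [h] at h2
        omega
      have hins : insert l D' = D := Finset.insert_erase hl
      have hcard : D'.card = n := by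
        rw [hD', Finset.card_erase_of_mem hl, hD]
        rfl
      have hstep : hf θ D y root = hf θ D' (Function.update y (parent l)
          (y (parent l) + slf_gg θ (y l))) root := by
        conv_lhs => rw [← hins]
        exact slf_hf_leaf θ hθ1 hR' hl' hp y hR'.mem
      have hih := ih D' hcard hR' (Function.update y (parent l) (y (parent l) + slf_gg θ (y l)))
      rw [hstep]
      by_cases hpr : parent l = root
      · have hy' : Function.update y (parent l) (y (parent l) + slf_gg θ (y l)) root =
            y root + slf_gg θ (y l) := by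
          rw [hpr, Function.update_self]
        rw [hy'] at hih
        have hfilt : D.filter (fun c => c ≠ root ∧ parent c = root) =
            insert l (D'.filter (fun c => c ≠ root ∧ parent c = root)) := by
          conv_lhs => rw [← hins]
          rw [Finset.filter_insert, if_pos ⟨hlr, hpr⟩]
        have hnot : l ∉ D'.filter (fun c => c ≠ root ∧ parent c = root) :=
          fun h => hl' (Finset.mem_filter.mp h).1
        rw [hfilt, Finset.card_insert_of_notMem hnot]
        push_cast
        have hg : |slf_gg θ (y l)| ≤ Real.artanh θ := by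
          rw [gibbsAlg_gg_eq_Uf h0 hθ1]
          exact gibbsAlg_abs_Uf_le h0 hθ1 _
        rw [add_mul, one_mul]
        set a := hf θ D' (Function.update y (parent l) (y (parent l) + slf_gg θ (y l))) root
        calc |a - y root| = |(a - (y root + slf_gg θ (y l))) + slf_gg θ (y l)| := by
              congr 1; ring
          _ ≤ |a - (y root + slf_gg θ (y l))| + |slf_gg θ (y l)| := abs_add_le _ _
          _ ≤ _ := add_le_add hih hg
      · have hy' : Function.update y (parent l) (y (parent l) + slf_gg θ (y l)) root = y root :=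
          Function.update_of_ne (Ne.symm hpr) _ _
        rw [hy'] at hih
        have hfilt : D.filter (fun c => c ≠ root ∧ parent c = root) =
            D'.filter (fun c => c ≠ root ∧ parent c = root) := by
          conv_lhs => rw [← hins]
          rw [Finset.filter_insert, if_neg (fun h => hpr h.2)]
        rw [hfilt]
        exact hih

end Bound

lemma gibbsAlg_abs_limsup_le {u : ℕ → ℝ} {B : ℝ} (h : ∀ n, |u n| ≤ B) :
    |limsup u atTop| ≤ B := by
  have h1 : ∀ n, u n ≤ B := fun n => (le_abs_self _).trans (h n)
  have h2 : ∀ n, -B ≤ u n := fun n => by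
    have := neg_abs_le (u n)
    have := h n
    linarith
  have hbdd : IsBoundedUnder (· ≤ ·) atTop u := isBoundedUnder_of ⟨B, h1⟩
  have hcobdd : IsCoboundedUnder (· ≤ ·) atTop u :=
    IsBoundedUnder.isCoboundedUnder_le (isBoundedUnder_of ⟨-B, h2⟩)
  rw [abs_le]
  constructor
  · exact le_limsup_of_frequently_le (Frequently.of_forall h2) hbdd
  · exact limsup_le_of_le hcobdd (Eventually.of_forall h1)

/-! ### Removing the outer sphere of a ball -/

section BallLeaf

lemma gibbsAlg_ball_zero : (ball 0 : Finset (Word d)) = {root} := by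
  ext v
  simp only [mem_ball, Finset.mem_singleton, Nat.le_zero_eq]
  constructor
  · exact len_eq_zero
  · rintro rfl
    exact len_root

lemma gibbsAlg_mem_kids {v c : Word d} : c ∈ kids v ↔ c ≠ root ∧ parent c = v := by
  classical
  unfold kids
  rw [Finset.mem_filter, mem_ball]
  constructor
  · exact fun h => h.2
  · intro h
    refine ⟨?_, h⟩
    have := len_parent h.1
    rw [h.2] at this
    omega

lemma gibbsAlg_len_kid {v c : Word d} (hc : c ∈ kids v) : len c = len v + 1 := by
  obtain ⟨h1, h2⟩ := gibbsAlg_mem_kids.mp hc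
  have := len_parent h1
  rw [h2] at this
  omega

variable (θ) [Corr θ]

open Classical in
lemma gibbsAlg_hf_leaves (hθ1 : θ < 1) (R : ℕ) (S : Finset (Word d)) (hS : ∀ c ∈ S, len c = R + 1) :
    ∀ y : Word d → ℝ, hf θ (ball R ∪ S) y root =
      hf θ (ball R) (fun v => y v + ∑ c ∈ S, if parent c = v then Uf θ (y c) else 0) root := by
  have h0 : 0 ≤ θ := Corr.nonneg
  induction S using Finset.induction_on with
  | empty =>
    intro y
    simp
  | insert l S hlS ih =>
    intro y
    have hl := hS l (Finset.mem_insert_self _ _)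
    have hS' : ∀ c ∈ S, len c = R + 1 := fun c hc => hS c (Finset.mem_insert_of_mem hc)
    have hlr : l ≠ root := by
      rintro rfl
      simp at hl
    have hpl : len (parent l) = R := by
      have := len_parent hlr
      omega
    set D := ball R ∪ S with hD
    have hRoot : Rooted D root := by
      refine ⟨Finset.mem_union_left _ (by simp), fun v _ => by simp, ?_⟩
      intro v hv hvr
      have h2 := len_parent hvr
      apply Finset.mem_union_left
      rw [mem_ball]
      rcases Finset.mem_union.mp hv with hv | hv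
      · have := mem_ball.mp hv
        omega
      · have := hS' v hv
        omega
    have hlD : l ∉ D := by
      intro h
      rcases Finset.mem_union.mp h with h | h
      · have := mem_ball.mp h
        omega
      · exact hlS h
    have hpD : parent l ∈ D := Finset.mem_union_left _ (mem_ball.mpr hpl.le)
    have hins : ball R ∪ insert l S = insert l D := by
      rw [hD, Finset.union_insert]
    rw [hins, slf_hf_leaf θ hθ1 hRoot hlD hpD y hRoot.mem, ih hS']
    apply hf_congr
    intro v _
    have hc : ∀ c ∈ S, (if parent c = v then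
        Uf θ (Function.update y (parent l) (y (parent l) + slf_gg θ (y l)) c) else 0) =
        if parent c = v then Uf θ (y c) else 0 := by
      intro c hc
      have hne : c ≠ parent l := by
        intro h
        have := hS' c hc
        rw [h] at this
        omega
      rw [Function.update_of_ne hne]
    rw [Finset.sum_congr rfl hc, Finset.sum_insert hlS, gibbsAlg_gg_eq_Uf h0 hθ1]
    by_cases hv : parent l = v
    · subst hv
      rw [Function.update_self, if_pos rfl]
      ring
    · rw [Function.update_of_ne (Ne.symm hv), if_neg hv, zero_add]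

open Classical in
/-- The outer sphere of a ball. -/
noncomputable def gibbsAlg_sph (R : ℕ) : Finset (Word d) :=
  (ball (R + 1)).filter (fun c => len c = R + 1)

lemma gibbsAlg_mem_sph {R : ℕ} {c : Word d} : c ∈ (gibbsAlg_sph R : Finset (Word d)) ↔ len c = R + 1 := by
  classical
  unfold gibbsAlg_sph
  rw [Finset.mem_filter, mem_ball]
  constructor
  · exact fun h => h.2
  · exact fun h => ⟨h.le, h⟩

lemma gibbsAlg_ball_succ (R : ℕ) :
    (ball (R + 1) : Finset (Word d)) = ball R ∪ gibbsAlg_sph R := by
  classical
  ext c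
  rw [Finset.mem_union, mem_ball, mem_ball, gibbsAlg_mem_sph]
  omega

open Classical in
/-- The field after removing the sphere at distance `R + 1`. -/
noncomputable def gibbsAlg_y1 (θ : ℝ) (R : ℕ) (y : Word d → ℝ) : Word d → ℝ :=
  fun v => y v + ∑ c ∈ gibbsAlg_sph R, if parent c = v then Uf θ (y c) else 0

omit [Corr θ] in
open Classical in
lemma gibbsAlg_y1_top {R : ℕ} (y : Word d → ℝ) {v : Word d} (hv : len v = R) :
    gibbsAlg_y1 θ R y v = y v + ∑ c ∈ kids v, Uf θ (y c) := by
  unfold gibbsAlg_y1
  rw [← Finset.sum_filter]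
  congr 2
  ext c
  rw [Finset.mem_filter, gibbsAlg_mem_sph, gibbsAlg_mem_kids]
  constructor
  · rintro ⟨h1, h2⟩
    refine ⟨?_, h2⟩
    rintro rfl
    simp at h1
  · rintro ⟨h1, h2⟩
    refine ⟨?_, h2⟩
    have := len_parent h1
    rw [h2] at this
    omega

omit [Corr θ] in
open Classical in
lemma gibbsAlg_y1_low {R : ℕ} (y : Word d → ℝ) {v : Word d} (hv : len v < R) :
    gibbsAlg_y1 θ R y v = y v := by
  unfold gibbsAlg_y1
  rw [Finset.sum_eq_zero, add_zero]
  intro c hc
  rw [if_neg]
  intro h
  have h1 := gibbsAlg_mem_sph.mp hc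
  have hne : c ≠ root := by
    rintro rfl
    simp at h1
  have := len_parent hne
  rw [h] at this
  omega

omit [Corr θ] in
lemma gibbsAlg_hh_shift (R : ℕ) (y : Word d → ℝ) : ∀ (n : ℕ) (v : Word d), len v + n = R →
    hh θ n v (gibbsAlg_y1 θ R y) = hh θ (n + 1) v y := by
  intro n
  induction n with
  | zero =>
    intro v hv
    show gibbsAlg_y1 θ R y v = y v + ∑ c ∈ kids v, Uf θ (y c)
    exact gibbsAlg_y1_top θ y (by omega)
  | succ n ih =>
    intro v hv
    show gibbsAlg_y1 θ R y v + ∑ c ∈ kids v, Uf θ (hh θ n c (gibbsAlg_y1 θ R y)) =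
      y v + ∑ c ∈ kids v, Uf θ (hh θ (n + 1) c y)
    rw [gibbsAlg_y1_low θ y (by omega)]
    congr 1
    refine Finset.sum_congr rfl fun c hc => ?_
    rw [ih c (by rw [gibbsAlg_len_kid hc]; omega)]

lemma gibbsAlg_hf_ball_root (hθ1 : θ < 1) (R : ℕ) : ∀ y : Word d → ℝ,
    hf θ (ball R) y root = hh θ R root y := by
  induction R with
  | zero =>
    intro y
    rw [gibbsAlg_ball_zero, slf_hf_single]
    rfl
  | succ R ih =>
    intro y
    classical
    rw [gibbsAlg_ball_succ, gibbsAlg_hf_leaves θ hθ1 R _ (fun c hc => gibbsAlg_mem_sph.mp hc)]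
    have h := ih (gibbsAlg_y1 θ R y)
    rw [← gibbsAlg_hh_shift θ R y R root (by simp), ← h]
    apply hf_congr
    intro v _
    rfl

end BallLeaf

end Vale.Agent.Lib.P161B
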