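import Vale.Agent.Lib.P161B.Dyn
import Vale.Agent.Lib.P161B.BridgeMu

/-!
The law `muS s` of the local field at time `s`: Nishimori symmetry, bound, scale and anti concentration.
These are needed before the window inequality, hence this separate file.
-/

namespace Vale.Agent.Lib.P161B

open MeasureTheory ProbabilityTheory Filter Set
open Vale.Agent.Lib.P161
open scoped Topology

variable {d : ℕ} {θ : ℝ} [Corr θ]

/-- Law of the field at time `s`: Nishimori symmetry. -/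
theorem mu_nish (h0 : 0 < θ) (h1 : θ < 1) (hd : 0 < d) (s : ℝ) : Nish (muS d θ hd s) :=
  BrMu_mu_nish hd s

theorem mu_bd (hd : 0 < d) (s : ℝ) : ∀ᵐ h ∂(muS d θ hd s), |h| ≤ Mb s :=
  BrMu_mu_bd hd s

/-- Lower bound on the own field scale. -/
theorem mu_At_low (h0 : 0 < θ) (h1 : θ < 1) (hd : 0 < d) :
    ∃ c : ℝ, 0 < c ∧ (∀ s : ℝ, s ≤ 0 → c * (4 : ℝ) ^ s ≤ At (muS d θ hd s)) ∧
      ∀ s : ℝ, 0 ≤ s → c ≤ At (muS d θ hd s) :=
  BrMu_mu_At_low hd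

theorem mu_At_up (h0 : 0 < θ) (h1 : θ < 1) (hd : 0 < d) (s : ℝ) : At (muS d θ hd s) ≤ Mb s ^ 2 :=
  BrMu_mu_At_up hd s

/-- Own noise: anti concentration of the local field from the previous block. -/
theorem mu_own_ac (hd : 3 ≤ d) (C : Crit (d - 1) θ) (j : ℤ) :
    ∃ ε : ℝ, 0 < ε ∧ ε ≤ 1 ∧ ∀ s : ℝ, (j : ℝ) ≤ s → ∀ b : ℝ, ∫ h, psiF θ (h + b) ∂(muS d θ (by omega) s) ≤ 1 - ε :=
  BrMu_mu_own_ac (by omega) C.h0 C.h1 j

end Vale.Agent.Lib.P161B
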