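import Vale.Agent.Lib.P161B.BranchCore

/-!
Consequences on the tree of the anti concentration of one message: products of `ψ` along a path decay
exponentially (peeling), and the branching sums have exponential moments (tensorisation).
-/

namespace Vale.Agent.Lib.P161B

open MeasureTheory ProbabilityTheory Filter
open Vale.Agent.Lib.P161

variable {d : ℕ} {θ : ℝ} {μ : Measure ℝ}

/-- Regularity of the field law `μ`: Nishimori, bounded by `M`, positive scale, fourth moment bound. -/
structure Reg (d : ℕ) (hd : 0 < d) (θ : ℝ) (μ : Measure ℝ) (M C4 : ℝ) : Prop where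
  nish : Nish μ
  bd : ∀ᵐ h ∂μ, |h| ≤ M
  pos : 0 < Xv d hd θ μ
  c4 : ∫ h, Real.tanh h ^ 4 ∂(cavL d hd θ μ) ≤ C4 * Xv d hd θ μ ^ 2

/-- The product of `ψ` over the path from the root to `x`, excluding the root. -/
noncomputable def psiPath (θ : ℝ) (x : Word d) (y : Word d → ℝ) : ℝ :=
  ∏ i ∈ Finset.range (len x), psiF θ (hhL θ (ch x (i + 1)) y)

/-- One peeling step for a nonnegative function of a sum of two independent parts. -/
lemma PathPeel_step [Corr θ] [IsProbabilityMeasure μ] {S : Set (Word d)} {X r F : Cn d → ℝ}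
    (hX : Measurable X) (hr : Measurable r) (hF : Measurable F)
    (hXS : DependsOn X S) (hrS : DependsOn r Sᶜ) (hFS : DependsOn F Sᶜ)
    (hF0 : ∀ ω, 0 ≤ F ω) (hF1 : ∀ ω, F ω ≤ 1)
    {g : ℝ → ℝ} (hg : Measurable g) (hg0 : ∀ x, 0 ≤ g x) (hg1 : ∀ x, g x ≤ 1) {c : ℝ}
    (hc : ∀ b, ∫ h, g (h + b) ∂((cnP d θ μ).map X) ≤ c) :
    ∫ ω, g (X ω + r ω) * F ω ∂(cnP d θ μ) ≤ c * ∫ ω, F ω ∂(cnP d θ μ) := by
  have hW : Measurable (fun ω => (r ω, F ω)) := hr.prodMk hF
  have hWS : DependsOn (fun ω => (r ω, F ω)) Sᶜ := by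
    intro a b hab
    simp only [hrS hab, hFS hab]
  have hR : ∀ ω, max 0 (min 1 (F ω)) = F ω := by
    intro ω
    rw [min_eq_right (hF1 ω), max_eq_right (hF0 ω)]
  have key := cn_peel (θ := θ) (μ := μ) hX hW hXS hWS
    (f := fun p : ℝ × (ℝ × ℝ) => g (p.1 + p.2.1))
    (hg.comp (measurable_fst.add (measurable_fst.comp measurable_snd)))
    (fun p => hg0 _) (B := 1) (fun p => hg1 _)
    (R := fun w : ℝ × ℝ => max 0 (min 1 w.2))
    ((measurable_const.max (measurable_const.min measurable_snd)))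
    (fun w => le_max_left _ _) (B' := 1)
    (fun w => max_le zero_le_one (min_le_left _ _))
    (c := c) (fun w => hc w.1)
  simpa only [hR] using key

/-- The chain of peeling steps. -/
lemma PathPeel_chain [Corr θ] [IsProbabilityMeasure μ] {c : ℝ} (hc0 : 0 ≤ c) {g : ℝ → ℝ}
    (hg : Measurable g) (hg0 : ∀ x, 0 ≤ g x) (hg1 : ∀ x, g x ≤ 1) :
    ∀ (n : ℕ) (G : ℕ → Cn d → ℝ), (∀ i, Measurable (G i)) → (∀ i ω, 0 ≤ G i ω) → (∀ i ω, G i ω ≤ 1) →
      (∀ i < n, ∃ (S : Set (Word d)) (X r : Cn d → ℝ), Measurable X ∧ Measurable r ∧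
        DependsOn X S ∧ DependsOn r Sᶜ ∧ (∀ j, i < j → j < n → DependsOn (G j) Sᶜ) ∧
        (G i =ᵐ[cnP d θ μ] fun ω => g (X ω + r ω)) ∧
        ∀ b, ∫ h, g (h + b) ∂((cnP d θ μ).map X) ≤ c) →
      ∫ ω, ∏ i ∈ Finset.range n, G i ω ∂(cnP d θ μ) ≤ c ^ n := by
  intro n
  induction n with
  | zero =>
    intro G _ _ _ _
    simp
  | succ n ih =>
    intro G hGm hG0 hG1 hstep
    obtain ⟨S, X, r, hX, hr, hXS, hrS, hGS, hae, hc⟩ := hstep 0 (Nat.succ_pos n)
    have hFm : Measurable (fun ω => ∏ i ∈ Finset.range n, G (i + 1) ω) :=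
      Finset.measurable_prod _ (fun i _ => hGm (i + 1))
    have hFS : DependsOn (fun ω => ∏ i ∈ Finset.range n, G (i + 1) ω) Sᶜ := by
      intro a b hab
      refine Finset.prod_congr rfl (fun i hi => ?_)
      exact hGS (i + 1) (Nat.succ_pos i) (by simpa using Finset.mem_range.mp hi) hab
    have hF0 : ∀ ω, 0 ≤ ∏ i ∈ Finset.range n, G (i + 1) ω :=
      fun ω => Finset.prod_nonneg (fun i _ => hG0 (i + 1) ω)
    have hF1 : ∀ ω, ∏ i ∈ Finset.range n, G (i + 1) ω ≤ 1 :=
      fun ω => Finset.prod_le_one (fun i _ => hG0 (i + 1) ω) (fun i _ => hG1 (i + 1) ω)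
    have hs := PathPeel_step (θ := θ) (μ := μ) hX hr hFm hXS hrS hFS hF0 hF1 hg hg0 hg1 hc
    have hih := ih (fun i => G (i + 1)) (fun i => hGm (i + 1)) (fun i => hG0 (i + 1)) (fun i => hG1 (i + 1))
      (by
        intro i hi
        obtain ⟨S', X', r', hX', hr', hXS', hrS', hGS', hae', hc'⟩ := hstep (i + 1) (by omega)
        refine ⟨S', X', r', hX', hr', hXS', hrS', ?_, hae', hc'⟩
        intro j hij hjn
        exact hGS' (j + 1) (by omega) (by omega))
    have heq : ∫ ω, ∏ i ∈ Finset.range (n + 1), G i ω ∂(cnP d θ μ) =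
        ∫ ω, g (X ω + r ω) * ∏ i ∈ Finset.range n, G (i + 1) ω ∂(cnP d θ μ) := by
      refine integral_congr_ae ?_
      filter_upwards [hae] with ω hω
      rw [Finset.prod_range_succ', hω, mul_comm]
    rw [heq]
    calc _ ≤ c * ∫ ω, ∏ i ∈ Finset.range n, G (i + 1) ω ∂(cnP d θ μ) := hs
      _ ≤ c * c ^ n := mul_le_mul_of_nonneg_left hih hc0
      _ = c ^ (n + 1) := by ring

/-- Children in terms of parents. -/
lemma PathPeel_mem_kids {v c : Word d} : c ∈ kids v ↔ c ≠ root ∧ parent c = v := by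
  classical
  unfold kids
  rw [Finset.mem_filter]
  constructor
  · rintro ⟨_, h⟩
    exact h
  · rintro ⟨h1, h2⟩
    refine ⟨?_, h1, h2⟩
    have := len_parent h1
    rw [h2] at this
    exact (mem_ball).mpr (by omega)
  
lemma PathPeel_len_kid {v c : Word d} (h : c ∈ kids v) : len c = len v + 1 := by
  obtain ⟨h1, h2⟩ := PathPeel_mem_kids.mp h
  have := len_parent h1
  rw [h2] at this
  omega

lemma PathPeel_mem_self (v : Word d) : v ∈ Sub v := List.suffix_refl _

lemma PathPeel_suffix_kid {v c : Word d} (h : c ∈ kids v) : v.1 <:+ c.1 := by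
  obtain ⟨h1, h2⟩ := PathPeel_mem_kids.mp h
  rw [← h2]
  show c.1.tail <:+ c.1
  exact List.tail_suffix _

lemma PathPeel_Sub_kid {v c : Word d} (h : c ∈ kids v) : Sub c ⊆ Sub v := by
  intro u hu
  exact (PathPeel_suffix_kid h).trans hu

lemma PathPeel_not_mem_Sub {v c : Word d} (h : len v < len c) : v ∉ Sub c := by
  intro hv
  have : c.1.length ≤ v.1.length := List.IsSuffix.length_le hv
  exact absurd this (by simpa [len] using h)

lemma PathPeel_disjoint {v a b : Word d} (ha : a ∈ kids v) (hb : b ∈ kids v) (hab : a ≠ b) :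
    Disjoint (Sub a) (Sub b) := by
  rw [Set.disjoint_left]
  intro u hua hub
  apply hab
  apply Subtype.ext
  have h1 := PathPeel_len_kid ha
  have h2 := PathPeel_len_kid hb
  have hlen : a.1.length = b.1.length := by
    show len a = len b
    omega
  rcases List.suffix_or_suffix_of_suffix hua hub with h | h
  · exact h.eq_of_length hlen
  · exact (h.eq_of_length hlen.symm).symm

lemma PathPeel_len_ch (x : Word d) {i : ℕ} (hi : i ≤ len x) : len (ch x i) = i := by
  show (x.1.drop (len x - i)).length = i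
  rw [List.length_drop]
  show len x - (len x - i) = i
  omega

lemma PathPeel_ch_ne_root (x : Word d) {i : ℕ} (hi : i ≤ len x) (h0 : 0 < i) : ch x i ≠ root := by
  intro h
  have := PathPeel_len_ch x hi
  rw [h] at this
  simp at this
  omega

lemma PathPeel_parent_ch (x : Word d) {i : ℕ} (hi : i < len x) : parent (ch x (i + 1)) = ch x i := by
  apply Subtype.ext
  show (x.1.drop (len x - (i + 1))).tail = x.1.drop (len x - i)
  rw [List.tail_drop]
  congr 1
  omega

lemma PathPeel_ch_mem_kids (x : Word d) {i : ℕ} (hi : i < len x) : ch x (i + 1) ∈ kids (ch x i) :=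
  PathPeel_mem_kids.mpr ⟨PathPeel_ch_ne_root x (by omega) (by omega), PathPeel_parent_ch x hi⟩

lemma PathPeel_Sub_ch (x : Word d) {i j : ℕ} (hij : i ≤ j) (hj : j ≤ len x) :
    Sub (ch x j) ⊆ Sub (ch x i) := by
  intro u hu
  have h1 : (ch x i).1 <:+ (ch x j).1 := by
    show x.1.drop (len x - i) <:+ x.1.drop (len x - j)
    have : x.1.drop (len x - i) = (x.1.drop (len x - j)).drop (j - i) := by
      rw [List.drop_drop]
      congr 1
      omega
    rw [this]
    exact List.drop_suffix _ _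
  exact h1.trans hu

lemma PathPeel_measurable_sp : Measurable (sp) := measurable_of_countable _

lemma PathPeel_measurable_yC : Measurable (yC : Cn d → Word d → ℝ) := by
  refine measurable_pi_iff.mpr (fun x => ?_)
  show Measurable (fun ω : Cn d => sp (tau (fun v => (ω v).1) x) * (ω x).2)
  refine Measurable.mul ?_ ?_
  · refine PathPeel_measurable_sp.comp ((measurable_tau_coord x).comp ?_)
    exact measurable_pi_iff.mpr (fun v => measurable_fst.comp (measurable_pi_apply v))
  · exact measurable_snd.comp (measurable_pi_apply x)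

/-- The marginal of the local field at a vertex. -/
lemma PathPeel_map_field [Corr θ] [IsProbabilityMeasure μ] (v : Word d) :
    (cnP d θ μ).map (fun ω : Cn d => (ω v).2) = μ := by
  have h1 : (cnP d θ μ).map (fun ω : Cn d => ω v) = (mrg θ v).prod μ :=
    (measurePreserving_eval_infinitePi (fun x : Word d => (mrg θ x).prod μ) v).map_eq
  have h2 : (fun ω : Cn d => (ω v).2) = Prod.snd ∘ (fun ω : Cn d => ω v) := rfl
  rw [h2, ← Measure.map_map measurable_snd (measurable_pi_apply v), h1]
  exact Measure.snd_prod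


lemma PathPeel_mm_abs (θ : ℝ) (x : Word d) (y : Word d → ℝ) : mm θ x y ^ 2 ≤ 1 := by
  have hb : ∀ R, mD θ (Bl x R) y x ≤ 1 := fun R => (Real.tanh_lt_one _).le
  have hb' : ∀ R, -1 ≤ mD θ (Bl x R) y x := fun R => (Real.neg_one_lt_tanh _).le
  have h1 : mm θ x y ≤ 1 := by
    refine limsup_le_of_le ?_ (Eventually.of_forall hb)
    exact isCoboundedUnder_le_of_le atTop hb'
  have h2 : -1 ≤ mm θ x y := by
    refine le_limsup_of_frequently_le ?_ ?_
    · exact Frequently.of_forall hb'
    · exact isBoundedUnder_of ⟨1, hb⟩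
  nlinarith

/-- The covariance with the root is bounded by the product of `ψ`. -/
theorem ae_CCr_sq_le [Corr θ] (h0 : 0 < θ) (hθ1 : θ < 1) (hμ : Nish μ) :
    ∀ᵐ y ∂(LawY d θ μ), ∀ x : Word d, CCr θ x y ^ 2 ≤ θ ^ (2 * len x) * psiPath θ x y := by
  filter_upwards [ae_Rho_sq_le (d := d) h0 hθ1 hμ] with y hy x
  unfold CCr psiPath
  have ha : 0 ≤ 1 - mm θ root y ^ 2 := by linarith [PathPeel_mm_abs θ (root : Word d) y]
  have hb : 0 ≤ 1 - mm θ x y ^ 2 := by linarith [PathPeel_mm_abs θ x y]
  have ha1 : 1 - mm θ root y ^ 2 ≤ 1 := by linarith [sq_nonneg (mm θ (root : Word d) y)]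
  have hb1 : 1 - mm θ x y ^ 2 ≤ 1 := by linarith [sq_nonneg (mm θ x y)]
  rw [mul_pow, Real.sq_sqrt (mul_nonneg ha hb), ← Finset.prod_pow]
  have hprod : ∏ i ∈ Finset.range (len x), Rho θ (mm θ (ch x i) y) (mm θ (ch x (i + 1)) y) ^ 2 ≤
      ∏ i ∈ Finset.range (len x), (θ ^ 2 * psiF θ (hhL θ (ch x (i + 1)) y)) := by
    refine Finset.prod_le_prod (fun i _ => sq_nonneg _) (fun i hi => ?_)
    have hi' := Finset.mem_range.mp hi
    have := hy (ch x (i + 1)) (PathPeel_ch_ne_root x (by omega) (by omega))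
    rwa [PathPeel_parent_ch x hi'] at this
  have hnn : 0 ≤ ∏ i ∈ Finset.range (len x), Rho θ (mm θ (ch x i) y) (mm θ (ch x (i + 1)) y) ^ 2 :=
    Finset.prod_nonneg (fun i _ => sq_nonneg _)
  have hle1 : (1 - mm θ root y ^ 2) * (1 - mm θ x y ^ 2) ≤ 1 := by nlinarith
  calc _ ≤ 1 * ∏ i ∈ Finset.range (len x), Rho θ (mm θ (ch x i) y) (mm θ (ch x (i + 1)) y) ^ 2 :=
        mul_le_mul_of_nonneg_right hle1 hnn
    _ ≤ ∏ i ∈ Finset.range (len x), (θ ^ 2 * psiF θ (hhL θ (ch x (i + 1)) y)) := by rw [one_mul]; exact hprod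
    _ = _ := by
        rw [Finset.prod_mul_distrib, Finset.prod_const, Finset.card_range, ← pow_mul]


lemma PathPeel_measurable_msg (θ : ℝ) (c : Word d) :
    Measurable (fun ω : Cn d => sp (ω c).1 * Uf θ (hatL θ c ω)) := by
  refine Measurable.mul ?_ ?_
  · exact PathPeel_measurable_sp.comp (measurable_fst.comp (measurable_pi_apply c))
  · exact measurable_Uf.comp (measurable_hatL θ c)

lemma PathPeel_dep_msg (θ : ℝ) {c : Word d} {T : Set (Word d)} (hT : Sub c ⊆ T) :
    DependsOn (fun ω : Cn d => sp (ω c).1 * Uf θ (hatL θ c ω)) T := by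
  intro a b hab
  have h1 : a c = b c := hab c (hT (PathPeel_mem_self c))
  have h2 : hatL θ c a = hatL θ c b := (dependsOn_hatL θ c).mono hT hab
  simp only [h1, h2]


section Peel

variable {hd : 2 ≤ d}

/-- (P-path) Exponential decay of the product of `ψ`, for high powers. -/
theorem path_peel (hd : 3 ≤ d) [Corr θ] (C : Crit (d - 1) θ) (C4 M : ℝ) :
    ∃ c5 : ℝ, 0 < c5 ∧ ∀ μ : Measure ℝ, Reg d (by omega) θ μ M C4 → ∀ (x : Word d) (Q : ℕ),
      1 ≤ Xv d (by omega) θ μ * Q →
        ∫ y, psiPath θ x y ^ Q ∂(LawY d θ μ) ≤ Real.exp (- c5 * len x) := by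
  obtain ⟨c6, c5, hc6, hc61, hc5, hac⟩ := msg_ac C C4
  refine ⟨c5, hc5, ?_⟩
  intro μ hR x Q hQ
  have hμ := hR.nish
  have := hμ.prob
  have hd2 : 2 ≤ d := by omega
  have hζ := cavL_nish hd2 C.h1 hμ
  have hac' := (hac (cavL d (by omega) θ μ) hζ hR.pos hR.c4).2 Q hQ
  have h0 := C.h0
  have h1 := C.h1
  set n := len x with hn
  -- to the canonical space
  have hm : Measurable (fun y : Word d → ℝ => psiPath θ x y ^ Q) := by
    refine Measurable.pow_const ?_ Q
    exact Finset.measurable_prod _ (fun i _ => measurable_psiF.comp (measurable_hhL θ _))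
  unfold LawY
  rw [integral_map PathPeel_measurable_yC.aemeasurable hm.aestronglyMeasurable]
  have heq : ∫ ω, psiPath θ x (yC ω) ^ Q ∂(cnP d θ μ) =
      ∫ ω, ∏ i ∈ Finset.range n, (psiF θ (hatL θ (ch x (i + 1)) ω)) ^ Q ∂(cnP d θ μ) := by
    refine integral_congr_ae ?_
    filter_upwards [ae_psi_hatL (d := d) C.h1 hμ] with ω hω
    unfold psiPath
    rw [Finset.prod_pow]
    refine congrArg (· ^ Q) (Finset.prod_congr rfl (fun i _ => hω _))
  rw [heq]
  have hg : Measurable (fun h : ℝ => psiF θ h ^ Q) := measurable_psiF.pow_const Q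
  have hg0 : ∀ h : ℝ, 0 ≤ psiF θ h ^ Q := fun h => pow_nonneg (psiF_pos h0.le h1 h).le Q
  have hg1 : ∀ h : ℝ, psiF θ h ^ Q ≤ 1 := fun h => pow_le_one₀ (psiF_pos h0.le h1 h).le (psiF_le_one h0.le h1 h)
  have key := PathPeel_chain (θ := θ) (μ := μ) (c := Real.exp (-c5)) (Real.exp_pos _).le hg hg0 hg1 n
    (fun i ω => psiF θ (hatL θ (ch x (i + 1)) ω) ^ Q)
    (fun i => hg.comp (measurable_hatL θ _)) (fun i ω => hg0 _) (fun i ω => hg1 _) ?_
  · refine key.trans (le_of_eq ?_)
    rw [← Real.exp_nat_mul]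
    congr 1
    ring
  intro i hi
  have hv : ch x (i + 1) ≠ root := PathPeel_ch_ne_root x (by omega) (by omega)
  have hcard : 1 < (kids (ch x (i + 1))).card := by
    rw [card_kids hv]; omega
  obtain ⟨c, hc, hne⟩ := Finset.exists_mem_ne hcard (ch x (i + 2))
  have hcroot : c ≠ root := (PathPeel_mem_kids.mp hc).1
  refine ⟨Sub c, fun ω => sp (ω c).1 * Uf θ (hatL θ c ω),
    fun ω => (ω (ch x (i + 1))).2 + ∑ c' ∈ (kids (ch x (i + 1))).erase c, sp (ω c').1 * Uf θ (hatL θ c' ω),
    PathPeel_measurable_msg θ c, ?_, PathPeel_dep_msg θ (le_refl _), ?_, ?_, ?_, ?_⟩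
  · refine (measurable_snd.comp (measurable_pi_apply _)).add ?_
    exact Finset.measurable_sum _ (fun c' _ => PathPeel_measurable_msg θ c')
  · -- the rest
    intro a b hab
    have hv' : ch x (i + 1) ∈ (Sub c)ᶜ := PathPeel_not_mem_Sub (by
      have := PathPeel_len_kid hc
      omega)
    have h1 : a (ch x (i + 1)) = b (ch x (i + 1)) := hab _ hv'
    have h2 : ∀ c' ∈ (kids (ch x (i + 1))).erase c,
        sp (a c').1 * Uf θ (hatL θ c' a) = sp (b c').1 * Uf θ (hatL θ c' b) := by
      intro c' hc'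
      have hc'1 := Finset.mem_of_mem_erase hc'
      have hc'2 := Finset.ne_of_mem_erase hc'
      have hdis := PathPeel_disjoint hc hc'1 hc'2.symm
      exact PathPeel_dep_msg θ (fun u hu => Set.disjoint_left.mp hdis.symm hu) hab
    simp only [h1]
    rw [Finset.sum_congr rfl h2]
  · -- later factors
    intro j hij hjn a b hab
    have hi2 : i + 1 < len x := by omega
    have hk : ch x (i + 2) ∈ kids (ch x (i + 1)) := PathPeel_ch_mem_kids x hi2
    have hdis := PathPeel_disjoint hc hk hne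
    have hsub : Sub (ch x (j + 1)) ⊆ (Sub c)ᶜ := by
      intro u hu
      have hu2 : u ∈ Sub (ch x (i + 2)) := PathPeel_Sub_ch x (i := i + 2) (j := j + 1) (by omega) (by omega) hu
      exact Set.disjoint_right.mp hdis hu2
    show psiF θ _ ^ Q = psiF θ _ ^ Q
    rw [(dependsOn_hatL θ (ch x (j + 1))).mono hsub hab]
  · filter_upwards [hatL_rec (d := d) C.h1 hμ] with ω hω
    show psiF θ _ ^ Q = psiF θ _ ^ Q
    rw [hω, ← Finset.add_sum_erase _ _ hc]
    congr 2
    ring
  · intro b
    have hlaw : (cnP d θ μ).map (fun ω => sp (ω c).1 * Uf θ (hatL θ c ω)) = msg θ (cavL d (by omega) θ μ) :=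
      law_msg hd2 C.h1 hμ hcroot
    rw [hlaw]
    exact hac' b


/-- Finite depth version with the own noise of each vertex (used for uniform tail bounds). -/
theorem path_peel_own (hd : 3 ≤ d) [Corr θ] (C : Crit (d - 1) θ) {μ : Measure ℝ} (hμ : Nish μ) {ε : ℝ}
    (hε : ∀ b : ℝ, ∫ h, psiF θ (h + b) ∂μ ≤ 1 - ε) (x : Word d) {R : ℕ} (hR : len x ≤ R) :
    ∫ y, ∏ i ∈ Finset.range (len x), psiF θ (hh θ (R - (i + 1)) (ch x (i + 1)) y) ∂(LawY d θ μ) ≤
      (1 - ε) ^ len x := by
  have := hμ.prob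
  have h0 := C.h0
  have h1 := C.h1
  have hg0 : ∀ h : ℝ, 0 ≤ psiF θ h := fun h => (psiF_pos h0.le h1 h).le
  have hg1 : ∀ h : ℝ, psiF θ h ≤ 1 := fun h => psiF_le_one h0.le h1 h
  have hc0 : 0 ≤ 1 - ε := (integral_nonneg (fun h => hg0 _)).trans (hε 0)
  have hmeas_hh : ∀ (n : ℕ) (v : Word d), Measurable (hh (d := d) θ n v) := by
    intro n
    induction n with
    | zero => intro v; exact measurable_pi_apply v
    | succ n ih =>
      intro v
      show Measurable (fun y => y v + ∑ c ∈ kids v, Uf θ (hh θ n c y))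
      exact (measurable_pi_apply v).add
        (Finset.measurable_sum _ (fun c _ => measurable_Uf.comp (ih c)))
  have hm : Measurable (fun y : Word d → ℝ =>
      ∏ i ∈ Finset.range (len x), psiF θ (hh θ (R - (i + 1)) (ch x (i + 1)) y)) :=
    Finset.measurable_prod _ (fun i _ => measurable_psiF.comp (hmeas_hh _ _))
  unfold LawY
  rw [integral_map PathPeel_measurable_yC.aemeasurable hm.aestronglyMeasurable]
  have hsp : ∀ b : Bool, sp b = 1 ∨ sp b = -1 := by
    intro b; cases b <;> simp [sp]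
  have hgauge : ∀ (n : ℕ) (v : Word d) (ω : Cn d), psiF θ (hh θ n v (yC ω)) = psiF θ (hatH θ n v ω) := by
    intro n v ω
    rw [hatH_eq h0.le h1]
    rcases hsp (sgC ω v) with h | h <;> rw [h]
    · rw [one_mul]
    · rw [neg_one_mul, psiF_even]
  have heq : ∀ ω : Cn d, ∏ i ∈ Finset.range (len x), psiF θ (hh θ (R - (i + 1)) (ch x (i + 1)) (yC ω)) =
      ∏ i ∈ Finset.range (len x), psiF θ (hatH θ (R - (i + 1)) (ch x (i + 1)) ω) :=
    fun ω => Finset.prod_congr rfl (fun i _ => hgauge _ _ ω)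
  simp only [heq]
  refine PathPeel_chain (θ := θ) (μ := μ) hc0 measurable_psiF hg0 hg1 (len x)
    (fun i ω => psiF θ (hatH θ (R - (i + 1)) (ch x (i + 1)) ω))
    (fun i => measurable_psiF.comp (measurable_hatH θ _ _)) (fun i ω => hg0 _) (fun i ω => hg1 _) ?_
  intro i hi
  -- `S` is the singleton of the vertex
  refine ⟨{ch x (i + 1)}, fun ω => (ω (ch x (i + 1))).2,
    fun ω => hatH θ (R - (i + 1)) (ch x (i + 1)) ω - (ω (ch x (i + 1))).2,
    measurable_snd.comp (measurable_pi_apply _),
    (measurable_hatH θ _ _).sub (measurable_snd.comp (measurable_pi_apply _)), ?_, ?_, ?_, ?_, ?_⟩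
  · intro a b hab
    simp only [hab _ (Set.mem_singleton _)]
  · -- the rest does not see the own noise
    intro a b hab
    have hnv : ∀ c ∈ kids (ch x (i + 1)), Sub c ⊆ ({ch x (i + 1)} : Set (Word d))ᶜ := by
      intro c hc u hu hu'
      rw [Set.mem_singleton_iff] at hu'
      subst hu'
      exact PathPeel_not_mem_Sub (v := ch x (i + 1)) (c := c)
        (by have := PathPeel_len_kid hc; omega) hu
    show hatH θ (R - (i + 1)) (ch x (i + 1)) a - (a (ch x (i + 1))).2 =
      hatH θ (R - (i + 1)) (ch x (i + 1)) b - (b (ch x (i + 1))).2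
    cases hk : R - (i + 1) with
    | zero => simp [hatH]
    | succ m =>
      simp only [hatH, add_sub_cancel_left]
      refine Finset.sum_congr rfl (fun c hc => ?_)
      have h1 : a c = b c := hab c (hnv c hc (PathPeel_mem_self c))
      rw [h1, (dependsOn_hatH θ m c).mono (hnv c hc) hab]
  · intro j hij hjn a b hab
    have hsub : Sub (ch x (j + 1)) ⊆ ({ch x (i + 1)} : Set (Word d))ᶜ := by
      intro u hu hu'
      rw [Set.mem_singleton_iff] at hu'
      subst hu'
      have h3 := PathPeel_not_mem_Sub (v := ch x (i + 1)) (c := ch x (j + 1)) (by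
        rw [PathPeel_len_ch x (by omega), PathPeel_len_ch x (by omega)]
        omega)
      exact h3 hu
    show psiF θ _ = psiF θ _
    rw [(dependsOn_hatH θ _ (ch x (j + 1))).mono hsub hab]
  · refine Eventually.of_forall (fun ω => ?_)
    show psiF θ _ = psiF θ _
    congr 1
    ring
  · intro b
    rw [PathPeel_map_field]
    exact hε b


end Peel

/-- The branching sums: `D⁰ = 1`, `Dⁿ⁺¹_v = 1 + (e^α / k) ∑_{c child of v} ψ(hh_c) Dⁿ_c`. -/
noncomputable def Dn (θ α : ℝ) (k : ℕ) : ℕ → Word d → (Word d → ℝ) → ℝ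
  | 0, _, _ => 1
  | n + 1, v, y => 1 + Real.exp α / k * ∑ c ∈ kids v, psiF θ (hhL θ c y) * Dn θ α k n c y

/-- The branching sum with a restricted set of children. -/
noncomputable def DK (θ α : ℝ) (k : ℕ) (K : Finset (Word d)) (n : ℕ) (y : Word d → ℝ) : ℝ :=
  1 + Real.exp α / k * ∑ c ∈ K, psiF θ (hhL θ c y) * Dn θ α k n c y

/-- The level in the exponential moment bound. -/
noncomputable def Alev (Cb ε Λ : ℝ) : ℝ := Cb / ε * Real.exp (ε / 14 * Real.log (Λ / ε))

lemma bc_measurable_Dn (θ α : ℝ) (k n : ℕ) (v : Word d) : Measurable (Dn θ α k n v) := by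
  induction n generalizing v with
  | zero => exact measurable_const
  | succ n ih =>
    have : Dn θ α k (n + 1) v = fun y =>
        1 + Real.exp α / k * ∑ c ∈ kids v, psiF θ (hhL θ c y) * Dn θ α k n c y := by
      funext y; exact rfl
    rw [this]
    refine measurable_const.add (Measurable.const_mul ?_ _)
    exact Finset.measurable_sum _ fun c _ =>
      (measurable_psiF.comp (measurable_hhL θ c)).mul (ih c)

lemma bc_measurable_DK (θ α : ℝ) (k : ℕ) (K : Finset (Word d)) (n : ℕ) : Measurable (DK θ α k K n) := by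
  unfold DK
  refine measurable_const.add (Measurable.const_mul ?_ _)
  exact Finset.measurable_sum _ fun c _ =>
    (measurable_psiF.comp (measurable_hhL θ c)).mul (bc_measurable_Dn θ α k n c)

lemma bc_measurable_yC : Measurable (yC : Cn d → Word d → ℝ) := by
  refine measurable_pi_iff.mpr fun x => ?_
  have h1 : Measurable (fun ω : Cn d => (fun v => (ω v).1 : Word d → Bool)) :=
    measurable_pi_iff.mpr fun v => measurable_fst.comp (measurable_pi_apply v)
  have h2 : Measurable (fun ω : Cn d => sgC ω x) := (measurable_tau_coord x).comp h1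
  have h3 : Measurable (sp : Bool → ℝ) := Measurable.of_discrete
  exact (h3.comp h2).mul (measurable_snd.comp (measurable_pi_apply x))

/-- On the good event, the branching sum of the field is the canonical branching sum. -/
lemma bc_Dn_yC {ω : Cn d} (hω : ∀ v : Word d, psiF θ (hhL θ v (yC ω)) = psiF θ (hatL θ v ω)) (α : ℝ) (k n : ℕ)
    (v : Word d) : Dn θ α k n v (yC ω) = BC.Dh θ α k n v ω := by
  induction n generalizing v with
  | zero => rfl
  | succ n ih =>
    show 1 + Real.exp α / k * ∑ c ∈ kids v, psiF θ (hhL θ c (yC ω)) * Dn θ α k n c (yC ω) =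
      1 + Real.exp α / k * ∑ c ∈ kids v, psiF θ (hatL θ c ω) * BC.Dh θ α k n c ω
    congr 2
    refine Finset.sum_congr rfl fun c _ => ?_
    rw [hω c, ih c]

lemma bc_DK_yC {ω : Cn d} (hω : ∀ v : Word d, psiF θ (hhL θ v (yC ω)) = psiF θ (hatL θ v ω)) {α : ℝ} {k : ℕ}
    {K : Finset (Word d)} {n : ℕ} : DK θ α k K n (yC ω) = BC.DKh θ α k K n ω := by
  show 1 + Real.exp α / k * ∑ c ∈ K, psiF θ (hhL θ c (yC ω)) * Dn θ α k n c (yC ω) =
      1 + Real.exp α / k * ∑ c ∈ K, BC.Yh θ α k n c ω
  congr 2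
  refine Finset.sum_congr rfl fun c _ => ?_
  rw [hω c, bc_Dn_yC hω]
  rfl

/-- (P-cross) Exponential moments of the branching sums at all scales, uniformly in the depth. Here
`ε = c X` and `α = ε / 24`. -/
theorem branch_exp (hd : 3 ≤ d) [Corr θ] (C : Crit (d - 1) θ) (C4 M : ℝ) :
    ∃ c Cb : ℝ, 0 < c ∧ c ≤ 1 ∧ 0 < Cb ∧ ∀ μ : Measure ℝ, Reg d (by omega) θ μ M C4 →
      let ε := c * Xv d (by omega) θ μ
      ∀ (Λ : ℝ), 1 ≤ Λ → ∀ (v : Word d) (K : Finset (Word d)), K ⊆ kids v → ∀ n : ℕ,
        ∫ y, Real.exp (Λ * (DK θ (ε / 24) (d - 1) K n y - Alev Cb ε Λ)) ∂(LawY d θ μ) ≤ 1 := by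
  obtain ⟨c6, _, hc6, hc61, _, hac⟩ := msg_ac C C4
  refine ⟨c6, 1000, hc6, hc61, by norm_num, ?_⟩
  intro μ hR ε Λ hΛ v K hK n
  have hnish := hR.nish
  haveI := hnish.prob
  have hd2 : 2 ≤ d := by omega
  have hθ0 : 0 ≤ θ := C.h0.le
  have hθ1 : θ < 1 := C.h1
  have hk2 : 2 ≤ d - 1 := C.hk
  have hζ := cavL_nish hd2 hθ1 hnish
  haveI := hζ.prob
  have hX1 : Xv d (by omega) θ μ ≤ 1 := by
    have h1 : ‖∫ h, Real.tanh h ∂(cavL d (by omega) θ μ)‖ ≤ 1 * (cavL d (by omega) θ μ).real Set.univ :=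
      norm_integral_le_of_norm_le_const (ae_of_all _ fun h => by
        rw [Real.norm_eq_abs]; exact (Real.abs_tanh_lt_one h).le)
    simp only [probReal_univ, mul_one] at h1
    exact (le_abs_self _).trans h1
  have hε0 : 0 < ε := mul_pos hc6 hR.pos
  have hε1 : ε ≤ 1 := by
    have := mul_le_mul hc61 hX1 hR.pos.le (by norm_num : (0 : ℝ) ≤ 1)
    simpa using this
  have hAC : ∀ b : ℝ, ∫ h, psiF θ (h + b) ∂(msg θ (cavL d (by omega) θ μ)) ≤ 1 - ε :=
    (hac _ hζ hR.pos hR.c4).1
  have key := BC.DKh_exp hd2 hθ0 hθ1 hnish hε0 hε1 hAC hk2 (by omega) hΛ n hK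
  have hm : Measurable (fun y : Word d → ℝ => Real.exp (Λ * (DK θ (ε / 24) (d - 1) K n y - Alev 1000 ε Λ))) :=
    Real.measurable_exp.comp (((bc_measurable_DK θ _ _ K n).sub_const _).const_mul _)
  unfold LawY
  rw [integral_map bc_measurable_yC.aemeasurable hm.aestronglyMeasurable]
  refine le_trans (le_of_eq (integral_congr_ae ?_)) key
  filter_upwards [ae_psi_hatL (d := d) (θ := θ) (μ := μ) hθ1 hnish] with ω hω
  rw [bc_DK_yC hω]
  rfl

/-- The sum over the vertices below `v` of the squares of covariance products is dominated by the branching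
sum: the bookkeeping used in the static theorem. For `w` below `v` at depth `i`, the weight of the path is
`(e^α / k)^i ∏ ψ`. -/
noncomputable def wPath (θ α : ℝ) (k : ℕ) (v w : Word d) (y : Word d → ℝ) : ℝ :=
  (Real.exp α / k) ^ (len w - len v) *
    ∏ i ∈ Finset.range (len w - len v), psiF θ (hhL θ (ch w (len v + i + 1)) y)

lemma sum_wPath_le_Dn (hd : 2 ≤ d) (θ α : ℝ) (hα : 0 ≤ α) (k : ℕ) (n : ℕ) (v : Word d) (y : Word d → ℝ)
    (hθ0 : 0 ≤ θ) (hθ1 : θ < 1) :
    ∑ w ∈ (ball (len v + n)).filter (fun w => v.1 <:+ w.1), wPath θ α k v w y = Dn θ α k n v y := by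
  induction n generalizing v with
  | zero =>
    have hS : (ball (len v + 0)).filter (fun w : Word d => v.1 <:+ w.1) = {v} := by
      ext w
      simp only [Finset.mem_filter, mem_ball, add_zero, Finset.mem_singleton]
      constructor
      · rintro ⟨h1, h2⟩
        exact (Subtype.ext (List.IsSuffix.eq_of_length_le h2 h1)).symm
      · rintro rfl
        exact ⟨le_rfl, List.suffix_refl _⟩
    rw [hS, Finset.sum_singleton]
    simp [wPath, Dn]
  | succ n ih =>
    have hS : (ball (len v + (n + 1))).filter (fun w : Word d => v.1 <:+ w.1) =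
        insert v ((kids v).biUnion fun c => (ball (len c + n)).filter (fun w : Word d => c.1 <:+ w.1)) := by
      ext w
      simp only [Finset.mem_filter, mem_ball, Finset.mem_insert, Finset.mem_biUnion]
      constructor
      · rintro ⟨h1, h2⟩
        by_cases hw : w = v
        · exact Or.inl hw
        right
        have hlen : len v < len w := by
          have h3 : len v ≤ len w := List.IsSuffix.length_le h2
          rcases Nat.lt_or_ge (len v) (len w) with h4 | h4
          · exact h4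
          · exact absurd (Subtype.ext (List.IsSuffix.eq_of_length_le h2 h4)).symm hw
        refine ⟨ch w (len v + 1), ?_, ?_, ?_⟩
        · refine BC.mem_kids.mpr ⟨?_, ?_⟩
          · intro h5
            have h6 := congrArg len h5
            have h7 : len (ch w (len v + 1)) = len v + 1 := by
              simp only [len, ch, List.length_drop]
              simp only [len] at hlen
              omega
            rw [h7, len_root] at h6
            omega
          · apply Subtype.ext
            show (w.1.drop (len w - (len v + 1))).tail = v.1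
            rw [List.tail_drop, List.suffix_iff_eq_drop.mp h2]
            congr 1
            simp only [len] at hlen ⊢
            omega
        · have h7 : len (ch w (len v + 1)) = len v + 1 := by
            simp only [len, ch, List.length_drop]
            simp only [len] at hlen
            omega
          rw [h7]
          omega
        · exact List.drop_suffix _ _
      · rintro (rfl | ⟨c, hc, h1, h2⟩)
        · exact ⟨by omega, List.suffix_refl _⟩
        · have h3 := BC.len_kid hc
          refine ⟨by omega, (BC.Sub_kid_subset hc) h2⟩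
    have hnotin : v ∉ (kids v).biUnion fun c => (ball (len c + n)).filter (fun w : Word d => c.1 <:+ w.1) := by
      intro h
      obtain ⟨c, hc, h1⟩ := Finset.mem_biUnion.mp h
      exact BC.not_mem_Sub_kid hc (Finset.mem_filter.mp h1).2
    rw [hS, Finset.sum_insert hnotin, Finset.sum_biUnion]
    · have hv : wPath θ α k v v y = 1 := by simp [wPath]
      rw [hv]
      show (1 : ℝ) + _ = 1 + Real.exp α / k * ∑ c ∈ kids v, psiF θ (hhL θ c y) * Dn θ α k n c y
      congr 1
      rw [Finset.mul_sum]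
      refine Finset.sum_congr rfl fun c hc => ?_
      rw [← ih c, Finset.mul_sum, Finset.mul_sum]
      refine Finset.sum_congr rfl fun w hw => ?_
      have hwc : c.1 <:+ w.1 := (Finset.mem_filter.mp hw).2
      have hlc := BC.len_kid hc
      have hlw : len c ≤ len w := List.IsSuffix.length_le hwc
      have hchc : ch w (len c) = c := by
        apply Subtype.ext
        exact (List.suffix_iff_eq_drop.mp hwc).symm
      have he : len w - len v = (len w - len c) + 1 := by omega
      unfold wPath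
      rw [he, pow_succ, Finset.prod_range_succ']
      have hfirst : ch w (len v + 0 + 1) = c := by
        rw [← hchc]
        congr 1
        omega
      rw [hfirst]
      have hprod : ∏ i ∈ Finset.range (len w - len c), psiF θ (hhL θ (ch w (len v + (i + 1) + 1)) y) =
          ∏ i ∈ Finset.range (len w - len c), psiF θ (hhL θ (ch w (len c + i + 1)) y) := by
        refine Finset.prod_congr rfl fun i _ => ?_
        congr 3
        omega
      rw [hprod]
      ring
    · intro a ha b hb hne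
      refine Finset.disjoint_left.mpr fun w h1 h2 => ?_
      exact Set.disjoint_left.mp (BC.Sub_disj ha hb hne) (Finset.mem_filter.mp h1).2 (Finset.mem_filter.mp h2).2

end Vale.Agent.Lib.P161B
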