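import Vale.Agent.Lib.P161B.Path
import Vale.Agent.Lib.P161B.CutAux

/-!
The static setting: a probability space with an action of the automorphism group, an equivariant observed
field with law `LawY`, and an invariant sub sigma algebra. The error quantities `r`, `tau2`, and `BBn`.
-/

namespace Vale.Agent.Lib.P161B

open MeasureTheory ProbabilityTheory Filter
open Vale.Agent.Lib.P161

variable {d : ℕ} {θ : ℝ} {μ : Measure ℝ}

/-- The edge function `log ρ` as a function of the observed field. -/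
noncomputable def Pe (θ : ℝ) (a b : Word d) (y : Word d → ℝ) : ℝ := PsiE θ (mm θ a y) (mm θ b y)

/-- The function `log (1 - m²)` of the observed field. -/
noncomputable def Pv (θ : ℝ) (x : Word d) (y : Word d → ℝ) : ℝ := LogV (mm θ x y)

/-- (P-cut) Decay of the covariance of the edge functions at the two ends of a non backtracking path. -/
theorem cut_cov (hd : 3 ≤ d) [Corr θ] (C : Crit (d - 1) θ) (M : ℝ) :
    ∃ K : ℝ, 0 ≤ K ∧ ∀ μ : Measure ℝ, Nish μ → (∀ᵐ h ∂μ, |h| ≤ M) → ∀ (p : ℕ → Word d) (L : ℕ), NB p L → 2 ≤ L →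
      |∫ y, Pe θ (p 0) (p 1) y * Pe θ (p (L - 1)) (p L) y ∂(LawY d θ μ) -
        (∫ y, Pe θ (p 0) (p 1) y ∂(LawY d θ μ)) * ∫ y, Pe θ (p (L - 1)) (p L) y ∂(LawY d θ μ)| ≤
          K * (√θ) ^ L :=
  Cut_main hd C M

/-- The static setting. -/
structure Setting (d : ℕ) (θ : ℝ) (μ : Measure ℝ) (Ω : Type*) [mΩ : MeasurableSpace Ω] (P : Measure Ω) where
  /-- The action on the sample space. -/
  a : Aut d → Ω → Ω
  a_mp : ∀ g, MeasurePreserving (a g) P P
  a_mul : ∀ g h ω, a (g * h) ω = a g (a h ω)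
  /-- The observed field. -/
  y : Ω → Word d → ℝ
  y_meas : Measurable y
  y_eq : ∀ g ω, y (a g ω) = actS g (y ω)
  law : P.map y = LawY d θ μ
  /-- The sub sigma algebra. -/
  G : MeasurableSpace Ω
  G_le : G ≤ mΩ
  G_inv : ∀ g, MeasurableSpace.comap (a g) G = G

namespace Setting

variable {Ω : Type*} [MeasurableSpace Ω] {P : Measure Ω} (S : Setting d θ μ Ω P)

/-- The conditional expectation. -/
noncomputable def Pi (f : Ω → ℝ) : Ω → ℝ := condExp S.G P f

/-- The magnetisation. -/
noncomputable def m (x : Word d) (ω : Ω) : ℝ := mm θ x (S.y ω)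

/-- The error in the magnetisation. -/
noncomputable def dm (x : Word d) (ω : Ω) : ℝ := S.m x ω - S.Pi (S.m x) ω

/-- The main quantity `r = E (m - Π m)²`. -/
noncomputable def r : ℝ := ∫ ω, S.dm root ω ^ 2 ∂P

/-- The error in an edge function. -/
noncomputable def re (a b : Word d) (ω : Ω) : ℝ :=
  Pe θ a b (S.y ω) - S.Pi (fun ω' => Pe θ a b (S.y ω')) ω

/-- The error in a vertex function. -/
noncomputable def rv (x : Word d) (ω : Ω) : ℝ :=
  Pv θ x (S.y ω) - S.Pi (fun ω' => Pv θ x (S.y ω')) ω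

/-- The scale of the errors of the edge functions and of the vertex function. -/
noncomputable def tau2 (i : Fin d) : ℝ :=
  max (∫ ω, S.re root (letter i) ω ^ 2 ∂P) (∫ ω, S.rv root ω ^ 2 ∂P)

/-- The covariance with the root. -/
noncomputable def CC (x : Word d) (ω : Ω) : ℝ := CCr θ x (S.y ω)

/-- The growth rate of `r`, truncated to the ball of radius `R`. -/
noncomputable def BBn (κ : ℝ) (R : ℕ) : ℝ :=
  ∑ x ∈ ball R, ∫ ω, ((S.CC x ω - S.Pi (S.CC x) ω) ^ 2 + κ ^ 2 * S.Pi (S.CC x) ω ^ 2 * S.dm x ω ^ 2) ∂P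

end Setting

/-- The conditional expectation commutes with the action; errors at different vertices have the same norm. -/
theorem Setting.Pi_comp {Ω : Type*} [MeasurableSpace Ω] {P : Measure Ω}
    [IsProbabilityMeasure P] (S : Setting d θ μ Ω P) (g : Aut d) {f : Ω → ℝ} (hf : Integrable f P) :
    S.Pi (f ∘ S.a g) =ᵐ[P] (S.Pi f) ∘ S.a g :=
  Cut_condExp_comp S.G_le (S.a_mp g) (S.G_inv g) hf

end Vale.Agent.Lib.P161B
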