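import Vale.Agent.Lib.P161B.Static
import Vale.Agent.Lib.P161B.Chan

/-!
The dynamic model. A spin configuration, and for each event (vertex, block) a noise variable and a label.
The observation of an event, its time, its activity. The field at time `s`, the innovation variables, the
sigma algebras, the main quantity `rD s`.
-/

namespace Vale.Agent.Lib.P161B

open MeasureTheory ProbabilityTheory Filter
open Vale.Agent.Lib.P161

variable {d : ℕ} {θ : ℝ}

/-- Events: a vertex and a block. -/
abbrev Ev (d : ℕ) : Type := Word d × ℤ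

/-- Uniform variables indexed by events. -/
abbrev LabT (d : ℕ) : Type := Ev d → unitInterval

/-- The sample space: spins, noise variables `V`, labels `W`. -/
abbrev OmD (d : ℕ) : Type := (Word d → Bool) × LabT d × LabT d

/-- The uniform law on `LabT d`. -/
noncomputable def volE (d : ℕ) : Measure (LabT d) := Measure.infinitePi (fun _ : Ev d => (volume : Measure unitInterval))

/-- The law of the dynamic model. -/
noncomputable def PD (d : ℕ) (θ : ℝ) : Measure (OmD d) := (isingLaw d θ).prod ((volE d).prod (volE d))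

/-- The strength of the observations of block `j`. -/
noncomputable def kp (j : ℤ) : ℝ := (2 : ℝ) ^ (min j 0 - 1)

/-- The noise `ẑ` of an event, with density `(1 + κ z) / 2`. -/
noncomputable def zh (ω : OmD d) (e : Ev d) : ℝ := quant (kp e.2) (ω.2.1 e)

/-- The observation of an event. -/
noncomputable def Zo (ω : OmD d) (e : Ev d) : ℝ := sp (ω.1 e.1) * zh ω e

/-- The time of an event, a function of the labels. -/
noncomputable def tE (e : Ev d) (W : LabT d) : ℝ := e.2 + 2 * (W e : ℝ)

/-- Activity of an event. -/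
def actE (e : Ev d) (W : LabT d) : Prop := (W e : ℝ) < 1 / 2

/-- Membership of an event in the set of events seen before time `s`. -/
def inA (s : ℝ) (e : Ev d) (W : LabT d) : Prop := actE e W ∧ tE e W < s

open Classical in
/-- The observed field at time `s`: the sum of the log likelihood ratios. -/
noncomputable def yS (s : ℝ) (ω : OmD d) (x : Word d) : ℝ :=
  ∑' j : ℤ, if inA s (x, j) ω.2.2 then Real.artanh (kp j * Zo ω (x, j)) else 0

open Classical in
/-- The gauge transformed field at time `s`: it depends only on the variables of the site `x`. -/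
noncomputable def xiS (s : ℝ) (ω : OmD d) (x : Word d) : ℝ :=
  ∑' j : ℤ, if inA s (x, j) ω.2.2 then Real.artanh (kp j * zh ω (x, j)) else 0

/-- The law of the local field at time `s`. -/
noncomputable def muS (d : ℕ) (θ : ℝ) (hd : 0 < d) (s : ℝ) : Measure ℝ :=
  (PD d θ).map (fun ω => xiS s ω (letter ⟨0, hd⟩))

open Classical in
/-- The innovation variable of an event. -/
noncomputable def Uo (θ : ℝ) (ω : OmD d) (e : Ev d) : ℝ :=
  if actE e ω.2.2 then cdfA (kp e.2 * mm θ e.1 (yS (tE e ω.2.2) ω)) (Zo ω e) else (ω.2.1 e : ℝ)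

open Classical in
/-- The stopped data of the innovations at time `s`. -/
noncomputable def Gd (θ : ℝ) (s : ℝ) (ω : OmD d) : Ev d → ℝ × ℝ :=
  fun e => (min (tE e ω.2.2) s, if inA s e ω.2.2 then Uo θ ω e else 0)

open Classical in
/-- The stopped data of the observations at time `s`. -/
noncomputable def Dd (s : ℝ) (ω : OmD d) : Ev d → ℝ × ℝ :=
  fun e => (min (tE e ω.2.2) s, if inA s e ω.2.2 then Zo ω e else 0)

/-- The sigma algebra of the innovations up to time `s`. -/
noncomputable def GGs (θ : ℝ) (s : ℝ) : MeasurableSpace (OmD d) := MeasurableSpace.comap (Gd θ s) inferInstance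

/-- The sigma algebra of the stopped observations up to time `s`. -/
noncomputable def FOs (s : ℝ) : MeasurableSpace (OmD d) := MeasurableSpace.comap (Dd s) inferInstance

open Classical in
/-- All labels and the observations before the label dependent time `tt`. -/
noncomputable def obsL (tt : LabT d → ℝ) (ω : OmD d) : LabT d × (Ev d → ℝ) :=
  (ω.2.2, fun e => if inA (tt ω.2.2) e ω.2.2 then Zo ω e else 0)

/-- The sigma algebra of all labels and the observations before the label dependent time `tt`. -/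
noncomputable def FL (tt : LabT d → ℝ) : MeasurableSpace (OmD d) := MeasurableSpace.comap (obsL tt) inferInstance

/-- The action of automorphisms. -/
def actO (g : Aut d) (ω : OmD d) : OmD d :=
  (actS g ω.1, fun e => ω.2.1 (g.symm e.1, e.2), fun e => ω.2.2 (g.symm e.1, e.2))

section Basic

instance [Corr θ] : IsProbabilityMeasure (PD d θ) := by
  unfold PD volE
  infer_instance

instance : IsProbabilityMeasure (volE d) := by
  unfold volE
  infer_instance

private lemma mp_volE (g : Aut d) :
    MeasurePreserving (fun (z : LabT d) (e : Ev d) => z (g.symm e.1, e.2)) (volE d) (volE d) := by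
  refine ⟨measurable_pi_lambda _ fun _ => measurable_pi_apply _, ?_⟩
  have hinj : Function.Injective (fun i : Ev d => ((g.symm i.1, i.2) : Ev d)) := by
    rintro ⟨a, b⟩ ⟨c, e⟩ h
    simp only [Prod.mk.injEq] at h
    have : a = c := g.symm.injective h.1
    rw [this, h.2]
  exact Measure.map_infinitePi_infinitePi_of_inj (P := fun _ : Ev d => (volume : Measure unitInterval)) hinj

lemma mp_actO [Corr θ] (g : Aut d) : MeasurePreserving (actO g) (PD d θ) (PD d θ) :=
  (show MeasurePreserving (actS g) (isingLaw d θ) (isingLaw d θ) from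
    ⟨measurable_actS g, isingLaw_map_actS θ g⟩).prod ((mp_volE g).prod (mp_volE g))

lemma actO_mul (g h : Aut d) (ω : OmD d) : actO (g * h) ω = actO g (actO h ω) := rfl

lemma kp_pos (j : ℤ) : 0 < kp j := zpow_pos (by norm_num) _

lemma kp_le (j : ℤ) : kp j ≤ 1 / 2 := by
  unfold kp
  have h : min j 0 - 1 ≤ -1 := by
    have := min_le_right j 0
    omega
  calc (2 : ℝ) ^ (min j 0 - 1) ≤ (2 : ℝ) ^ (-1 : ℤ) := zpow_le_zpow_right₀ (by norm_num) h
    _ = 1 / 2 := by norm_num

lemma kp_sq_of_nonpos {j : ℤ} (hj : j ≤ 0) : kp j ^ 2 = (4 : ℝ) ^ j / 4 := by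
  unfold kp
  rw [min_eq_left hj, zpow_sub₀ (by norm_num : (2 : ℝ) ≠ 0), div_pow, ← zpow_natCast ((2 : ℝ) ^ j) 2,
    ← zpow_mul, mul_comm j, zpow_mul]
  norm_num

private lemma kp_abs (j : ℤ) : |kp j| ≤ 1 / 2 := by
  rw [abs_of_pos (kp_pos j)]
  exact kp_le j

private lemma kp_le_zpow (j : ℤ) : 2 * kp j ≤ (2 : ℝ) ^ j := by
  unfold kp
  have h : min j 0 - 1 ≤ j - 1 := by
    have := min_le_left j 0
    omega
  have h2 : (2 : ℝ) ^ (min j 0 - 1) ≤ (2 : ℝ) ^ (j - 1) := zpow_le_zpow_right₀ (by norm_num) h
  have h3 : (2 : ℝ) ^ (j - 1) = (2 : ℝ) ^ j / 2 := by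
    rw [zpow_sub₀ (by norm_num : (2 : ℝ) ≠ 0)]
    norm_num
  rw [h3] at h2
  linarith

private lemma artanh_le_two {x : ℝ} (h0 : 0 ≤ x) (h1 : x ≤ 1 / 2) : Real.artanh x ≤ 2 * x := by
  rw [Real.artanh_eq_half_log ⟨by linarith, by linarith⟩]
  have hlog : Real.log ((1 + x) / (1 - x)) ≤ (1 + x) / (1 - x) - 1 :=
    Real.log_le_sub_one_of_pos (div_pos (by linarith) (by linarith))
  have hb : (1 + x) / (1 - x) - 1 ≤ 4 * x := by
    rw [div_sub_one (by linarith), div_le_iff₀ (by linarith)]
    nlinarith
  linarith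

private lemma artanh_kp_nonneg (j : ℤ) : 0 ≤ Real.artanh (kp j) := Real.artanh_nonneg (kp_pos j).le

private lemma artanh_kp_le (j : ℤ) : Real.artanh (kp j) ≤ (2 : ℝ) ^ j :=
  (artanh_le_two (kp_pos j).le (kp_le j)).trans (kp_le_zpow j)

private lemma hasSum_two_zpow (s : ℝ) :
    HasSum (fun j : ℤ => if (j : ℝ) < s then (2 : ℝ) ^ j else 0) ((2 : ℝ) ^ ⌈s⌉) := by
  set J : ℤ := ⌈s⌉ - 1 with hJ
  have hinj : Function.Injective (fun n : ℕ => J - (n : ℤ)) := by
    intro a b h
    simp only at h
    omega
  have hzero : ∀ x, x ∉ Set.range (fun n : ℕ => J - (n : ℤ)) →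
      (fun j : ℤ => if (j : ℝ) < s then (2 : ℝ) ^ j else 0) x = 0 := by
    intro x hx
    have hlt : ¬ (x : ℝ) < s := by
      intro h
      apply hx
      have h1 : x < ⌈s⌉ := Int.lt_ceil.mpr h
      refine ⟨(J - x).toNat, ?_⟩
      simp only
      omega
    simp [hlt]
  rw [← hinj.hasSum_iff hzero]
  have hg := hasSum_geometric_two.mul_left ((2 : ℝ) ^ J)
  have hval : (2 : ℝ) ^ J * 2 = (2 : ℝ) ^ ⌈s⌉ := by
    rw [hJ, zpow_sub₀ (by norm_num : (2 : ℝ) ≠ 0)]
    norm_num
  rw [hval] at hg
  have heq : ((fun j : ℤ => if (j : ℝ) < s then (2 : ℝ) ^ j else 0) ∘ fun n : ℕ => J - (n : ℤ)) =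
      fun n : ℕ => (2 : ℝ) ^ J * (1 / 2 : ℝ) ^ n := by
    funext n
    have hlt : (((J - (n : ℤ) : ℤ)) : ℝ) < s := by
      apply Int.lt_ceil.mp
      omega
    simp only [Function.comp]
    rw [if_pos hlt, zpow_sub₀ (by norm_num : (2 : ℝ) ≠ 0), div_eq_mul_inv, zpow_natCast, one_div, inv_pow]
  rw [heq]
  exact hg

/-- Bound on the field at time `s`. -/
noncomputable def Mb (s : ℝ) : ℝ := ∑' j : ℤ, if (j : ℝ) < s then Real.artanh (kp j) else 0

lemma summable_artanh (s : ℝ) : Summable (fun j : ℤ => if (j : ℝ) < s then Real.artanh (kp j) else 0) := by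
  refine Summable.of_nonneg_of_le (fun j => ?_) (fun j => ?_) (hasSum_two_zpow s).summable
  · split_ifs
    · exact artanh_kp_nonneg j
    · exact le_rfl
  · split_ifs
    · exact artanh_kp_le j
    · exact le_rfl

lemma Mb_le (s : ℝ) (hs : s ≤ 0) : Mb s ≤ 2 * (2 : ℝ) ^ s := by
  have h1 : Mb s ≤ (2 : ℝ) ^ ⌈s⌉ := by
    rw [← (hasSum_two_zpow s).tsum_eq]
    refine (summable_artanh s).tsum_le_tsum (fun j => ?_) (hasSum_two_zpow s).summable
    split_ifs
    · exact artanh_kp_le j
    · exact le_rfl
  have h2 : ((⌈s⌉ : ℤ) : ℝ) ≤ s + 1 := (Int.ceil_lt_add_one s).le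
  have h3 : (2 : ℝ) ^ ⌈s⌉ = (2 : ℝ) ^ ((⌈s⌉ : ℤ) : ℝ) := (Real.rpow_intCast 2 ⌈s⌉).symm
  have h4 : (2 : ℝ) ^ ((⌈s⌉ : ℤ) : ℝ) ≤ (2 : ℝ) ^ (s + 1) :=
    Real.rpow_le_rpow_of_exponent_le (by norm_num) h2
  have h5 : (2 : ℝ) ^ (s + 1) = 2 * (2 : ℝ) ^ s := by
    rw [Real.rpow_add (by norm_num), Real.rpow_one, mul_comm]
  linarith

lemma Mb_mono {s t : ℝ} (h : s ≤ t) : Mb s ≤ Mb t := by
  refine (summable_artanh s).tsum_le_tsum (fun j => ?_) (summable_artanh t)
  by_cases h1 : (j : ℝ) < s
  · rw [if_pos h1, if_pos (h1.trans_le h)]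
  · rw [if_neg h1]
    split_ifs
    · exact artanh_kp_nonneg j
    · exact le_rfl

lemma Mb_nonneg (s : ℝ) : 0 ≤ Mb s := by
  refine tsum_nonneg (fun j => ?_)
  split_ifs
  · exact artanh_kp_nonneg j
  · exact le_rfl

private lemma zh_mem (ω : OmD d) (e : Ev d) : zh ω e ∈ Set.Icc (-1 : ℝ) 1 :=
  quant_mem (kp_abs e.2) (ω.2.1 e).2

private lemma Zo_mem (ω : OmD d) (e : Ev d) : Zo ω e ∈ Set.Icc (-1 : ℝ) 1 := by
  have h := zh_mem ω e
  unfold Zo
  cases ω.1 e.1 with
  | false => simpa [sp] using h
  | true =>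
    simp only [sp, if_true]
    constructor <;> linarith [h.1, h.2]

private lemma artanh_abs_le {κ z : ℝ} (h0 : 0 ≤ κ) (h1 : κ ≤ 1 / 2) (hz : z ∈ Set.Icc (-1 : ℝ) 1) :
    |Real.artanh (κ * z)| ≤ Real.artanh κ := by
  have hz1 : -κ ≤ κ * z := by nlinarith [hz.1]
  have hz2 : κ * z ≤ κ := by nlinarith [hz.2]
  have hκ : κ < 1 := by linarith
  rw [abs_le]
  constructor
  · have := Real.artanh_le_artanh (x := -κ) (y := κ * z) (by linarith) (by linarith) hz1
    rw [Nish_aux_artanh_odd] at this
    exact this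
  · exact Real.artanh_le_artanh (by linarith) hκ hz2

private lemma inA_lt {s : ℝ} {e : Ev d} {W : LabT d} (h : inA s e W) : (e.2 : ℝ) < s := by
  have h1 : (0 : ℝ) ≤ W e := (W e).2.1
  have h2 := h.2
  unfold tE at h2
  linarith

lemma yS_abs (s : ℝ) (ω : OmD d) (x : Word d) : |yS s ω x| ≤ Mb s := by
  unfold yS
  rw [← Real.norm_eq_abs]
  refine tsum_of_norm_bounded (summable_artanh s).hasSum (fun j => ?_)
  rw [Real.norm_eq_abs]
  by_cases h : inA s (x, j) ω.2.2
  · rw [if_pos h, if_pos (inA_lt h)]
    exact artanh_abs_le (kp_pos j).le (kp_le j) (Zo_mem ω (x, j))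
  · rw [if_neg h, abs_zero]
    split_ifs
    · exact artanh_kp_nonneg j
    · exact le_rfl

lemma yS_eq (s : ℝ) (ω : OmD d) (x : Word d) : yS s ω x = sp (ω.1 x) * xiS s ω x := by
  unfold yS xiS
  rw [← tsum_mul_left]
  refine tsum_congr (fun j => ?_)
  by_cases h : inA s (x, j) ω.2.2
  · rw [if_pos h, if_pos h]
    unfold Zo
    cases ω.1 x with
    | false => simp [sp]
    | true =>
      simp only [sp, if_true]
      rw [show kp j * (-1 * zh ω (x, j)) = -(kp j * zh ω (x, j)) by ring, Nish_aux_artanh_odd]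
      ring
  · rw [if_neg h, if_neg h, mul_zero]

lemma yS_actO (s : ℝ) (g : Aut d) (ω : OmD d) : yS s (actO g ω) = actS g (yS s ω) := rfl

lemma Uo_actO [Corr θ] (g : Aut d) (ω : OmD d) (e : Ev d) : Uo θ (actO g ω) (g e.1, e.2) = Uo θ ω e := by
  obtain ⟨x, j⟩ := e
  have hW : (actO g ω).2.2 (g x, j) = ω.2.2 (x, j) := by
    show ω.2.2 (g.symm (g x), j) = _
    rw [g.symm_apply_apply]
  have hV : (actO g ω).2.1 (g x, j) = ω.2.1 (x, j) := by
    show ω.2.1 (g.symm (g x), j) = _
    rw [g.symm_apply_apply]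
  have hS : (actO g ω).1 (g x) = ω.1 x := by
    show ω.1 (g.symm (g x)) = _
    rw [g.symm_apply_apply]
  have hA : actE (g x, j) (actO g ω).2.2 ↔ actE (x, j) ω.2.2 := by
    unfold actE
    rw [hW]
  have hT : tE (g x, j) (actO g ω).2.2 = tE (x, j) ω.2.2 := by
    unfold tE
    rw [hW]
  have hZ : Zo (actO g ω) (g x, j) = Zo ω (x, j) := by
    unfold Zo zh
    simp only [hS, hV]
  unfold Uo
  by_cases h : actE (x, j) ω.2.2
  · rw [if_pos (hA.mpr h), if_pos h]
    simp only [hT, hZ, yS_actO, mm_map]
  · rw [if_neg (fun h' => h (hA.mp h')), if_neg h, hV]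

private lemma mm_abs_le_one (θ : ℝ) (x : Word d) (y : Word d → ℝ) : |mm θ x y| ≤ 1 := by
  unfold mm
  have hb : ∀ R, -1 ≤ mD θ (Bl x R) y x ∧ mD θ (Bl x R) y x ≤ 1 := fun R =>
    ⟨(Real.neg_one_lt_tanh _).le, (Real.tanh_lt_one _).le⟩
  have hub : IsBoundedUnder (· ≤ ·) atTop (fun R => mD θ (Bl x R) y x) :=
    isBoundedUnder_of ⟨1, fun R => (hb R).2⟩
  have hlb : IsBoundedUnder (· ≥ ·) atTop (fun R => mD θ (Bl x R) y x) :=
    isBoundedUnder_of ⟨-1, fun R => (hb R).1⟩
  rw [abs_le]
  constructor
  · exact le_limsup_of_frequently_le (Frequently.of_forall fun R => (hb R).1) hub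
  · exact limsup_le_of_le hlb.isCoboundedUnder_le (Eventually.of_forall fun R => (hb R).2)

lemma Uo_mem (ω : OmD d) (e : Ev d) : Uo θ ω e ∈ Set.Icc (0 : ℝ) 1 := by
  unfold Uo
  split_ifs
  · apply cdfA_mem _ (Zo_mem ω e)
    rw [abs_mul, abs_of_pos (kp_pos _)]
    have h1 := mm_abs_le_one θ e.1 (yS (tE e ω.2.2) ω)
    have h2 := kp_le e.2
    have h3 := kp_pos e.2
    have h4 := abs_nonneg (mm θ e.1 (yS (tE e ω.2.2) ω))
    nlinarith
  · exact (ω.2.1 e).2

private lemma meas_tsum {α : Type*} [MeasurableSpace α] {f : ℤ → α → ℝ} (hf : ∀ j, Measurable (f j))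
    (hs : ∀ a, Summable (fun j => f j a)) : Measurable (fun a => ∑' j, f j a) :=
  measurable_of_tendsto_metrizable' (atTop : Filter (Finset ℤ)) (f := fun S a => ∑ j ∈ S, f j a)
    (fun _ => Finset.measurable_sum _ fun j _ => hf j) (tendsto_pi_nhds.mpr fun a => (hs a).hasSum)

private lemma measurable_V (e : Ev d) : Measurable (fun ω : OmD d => (ω.2.1 e : ℝ)) :=
  measurable_subtype_coe.comp ((measurable_pi_apply e).comp (measurable_fst.comp measurable_snd))

private lemma measurable_W (e : Ev d) : Measurable (fun ω : OmD d => (ω.2.2 e : ℝ)) :=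
  measurable_subtype_coe.comp ((measurable_pi_apply e).comp (measurable_snd.comp measurable_snd))

private lemma measurable_sp : Measurable sp := Measurable.of_discrete

private lemma measurable_zh (e : Ev d) : Measurable (fun ω : OmD d => zh ω e) :=
  measurable_quant.comp (measurable_const.prodMk (measurable_V e))

private lemma measurable_Zo (e : Ev d) : Measurable (fun ω : OmD d => Zo ω e) :=
  (measurable_sp.comp ((measurable_pi_apply e.1).comp measurable_fst)).mul (measurable_zh e)

private lemma measurable_tE (e : Ev d) : Measurable (fun ω : OmD d => tE e ω.2.2) :=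
  measurable_const.add (measurable_const.mul (measurable_W e))

private lemma measurableSet_actE (e : Ev d) : MeasurableSet {ω : OmD d | actE e ω.2.2} :=
  measurableSet_lt (measurable_W e) measurable_const

private lemma measurableSet_inA (e : Ev d) : MeasurableSet {p : ℝ × OmD d | inA p.1 e p.2.2.2} := by
  have h1 : MeasurableSet {p : ℝ × OmD d | actE e p.2.2.2} := measurable_snd (measurableSet_actE e)
  have h2 : MeasurableSet {p : ℝ × OmD d | tE e p.2.2.2 < p.1} :=
    measurableSet_lt ((measurable_tE e).comp measurable_snd) measurable_fst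
  exact h1.inter h2

open Classical in
private lemma yS_term_le (t : ℝ) (ω : OmD d) (x : Word d) (j : ℤ) :
    ‖(if inA t (x, j) ω.2.2 then Real.artanh (kp j * Zo ω (x, j)) else 0 : ℝ)‖ ≤
      if (j : ℝ) < t then Real.artanh (kp j) else 0 := by
  rw [Real.norm_eq_abs]
  by_cases h : inA t (x, j) ω.2.2
  · rw [if_pos h, if_pos (inA_lt h)]
    exact artanh_abs_le (kp_pos j).le (kp_le j) (Zo_mem ω (x, j))
  · rw [if_neg h, abs_zero]
    split_ifs
    · exact artanh_kp_nonneg j
    · exact le_rfl

/-- Joint measurability in the time and the point. -/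
lemma measurable_yS (x : Word d) : Measurable (fun p : ℝ × OmD d => yS p.1 p.2 x) := by
  unfold yS
  refine meas_tsum (fun j => ?_) (fun p => ?_)
  · refine Measurable.ite (measurableSet_inA (x, j)) ?_ measurable_const
    have h1 : Measurable (fun p : ℝ × OmD d => kp j * Zo p.2 (x, j)) :=
      measurable_const.mul ((measurable_Zo (x, j)).comp measurable_snd)
    have h2 : Measurable Real.artanh := by
      unfold Real.artanh
      fun_prop
    exact h2.comp h1
  · exact Summable.of_norm_bounded (summable_artanh p.1) (fun j => yS_term_le p.1 p.2 x j)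

lemma measurable_yS' (s : ℝ) : Measurable (yS (d := d) s) :=
  measurable_pi_iff.mpr fun x => (measurable_yS x).comp (measurable_const.prodMk measurable_id)

lemma measurable_Uo [Corr θ] (e : Ev d) : Measurable (fun ω : OmD d => Uo θ ω e) := by
  unfold Uo
  refine Measurable.ite (measurableSet_actE e) ?_ (measurable_V e)
  have h1 : Measurable (fun ω : OmD d => yS (tE e ω.2.2) ω) :=
    measurable_pi_iff.mpr fun x => (measurable_yS x).comp ((measurable_tE e).prodMk measurable_id)
  have h2 : Measurable (fun ω : OmD d => kp e.2 * mm θ e.1 (yS (tE e ω.2.2) ω)) :=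
    measurable_const.mul ((measurable_mm θ e.1).comp h1)
  exact measurable_cdfA.comp (h2.prodMk (measurable_Zo e))

private lemma measurableSet_inA' (s : ℝ) (e : Ev d) : MeasurableSet {ω : OmD d | inA s e ω.2.2} :=
  (measurableSet_actE e).inter (measurableSet_lt (measurable_tE e) measurable_const)

lemma measurable_Gd [Corr θ] (s : ℝ) : Measurable (Gd (d := d) θ s) :=
  measurable_pi_iff.mpr fun e =>
    ((measurable_tE e).min measurable_const).prodMk
      (Measurable.ite (measurableSet_inA' s e) (measurable_Uo e) measurable_const)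

private lemma measurable_Dd (s : ℝ) : Measurable (Dd (d := d) s) :=
  measurable_pi_iff.mpr fun e =>
    ((measurable_tE e).min measurable_const).prodMk
      (Measurable.ite (measurableSet_inA' s e) (measurable_Zo e) measurable_const)

lemma FOs_le (s : ℝ) : FOs (d := d) s ≤ (inferInstance : MeasurableSpace (OmD d)) :=
  (measurable_Dd s).comap_le

private noncomputable def clampZ (z : ℝ) : ℝ := max (-1) (min z 1)

private lemma clampZ_mem (z : ℝ) : clampZ z ∈ Set.Icc (-1 : ℝ) 1 := by
  unfold clampZ
  constructor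
  · exact le_max_left _ _
  · exact max_le (by norm_num) (min_le_right _ _)

private lemma clampZ_of_mem {z : ℝ} (hz : z ∈ Set.Icc (-1 : ℝ) 1) : clampZ z = z := by
  unfold clampZ
  rw [min_eq_left hz.2, max_eq_right hz.1]

private lemma measurable_clampZ : Measurable clampZ := by
  unfold clampZ
  fun_prop

open Classical in
private noncomputable def psiD (t : ℝ) (D : Ev d → ℝ × ℝ) (x : Word d) : ℝ :=
  ∑' j : ℤ, if (j : ℝ) < t ∧ (D (x, j)).1 < t ∧ (D (x, j)).1 < (j : ℝ) + 1 then
    Real.artanh (kp j * clampZ (D (x, j)).2) else 0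

private lemma measurable_artanh : Measurable Real.artanh := by
  unfold Real.artanh
  fun_prop

private lemma measurable_psiD (x : Word d) :
    Measurable (fun p : ℝ × (Ev d → ℝ × ℝ) => psiD p.1 p.2 x) := by
  unfold psiD
  refine meas_tsum (fun j => ?_) (fun p => ?_)
  · have hc : Measurable (fun p : ℝ × (Ev d → ℝ × ℝ) => p.2 (x, j)) :=
      (measurable_pi_apply (x, j)).comp measurable_snd
    have hc1 : Measurable (fun p : ℝ × (Ev d → ℝ × ℝ) => (p.2 (x, j)).1) := measurable_fst.comp hc
    have hc2 : Measurable (fun p : ℝ × (Ev d → ℝ × ℝ) => (p.2 (x, j)).2) := measurable_snd.comp hc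
    refine Measurable.ite ?_ ?_ measurable_const
    · exact (measurableSet_lt measurable_const measurable_fst).inter
        ((measurableSet_lt hc1 measurable_fst).inter (measurableSet_lt hc1 measurable_const))
    · exact measurable_artanh.comp (measurable_const.mul (measurable_clampZ.comp hc2))
  · refine Summable.of_norm_bounded (summable_artanh p.1) (fun j => ?_)
    rw [Real.norm_eq_abs]
    by_cases h : (j : ℝ) < p.1 ∧ (p.2 (x, j)).1 < p.1 ∧ (p.2 (x, j)).1 < (j : ℝ) + 1
    · rw [if_pos h, if_pos h.1]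
      exact artanh_abs_le (kp_pos j).le (kp_le j) (clampZ_mem _)
    · rw [if_neg h, abs_zero]
      split_ifs
      · exact artanh_kp_nonneg j
      · exact le_rfl

private lemma actE_iff_tE {e : Ev d} {W : LabT d} : actE e W ↔ tE e W < (e.2 : ℝ) + 1 := by
  unfold actE tE
  constructor <;> intro h <;> linarith

private lemma inA_iff_min {s : ℝ} {e : Ev d} {W : LabT d} :
    inA s e W ↔ min (tE e W) s < s ∧ min (tE e W) s < (e.2 : ℝ) + 1 := by
  unfold inA
  rw [actE_iff_tE]
  constructor
  · rintro ⟨h1, h2⟩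
    rw [min_eq_left h2.le]
    exact ⟨h2, h1⟩
  · rintro ⟨h1, h2⟩
    have h3 : tE e W < s := by
      by_contra hc
      push Not at hc
      rw [min_eq_right hc] at h1
      exact lt_irrefl _ h1
    rw [min_eq_left h3.le] at h2
    exact ⟨h2, h3⟩

open Classical in
private lemma yS_eq_psiD {s t : ℝ} (ht : t < s) (ω : OmD d) (x : Word d) :
    yS t ω x = psiD t (Dd s ω) x := by
  unfold yS psiD
  refine tsum_congr (fun j => ?_)
  by_cases h : inA t (x, j) ω.2.2
  · have hlt : tE (x, j) ω.2.2 < t := h.2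
    have hs : tE (x, j) ω.2.2 < s := hlt.trans ht
    have hA : inA s (x, j) ω.2.2 := ⟨h.1, hs⟩
    have hD1 : (Dd s ω (x, j)).1 = tE (x, j) ω.2.2 := by
      show min _ _ = _
      exact min_eq_left hs.le
    have hD2 : (Dd s ω (x, j)).2 = Zo ω (x, j) := by
      show (if _ then _ else _) = _
      exact if_pos hA
    rw [if_pos h, hD1, hD2, clampZ_of_mem (Zo_mem ω (x, j)), if_pos]
    exact ⟨inA_lt h, hlt, actE_iff_tE.mp h.1⟩
  · rw [if_neg h, if_neg]
    rintro ⟨-, h2, h3⟩
    apply h
    have hD1 : (Dd s ω (x, j)).1 = min (tE (x, j) ω.2.2) s := rfl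
    rw [hD1] at h2 h3
    have h4 : tE (x, j) ω.2.2 < s := by
      by_contra hc
      push Not at hc
      rw [min_eq_right hc] at h2
      linarith
    rw [min_eq_left h4.le] at h2 h3
    exact ⟨actE_iff_tE.mpr h3, h2⟩

open Classical in
private noncomputable def PhiG (θ s : ℝ) (D : Ev d → ℝ × ℝ) : Ev d → ℝ × ℝ := fun e =>
  ((D e).1, if (D e).1 < s ∧ (D e).1 < (e.2 : ℝ) + 1 then
    cdfA (kp e.2 * mm θ e.1 (psiD (D e).1 D)) (D e).2 else 0)

open Classical in
private lemma Gd_eq_PhiG (s : ℝ) (ω : OmD d) : Gd θ s ω = PhiG θ s (Dd s ω) := by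
  funext e
  have hD1 : (Dd s ω e).1 = min (tE e ω.2.2) s := rfl
  have hD2 : (Dd s ω e).2 = if inA s e ω.2.2 then Zo ω e else 0 := rfl
  refine Prod.ext rfl ?_
  show (if inA s e ω.2.2 then Uo θ ω e else 0) = (if (Dd s ω e).1 < s ∧ (Dd s ω e).1 < (e.2 : ℝ) + 1 then
    cdfA (kp e.2 * mm θ e.1 (psiD (Dd s ω e).1 (Dd s ω))) (Dd s ω e).2 else 0)
  by_cases h : inA s e ω.2.2
  · have hm := inA_iff_min.mp h
    rw [if_pos h, hD1, if_pos hm, hD2, if_pos h]
    have ht : min (tE e ω.2.2) s = tE e ω.2.2 := min_eq_left h.2.le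
    rw [ht]
    have hf : psiD (tE e ω.2.2) (Dd s ω) = yS (tE e ω.2.2) ω := by
      funext x
      exact (yS_eq_psiD h.2 ω x).symm
    rw [hf]
    unfold Uo
    rw [if_pos h.1]
  · rw [if_neg h, hD1, if_neg]
    exact fun hm => h (inA_iff_min.mpr hm)

private lemma measurable_PhiG (θ s : ℝ) [Corr θ] : Measurable (PhiG (d := d) θ s) := by
  refine measurable_pi_iff.mpr fun e => ?_
  have hc : Measurable (fun D : Ev d → ℝ × ℝ => D e) := measurable_pi_apply e
  have hc1 : Measurable (fun D : Ev d → ℝ × ℝ => (D e).1) := measurable_fst.comp hc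
  have hc2 : Measurable (fun D : Ev d → ℝ × ℝ => (D e).2) := measurable_snd.comp hc
  refine hc1.prodMk (Measurable.ite ?_ ?_ measurable_const)
  · exact (measurableSet_lt hc1 measurable_const).inter (measurableSet_lt hc1 measurable_const)
  · have h1 : Measurable (fun D : Ev d → ℝ × ℝ => psiD (D e).1 D) :=
      measurable_pi_iff.mpr fun x => (measurable_psiD x).comp (hc1.prodMk measurable_id)
    have h2 : Measurable (fun D : Ev d → ℝ × ℝ => kp e.2 * mm θ e.1 (psiD (D e).1 D)) :=
      measurable_const.mul ((measurable_mm θ e.1).comp h1)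
    exact measurable_cdfA.comp (h2.prodMk hc2)

lemma GGs_le_FOs [Corr θ] (s : ℝ) : GGs (d := d) θ s ≤ FOs s := by
  have h : Gd (d := d) θ s = PhiG θ s ∘ Dd s := funext (Gd_eq_PhiG s)
  unfold GGs FOs
  rw [h, ← MeasurableSpace.comap_comp]
  exact MeasurableSpace.comap_mono (measurable_PhiG θ s).comap_le

open Classical in
private noncomputable def HG (s : ℝ) (F : Ev d → ℝ × ℝ) : Ev d → ℝ × ℝ := fun e =>
  (min (F e).1 s, if (F e).1 < s ∧ (F e).1 < (e.2 : ℝ) + 1 then (F e).2 else 0)

private lemma measurable_HG (s : ℝ) : Measurable (HG (d := d) s) := by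
  refine measurable_pi_iff.mpr fun e => ?_
  have hc : Measurable (fun D : Ev d → ℝ × ℝ => D e) := measurable_pi_apply e
  have hc1 : Measurable (fun D : Ev d → ℝ × ℝ => (D e).1) := measurable_fst.comp hc
  have hc2 : Measurable (fun D : Ev d → ℝ × ℝ => (D e).2) := measurable_snd.comp hc
  refine (hc1.min measurable_const).prodMk (Measurable.ite ?_ hc2 measurable_const)
  exact (measurableSet_lt hc1 measurable_const).inter (measurableSet_lt hc1 measurable_const)

open Classical in
private lemma Gd_eq_HG {s t : ℝ} (h : s ≤ t) (ω : OmD d) : Gd θ s ω = HG s (Gd θ t ω) := by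
  funext e
  have hG1 : (Gd θ t ω e).1 = min (tE e ω.2.2) t := rfl
  have hG2 : (Gd θ t ω e).2 = if inA t e ω.2.2 then Uo θ ω e else 0 := rfl
  refine Prod.ext ?_ ?_
  · show min (tE e ω.2.2) s = min (Gd θ t ω e).1 s
    rw [hG1, min_assoc, min_eq_right h]
  · show (if inA s e ω.2.2 then Uo θ ω e else 0) =
      if (Gd θ t ω e).1 < s ∧ (Gd θ t ω e).1 < (e.2 : ℝ) + 1 then (Gd θ t ω e).2 else 0
    rw [hG1]
    by_cases hA : inA s e ω.2.2
    · have hlt : tE e ω.2.2 < t := hA.2.trans_le h
      rw [if_pos hA, min_eq_left hlt.le, if_pos ⟨hA.2, actE_iff_tE.mp hA.1⟩, hG2, if_pos ⟨hA.1, hlt⟩]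
    · rw [if_neg hA, if_neg]
      rintro ⟨h1, h2⟩
      have h3 : tE e ω.2.2 < t := by
        by_contra hc
        push Not at hc
        rw [min_eq_right hc] at h1
        linarith
      rw [min_eq_left h3.le] at h1 h2
      exact hA ⟨actE_iff_tE.mpr h2, h1⟩

lemma GGs_mono [Corr θ] {s t : ℝ} (h : s ≤ t) : GGs (d := d) θ s ≤ GGs θ t := by
  have he : Gd (d := d) θ s = HG s ∘ Gd θ t := funext (Gd_eq_HG h)
  unfold GGs
  rw [he, ← MeasurableSpace.comap_comp]
  exact MeasurableSpace.comap_mono (measurable_HG s).comap_le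

private def RG (g : Aut d) (F : Ev d → ℝ × ℝ) : Ev d → ℝ × ℝ := fun e => F (g.symm e.1, e.2)

private lemma measurable_RG (g : Aut d) : Measurable (RG g) :=
  measurable_pi_lambda _ fun _ => measurable_pi_apply _

open Classical in
private lemma Gd_actO [Corr θ] (s : ℝ) (g : Aut d) (ω : OmD d) : Gd θ s (actO g ω) = RG g (Gd θ s ω) := by
  funext e
  obtain ⟨y, j⟩ := e
  obtain ⟨x, rfl⟩ : ∃ x, y = g x := ⟨g.symm y, (g.apply_symm_apply y).symm⟩
  have hW : (actO g ω).2.2 (g x, j) = ω.2.2 (x, j) := by
    show ω.2.2 (g.symm (g x), j) = _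
    rw [g.symm_apply_apply]
  have hT : tE (g x, j) (actO g ω).2.2 = tE (x, j) ω.2.2 := by
    unfold tE
    rw [hW]
  have hA : inA s (g x, j) (actO g ω).2.2 ↔ inA s (x, j) ω.2.2 := by
    unfold inA actE
    rw [hT, hW]
  show (min (tE (g x, j) (actO g ω).2.2) s, if inA s (g x, j) (actO g ω).2.2 then Uo θ (actO g ω) (g x, j) else 0) =
    Gd θ s ω (g.symm (g x), j)
  rw [g.symm_apply_apply, hT, Uo_actO g ω (x, j)]
  show _ = (min (tE (x, j) ω.2.2) s, if inA s (x, j) ω.2.2 then Uo θ ω (x, j) else 0)
  by_cases h : inA s (x, j) ω.2.2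
  · rw [if_pos (hA.mpr h), if_pos h]
  · rw [if_neg (fun h' => h (hA.mp h')), if_neg h]

lemma GGs_inv [Corr θ] (s : ℝ) (g : Aut d) : MeasurableSpace.comap (actO g) (GGs (d := d) θ s) = GGs θ s := by
  unfold GGs
  apply le_antisymm
  · have he : Gd (d := d) θ s ∘ actO g = RG g ∘ Gd θ s := funext (Gd_actO s g)
    rw [MeasurableSpace.comap_comp, he, ← MeasurableSpace.comap_comp]
    exact MeasurableSpace.comap_mono (measurable_RG g).comap_le
  · have he : Gd (d := d) θ s = RG g⁻¹ ∘ (Gd θ s ∘ actO g) := by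
      funext ω
      funext e
      have h := congrFun (Gd_actO (θ := θ) s g ω) (g e.1, e.2)
      show Gd θ s ω e = Gd θ s (actO g ω) (g⁻¹.symm e.1, e.2)
      rw [show g⁻¹.symm e.1 = g e.1 from rfl, h]
      show Gd θ s ω e = Gd θ s ω (g.symm (g e.1), e.2)
      rw [g.symm_apply_apply]
    calc MeasurableSpace.comap (Gd θ s) inferInstance
        = MeasurableSpace.comap (RG g⁻¹ ∘ (Gd θ s ∘ actO g)) inferInstance := by rw [← he]
      _ = MeasurableSpace.comap (Gd θ s ∘ actO g) (MeasurableSpace.comap (RG g⁻¹) inferInstance) := by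
          rw [MeasurableSpace.comap_comp]
      _ ≤ MeasurableSpace.comap (Gd θ s ∘ actO g) inferInstance :=
          MeasurableSpace.comap_mono (measurable_RG g⁻¹).comap_le
      _ = MeasurableSpace.comap (actO g) (MeasurableSpace.comap (Gd θ s) inferInstance) := by
          rw [MeasurableSpace.comap_comp]

private lemma map_unzip {ι : Type*} {X Y : ι → Type*} [∀ i, MeasurableSpace (X i)]
    [∀ i, MeasurableSpace (Y i)] (α : ∀ i, Measure (X i)) (β : ∀ i, Measure (Y i))
    [∀ i, IsProbabilityMeasure (α i)] [∀ i, IsProbabilityMeasure (β i)] :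
    (Measure.infinitePi α).prod (Measure.infinitePi β) =
      (Measure.infinitePi (fun i => (α i).prod (β i))).map
        (fun ω => ((fun i => (ω i).1 : ∀ i, X i), (fun i => (ω i).2 : ∀ i, Y i))) := by
  classical
  have hm : Measurable (fun ω : ∀ i, X i × Y i =>
      ((fun i => (ω i).1 : ∀ i, X i), (fun i => (ω i).2 : ∀ i, Y i))) :=
    (measurable_pi_lambda _ fun i => measurable_fst.comp (measurable_pi_apply i)).prodMk
      (measurable_pi_lambda _ fun i => measurable_snd.comp (measurable_pi_apply i))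
  have hu1 : (Set.univ : Set (∀ i, X i)) ∈ squareCylinders fun i => {s : Set (X i) | MeasurableSet s} :=
    ⟨∅, fun _ => Set.univ, by simp, by simp⟩
  have hu2 : (Set.univ : Set (∀ i, Y i)) ∈ squareCylinders fun i => {s : Set (Y i) | MeasurableSet s} :=
    ⟨∅, fun _ => Set.univ, by simp, by simp⟩
  refine Measure.prod_eq_generateFrom (C := squareCylinders fun i => {s : Set (X i) | MeasurableSet s})
    (D := squareCylinders fun i => {s : Set (Y i) | MeasurableSet s})
    generateFrom_squareCylinders generateFrom_squareCylinders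
    (isPiSystem_squareCylinders (fun _ => MeasurableSpace.isPiSystem_measurableSet) (fun _ => MeasurableSet.univ))
    (isPiSystem_squareCylinders (fun _ => MeasurableSpace.isPiSystem_measurableSet) (fun _ => MeasurableSet.univ))
    ⟨fun _ => Set.univ, fun _ => hu1, fun _ => measure_lt_top _ _, Set.iUnion_const _⟩
    ⟨fun _ => Set.univ, fun _ => hu2, fun _ => measure_lt_top _ _, Set.iUnion_const _⟩ ?_
  rintro _ ⟨S, a, ha, rfl⟩ _ ⟨T, b, hb, rfl⟩
  have ha' : ∀ i, MeasurableSet (a i) := fun i => ha i (Set.mem_univ i)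
  have hb' : ∀ i, MeasurableSet (b i) := fun i => hb i (Set.mem_univ i)
  set a' : ∀ i, Set (X i) := fun i => if i ∈ S then a i else Set.univ with ha'def
  set b' : ∀ i, Set (Y i) := fun i => if i ∈ T then b i else Set.univ with hb'def
  have hma : ∀ i, MeasurableSet (a' i) := by
    intro i
    simp only [ha'def]
    split_ifs
    · exact ha' i
    · exact MeasurableSet.univ
  have hmb : ∀ i, MeasurableSet (b' i) := by
    intro i
    simp only [hb'def]
    split_ifs
    · exact hb' i
    · exact MeasurableSet.univ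
  have e1 : ((S : Set ι).pi a) = (((S ∪ T : Finset ι)) : Set ι).pi a' := by
    ext x
    simp only [Set.mem_pi, Finset.coe_union, Set.mem_union, Finset.mem_coe, ha'def]
    constructor
    · intro h i _
      split_ifs with hi
      · exact h i hi
      · exact Set.mem_univ _
    · intro h i hi
      have := h i (Or.inl hi)
      rwa [if_pos hi] at this
  have e2 : ((T : Set ι).pi b) = (((S ∪ T : Finset ι)) : Set ι).pi b' := by
    ext x
    simp only [Set.mem_pi, Finset.coe_union, Set.mem_union, Finset.mem_coe, hb'def]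
    constructor
    · intro h i _
      split_ifs with hi
      · exact h i hi
      · exact Set.mem_univ _
    · intro h i hi
      have := h i (Or.inr hi)
      rwa [if_pos hi] at this
  have hset : (fun ω : ∀ i, X i × Y i => ((fun i => (ω i).1 : ∀ i, X i), (fun i => (ω i).2 : ∀ i, Y i))) ⁻¹'
      (((S : Set ι).pi a) ×ˢ ((T : Set ι).pi b)) =
      ((S ∪ T : Finset ι) : Set ι).pi (fun i => a' i ×ˢ b' i) := by
    rw [e1, e2]
    ext ω
    simp only [Set.mem_preimage, Set.mem_prod, Set.mem_pi]
    constructor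
    · rintro ⟨h1, h2⟩ i hi
      exact ⟨h1 i hi, h2 i hi⟩
    · intro h
      exact ⟨fun i hi => (h i hi).1, fun i hi => (h i hi).2⟩
  have hms : MeasurableSet (((S : Set ι).pi a) ×ˢ ((T : Set ι).pi b)) :=
    (MeasurableSet.pi S.countable_toSet fun i _ => ha' i).prod
      (MeasurableSet.pi T.countable_toSet fun i _ => hb' i)
  rw [Measure.map_apply hm hms, hset, Measure.infinitePi_pi _ (fun i _ => (hma i).prod (hmb i)), e1, e2,
    Measure.infinitePi_pi _ (fun i _ => hma i), Measure.infinitePi_pi _ (fun i _ => hmb i),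
    ← Finset.prod_mul_distrib]
  refine Finset.prod_congr rfl (fun i _ => ?_)
  rw [Measure.prod_prod]

/-- The uniform law on the labels of one site. -/
private noncomputable def volZ : Measure (ℤ → unitInterval) :=
  Measure.infinitePi (fun _ : ℤ => (volume : Measure unitInterval))

private instance : IsProbabilityMeasure volZ := by
  unfold volZ
  infer_instance

open Classical in
/-- The gauge transformed field as a function of the labels of one site. -/
private noncomputable def xi0 (s : ℝ) (vw : (ℤ → unitInterval) × (ℤ → unitInterval)) : ℝ :=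
  ∑' j : ℤ, if ((vw.2 j : ℝ) < 1 / 2 ∧ (j : ℝ) + 2 * (vw.2 j : ℝ) < s) then
    Real.artanh (kp j * quant (kp j) (vw.1 j)) else 0

private lemma measurable_xi0 (s : ℝ) : Measurable (xi0 s) := by
  unfold xi0
  refine meas_tsum (fun j => ?_) (fun p => ?_)
  · have hv : Measurable (fun vw : (ℤ → unitInterval) × (ℤ → unitInterval) => (vw.1 j : ℝ)) :=
      measurable_subtype_coe.comp ((measurable_pi_apply j).comp measurable_fst)
    have hw : Measurable (fun vw : (ℤ → unitInterval) × (ℤ → unitInterval) => (vw.2 j : ℝ)) :=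
      measurable_subtype_coe.comp ((measurable_pi_apply j).comp measurable_snd)
    refine Measurable.ite ?_ ?_ measurable_const
    · exact (measurableSet_lt hw measurable_const).inter
        (measurableSet_lt (measurable_const.add (measurable_const.mul hw)) measurable_const)
    · exact measurable_artanh.comp (measurable_const.mul
        (measurable_quant.comp (measurable_const.prodMk hv)))
  · refine Summable.of_norm_bounded (summable_artanh s) (fun j => ?_)
    rw [Real.norm_eq_abs]
    by_cases h : (p.2 j : ℝ) < 1 / 2 ∧ (j : ℝ) + 2 * (p.2 j : ℝ) < s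
    · have hj : (j : ℝ) < s := by
        have h1 : (0 : ℝ) ≤ p.2 j := (p.2 j).2.1
        linarith [h.2]
      rw [if_pos h, if_pos hj]
      exact artanh_abs_le (kp_pos j).le (kp_le j) (quant_mem (kp_abs j) (p.1 j).2)
    · rw [if_neg h, abs_zero]
      split_ifs
      · exact artanh_kp_nonneg j
      · exact le_rfl

/-- The field on all sites as a function of the labels. -/
private noncomputable def Xi (s : ℝ) (vw : LabT d × LabT d) (x : Word d) : ℝ :=
  xi0 s ((fun j => vw.1 (x, j)), (fun j => vw.2 (x, j)))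

private lemma xiS_eq_Xi (s : ℝ) (ω : OmD d) (x : Word d) : xiS s ω x = Xi s ω.2 x := by
  unfold xiS Xi xi0
  refine tsum_congr (fun j => ?_)
  by_cases h : inA s (x, j) ω.2.2
  · rw [if_pos h, if_pos]
    · rfl
    · exact h
  · rw [if_neg h, if_neg]
    exact h

private lemma measurable_Xi (s : ℝ) : Measurable (Xi (d := d) s) :=
  measurable_pi_lambda _ fun x => (measurable_xi0 s).comp
    ((measurable_pi_lambda _ fun j => (measurable_pi_apply (x, j)).comp measurable_fst).prodMk
      (measurable_pi_lambda _ fun j => (measurable_pi_apply (x, j)).comp measurable_snd))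

private def curE (z : LabT d) : Word d → ℤ → unitInterval := fun x j => z (x, j)

private lemma measurable_curE : Measurable (curE (d := d)) :=
  measurable_pi_lambda _ fun x => measurable_pi_lambda _ fun j => measurable_pi_apply (x, j)

private lemma map_curE : (volE d).map curE = Measure.infinitePi (fun _ : Word d => volZ) :=
  Measure.infinitePi_map_curry (fun (_ : Word d) (_ : ℤ) => (volume : Measure unitInterval))

private instance (s : ℝ) : IsProbabilityMeasure ((volZ.prod volZ).map (xi0 s)) :=
  Measure.isProbabilityMeasure_map (measurable_xi0 s).aemeasurable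

private lemma map_Xi (s : ℝ) :
    ((volE d).prod (volE d)).map (Xi s) =
      Measure.infinitePi (fun _ : Word d => (volZ.prod volZ).map (xi0 s)) := by
  have h1 : ((volE d).prod (volE d)).map (Prod.map curE curE) =
      (Measure.infinitePi (fun _ : Word d => volZ)).prod (Measure.infinitePi (fun _ : Word d => volZ)) := by
    rw [← Measure.map_prod_map _ _ measurable_curE measurable_curE, map_curE]
  have h2 := map_unzip (fun _ : Word d => volZ) (fun _ : Word d => volZ)
  have hG : Measurable (fun ab : (Word d → ℤ → unitInterval) × (Word d → ℤ → unitInterval) =>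
      fun x => xi0 s (ab.1 x, ab.2 x)) :=
    measurable_pi_lambda _ fun x => (measurable_xi0 s).comp
      (((measurable_pi_apply x).comp measurable_fst).prodMk ((measurable_pi_apply x).comp measurable_snd))
  have h3 : Xi (d := d) s = (fun ab : (Word d → ℤ → unitInterval) × (Word d → ℤ → unitInterval) =>
      fun x => xi0 s (ab.1 x, ab.2 x)) ∘ Prod.map curE curE := rfl
  have hun : Measurable (fun ω : Word d → (ℤ → unitInterval) × (ℤ → unitInterval) =>
      ((fun i => (ω i).1 : Word d → ℤ → unitInterval), (fun i => (ω i).2 : Word d → ℤ → unitInterval))) :=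
    (measurable_pi_lambda _ fun i => measurable_fst.comp (measurable_pi_apply i)).prodMk
      (measurable_pi_lambda _ fun i => measurable_snd.comp (measurable_pi_apply i))
  rw [h3, ← Measure.map_map hG (measurable_curE.prodMap measurable_curE), h1, h2, Measure.map_map hG hun]
  exact Measure.infinitePi_map_pi _ (fun _ => measurable_xi0 s)

private lemma muS_eq [Corr θ] (hd : 0 < d) (s : ℝ) : muS d θ hd s = (volZ.prod volZ).map (xi0 s) := by
  have h1 : (fun ω : OmD d => xiS s ω (letter ⟨0, hd⟩)) =
      (fun f : Word d → ℝ => f (letter ⟨0, hd⟩)) ∘ (Xi s ∘ Prod.snd) := by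
    funext ω
    exact xiS_eq_Xi s ω _
  unfold muS PD
  rw [h1, ← Measure.map_map (measurable_pi_apply _) ((measurable_Xi s).comp measurable_snd),
    ← Measure.map_map (measurable_Xi s) measurable_snd, Measure.map_snd_prod, measure_univ, one_smul,
    map_Xi, Measure.infinitePi_map_eval]

/-- The field from the spins and the gauge transformed field. -/
private noncomputable def FF (p : (Word d → Bool) × (Word d → ℝ)) : Word d → ℝ := fun x => sp (p.1 x) * p.2 x

private lemma measurable_FF : Measurable (FF (d := d)) :=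
  measurable_pi_lambda _ fun x =>
    (measurable_sp.comp ((measurable_pi_apply x).comp measurable_fst)).mul
      ((measurable_pi_apply x).comp measurable_snd)

/-- The field at time `s` has law `LawY` with the law `muS s`. -/
theorem law_yS [Corr θ] (hd : 0 < d) (s : ℝ) :
    (PD d θ).map (yS s) = LawY d θ (muS d θ hd s) := by
  rw [muS_eq hd s]
  set m := (volZ.prod volZ).map (xi0 s) with hm
  have e1 : yS (d := d) s = FF ∘ Prod.map id (Xi s) := by
    funext ω x
    rw [yS_eq, xiS_eq_Xi]
    rfl
  have e2 : (PD d θ).map (Prod.map id (Xi s)) =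
      (isingLaw d θ).prod (Measure.infinitePi (fun _ : Word d => m)) := by
    rw [← map_Xi s, PD, ← Measure.map_prod_map _ _ measurable_id (measurable_Xi s), Measure.map_id]
  have htm : Measurable (tau (d := d)) := measurable_tau
  have e3 : (isingLaw d θ).prod (Measure.infinitePi (fun _ : Word d => m)) =
      ((tLaw d θ).prod (Measure.infinitePi (fun _ : Word d => m))).map (Prod.map tau id) := by
    rw [← Measure.map_prod_map _ _ htm measurable_id, Measure.map_id]
    rfl
  have e4 := map_unzip (mrg (d := d) θ) (fun _ : Word d => m)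
  have hun : Measurable (fun ω : Word d → Bool × ℝ =>
      ((fun i => (ω i).1 : Word d → Bool), (fun i => (ω i).2 : Word d → ℝ))) :=
    (measurable_pi_lambda _ fun i => measurable_fst.comp (measurable_pi_apply i)).prodMk
      (measurable_pi_lambda _ fun i => measurable_snd.comp (measurable_pi_apply i))
  have hP : Measurable (Prod.map (tau (d := d)) (id : (Word d → ℝ) → Word d → ℝ)) :=
    htm.prodMap measurable_id
  rw [e1, ← Measure.map_map measurable_FF (measurable_id.prodMap (measurable_Xi s)), e2, e3,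
    Measure.map_map measurable_FF hP]
  unfold tLaw
  rw [e4, Measure.map_map (measurable_FF.comp hP) hun]
  rfl
end Basic

/-- The static setting at time `s`. -/
noncomputable def St [Corr θ] (hd : 0 < d) (s : ℝ) : Setting d θ (muS d θ hd s) (OmD d) (PD d θ) where
  a := actO
  a_mp := mp_actO
  a_mul := actO_mul
  y := yS s
  y_meas := measurable_yS' s
  y_eq := fun g ω => yS_actO s g ω
  law := law_yS hd s
  G := GGs θ s
  G_le := (GGs_le_FOs s).trans (FOs_le s)
  G_inv := GGs_inv s

/-- The main quantity. -/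
noncomputable def rD [Corr θ] (hd : 0 < d) (s : ℝ) : ℝ := (St (θ := θ) hd s).r

end Vale.Agent.Lib.P161B
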