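import Mathlib

/-!
Auxiliary lemmas for `exp_lemma` and `static_tau`: exponential moments to weighted moments, and an abstract
comparison of errors of functions of magnetisations under a conditional expectation.
-/

namespace Vale.Agent.Lib.P161B

open MeasureTheory ProbabilityTheory Filter

/-- Pointwise inequalities behind `exp_lemma`. -/
theorem StaticTau_pointwise {A D Amax a Lam A1 : ℝ}
    (hA0 : 0 ≤ A) (hA1 : A ≤ Amax) (hD0 : 0 ≤ D) (ha : 0 < a) (hA10 : 0 ≤ A1)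
    (hLam : Real.log (Amax / a) ≤ Lam) (hLam1 : 1 ≤ Lam) :
    A * D ≤ (A1 + 1) * A + a * Real.exp (2 * Lam * (D - A1)) ∧
      A * D ^ 2 ≤ (2 * A1 ^ 2 + 2) * A + 2 * a * Real.exp (2 * Lam * (D - A1)) := by
  have hE : 0 < Real.exp (2 * Lam * (D - A1)) := Real.exp_pos _
  have hAmax : Amax ≤ a * Real.exp Lam := by
    have h0 : 0 ≤ Amax := hA0.trans hA1
    rcases h0.eq_or_lt with h | h
    · rw [← h]; positivity
    · have hq : 0 < Amax / a := div_pos h ha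
      have := Real.exp_le_exp.mpr hLam
      rw [Real.exp_log hq] at this
      rwa [div_le_iff₀' ha] at this
  by_cases ht : D - A1 ≤ 1
  · have hD1 : D ≤ A1 + 1 := by linarith
    constructor
    · have : A * D ≤ A * (A1 + 1) := mul_le_mul_of_nonneg_left hD1 hA0
      have h2 : 0 ≤ a * Real.exp (2 * Lam * (D - A1)) := by positivity
      nlinarith
    · have hD2 : D ^ 2 ≤ 2 * A1 ^ 2 + 2 := by nlinarith [sq_nonneg (A1 - 1)]
      have : A * D ^ 2 ≤ A * (2 * A1 ^ 2 + 2) := mul_le_mul_of_nonneg_left hD2 hA0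
      have h2 : 0 ≤ 2 * a * Real.exp (2 * Lam * (D - A1)) := by positivity
      nlinarith
  · push Not at ht
    set t := D - A1 with ht_def
    have hDt : D = A1 + t := by rw [ht_def]; ring
    have ht0 : 0 < t := by linarith
    have hte : t ≤ Real.exp (t - 1) := by
      have := Real.add_one_le_exp (t - 1)
      linarith
    have hLt : Real.exp Lam * t ≤ Real.exp (2 * Lam * t) := by
      have : Real.exp Lam * Real.exp (t - 1) = Real.exp (Lam + (t - 1)) := (Real.exp_add _ _).symm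
      calc Real.exp Lam * t ≤ Real.exp Lam * Real.exp (t - 1) :=
            mul_le_mul_of_nonneg_left hte (Real.exp_pos _).le
        _ = Real.exp (Lam + (t - 1)) := this
        _ ≤ _ := Real.exp_le_exp.mpr (by nlinarith)
    have hLt2 : Real.exp Lam * t ^ 2 ≤ Real.exp (2 * Lam * t) := by
      have h2 : t ^ 2 ≤ Real.exp (2 * (t - 1)) := by
        have : Real.exp (2 * (t - 1)) = Real.exp (t - 1) ^ 2 := by
          rw [← Real.exp_nat_mul]; norm_num
        rw [this]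
        exact pow_le_pow_left₀ ht0.le hte 2
      have : Real.exp Lam * Real.exp (2 * (t - 1)) = Real.exp (Lam + 2 * (t - 1)) :=
        (Real.exp_add _ _).symm
      calc Real.exp Lam * t ^ 2 ≤ Real.exp Lam * Real.exp (2 * (t - 1)) :=
            mul_le_mul_of_nonneg_left h2 (Real.exp_pos _).le
        _ = Real.exp (Lam + 2 * (t - 1)) := this
        _ ≤ _ := Real.exp_le_exp.mpr (by nlinarith)
    have hAt : A * t ≤ a * Real.exp (2 * Lam * t) := by
      calc A * t ≤ (a * Real.exp Lam) * t :=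
            mul_le_mul_of_nonneg_right (hA1.trans hAmax) ht0.le
        _ = a * (Real.exp Lam * t) := by ring
        _ ≤ _ := mul_le_mul_of_nonneg_left hLt ha.le
    have hAt2 : A * t ^ 2 ≤ a * Real.exp (2 * Lam * t) := by
      calc A * t ^ 2 ≤ (a * Real.exp Lam) * t ^ 2 :=
            mul_le_mul_of_nonneg_right (hA1.trans hAmax) (by positivity)
        _ = a * (Real.exp Lam * t ^ 2) := by ring
        _ ≤ _ := mul_le_mul_of_nonneg_left hLt2 ha.le
    constructor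
    · rw [hDt]
      nlinarith
    · rw [hDt]
      have : (A1 + t) ^ 2 ≤ 2 * A1 ^ 2 + 2 * t ^ 2 := by nlinarith [sq_nonneg (A1 - t)]
      have h3 : A * (A1 + t) ^ 2 ≤ A * (2 * A1 ^ 2 + 2 * t ^ 2) :=
        mul_le_mul_of_nonneg_left this hA0
      have h4 : 0 ≤ A * A1 ^ 2 := by positivity
      nlinarith

/-- Elementary lemma: from exponential moments to weighted moments. -/
theorem StaticTau_exp_lemma {Ω : Type*} [MeasurableSpace Ω] {P : Measure Ω} [IsProbabilityMeasure P]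
    {A D : Ω → ℝ} (hA : Measurable A) {Amax a Lam A1 : ℝ} (hA0 : ∀ ω, 0 ≤ A ω)
    (hA1 : ∀ ω, A ω ≤ Amax) (hD0 : ∀ ω, 0 ≤ D ω) (ha : 0 < a) (hE : ∫ ω, A ω ∂P ≤ a)
    (hA10 : 0 ≤ A1) (hLam : Real.log (Amax / a) ≤ Lam) (hLam1 : 1 ≤ Lam)
    (hexp : ∫ ω, Real.exp (2 * Lam * (D ω - A1)) ∂P ≤ 1)
    (hint : Integrable (fun ω => Real.exp (2 * Lam * (D ω - A1))) P) :
    ∫ ω, A ω * D ω ∂P ≤ a * (A1 + 2) ∧ ∫ ω, A ω * D ω ^ 2 ∂P ≤ a * (2 * A1 ^ 2 + 6) := by
  have hAi : Integrable A P := by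
    refine Integrable.of_bound hA.aestronglyMeasurable Amax (Eventually.of_forall fun ω => ?_)
    rw [Real.norm_eq_abs, abs_of_nonneg (hA0 ω)]
    exact hA1 ω
  have hpt := fun ω => StaticTau_pointwise (hA0 ω) (hA1 ω) (hD0 ω) ha hA10 hLam hLam1
  constructor
  · have hg : Integrable (fun ω => (A1 + 1) * A ω + a * Real.exp (2 * Lam * (D ω - A1))) P :=
      (hAi.const_mul _).add (hint.const_mul _)
    have h1 : ∫ ω, A ω * D ω ∂P ≤ ∫ ω, ((A1 + 1) * A ω + a * Real.exp (2 * Lam * (D ω - A1))) ∂P :=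
      integral_mono_of_nonneg (Eventually.of_forall fun ω => mul_nonneg (hA0 ω) (hD0 ω)) hg
        (Eventually.of_forall fun ω => (hpt ω).1)
    have h2 : ∫ ω, ((A1 + 1) * A ω + a * Real.exp (2 * Lam * (D ω - A1))) ∂P =
        (A1 + 1) * ∫ ω, A ω ∂P + a * ∫ ω, Real.exp (2 * Lam * (D ω - A1)) ∂P := by
      rw [integral_add (hAi.const_mul _) (hint.const_mul _), integral_const_mul, integral_const_mul]
    rw [h2] at h1
    have h3 : (A1 + 1) * ∫ ω, A ω ∂P ≤ (A1 + 1) * a :=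
      mul_le_mul_of_nonneg_left hE (by linarith)
    have h4 : a * ∫ ω, Real.exp (2 * Lam * (D ω - A1)) ∂P ≤ a * 1 :=
      mul_le_mul_of_nonneg_left hexp ha.le
    nlinarith
  · have hg : Integrable (fun ω => (2 * A1 ^ 2 + 2) * A ω + 2 * a * Real.exp (2 * Lam * (D ω - A1))) P :=
      (hAi.const_mul _).add (hint.const_mul _)
    have h1 : ∫ ω, A ω * D ω ^ 2 ∂P ≤
        ∫ ω, ((2 * A1 ^ 2 + 2) * A ω + 2 * a * Real.exp (2 * Lam * (D ω - A1))) ∂P :=
      integral_mono_of_nonneg (Eventually.of_forall fun ω => mul_nonneg (hA0 ω) (sq_nonneg _)) hg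
        (Eventually.of_forall fun ω => (hpt ω).2)
    have h2 : ∫ ω, ((2 * A1 ^ 2 + 2) * A ω + 2 * a * Real.exp (2 * Lam * (D ω - A1))) ∂P =
        (2 * A1 ^ 2 + 2) * ∫ ω, A ω ∂P + 2 * a * ∫ ω, Real.exp (2 * Lam * (D ω - A1)) ∂P := by
      rw [integral_add (hAi.const_mul _) (hint.const_mul _), integral_const_mul, integral_const_mul]
    rw [h2] at h1
    have h3 : (2 * A1 ^ 2 + 2) * ∫ ω, A ω ∂P ≤ (2 * A1 ^ 2 + 2) * a :=
      mul_le_mul_of_nonneg_left hE (by positivity)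
    have h4 : 2 * a * ∫ ω, Real.exp (2 * Lam * (D ω - A1)) ∂P ≤ 2 * a * 1 :=
      mul_le_mul_of_nonneg_left hexp (by positivity)
    nlinarith

section Abstract

variable {Ω : Type*} {G m0 : MeasurableSpace Ω} {P : Measure Ω} [IsProbabilityMeasure P]

lemma StaticTau_int {f : Ω → ℝ} (hf : AEStronglyMeasurable f P) {c : ℝ}
    (h : ∀ᵐ ω ∂P, |f ω| ≤ c) : Integrable f P :=
  Integrable.of_bound hf c (by simpa [Real.norm_eq_abs] using h)

/-- Pulling out a bounded measurable factor. -/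
theorem StaticTau_ortho (hG : G ≤ m0) {F h : Ω → ℝ} {c c' : ℝ}
    (hF : AEStronglyMeasurable F P) (hFb : ∀ᵐ ω ∂P, |F ω| ≤ c)
    (hh : StronglyMeasurable[G] h) (hhb : ∀ᵐ ω ∂P, |h ω| ≤ c') :
    ∫ ω, h ω * F ω ∂P = ∫ ω, h ω * (P[F | G]) ω ∂P := by
  have hF' : Integrable F P := StaticTau_int hF hFb
  have hint : Integrable (h * F) P := by
    refine StaticTau_int (c := c' * c) ((hh.mono hG).aestronglyMeasurable.mul hF) ?_
    filter_upwards [hFb, hhb] with ω h1 h2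
    rw [Pi.mul_apply, abs_mul]
    exact mul_le_mul h2 h1 (abs_nonneg _) (le_trans (abs_nonneg _) h2)
  have h1 := condExp_mul_of_stronglyMeasurable_left hh hint hF'
  calc ∫ ω, h ω * F ω ∂P = ∫ ω, (h * F) ω ∂P := rfl
    _ = ∫ ω, (P[h * F | G]) ω ∂P := (integral_condExp hG).symm
    _ = ∫ ω, (h * P[F | G]) ω ∂P := integral_congr_ae h1
    _ = _ := rfl

omit [IsProbabilityMeasure P] in
lemma StaticTau_condExp_bdd {F : Ω → ℝ} {c : ℝ} (hFb : ∀ᵐ ω ∂P, |F ω| ≤ c) :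
    ∀ᵐ ω ∂P, |(P[F | G]) ω| ≤ c :=
  ae_bdd_abs_condExp_of_ae_bdd_abs hFb

/-- The conditional expectation is the best approximation in mean square among bounded functions. -/
theorem StaticTau_proj (hG : G ≤ m0) {F g : Ω → ℝ} {c c' : ℝ}
    (hF : AEStronglyMeasurable F P) (hFb : ∀ᵐ ω ∂P, |F ω| ≤ c)
    (hg : StronglyMeasurable[G] g) (hgb : ∀ᵐ ω ∂P, |g ω| ≤ c') :
    ∫ ω, (F ω - (P[F | G]) ω) ^ 2 ∂P ≤ ∫ ω, (F ω - g ω) ^ 2 ∂P := by
  set Fh : Ω → ℝ := P[F | G] with hFh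
  have hFhm : StronglyMeasurable[G] Fh := stronglyMeasurable_condExp
  have hFhb : ∀ᵐ ω ∂P, |Fh ω| ≤ c := StaticTau_condExp_bdd hFb
  have hFhm' : AEStronglyMeasurable Fh P := (hFhm.mono hG).aestronglyMeasurable
  have hgm' : AEStronglyMeasurable g P := (hg.mono hG).aestronglyMeasurable
  set h : Ω → ℝ := fun ω => Fh ω - g ω with hh
  have hhm : StronglyMeasurable[G] h := hFhm.sub hg
  have hhb : ∀ᵐ ω ∂P, |h ω| ≤ c + c' := by
    filter_upwards [hFhb, hgb] with ω h1 h2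
    calc |Fh ω - g ω| ≤ |Fh ω| + |g ω| := abs_sub _ _
      _ ≤ _ := add_le_add h1 h2
  have hhm' : AEStronglyMeasurable h P := (hhm.mono hG).aestronglyMeasurable
  have hort := StaticTau_ortho hG hF hFb hhm hhb
  rw [← hFh] at hort
  -- integrability
  have i1 : Integrable (fun ω => (F ω - Fh ω) ^ 2) P := by
    refine StaticTau_int (c := (c + c) ^ 2) ((hF.sub hFhm').pow 2) ?_
    filter_upwards [hFb, hFhb] with ω h1 h2
    rw [abs_pow]
    refine pow_le_pow_left₀ (abs_nonneg _) ?_ 2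
    calc |F ω - Fh ω| ≤ |F ω| + |Fh ω| := abs_sub _ _
      _ ≤ _ := add_le_add h1 h2
  have i2 : Integrable (fun ω => h ω * F ω) P := by
    refine StaticTau_int (c := (c + c') * c) (hhm'.mul hF) ?_
    filter_upwards [hhb, hFb] with ω h1 h2
    rw [abs_mul]
    exact mul_le_mul h1 h2 (abs_nonneg _) (le_trans (abs_nonneg _) h1)
  have i3 : Integrable (fun ω => h ω * Fh ω) P := by
    refine StaticTau_int (c := (c + c') * c) (hhm'.mul hFhm') ?_
    filter_upwards [hhb, hFhb] with ω h1 h2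
    rw [abs_mul]
    exact mul_le_mul h1 h2 (abs_nonneg _) (le_trans (abs_nonneg _) h1)
  have i4 : Integrable (fun ω => h ω ^ 2) P := by
    refine StaticTau_int (c := (c + c') ^ 2) (hhm'.pow 2) ?_
    filter_upwards [hhb] with ω h1
    rw [abs_pow]
    exact pow_le_pow_left₀ (abs_nonneg _) h1 2
  have key : ∀ ω, (F ω - g ω) ^ 2 =
      (F ω - Fh ω) ^ 2 + (2 * (h ω * F ω) - 2 * (h ω * Fh ω)) + h ω ^ 2 := by
    intro ω
    simp only [hh]
    ring
  have ij : Integrable (fun ω => 2 * (h ω * F ω) - 2 * (h ω * Fh ω)) P :=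
    (i2.const_mul 2).sub (i3.const_mul 2)
  have i5 : Integrable (fun ω => (F ω - Fh ω) ^ 2 + (2 * (h ω * F ω) - 2 * (h ω * Fh ω))) P :=
    i1.add ij
  have hval : ∫ ω, (F ω - g ω) ^ 2 ∂P = ∫ ω, (F ω - Fh ω) ^ 2 ∂P + ∫ ω, h ω ^ 2 ∂P := by
    simp_rw [key]
    rw [integral_add i5 i4, integral_add i1 ij,
      integral_sub (i2.const_mul 2) (i3.const_mul 2), integral_const_mul, integral_const_mul, hort]
    ring
  rw [hval]
  have : 0 ≤ ∫ ω, h ω ^ 2 ∂P := integral_nonneg fun ω => sq_nonneg _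
  linarith

/-- Markov for the conditional expectation: a large value of the conditional mean forces a large value
of the variable. -/
theorem StaticTau_tail (hG : G ≤ m0) {m : Ω → ℝ} (hm : Measurable m) (hb : ∀ᵐ ω ∂P, |m ω| ≤ 1)
    {a : ℝ} (ha : 0 < a) :
    P.real {ω | a < (P[m | G]) ω ^ 2} ≤ 2 / a * P.real {ω | a / 2 < m ω ^ 2} := by
  set mh : Ω → ℝ := P[m | G] with hmh
  have hmhm : StronglyMeasurable[G] mh := stronglyMeasurable_condExp
  have hmhb : ∀ᵐ ω ∂P, |mh ω| ≤ 1 := StaticTau_condExp_bdd hb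
  have hmM : Measurable[G] mh := hmhm.measurable
  set T : Set Ω := {ω | a < mh ω ^ 2} with hT
  set B : Set Ω := {ω | a / 2 < m ω ^ 2} with hB
  have hTG : MeasurableSet[G] T := measurableSet_lt measurable_const (hmM.pow_const 2)
  have hTm : MeasurableSet T := hG _ hTG
  have hBm : MeasurableSet B := measurableSet_lt measurable_const (hm.pow_const 2)
  set h : Ω → ℝ := T.indicator mh with hh
  have hhm : StronglyMeasurable[G] h := hmhm.indicator hTG
  have hhb : ∀ᵐ ω ∂P, |h ω| ≤ 1 := by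
    filter_upwards [hmhb] with ω h1
    by_cases hω : ω ∈ T
    · simpa [hh, hω] using h1
    · simp [hh, hω]
  have hmA : AEStronglyMeasurable m P := hm.aestronglyMeasurable
  have hort := StaticTau_ortho hG hmA hb hhm hhb
  rw [← hmh] at hort
  have hχ : ∀ f : Ω → ℝ, ∀ ω, (T.indicator f) ω = (if ω ∈ T then f ω else 0) := by
    intro f ω
    simp [Set.indicator_apply]
  have i1 : Integrable (fun ω => T.indicator (fun ω => mh ω ^ 2) ω) P := by
    refine StaticTau_int (c := 1)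
      (((hmhm.mono hG).aestronglyMeasurable.pow 2).indicator hTm) ?_
    filter_upwards [hmhb] with ω h1
    by_cases hω : ω ∈ T
    · simp only [Set.indicator, hω, if_true]
      rw [abs_pow]
      exact pow_le_one₀ (abs_nonneg _) h1
    · simp [Set.indicator, hω]
  have i2 : Integrable (fun ω => T.indicator (fun ω => m ω ^ 2) ω) P := by
    refine StaticTau_int (c := 1) ((hmA.pow 2).indicator hTm) ?_
    filter_upwards [hb] with ω h1
    by_cases hω : ω ∈ T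
    · simp only [Set.indicator, hω, if_true]
      rw [abs_pow]
      exact pow_le_one₀ (abs_nonneg _) h1
    · simp [Set.indicator, hω]
  have i3 : Integrable (fun ω => h ω * m ω) P := by
    refine StaticTau_int (c := 1 * 1) (((hhm.mono hG).aestronglyMeasurable).mul hmA) ?_
    filter_upwards [hhb, hb] with ω h1 h2
    rw [abs_mul]
    exact mul_le_mul h1 h2 (abs_nonneg _) zero_le_one
  -- the square of the conditional mean is controlled by the conditional mean of the square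
  have e1 : ∫ ω, h ω * mh ω ∂P = ∫ ω, T.indicator (fun ω => mh ω ^ 2) ω ∂P := by
    refine integral_congr_ae (Eventually.of_forall fun ω => ?_)
    by_cases hω : ω ∈ T
    · simp [hh, Set.indicator, hω, sq]
    · simp [hh, Set.indicator, hω]
  have e2 : ∫ ω, T.indicator (fun ω => mh ω ^ 2) ω ∂P ≤ ∫ ω, T.indicator (fun ω => m ω ^ 2) ω ∂P := by
    have : ∫ ω, 2 * (h ω * m ω) ∂P ≤
        ∫ ω, (T.indicator (fun ω => mh ω ^ 2) ω + T.indicator (fun ω => m ω ^ 2) ω) ∂P := by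
      refine integral_mono (i3.const_mul 2) (i1.add i2) fun ω => ?_
      by_cases hω : ω ∈ T
      · simp only [hh, Set.indicator, hω, if_true]
        nlinarith [sq_nonneg (mh ω - m ω)]
      · simp [hh, Set.indicator, hω]
    rw [integral_const_mul, integral_add i1 i2, hort, e1] at this
    linarith
  -- lower bound on the left, upper bound on the right
  have iT : Integrable (T.indicator fun _ => (1 : ℝ)) P := (integrable_const _).indicator hTm
  have iB : Integrable (B.indicator fun _ => (1 : ℝ)) P := (integrable_const _).indicator hBm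
  have vT : ∫ ω, T.indicator (fun _ => (1 : ℝ)) ω ∂P = P.real T := by
    rw [integral_indicator hTm]; simp
  have vB : ∫ ω, B.indicator (fun _ => (1 : ℝ)) ω ∂P = P.real B := by
    rw [integral_indicator hBm]; simp
  have e3 : a * P.real T ≤ ∫ ω, T.indicator (fun ω => mh ω ^ 2) ω ∂P := by
    rw [← vT, ← integral_const_mul]
    refine integral_mono (iT.const_mul a) i1 fun ω => ?_
    by_cases hω : ω ∈ T
    · have : a < mh ω ^ 2 := hω
      simp only [Set.indicator, hω, if_true]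
      linarith
    · simp [Set.indicator, hω]
  have e4 : ∫ ω, T.indicator (fun ω => m ω ^ 2) ω ∂P ≤ a / 2 * P.real T + P.real B := by
    rw [← vT, ← vB, ← integral_const_mul, ← integral_add (iT.const_mul _) iB]
    refine integral_mono_ae i2 ((iT.const_mul _).add iB) ?_
    filter_upwards [hb] with ω h1
    have h2 : m ω ^ 2 ≤ 1 := by
      rw [← sq_abs]; exact pow_le_one₀ (abs_nonneg _) h1
    by_cases hω : ω ∈ T <;> by_cases hω' : ω ∈ B
    · simp only [Set.indicator, hω, hω', if_true]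
      linarith
    · have : ¬ a / 2 < m ω ^ 2 := hω'
      simp only [Set.indicator, hω, hω', if_true, if_false]
      linarith
    · simp only [Set.indicator, hω, hω', if_true, if_false]
      linarith
    · simp [Set.indicator, hω, hω']
  have e5 : a / 2 * P.real T ≤ P.real B := by linarith
  rw [div_mul_eq_mul_div, le_div_iff₀ ha]
  linarith

/-- The pointwise bound on the squared increments. -/
lemma StaticTau_pt {u v x1 x2 y1 y2 C : ℝ}
    (hL : |u - v| ≤ C * (|x1| + |x2| + |y1| + |y2|) * (|x1 - y1| + |x2 - y2|)) :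
    (u - v) ^ 2 ≤ 8 * C ^ 2 * (x1 ^ 2 + x2 ^ 2 + y1 ^ 2 + y2 ^ 2) * ((x1 - y1) ^ 2 + (x2 - y2) ^ 2) := by
  have h1 : (u - v) ^ 2 ≤ (C * (|x1| + |x2| + |y1| + |y2|) * (|x1 - y1| + |x2 - y2|)) ^ 2 := by
    rw [← sq_abs (u - v)]
    exact pow_le_pow_left₀ (abs_nonneg _) hL 2
  have hZ : (|x1| + |x2| + |y1| + |y2|) ^ 2 ≤ 4 * (x1 ^ 2 + x2 ^ 2 + y1 ^ 2 + y2 ^ 2) := by
    rw [← sq_abs x1, ← sq_abs x2, ← sq_abs y1, ← sq_abs y2]
    nlinarith [sq_nonneg (|x1| - |x2|), sq_nonneg (|x1| - |y1|), sq_nonneg (|x1| - |y2|),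
      sq_nonneg (|x2| - |y1|), sq_nonneg (|x2| - |y2|), sq_nonneg (|y1| - |y2|)]
  have hD : (|x1 - y1| + |x2 - y2|) ^ 2 ≤ 2 * ((x1 - y1) ^ 2 + (x2 - y2) ^ 2) := by
    rw [← sq_abs (x1 - y1), ← sq_abs (x2 - y2)]
    nlinarith [sq_nonneg (|x1 - y1| - |x2 - y2|)]
  have h2 : (C * (|x1| + |x2| + |y1| + |y2|) * (|x1 - y1| + |x2 - y2|)) ^ 2 =
      C ^ 2 * ((|x1| + |x2| + |y1| + |y2|) ^ 2 * (|x1 - y1| + |x2 - y2|) ^ 2) := by ring
  have h3 : (|x1| + |x2| + |y1| + |y2|) ^ 2 * (|x1 - y1| + |x2 - y2|) ^ 2 ≤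
      (4 * (x1 ^ 2 + x2 ^ 2 + y1 ^ 2 + y2 ^ 2)) * (2 * ((x1 - y1) ^ 2 + (x2 - y2) ^ 2)) :=
    mul_le_mul hZ hD (by positivity) (by positivity)
  calc (u - v) ^ 2 ≤ _ := h1
    _ = _ := h2
    _ ≤ C ^ 2 * ((4 * (x1 ^ 2 + x2 ^ 2 + y1 ^ 2 + y2 ^ 2)) * (2 * ((x1 - y1) ^ 2 + (x2 - y2) ^ 2))) :=
      mul_le_mul_of_nonneg_left h3 (by positivity)
    _ = _ := by ring

/-- The pointwise bound with the exceptional sets. -/
lemma StaticTau_pt2 {u v x1 x2 y1 y2 C C' a b1 b2 t1 t2 : ℝ} (ha : 0 < a)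
    (hL : |u - v| ≤ C * (|x1| + |x2| + |y1| + |y2|) * (|x1 - y1| + |x2 - y2|))
    (hu : |u| ≤ C') (hv : |v| ≤ C') (n1 : 0 ≤ b1) (n2 : 0 ≤ b2) (n3 : 0 ≤ t1) (n4 : 0 ≤ t2)
    (c1 : a / 2 < x1 ^ 2 → 1 ≤ b1) (c2 : a / 2 < x2 ^ 2 → 1 ≤ b2)
    (c3 : a < y1 ^ 2 → 1 ≤ t1) (c4 : a < y2 ^ 2 → 1 ≤ t2) :
    (u - v) ^ 2 ≤ 24 * C ^ 2 * a * ((x1 - y1) ^ 2 + (x2 - y2) ^ 2) +
      4 * C' ^ 2 * (b1 + b2 + t1 + t2) := by
  have hD0 : 0 ≤ (x1 - y1) ^ 2 + (x2 - y2) ^ 2 := by positivity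
  have hbig : (u - v) ^ 2 ≤ 4 * C' ^ 2 := by
    have h1 : |u - v| ≤ 2 * C' := by
      calc |u - v| ≤ |u| + |v| := abs_sub _ _
        _ ≤ C' + C' := add_le_add hu hv
        _ = _ := by ring
    calc (u - v) ^ 2 = |u - v| ^ 2 := (sq_abs _).symm
      _ ≤ (2 * C') ^ 2 := pow_le_pow_left₀ (abs_nonneg _) h1 2
      _ = _ := by ring
  have hC2 : 0 ≤ 4 * C' ^ 2 := by positivity
  have hA0 : 0 ≤ 24 * C ^ 2 * a * ((x1 - y1) ^ 2 + (x2 - y2) ^ 2) := by positivity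
  have hbig2 : ∀ s : ℝ, 1 ≤ s → s ≤ b1 + b2 + t1 + t2 →
      (u - v) ^ 2 ≤ 24 * C ^ 2 * a * ((x1 - y1) ^ 2 + (x2 - y2) ^ 2) +
        4 * C' ^ 2 * (b1 + b2 + t1 + t2) := by
    intro s hs hs2
    have : 4 * C' ^ 2 * 1 ≤ 4 * C' ^ 2 * (b1 + b2 + t1 + t2) :=
      mul_le_mul_of_nonneg_left (hs.trans hs2) hC2
    linarith
  by_cases d1 : a / 2 < x1 ^ 2
  · exact hbig2 b1 (c1 d1) (by linarith)
  by_cases d2 : a / 2 < x2 ^ 2
  · exact hbig2 b2 (c2 d2) (by linarith)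
  by_cases d3 : a < y1 ^ 2
  · exact hbig2 t1 (c3 d3) (by linarith)
  by_cases d4 : a < y2 ^ 2
  · exact hbig2 t2 (c4 d4) (by linarith)
  have s1 : x1 ^ 2 ≤ a / 2 := not_lt.mp d1
  have s2 : x2 ^ 2 ≤ a / 2 := not_lt.mp d2
  have s3 : y1 ^ 2 ≤ a := not_lt.mp d3
  have s4 : y2 ^ 2 ≤ a := not_lt.mp d4
  have hW : x1 ^ 2 + x2 ^ 2 + y1 ^ 2 + y2 ^ 2 ≤ 3 * a := by linarith
  have hle : 8 * C ^ 2 * (x1 ^ 2 + x2 ^ 2 + y1 ^ 2 + y2 ^ 2) * ((x1 - y1) ^ 2 + (x2 - y2) ^ 2) ≤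
      8 * C ^ 2 * (3 * a) * ((x1 - y1) ^ 2 + (x2 - y2) ^ 2) := by
    refine mul_le_mul_of_nonneg_right ?_ hD0
    exact mul_le_mul_of_nonneg_left hW (by positivity)
  have h0 := StaticTau_pt hL
  have hsumn : 0 ≤ 4 * C' ^ 2 * (b1 + b2 + t1 + t2) := by positivity
  have e : 8 * C ^ 2 * (3 * a) * ((x1 - y1) ^ 2 + (x2 - y2) ^ 2) =
      24 * C ^ 2 * a * ((x1 - y1) ^ 2 + (x2 - y2) ^ 2) := by ring
  linarith

/-- Integrating the pointwise bound with exceptional sets. -/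
theorem StaticTau_integrate {X D1 D2 : Ω → ℝ} {B1 B2 T1 T2 : Set Ω} (mB1 : MeasurableSet B1)
    (mB2 : MeasurableSet B2) (mT1 : MeasurableSet T1) (mT2 : MeasurableSet T2)
    (i0 : Integrable X P) (i1 : Integrable D1 P) (i2 : Integrable D2 P) {K1 K2 a : ℝ}
    (hK2 : 0 ≤ K2) (ha : 0 < a) (ha1 : a ≤ 1)
    (tail1 : P.real T1 ≤ 2 / a * P.real B1) (tail2 : P.real T2 ≤ 2 / a * P.real B2)
    (hpt : ∀ᵐ ω ∂P, X ω ≤ K1 * a * (D1 ω + D2 ω) +
      K2 * (B1.indicator (fun _ => (1 : ℝ)) ω + B2.indicator (fun _ => (1 : ℝ)) ω +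
        T1.indicator (fun _ => (1 : ℝ)) ω + T2.indicator (fun _ => (1 : ℝ)) ω)) :
    ∫ ω, X ω ∂P ≤ K1 * a * (∫ ω, D1 ω ∂P + ∫ ω, D2 ω ∂P) +
      K2 * (3 * (P.real B1 + P.real B2) / a) := by
  have iS : ∀ {s : Set Ω}, MeasurableSet s → Integrable (s.indicator fun _ => (1 : ℝ)) P :=
    fun hs => (integrable_const _).indicator hs
  have vS : ∀ {s : Set Ω}, MeasurableSet s → ∫ ω, s.indicator (fun _ => (1 : ℝ)) ω ∂P = P.real s := by
    intro s hs
    rw [integral_indicator hs]; simp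
  have i12 : Integrable (fun ω => D1 ω + D2 ω) P := i1.add i2
  have j1 : Integrable (fun ω => B1.indicator (fun _ => (1 : ℝ)) ω + B2.indicator (fun _ => (1 : ℝ)) ω) P :=
    (iS mB1).add (iS mB2)
  have j2 : Integrable (fun ω => B1.indicator (fun _ => (1 : ℝ)) ω + B2.indicator (fun _ => (1 : ℝ)) ω +
      T1.indicator (fun _ => (1 : ℝ)) ω) P := j1.add (iS mT1)
  have j3 : Integrable (fun ω => B1.indicator (fun _ => (1 : ℝ)) ω + B2.indicator (fun _ => (1 : ℝ)) ω +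
      T1.indicator (fun _ => (1 : ℝ)) ω + T2.indicator (fun _ => (1 : ℝ)) ω) P := j2.add (iS mT2)
  have i3a : Integrable (fun ω => K1 * a * (D1 ω + D2 ω)) P := i12.const_mul _
  have i3b : Integrable (fun ω => K2 * (B1.indicator (fun _ => (1 : ℝ)) ω +
      B2.indicator (fun _ => (1 : ℝ)) ω + T1.indicator (fun _ => (1 : ℝ)) ω +
      T2.indicator (fun _ => (1 : ℝ)) ω)) P := j3.const_mul _
  have hI := integral_mono_ae i0 (i3a.add i3b) hpt
  have hv3 : ∫ ω, (B1.indicator (fun _ => (1 : ℝ)) ω + B2.indicator (fun _ => (1 : ℝ)) ω +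
      T1.indicator (fun _ => (1 : ℝ)) ω + T2.indicator (fun _ => (1 : ℝ)) ω) ∂P =
      P.real B1 + P.real B2 + P.real T1 + P.real T2 := by
    rw [integral_add j2 (iS mT2), integral_add j1 (iS mT1), integral_add (iS mB1) (iS mB2),
      vS mB1, vS mB2, vS mT1, vS mT2]
  have hval : ∫ ω, (K1 * a * (D1 ω + D2 ω) + K2 * (B1.indicator (fun _ => (1 : ℝ)) ω +
      B2.indicator (fun _ => (1 : ℝ)) ω + T1.indicator (fun _ => (1 : ℝ)) ω +
      T2.indicator (fun _ => (1 : ℝ)) ω)) ∂P =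
      K1 * a * (∫ ω, D1 ω ∂P + ∫ ω, D2 ω ∂P) +
        K2 * (P.real B1 + P.real B2 + P.real T1 + P.real T2) := by
    rw [integral_add i3a i3b, integral_const_mul, integral_const_mul, hv3, integral_add i1 i2]
  have hI' : ∫ ω, X ω ∂P ≤ K1 * a * (∫ ω, D1 ω ∂P + ∫ ω, D2 ω ∂P) +
        K2 * (P.real B1 + P.real B2 + P.real T1 + P.real T2) := by
    rw [← hval]; exact hI
  have hB1n : 0 ≤ P.real B1 := measureReal_nonneg
  have hB2n : 0 ≤ P.real B2 := measureReal_nonneg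
  have h1a : 1 ≤ 1 / a := by rw [le_div_iff₀ ha]; linarith
  have hsum : P.real B1 + P.real B2 + P.real T1 + P.real T2 ≤ 3 * (P.real B1 + P.real B2) / a := by
    have e1 : P.real B1 ≤ P.real B1 * (1 / a) := le_mul_of_one_le_right hB1n h1a
    have e2 : P.real B2 ≤ P.real B2 * (1 / a) := le_mul_of_one_le_right hB2n h1a
    have e3 : 3 * (P.real B1 + P.real B2) / a =
        P.real B1 * (1 / a) + P.real B2 * (1 / a) + 2 / a * P.real B1 + 2 / a * P.real B2 := by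
      field_simp
      ring
    rw [e3]
    linarith
  have hfin := mul_le_mul_of_nonneg_left hsum hK2
  linarith

omit [IsProbabilityMeasure P] in
lemma StaticTau_ind_ge {s : Set Ω} {ω : Ω} (h : ω ∈ s) : (1 : ℝ) ≤ s.indicator (fun _ => (1 : ℝ)) ω := by
  rw [Set.indicator_of_mem h]

/-- The abstract form of `static_tau`. -/
theorem StaticTau_abstract (hG : G ≤ m0) {a0 : ℝ} (ha01 : a0 ≤ 1)
    {m1 m2 : Ω → ℝ} (hm1 : Measurable m1) (hm2 : Measurable m2)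
    (hb1 : ∀ᵐ ω ∂P, |m1 ω| ≤ a0) (hb2 : ∀ᵐ ω ∂P, |m2 ω| ≤ a0)
    {Φ : ℝ × ℝ → ℝ} (hΦ : Measurable Φ) {C C' : ℝ} (hC : 0 ≤ C)
    (hlip : ∀ x1 x2 y1 y2, |x1| ≤ a0 → |x2| ≤ a0 → |y1| ≤ a0 → |y2| ≤ a0 →
      |Φ (x1, x2) - Φ (y1, y2)| ≤ C * (|x1| + |x2| + |y1| + |y2|) * (|x1 - y1| + |x2 - y2|))
    (hbd : ∀ x1 x2, |x1| ≤ a0 → |x2| ≤ a0 → |Φ (x1, x2)| ≤ C') {a : ℝ} (ha : 0 < a) (ha1 : a ≤ 1) :
    (∫ ω, (Φ (m1 ω, m2 ω) - (P[fun ω' => Φ (m1 ω', m2 ω') | G]) ω) ^ 2 ∂P ≤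
      24 * C ^ 2 * a * (∫ ω, (m1 ω - (P[m1 | G]) ω) ^ 2 ∂P + ∫ ω, (m2 ω - (P[m2 | G]) ω) ^ 2 ∂P) +
        4 * C' ^ 2 * (3 * (P.real {ω | a / 2 < m1 ω ^ 2} + P.real {ω | a / 2 < m2 ω ^ 2}) / a)) ∧
    ∫ ω, (Φ (m1 ω, m2 ω) - (P[fun ω' => Φ (m1 ω', m2 ω') | G]) ω) ^ 2 ∂P ≤
      32 * C ^ 2 * (∫ ω, (m1 ω - (P[m1 | G]) ω) ^ 2 ∂P + ∫ ω, (m2 ω - (P[m2 | G]) ω) ^ 2 ∂P) := by
  set h1 : Ω → ℝ := P[m1 | G] with hh1
  set h2 : Ω → ℝ := P[m2 | G] with hh2
  have hh1m : StronglyMeasurable[G] h1 := stronglyMeasurable_condExp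
  have hh2m : StronglyMeasurable[G] h2 := stronglyMeasurable_condExp
  have hh1b : ∀ᵐ ω ∂P, |h1 ω| ≤ a0 := StaticTau_condExp_bdd hb1
  have hh2b : ∀ᵐ ω ∂P, |h2 ω| ≤ a0 := StaticTau_condExp_bdd hb2
  have hh1A : AEStronglyMeasurable h1 P := (hh1m.mono hG).aestronglyMeasurable
  have hh2A : AEStronglyMeasurable h2 P := (hh2m.mono hG).aestronglyMeasurable
  have hm1A : AEStronglyMeasurable m1 P := hm1.aestronglyMeasurable
  have hm2A : AEStronglyMeasurable m2 P := hm2.aestronglyMeasurable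
  set F : Ω → ℝ := fun ω => Φ (m1 ω, m2 ω) with hF
  set g : Ω → ℝ := fun ω => Φ (h1 ω, h2 ω) with hg
  have hFA : AEStronglyMeasurable F P := (hΦ.comp (hm1.prodMk hm2)).aestronglyMeasurable
  have hFb : ∀ᵐ ω ∂P, |F ω| ≤ C' := by
    filter_upwards [hb1, hb2] with ω h1' h2'
    exact hbd _ _ h1' h2'
  have hgb : ∀ᵐ ω ∂P, |g ω| ≤ C' := by
    filter_upwards [hh1b, hh2b] with ω h1' h2'
    exact hbd _ _ h1' h2'
  have hgm : StronglyMeasurable[G] g := by
    have : Measurable[G] g := hΦ.comp (hh1m.measurable.prodMk hh2m.measurable)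
    exact this.stronglyMeasurable
  have hgA : AEStronglyMeasurable g P := (hgm.mono hG).aestronglyMeasurable
  have hproj := StaticTau_proj hG hFA hFb hgm hgb
  -- the squared increments
  have i0 : Integrable (fun ω => (F ω - g ω) ^ 2) P := by
    refine StaticTau_int (c := (C' + C') ^ 2) ((hFA.sub hgA).pow 2) ?_
    filter_upwards [hFb, hgb] with ω h1' h2'
    rw [abs_pow]
    refine pow_le_pow_left₀ (abs_nonneg _) ?_ 2
    calc |F ω - g ω| ≤ |F ω| + |g ω| := abs_sub _ _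
      _ ≤ _ := add_le_add h1' h2'
  have i1 : Integrable (fun ω => (m1 ω - h1 ω) ^ 2) P := by
    refine StaticTau_int (c := (a0 + a0) ^ 2) ((hm1A.sub hh1A).pow 2) ?_
    filter_upwards [hb1, hh1b] with ω h1' h2'
    rw [abs_pow]
    refine pow_le_pow_left₀ (abs_nonneg _) ?_ 2
    calc |m1 ω - h1 ω| ≤ |m1 ω| + |h1 ω| := abs_sub _ _
      _ ≤ _ := add_le_add h1' h2'
  have i2 : Integrable (fun ω => (m2 ω - h2 ω) ^ 2) P := by
    refine StaticTau_int (c := (a0 + a0) ^ 2) ((hm2A.sub hh2A).pow 2) ?_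
    filter_upwards [hb2, hh2b] with ω h1' h2'
    rw [abs_pow]
    refine pow_le_pow_left₀ (abs_nonneg _) ?_ 2
    calc |m2 ω - h2 ω| ≤ |m2 ω| + |h2 ω| := abs_sub _ _
      _ ≤ _ := add_le_add h1' h2'
  have hsq : ∀ x : ℝ, |x| ≤ a0 → x ^ 2 ≤ 1 := by
    intro x hx
    rw [← sq_abs]
    exact pow_le_one₀ (abs_nonneg _) (hx.trans ha01)
  constructor
  · -- the exceptional sets
    have mB1 : MeasurableSet {ω | a / 2 < m1 ω ^ 2} :=
      measurableSet_lt measurable_const (hm1.pow_const 2)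
    have mB2 : MeasurableSet {ω | a / 2 < m2 ω ^ 2} :=
      measurableSet_lt measurable_const (hm2.pow_const 2)
    have mT1 : MeasurableSet {ω | a < h1 ω ^ 2} :=
      hG _ (measurableSet_lt measurable_const (hh1m.measurable.pow_const 2))
    have mT2 : MeasurableSet {ω | a < h2 ω ^ 2} :=
      hG _ (measurableSet_lt measurable_const (hh2m.measurable.pow_const 2))
    have hb1' : ∀ᵐ ω ∂P, |m1 ω| ≤ 1 := by
      filter_upwards [hb1] with ω h using h.trans ha01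
    have hb2' : ∀ᵐ ω ∂P, |m2 ω| ≤ 1 := by
      filter_upwards [hb2] with ω h using h.trans ha01
    have tail1 : P.real {ω | a < h1 ω ^ 2} ≤ 2 / a * P.real {ω | a / 2 < m1 ω ^ 2} :=
      StaticTau_tail hG hm1 hb1' ha
    have tail2 : P.real {ω | a < h2 ω ^ 2} ≤ 2 / a * P.real {ω | a / 2 < m2 ω ^ 2} :=
      StaticTau_tail hG hm2 hb2' ha
    refine hproj.trans ?_
    refine StaticTau_integrate (K1 := 24 * C ^ 2) (K2 := 4 * C' ^ 2) mB1 mB2 mT1 mT2 i0 i1 i2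
      (by positivity) ha ha1 tail1 tail2 ?_
    filter_upwards [hb1, hb2, hh1b, hh2b, hFb, hgb] with ω b1 b2 b3 b4 p2 p3
    refine StaticTau_pt2 ha (hlip _ _ _ _ b1 b2 b3 b4) p2 p3
      (Set.indicator_nonneg (fun _ _ => zero_le_one) _) (Set.indicator_nonneg (fun _ _ => zero_le_one) _)
      (Set.indicator_nonneg (fun _ _ => zero_le_one) _) (Set.indicator_nonneg (fun _ _ => zero_le_one) _)
      (fun h => StaticTau_ind_ge (s := {ω | a / 2 < m1 ω ^ 2}) h)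
      (fun h => StaticTau_ind_ge (s := {ω | a / 2 < m2 ω ^ 2}) h)
      (fun h => StaticTau_ind_ge (s := {ω | a < h1 ω ^ 2}) h)
      (fun h => StaticTau_ind_ge (s := {ω | a < h2 ω ^ 2}) h)
  · have hpt3 : ∀ᵐ ω ∂P, (F ω - g ω) ^ 2 ≤ 32 * C ^ 2 * ((m1 ω - h1 ω) ^ 2 + (m2 ω - h2 ω) ^ 2) := by
      filter_upwards [hb1, hb2, hh1b, hh2b] with ω b1 b2 b3 b4
      have p1 := StaticTau_pt (hlip _ _ _ _ b1 b2 b3 b4)
      have hD0 : 0 ≤ (m1 ω - h1 ω) ^ 2 + (m2 ω - h2 ω) ^ 2 := by positivity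
      have hW : m1 ω ^ 2 + m2 ω ^ 2 + h1 ω ^ 2 + h2 ω ^ 2 ≤ 4 := by
        have := hsq _ b1
        have := hsq _ b2
        have := hsq _ b3
        have := hsq _ b4
        linarith
      have hle : 8 * C ^ 2 * (m1 ω ^ 2 + m2 ω ^ 2 + h1 ω ^ 2 + h2 ω ^ 2) *
          ((m1 ω - h1 ω) ^ 2 + (m2 ω - h2 ω) ^ 2) ≤
          8 * C ^ 2 * 4 * ((m1 ω - h1 ω) ^ 2 + (m2 ω - h2 ω) ^ 2) := by
        refine mul_le_mul_of_nonneg_right ?_ hD0
        exact mul_le_mul_of_nonneg_left hW (by positivity)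
      have e : 8 * C ^ 2 * 4 * ((m1 ω - h1 ω) ^ 2 + (m2 ω - h2 ω) ^ 2) =
          32 * C ^ 2 * ((m1 ω - h1 ω) ^ 2 + (m2 ω - h2 ω) ^ 2) := by ring
      linarith
    have i12 : Integrable (fun ω => (m1 ω - h1 ω) ^ 2 + (m2 ω - h2 ω) ^ 2) P := i1.add i2
    have i3 : Integrable (fun ω => 32 * C ^ 2 * ((m1 ω - h1 ω) ^ 2 + (m2 ω - h2 ω) ^ 2)) P :=
      i12.const_mul _
    have hI := integral_mono_ae i0 i3 hpt3
    rw [integral_const_mul, integral_add i1 i2] at hI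
    exact hproj.trans hI

end Abstract

end Vale.Agent.Lib.P161B
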