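import Vale.Agent.Lib.P161B.Temper
import Vale.Agent.Lib.P161B.StaticTauAux

/-!
The proof of `static_tau`: the errors of the edge and vertex functions are bounded by the error of the
magnetisation.
-/

namespace Vale.Agent.Lib.P161B

open MeasureTheory ProbabilityTheory Filter
open Vale.Agent.Lib.P161

variable {d : ℕ} {θ : ℝ} {μ : Measure ℝ}

section Thm

variable [Corr θ] {Ω : Type*} [MeasurableSpace Ω] {P : Measure Ω} [IsProbabilityMeasure P]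
  (S : Setting d θ μ Ω P)

lemma StaticTau_m_meas (x : Word d) : Measurable (S.m x) :=
  (measurable_mm θ x).comp S.y_meas

lemma StaticTau_m_bound (hθ1 : θ < 1) (hμ : Nish μ) {M : ℝ} (hM : ∀ᵐ h ∂μ, |h| ≤ M)
    (x : Word d) : ∀ᵐ ω ∂P, |S.m x ω| ≤ Real.tanh (M + d * Real.artanh θ) := by
  have h1 : ∀ᵐ y ∂(P.map S.y), ∀ v : Word d, |y v| ≤ M := by
    rw [S.law]
    exact lv_ae_y_bound hμ hM
  filter_upwards [ae_of_ae_map S.y_meas.aemeasurable h1] with ω hω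
  exact mm_bound hθ1 hω x

lemma StaticTau_m_map (g : Aut d) (x : Word d) (ω : Ω) : S.m (g x) (S.a g ω) = S.m x ω := by
  unfold Setting.m
  rw [S.y_eq, mm_map]

lemma StaticTau_integrable_m (hθ1 : θ < 1) (hμ : Nish μ) {M : ℝ} (hM : ∀ᵐ h ∂μ, |h| ≤ M)
    (x : Word d) : Integrable (S.m x) P :=
  StaticTau_int (StaticTau_m_meas S x).aestronglyMeasurable (StaticTau_m_bound S hθ1 hμ hM x)

lemma StaticTau_dm_map (hθ1 : θ < 1) (hμ : Nish μ) {M : ℝ} (hM : ∀ᵐ h ∂μ, |h| ≤ M)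
    (g : Aut d) (x : Word d) : S.dm x =ᵐ[P] (S.dm (g x)) ∘ S.a g := by
  have hint := StaticTau_integrable_m S hθ1 hμ hM (g x)
  have h1 := S.Pi_comp g hint
  have h2 : (S.m (g x)) ∘ S.a g = S.m x := by
    funext ω
    exact StaticTau_m_map S g x ω
  rw [h2] at h1
  filter_upwards [h1] with ω hω
  have e : S.m x ω = S.m (g x) (S.a g ω) := (StaticTau_m_map S g x ω).symm
  show S.m x ω - S.Pi (S.m x) ω = S.m (g x) (S.a g ω) - S.Pi (S.m (g x)) (S.a g ω)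
  rw [hω, e]
  rfl

lemma StaticTau_dm_meas (x : Word d) :
    AEStronglyMeasurable (S.dm x) P := by
  refine (StaticTau_m_meas S x).aestronglyMeasurable.sub ?_
  exact (stronglyMeasurable_condExp.mono S.G_le).aestronglyMeasurable

lemma StaticTau_r_map (hθ1 : θ < 1) (hμ : Nish μ) {M : ℝ} (hM : ∀ᵐ h ∂μ, |h| ≤ M)
    (g : Aut d) (x : Word d) : ∫ ω, S.dm (g x) ω ^ 2 ∂P = ∫ ω, S.dm x ω ^ 2 ∂P := by
  have h1 := StaticTau_dm_map S hθ1 hμ hM g x
  have hmp := S.a_mp g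
  have hfm : AEStronglyMeasurable (fun ω => S.dm (g x) ω ^ 2) P :=
    (StaticTau_dm_meas S (g x)).pow 2
  calc ∫ ω, S.dm (g x) ω ^ 2 ∂P = ∫ ω, S.dm (g x) ω ^ 2 ∂(P.map (S.a g)) := by rw [hmp.map_eq]
    _ = ∫ ω, S.dm (g x) (S.a g ω) ^ 2 ∂P :=
      integral_map hmp.measurable.aemeasurable (by rw [hmp.map_eq]; exact hfm)
    _ = ∫ ω, S.dm x ω ^ 2 ∂P := by
      refine integral_congr_ae ?_
      filter_upwards [h1] with ω hω
      rw [hω, Function.comp_apply]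

lemma StaticTau_set_map (g : Aut d) (x : Word d) (a : ℝ) :
    P.real {ω | a / 2 < S.m (g x) ω ^ 2} = P.real {ω | a / 2 < S.m x ω ^ 2} := by
  have hmp := S.a_mp g
  have hset : MeasurableSet {ω | a / 2 < S.m (g x) ω ^ 2} :=
    measurableSet_lt measurable_const ((StaticTau_m_meas S (g x)).pow_const 2)
  have h1 := hmp.measure_preimage hset.nullMeasurableSet
  have h2 : S.a g ⁻¹' {ω | a / 2 < S.m (g x) ω ^ 2} = {ω | a / 2 < S.m x ω ^ 2} := by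
    ext ω
    simp only [Set.mem_preimage, Set.mem_ofPred_eq, StaticTau_m_map]
  rw [h2] at h1
  simp only [Measure.real, h1]

lemma StaticTau_root_letter (i : Fin d) : ∃ g : Aut d, g root = letter i :=
  ⟨gwL (letter i).1, gwL_root (letter i)⟩

/-- The bounds for the edge function. -/
lemma StaticTau_re (hθ1 : θ < 1) (hμ : Nish μ) {M : ℝ} (hM : ∀ᵐ h ∂μ, |h| ≤ M)
    {C C' : ℝ} (hC : 0 ≤ C)
    (hlip : ∀ m₁ m₂ m₁' m₂' : ℝ, |m₁| ≤ Real.tanh (M + d * Real.artanh θ) →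
      |m₂| ≤ Real.tanh (M + d * Real.artanh θ) → |m₁'| ≤ Real.tanh (M + d * Real.artanh θ) →
      |m₂'| ≤ Real.tanh (M + d * Real.artanh θ) →
      |PsiE θ m₁ m₂ - PsiE θ m₁' m₂'| ≤
        C * (|m₁| + |m₂| + |m₁'| + |m₂'|) * (|m₁ - m₁'| + |m₂ - m₂'|))
    (hbd : ∀ m₁ m₂ : ℝ, |m₁| ≤ Real.tanh (M + d * Real.artanh θ) →
      |m₂| ≤ Real.tanh (M + d * Real.artanh θ) → |PsiE θ m₁ m₂| ≤ C')
    (i : Fin d) {a : ℝ} (ha : 0 < a) (ha1 : a ≤ 1) :
    ∫ ω, S.re root (letter i) ω ^ 2 ∂P ≤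
      24 * C ^ 2 * a * (S.r + S.r) +
        4 * C' ^ 2 * (3 * (P.real {ω | a / 2 < S.m root ω ^ 2} + P.real {ω | a / 2 < S.m root ω ^ 2}) / a) ∧
    ∫ ω, S.re root (letter i) ω ^ 2 ∂P ≤ 32 * C ^ 2 * (S.r + S.r) := by
  obtain ⟨g, hg⟩ := StaticTau_root_letter (d := d) i
  have hr : ∫ ω, S.dm (letter i) ω ^ 2 ∂P = S.r := by
    rw [← hg]
    exact StaticTau_r_map S hθ1 hμ hM g root
  have hs : P.real {ω | a / 2 < S.m (letter i) ω ^ 2} = P.real {ω | a / 2 < S.m root ω ^ 2} := by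
    rw [← hg]
    exact StaticTau_set_map S g root a
  have := StaticTau_abstract (P := P) S.G_le (a0 := Real.tanh (M + d * Real.artanh θ))
    (Real.tanh_lt_one _).le (StaticTau_m_meas S root) (StaticTau_m_meas S (letter i))
    (StaticTau_m_bound S hθ1 hμ hM _) (StaticTau_m_bound S hθ1 hμ hM _)
    (Φ := fun p => PsiE θ p.1 p.2) measurable_PsiE hC
    (fun x1 x2 y1 y2 h1 h2 h3 h4 => hlip x1 x2 y1 y2 h1 h2 h3 h4)
    (fun x1 x2 h1 h2 => hbd x1 x2 h1 h2) ha ha1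
  rw [← hs] at *
  have hr' : ∫ ω, (S.m (letter i) ω - (P[S.m (letter i) | S.G]) ω) ^ 2 ∂P = S.r := hr
  have hr0 : ∫ ω, (S.m root ω - (P[S.m root | S.G]) ω) ^ 2 ∂P = S.r := rfl
  rw [hr', hr0] at this
  exact this

/-- The bounds for the vertex function. -/
lemma StaticTau_rv (hθ1 : θ < 1) (hμ : Nish μ) {M : ℝ} (hM : ∀ᵐ h ∂μ, |h| ≤ M)
    {C C' : ℝ} (hC : 0 ≤ C)
    (hlip : ∀ m m' : ℝ, |m| ≤ Real.tanh (M + d * Real.artanh θ) →
      |m'| ≤ Real.tanh (M + d * Real.artanh θ) → |LogV m - LogV m'| ≤ C * (|m| + |m'|) * |m - m'|)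
    (hbd : ∀ m : ℝ, |m| ≤ Real.tanh (M + d * Real.artanh θ) → |LogV m| ≤ C')
    {a : ℝ} (ha : 0 < a) (ha1 : a ≤ 1) :
    ∫ ω, S.rv root ω ^ 2 ∂P ≤
      24 * C ^ 2 * a * (S.r + S.r) +
        4 * C' ^ 2 * (3 * (P.real {ω | a / 2 < S.m root ω ^ 2} + P.real {ω | a / 2 < S.m root ω ^ 2}) / a) ∧
    ∫ ω, S.rv root ω ^ 2 ∂P ≤ 32 * C ^ 2 * (S.r + S.r) := by
  have hΦ : Measurable (fun p : ℝ × ℝ => LogV p.1) := by
    unfold LogV
    exact Real.measurable_log.comp ((measurable_const.sub (measurable_fst.pow_const 2)))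
  have hl : ∀ x1 x2 y1 y2 : ℝ, |x1| ≤ Real.tanh (M + d * Real.artanh θ) →
      |x2| ≤ Real.tanh (M + d * Real.artanh θ) → |y1| ≤ Real.tanh (M + d * Real.artanh θ) →
      |y2| ≤ Real.tanh (M + d * Real.artanh θ) →
      |LogV x1 - LogV y1| ≤ C * (|x1| + |x2| + |y1| + |y2|) * (|x1 - y1| + |x2 - y2|) := by
    intro x1 x2 y1 y2 h1 _ h3 _
    refine (hlip x1 y1 h1 h3).trans ?_
    have e1 : |x1| + |y1| ≤ |x1| + |x2| + |y1| + |y2| := by
      have := abs_nonneg x2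
      have := abs_nonneg y2
      linarith
    have e2 : |x1 - y1| ≤ |x1 - y1| + |x2 - y2| := by
      have := abs_nonneg (x2 - y2)
      linarith
    exact mul_le_mul (mul_le_mul_of_nonneg_left e1 hC) e2 (abs_nonneg _) (by positivity)
  exact StaticTau_abstract (P := P) S.G_le (a0 := Real.tanh (M + d * Real.artanh θ))
    (Real.tanh_lt_one _).le (StaticTau_m_meas S root) (StaticTau_m_meas S root)
    (StaticTau_m_bound S hθ1 hμ hM _) (StaticTau_m_bound S hθ1 hμ hM _)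
    (Φ := fun p => LogV p.1) hΦ hC hl (fun x1 _ h1 _ => hbd x1 h1) ha ha1

end Thm

/-- Combining constants. -/
lemma StaticTau_combine {X K A B r t a : ℝ} (hr : 0 ≤ r) (ht : 0 ≤ t) (ha : 0 < a)
    (hKA : 2 * A ≤ K) (hKB : 6 * B ≤ K) (h1 : X ≤ A * a * (r + r) + B * (3 * (t + t) / a)) :
    X ≤ K * (a * r + t / a) := by
  have e : A * a * (r + r) + B * (3 * (t + t) / a) = (2 * A) * (a * r) + (6 * B) * (t / a) := by
    field_simp
    ring
  rw [e] at h1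
  have h2 : 0 ≤ a * r := by positivity
  have h3 : 0 ≤ t / a := by positivity
  have h4 := mul_le_mul_of_nonneg_right hKA h2
  have h5 := mul_le_mul_of_nonneg_right hKB h3
  nlinarith

/-- The errors of the edge and vertex functions are bounded by the error of the magnetisation. -/
theorem StaticTau_thm (hd : 3 ≤ d) [Corr θ] (C : Crit (d - 1) θ) (M : ℝ) :
    ∃ K : ℝ, 0 ≤ K ∧ ∀ μ : Measure ℝ, Nish μ → (∀ᵐ h ∂μ, |h| ≤ M) →
      ∀ {Ω : Type} [MeasurableSpace Ω] {P : Measure Ω} [IsProbabilityMeasure P] (S : Setting d θ μ Ω P)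
        (i : Fin d) (a : ℝ), 0 < a → a ≤ 1 →
        S.tau2 i ≤ K * (a * S.r + (P {ω | a / 2 < S.m root ω ^ 2}).toReal / a) ∧ S.tau2 i ≤ K * S.r := by
  have h0 := C.h0
  have h1 := C.h1
  have ha0 : Real.tanh (M + d * Real.artanh θ) < 1 := Real.tanh_lt_one _
  obtain ⟨C1, hC1, hlip1⟩ := PsiE_lip (θ := θ) h0 h1 ha0
  obtain ⟨C1', hC1', hbd1⟩ := PsiE_bdd (θ := θ) h0 h1 ha0
  obtain ⟨C2, hC2, hlip2⟩ := LogV_lip ha0
  obtain ⟨C2', hC2', hbd2⟩ := LogV_bdd ha0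
  refine ⟨2 * (24 * C1 ^ 2) + 6 * (4 * C1' ^ 2) + 2 * (24 * C2 ^ 2) + 6 * (4 * C2' ^ 2) +
    2 * (32 * C1 ^ 2) + 2 * (32 * C2 ^ 2), by positivity, ?_⟩
  intro μ hμ hM Ω _ P _ S i a ha ha1
  have hr : 0 ≤ S.r := integral_nonneg fun ω => sq_nonneg _
  have ht : 0 ≤ P.real {ω | a / 2 < S.m root ω ^ 2} := measureReal_nonneg
  obtain ⟨e1, e2⟩ := StaticTau_re S h1 hμ hM hC1 hlip1 hbd1 i ha ha1
  obtain ⟨v1, v2⟩ := StaticTau_rv S h1 hμ hM hC2 hlip2 hbd2 ha ha1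
  have p1 : 0 ≤ C1 ^ 2 := sq_nonneg _
  have p2 : 0 ≤ C1' ^ 2 := sq_nonneg _
  have p3 : 0 ≤ C2 ^ 2 := sq_nonneg _
  have p4 : 0 ≤ C2' ^ 2 := sq_nonneg _
  constructor
  · refine max_le ?_ ?_
    · exact StaticTau_combine hr ht ha (by linarith) (by linarith) e1
    · exact StaticTau_combine hr ht ha (by linarith) (by linarith) v1
  · refine max_le ?_ ?_
    · have : 32 * C1 ^ 2 * (S.r + S.r) = (2 * (32 * C1 ^ 2)) * S.r := by ring
      rw [this] at e2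
      refine e2.trans (mul_le_mul_of_nonneg_right ?_ hr)
      linarith
    · have : 32 * C2 ^ 2 * (S.r + S.r) = (2 * (32 * C2 ^ 2)) * S.r := by ring
      rw [this] at v2
      refine v2.trans (mul_le_mul_of_nonneg_right ?_ hr)
      linarith

end Vale.Agent.Lib.P161B
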