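import Vale.Agent.Lib.P161B.StaticCmp
import Vale.Agent.Lib.P161B.StaticTauThm

/-!
Auxiliary results for `static_SC`: paths through the edge `{root, y0}` and their counting.
-/

namespace Vale.Agent.Lib.P161B

open MeasureTheory ProbabilityTheory Filter
open Vale.Agent.Lib.P161

variable {d : ℕ} {θ : ℝ} {μ : Measure ℝ}

lemma SCa_len_ch {x : Word d} {i : ℕ} (hi : i ≤ len x) : len (ch x i) = i := by
  simp only [len, ch, List.length_drop]
  simp only [len] at hi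
  omega

lemma SCa_ch_zero (x : Word d) : ch x 0 = root := by
  apply Subtype.ext
  simp [ch, root, len]

lemma SCa_ch_self (x : Word d) : ch x (len x) = x := by
  apply Subtype.ext
  simp [ch, len]

lemma SCa_ch_suffix (x : Word d) (i : ℕ) : (ch x i).1 <:+ x.1 := List.drop_suffix _ _

lemma SCa_ch_eq_of_suffix {u x : Word d} (h : u.1 <:+ x.1) : ch x (len u) = u := by
  apply Subtype.ext
  simp only [ch, len]
  exact (List.suffix_iff_eq_drop.1 h).symm

lemma SCa_len_letter (i : Fin d) : len (letter i) = 1 := rfl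

lemma SCa_len_root : len (root : Word d) = 0 := rfl

/-- The vertices at depth `i` which are not below `y0`. -/
noncomputable def SCa_S0 (y0 : Word d) (i : ℕ) : Finset (Word d) :=
  open Classical in (sph i).filter (fun a => ¬ y0.1 <:+ a.1)

/-- The vertices at distance `i` below `y0`, which is at depth one. -/
noncomputable def SCa_Sb (y0 : Word d) (i : ℕ) : Finset (Word d) :=
  open Classical in (sph (i + 1)).filter (fun b => y0.1 <:+ b.1)

lemma SCa_mem_sph {n : ℕ} {w : Word d} : w ∈ (sph n : Finset (Word d)) ↔ len w = n := by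
  simp only [sph, Finset.mem_filter, mem_ball]
  constructor
  · exact fun h => h.2
  · exact fun h => ⟨h.le, h⟩

lemma SCa_mem_S0 {y0 : Word d} {i : ℕ} {a : Word d} :
    a ∈ SCa_S0 y0 i ↔ len a = i ∧ ¬ y0.1 <:+ a.1 := by
  classical
  simp only [SCa_S0, Finset.mem_filter, SCa_mem_sph]

lemma SCa_mem_Sb {y0 : Word d} {i : ℕ} {b : Word d} :
    b ∈ SCa_Sb y0 i ↔ len b = i + 1 ∧ y0.1 <:+ b.1 := by
  classical
  simp only [SCa_Sb, Finset.mem_filter, SCa_mem_sph]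

lemma SCa_Sb_zero (i0 : Fin d) : SCa_Sb (letter i0) 0 = {letter i0} := by
  ext b
  simp only [SCa_mem_Sb, Finset.mem_singleton]
  constructor
  · rintro ⟨h1, h2⟩
    have := SCa_ch_eq_of_suffix h2
    rw [SCa_len_letter, ← show len b = 1 from h1, SCa_ch_self] at this
    exact this
  · rintro rfl
    exact ⟨rfl, List.suffix_refl _⟩

lemma SCa_Sb_succ (i0 : Fin d) (m : ℕ) :
    SCa_Sb (letter i0) (m + 1) = (SCa_Sb (letter i0) m).biUnion kids := by
  ext b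
  simp only [SCa_mem_Sb, Finset.mem_biUnion, mem_kids]
  constructor
  · rintro ⟨h1, h2⟩
    have hb : b.1 ≠ [] := by
      intro h0
      simp only [len, h0] at h1
      simp at h1
    refine ⟨parent b, ⟨?_, ?_⟩, ?_, rfl⟩
    · simp only [len, parent, List.length_tail] at h1 ⊢
      omega
    · obtain ⟨b1, hb1⟩ := b
      cases b1 with
      | nil => exact absurd rfl hb
      | cons h t =>
        rcases List.suffix_cons_iff.1 h2 with h3 | h3
        · exfalso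
          have h4 := congrArg List.length h3
          simp only [letter, List.length_cons, List.length_nil] at h4
          simp only [len, List.length_cons] at h1
          omega
        · exact h3
    · intro h0
      exact hb (congrArg Subtype.val h0)
  · rintro ⟨c, ⟨h1, h2⟩, h3, rfl⟩
    have hb : b.1 ≠ [] := fun h0 => h3 (Subtype.ext h0)
    constructor
    · simp only [len, parent, List.length_tail] at h1 ⊢
      have : 0 < b.1.length := List.length_pos_iff.2 hb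
      omega
    · obtain ⟨b1, hb1⟩ := b
      cases b1 with
      | nil => exact absurd rfl hb
      | cons h t => exact h2.trans (List.suffix_cons _ _)

lemma SCa_kids_disjoint {u v : Word d} (h : u ≠ v) : Disjoint (kids u) (kids v) := by
  rw [Finset.disjoint_left]
  intro c hu hv
  exact h ((mem_kids.1 hu).2.symm.trans (mem_kids.1 hv).2)

lemma SCa_card_Sb (i0 : Fin d) (m : ℕ) : (SCa_Sb (letter i0) m).card = (d - 1) ^ m := by
  induction m with
  | zero => rw [SCa_Sb_zero]; simp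
  | succ m ih =>
    rw [SCa_Sb_succ, Finset.card_biUnion (fun u _ v _ h => SCa_kids_disjoint h)]
    have : ∀ u ∈ SCa_Sb (letter i0) m, (kids u).card = d - 1 := by
      intro u hu
      apply card_kids
      rintro rfl
      have := (SCa_mem_Sb.1 hu).1
      simp [len, root] at this
    rw [Finset.sum_congr rfl this, Finset.sum_const, ih]
    simp [pow_succ]

lemma SCa_card_S0 (hd : 2 ≤ d) (i0 : Fin d) (i : ℕ) :
    ((SCa_S0 (letter i0) i).card : ℝ) = ((d : ℝ) - 1) ^ i := by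
  classical
  cases i with
  | zero =>
    have : SCa_S0 (letter i0) 0 = {root} := by
      ext a
      simp only [SCa_mem_S0, Finset.mem_singleton]
      constructor
      · rintro ⟨h1, -⟩
        apply Subtype.ext
        simpa [len, root] using h1
      · rintro rfl
        refine ⟨rfl, ?_⟩
        simp [root, letter]
    rw [this]
    simp
  | succ i =>
    have h1 := card_sph (d := d) hd (n := i + 1) (by omega)
    have h2 : (SCa_S0 (letter i0) (i + 1)).card + (SCa_Sb (letter i0) i).card =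
        (sph (i + 1) : Finset (Word d)).card := by
      rw [add_comm]
      unfold SCa_S0 SCa_Sb
      exact Finset.card_filter_add_card_filter_not _
    have h3 := SCa_card_Sb i0 i
    have h4 : (((d - 1 : ℕ) : ℝ)) = (d : ℝ) - 1 := by
      rw [Nat.cast_sub (by omega)]; simp
    have h5 : ((SCa_S0 (letter i0) (i + 1)).card : ℝ) + ((SCa_Sb (letter i0) i).card : ℝ) =
        ((sph (i + 1) : Finset (Word d)).card : ℝ) := by exact_mod_cast h2
    rw [h1, h3] at h5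
    push_cast at h5
    rw [h4] at h5
    rw [pow_succ]
    linear_combination h5

/-- The path from `a` to `b` through the edge `{root, y0}`. -/
noncomputable def SCa_pth (i : ℕ) (a b : Word d) (j : ℕ) : Word d :=
  if j ≤ i then ch a (i - j) else ch b (j - i)

lemma SCa_pth_root {i : ℕ} (a b : Word d) (_ha : len a = i) : SCa_pth i a b i = root := by
  simp [SCa_pth, SCa_ch_zero]

lemma SCa_pth_y0 {i : ℕ} {y0 a b : Word d} (hy : len y0 = 1) (hb : y0.1 <:+ b.1) :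
    SCa_pth i a b (i + 1) = y0 := by
  have := SCa_ch_eq_of_suffix hb
  rw [hy] at this
  simp [SCa_pth, this]

lemma SCa_pth_start {i : ℕ} (a b : Word d) (ha : len a = i) : SCa_pth i a b 0 = a := by
  simp only [SCa_pth, Nat.zero_le, if_true, Nat.sub_zero]
  rw [← ha, SCa_ch_self]

lemma SCa_pth_end {i i' : ℕ} (a b : Word d) (hb : len b = i' + 1) :
    SCa_pth i a b (i + i' + 1) = b := by
  have : ¬ i + i' + 1 ≤ i := by omega
  simp only [SCa_pth, this, if_false]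
  have h : i + i' + 1 - i = len b := by omega
  rw [h, SCa_ch_self]

lemma SCa_nb_pth (i0 : Fin d) {i i' : ℕ} {a b : Word d} (ha : a ∈ SCa_S0 (letter i0) i)
    (hb : b ∈ SCa_Sb (letter i0) i') : NB (SCa_pth i a b) (i + i' + 1) := by
  obtain ⟨ha1, ha2⟩ := SCa_mem_S0.1 ha
  obtain ⟨hb1, hb2⟩ := SCa_mem_Sb.1 hb
  have hlenA : ∀ {l}, l ≤ i → len (ch a l) = l := fun hl => SCa_len_ch (by omega)
  have hlenB : ∀ {l}, l ≤ i' + 1 → len (ch b l) = l := fun hl => SCa_len_ch (by omega)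
  constructor
  · intro j hj
    by_cases h1 : j < i
    · have e1 : SCa_pth i a b j = ch a (i - j - 1 + 1) := by
        simp only [SCa_pth, show j ≤ i by omega, if_true]
        congr 1; omega
      have e2 : SCa_pth i a b (j + 1) = ch a (i - j - 1) := by
        simp only [SCa_pth, show j + 1 ≤ i by omega, if_true]
        congr 1
      rw [e1, e2]
      exact ((nb_ch a).adj (i - j - 1) (by omega)).symm
    · by_cases h2 : j = i
      · subst h2
        rw [SCa_pth_root a b ha1, SCa_pth_y0 rfl hb2]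
        right
        exact ⟨by simp [letter], by simp [letter, root]⟩
      · have e1 : SCa_pth i a b j = ch b (j - i) := by
          simp only [SCa_pth, show ¬ j ≤ i by omega, if_false]
        have e2 : SCa_pth i a b (j + 1) = ch b (j - i + 1) := by
          simp only [SCa_pth, show ¬ j + 1 ≤ i by omega, if_false]
          congr 1; omega
        rw [e1, e2]
        exact (nb_ch b).adj (j - i) (by omega)
  · intro j hj h
    by_cases h1 : j + 2 ≤ i
    · have e1 : SCa_pth i a b j = ch a (i - j) := by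
        simp only [SCa_pth, show j ≤ i by omega, if_true]
      have e2 : SCa_pth i a b (j + 2) = ch a (i - (j + 2)) := by
        simp only [SCa_pth, show j + 2 ≤ i by omega, if_true]
      rw [e1, e2] at h
      have := congrArg len h
      rw [hlenA (by omega), hlenA (by omega)] at this
      omega
    · by_cases h2 : j + 1 = i
      · have e1 : SCa_pth i a b j = ch a 1 := by
          simp only [SCa_pth, show j ≤ i by omega, if_true]
          congr 1; omega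
        have e2 : SCa_pth i a b (j + 2) = letter i0 := by
          rw [show j + 2 = i + 1 by omega]
          exact SCa_pth_y0 rfl hb2
        rw [e1, e2] at h
        apply ha2
        rw [h]
        exact SCa_ch_suffix a 1
      · by_cases h3 : j = i
        · subst h3
          rw [SCa_pth_root a b ha1] at h
          have e2 : SCa_pth j a b (j + 2) = ch b 2 := by
            simp only [SCa_pth, show ¬ j + 2 ≤ j by omega, if_false]
            congr 1; omega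
          rw [e2] at h
          have := congrArg len h
          rw [hlenB (by omega)] at this
          simp [len, root] at this
        · have e1 : SCa_pth i a b j = ch b (j - i) := by
            simp only [SCa_pth, show ¬ j ≤ i by omega, if_false]
          have e2 : SCa_pth i a b (j + 2) = ch b (j + 2 - i) := by
            simp only [SCa_pth, show ¬ j + 2 ≤ i by omega, if_false]
          rw [e1, e2] at h
          have := congrArg len h
          rw [hlenB (by omega), hlenB (by omega)] at this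
          omega


lemma SCa_parent_ch {x : Word d} {l : ℕ} (hl : l < len x) : parent (ch x (l + 1)) = ch x l := by
  apply Subtype.ext
  simp only [parent, ch, List.tail_drop]
  congr 1
  omega

lemma SCa_ch_ne_root {x : Word d} {l : ℕ} (hl : l < len x) : ch x (l + 1) ≠ root := by
  intro h
  have := congrArg len h
  rw [SCa_len_ch hl, SCa_len_root] at this
  omega

section Point

variable [Corr θ]

/-- The pointwise bound along a path through the edge `{root, y0}`. -/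
lemma SCa_CCp_bound (h0 : 0 < θ) (h1 : θ < 1) (i0 : Fin d) (y : Word d → ℝ)
    (hm : ∀ x, |mm θ x y| < 1)
    (hR : ∀ c : Word d, c ≠ root → Rho θ (mm θ (parent c) y) (mm θ c y) ^ 2 ≤ θ ^ 2 * psiF θ (hhL θ c y))
    {i i' : ℕ} {a b : Word d} (ha : a ∈ SCa_S0 (letter i0) i) (hb : b ∈ SCa_Sb (letter i0) i') :
    CCp θ (SCa_pth i a b) (i + i' + 1) y ^ 2 ≤
      θ ^ (2 * (i + i' + 1)) * ((∏ l ∈ Finset.range i, psiF θ (hhL θ (ch a (l + 1)) y)) *
        ∏ l ∈ Finset.range i', psiF θ (hhL θ (ch b (1 + l + 1)) y)) := by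
  obtain ⟨ha1, ha2⟩ := SCa_mem_S0.1 ha
  obtain ⟨hb1, hb2⟩ := SCa_mem_Sb.1 hb
  set p := SCa_pth i a b with hp
  set f : ℕ → ℝ := fun j => Rho θ (mm θ (p j) y) (mm θ (p (j + 1)) y) ^ 2 with hf
  have hψ0 : ∀ h, 0 ≤ psiF θ h := fun h => (psiF_pos h0.le h1 h).le
  have hψ1 : ∀ h, psiF θ h ≤ 1 := fun h => psiF_le_one h0.le h1 h
  have hf0 : ∀ j, 0 ≤ f j := fun j => sq_nonneg _
  have hθ2 : 0 ≤ θ ^ 2 := sq_nonneg _
  -- the part of the path in direction of `a`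
  have hA : ∏ j ∈ Finset.range i, f j ≤
      (θ ^ 2) ^ i * ∏ l ∈ Finset.range i, psiF θ (hhL θ (ch a (l + 1)) y) := by
    calc ∏ j ∈ Finset.range i, f j
        ≤ ∏ j ∈ Finset.range i, (θ ^ 2 * psiF θ (hhL θ (ch a (i - 1 - j + 1)) y)) := by
          refine Finset.prod_le_prod (fun j _ => hf0 j) fun j hj => ?_
          have hj' := Finset.mem_range.1 hj
          have e1 : p j = ch a (i - 1 - j + 1) := by
            simp only [hp, SCa_pth, show j ≤ i by omega, if_true]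
            congr 1; omega
          have e2 : p (j + 1) = ch a (i - 1 - j) := by
            simp only [hp, SCa_pth, show j + 1 ≤ i by omega, if_true]
            congr 1; omega
          simp only [hf]
          rw [e1, e2, Rho_comm]
          have := hR (ch a (i - 1 - j + 1)) (SCa_ch_ne_root (by omega))
          rwa [SCa_parent_ch (by omega)] at this
      _ = (θ ^ 2) ^ i * ∏ l ∈ Finset.range i, psiF θ (hhL θ (ch a (l + 1)) y) := by
          rw [Finset.prod_mul_distrib, Finset.prod_const, Finset.card_range]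
          congr 1
          exact Finset.prod_range_reflect (fun l => psiF θ (hhL θ (ch a (l + 1)) y)) i
  -- the edge itself
  have hE : f i ≤ θ ^ 2 := by
    have e1 : p i = root := SCa_pth_root a b ha1
    have e2 : p (i + 1) = letter i0 := SCa_pth_y0 rfl hb2
    simp only [hf]
    rw [e1, e2]
    have := hR (letter i0) (by
      intro h
      have := congrArg len h
      simp [len, root, letter] at this)
    have e3 : parent (letter i0) = root := rfl
    rw [e3] at this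
    refine this.trans ?_
    have := hψ1 (hhL θ (letter i0) y)
    nlinarith
  -- the part of the path in direction of `b`
  have hB : ∏ j ∈ Finset.range i', f (i + 1 + j) ≤
      (θ ^ 2) ^ i' * ∏ l ∈ Finset.range i', psiF θ (hhL θ (ch b (1 + l + 1)) y) := by
    calc ∏ j ∈ Finset.range i', f (i + 1 + j)
        ≤ ∏ j ∈ Finset.range i', (θ ^ 2 * psiF θ (hhL θ (ch b (1 + j + 1)) y)) := by
          refine Finset.prod_le_prod (fun j _ => hf0 _) fun j hj => ?_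
          have hj' := Finset.mem_range.1 hj
          have e1 : p (i + 1 + j) = ch b (1 + j) := by
            simp only [hp, SCa_pth, show ¬ i + 1 + j ≤ i by omega, if_false]
            congr 1; omega
          have e2 : p (i + 1 + j + 1) = ch b (1 + j + 1) := by
            simp only [hp, SCa_pth, show ¬ i + 1 + j + 1 ≤ i by omega, if_false]
            congr 1; omega
          simp only [hf]
          rw [e1, e2]
          have := hR (ch b (1 + j + 1)) (SCa_ch_ne_root (by omega))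
          rwa [SCa_parent_ch (by omega)] at this
      _ = (θ ^ 2) ^ i' * ∏ l ∈ Finset.range i', psiF θ (hhL θ (ch b (1 + l + 1)) y) := by
          rw [Finset.prod_mul_distrib, Finset.prod_const, Finset.card_range]
  have hP1 : 0 ≤ ∏ l ∈ Finset.range i, psiF θ (hhL θ (ch a (l + 1)) y) :=
    Finset.prod_nonneg fun _ _ => hψ0 _
  have hP2 : 0 ≤ ∏ l ∈ Finset.range i', psiF θ (hhL θ (ch b (1 + l + 1)) y) :=
    Finset.prod_nonneg fun _ _ => hψ0 _
  -- the full product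
  have hprod : ∏ j ∈ Finset.range (i + i' + 1), f j ≤
      θ ^ (2 * (i + i' + 1)) * ((∏ l ∈ Finset.range i, psiF θ (hhL θ (ch a (l + 1)) y)) *
        ∏ l ∈ Finset.range i', psiF θ (hhL θ (ch b (1 + l + 1)) y)) := by
    rw [show i + i' + 1 = (i + 1) + i' by omega, Finset.prod_range_add, Finset.prod_range_succ]
    have h3 : 0 ≤ (∏ j ∈ Finset.range i, f j) * f i :=
      mul_nonneg (Finset.prod_nonneg fun j _ => hf0 j) (hf0 i)
    calc (∏ j ∈ Finset.range i, f j) * f i * ∏ j ∈ Finset.range i', f (i + 1 + j)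
        ≤ (((θ ^ 2) ^ i * ∏ l ∈ Finset.range i, psiF θ (hhL θ (ch a (l + 1)) y)) * θ ^ 2) *
            ((θ ^ 2) ^ i' * ∏ l ∈ Finset.range i', psiF θ (hhL θ (ch b (1 + l + 1)) y)) := by
          refine mul_le_mul (mul_le_mul hA hE (hf0 i) ?_) hB
            (Finset.prod_nonneg fun j _ => hf0 _) ?_
          · positivity
          · positivity
      _ = _ := by ring
  -- the square of the covariance
  have hv : ∀ v : Word d, 0 ≤ 1 - mm θ v y ^ 2 ∧ 1 - mm θ v y ^ 2 ≤ 1 := fun v => by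
    have := Edge_sq_lt_one (hm v)
    constructor
    · linarith
    · nlinarith [sq_nonneg (mm θ v y)]
  have hCC : CCp θ p (i + i' + 1) y ^ 2 =
      ((1 - mm θ (p 0) y ^ 2) * (1 - mm θ (p (i + i' + 1)) y ^ 2)) *
        ∏ j ∈ Finset.range (i + i' + 1), f j := by
    unfold CCp
    rw [mul_pow, Real.sq_sqrt (mul_nonneg (hv _).1 (hv _).1), ← Finset.prod_pow]
  rw [hCC]
  have hX0 := mul_nonneg (hv (p 0)).1 (hv (p (i + i' + 1))).1
  have hX1 : (1 - mm θ (p 0) y ^ 2) * (1 - mm θ (p (i + i' + 1)) y ^ 2) ≤ 1 :=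
    mul_le_one₀ (hv _).2 (hv _).1 (hv _).2
  have hP0 : 0 ≤ ∏ j ∈ Finset.range (i + i' + 1), f j := Finset.prod_nonneg fun j _ => hf0 j
  exact (mul_le_of_le_one_left hP0 hX1).trans hprod

end Point

/-! ### Numerical facts on the weights -/

lemma SCa_wPath_root (θ α : ℝ) (k : ℕ) {a : Word d} {i : ℕ} (ha : len a = i) (y : Word d → ℝ) :
    wPath θ α k root a y = (Real.exp α / k) ^ i *
      ∏ l ∈ Finset.range i, psiF θ (hhL θ (ch a (l + 1)) y) := by
  unfold wPath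
  simp only [SCa_len_root, Nat.sub_zero, ha, zero_add]

lemma SCa_wPath_y0 (θ α : ℝ) (k : ℕ) (i0 : Fin d) {b : Word d} {i' : ℕ} (hb : len b = i' + 1)
    (y : Word d → ℝ) :
    wPath θ α k (letter i0) b y = (Real.exp α / k) ^ i' *
      ∏ l ∈ Finset.range i', psiF θ (hhL θ (ch b (1 + l + 1)) y) := by
  unfold wPath
  simp only [SCa_len_letter, hb, Nat.add_sub_cancel]

lemma SCa_le_exp {α : ℝ} (hα : 0 < α) (t : ℕ) : (t : ℝ) ≤ Real.exp (α * t) / α := by
  rw [le_div_iff₀ hα]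
  have := Real.add_one_le_exp (α * t)
  nlinarith

lemma SCa_num_pair {k α : ℝ} (hk : 0 < k) (hθ : k * θ ^ 2 = 1) (hα : 0 < α) (i i' : ℕ) :
    (((i + i' + 1 : ℕ) : ℝ) + 2) * θ ^ (2 * (i + i' + 1)) ≤
      (Real.exp (3 * α) / (α * k)) * ((Real.exp α / k) ^ i * (Real.exp α / k) ^ i') := by
  have h1 := SCa_le_exp hα (i + i' + 3)
  have h2 : Real.exp (α * ((i + i' + 3 : ℕ) : ℝ)) =
      Real.exp (3 * α) * Real.exp α ^ i * Real.exp α ^ i' := by
    rw [← Real.exp_nat_mul, ← Real.exp_nat_mul, ← Real.exp_add, ← Real.exp_add]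
    congr 1
    push_cast
    ring
  have h3 : θ ^ 2 = 1 / k := by field_simp; linarith
  have h4 : θ ^ (2 * (i + i' + 1)) = (1 / k) ^ i * (1 / k) ^ i' * (1 / k) := by
    rw [← h3]
    ring
  have h5 : (((i + i' + 1 : ℕ) : ℝ) + 2) = ((i + i' + 3 : ℕ) : ℝ) := by
    push_cast; ring
  rw [h5, h4]
  rw [h2] at h1
  have h6 : (0 : ℝ) ≤ (1 / k) ^ i * (1 / k) ^ i' * (1 / k) := by positivity
  calc ((i + i' + 3 : ℕ) : ℝ) * ((1 / k) ^ i * (1 / k) ^ i' * (1 / k))
      ≤ (Real.exp (3 * α) * Real.exp α ^ i * Real.exp α ^ i' / α) *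
          ((1 / k) ^ i * (1 / k) ^ i' * (1 / k)) := mul_le_mul_of_nonneg_right h1 h6
    _ = _ := by
      simp only [div_pow, one_pow]
      field_simp

lemma SCa_num_single {k α : ℝ} (hk : 0 < k) (hθ : k * θ ^ 2 = 1) (hα : 0 < α) (n : ℕ) :
    ((n : ℝ) + 2) * θ ^ (2 * n) ≤ (Real.exp (2 * α) / α) * (Real.exp α / k) ^ n := by
  have h1 := SCa_le_exp hα (n + 2)
  have h2 : Real.exp (α * ((n + 2 : ℕ) : ℝ)) = Real.exp (2 * α) * Real.exp α ^ n := by
    rw [← Real.exp_nat_mul, ← Real.exp_add]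
    congr 1
    push_cast
    ring
  have h3 : θ ^ 2 = 1 / k := by field_simp; linarith
  have h4 : θ ^ (2 * n) = (1 / k) ^ n := by
    rw [← h3, ← pow_mul]
  have h5 : ((n : ℝ) + 2) = ((n + 2 : ℕ) : ℝ) := by
    push_cast; ring
  rw [h5, h4]
  rw [h2] at h1
  have h6 : (0 : ℝ) ≤ (1 / k) ^ n := by positivity
  calc ((n + 2 : ℕ) : ℝ) * (1 / k) ^ n
      ≤ (Real.exp (2 * α) * Real.exp α ^ n / α) * (1 / k) ^ n := mul_le_mul_of_nonneg_right h1 h6
    _ = _ := by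
      simp only [div_pow, one_pow]
      field_simp

/-! ### Sums over sets of vertices -/

lemma SCa_sum_ball (R : ℕ) (f : Word d → ℝ) :
    ∑ x ∈ ball R, f x = ∑ n ∈ Finset.range (R + 1), ∑ x ∈ (sph n : Finset (Word d)), f x := by
  rw [← Finset.sum_fiberwise_of_maps_to (s := ball R) (t := Finset.range (R + 1)) (g := len)
    (fun x hx => by
      rw [Finset.mem_range]
      have := mem_ball.1 hx
      omega)]
  refine Finset.sum_congr rfl fun n hn => ?_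
  have hn' := Finset.mem_range.1 hn
  refine Finset.sum_congr ?_ fun _ _ => rfl
  ext x
  simp only [Finset.mem_filter, mem_ball, SCa_mem_sph]
  constructor
  · exact fun h => h.2
  · exact fun h => ⟨by omega, h⟩

lemma SCa_disj {α : Type*} {F : ℕ → Finset α} {I : Finset ℕ} {T : Finset α} (hF : ∀ i ∈ I, F i ⊆ T)
    (hdisj : ∀ i j, i ≠ j → Disjoint (F i) (F j)) {u : α → ℝ} (hu : ∀ a ∈ T, 0 ≤ u a) :
    ∑ i ∈ I, ∑ a ∈ F i, u a ≤ ∑ a ∈ T, u a := by
  classical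
  rw [← Finset.sum_biUnion (fun i _ j _ hij => hdisj i j hij)]
  refine Finset.sum_le_sum_of_subset_of_nonneg (Finset.biUnion_subset.2 hF) fun a ha _ => hu a ha

/-- The vertices below `v` up to depth `R` below `v`. -/
noncomputable def SCa_BB (v : Word d) (R : ℕ) : Finset (Word d) :=
  (ball (len v + R)).filter (fun w => v.1 <:+ w.1)

lemma SCa_mem_BB {v w : Word d} {R : ℕ} : w ∈ SCa_BB v R ↔ len w ≤ len v + R ∧ v.1 <:+ w.1 := by
  simp only [SCa_BB, Finset.mem_filter, mem_ball]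

lemma SCa_S0_subset (i0 : Fin d) {i R : ℕ} (h : i ≤ R) : SCa_S0 (letter i0) i ⊆ SCa_BB root R := by
  intro a ha
  obtain ⟨h1, -⟩ := SCa_mem_S0.1 ha
  rw [SCa_mem_BB]
  refine ⟨by rw [SCa_len_root]; omega, ?_⟩
  exact List.nil_suffix

lemma SCa_Sb_subset (i0 : Fin d) {i R : ℕ} (h : i ≤ R) : SCa_Sb (letter i0) i ⊆ SCa_BB (letter i0) R := by
  intro a ha
  obtain ⟨h1, h2⟩ := SCa_mem_Sb.1 ha
  rw [SCa_mem_BB]
  refine ⟨by rw [SCa_len_letter]; omega, h2⟩

/-- Bookkeeping for the triples `(n, i, i')`, `i + i' + 1 = n`. -/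
lemma SCa_index_pairs (R : ℕ) {U : ℕ → ℕ → ℝ} (hU : ∀ i i', 0 ≤ U i i') :
    ∑ n ∈ Finset.range (R + 1), ∑ i ∈ Finset.range n, U i (n - 1 - i) ≤
      ∑ i ∈ Finset.range R, ∑ i' ∈ Finset.range R, U i i' := by
  classical
  rw [Finset.sum_sigma', ← Finset.sum_product']
  let e : (Σ _ : ℕ, ℕ) → ℕ × ℕ := fun x => (x.2, x.1 - 1 - x.2)
  have hinj : Set.InjOn e ((Finset.range (R + 1)).sigma fun n => Finset.range n : Finset _) := by
    rintro ⟨n, i⟩ h1 ⟨m, j⟩ h2 h3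
    simp only [Finset.coe_sigma, Set.mem_sigma_iff, Finset.coe_range, Set.mem_Iio] at h1 h2
    simp only [e, Prod.mk.injEq] at h3
    obtain ⟨h4, h5⟩ := h3
    subst h4
    have : n = m := by omega
    subst this
    rfl
  have h1 : ∑ x ∈ (Finset.range (R + 1)).sigma fun n => Finset.range n, U x.2 (x.1 - 1 - x.2) =
      ∑ z ∈ ((Finset.range (R + 1)).sigma fun n => Finset.range n).image e, U z.1 z.2 := by
    rw [Finset.sum_image hinj]
  rw [h1]
  refine Finset.sum_le_sum_of_subset_of_nonneg ?_ fun z _ _ => hU _ _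
  intro z hz
  obtain ⟨⟨n, i⟩, hx, rfl⟩ := Finset.mem_image.1 hz
  simp only [Finset.mem_sigma, Finset.mem_range] at hx
  simp only [e, Finset.mem_product, Finset.mem_range]
  omega

lemma SCa_index (i0 : Fin d) (R : ℕ) {T : Word d → Word d → ℝ} (hT : ∀ a b, 0 ≤ T a b) :
    ∑ n ∈ Finset.range (R + 1), ∑ i ∈ Finset.range n,
        ∑ a ∈ SCa_S0 (letter i0) i, ∑ b ∈ SCa_Sb (letter i0) (n - 1 - i), T a b ≤
      ∑ a ∈ SCa_BB root R, ∑ b ∈ SCa_BB (letter i0) R, T a b := by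
  have hU : ∀ i i', 0 ≤ ∑ a ∈ SCa_S0 (letter i0) i, ∑ b ∈ SCa_Sb (letter i0) i', T a b :=
    fun i i' => Finset.sum_nonneg fun a _ => Finset.sum_nonneg fun b _ => hT a b
  refine (SCa_index_pairs R hU).trans ?_
  have hd0 : ∀ i j, i ≠ j → Disjoint (SCa_S0 (letter i0) i) (SCa_S0 (letter i0) j) := by
    intro i j hij
    rw [Finset.disjoint_left]
    intro a h1 h2
    exact hij ((SCa_mem_S0.1 h1).1.symm.trans (SCa_mem_S0.1 h2).1)
  have hd1 : ∀ i j, i ≠ j → Disjoint (SCa_Sb (letter i0) i) (SCa_Sb (letter i0) j) := by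
    intro i j hij
    rw [Finset.disjoint_left]
    intro a h1 h2
    have := (SCa_mem_Sb.1 h1).1.symm.trans (SCa_mem_Sb.1 h2).1
    omega
  have h1 : ∀ i ∈ Finset.range R, ∑ i' ∈ Finset.range R,
      ∑ a ∈ SCa_S0 (letter i0) i, ∑ b ∈ SCa_Sb (letter i0) i', T a b ≤
      ∑ a ∈ SCa_S0 (letter i0) i, ∑ b ∈ SCa_BB (letter i0) R, T a b := by
    intro i _
    rw [Finset.sum_comm]
    refine Finset.sum_le_sum fun a _ => ?_
    refine SCa_disj (fun i' hi' => SCa_Sb_subset i0 ?_) hd1 fun b _ => hT a b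
    have := Finset.mem_range.1 hi'
    omega
  refine (Finset.sum_le_sum h1).trans ?_
  refine SCa_disj (fun i hi => SCa_S0_subset i0 ?_) hd0 fun a _ =>
    Finset.sum_nonneg fun b _ => hT a b
  have := Finset.mem_range.1 hi
  omega

/-! ### Measurability and bounds of the weights -/

lemma SCa_measurable_CCp (θ : ℝ) [Corr θ] (p : ℕ → Word d) (n : ℕ) : Measurable (CCp θ p n) := by
  unfold CCp
  refine Measurable.mul ?_ (Finset.measurable_prod _ fun i _ => ?_)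
  · refine Measurable.sqrt ?_
    exact (measurable_const.sub ((measurable_mm θ _).pow_const 2)).mul
      (measurable_const.sub ((measurable_mm θ _).pow_const 2))
  · exact (measurable_Rho (θ := θ)).comp ((measurable_mm θ _).prodMk (measurable_mm θ _))

lemma SCa_measurable_wPath (θ α : ℝ) (k : ℕ) (v w : Word d) : Measurable (wPath θ α k v w) := by
  unfold wPath
  refine Measurable.const_mul (Finset.measurable_prod _ fun i _ => ?_) _
  exact (measurable_psiF (θ := θ)).comp (measurable_hhL θ _)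

lemma SCa_wPath_nonneg (h0 : 0 ≤ θ) (h1 : θ < 1) (α : ℝ) (k : ℕ) (v w : Word d) (y : Word d → ℝ) :
    0 ≤ wPath θ α k v w y := by
  unfold wPath
  refine mul_nonneg (by positivity) (Finset.prod_nonneg fun i _ => (psiF_pos h0 h1 _).le)

lemma SCa_wPath_le (h0 : 0 ≤ θ) (h1 : θ < 1) (α : ℝ) (k : ℕ) (v w : Word d) (y : Word d → ℝ) :
    wPath θ α k v w y ≤ (Real.exp α / k) ^ (len w - len v) := by
  unfold wPath
  refine mul_le_of_le_one_right (by positivity) (Finset.prod_le_one (fun i _ => (psiF_pos h0 h1 _).le)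
    fun i _ => psiF_le_one h0 h1 _)

lemma SCa_measurable_Dn (θ α : ℝ) (k n : ℕ) (v : Word d) : Measurable (Dn θ α k n v) := by
  induction n generalizing v with
  | zero =>
    have : Dn θ α k 0 v = fun _ => 1 := by funext y; rfl
    rw [this]
    exact measurable_const
  | succ n ih =>
    have : Dn θ α k (n + 1) v = fun y => 1 + Real.exp α / k *
        ∑ c ∈ kids v, psiF θ (hhL θ c y) * Dn θ α k n c y := by funext y; rfl
    rw [this]
    refine measurable_const.add (Measurable.const_mul (Finset.measurable_sum _ fun c _ => ?_) _)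
    exact ((measurable_psiF (θ := θ)).comp (measurable_hhL θ c)).mul (ih c)

lemma SCa_Dn_nonneg (h0 : 0 ≤ θ) (h1 : θ < 1) (α : ℝ) (k n : ℕ) (v : Word d) (y : Word d → ℝ) :
    0 ≤ Dn θ α k n v y := by
  induction n generalizing v with
  | zero => exact zero_le_one
  | succ n ih =>
    show 0 ≤ 1 + Real.exp α / k * ∑ c ∈ kids v, psiF θ (hhL θ c y) * Dn θ α k n c y
    have : 0 ≤ ∑ c ∈ kids v, psiF θ (hhL θ c y) * Dn θ α k n c y :=
      Finset.sum_nonneg fun c _ => mul_nonneg (psiF_pos h0 h1 _).le (ih c)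
    positivity

lemma SCa_Dn_mono (h0 : 0 ≤ θ) (h1 : θ < 1) (α : ℝ) (k n : ℕ) (v : Word d) (y : Word d → ℝ) :
    Dn θ α k n v y ≤ Dn θ α k (n + 1) v y := by
  induction n generalizing v with
  | zero =>
    show (1 : ℝ) ≤ 1 + Real.exp α / k * ∑ c ∈ kids v, psiF θ (hhL θ c y) * Dn θ α k 0 c y
    have : 0 ≤ ∑ c ∈ kids v, psiF θ (hhL θ c y) * Dn θ α k 0 c y :=
      Finset.sum_nonneg fun c _ => mul_nonneg (psiF_pos h0 h1 _).le (SCa_Dn_nonneg h0 h1 α k 0 c y)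
    have h2 : 0 ≤ Real.exp α / k * ∑ c ∈ kids v, psiF θ (hhL θ c y) * Dn θ α k 0 c y := by positivity
    linarith
  | succ n ih =>
    show 1 + Real.exp α / k * ∑ c ∈ kids v, psiF θ (hhL θ c y) * Dn θ α k n c y ≤
      1 + Real.exp α / k * ∑ c ∈ kids v, psiF θ (hhL θ c y) * Dn θ α k (n + 1) c y
    have : ∑ c ∈ kids v, psiF θ (hhL θ c y) * Dn θ α k n c y ≤
        ∑ c ∈ kids v, psiF θ (hhL θ c y) * Dn θ α k (n + 1) c y :=
      Finset.sum_le_sum fun c _ => mul_le_mul_of_nonneg_left (ih c) (psiF_pos h0 h1 _).le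
    have h2 : 0 ≤ Real.exp α / k := by positivity
    have := mul_le_mul_of_nonneg_left this h2
    linarith

/-- A bound for the branching sum which is uniform in the vertex and in the field. -/
lemma SCa_Dn_bdd (h0 : 0 ≤ θ) (h1 : θ < 1) (α : ℝ) (k n : ℕ) :
    ∃ B : ℝ, ∀ (v : Word d) (y : Word d → ℝ), Dn θ α k n v y ≤ B := by
  induction n with
  | zero => exact ⟨1, fun v y => le_rfl⟩
  | succ n ih =>
    obtain ⟨B, hB⟩ := ih
    refine ⟨1 + Real.exp α / k * ((d : ℝ) * max B 0), fun v y => ?_⟩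
    show 1 + Real.exp α / k * ∑ c ∈ kids v, psiF θ (hhL θ c y) * Dn θ α k n c y ≤ _
    have h2 : ∑ c ∈ kids v, psiF θ (hhL θ c y) * Dn θ α k n c y ≤ (d : ℝ) * max B 0 := by
      have h3 : ∑ c ∈ kids v, psiF θ (hhL θ c y) * Dn θ α k n c y ≤ ∑ _c ∈ kids v, max B 0 := by
        refine Finset.sum_le_sum fun c _ => ?_
        refine (mul_le_of_le_one_left (SCa_Dn_nonneg h0 h1 α k n c y) (psiF_le_one h0 h1 _)).trans ?_
        exact (hB c y).trans (le_max_left _ _)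
      refine h3.trans ?_
      rw [Finset.sum_const, nsmul_eq_mul]
      refine mul_le_mul_of_nonneg_right ?_ (le_max_right _ _)
      have hcard : (kids v).card ≤ d := by
        by_cases hv : v = root
        · rw [hv, card_kids_root]
        · rw [card_kids hv]; omega
      exact_mod_cast hcard
    have h4 : 0 ≤ Real.exp α / k := by positivity
    have := mul_le_mul_of_nonneg_left h2 h4
    linarith

lemma SCa_sum_wPath_root (hd : 2 ≤ d) (h0 : 0 ≤ θ) (h1 : θ < 1) {α : ℝ} (hα : 0 ≤ α) (k R : ℕ) (v : Word d)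
    (y : Word d → ℝ) :
    ∑ w ∈ SCa_BB v R, wPath θ α k v w y = Dn θ α k R v y :=
  sum_wPath_le_Dn hd θ α hα k R v y h0 h1

namespace Setting

variable [Corr θ] {Ω : Type*} [mΩ : MeasurableSpace Ω] {P : Measure Ω} [IsProbabilityMeasure P]
  {S : Setting d θ μ Ω P} {a B : ℝ}

/-- The sum `f² + Π f²`. -/
noncomputable def Aq (S : Setting d θ μ Ω P) (f : Ω → ℝ) (ω : Ω) : ℝ :=
  f ω ^ 2 + S.Pi (fun ω' => f ω' ^ 2) ω

lemma scBd_Aq {f : Ω → ℝ} (hf : ScBd P f) : ScBd P (S.Aq f) :=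
  (hf.pow 2).add ((hf.pow 2).condExp S.G_le)

lemma Pi_nonneg {f : Ω → ℝ} (hf : 0 ≤ᵐ[P] f) : 0 ≤ᵐ[P] S.Pi f := condExp_nonneg hf

lemma Aq_nonneg (f : Ω → ℝ) : ∀ᵐ ω ∂P, 0 ≤ S.Aq f ω := by
  have h : 0 ≤ᵐ[P] S.Pi (fun ω' => f ω' ^ 2) := Pi_nonneg (ae_of_all _ fun ω => sq_nonneg _)
  filter_upwards [h] with ω hω
  exact add_nonneg (sq_nonneg _) hω

lemma integral_Pi (S : Setting d θ μ Ω P) (f : Ω → ℝ) : ∫ ω, S.Pi f ω ∂P = ∫ ω, f ω ∂P :=
  integral_condExp S.G_le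

lemma Aq_integral {f : Ω → ℝ} (hf : ScBd P f) : ∫ ω, S.Aq f ω ∂P = 2 * ∫ ω, f ω ^ 2 ∂P := by
  have h1 := (hf.pow 2).integrable
  have h2 := ((hf.pow 2).condExp S.G_le).integrable
  have h3 : ∫ ω, S.Aq f ω ∂P = ∫ ω, f ω ^ 2 ∂P + ∫ ω, S.Pi (fun ω' => f ω' ^ 2) ω ∂P :=
    integral_add h1 h2
  rw [h3, integral_Pi]
  ring

lemma Aq_comp (g : Aut d) {f f' : Ω → ℝ} (hf : ScBd P f) (h : f' =ᵐ[P] f ∘ S.a g) :
    S.Aq f' =ᵐ[P] (S.Aq f) ∘ S.a g := by
  have h2 : (fun ω => f' ω ^ 2) =ᵐ[P] (fun ω => f ω ^ 2) ∘ S.a g := by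
    filter_upwards [h] with ω hω
    simp only [Function.comp_apply]
    rw [hω]; rfl
  have h3 : S.Pi (fun ω => f' ω ^ 2) =ᵐ[P] (S.Pi (fun ω => f ω ^ 2)) ∘ S.a g :=
    (condExp_congr_ae h2).trans (S.Pi_comp g (hf.pow 2).integrable)
  filter_upwards [h2, h3] with ω h4 h5
  unfold Aq
  simp only [Function.comp_apply] at h4 h5 ⊢
  rw [h4, h5]

lemma Pe_comp (S : Setting d θ μ Ω P) (g : Aut d) (u v : Word d) :
    (fun ω => Pe θ u v (S.y ω)) = (fun ω => Pe θ (g u) (g v) (S.y ω)) ∘ S.a g := by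
  funext ω
  simp only [Function.comp_apply, Pe]
  rw [S.y_eq, mm_map, mm_map]

lemma re_comp (H : S.Bds a B) (g : Aut d) (u v : Word d) :
    S.re u v =ᵐ[P] (S.re (g u) (g v)) ∘ S.a g :=
  dev_comp S g (f := fun ω => Pe θ (g u) (g v) (S.y ω)) (f' := fun ω => Pe θ u v (S.y ω))
    (scBd_Pe H _ _).integrable (Pe_comp S g u v)

lemma rv_comp (H : S.Bds a B) (g : Aut d) (v : Word d) :
    S.rv v =ᵐ[P] (S.rv (g v)) ∘ S.a g :=
  dev_comp S g (f := fun ω => Pv θ (g v) (S.y ω)) (f' := fun ω => Pv θ v (S.y ω))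
    (scBd_Pv H _).integrable (Pv_comp S g v)

/-- The weighted error on the edge number `i` of a path. -/
noncomputable def Ep (S : Setting d θ μ Ω P) (p : ℕ → Word d) (n i : ℕ) : ℝ :=
  ∫ ω, S.Aq (S.re (p i) (p (i + 1))) ω * CCp θ p n (S.y ω) ^ 2 ∂P

lemma aesm_CCp (S : Setting d θ μ Ω P) (p : ℕ → Word d) (n : ℕ) :
    AEStronglyMeasurable (fun ω => CCp θ p n (S.y ω) ^ 2) P :=
  (((SCa_measurable_CCp θ p n).comp S.y_meas).pow_const 2).aestronglyMeasurable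

lemma Ep_eq (H : S.Bds a B) {p q : ℕ → Word d} {n i : ℕ} (hp : NB p n) (hq : NB q n) (hi : i < n) :
    S.Ep p n i = S.Ep q n i := by
  obtain ⟨g, hg⟩ := nb_trans hp hq
  have hre : S.Aq (S.re (p i) (p (i + 1))) =ᵐ[P] (S.Aq (S.re (q i) (q (i + 1)))) ∘ S.a g := by
    refine Aq_comp g (scBd_re H _ _) ?_
    have := re_comp H g (p i) (p (i + 1))
    rwa [hg i (by omega), hg (i + 1) (by omega)] at this
  have hF : AEStronglyMeasurable
      (fun ω => S.Aq (S.re (q i) (q (i + 1))) ω * CCp θ q n (S.y ω) ^ 2) P :=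
    (scBd_Aq (scBd_re H _ _)).sm.mul (aesm_CCp S q n)
  unfold Ep
  rw [← integral_comp_a S g hF]
  refine integral_congr_ae ?_
  filter_upwards [hre] with ω hω
  have e : CCp θ q n (S.y (S.a g ω)) = CCp θ p n (S.y ω) := by
    rw [S.y_eq, ← CCp_map θ g p n (S.y ω)]
    exact CCp_congr (fun j hj => (hg j hj).symm) _
  rw [e, hω]
  rfl

/-- Mass transport along the paths of length `n`. -/
lemma mass_transport (hd : 2 ≤ d) (H : S.Bds a B) (i0 : Fin d) {n i : ℕ} (hi : i < n) :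
    ∑ x ∈ (sph n : Finset (Word d)), S.Ep (ch x) n i =
      d * ∑ a' ∈ SCa_S0 (letter i0) i, ∑ b' ∈ SCa_Sb (letter i0) (n - 1 - i),
        S.Ep (SCa_pth i a' b') n i := by
  have hcard := card_sph (d := d) hd (n := n) (by omega)
  have hd1 : (0 : ℝ) < (d : ℝ) - 1 := by
    have : (2 : ℝ) ≤ d := by exact_mod_cast hd
    linarith
  have hne : (sph n : Finset (Word d)).Nonempty := by
    rw [← Finset.card_pos]
    have : (0 : ℝ) < ((sph n : Finset (Word d)).card : ℝ) := by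
      rw [hcard]
      have : (0 : ℝ) < d := by linarith
      positivity
    exact_mod_cast this
  obtain ⟨x0, hx0⟩ := hne
  have hnb : ∀ x ∈ (sph n : Finset (Word d)), NB (ch x) n := by
    intro x hx
    have := nb_ch x
    rwa [SCa_mem_sph.1 hx] at this
  have e1 : ∀ x ∈ (sph n : Finset (Word d)), S.Ep (ch x) n i = S.Ep (ch x0) n i :=
    fun x hx => Ep_eq H (hnb x hx) (hnb x0 hx0) hi
  have hn : n = i + (n - 1 - i) + 1 := by omega
  have e2 : ∀ a' ∈ SCa_S0 (letter i0) i, ∀ b' ∈ SCa_Sb (letter i0) (n - 1 - i),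
      S.Ep (SCa_pth i a' b') n i = S.Ep (ch x0) n i := by
    intro a' ha b' hb
    have h3 := SCa_nb_pth i0 ha hb
    rw [← hn] at h3
    exact Ep_eq H h3 (hnb x0 hx0) hi
  rw [Finset.sum_congr rfl e1, Finset.sum_const, nsmul_eq_mul, hcard]
  have e3 : ∑ a' ∈ SCa_S0 (letter i0) i, ∑ b' ∈ SCa_Sb (letter i0) (n - 1 - i),
      S.Ep (SCa_pth i a' b') n i =
      ∑ _a' ∈ SCa_S0 (letter i0) i, ∑ _b' ∈ SCa_Sb (letter i0) (n - 1 - i), S.Ep (ch x0) n i :=
    Finset.sum_congr rfl fun a' ha => Finset.sum_congr rfl fun b' hb => e2 a' ha b' hb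
  rw [e3, Finset.sum_const, Finset.sum_const, nsmul_eq_mul, nsmul_eq_mul, SCa_card_S0 hd, SCa_card_Sb]
  have h4 : (((d - 1) ^ (n - 1 - i) : ℕ) : ℝ) = ((d : ℝ) - 1) ^ (n - 1 - i) := by
    push_cast
    rw [Nat.cast_sub (by omega)]
    simp
  rw [h4]
  have h5 : ((d : ℝ) - 1) ^ (n - 1) = ((d : ℝ) - 1) ^ i * ((d : ℝ) - 1) ^ (n - 1 - i) := by
    rw [← pow_add]
    congr 1
    omega
  rw [h5]
  ring

/-- The good event. -/
lemma ae_good (C : Crit (d - 1) θ) (hμ : Nish μ) (S : Setting d θ μ Ω P) :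
    ∀ᵐ ω ∂P, (∀ x, |mm θ x (S.y ω)| < 1) ∧
      (∀ c : Word d, c ≠ root →
        Rho θ (mm θ (parent c) (S.y ω)) (mm θ c (S.y ω)) ^ 2 ≤ θ ^ 2 * psiF θ (hhL θ c (S.y ω))) ∧
      (∀ x : Word d, CCr θ x (S.y ω) ^ 2 ≤ θ ^ (2 * len x) * psiPath θ x (S.y ω)) := by
  have h1 := lv_ae_mm_lt (d := d) C.h1 hμ
  have h2 := ae_Rho_sq_le (d := d) C.h0 C.h1 hμ
  have h3 := ae_CCr_sq_le (d := d) C.h0 C.h1 hμ
  have h4 := h1.and (h2.and h3)
  rw [← S.law] at h4
  exact ae_of_ae_map S.y_meas.aemeasurable h4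

lemma scBd_wPath (h0 : 0 ≤ θ) (h1 : θ < 1) (S : Setting d θ μ Ω P) (α : ℝ) (k : ℕ) (v w : Word d) :
    ScBd P (fun ω => wPath θ α k v w (S.y ω)) := by
  refine ⟨((SCa_measurable_wPath θ α k v w).comp S.y_meas).aestronglyMeasurable,
    (Real.exp α / k) ^ (len w - len v), ae_of_all _ fun ω => ?_⟩
  rw [abs_of_nonneg (SCa_wPath_nonneg h0 h1 _ _ _ _ _)]
  exact SCa_wPath_le h0 h1 _ _ _ _ _

lemma scBd_Dn (h0 : 0 ≤ θ) (h1 : θ < 1) (S : Setting d θ μ Ω P) (α : ℝ) (k n : ℕ) (v : Word d) :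
    ScBd P (fun ω => Dn θ α k n v (S.y ω)) := by
  obtain ⟨B', hB'⟩ := SCa_Dn_bdd (d := d) h0 h1 α k n
  refine ⟨((SCa_measurable_Dn θ α k n v).comp S.y_meas).aestronglyMeasurable, B',
    ae_of_all _ fun ω => ?_⟩
  rw [abs_of_nonneg (SCa_Dn_nonneg h0 h1 _ _ _ _ _)]
  exact hB' _ _

/-- The term of a pair of vertices. -/
lemma pair_bd (C : Crit (d - 1) θ) (hμ : Nish μ) (hd : 2 ≤ d) (H : S.Bds a B) (i0 : Fin d)
    {α : ℝ} (hα : 0 < α) {i i' : ℕ} {a' b' : Word d} (ha : a' ∈ SCa_S0 (letter i0) i)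
    (hb : b' ∈ SCa_Sb (letter i0) i') :
    (((i + i' + 1 : ℕ) : ℝ) + 2) * S.Ep (SCa_pth i a' b') (i + i' + 1) i ≤
      (Real.exp (3 * α) / (α * ((d - 1 : ℕ) : ℝ))) *
        ∫ ω, S.Aq (S.re root (letter i0)) ω *
          (wPath θ α (d - 1) root a' (S.y ω) * wPath θ α (d - 1) (letter i0) b' (S.y ω)) ∂P := by
  obtain ⟨ha1, ha2⟩ := SCa_mem_S0.1 ha
  obtain ⟨hb1, hb2⟩ := SCa_mem_Sb.1 hb
  have h00 := C.h0.le
  have h11 := C.h1
  have hk : (0 : ℝ) < ((d - 1 : ℕ) : ℝ) := by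
    have : 0 < d - 1 := by omega
    exact_mod_cast this
  have hAq := scBd_Aq (S := S) (scBd_re H root (letter i0))
  have hi : ScBd P (fun ω => S.Aq (S.re root (letter i0)) ω *
      (wPath θ α (d - 1) root a' (S.y ω) * wPath θ α (d - 1) (letter i0) b' (S.y ω))) :=
    hAq.mul ((scBd_wPath h00 h11 S _ _ _ _).mul (scBd_wPath h00 h11 S _ _ _ _))
  unfold Ep
  rw [SCa_pth_root a' b' ha1, SCa_pth_y0 rfl hb2, ← integral_const_mul, ← integral_const_mul]
  refine integral_mono_of_nonneg ?_ (hi.integrable.const_mul _) ?_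
  · filter_upwards [Aq_nonneg (S := S) (S.re root (letter i0))] with ω hω
    have : (0 : ℝ) ≤ ((i + i' + 1 : ℕ) : ℝ) + 2 := by positivity
    positivity
  · filter_upwards [Aq_nonneg (S := S) (S.re root (letter i0)), ae_good C hμ S] with ω hω hg
    obtain ⟨hg1, hg2, -⟩ := hg
    have hb0 := SCa_CCp_bound C.h0 C.h1 i0 (S.y ω) hg1 hg2 ha hb
    have hnum := SCa_num_pair hk C.hθ hα i i'
    set P1 := ∏ l ∈ Finset.range i, psiF θ (hhL θ (ch a' (l + 1)) (S.y ω)) with hP1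
    set P2 := ∏ l ∈ Finset.range i', psiF θ (hhL θ (ch b' (1 + l + 1)) (S.y ω)) with hP2
    have hP10 : 0 ≤ P1 := Finset.prod_nonneg fun _ _ => (psiF_pos h00 h11 _).le
    have hP20 : 0 ≤ P2 := Finset.prod_nonneg fun _ _ => (psiF_pos h00 h11 _).le
    have e1 : wPath θ α (d - 1) root a' (S.y ω) = (Real.exp α / ((d - 1 : ℕ) : ℝ)) ^ i * P1 :=
      SCa_wPath_root θ α (d - 1) ha1 (S.y ω)
    have e2 : wPath θ α (d - 1) (letter i0) b' (S.y ω) = (Real.exp α / ((d - 1 : ℕ) : ℝ)) ^ i' * P2 :=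
      SCa_wPath_y0 θ α (d - 1) i0 hb1 (S.y ω)
    rw [e1, e2]
    have hn0 : (0 : ℝ) ≤ ((i + i' + 1 : ℕ) : ℝ) + 2 := by positivity
    have key : (((i + i' + 1 : ℕ) : ℝ) + 2) * CCp θ (SCa_pth i a' b') (i + i' + 1) (S.y ω) ^ 2 ≤
        (Real.exp (3 * α) / (α * ((d - 1 : ℕ) : ℝ))) *
          (((Real.exp α / ((d - 1 : ℕ) : ℝ)) ^ i * P1) * ((Real.exp α / ((d - 1 : ℕ) : ℝ)) ^ i' * P2)) := by
      calc (((i + i' + 1 : ℕ) : ℝ) + 2) * CCp θ (SCa_pth i a' b') (i + i' + 1) (S.y ω) ^ 2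
          ≤ (((i + i' + 1 : ℕ) : ℝ) + 2) * (θ ^ (2 * (i + i' + 1)) * (P1 * P2)) :=
            mul_le_mul_of_nonneg_left hb0 hn0
        _ = ((((i + i' + 1 : ℕ) : ℝ) + 2) * θ ^ (2 * (i + i' + 1))) * (P1 * P2) := by ring
        _ ≤ ((Real.exp (3 * α) / (α * ((d - 1 : ℕ) : ℝ))) *
              ((Real.exp α / ((d - 1 : ℕ) : ℝ)) ^ i * (Real.exp α / ((d - 1 : ℕ) : ℝ)) ^ i')) * (P1 * P2) :=
            mul_le_mul_of_nonneg_right hnum (mul_nonneg hP10 hP20)
        _ = _ := by ring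
    have := mul_le_mul_of_nonneg_left key hω
    calc _ = S.Aq (S.re root (letter i0)) ω * ((((i + i' + 1 : ℕ) : ℝ) + 2) *
          CCp θ (SCa_pth i a' b') (i + i' + 1) (S.y ω) ^ 2) := by ring
      _ ≤ _ := this
      _ = _ := by ring

/-- The main term of the static estimate. -/
theorem main_bd (C : Crit (d - 1) θ) (hμ : Nish μ) (hd : 2 ≤ d) (H : S.Bds a B) (i0 : Fin d)
    {α : ℝ} (hα : 0 < α) (R : ℕ) :
    ∑ x ∈ ball R, ((len x : ℝ) + 2) * ∑ i ∈ Finset.range (len x), S.Ep (ch x) (len x) i ≤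
      d * (Real.exp (3 * α) / (α * ((d - 1 : ℕ) : ℝ))) *
        ∫ ω, S.Aq (S.re root (letter i0)) ω *
          (Dn θ α (d - 1) R root (S.y ω) * Dn θ α (d - 1) R (letter i0) (S.y ω)) ∂P := by
  have h00 := C.h0.le
  have h11 := C.h1
  have hk : (0 : ℝ) < ((d - 1 : ℕ) : ℝ) := by
    have : 0 < d - 1 := by omega
    exact_mod_cast this
  set C3 : ℝ := Real.exp (3 * α) / (α * ((d - 1 : ℕ) : ℝ)) with hC3
  have hC30 : 0 ≤ C3 := by positivity
  have hdR : (0 : ℝ) ≤ (d : ℝ) := Nat.cast_nonneg _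
  set A0 := S.Aq (S.re root (letter i0)) with hA0
  have hAq : ScBd P A0 := scBd_Aq (scBd_re H root (letter i0))
  set T : Word d → Word d → ℝ := fun a' b' => ∫ ω, A0 ω *
    (wPath θ α (d - 1) root a' (S.y ω) * wPath θ α (d - 1) (letter i0) b' (S.y ω)) ∂P with hT
  have hT0 : ∀ a' b', 0 ≤ T a' b' := by
    intro a' b'
    refine integral_nonneg_of_ae ?_
    filter_upwards [Aq_nonneg (S := S) (S.re root (letter i0))] with ω hω
    exact mul_nonneg hω (mul_nonneg (SCa_wPath_nonneg h00 h11 _ _ _ _ _) (SCa_wPath_nonneg h00 h11 _ _ _ _ _))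
  have hintT : ∀ a' b', Integrable (fun ω => A0 ω *
      (wPath θ α (d - 1) root a' (S.y ω) * wPath θ α (d - 1) (letter i0) b' (S.y ω))) P := fun a' b' =>
    (hAq.mul ((scBd_wPath h00 h11 S _ _ _ _).mul (scBd_wPath h00 h11 S _ _ _ _))).integrable
  -- the sum of the integrals is the integral of the product of the branching sums
  have hlast : ∑ a' ∈ SCa_BB root R, ∑ b' ∈ SCa_BB (letter i0) R, T a' b' =
      ∫ ω, A0 ω * (Dn θ α (d - 1) R root (S.y ω) * Dn θ α (d - 1) R (letter i0) (S.y ω)) ∂P := by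
    have h1 : ∀ a' ∈ SCa_BB root R, ∑ b' ∈ SCa_BB (letter i0) R, T a' b' =
        ∫ ω, ∑ b' ∈ SCa_BB (letter i0) R, A0 ω *
          (wPath θ α (d - 1) root a' (S.y ω) * wPath θ α (d - 1) (letter i0) b' (S.y ω)) ∂P :=
      fun a' _ => (integral_finsetSum _ fun b' _ => hintT a' b').symm
    rw [Finset.sum_congr rfl h1,
      ← integral_finsetSum _ fun a' _ => integrable_finsetSum _ fun b' _ => hintT a' b']
    refine integral_congr_ae (ae_of_all _ fun ω => ?_)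
    simp only []
    rw [← SCa_sum_wPath_root hd h00 h11 hα.le (d - 1) R root (S.y ω),
      ← SCa_sum_wPath_root hd h00 h11 hα.le (d - 1) R (letter i0) (S.y ω), Finset.sum_mul_sum,
      Finset.mul_sum]
    refine Finset.sum_congr rfl fun a' _ => ?_
    rw [Finset.mul_sum]
  calc ∑ x ∈ ball R, ((len x : ℝ) + 2) * ∑ i ∈ Finset.range (len x), S.Ep (ch x) (len x) i
      = ∑ n ∈ Finset.range (R + 1), ((n : ℝ) + 2) * ∑ i ∈ Finset.range n,
          ∑ x ∈ (sph n : Finset (Word d)), S.Ep (ch x) n i := by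
        rw [SCa_sum_ball]
        refine Finset.sum_congr rfl fun n _ => ?_
        have : ∀ x ∈ (sph n : Finset (Word d)),
            ((len x : ℝ) + 2) * ∑ i ∈ Finset.range (len x), S.Ep (ch x) (len x) i =
              ((n : ℝ) + 2) * ∑ i ∈ Finset.range n, S.Ep (ch x) n i := by
          intro x hx
          rw [SCa_mem_sph.1 hx]
        rw [Finset.sum_congr rfl this, ← Finset.mul_sum, Finset.sum_comm]
    _ = ∑ n ∈ Finset.range (R + 1), ∑ i ∈ Finset.range n, ((n : ℝ) + 2) * (d *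
          ∑ a' ∈ SCa_S0 (letter i0) i, ∑ b' ∈ SCa_Sb (letter i0) (n - 1 - i),
            S.Ep (SCa_pth i a' b') n i) := by
        refine Finset.sum_congr rfl fun n _ => ?_
        rw [Finset.mul_sum]
        refine Finset.sum_congr rfl fun i hi => ?_
        rw [mass_transport hd H i0 (Finset.mem_range.1 hi)]
    _ ≤ ∑ n ∈ Finset.range (R + 1), ∑ i ∈ Finset.range n, (d * C3) *
          ∑ a' ∈ SCa_S0 (letter i0) i, ∑ b' ∈ SCa_Sb (letter i0) (n - 1 - i), T a' b' := by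
        refine Finset.sum_le_sum fun n _ => Finset.sum_le_sum fun i hi => ?_
        have hi' := Finset.mem_range.1 hi
        have hn : i + (n - 1 - i) + 1 = n := by omega
        have hterm : ∀ a' ∈ SCa_S0 (letter i0) i, ∀ b' ∈ SCa_Sb (letter i0) (n - 1 - i),
            ((n : ℝ) + 2) * S.Ep (SCa_pth i a' b') n i ≤ C3 * T a' b' := by
          intro a' ha b' hb
          have := pair_bd C hμ hd H i0 hα ha hb
          rwa [hn] at this
        have hsum : ((n : ℝ) + 2) * ∑ a' ∈ SCa_S0 (letter i0) i, ∑ b' ∈ SCa_Sb (letter i0) (n - 1 - i),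
              S.Ep (SCa_pth i a' b') n i ≤
            C3 * ∑ a' ∈ SCa_S0 (letter i0) i, ∑ b' ∈ SCa_Sb (letter i0) (n - 1 - i), T a' b' := by
          rw [Finset.mul_sum, Finset.mul_sum]
          refine Finset.sum_le_sum fun a' ha => ?_
          rw [Finset.mul_sum, Finset.mul_sum]
          exact Finset.sum_le_sum fun b' hb => hterm a' ha b' hb
        have := mul_le_mul_of_nonneg_left hsum hdR
        calc _ = (d : ℝ) * (((n : ℝ) + 2) * ∑ a' ∈ SCa_S0 (letter i0) i,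
                ∑ b' ∈ SCa_Sb (letter i0) (n - 1 - i), S.Ep (SCa_pth i a' b') n i) := by ring
          _ ≤ _ := this
          _ = _ := by ring
    _ = (d * C3) * ∑ n ∈ Finset.range (R + 1), ∑ i ∈ Finset.range n,
          ∑ a' ∈ SCa_S0 (letter i0) i, ∑ b' ∈ SCa_Sb (letter i0) (n - 1 - i), T a' b' := by
        rw [Finset.mul_sum]
        refine Finset.sum_congr rfl fun n _ => ?_
        rw [Finset.mul_sum]
    _ ≤ (d * C3) * ∑ a' ∈ SCa_BB root R, ∑ b' ∈ SCa_BB (letter i0) R, T a' b' :=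
        mul_le_mul_of_nonneg_left (SCa_index i0 R hT0) (mul_nonneg hdR hC30)
    _ = _ := by rw [hlast]

lemma SCa_BB_root (R : ℕ) : SCa_BB (root : Word d) R = ball R := by
  ext w
  simp only [SCa_mem_BB, SCa_len_root, zero_add, mem_ball]
  constructor
  · exact fun h => h.1
  · exact fun h => ⟨h, List.nil_suffix⟩

/-- The terms with a single branching sum. -/
theorem single_bd (C : Crit (d - 1) θ) (hμ : Nish μ) (hd : 2 ≤ d) {A : Ω → ℝ} (hA : ScBd P A)
    (hA0 : ∀ᵐ ω ∂P, 0 ≤ A ω) {α : ℝ} (hα : 0 < α) (R : ℕ) :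
    ∑ x ∈ ball R, ((len x : ℝ) + 2) * ∫ ω, A ω * S.CC x ω ^ 2 ∂P ≤
      (Real.exp (2 * α) / α) * ∫ ω, A ω * Dn θ α (d - 1) R root (S.y ω) ∂P := by
  have h00 := C.h0.le
  have h11 := C.h1
  have hk : (0 : ℝ) < ((d - 1 : ℕ) : ℝ) := by
    have : 0 < d - 1 := by omega
    exact_mod_cast this
  have hint : ∀ x : Word d, Integrable (fun ω => A ω * wPath θ α (d - 1) root x (S.y ω)) P := fun x =>
    (hA.mul (scBd_wPath h00 h11 S _ _ _ _)).integrable
  have hterm : ∀ x ∈ ball R, ((len x : ℝ) + 2) * ∫ ω, A ω * S.CC x ω ^ 2 ∂P ≤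
      (Real.exp (2 * α) / α) * ∫ ω, A ω * wPath θ α (d - 1) root x (S.y ω) ∂P := by
    intro x _
    rw [← integral_const_mul, ← integral_const_mul]
    refine integral_mono_of_nonneg ?_ ((hint x).const_mul _) ?_
    · filter_upwards [hA0] with ω hω
      have : (0 : ℝ) ≤ (len x : ℝ) + 2 := by positivity
      positivity
    · filter_upwards [hA0, ae_good C hμ S] with ω hω hg
      obtain ⟨-, -, hg3⟩ := hg
      have hP : 0 ≤ psiPath θ x (S.y ω) := Finset.prod_nonneg fun _ _ => (psiF_pos h00 h11 _).le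
      have hb := hg3 x
      have hnum := SCa_num_single hk C.hθ hα (len x)
      have e1 : wPath θ α (d - 1) root x (S.y ω) =
          (Real.exp α / ((d - 1 : ℕ) : ℝ)) ^ len x * psiPath θ x (S.y ω) :=
        SCa_wPath_root θ α (d - 1) rfl (S.y ω)
      have hn0 : (0 : ℝ) ≤ (len x : ℝ) + 2 := by positivity
      have key : ((len x : ℝ) + 2) * S.CC x ω ^ 2 ≤
          (Real.exp (2 * α) / α) * wPath θ α (d - 1) root x (S.y ω) := by
        rw [e1]
        calc ((len x : ℝ) + 2) * S.CC x ω ^ 2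
            ≤ ((len x : ℝ) + 2) * (θ ^ (2 * len x) * psiPath θ x (S.y ω)) :=
              mul_le_mul_of_nonneg_left hb hn0
          _ = (((len x : ℝ) + 2) * θ ^ (2 * len x)) * psiPath θ x (S.y ω) := by ring
          _ ≤ ((Real.exp (2 * α) / α) * (Real.exp α / ((d - 1 : ℕ) : ℝ)) ^ len x) *
                psiPath θ x (S.y ω) := mul_le_mul_of_nonneg_right hnum hP
          _ = _ := by ring
      have := mul_le_mul_of_nonneg_left key hω
      calc _ = A ω * (((len x : ℝ) + 2) * S.CC x ω ^ 2) := by ring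
        _ ≤ _ := this
        _ = _ := by ring
  refine (Finset.sum_le_sum hterm).trans ?_
  rw [← Finset.mul_sum, ← integral_finsetSum _ fun x _ => hint x]
  refine le_of_eq ?_
  congr 1
  refine integral_congr_ae (ae_of_all _ fun ω => ?_)
  simp only []
  rw [← SCa_sum_wPath_root hd h00 h11 hα.le (d - 1) R root (S.y ω), SCa_BB_root, Finset.mul_sum]

/-- Mass transport for the vertex error at the end of the path. -/
lemma rv_swap (H : S.Bds a B) (x : Word d) :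
    ∫ ω, S.Aq (S.rv x) ω * S.CC x ω ^ 2 ∂P = ∫ ω, S.Aq (S.rv root) ω * S.CC x ω ^ 2 ∂P := by
  obtain ⟨g, hg0, -, hgC⟩ := CCr_swap (θ := θ) x
  have h1 : S.Aq (S.rv root) =ᵐ[P] (S.Aq (S.rv x)) ∘ S.a g := by
    refine Aq_comp g (scBd_rv H x) ?_
    have := rv_comp H g root
    rwa [hg0] at this
  have hF : ScBd P (fun ω => S.Aq (S.rv x) ω * S.CC x ω ^ 2) :=
    (scBd_Aq (scBd_rv H x)).mul ((scBd_CC H x).pow 2)
  rw [← integral_comp_a S g hF.sm]
  refine integral_congr_ae ?_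
  filter_upwards [h1] with ω hω
  have e : S.CC x (S.a g ω) = S.CC x ω := by
    unfold CC
    rw [S.y_eq, hgC]
  rw [e, hω]
  rfl

lemma Sx_sq_le (H : S.Bds a B) (x : Word d) : ∀ᵐ ω ∂P, S.Sx x ω ^ 2 ≤
    (2 * ((len x : ℝ) + 2)) * (S.rv root ω ^ 2 + S.rv x ω ^ 2 +
      ∑ i ∈ Finset.range (len x), S.re (ch x i) (ch x (i + 1)) ω ^ 2) := by
  filter_upwards [Sx_eq H x] with ω hω
  rw [hω]
  set A := S.rv root ω
  set B' := S.rv x ω
  set T := ∑ i ∈ Finset.range (len x), S.re (ch x i) (ch x (i + 1)) ω with hT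
  set Q := ∑ i ∈ Finset.range (len x), S.re (ch x i) (ch x (i + 1)) ω ^ 2 with hQ
  have h1 : T ^ 2 ≤ (len x : ℝ) * Q := by
    have := sq_sum_le_card_mul_sum_sq (s := Finset.range (len x))
      (f := fun i => S.re (ch x i) (ch x (i + 1)) ω)
    simpa [hT, hQ] using this
  have hQ0 : 0 ≤ Q := Finset.sum_nonneg fun _ _ => sq_nonneg _
  have hn : (0 : ℝ) ≤ len x := Nat.cast_nonneg _
  have h2 : (1 / 2 * A + 1 / 2 * B' + T) ^ 2 ≤ A ^ 2 + B' ^ 2 + 2 * T ^ 2 := by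
    nlinarith [sq_nonneg (A / 2 + B' / 2 - T), sq_nonneg (A - B')]
  have h3 : A ^ 2 + B' ^ 2 + 2 * ((len x : ℝ) * Q) ≤ (2 * ((len x : ℝ) + 2)) * (A ^ 2 + B' ^ 2 + Q) := by
    have h4 : 0 ≤ A ^ 2 + B' ^ 2 := by positivity
    nlinarith [mul_nonneg hn h4]
  nlinarith

lemma PiSx_sq_le (H : S.Bds a B) (x : Word d) : ∀ᵐ ω ∂P, S.Pi (fun ω' => S.Sx x ω' ^ 2) ω ≤
    (2 * ((len x : ℝ) + 2)) * (S.Pi (fun ω' => S.rv root ω' ^ 2) ω + S.Pi (fun ω' => S.rv x ω' ^ 2) ω +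
      ∑ i ∈ Finset.range (len x), S.Pi (fun ω' => S.re (ch x i) (ch x (i + 1)) ω' ^ 2) ω) := by
  have hS2 := (scBd_Sx H (S := S) x).pow 2
  have h1 := (scBd_rv H (S := S) root).pow 2
  have h2 := (scBd_rv H (S := S) x).pow 2
  have h3 : ∀ i ∈ Finset.range (len x), ScBd P (fun ω => S.re (ch x i) (ch x (i + 1)) ω ^ 2) :=
    fun i _ => (scBd_re H (S := S) _ _).pow 2
  have h4 : ScBd P (∑ i ∈ Finset.range (len x), (fun ω => S.re (ch x i) (ch x (i + 1)) ω ^ 2)) := by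
    have := ScBd.finset_sum (P := P) (Finset.range (len x)) h3
    refine this.congr (ae_of_all _ fun ω => ?_)
    simp [Finset.sum_apply]
  set c : ℝ := 2 * ((len x : ℝ) + 2) with hc
  set h : Ω → ℝ := c • (((fun ω => S.rv root ω ^ 2) + (fun ω => S.rv x ω ^ 2)) +
    ∑ i ∈ Finset.range (len x), (fun ω => S.re (ch x i) (ch x (i + 1)) ω ^ 2)) with hh
  have hle : (fun ω => S.Sx x ω ^ 2) ≤ᵐ[P] h := by
    filter_upwards [Sx_sq_le H x] with ω hω
    simp only [hh, Pi.smul_apply, Pi.add_apply, Finset.sum_apply, smul_eq_mul]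
    exact hω
  have hi : Integrable (((fun ω => S.rv root ω ^ 2) + (fun ω => S.rv x ω ^ 2)) +
      ∑ i ∈ Finset.range (len x), (fun ω => S.re (ch x i) (ch x (i + 1)) ω ^ 2)) P :=
    (h1.integrable.add h2.integrable).add h4.integrable
  have hm := condExp_mono (m := S.G) hS2.integrable (hi.smul c) hle
  have s1 := condExp_smul (m := S.G) (μ := P) c (((fun ω => S.rv root ω ^ 2) + (fun ω => S.rv x ω ^ 2)) +
    ∑ i ∈ Finset.range (len x), (fun ω => S.re (ch x i) (ch x (i + 1)) ω ^ 2))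
  have s2 := condExp_add (h1.integrable.add h2.integrable) h4.integrable S.G
  have s3 := condExp_add h1.integrable h2.integrable S.G
  have s4 := condExp_finsetSum (s := Finset.range (len x))
    (f := fun i => (fun ω => S.re (ch x i) (ch x (i + 1)) ω ^ 2))
    (fun i hi => (h3 i hi).integrable) S.G
  filter_upwards [hm, s1, s2, s3, s4] with ω h5 h6 h7 h8 h9
  have e : (P[h|S.G]) ω = c * ((P[fun ω => S.rv root ω ^ 2|S.G]) ω + (P[fun ω => S.rv x ω ^ 2|S.G]) ω +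
      ∑ i ∈ Finset.range (len x), (P[fun ω => S.re (ch x i) (ch x (i + 1)) ω ^ 2|S.G]) ω) := by
    rw [hh, h6, Pi.smul_apply, h7, Pi.add_apply, h8, Pi.add_apply, h9, Finset.sum_apply, smul_eq_mul]
  rw [e] at h5
  exact h5

/-- The term of `Sx`. -/
lemma Sx_term (H : S.Bds a B) (x : Word d) :
    ∫ ω, (S.Sx x ω ^ 2 + S.Pi (fun ω' => S.Sx x ω' ^ 2) ω) * S.CC x ω ^ 2 ∂P ≤
      (2 * ((len x : ℝ) + 2)) * (2 * ∫ ω, S.Aq (S.rv root) ω * S.CC x ω ^ 2 ∂P +
        ∑ i ∈ Finset.range (len x), S.Ep (ch x) (len x) i) := by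
  have hCC2 := (scBd_CC H (S := S) x).pow 2
  have hS2 := (scBd_Sx H (S := S) x).pow 2
  have hl : Integrable (fun ω => (S.Sx x ω ^ 2 + S.Pi (fun ω' => S.Sx x ω' ^ 2) ω) * S.CC x ω ^ 2) P :=
    ((hS2.add (hS2.condExp S.G_le)).mul hCC2).integrable
  have hr1 : ScBd P (fun ω => S.Aq (S.rv root) ω * S.CC x ω ^ 2) :=
    (scBd_Aq (scBd_rv H _)).mul hCC2
  have hr2 : ScBd P (fun ω => S.Aq (S.rv x) ω * S.CC x ω ^ 2) :=
    (scBd_Aq (scBd_rv H _)).mul hCC2
  have hr3 : ∀ i ∈ Finset.range (len x),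
      ScBd P (fun ω => S.Aq (S.re (ch x i) (ch x (i + 1))) ω * S.CC x ω ^ 2) :=
    fun i _ => (scBd_Aq (scBd_re H _ _)).mul hCC2
  have eEp : ∀ i, S.Ep (ch x) (len x) i =
      ∫ ω, S.Aq (S.re (ch x i) (ch x (i + 1))) ω * S.CC x ω ^ 2 ∂P := by
    intro i
    unfold Ep CC
    simp only [CCr_eq_CCp]
  have eR : (2 * ((len x : ℝ) + 2)) * (2 * ∫ ω, S.Aq (S.rv root) ω * S.CC x ω ^ 2 ∂P +
        ∑ i ∈ Finset.range (len x), S.Ep (ch x) (len x) i) =
      ∫ ω, (2 * ((len x : ℝ) + 2)) * (S.Aq (S.rv root) ω * S.CC x ω ^ 2 +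
        S.Aq (S.rv x) ω * S.CC x ω ^ 2 +
        ∑ i ∈ Finset.range (len x), S.Aq (S.re (ch x i) (ch x (i + 1))) ω * S.CC x ω ^ 2) ∂P := by
    have a1 : ∫ ω, (S.Aq (S.rv root) ω * S.CC x ω ^ 2 + S.Aq (S.rv x) ω * S.CC x ω ^ 2 +
        ∑ i ∈ Finset.range (len x), S.Aq (S.re (ch x i) (ch x (i + 1))) ω * S.CC x ω ^ 2) ∂P =
        ∫ ω, (S.Aq (S.rv root) ω * S.CC x ω ^ 2 + S.Aq (S.rv x) ω * S.CC x ω ^ 2) ∂P +
        ∫ ω, ∑ i ∈ Finset.range (len x), S.Aq (S.re (ch x i) (ch x (i + 1))) ω * S.CC x ω ^ 2 ∂P :=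
      integral_add (hr1.integrable.add hr2.integrable)
        (integrable_finsetSum _ fun i hi => (hr3 i hi).integrable)
    have a2 : ∫ ω, (S.Aq (S.rv root) ω * S.CC x ω ^ 2 + S.Aq (S.rv x) ω * S.CC x ω ^ 2) ∂P =
        ∫ ω, S.Aq (S.rv root) ω * S.CC x ω ^ 2 ∂P + ∫ ω, S.Aq (S.rv x) ω * S.CC x ω ^ 2 ∂P :=
      integral_add hr1.integrable hr2.integrable
    have a3 : ∫ ω, ∑ i ∈ Finset.range (len x), S.Aq (S.re (ch x i) (ch x (i + 1))) ω * S.CC x ω ^ 2 ∂P =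
        ∑ i ∈ Finset.range (len x), ∫ ω, S.Aq (S.re (ch x i) (ch x (i + 1))) ω * S.CC x ω ^ 2 ∂P :=
      integral_finsetSum _ fun i hi => (hr3 i hi).integrable
    rw [integral_const_mul, a1, a2, a3, rv_swap H x]
    simp only [eEp]
    ring
  rw [eR]
  refine integral_mono_ae hl ?_ ?_
  · exact ((hr1.integrable.add hr2.integrable).add
      (integrable_finsetSum _ fun i hi => (hr3 i hi).integrable)).const_mul _
  · filter_upwards [Sx_sq_le H x, PiSx_sq_le H x] with ω h1 h2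
    have h3 : 0 ≤ S.CC x ω ^ 2 := sq_nonneg _
    have h4 : S.Sx x ω ^ 2 + S.Pi (fun ω' => S.Sx x ω' ^ 2) ω ≤ (2 * ((len x : ℝ) + 2)) *
        (S.Aq (S.rv root) ω + S.Aq (S.rv x) ω +
          ∑ i ∈ Finset.range (len x), S.Aq (S.re (ch x i) (ch x (i + 1))) ω) := by
      unfold Aq
      rw [Finset.sum_add_distrib]
      nlinarith
    have := mul_le_mul_of_nonneg_right h4 h3
    refine this.trans (le_of_eq ?_)
    show _ = (2 * ((len x : ℝ) + 2)) * (S.Aq (S.rv root) ω * S.CC x ω ^ 2 +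
      S.Aq (S.rv x) ω * S.CC x ω ^ 2 +
      ∑ i ∈ Finset.range (len x), S.Aq (S.re (ch x i) (ch x (i + 1))) ω * S.CC x ω ^ 2)
    rw [← Finset.sum_mul]
    ring

/-- The bound of the growth rate by the weighted moments of the errors. -/
theorem BB_core (C : Crit (d - 1) θ) (hμ : Nish μ) (hd : 2 ≤ d) (H : S.Bds a B) (i0 : Fin d)
    {κ : ℝ} {α : ℝ} (hα : 0 < α) (R : ℕ) :
    S.BBn κ R ≤ 2 * (2 * ((Real.exp (2 * α) / α) *
          ∫ ω, S.Aq (S.rv root) ω * Dn θ α (d - 1) R root (S.y ω) ∂P) +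
        d * (Real.exp (3 * α) / (α * ((d - 1 : ℕ) : ℝ))) *
        ∫ ω, S.Aq (S.re root (letter i0)) ω *
          (Dn θ α (d - 1) R root (S.y ω) * Dn θ α (d - 1) R (letter i0) (S.y ω)) ∂P) +
      κ ^ 2 * ((Real.exp (2 * α) / α) *
        ∫ ω, S.Pi (fun ω' => S.dm root ω' ^ 2) ω * Dn θ α (d - 1) R root (S.y ω) ∂P) := by
  have hdm := scBd_dm H (S := S) root
  have hZ : ScBd P (S.Pi (fun ω' => S.dm root ω' ^ 2)) := (hdm.pow 2).condExp S.G_le
  have hZ0 : ∀ᵐ ω ∂P, 0 ≤ S.Pi (fun ω' => S.dm root ω' ^ 2) ω :=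
    Pi_nonneg (ae_of_all _ fun ω => sq_nonneg _)
  have h1 := single_bd (S := S) C hμ hd (scBd_Aq (scBd_rv H (S := S) root)) (Aq_nonneg (S := S) _) hα R
  have h2 := main_bd C hμ hd H i0 hα R
  have h3 := single_bd (S := S) C hμ hd hZ hZ0 hα R
  have hκ : 0 ≤ κ ^ 2 := sq_nonneg _
  have hterm : ∀ x ∈ ball R,
      ∫ ω, ((S.CC x ω - S.Pi (S.CC x) ω) ^ 2 + κ ^ 2 * S.Pi (S.CC x) ω ^ 2 * S.dm x ω ^ 2) ∂P ≤
        2 * (2 * (((len x : ℝ) + 2) * ∫ ω, S.Aq (S.rv root) ω * S.CC x ω ^ 2 ∂P) +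
          ((len x : ℝ) + 2) * ∑ i ∈ Finset.range (len x), S.Ep (ch x) (len x) i) +
        κ ^ 2 * (((len x : ℝ) + 2) * ∫ ω, S.Pi (fun ω' => S.dm root ω' ^ 2) ω * S.CC x ω ^ 2 ∂P) := by
    intro x _
    have h4 := compare H κ x
    have h5 := Sx_term H x
    have hZZ : 0 ≤ ∫ ω, S.Pi (fun ω' => S.dm root ω' ^ 2) ω * S.CC x ω ^ 2 ∂P := by
      refine integral_nonneg_of_ae ?_
      filter_upwards [hZ0] with ω hω
      exact mul_nonneg hω (sq_nonneg _)
    have h6 : (0 : ℝ) ≤ len x := Nat.cast_nonneg _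
    have h7 : ∫ ω, S.Pi (fun ω' => S.dm root ω' ^ 2) ω * S.CC x ω ^ 2 ∂P ≤
        ((len x : ℝ) + 2) * ∫ ω, S.Pi (fun ω' => S.dm root ω' ^ 2) ω * S.CC x ω ^ 2 ∂P := by
      nlinarith
    have h8 := mul_le_mul_of_nonneg_left h7 hκ
    calc _ ≤ _ := h4
      _ ≤ _ := add_le_add h5 h8
      _ = _ := by ring
  refine (Finset.sum_le_sum hterm).trans ?_
  rw [Finset.sum_add_distrib, ← Finset.mul_sum, Finset.sum_add_distrib, ← Finset.mul_sum, ← Finset.mul_sum]
  have h9 := mul_le_mul_of_nonneg_left h3 hκ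
  nlinarith

/-- Weighted moments of the branching sum, from its exponential moments. -/
lemma exp_moments (h0 : 0 ≤ θ) (h1 : θ < 1) (S : Setting d θ μ Ω P) {A : Ω → ℝ} (hA : ScBd P A)
    (hA0 : ∀ᵐ ω ∂P, 0 ≤ A ω) {Amax : ℝ} (hA1 : ∀ᵐ ω ∂P, A ω ≤ Amax) (hAmax : 0 ≤ Amax) {a0 Lam A1 α : ℝ}
    (ha : 0 < a0) (hE : ∫ ω, A ω ∂P ≤ a0) (hA10 : 0 ≤ A1) (hLam : Real.log (Amax / a0) ≤ Lam)
    (hLam1 : 1 ≤ Lam) (k n : ℕ) (v : Word d)
    (hexp : ∫ y, Real.exp (2 * Lam * (Dn θ α k (n + 1) v y - A1)) ∂(LawY d θ μ) ≤ 1) :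
    ∫ ω, A ω * Dn θ α k n v (S.y ω) ∂P ≤ a0 * (A1 + 2) ∧
      ∫ ω, A ω * Dn θ α k n v (S.y ω) ^ 2 ∂P ≤ a0 * (2 * A1 ^ 2 + 6) := by
  set Am : Ω → ℝ := hA.sm.aemeasurable.mk A with hAm
  have hAmm : Measurable Am := hA.sm.aemeasurable.measurable_mk
  have hAe : A =ᵐ[P] Am := hA.sm.aemeasurable.ae_eq_mk
  set At : Ω → ℝ := fun ω => max 0 (min (Am ω) Amax) with hAt
  have hAtm : Measurable At := measurable_const.max (hAmm.min measurable_const)
  have hAt0 : ∀ ω, 0 ≤ At ω := fun ω => le_max_left _ _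
  have hAt1 : ∀ ω, At ω ≤ Amax := fun ω => max_le hAmax (min_le_right _ _)
  have hAte : A =ᵐ[P] At := by
    filter_upwards [hAe, hA0, hA1] with ω h2 h3 h4
    simp only [hAt]
    rw [← h2, min_eq_left h4, max_eq_right h3]
  set D : Ω → ℝ := fun ω => Dn θ α k (n + 1) v (S.y ω) with hD
  have hD0 : ∀ ω, 0 ≤ D ω := fun ω => SCa_Dn_nonneg h0 h1 _ _ _ _ _
  have hE' : ∫ ω, At ω ∂P ≤ a0 := by
    rw [← integral_congr_ae hAte]
    exact hE
  have hmeasF : Measurable (fun y : Word d → ℝ => Real.exp (2 * Lam * (Dn θ α k (n + 1) v y - A1))) :=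
    Real.measurable_exp.comp (((SCa_measurable_Dn θ α k (n + 1) v).sub_const A1).const_mul _)
  have hexp' : ∫ ω, Real.exp (2 * Lam * (D ω - A1)) ∂P ≤ 1 := by
    have h2 : ∫ y, Real.exp (2 * Lam * (Dn θ α k (n + 1) v y - A1)) ∂(P.map S.y) =
        ∫ ω, Real.exp (2 * Lam * (D ω - A1)) ∂P :=
      integral_map S.y_meas.aemeasurable hmeasF.aestronglyMeasurable
    rw [← h2, S.law]
    exact hexp
  have hint : Integrable (fun ω => Real.exp (2 * Lam * (D ω - A1))) P := by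
    have h2 : ScBd P (fun ω => 2 * Lam * (D ω - A1)) :=
      (ScBd.const _).mul ((scBd_Dn h0 h1 S α k (n + 1) v).sub (ScBd.const _))
    exact h2.exp.integrable
  obtain ⟨r1, r2⟩ := StaticTau_exp_lemma hAtm hAt0 hAt1 hD0 ha hE' hA10 hLam hLam1 hexp' hint
  have hDb : ScBd P D := scBd_Dn h0 h1 S α k (n + 1) v
  have hAtb : ScBd P At := hA.congr hAte
  constructor
  · refine le_trans ?_ r1
    refine integral_mono_of_nonneg ?_ (hAtb.mul hDb).integrable ?_
    · filter_upwards [hA0] with ω h2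
      exact mul_nonneg h2 (SCa_Dn_nonneg h0 h1 _ _ _ _ _)
    · filter_upwards [hAte] with ω h2
      show A ω * Dn θ α k n v (S.y ω) ≤ At ω * D ω
      rw [h2]
      exact mul_le_mul_of_nonneg_left (SCa_Dn_mono h0 h1 _ _ _ _ _) (hAt0 ω)
  · refine le_trans ?_ r2
    refine integral_mono_of_nonneg ?_ (hAtb.mul (hDb.pow 2)).integrable ?_
    · filter_upwards [hA0] with ω h2
      exact mul_nonneg h2 (sq_nonneg _)
    · filter_upwards [hAte] with ω h2
      show A ω * Dn θ α k n v (S.y ω) ^ 2 ≤ At ω * D ω ^ 2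
      rw [h2]
      refine mul_le_mul_of_nonneg_left ?_ (hAt0 ω)
      exact pow_le_pow_left₀ (SCa_Dn_nonneg h0 h1 _ _ _ _ _) (SCa_Dn_mono h0 h1 _ _ _ _ _) 2

/-- A bound for the sum `f² + Π f²`. -/
lemma Aq_le {f : Ω → ℝ} {b : ℝ} (hf : ∀ᵐ ω ∂P, |f ω| ≤ b) : ∀ᵐ ω ∂P, S.Aq f ω ≤ 2 * b ^ 2 := by
  have h1 : ∀ᵐ ω ∂P, |f ω ^ 2| ≤ b ^ 2 := by
    filter_upwards [hf] with ω hω
    rw [abs_pow]
    exact pow_le_pow_left₀ (abs_nonneg _) hω 2
  have h2 : ∀ᵐ ω ∂P, |S.Pi (fun ω' => f ω' ^ 2) ω| ≤ b ^ 2 :=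
    ae_bdd_abs_condExp_of_ae_bdd_abs (m := S.G) h1
  filter_upwards [h1, h2] with ω h3 h4
  unfold Aq
  have h5 := (abs_le.1 h3).2
  have h6 := (abs_le.1 h4).2
  linarith

lemma dev_abs_le {f : Ω → ℝ} {b : ℝ} (hf : ∀ᵐ ω ∂P, |f ω| ≤ b) :
    ∀ᵐ ω ∂P, |f ω - S.Pi f ω| ≤ 2 * b := by
  have h2 : ∀ᵐ ω ∂P, |S.Pi f ω| ≤ b := ae_bdd_abs_condExp_of_ae_bdd_abs (m := S.G) hf
  filter_upwards [hf, h2] with ω h3 h4
  refine (abs_sub _ _).trans ?_
  linarith

lemma re_abs_le (H : S.Bds a B) (u v : Word d) : ∀ᵐ ω ∂P, |S.re u v ω| ≤ 2 * B :=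
  dev_abs_le (f := fun ω => Pe θ u v (S.y ω)) (by
    filter_upwards [H.m_bd] with ω hω using H.hPe _ _ (hω u) (hω v))

lemma rv_abs_le (H : S.Bds a B) (v : Word d) : ∀ᵐ ω ∂P, |S.rv v ω| ≤ 2 * B :=
  dev_abs_le (f := fun ω => Pv θ v (S.y ω)) (by
    filter_upwards [H.m_bd] with ω hω using H.hPv _ (hω v))

lemma dm_abs_le (H : S.Bds a B) (v : Word d) : ∀ᵐ ω ∂P, |S.dm v ω| ≤ 2 * 1 :=
  dev_abs_le (f := S.m v) (by
    filter_upwards [m_abs_lt H] with ω hω using (hω v).le)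

lemma Pidm_le (H : S.Bds a B) (v : Word d) : ∀ᵐ ω ∂P, S.Pi (fun ω' => S.dm v ω' ^ 2) ω ≤ 4 := by
  have h1 : ∀ᵐ ω ∂P, |S.dm v ω ^ 2| ≤ 4 := by
    filter_upwards [dm_abs_le H v] with ω hω
    rw [abs_pow]
    have := pow_le_pow_left₀ (abs_nonneg _) hω 2
    norm_num at this ⊢
    linarith
  have h2 : ∀ᵐ ω ∂P, |S.Pi (fun ω' => S.dm v ω' ^ 2) ω| ≤ 4 :=
    ae_bdd_abs_condExp_of_ae_bdd_abs (m := S.G) h1
  filter_upwards [h2] with ω h3
  exact (abs_le.1 h3).2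

end Setting

/-- The numerical bound on the level of the exponential moment. -/
lemma SCa_num_final {ε l Cb C1 : ℝ} (hε0 : 0 < ε) (hε1 : ε ≤ 1) (hl : 0 ≤ l) (hCb : 0 < Cb) (hC1 : 1 ≤ C1) :
    Alev Cb ε (2 * (C1 * (1 + l))) ^ 2 + 1 ≤
      (2 * Cb ^ 2 * C1 + 1) * (ε⁻¹ ^ 2 * Real.exp (ε / 6 * Real.log ((1 + l) / ε))) := by
  have h1l : 0 < 1 + l := by linarith
  set L := Real.log ((1 + l) / ε) with hL
  have hL0 : 0 ≤ L := by
    apply Real.log_nonneg
    rw [le_div_iff₀ hε0]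
    linarith
  have h2C : 0 < 2 * C1 := by linarith
  have hlogC : 0 ≤ Real.log (2 * C1) := Real.log_nonneg (by linarith)
  have e1 : Real.log (2 * (C1 * (1 + l)) / ε) = Real.log (2 * C1) + L := by
    rw [hL, ← Real.log_mul h2C.ne' (by positivity)]
    congr 1
    field_simp
  have hE1 : 1 ≤ Real.exp (ε / 6 * L) := by
    apply Real.one_le_exp
    positivity
  have hε2 : 1 ≤ ε⁻¹ ^ 2 := by
    apply one_le_pow₀
    exact (one_le_inv₀ hε0).2 hε1
  have h2 : Real.exp (ε / 14 * (Real.log (2 * C1) + L)) ^ 2 ≤ 2 * C1 * Real.exp (ε / 6 * L) := by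
    rw [← Real.exp_nat_mul, ← Real.exp_log h2C, ← Real.exp_add, Real.log_exp]
    apply Real.exp_le_exp.2
    push_cast
    have h3 : 0 ≤ ε * Real.log (2 * C1) := by positivity
    have h4 : 0 ≤ ε * L := by positivity
    have h5 : ε * Real.log (2 * C1) ≤ Real.log (2 * C1) := by nlinarith
    linarith
  unfold Alev
  rw [e1, mul_pow]
  have h6 : (Cb / ε) ^ 2 = Cb ^ 2 * ε⁻¹ ^ 2 := by
    rw [div_pow, inv_pow]
    rfl
  rw [h6]
  have h7 : 0 ≤ Cb ^ 2 * ε⁻¹ ^ 2 := by positivity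
  have h8 := mul_le_mul_of_nonneg_left h2 h7
  have h9 : 1 ≤ ε⁻¹ ^ 2 * Real.exp (ε / 6 * L) := by
    calc (1 : ℝ) = 1 * 1 := by ring
      _ ≤ _ := mul_le_mul hε2 hE1 zero_le_one (by positivity)
  nlinarith

/-- The numerical combination of the three weighted moments. -/
lemma SCa_num_core {BB J1 J2 J3 κ α a0 A1 dd kk : ℝ} (hα0 : 0 < α) (hα1 : α ≤ 1 / 24) (hκ0 : 0 ≤ κ)
    (hκ1 : κ ≤ 1 / 2) (ha00 : 0 < a0) (hA10 : 0 ≤ A1) (J1a : J1 ≤ a0 * (A1 + 2)) (J3a : J3 ≤ a0 * (A1 + 2))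
    (J2a : J2 ≤ a0 * (2 * A1 ^ 2 + 6)) (hdk : dd ≤ 2 * kk) (hk1 : 1 ≤ kk) (hd0 : 0 ≤ dd)
    (hcore : BB ≤ 2 * (2 * (Real.exp (2 * α) / α * J1) + dd * (Real.exp (3 * α) / (α * kk)) * J2) +
      κ ^ 2 * (Real.exp (2 * α) / α * J3)) :
    BB ≤ 117 * α⁻¹ * (a0 * (A1 ^ 2 + 1)) := by
  have he2 : Real.exp (2 * α) ≤ 3 := by
    have h1 : Real.exp (2 * α) ≤ Real.exp 1 := Real.exp_le_exp.2 (by linarith)
    have h2 := Real.exp_one_lt_d9
    linarith
  have he3 : Real.exp (3 * α) ≤ 3 := by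
    have h1 : Real.exp (3 * α) ≤ Real.exp 1 := Real.exp_le_exp.2 (by linarith)
    have h2 := Real.exp_one_lt_d9
    linarith
  have hκ2 : κ ^ 2 ≤ 1 := by nlinarith
  set U : ℝ := a0 * (A1 + 2) with hU
  set V : ℝ := a0 * (2 * A1 ^ 2 + 6) with hV
  have hU0 : 0 ≤ U := by positivity
  have hV0 : 0 ≤ V := by positivity
  have hinvα : 0 < α⁻¹ := inv_pos.2 hα0
  have t1 : Real.exp (2 * α) / α * J1 ≤ 3 * α⁻¹ * U := by
    calc Real.exp (2 * α) / α * J1 ≤ Real.exp (2 * α) / α * U :=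
          mul_le_mul_of_nonneg_left J1a (by positivity)
      _ ≤ 3 / α * U := mul_le_mul_of_nonneg_right
          (div_le_div_of_nonneg_right he2 hα0.le) hU0
      _ = _ := by rw [div_eq_mul_inv]
  have t3 : Real.exp (2 * α) / α * J3 ≤ 3 * α⁻¹ * U := by
    calc Real.exp (2 * α) / α * J3 ≤ Real.exp (2 * α) / α * U :=
          mul_le_mul_of_nonneg_left J3a (by positivity)
      _ ≤ 3 / α * U := mul_le_mul_of_nonneg_right
          (div_le_div_of_nonneg_right he2 hα0.le) hU0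
      _ = _ := by rw [div_eq_mul_inv]
  have t2 : dd * (Real.exp (3 * α) / (α * kk)) * J2 ≤ 6 * α⁻¹ * V := by
    have hk0 : 0 < kk := by linarith
    have h1 : dd * (Real.exp (3 * α) / (α * kk)) ≤ 6 * α⁻¹ := by
      rw [mul_div_assoc', div_le_iff₀ (by positivity)]
      have h3 : dd * Real.exp (3 * α) ≤ (2 * kk) * 3 :=
        mul_le_mul hdk he3 (Real.exp_pos _).le (by positivity)
      have h4 : 6 * α⁻¹ * (α * kk) = 6 * kk := by
        field_simp
      rw [h4]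
      linarith
    calc dd * (Real.exp (3 * α) / (α * kk)) * J2
        ≤ dd * (Real.exp (3 * α) / (α * kk)) * V :=
          mul_le_mul_of_nonneg_left J2a (by positivity)
      _ ≤ 6 * α⁻¹ * V := mul_le_mul_of_nonneg_right h1 hV0
  have hκ3 : κ ^ 2 * (Real.exp (2 * α) / α * J3) ≤ 3 * α⁻¹ * U := by
    have h3 : 0 ≤ 3 * α⁻¹ * U := by positivity
    calc κ ^ 2 * (Real.exp (2 * α) / α * J3) ≤ κ ^ 2 * (3 * α⁻¹ * U) :=
          mul_le_mul_of_nonneg_left t3 (sq_nonneg _)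
      _ ≤ 1 * (3 * α⁻¹ * U) := mul_le_mul_of_nonneg_right hκ2 h3
      _ = _ := one_mul _
  have hU3 : U ≤ 3 * (a0 * (A1 ^ 2 + 1)) := by
    rw [hU]
    have : A1 + 2 ≤ 3 * (A1 ^ 2 + 1) := by nlinarith [sq_nonneg (A1 - 1)]
    nlinarith
  have hV6 : V ≤ 6 * (a0 * (A1 ^ 2 + 1)) := by
    rw [hV]
    have : 2 * A1 ^ 2 + 6 ≤ 6 * (A1 ^ 2 + 1) := by nlinarith [sq_nonneg A1]
    nlinarith
  refine hcore.trans ?_
  have h1 := mul_le_mul_of_nonneg_left hU3 (by positivity : 0 ≤ α⁻¹)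
  have h2 := mul_le_mul_of_nonneg_left hV6 (by positivity : 0 ≤ α⁻¹)
  nlinarith

namespace Setting

variable [Corr θ] {Ω : Type*} [mΩ : MeasurableSpace Ω] {P : Measure Ω} [IsProbabilityMeasure P]
  {S : Setting d θ μ Ω P} {a B : ℝ}

/-- The product of two branching sums against the weight `A`. -/
lemma prod_moment (h0 : 0 ≤ θ) (h1 : θ < 1) (S : Setting d θ μ Ω P) {A : Ω → ℝ} (hA : ScBd P A)
    (hA0 : ∀ᵐ ω ∂P, 0 ≤ A ω) {α V : ℝ} (k R : ℕ) (v w : Word d)
    (hv : ∫ ω, A ω * Dn θ α k R v (S.y ω) ^ 2 ∂P ≤ V) (hw : ∫ ω, A ω * Dn θ α k R w (S.y ω) ^ 2 ∂P ≤ V) :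
    ∫ ω, A ω * (Dn θ α k R v (S.y ω) * Dn θ α k R w (S.y ω)) ∂P ≤ V := by
  have hD1 := scBd_Dn h0 h1 S α k R v
  have hD2 := scBd_Dn h0 h1 S α k R w
  have i1 := (hA.mul (hD1.mul hD2)).integrable
  have i2 := (hA.mul (hD1.pow 2)).integrable
  have i3 := (hA.mul (hD2.pow 2)).integrable
  have h3 : ∫ ω, A ω * (Dn θ α k R v (S.y ω) * Dn θ α k R w (S.y ω)) ∂P ≤
      ∫ ω, ((1 / 2) * (A ω * Dn θ α k R v (S.y ω) ^ 2) + (1 / 2) * (A ω * Dn θ α k R w (S.y ω) ^ 2)) ∂P := by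
    refine integral_mono_ae i1 ((i2.const_mul _).add (i3.const_mul _)) ?_
    filter_upwards [hA0] with ω hω
    show A ω * (Dn θ α k R v (S.y ω) * Dn θ α k R w (S.y ω)) ≤
      (1 / 2) * (A ω * Dn θ α k R v (S.y ω) ^ 2) + (1 / 2) * (A ω * Dn θ α k R w (S.y ω) ^ 2)
    nlinarith [mul_nonneg hω (sq_nonneg (Dn θ α k R v (S.y ω) - Dn θ α k R w (S.y ω)))]
  have h2 : ∫ ω, ((1 / 2) * (A ω * Dn θ α k R v (S.y ω) ^ 2) + (1 / 2) * (A ω * Dn θ α k R w (S.y ω) ^ 2)) ∂P =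
      (1 / 2) * ∫ ω, A ω * Dn θ α k R v (S.y ω) ^ 2 ∂P + (1 / 2) * ∫ ω, A ω * Dn θ α k R w (S.y ω) ^ 2 ∂P := by
    rw [← integral_const_mul, ← integral_const_mul]
    exact integral_add (i2.const_mul _) (i3.const_mul _)
  rw [h2] at h3
  linarith

/-- The bound of the growth rate with the parameters of the branching sums. -/
theorem BB_bd (C : Crit (d - 1) θ) (hμ : Nish μ) (hd2 : 2 ≤ d) (H : S.Bds a B) (i0 : Fin d)
    {κ α a0 A1 Lam Amax : ℝ} (hα0 : 0 < α) (hα1 : α ≤ 1 / 24) (hκ0 : 0 ≤ κ) (hκ1 : κ ≤ 1 / 2)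
    (hAmax : Amax = 8 * B ^ 2 + 4) (ha00 : 0 < a0) (hA10 : 0 ≤ A1) (hlogle : Real.log (Amax / a0) ≤ Lam)
    (hLam1 : 1 ≤ Lam) (R : ℕ)
    (hexpv : ∀ v : Word d, ∫ y, Real.exp (2 * Lam * (Dn θ α (d - 1) (R + 1) v y - A1)) ∂(LawY d θ μ) ≤ 1)
    (hτ2 : ∀ i, 2 * S.tau2 i ≤ a0) (hr : S.r ≤ a0) :
    S.BBn κ R ≤ 117 * α⁻¹ * (a0 * (A1 ^ 2 + 1)) := by
  have hθ0 := C.h0.le
  have hθ1 := C.h1
  have hBnn := H.hB
  have hAmax0 : 0 ≤ Amax := by rw [hAmax]; positivity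
  have hA_re := scBd_Aq (S := S) (scBd_re H root (letter i0))
  have hA_re0 := Aq_nonneg (S := S) (S.re root (letter i0))
  have hA_rv := scBd_Aq (S := S) (scBd_rv H root)
  have hA_rv0 := Aq_nonneg (S := S) (S.rv root)
  have hA_re1 : ∀ᵐ ω ∂P, S.Aq (S.re root (letter i0)) ω ≤ Amax := by
    filter_upwards [Aq_le (S := S) (re_abs_le H root (letter i0))] with ω hω
    rw [hAmax]
    nlinarith
  have hA_rv1 : ∀ᵐ ω ∂P, S.Aq (S.rv root) ω ≤ Amax := by
    filter_upwards [Aq_le (S := S) (rv_abs_le H root)] with ω hω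
    rw [hAmax]
    nlinarith
  have hZ : ScBd P (S.Pi (fun ω' => S.dm root ω' ^ 2)) :=
    ((scBd_dm H root).pow 2).condExp S.G_le
  have hZ0 : ∀ᵐ ω ∂P, 0 ≤ S.Pi (fun ω' => S.dm root ω' ^ 2) ω :=
    Pi_nonneg (ae_of_all _ fun ω => sq_nonneg _)
  have hZ1 : ∀ᵐ ω ∂P, S.Pi (fun ω' => S.dm root ω' ^ 2) ω ≤ Amax := by
    filter_upwards [Pidm_le (S := S) H root] with ω hω
    rw [hAmax]
    nlinarith [sq_nonneg B]
  have hE_re : ∫ ω, S.Aq (S.re root (letter i0)) ω ∂P ≤ a0 := by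
    rw [Aq_integral (scBd_re H root (letter i0))]
    refine le_trans ?_ (hτ2 i0)
    have : ∫ ω, S.re root (letter i0) ω ^ 2 ∂P ≤ S.tau2 i0 := le_max_left _ _
    linarith
  have hE_rv : ∫ ω, S.Aq (S.rv root) ω ∂P ≤ a0 := by
    rw [Aq_integral (scBd_rv H root)]
    refine le_trans ?_ (hτ2 i0)
    have : ∫ ω, S.rv root ω ^ 2 ∂P ≤ S.tau2 i0 := le_max_right _ _
    linarith
  have hE_Z : ∫ ω, S.Pi (fun ω' => S.dm root ω' ^ 2) ω ∂P ≤ a0 := by
    rw [integral_Pi]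
    exact hr
  have hk1 : (1 : ℝ) ≤ ((d - 1 : ℕ) : ℝ) := by
    have : 1 ≤ d - 1 := by omega
    exact_mod_cast this
  have hdk : (d : ℝ) ≤ 2 * ((d - 1 : ℕ) : ℝ) := by
    have h1 : ((d - 1 : ℕ) : ℝ) = (d : ℝ) - 1 := by
      rw [Nat.cast_sub (by omega)]
      simp
    have h2 : (2 : ℝ) ≤ d := by exact_mod_cast hd2
    rw [h1]
    linarith
  obtain ⟨J1a, -⟩ := exp_moments hθ0 hθ1 S hA_rv hA_rv0 hA_rv1 hAmax0 ha00 hE_rv hA10 hlogle hLam1
    (d - 1) R root (hexpv root)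
  obtain ⟨J3a, -⟩ := exp_moments hθ0 hθ1 S hZ hZ0 hZ1 hAmax0 ha00 hE_Z hA10 hlogle hLam1
    (d - 1) R root (hexpv root)
  obtain ⟨-, J2a⟩ := exp_moments hθ0 hθ1 S hA_re hA_re0 hA_re1 hAmax0 ha00 hE_re hA10 hlogle hLam1
    (d - 1) R root (hexpv root)
  obtain ⟨-, J2b⟩ := exp_moments hθ0 hθ1 S hA_re hA_re0 hA_re1 hAmax0 ha00 hE_re hA10 hlogle hLam1
    (d - 1) R (letter i0) (hexpv (letter i0))
  have J2 := prod_moment hθ0 hθ1 S hA_re hA_re0 (d - 1) R root (letter i0) J2a J2b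
  have hcore := BB_core (κ := κ) C hμ hd2 H i0 hα0 R
  exact SCa_num_core hα0 hα1 hκ0 hκ1 ha00 hA10 J1a J3a J2 hdk hk1 (Nat.cast_nonneg _) hcore

end Setting

/-- The last numerical step. -/
lemma SCa_num_end {BB α ε a0 A1 K0 rbar Cb C1 Ee : ℝ} (hε0 : 0 < ε) (hα : α = ε / 24) (ha0 : a0 = (2 * K0 + 1) * rbar)
    (hK0 : 0 ≤ K0) (hrbar : 0 < rbar)
    (hfin : BB ≤ 117 * α⁻¹ * (a0 * (A1 ^ 2 + 1)))
    (hY : A1 ^ 2 + 1 ≤ (2 * Cb ^ 2 * C1 + 1) * (ε⁻¹ ^ 2 * Ee)) :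
    BB ≤ 117 * 24 * (2 * K0 + 1) * (2 * Cb ^ 2 * C1 + 1) * rbar * (ε⁻¹ ^ 3 * Ee) := by
  have hinvα' : α⁻¹ = 24 * ε⁻¹ := by
    rw [hα]
    field_simp
  refine hfin.trans ?_
  rw [hinvα', ha0]
  have hε3 : 0 ≤ ε⁻¹ := by positivity
  have h5 : (A1 ^ 2 + 1) * ε⁻¹ ≤ ((2 * Cb ^ 2 * C1 + 1) * (ε⁻¹ ^ 2 * Ee)) * ε⁻¹ :=
    mul_le_mul_of_nonneg_right hY hε3
  have h6 : 0 ≤ 117 * 24 * (2 * K0 + 1) * rbar := by positivity
  have h7 := mul_le_mul_of_nonneg_left h5 h6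
  calc 117 * (24 * ε⁻¹) * ((2 * K0 + 1) * rbar * (A1 ^ 2 + 1))
      = 117 * 24 * (2 * K0 + 1) * rbar * ((A1 ^ 2 + 1) * ε⁻¹) := by ring
    _ ≤ _ := h7
    _ = _ := by ring

/-- The logarithm in the exponential moment is large enough. -/
lemma SCa_num_log {Amax a0 rbar l C1 : ℝ} (hAmax : 0 < Amax) (hC1 : C1 = Amax + 1) (hrbar : 0 < rbar)
    (hrba : rbar ≤ a0) (hl : l = Real.log (1 / rbar)) (hl0 : 0 ≤ l) :
    Real.log (Amax / a0) ≤ C1 * (1 + l) := by
  have ha00 : 0 < a0 := by linarith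
  rw [Real.log_div hAmax.ne' ha00.ne']
  have h1 : Real.log Amax ≤ Amax := by
    have := Real.log_le_sub_one_of_pos hAmax
    linarith
  have h2 : Real.log rbar ≤ Real.log a0 := Real.log_le_log hrbar hrba
  have h3 : l = - Real.log rbar := by
    rw [hl, one_div, Real.log_inv]
  have h4 : 0 ≤ Amax * l := by positivity
  rw [hC1]
  nlinarith

/-- The theorem `static_SC`, with the rate function written out. -/
theorem SCa_main_thm (hd : 3 ≤ d) [Corr θ] (C : Crit (d - 1) θ) (M C4 : ℝ) :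
    ∃ K c : ℝ, 0 ≤ K ∧ 0 < c ∧ c ≤ 1 ∧ ∀ μ : Measure ℝ, Reg d (by omega) θ μ M C4 →
      ∀ {Ω : Type} [MeasurableSpace Ω] {P : Measure Ω} [IsProbabilityMeasure P] (S : Setting d θ μ Ω P)
        (κ : ℝ), 0 ≤ κ → κ ≤ 1 / 2 → ∀ (R : ℕ) (rbar : ℝ), S.r ≤ rbar → 0 < rbar → rbar ≤ 1 →
        S.BBn κ R ≤ K * rbar * ((c * Xv d (by omega) θ μ)⁻¹ ^ 3 * Real.exp (c * Xv d (by omega) θ μ / 6 *
          Real.log ((1 + Real.log (1 / rbar)) / (c * Xv d (by omega) θ μ)))) := by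
  obtain ⟨K0, hK0, hτ⟩ := StaticTau_thm hd C M
  obtain ⟨a', B, hB⟩ := exists_Bds (d := d) C M
  obtain ⟨c, Cb, hc0, hc1, hCb, hbr⟩ := branch_exp hd C C4 M
  have hAmax : 0 < 8 * B ^ 2 + 4 := by positivity
  have hC1 : 1 ≤ (8 * B ^ 2 + 4) + 1 := by linarith
  refine ⟨117 * 24 * (2 * K0 + 1) * (2 * Cb ^ 2 * ((8 * B ^ 2 + 4) + 1) + 1), c, by positivity, hc0, hc1, ?_⟩
  intro μ hReg Ω _ P _ S κ hκ0 hκ1 R rbar hr hrbar0 hrbar1
  have hμ := hReg.nish
  have H := hB μ hμ hReg.bd S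
  have hd2 : 2 ≤ d := by omega
  have hX1 : Xv d (by omega) θ μ ≤ 1 := (MomLow_At_bounds (cavL_nish hd2 C.h1 hμ)).2
  have hX0 : 0 < Xv d (by omega) θ μ := hReg.pos
  have hε0 : 0 < c * Xv d (by omega) θ μ := mul_pos hc0 hX0
  have hε1 : c * Xv d (by omega) θ μ ≤ 1 := by nlinarith
  generalize hε : c * Xv d (by omega) θ μ = ε at hε0 hε1 ⊢
  have hl0 : 0 ≤ Real.log (1 / rbar) := by
    apply Real.log_nonneg
    rw [le_div_iff₀ hrbar0]
    linarith
  have hrba : rbar ≤ (2 * K0 + 1) * rbar := by nlinarith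
  have ha00 : 0 < (2 * K0 + 1) * rbar := by positivity
  have hLam1 : 1 ≤ ((8 * B ^ 2 + 4) + 1) * (1 + Real.log (1 / rbar)) := by
    have : 0 ≤ ((8 * B ^ 2 + 4) + 1) * Real.log (1 / rbar) := by positivity
    nlinarith
  have hτ' : ∀ i, S.tau2 i ≤ K0 * S.r := fun i => (hτ μ hμ hReg.bd S i 1 one_pos le_rfl).2
  have hτ2 : ∀ i, 2 * S.tau2 i ≤ (2 * K0 + 1) * rbar := by
    intro i
    have h1 := hτ' i
    have h2 : K0 * S.r ≤ K0 * rbar := mul_le_mul_of_nonneg_left hr hK0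
    nlinarith
  have hA10 : 0 ≤ Alev Cb ε (2 * (((8 * B ^ 2 + 4) + 1) * (1 + Real.log (1 / rbar)))) := by
    unfold Alev
    positivity
  have hexpv : ∀ v : Word d, ∫ y, Real.exp (2 * (((8 * B ^ 2 + 4) + 1) * (1 + Real.log (1 / rbar))) *
      (Dn θ (ε / 24) (d - 1) (R + 1) v y -
        Alev Cb ε (2 * (((8 * B ^ 2 + 4) + 1) * (1 + Real.log (1 / rbar)))))) ∂(LawY d θ μ) ≤ 1 := by
    intro v
    have := hbr μ hReg (2 * (((8 * B ^ 2 + 4) + 1) * (1 + Real.log (1 / rbar)))) (by linarith) v (kids v)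
      subset_rfl R
    simp only [hε] at this
    exact this
  have hfin := Setting.BB_bd (κ := κ) C hμ hd2 H ⟨0, by omega⟩ (α := ε / 24) (by positivity) (by linarith)
    hκ0 hκ1 rfl ha00 hA10 (SCa_num_log hAmax rfl hrbar0 hrba rfl hl0) hLam1 R hexpv hτ2 (hr.trans hrba)
  have hY := SCa_num_final hε0 hε1 hl0 hCb hC1
  exact SCa_num_end hε0 rfl rfl hK0 hrbar0 hfin hY

end Vale.Agent.Lib.P161B
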