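import Vale.Agent.Lib.P161B.StaticSDA

/-!
The static theorem with decorrelation: the growth rate is bounded using the decorrelation of the errors
along a path, truncation of the product of `ψ`, and the mass transported term with a branching sum.
-/

set_option linter.unusedSectionVars false

namespace Vale.Agent.Lib.P161B

open MeasureTheory ProbabilityTheory Filter
open Vale.Agent.Lib.P161

variable {d : ℕ} {θ : ℝ} {μ : Measure ℝ} [Corr θ]

section Sum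

lemma sd_hθ (hd : 3 ≤ d) (C : Crit (d - 1) θ) : ((d : ℝ) - 1) * θ ^ 2 = 1 := by
  have hk : ((d - 1 : ℕ) : ℝ) = (d : ℝ) - 1 := by
    rw [Nat.cast_sub (by omega)]; simp
  rw [← hk]; exact C.hθ

lemma sd_card_theta (hd : 3 ≤ d) (C : Crit (d - 1) θ) (n : ℕ) :
    ((sph n : Finset (Word d)).card : ℝ) * θ ^ (2 * n) ≤ 2 := by
  have hθ := sd_hθ hd C
  rcases Nat.eq_zero_or_pos n with rfl | hn
  · have : (sph 0 : Finset (Word d)).card ≤ 1 := by
      apply Finset.card_le_one.mpr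
      intro a ha b hb
      have ha' := (Finset.mem_filter.mp ha).2
      have hb' := (Finset.mem_filter.mp hb).2
      apply Subtype.ext
      have h1 : a.1 = [] := List.length_eq_zero_iff.mp ha'
      have h2 : b.1 = [] := List.length_eq_zero_iff.mp hb'
      rw [h1, h2]
    have h2 : ((sph 0 : Finset (Word d)).card : ℝ) ≤ 1 := by exact_mod_cast this
    simp only [mul_zero, pow_zero, mul_one]
    linarith
  · rw [card_sph (by omega) hn]
    obtain ⟨m, rfl⟩ : ∃ m, n = m + 1 := ⟨n - 1, by omega⟩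
    simp only [Nat.add_sub_cancel]
    have e : ((d : ℝ) * ((d : ℝ) - 1) ^ m) * θ ^ (2 * (m + 1)) =
        d * θ ^ 2 * (((d : ℝ) - 1) * θ ^ 2) ^ m := by
      rw [mul_pow, ← pow_mul]; ring
    rw [e, hθ, one_pow, mul_one]
    have : (d : ℝ) * θ ^ 2 = θ ^ 2 + ((d : ℝ) - 1) * θ ^ 2 := by ring
    rw [this, hθ]
    nlinarith [C.h0, C.h1]

lemma sd_sum_ball (hd : 3 ≤ d) (C : Crit (d - 1) θ) {f : ℕ → ℝ} (hf : ∀ n, 0 ≤ f n) (R : ℕ) :
    ∑ x ∈ (ball R : Finset (Word d)), θ ^ (2 * len x) * f (len x) ≤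
      2 * ∑ n ∈ Finset.range (R + 1), f n := by
  classical
  have h1 := Finset.sum_fiberwise_of_maps_to (s := (ball R : Finset (Word d)))
    (t := Finset.range (R + 1)) (g := fun x => len x)
    (fun x hx => Finset.mem_range.mpr (Nat.lt_succ_of_le (mem_ball.mp hx)))
    (fun x => θ ^ (2 * len x) * f (len x))
  rw [← h1, Finset.mul_sum]
  refine Finset.sum_le_sum fun n hn => ?_
  have hn' : n ≤ R := Nat.lt_succ_iff.mp (Finset.mem_range.mp hn)
  have h2 : (ball R).filter (fun x : Word d => len x = n) = sph n := by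
    ext x
    simp only [sph, Finset.mem_filter, mem_ball]
    constructor
    · rintro ⟨_, h⟩; exact ⟨h.le, h⟩
    · rintro ⟨_, h⟩; exact ⟨h.le.trans hn', h⟩
  rw [h2]
  have h3 : ∑ x ∈ (sph n : Finset (Word d)), θ ^ (2 * len x) * f (len x) =
      ∑ x ∈ (sph n : Finset (Word d)), θ ^ (2 * n) * f n :=
    Finset.sum_congr rfl fun x hx => by rw [(Finset.mem_filter.mp hx).2]
  rw [h3, Finset.sum_const, nsmul_eq_mul]
  have := sd_card_theta (d := d) hd C n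
  nlinarith [hf n]

end Sum

section Psi

lemma sd_psiPath_nonneg (h0 : 0 ≤ θ) (h1 : θ < 1) (x : Word d) (y : Word d → ℝ) : 0 ≤ psiPath θ x y :=
  Finset.prod_nonneg fun _ _ => (psiF_pos h0 h1 _).le

lemma sd_psiPath_le_one (h0 : 0 ≤ θ) (h1 : θ < 1) (x : Word d) (y : Word d → ℝ) : psiPath θ x y ≤ 1 :=
  Finset.prod_le_one (fun _ _ => (psiF_pos h0 h1 _).le) (fun _ _ => psiF_le_one h0 h1 _)

lemma sd_measurable_psiPath (x : Word d) : Measurable (psiPath θ x) := by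
  unfold psiPath
  exact Finset.measurable_prod _ fun i _ => measurable_psiF.comp (measurable_hhL θ _)

lemma sd_Dn_nonneg (h0 : 0 ≤ θ) (h1 : θ < 1) {α : ℝ} (k n : ℕ) (v : Word d) (y : Word d → ℝ) :
    0 ≤ Dn θ α k n v y := by
  induction n generalizing v with
  | zero => simp [Dn]
  | succ n ih =>
    simp only [Dn]
    have : 0 ≤ ∑ c ∈ kids v, psiF θ (hhL θ c y) * Dn θ α k n c y :=
      Finset.sum_nonneg fun c _ => mul_nonneg (psiF_pos h0 h1 _).le (ih c)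
    positivity

lemma sd_card_kids_le (v : Word d) : ((kids v).card : ℝ) ≤ d := by
  by_cases hv : v = root
  · subst hv; rw [card_kids_root]
  · rw [card_kids hv]
    exact_mod_cast Nat.sub_le _ _

lemma sd_Dn_le (h0 : 0 ≤ θ) (h1 : θ < 1) {α : ℝ} (k n : ℕ) (v : Word d) (y : Word d → ℝ) :
    Dn θ α k n v y ≤ (1 + Real.exp α / k * d) ^ n := by
  have hb : 0 ≤ Real.exp α / k * d := by positivity
  induction n generalizing v with
  | zero => simp [Dn]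
  | succ n ih =>
    simp only [Dn]
    set b := Real.exp α / k * (d : ℝ) with hbdef
    have h2 : ∑ c ∈ kids v, psiF θ (hhL θ c y) * Dn θ α k n c y ≤ d * (1 + b) ^ n := by
      have h3 : ∑ c ∈ kids v, psiF θ (hhL θ c y) * Dn θ α k n c y ≤
          ∑ _c ∈ kids v, (1 + b) ^ n := by
        refine Finset.sum_le_sum fun c _ => ?_
        have h4 := ih c
        have h5 := psiF_le_one (θ := θ) h0 h1 (hhL θ c y)
        have h6 := sd_Dn_nonneg (α := α) h0 h1 k n c y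
        calc psiF θ (hhL θ c y) * Dn θ α k n c y ≤ 1 * Dn θ α k n c y :=
              mul_le_mul_of_nonneg_right h5 h6
          _ ≤ (1 + b) ^ n := by rw [one_mul]; exact h4
      refine h3.trans ?_
      rw [Finset.sum_const, nsmul_eq_mul]
      exact mul_le_mul_of_nonneg_right (sd_card_kids_le v) (by positivity)
    have h7 : 1 ≤ (1 + b) ^ n := one_le_pow₀ (by linarith)
    have hek : 0 ≤ Real.exp α / k := by positivity
    calc 1 + Real.exp α / k * ∑ c ∈ kids v, psiF θ (hhL θ c y) * Dn θ α k n c y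
        ≤ 1 + Real.exp α / k * (d * (1 + b) ^ n) := by
          have := mul_le_mul_of_nonneg_left h2 hek
          linarith
      _ = 1 + b * (1 + b) ^ n := by rw [hbdef]; ring
      _ ≤ (1 + b) ^ n + b * (1 + b) ^ n := by linarith
      _ = (1 + b) ^ (n + 1) := by ring

lemma sd_measurable_Dn (α : ℝ) (k n : ℕ) (v : Word d) : Measurable (Dn θ α k n v) := by
  induction n generalizing v with
  | zero =>
    have : Dn θ α k 0 v = fun _ => 1 := by funext y; simp [Dn]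
    rw [this]; exact measurable_const
  | succ n ih =>
    have : Dn θ α k (n + 1) v = fun y => 1 + Real.exp α / k *
        ∑ c ∈ kids v, psiF θ (hhL θ c y) * Dn θ α k n c y := by
      funext y; simp [Dn]
    rw [this]
    exact measurable_const.add (measurable_const.mul (Finset.measurable_sum _ fun c _ =>
      (measurable_psiF.comp (measurable_hhL θ c)).mul (ih c)))

/-- The sum of the squares of the covariances with the root is bounded by the branching sum. -/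
lemma sd_sum_le_DK (hd : 3 ≤ d) (C : Crit (d - 1) θ) {α : ℝ} (hα : 0 ≤ α) (R : ℕ) (y : Word d → ℝ)
    (H : ∀ x : Word d, CCr θ x y ^ 2 ≤ θ ^ (2 * len x) * psiPath θ x y) :
    ∑ x ∈ (ball R : Finset (Word d)), CCr θ x y ^ 2 ≤ DK θ α (d - 1) (kids root) R y := by
  classical
  have h0 := C.h0
  have h1 := C.h1
  have hθ := sd_hθ hd C
  have hk : ((d - 1 : ℕ) : ℝ) = (d : ℝ) - 1 := by
    rw [Nat.cast_sub (by omega)]; simp
  have hd' : (3 : ℝ) ≤ d := by exact_mod_cast hd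
  have e1 : DK θ α (d - 1) (kids root) R y = Dn θ α (d - 1) (R + 1) (root : Word d) y := by
    simp [DK, Dn]
  rw [e1, ← sum_wPath_le_Dn (by omega) θ α hα (d - 1) (R + 1) root y h0.le h1]
  have hnn : ∀ w : Word d, 0 ≤ wPath θ α (d - 1) root w y := by
    intro w
    unfold wPath
    have h2 : 0 ≤ Real.exp α / ((d - 1 : ℕ) : ℝ) := by positivity
    exact mul_nonneg (pow_nonneg h2 _)
      (Finset.prod_nonneg fun _ _ => (psiF_pos h0.le h1 _).le)
  have hsub : (ball R : Finset (Word d)) ⊆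
      (ball (len (root : Word d) + (R + 1))).filter (fun w : Word d => (root : Word d).1 <:+ w.1) := by
    intro x hx
    refine Finset.mem_filter.mpr ⟨?_, ?_⟩
    · rw [mem_ball]
      have := mem_ball.mp hx
      simp only [len, root, List.length_nil] at *
      omega
    · exact List.nil_suffix
  refine le_trans ?_ (Finset.sum_le_sum_of_subset_of_nonneg hsub fun w _ _ => hnn w)
  refine Finset.sum_le_sum fun x _ => (H x).trans ?_
  unfold wPath psiPath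
  have e2 : len x - len (root : Word d) = len x := by simp [len, root]
  have e3 : ∀ i, len (root : Word d) + i + 1 = i + 1 := by intro i; simp [len, root]
  simp only [e2, e3]
  apply mul_le_mul_of_nonneg_right _ (Finset.prod_nonneg fun _ _ => (psiF_pos h0.le h1 _).le)
  rw [pow_mul]
  apply pow_le_pow_left₀ (sq_nonneg θ)
  rw [hk]
  have h4 : 0 < (d : ℝ) - 1 := by linarith
  rw [le_div_iff₀ h4]
  have h5 : 1 ≤ Real.exp α := Real.one_le_exp hα
  nlinarith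

end Psi

section Num

lemma sd_exp_Q (Q : ℕ) :
    Real.exp (1 - Q) * (Q : ℝ) ^ 3 ≤ 48 * Real.exp 1 * Real.exp (-(Q : ℝ) / 2) := by
  have h1 := Real.pow_div_factorial_le_exp ((Q : ℝ) / 2) (by positivity) 3
  have h2 : (Q : ℝ) ^ 3 ≤ 48 * Real.exp ((Q : ℝ) / 2) := by
    have e : (((Q : ℝ) / 2) ^ 3 / (Nat.factorial 3 : ℝ)) = (Q : ℝ) ^ 3 / 48 := by
      simp [Nat.factorial]; ring
    rw [e] at h1
    linarith
  have e2 : Real.exp (1 - Q) = Real.exp 1 * Real.exp (-(Q : ℝ) / 2) * Real.exp (-(Q : ℝ) / 2) := by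
    rw [← Real.exp_add, ← Real.exp_add]; congr 1; ring
  rw [e2]
  have e3 : Real.exp (-(Q : ℝ) / 2) * Real.exp ((Q : ℝ) / 2) = 1 := by
    rw [← Real.exp_add]
    have : -(Q : ℝ) / 2 + (Q : ℝ) / 2 = 0 := by ring
    rw [this, Real.exp_zero]
  have h3 : 0 ≤ Real.exp 1 * Real.exp (-(Q : ℝ) / 2) * Real.exp (-(Q : ℝ) / 2) := by positivity
  calc Real.exp 1 * Real.exp (-(Q : ℝ) / 2) * Real.exp (-(Q : ℝ) / 2) * (Q : ℝ) ^ 3
      ≤ Real.exp 1 * Real.exp (-(Q : ℝ) / 2) * Real.exp (-(Q : ℝ) / 2) *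
        (48 * Real.exp ((Q : ℝ) / 2)) := mul_le_mul_of_nonneg_left h2 h3
    _ = 48 * Real.exp 1 * Real.exp (-(Q : ℝ) / 2) * (Real.exp (-(Q : ℝ) / 2) * Real.exp ((Q : ℝ) / 2)) := by
        ring
    _ = 48 * Real.exp 1 * Real.exp (-(Q : ℝ) / 2) := by rw [e3, mul_one]

/-- The function summed over the spheres. -/
noncomputable def sdF (K tb B c5 : ℝ) (Q n : ℕ) : ℝ :=
  Real.exp (1 - c5 * n / Q) * (2 * ((2 + 3 * K) * (n + 1) * tb)) +
    8 * ((n + 1) * B) ^ 2 * Real.exp (1 - Q) * Real.exp (-(c5 * n / Q))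

lemma sdF_nonneg {K tb B c5 : ℝ} (hK : 0 ≤ K) (htb : 0 ≤ tb) (Q n : ℕ) : 0 ≤ sdF K tb B c5 Q n := by
  unfold sdF
  positivity

lemma sd_sum_sdF {K tb B c5 : ℝ} (hK : 0 ≤ K) (htb : 0 ≤ tb) (hc5 : 0 < c5) {Q : ℕ} (hQ : 1 ≤ Q)
    (R : ℕ) :
    ∑ n ∈ Finset.range R, sdF K tb B c5 Q n ≤
      2 * Real.exp 1 * (2 + 3 * K) * (1 + 1 / c5) ^ 2 * (tb * (Q : ℝ) ^ 2) +
        16 * B ^ 2 * (1 + 1 / c5) ^ 3 * (48 * Real.exp 1) * Real.exp (-(Q : ℝ) / 2) := by
  have hQ0 : (0 : ℝ) < Q := by exact_mod_cast hQ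
  have hQ1 : (1 : ℝ) ≤ Q := by exact_mod_cast hQ
  set q : ℝ := c5 / Q with hq
  have hq0 : 0 < q := div_pos hc5 hQ0
  have e : ∀ n : ℕ, sdF K tb B c5 Q n =
      (2 * Real.exp 1 * (2 + 3 * K) * tb) * (((n : ℝ) + 1) * Real.exp (-(q * n))) +
        (8 * B ^ 2 * Real.exp (1 - Q)) * (((n : ℝ) + 1) ^ 2 * Real.exp (-(q * n))) := by
    intro n
    unfold sdF
    have e1 : c5 * n / Q = q * n := by rw [hq]; ring
    rw [e1]
    have e2 : Real.exp (1 - q * n) = Real.exp 1 * Real.exp (-(q * n)) := by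
      rw [← Real.exp_add, sub_eq_add_neg]
    rw [e2]
    ring
  simp_rw [e]
  rw [Finset.sum_add_distrib, ← Finset.mul_sum, ← Finset.mul_sum]
  have h1 := sd_series1 hq0 R
  have h2 := sd_series2 hq0 R
  have h3 : 1 + 1 / q ≤ Q * (1 + 1 / c5) := by
    have e3 : 1 / q = Q / c5 := by rw [hq, one_div_div]
    rw [e3]
    have : Q * (1 + 1 / c5) = Q + Q / c5 := by field_simp
    rw [this]; linarith
  have h30 : 0 ≤ 1 + 1 / q := by positivity
  set Z := 1 + 1 / c5 with hZ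
  have hZ0 : 0 ≤ Z := by positivity
  have h4 : (1 + 1 / q) ^ 2 ≤ (Q * Z) ^ 2 := by gcongr
  have h5 : (1 + 1 / q) ^ 3 ≤ (Q * Z) ^ 3 := by gcongr
  have hc1 : 0 ≤ 2 * Real.exp 1 * (2 + 3 * K) * tb := by positivity
  have hc2 : 0 ≤ 8 * B ^ 2 * Real.exp (1 - Q) := by positivity
  have h6 := mul_le_mul_of_nonneg_left (h1.trans h4) hc1
  have h7 := mul_le_mul_of_nonneg_left (h2.trans (mul_le_mul_of_nonneg_left h5 (by norm_num))) hc2
  have h8 := sd_exp_Q Q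
  have h9 : (8 * B ^ 2 * Real.exp (1 - Q)) * (2 * (Q * Z) ^ 3) =
      16 * B ^ 2 * Z ^ 3 * (Real.exp (1 - Q) * (Q : ℝ) ^ 3) := by ring
  have h10 : 0 ≤ 16 * B ^ 2 * Z ^ 3 := by positivity
  have h11 := mul_le_mul_of_nonneg_left h8 h10
  have h12 : (2 * Real.exp 1 * (2 + 3 * K) * tb) * (Q * Z) ^ 2 =
      2 * Real.exp 1 * (2 + 3 * K) * Z ^ 2 * (tb * (Q : ℝ) ^ 2) := by ring
  have h13 : 16 * B ^ 2 * Z ^ 3 * (48 * Real.exp 1 * Real.exp (-(Q : ℝ) / 2)) =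
      16 * B ^ 2 * Z ^ 3 * (48 * Real.exp 1) * Real.exp (-(Q : ℝ) / 2) := by ring
  linarith

lemma sd_SDF_compare {ε l Cb : ℝ} (hε : 0 < ε) (hε1 : ε ≤ 1) (hl : 0 ≤ l) (hCb : 0 < Cb) :
    Alev Cb ε (2 * (2 + l)) + 2 ≤
      (4 * Cb + 2) * (ε⁻¹ * Real.exp (ε / 14 * Real.log ((1 + l) / ε))) := by
  set E := Real.exp (ε / 14 * Real.log ((1 + l) / ε)) with hE
  have hinv : 1 ≤ ε⁻¹ := (one_le_inv₀ hε).mpr hε1
  have hlog0 : 0 ≤ Real.log ((1 + l) / ε) := by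
    apply Real.log_nonneg
    rw [le_div_iff₀ hε]
    linarith
  have hE1 : 1 ≤ E := Real.one_le_exp (by positivity)
  have hlog4 : 0 ≤ Real.log 4 := Real.log_nonneg (by norm_num)
  have h1 : Real.exp (ε / 14 * Real.log (2 * (2 + l) / ε)) ≤ 4 * E := by
    have h2 : Real.log (2 * (2 + l) / ε) ≤ Real.log 4 + Real.log ((1 + l) / ε) := by
      rw [← Real.log_mul (by norm_num) (by positivity)]
      apply Real.log_le_log (by positivity)
      have : 4 * ((1 + l) / ε) = (4 * (1 + l)) / ε := by ring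
      rw [this]
      apply div_le_div_of_nonneg_right _ hε.le
      linarith
    have h3 : ε / 14 * Real.log (2 * (2 + l) / ε) ≤
        Real.log 4 + ε / 14 * Real.log ((1 + l) / ε) := by
      have h4 : ε / 14 * Real.log (2 * (2 + l) / ε) ≤
          ε / 14 * (Real.log 4 + Real.log ((1 + l) / ε)) :=
        mul_le_mul_of_nonneg_left h2 (by positivity)
      have h5 : ε / 14 * Real.log 4 ≤ Real.log 4 := by
        have : ε / 14 ≤ 1 := by linarith
        nlinarith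
      linarith
    calc Real.exp (ε / 14 * Real.log (2 * (2 + l) / ε))
        ≤ Real.exp (Real.log 4 + ε / 14 * Real.log ((1 + l) / ε)) := Real.exp_le_exp.mpr h3
      _ = 4 * E := by rw [Real.exp_add, Real.exp_log (by norm_num)]
  have h6 : Alev Cb ε (2 * (2 + l)) ≤ Cb * ε⁻¹ * (4 * E) := by
    unfold Alev
    rw [div_eq_mul_inv]
    exact mul_le_mul_of_nonneg_left h1 (by positivity)
  have h7 : 1 ≤ ε⁻¹ * E := by nlinarith
  nlinarith

end Num

section Main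

namespace Setting

variable {Ω : Type*} [mΩ : MeasurableSpace Ω] {P : Measure Ω} [IsProbabilityMeasure P]
  {S : Setting d θ μ Ω P} {a B : ℝ}

lemma sd_Sx2_bound (H : S.Bds a B) (x : Word d) :
    ∀ᵐ ω ∂P, S.Sx x ω ^ 2 ≤ 4 * (((len x : ℝ) + 1) * B) ^ 2 := by
  filter_upwards [Sx_abs_le H x] with ω hω
  have e : S.Sx x ω ^ 2 = |S.Sx x ω| ^ 2 := (sq_abs _).symm
  rw [e]
  have h0 := abs_nonneg (S.Sx x ω)
  nlinarith

lemma termI_x (H : S.Bds a B) (x : Word d) {K tb c5 : ℝ} {Q : ℕ} (hQ : 1 ≤ Q)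
    (hL2 : ∫ ω, S.Sx x ω ^ 2 ∂P ≤ (2 + 3 * K) * (len x + 1) * tb)
    (hCC : ∀ᵐ ω ∂P, S.CC x ω ^ 2 ≤ θ ^ (2 * len x) * psiPath θ x (S.y ω))
    (hpeel : ∫ ω, psiPath θ x (S.y ω) ^ Q ∂P ≤ Real.exp (-(c5 * len x))) :
    ∫ ω, (S.Sx x ω ^ 2 + S.Pi (fun ω' => S.Sx x ω' ^ 2) ω) * S.CC x ω ^ 2 ∂P ≤
      θ ^ (2 * len x) * sdF K tb B c5 Q (len x) := by
  have hS := scBd_Sx H x
  have hS2 := hS.pow 2
  have hS2c := hS2.condExp S.G_le
  have hC2 := (scBd_CC H x).pow 2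
  set A : Ω → ℝ := fun ω => S.Sx x ω ^ 2 + S.Pi (fun ω' => S.Sx x ω' ^ 2) ω with hA
  have hAb : ScBd P A := hS2.add hS2c
  have h0 := H.h0.le
  have h1 := H.h1
  have hPp : ScBd P (fun ω => psiPath θ x (S.y ω)) :=
    ⟨((sd_measurable_psiPath x).comp S.y_meas).aestronglyMeasurable, 1, ae_of_all _ fun ω => by
      rw [abs_of_nonneg (sd_psiPath_nonneg h0 h1 x _)]
      exact sd_psiPath_le_one h0 h1 x _⟩
  have hPc0 : 0 ≤ᵐ[P] S.Pi (fun ω' => S.Sx x ω' ^ 2) :=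
    condExp_nonneg (ae_of_all _ fun ω => sq_nonneg _)
  have hA0 : ∀ᵐ ω ∂P, 0 ≤ A ω := by
    filter_upwards [hPc0] with ω hω
    have h2 : 0 ≤ S.Pi (fun ω' => S.Sx x ω' ^ 2) ω := hω
    simp only [hA]
    positivity
  have hbd := sd_Sx2_bound H x
  have hbd2 : ∀ᵐ ω ∂P, |S.Sx x ω ^ 2| ≤ 4 * (((len x : ℝ) + 1) * B) ^ 2 := by
    filter_upwards [hbd] with ω hω
    rwa [abs_of_nonneg (sq_nonneg _)]
  have hbdc : ∀ᵐ ω ∂P, |S.Pi (fun ω' => S.Sx x ω' ^ 2) ω| ≤ 4 * (((len x : ℝ) + 1) * B) ^ 2 :=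
    ae_bdd_abs_condExp_of_ae_bdd_abs (m := S.G) hbd2
  have hAB : ∀ᵐ ω ∂P, A ω ≤ 8 * (((len x : ℝ) + 1) * B) ^ 2 := by
    filter_upwards [hbd, hbdc] with ω h2 h3
    have h4 := (le_abs_self _).trans h3
    simp only [hA]
    linarith
  have hBn : 0 ≤ 8 * (((len x : ℝ) + 1) * B) ^ 2 := by positivity
  have han : ∫ ω, A ω ∂P ≤ 2 * ((2 + 3 * K) * (len x + 1) * tb) := by
    have e : ∫ ω, A ω ∂P = ∫ ω, S.Sx x ω ^ 2 ∂P + ∫ ω, S.Pi (fun ω' => S.Sx x ω' ^ 2) ω ∂P :=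
      integral_add hS2.integrable hS2c.integrable
    have e2 : ∫ ω, S.Pi (fun ω' => S.Sx x ω' ^ 2) ω ∂P = ∫ ω, S.Sx x ω ^ 2 ∂P :=
      integral_condExp S.G_le
    rw [e, e2]
    linarith
  have hP0 : ∀ᵐ ω ∂P, 0 ≤ psiPath θ x (S.y ω) := ae_of_all _ fun ω => sd_psiPath_nonneg h0 h1 x _
  have htr := sd_trunc hAb hPp hA0 hAB hP0 hBn han hQ hpeel
  have hθn : 0 ≤ θ ^ (2 * len x) := by positivity
  have hle : ∫ ω, A ω * S.CC x ω ^ 2 ∂P ≤ ∫ ω, θ ^ (2 * len x) * (A ω * psiPath θ x (S.y ω)) ∂P := by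
    refine integral_mono_ae (hAb.mul hC2).integrable ((ScBd.const _).mul (hAb.mul hPp)).integrable ?_
    filter_upwards [hCC, hA0] with ω h2 h3
    calc A ω * S.CC x ω ^ 2 ≤ A ω * (θ ^ (2 * len x) * psiPath θ x (S.y ω)) :=
          mul_le_mul_of_nonneg_left h2 h3
      _ = θ ^ (2 * len x) * (A ω * psiPath θ x (S.y ω)) := by ring
  rw [integral_const_mul] at hle
  refine hle.trans (mul_le_mul_of_nonneg_left ?_ hθn)
  unfold sdF
  exact htr

lemma int_law (S : Setting d θ μ Ω P) {F : (Word d → ℝ) → ℝ} (hF : Measurable F) :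
    ∫ ω, F (S.y ω) ∂P = ∫ y, F y ∂(LawY d θ μ) := by
  rw [← S.law, integral_map S.y_meas.aemeasurable hF.aestronglyMeasurable]

lemma ae_law (S : Setting d θ μ Ω P) {p : (Word d → ℝ) → Prop} (h : ∀ᵐ y ∂(LawY d θ μ), p y) :
    ∀ᵐ ω ∂P, p (S.y ω) := by
  rw [← S.law] at h
  exact ae_of_ae_map S.y_meas.aemeasurable h

end Setting

lemma sd_measurable_tanh : Measurable Real.tanh := by
  have : Real.tanh = fun x => Real.sinh x / Real.cosh x := by
    funext x; exact Real.tanh_eq_sinh_div_cosh x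
  rw [this]
  exact Real.measurable_sinh.div Real.measurable_cosh

lemma sd_X_le_one (hd : 3 ≤ d) {M C4 : ℝ} (h1 : θ < 1)
    (hReg : Reg d (by omega) θ μ M C4) : Xv d (by omega) θ μ ≤ 1 := by
  have hn := cavL_nish (d := d) (by omega) h1 hReg.nish
  haveI := hn.prob
  have hint : Integrable (fun h => Real.tanh h) (cavL d (by omega) θ μ) := by
    refine Integrable.of_bound sd_measurable_tanh.aestronglyMeasurable 1 (ae_of_all _ fun h => ?_)
    rw [Real.norm_eq_abs, abs_le]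
    exact ⟨(Real.neg_one_lt_tanh h).le, (Real.tanh_lt_one h).le⟩
  have := integral_mono hint (integrable_const (1 : ℝ)) (fun h => (Real.tanh_lt_one h).le)
  simpa [At, Xv] using this

namespace Setting

variable {Ω : Type*} [mΩ : MeasurableSpace Ω] {P : Measure Ω} [IsProbabilityMeasure P]
  {S : Setting d θ μ Ω P} {a B : ℝ}

/-- The first part: the errors on the path. -/
lemma sd_termI_sum (hd : 3 ≤ d) (C : Crit (d - 1) θ) (H : S.Bds a B) {K0 c5 tb : ℝ} (hK0 : 0 ≤ K0)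
    (hc5 : 0 < c5) (htb : 0 ≤ tb) {Q : ℕ} (hQ : 1 ≤ Q) (R : ℕ)
    (h_rv : ∫ ω, S.rv root ω ^ 2 ∂P ≤ tb)
    (hp : ∀ x : Word d, ∫ ω, (∑ i ∈ Finset.range (len x), S.re (ch x i) (ch x (i + 1)) ω) ^ 2 ∂P ≤
      K0 * len x * tb)
    (hCC : ∀ᵐ ω ∂P, ∀ x : Word d, S.CC x ω ^ 2 ≤ θ ^ (2 * len x) * psiPath θ x (S.y ω))
    (hpeel : ∀ x : Word d, ∫ ω, psiPath θ x (S.y ω) ^ Q ∂P ≤ Real.exp (-(c5 * len x))) :
    ∑ x ∈ (ball R : Finset (Word d)),
      ∫ ω, (S.Sx x ω ^ 2 + S.Pi (fun ω' => S.Sx x ω' ^ 2) ω) * S.CC x ω ^ 2 ∂P ≤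
      2 * (2 * Real.exp 1 * (2 + 3 * K0) * (1 + 1 / c5) ^ 2) * (tb * (Q : ℝ) ^ 2) +
        2 * (16 * B ^ 2 * (1 + 1 / c5) ^ 3 * (48 * Real.exp 1)) * Real.exp (-(Q : ℝ) / 2) := by
  have hI : ∀ x : Word d, ∫ ω, (S.Sx x ω ^ 2 + S.Pi (fun ω' => S.Sx x ω' ^ 2) ω) * S.CC x ω ^ 2 ∂P ≤
      θ ^ (2 * len x) * sdF K0 tb B c5 Q (len x) := by
    intro x
    refine termI_x H x hQ (Sx_L2 H x hK0 htb h_rv (hp x)) ?_ (hpeel x)
    filter_upwards [hCC] with ω hω using hω x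
  refine (Finset.sum_le_sum fun x _ => hI x).trans ?_
  refine (sd_sum_ball hd C (f := sdF K0 tb B c5 Q) (sdF_nonneg hK0 htb Q) R).trans ?_
  have := sd_sum_sdF (B := B) hK0 htb hc5 hQ (R + 1)
  nlinarith

lemma sd_dm_bd (H : S.Bds a B) : ∀ᵐ ω ∂P, |S.dm root ω ^ 2| ≤ 4 := by
  have hm1 : ∀ᵐ ω ∂P, |S.m root ω| ≤ 1 := by
    filter_upwards [Setting.m_abs_lt H] with ω hω using (hω root).le
  have hm2 : ∀ᵐ ω ∂P, |S.Pi (S.m root) ω| ≤ 1 :=
    ae_bdd_abs_condExp_of_ae_bdd_abs (m := S.G) hm1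
  filter_upwards [hm1, hm2] with ω h2 h3
  rw [abs_of_nonneg (sq_nonneg _)]
  have h4 : |S.dm root ω| ≤ 2 := by
    unfold dm
    refine (abs_sub _ _).trans ?_
    linarith
  have e : S.dm root ω ^ 2 = |S.dm root ω| ^ 2 := (sq_abs _).symm
  rw [e]
  have h5 := abs_nonneg (S.dm root ω)
  nlinarith

lemma sd_DK_measurable (α : ℝ) (k R : ℕ) : Measurable (DK θ α k (kids (root : Word d)) R) := by
  have : DK θ α k (kids (root : Word d)) R = Dn θ α k (R + 1) (root : Word d) := by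
    funext y; simp [DK, Dn]
  rw [this]; exact sd_measurable_Dn _ _ _ _

lemma sd_DK_scBd (H : S.Bds a B) (α : ℝ) (k R : ℕ) :
    ScBd P (fun ω => DK θ α k (kids (root : Word d)) R (S.y ω)) := by
  have h0 := H.h0
  have h1 := H.h1
  refine ⟨((sd_DK_measurable α k R).comp S.y_meas).aestronglyMeasurable,
    (1 + Real.exp α / (k : ℝ) * d) ^ (R + 1), ae_of_all _ fun ω => ?_⟩
  have e : DK θ α k (kids (root : Word d)) R (S.y ω) = Dn θ α k (R + 1) (root : Word d) (S.y ω) := by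
    simp [DK, Dn]
  rw [e, abs_of_nonneg (sd_Dn_nonneg h0.le h1 _ _ _ _)]
  exact sd_Dn_le h0.le h1 _ _ _ _

/-- The second part: the transported term. -/
lemma sd_termII (hd : 3 ≤ d) (C : Crit (d - 1) θ) (H : S.Bds a B) {α A1 Lam rbar : ℝ} (hα : 0 ≤ α)
    (R : ℕ) (hr0 : 0 < rbar) (hr : S.r ≤ rbar) (hA10 : 0 ≤ A1) (hlog : Real.log (4 / rbar) ≤ Lam)
    (hLam1 : 1 ≤ Lam)
    (hCC : ∀ᵐ ω ∂P, ∀ x : Word d, CCr θ x (S.y ω) ^ 2 ≤ θ ^ (2 * len x) * psiPath θ x (S.y ω))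
    (hexp : ∫ ω, Real.exp (2 * Lam * (DK θ α (d - 1) (kids root) R (S.y ω) - A1)) ∂P ≤ 1) :
    ∑ x ∈ (ball R : Finset (Word d)), ∫ ω, S.Pi (fun ω' => S.dm root ω' ^ 2) ω * S.CC x ω ^ 2 ∂P ≤
      rbar * (A1 + 2) := by
  have hdm := scBd_dm H (S := S) root
  have hdm2 := hdm.pow 2
  set A : Ω → ℝ := S.Pi (fun ω' => S.dm root ω' ^ 2) with hA
  have hAb : ScBd P A := hdm2.condExp S.G_le
  have hA0 : ∀ᵐ ω ∂P, 0 ≤ A ω := condExp_nonneg (ae_of_all _ fun ω => sq_nonneg _)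
  have hA4 : ∀ᵐ ω ∂P, A ω ≤ 4 := by
    have : ∀ᵐ ω ∂P, |A ω| ≤ 4 := ae_bdd_abs_condExp_of_ae_bdd_abs (m := S.G) (sd_dm_bd H)
    filter_upwards [this] with ω hω using (le_abs_self _).trans hω
  have hAE : ∫ ω, A ω ∂P ≤ rbar := by
    have e : ∫ ω, A ω ∂P = ∫ ω, S.dm root ω ^ 2 ∂P := integral_condExp S.G_le
    rw [e]; exact hr
  have hDb := sd_DK_scBd H (S := S) α (d - 1) R
  have hII := sd_exp_lemma hAb hDb hA0 hA4 hr0 hAE hA10 hlog hLam1 hexp
  have hC2 : ∀ x : Word d, ScBd P (fun ω => S.CC x ω ^ 2) := fun x => (scBd_CC H x).pow 2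
  refine le_trans ?_ hII
  rw [← integral_finsetSum _ fun x _ => (hAb.mul (hC2 x)).integrable]
  refine integral_mono_ae (ScBd.finset_sum _ fun x _ => hAb.mul (hC2 x)).integrable
    (hAb.mul hDb).integrable ?_
  filter_upwards [hCC, hA0] with ω h2 h3
  rw [← Finset.mul_sum]
  exact mul_le_mul_of_nonneg_left (sd_sum_le_DK hd C hα R (S.y ω) h2) h3

end Setting

lemma sd_log_four {rbar : ℝ} (hr0 : 0 < rbar) : Real.log (4 / rbar) ≤ 2 + Real.log (1 / rbar) := by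
  have e : (4 : ℝ) / rbar = 4 * (1 / rbar) := by ring
  rw [e, Real.log_mul (by norm_num) (by positivity)]
  have h4 : Real.log 4 ≤ 2 := by
    have : (4 : ℝ) = 2 ^ 2 := by norm_num
    rw [this, Real.log_pow]
    have := Real.log_two_lt_d9
    push_cast
    linarith
  linarith

lemma sd_final_arith {K1 K2 Cb T1 T2 T3 X1 X2 X3 E0 : ℝ} (hK1 : 0 ≤ K1) (hK2 : 0 ≤ K2) (hCb : 0 ≤ 4 * Cb + 2)
    (h1 : 0 ≤ T1) (h2 : 0 ≤ T2) (h3 : 0 ≤ T3) (h : E0 ≤ X1 + X2 + X3)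
    (hx1 : X1 ≤ K1 * T1 + K2 * T2) (hx3 : X2 + X3 ≤ T3 * (4 * Cb + 2)) (hX2 : X2 = 0) :
    E0 ≤ (K1 + K2 + (4 * Cb + 2)) * (T1 + T2 + T3) := by
  nlinarith [mul_nonneg hK1 h2, mul_nonneg hK1 h3, mul_nonneg hK2 h1, mul_nonneg hK2 h3,
    mul_nonneg hCb h1, mul_nonneg hCb h2]

open Setting in
/-- `static_SD`: uses the decorrelation of the errors along a path. Here `Q X ≥ 1`. -/
theorem static_SD_main (hd : 3 ≤ d) (C : Crit (d - 1) θ) (M C4 : ℝ) :
    ∃ K c : ℝ, 0 ≤ K ∧ 0 < c ∧ c ≤ 1 ∧ ∀ μ : Measure ℝ, Reg d (by omega) θ μ M C4 →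
      ∀ {Ω : Type} [MeasurableSpace Ω] {P : Measure Ω} [IsProbabilityMeasure P]
        (S : Setting d θ μ Ω P)
        (κ : ℝ), 0 ≤ κ → κ ≤ 1 / 2 → ∀ (R : ℕ) (rbar tb : ℝ) (i : Fin d), S.r ≤ rbar → 0 < rbar →
        rbar ≤ 1 → S.tau2 i ≤ tb → ∀ Q : ℕ, 1 ≤ Xv d (by omega) θ μ * Q →
        S.BBn κ R ≤ K * (tb * (Q : ℝ) ^ 2 + Real.exp (- (Q : ℝ) / 2) +
          κ ^ 2 * rbar * ((c * Xv d (by omega) θ μ)⁻¹ * Real.exp ((c * Xv d (by omega) θ μ) / 14 *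
            Real.log ((1 + Real.log (1 / rbar)) / (c * Xv d (by omega) θ μ))))) := by
  obtain ⟨a, B, hBds⟩ := exists_Bds.{0} (d := d) C M
  obtain ⟨K0, hK0, hpath⟩ := tempered_path hd C M
  obtain ⟨c5, hc5, hpeel⟩ := path_peel hd C C4 M
  obtain ⟨c, Cb, hc, hc1, hCb, hbranch⟩ := branch_exp hd C C4 M
  have hZ0 : 0 ≤ 1 + 1 / c5 := by positivity
  refine ⟨2 * (2 * Real.exp 1 * (2 + 3 * K0) * (1 + 1 / c5) ^ 2) +
    2 * (16 * B ^ 2 * (1 + 1 / c5) ^ 3 * (48 * Real.exp 1)) + (4 * Cb + 2), c, by positivity, hc, hc1, ?_⟩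
  intro μ hReg Ω _ P _ S κ hκ0 hκ1 R rbar tb i hr hr0 hr1 htau Q hXQ
  have H := hBds μ hReg.nish hReg.bd S
  have h0 := C.h0
  have h1 := C.h1
  have hX0 : 0 < Xv d (by omega) θ μ := hReg.pos
  have hX1 := sd_X_le_one hd h1 hReg
  have hε0 : 0 < c * Xv d (by omega) θ μ := by positivity
  have hε1 : c * Xv d (by omega) θ μ ≤ 1 := by nlinarith
  have hQ : 1 ≤ Q := by
    rcases Nat.eq_zero_or_pos Q with rfl | h
    · simp at hXQ
      linarith
    · exact h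
  have h_re : ∫ ω, S.re root (letter i) ω ^ 2 ∂P ≤ tb := (le_max_left _ _).trans htau
  have h_rv : ∫ ω, S.rv root ω ^ 2 ∂P ≤ tb := (le_max_right _ _).trans htau
  have htb : 0 ≤ tb := (integral_nonneg fun ω => sq_nonneg _).trans h_rv
  have hCCall := Setting.ae_law S (ae_CCr_sq_le (d := d) h0 h1 hReg.nish)
  have hI := sd_termI_sum (S := S) hd C H hK0 hc5 htb hQ R h_rv (fun x => by
      refine (hpath μ hReg.nish hReg.bd S (ch x) (len x) (nb_ch x) i).trans ?_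
      exact mul_le_mul_of_nonneg_left h_re (by positivity)) hCCall (fun x => by
      have e := Setting.int_law S ((sd_measurable_psiPath (θ := θ) x).pow_const Q)
      rw [e]
      have := hpeel μ hReg x Q hXQ
      rwa [neg_mul] at this)
  set ε : ℝ := c * Xv d (by omega) θ μ with hε
  have hl0 : 0 ≤ Real.log (1 / rbar) := Real.log_nonneg (by rw [le_div_iff₀ hr0]; linarith)
  have hLam1 : 1 ≤ 2 + Real.log (1 / rbar) := by linarith
  have hA10 : 0 ≤ Alev Cb ε (2 * (2 + Real.log (1 / rbar))) := by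
    unfold Alev
    positivity
  have hII := sd_termII (S := S) hd C H (α := ε / 24) (by positivity) R hr0 hr hA10 (sd_log_four hr0) hLam1
    hCCall (by
      have hF : Measurable (fun y => Real.exp (2 * (2 + Real.log (1 / rbar)) *
          (DK θ (ε / 24) (d - 1) (kids (root : Word d)) R y - Alev Cb ε (2 * (2 + Real.log (1 / rbar)))))) :=
        Real.measurable_exp.comp (measurable_const.mul ((sd_DK_measurable _ _ _).sub measurable_const))
      rw [Setting.int_law S hF]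
      exact hbranch μ hReg (2 * (2 + Real.log (1 / rbar))) (by linarith) root (kids root)
        (Finset.Subset.refl _) R)
  have hcmp : S.BBn κ R ≤ ∑ x ∈ (ball R : Finset (Word d)),
      (∫ ω, (S.Sx x ω ^ 2 + S.Pi (fun ω' => S.Sx x ω' ^ 2) ω) * S.CC x ω ^ 2 ∂P +
        κ ^ 2 * ∫ ω, S.Pi (fun ω' => S.dm root ω' ^ 2) ω * S.CC x ω ^ 2 ∂P) :=
    Finset.sum_le_sum fun x _ => compare H κ x
  rw [Finset.sum_add_distrib, ← Finset.mul_sum] at hcmp
  have hSDF := sd_SDF_compare hε0 hε1 hl0 hCb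
  set E : ℝ := ε⁻¹ * Real.exp (ε / 14 * Real.log ((1 + Real.log (1 / rbar)) / ε)) with hE
  have hE0 : 0 ≤ E := by positivity
  have hκ2 : 0 ≤ κ ^ 2 := sq_nonneg _
  have h7 : κ ^ 2 * ∑ x ∈ (ball R : Finset (Word d)), ∫ ω, S.Pi (fun ω' => S.dm root ω' ^ 2) ω * S.CC x ω ^ 2 ∂P ≤
      κ ^ 2 * rbar * E * (4 * Cb + 2) := by
    have h8 := hII.trans (mul_le_mul_of_nonneg_left hSDF hr0.le)
    have := mul_le_mul_of_nonneg_left h8 hκ2
    nlinarith
  exact sd_final_arith (K1 := 2 * (2 * Real.exp 1 * (2 + 3 * K0) * (1 + 1 / c5) ^ 2))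
    (K2 := 2 * (16 * B ^ 2 * (1 + 1 / c5) ^ 3 * (48 * Real.exp 1))) (by positivity) (by positivity)
    (by positivity) (T1 := tb * (Q : ℝ) ^ 2) (by positivity) (T2 := Real.exp (-(Q : ℝ) / 2)) (Real.exp_pos _).le
    (T3 := κ ^ 2 * rbar * E) (by positivity) (X2 := 0) (X3 := κ ^ 2 * ∑ x ∈ (ball R : Finset (Word d)), ∫ ω, S.Pi (fun ω' => S.dm root ω' ^ 2) ω * S.CC x ω ^ 2 ∂P)
    (by linarith) hI (by linarith) rfl

end Main

end Vale.Agent.Lib.P161B
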