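import Vale.Agent.Lib.P161B.StaticTauThm
import Vale.Agent.Lib.P161B.StaticSCAux
import Vale.Agent.Lib.P161B.StaticSD

/-!
The static theorems: the growth rate `BBn` is bounded in terms of `r`, at all scales (`static_SC`, mass
transport and branching sums) and, with the decorrelation gain, when `log (1 / r)` is not too large
(`static_SD`). The bound `static_tau` on the errors of the edge functions.
-/

namespace Vale.Agent.Lib.P161B

open MeasureTheory ProbabilityTheory Filter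
open Vale.Agent.Lib.P161

variable {d : ℕ} {θ : ℝ} {μ : Measure ℝ}

/-- The rate function of `static_SC`: `ε⁻³ exp((ε / 6) log((1 + l) / ε))`. -/
noncomputable def SCF (ε l : ℝ) : ℝ := ε⁻¹ ^ 3 * Real.exp (ε / 6 * Real.log ((1 + l) / ε))

/-- The rate of the last term of `static_SD`. -/
noncomputable def SDF (ε l : ℝ) : ℝ := ε⁻¹ * Real.exp (ε / 14 * Real.log ((1 + l) / ε))

/-- Elementary lemma: from exponential moments to weighted moments. -/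
theorem exp_lemma {Ω : Type*} [MeasurableSpace Ω] {P : Measure Ω} [IsProbabilityMeasure P]
    {A D : Ω → ℝ} (hA : Measurable A) (hD : Measurable D) {Amax a Lam A1 : ℝ} (hA0 : ∀ ω, 0 ≤ A ω)
    (hA1 : ∀ ω, A ω ≤ Amax) (hD0 : ∀ ω, 0 ≤ D ω) (ha : 0 < a) (hE : ∫ ω, A ω ∂P ≤ a)
    (hA10 : 0 ≤ A1) (hLam : Real.log (Amax / a) ≤ Lam) (hLam1 : 1 ≤ Lam)
    (hexp : ∫ ω, Real.exp (2 * Lam * (D ω - A1)) ∂P ≤ 1)
    (hint : Integrable (fun ω => Real.exp (2 * Lam * (D ω - A1))) P) :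
    ∫ ω, A ω * D ω ∂P ≤ a * (A1 + 2) ∧ ∫ ω, A ω * D ω ^ 2 ∂P ≤ a * (2 * A1 ^ 2 + 6) :=
  StaticTau_exp_lemma hA hA0 hA1 hD0 ha hE hA10 hLam hLam1 hexp hint

/-- The errors of the edge and vertex functions are bounded by the error of the magnetisation. -/
theorem static_tau (hd : 3 ≤ d) [Corr θ] (C : Crit (d - 1) θ) (M : ℝ) :
    ∃ K : ℝ, 0 ≤ K ∧ ∀ μ : Measure ℝ, Nish μ → (∀ᵐ h ∂μ, |h| ≤ M) →
      ∀ {Ω : Type} [MeasurableSpace Ω] {P : Measure Ω} [IsProbabilityMeasure P] (S : Setting d θ μ Ω P)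
        (i : Fin d) (a : ℝ), 0 < a → a ≤ 1 →
        S.tau2 i ≤ K * (a * S.r + (P {ω | a / 2 < S.m root ω ^ 2}).toReal / a) ∧ S.tau2 i ≤ K * S.r :=
  StaticTau_thm hd C M

/-- `static_SC`: valid at all scales of `r`. -/
theorem static_SC (hd : 3 ≤ d) [Corr θ] (C : Crit (d - 1) θ) (M C4 : ℝ) :
    ∃ K c : ℝ, 0 ≤ K ∧ 0 < c ∧ c ≤ 1 ∧ ∀ μ : Measure ℝ, Reg d (by omega) θ μ M C4 →
      ∀ {Ω : Type} [MeasurableSpace Ω] {P : Measure Ω} [IsProbabilityMeasure P] (S : Setting d θ μ Ω P)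
        (κ : ℝ), 0 ≤ κ → κ ≤ 1 / 2 → ∀ (R : ℕ) (rbar : ℝ), S.r ≤ rbar → 0 < rbar → rbar ≤ 1 →
        S.BBn κ R ≤ K * rbar * SCF (c * Xv d (by omega) θ μ) (Real.log (1 / rbar)) := by
  exact SCa_main_thm hd C M C4

/-- `static_SD`: uses the decorrelation of the errors along a path. Here `Q X ≥ 1`. -/
theorem static_SD (hd : 3 ≤ d) [Corr θ] (C : Crit (d - 1) θ) (M C4 : ℝ) :
    ∃ K c : ℝ, 0 ≤ K ∧ 0 < c ∧ c ≤ 1 ∧ ∀ μ : Measure ℝ, Reg d (by omega) θ μ M C4 →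
      ∀ {Ω : Type} [MeasurableSpace Ω] {P : Measure Ω} [IsProbabilityMeasure P] (S : Setting d θ μ Ω P)
        (κ : ℝ), 0 ≤ κ → κ ≤ 1 / 2 → ∀ (R : ℕ) (rbar tb : ℝ) (i : Fin d), S.r ≤ rbar → 0 < rbar → rbar ≤ 1 →
        S.tau2 i ≤ tb → ∀ Q : ℕ, 1 ≤ Xv d (by omega) θ μ * Q →
        S.BBn κ R ≤ K * (tb * (Q : ℝ) ^ 2 + Real.exp (- (Q : ℝ) / 2) +
          κ ^ 2 * rbar * SDF (c * Xv d (by omega) θ μ) (Real.log (1 / rbar))) := by
  simpa only [SDF] using static_SD_main hd C M C4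

end Vale.Agent.Lib.P161B
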