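import Mathlib

/-!
Abstract facts on conditional expectation of bounded functions: self adjointness, projection, the tangent
line forms of Jensen, and the comparison used in the static theorems.
-/

set_option linter.unusedSectionVars false
set_option linter.style.haveILetI false

namespace Vale.Agent.Lib.P161B

open MeasureTheory ProbabilityTheory Filter

section CE

variable {Ω : Type*} {mΩ : MeasurableSpace Ω} {P : Measure Ω} [IsProbabilityMeasure P]
  {G : MeasurableSpace Ω}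

/-- Bounded almost everywhere strongly measurable functions. -/
structure ScBd (P : Measure Ω) (f : Ω → ℝ) : Prop where
  sm : AEStronglyMeasurable f P
  bd : ∃ B : ℝ, ∀ᵐ ω ∂P, |f ω| ≤ B

namespace ScBd

variable {f g : Ω → ℝ}

lemma integrable (h : ScBd P f) : Integrable f P := by
  obtain ⟨B, hB⟩ := h.bd
  exact Integrable.of_bound h.sm B (hB.mono fun ω hω => by simpa [Real.norm_eq_abs] using hω)

lemma const (c : ℝ) : ScBd P (fun _ => c) :=
  ⟨aestronglyMeasurable_const, |c|, ae_of_all _ fun _ => le_rfl⟩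

lemma add (hf : ScBd P f) (hg : ScBd P g) : ScBd P (fun ω => f ω + g ω) := by
  obtain ⟨B, hB⟩ := hf.bd
  obtain ⟨B', hB'⟩ := hg.bd
  refine ⟨hf.sm.add hg.sm, B + B', ?_⟩
  filter_upwards [hB, hB'] with ω h1 h2
  exact (abs_add_le _ _).trans (add_le_add h1 h2)

lemma sub (hf : ScBd P f) (hg : ScBd P g) : ScBd P (fun ω => f ω - g ω) := by
  obtain ⟨B, hB⟩ := hf.bd
  obtain ⟨B', hB'⟩ := hg.bd
  refine ⟨hf.sm.sub hg.sm, B + B', ?_⟩
  filter_upwards [hB, hB'] with ω h1 h2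
  exact (abs_sub _ _).trans (add_le_add h1 h2)

lemma mul (hf : ScBd P f) (hg : ScBd P g) : ScBd P (fun ω => f ω * g ω) := by
  obtain ⟨B, hB⟩ := hf.bd
  obtain ⟨B', hB'⟩ := hg.bd
  refine ⟨hf.sm.mul hg.sm, |B| * |B'|, ?_⟩
  filter_upwards [hB, hB'] with ω h1 h2
  rw [abs_mul]
  exact mul_le_mul (h1.trans (le_abs_self _)) (h2.trans (le_abs_self _)) (abs_nonneg _) (abs_nonneg _)

lemma pow (hf : ScBd P f) (n : ℕ) : ScBd P (fun ω => f ω ^ n) := by
  induction n with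
  | zero => simpa using ScBd.const (P := P) (1 : ℝ)
  | succ n ih => simpa [pow_succ] using ih.mul hf

lemma exp (hf : ScBd P f) : ScBd P (fun ω => Real.exp (f ω)) := by
  obtain ⟨B, hB⟩ := hf.bd
  refine ⟨Real.continuous_exp.comp_aestronglyMeasurable hf.sm, Real.exp B, ?_⟩
  filter_upwards [hB] with ω h1
  rw [abs_of_pos (Real.exp_pos _)]
  exact Real.exp_le_exp.mpr ((le_abs_self _).trans h1)

lemma congr (hf : ScBd P f) (h : f =ᵐ[P] g) : ScBd P g := by
  obtain ⟨B, hB⟩ := hf.bd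
  refine ⟨hf.sm.congr h, B, ?_⟩
  filter_upwards [hB, h] with ω h1 h2
  rw [← h2]; exact h1

lemma condExp (hG : G ≤ mΩ) (hf : ScBd P f) : ScBd P (P[f|G]) := by
  obtain ⟨B, hB⟩ := hf.bd
  exact ⟨(stronglyMeasurable_condExp.mono hG).aestronglyMeasurable, B,
    ae_bdd_abs_condExp_of_ae_bdd_abs (m := G) hB⟩

lemma finset_sum {ι : Type*} (s : Finset ι) {F : ι → Ω → ℝ} (h : ∀ i ∈ s, ScBd P (F i)) :
    ScBd P (fun ω => ∑ i ∈ s, F i ω) := by
  classical
  induction s using Finset.induction_on with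
  | empty => simpa using ScBd.const (P := P) (0 : ℝ)
  | insert a s ha ih =>
    have h1 := h a (Finset.mem_insert_self a s)
    have h2 := ih (fun i hi => h i (Finset.mem_insert_of_mem hi))
    have := h1.add h2
    refine this.congr (ae_of_all _ fun ω => ?_)
    simp [Finset.sum_insert ha]

end ScBd

/-- Pull out in an integral. -/
lemma sc_integral_pull (hG : G ≤ mΩ) {W f : Ω → ℝ} (hW : StronglyMeasurable[G] W) (hWb : ScBd P W)
    (hf : ScBd P f) : ∫ ω, W ω * f ω ∂P = ∫ ω, W ω * (P[f|G]) ω ∂P := by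
  haveI : SigmaFinite (P.trim hG) := inferInstance
  have h1 : ∫ ω, (P[W * f|G]) ω ∂P = ∫ ω, (W * f) ω ∂P := integral_condExp hG
  have h2 : P[W * f|G] =ᵐ[P] W * P[f|G] :=
    condExp_mul_of_stronglyMeasurable_left hW (hWb.mul hf).integrable hf.integrable
  calc ∫ ω, W ω * f ω ∂P = ∫ ω, (P[W * f|G]) ω ∂P := h1.symm
    _ = ∫ ω, (W * P[f|G]) ω ∂P := integral_congr_ae h2
    _ = ∫ ω, W ω * (P[f|G]) ω ∂P := rfl

/-- Self adjointness. -/
lemma sc_integral_adj (hG : G ≤ mΩ) {f g : Ω → ℝ} (hf : ScBd P f) (hg : ScBd P g) :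
    ∫ ω, f ω * (P[g|G]) ω ∂P = ∫ ω, (P[f|G]) ω * g ω ∂P := by
  have hgc := hg.condExp hG
  have hfc := hf.condExp hG
  have h1 := sc_integral_pull (P := P) hG (W := P[g|G]) (f := f) stronglyMeasurable_condExp hgc hf
  have h2 := sc_integral_pull (P := P) hG (W := P[f|G]) (f := g) stronglyMeasurable_condExp hfc hg
  calc ∫ ω, f ω * (P[g|G]) ω ∂P = ∫ ω, (P[g|G]) ω * f ω ∂P := by simp_rw [mul_comm]
    _ = ∫ ω, (P[g|G]) ω * (P[f|G]) ω ∂P := h1
    _ = ∫ ω, (P[f|G]) ω * (P[g|G]) ω ∂P := by simp_rw [mul_comm]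
    _ = ∫ ω, (P[f|G]) ω * g ω ∂P := h2.symm

/-- Projection: the conditional expectation is the best approximation in `L²`. -/
lemma sc_proj (hG : G ≤ mΩ) {f Z : Ω → ℝ} (hf : ScBd P f) (hZ : StronglyMeasurable[G] Z)
    (hZb : ScBd P Z) : ∫ ω, (f ω - (P[f|G]) ω) ^ 2 ∂P ≤ ∫ ω, (f ω - Z ω) ^ 2 ∂P := by
  have hfc := hf.condExp hG
  set W : Ω → ℝ := fun ω => (P[f|G]) ω - Z ω with hWdef
  have hWm : StronglyMeasurable[G] W := stronglyMeasurable_condExp.sub hZ
  have hWb : ScBd P W := hfc.sub hZb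
  have hcross : ∫ ω, W ω * (f ω - (P[f|G]) ω) ∂P = 0 := by
    have h1 := sc_integral_pull (P := P) hG hWm hWb hf
    have e : ∫ ω, W ω * (f ω - (P[f|G]) ω) ∂P =
        ∫ ω, W ω * f ω ∂P - ∫ ω, W ω * (P[f|G]) ω ∂P := by
      rw [← integral_sub (hWb.mul hf).integrable (hWb.mul hfc).integrable]
      exact integral_congr_ae (ae_of_all _ fun ω => by ring)
    rw [e, h1, sub_self]
  have hexp : ∀ ω, (f ω - Z ω) ^ 2 =
      (f ω - (P[f|G]) ω) ^ 2 + W ω ^ 2 + 2 * (W ω * (f ω - (P[f|G]) ω)) := by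
    intro ω; simp only [hWdef]; ring
  have i1 : Integrable (fun ω => (f ω - (P[f|G]) ω) ^ 2) P := ((hf.sub hfc).pow 2).integrable
  have i2 : Integrable (fun ω => W ω ^ 2) P := (hWb.pow 2).integrable
  have i3 : Integrable (fun ω => 2 * (W ω * (f ω - (P[f|G]) ω))) P :=
    ((ScBd.const (P := P) 2).mul (hWb.mul (hf.sub hfc))).integrable
  have i12 : Integrable (fun ω => (f ω - (P[f|G]) ω) ^ 2 + W ω ^ 2) P := i1.add i2
  have e : ∫ ω, (f ω - Z ω) ^ 2 ∂P = ∫ ω, (f ω - (P[f|G]) ω) ^ 2 ∂P + ∫ ω, W ω ^ 2 ∂P +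
      ∫ ω, 2 * (W ω * (f ω - (P[f|G]) ω)) ∂P := by
    rw [← integral_add i1 i2, ← integral_add i12 i3]
    exact integral_congr_ae (ae_of_all _ fun ω => hexp ω)
  rw [e, integral_const_mul, hcross]
  have : 0 ≤ ∫ ω, W ω ^ 2 ∂P := integral_nonneg fun ω => sq_nonneg _
  linarith

/-- Tangent line form of Jensen for the exponential. -/
lemma sc_exp_condExp_le (hG : G ≤ mΩ) {L : Ω → ℝ} (hL : ScBd P L) :
    (fun ω => Real.exp ((P[L|G]) ω)) ≤ᵐ[P] P[fun ω => Real.exp (L ω)|G] := by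
  have hLc := hL.condExp hG
  set E : Ω → ℝ := fun ω => Real.exp ((P[L|G]) ω) with hE
  have hEm : StronglyMeasurable[G] E := Real.continuous_exp.comp_stronglyMeasurable stronglyMeasurable_condExp
  have hEb : ScBd P E := hLc.exp
  set T : Ω → ℝ := fun ω => 1 + (L ω - (P[L|G]) ω) with hT
  have hTb : ScBd P T := (ScBd.const 1).add (hL.sub hLc)
  have hpt : ∀ ω, E ω * T ω ≤ Real.exp (L ω) := by
    intro ω
    have h := Real.add_one_le_exp (L ω - (P[L|G]) ω)
    have h2 : Real.exp (L ω) = E ω * Real.exp (L ω - (P[L|G]) ω) := by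
      simp only [hE]
      rw [← Real.exp_add]; congr 1; ring
    rw [h2]
    have hE0 : 0 ≤ E ω := (Real.exp_pos _).le
    apply mul_le_mul_of_nonneg_left _ hE0
    simp only [hT]; linarith
  have hmono := condExp_mono (m := G) (hEb.mul hTb).integrable hL.exp.integrable (ae_of_all _ hpt)
  have hpull : P[(E * T)|G] =ᵐ[P] E * P[T|G] :=
    condExp_mul_of_stronglyMeasurable_left hEm (hEb.mul hTb).integrable hTb.integrable
  have hT1 : P[T|G] =ᵐ[P] fun _ => 1 := by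
    have h1 : P[T|G] =ᵐ[P] P[fun _ => (1:ℝ)|G] + P[fun ω => L ω - (P[L|G]) ω|G] :=
      condExp_add (integrable_const _) (hL.sub hLc).integrable G
    have h2 : P[fun _ => (1:ℝ)|G] = fun _ => 1 := condExp_const hG 1
    have h3 : P[fun ω => L ω - (P[L|G]) ω|G] =ᵐ[P] P[L|G] - P[P[L|G]|G] :=
      condExp_sub hL.integrable hLc.integrable G
    have h4 : P[P[L|G]|G] = P[L|G] :=
      condExp_of_stronglyMeasurable hG stronglyMeasurable_condExp integrable_condExp
    filter_upwards [h1, h3] with ω h1' h3'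
    rw [h1', Pi.add_apply, h3', h2, Pi.sub_apply, h4]
    simp
  filter_upwards [hmono, hpull, hT1] with ω h1 h2 h3
  have h5 : (P[(fun ω => E ω * T ω)|G]) ω = E ω := by
    have : (fun ω => E ω * T ω) = E * T := rfl
    rw [this, h2, Pi.mul_apply, h3, mul_one]
  rw [← h5]
  exact h1

/-- Tangent line form of Jensen for the square. -/
lemma sc_sq_condExp_le (hG : G ≤ mΩ) {f : Ω → ℝ} (hf : ScBd P f) :
    (fun ω => (P[f|G]) ω ^ 2) ≤ᵐ[P] P[fun ω => f ω ^ 2|G] := by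
  have hfc := hf.condExp hG
  set E : Ω → ℝ := P[f|G] with hE
  have hEm : StronglyMeasurable[G] E := stronglyMeasurable_condExp
  set T : Ω → ℝ := fun ω => 2 * f ω - E ω with hT
  have hTb : ScBd P T := ((ScBd.const 2).mul hf).sub hfc
  have hpt : ∀ ω, E ω * T ω ≤ f ω ^ 2 := by
    intro ω; simp only [hT]; nlinarith [sq_nonneg (f ω - E ω)]
  have hmono := condExp_mono (m := G) (hfc.mul hTb).integrable (hf.pow 2).integrable (ae_of_all _ hpt)
  have hpull : P[(E * T)|G] =ᵐ[P] E * P[T|G] :=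
    condExp_mul_of_stronglyMeasurable_left hEm (hfc.mul hTb).integrable hTb.integrable
  have hT1 : P[T|G] =ᵐ[P] E := by
    have h3 : P[fun ω => 2 * f ω - E ω|G] =ᵐ[P] P[fun ω => 2 * f ω|G] - P[E|G] :=
      condExp_sub ((ScBd.const 2).mul hf).integrable hfc.integrable G
    have h4 : P[E|G] = E :=
      condExp_of_stronglyMeasurable hG stronglyMeasurable_condExp integrable_condExp
    have h5 : P[fun ω => 2 * f ω|G] =ᵐ[P] fun ω => 2 * E ω := by
      have := condExp_smul (m := G) (μ := P) (2:ℝ) f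
      have e : (fun ω => 2 * f ω) = (2:ℝ) • f := by ext ω; simp [smul_eq_mul]
      rw [e]
      filter_upwards [this] with ω hω
      simpa [smul_eq_mul] using hω
    filter_upwards [h3, h5] with ω h3' h5'
    simp only [hT] at *
    rw [h3', Pi.sub_apply, h5', h4]
    ring
  filter_upwards [hmono, hpull, hT1] with ω h1 h2 h3
  have h5 : (P[(fun ω => E ω * T ω)|G]) ω = E ω ^ 2 := by
    have : (fun ω => E ω * T ω) = E * T := rfl
    rw [this, h2, Pi.mul_apply, h3]; ring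
  rw [← h5]
  exact h1

/-- `(e^a - e^b)² ≤ (a - b)² (e^(2a) + e^(2b))`. -/
lemma sc_exp_sub_sq (a b : ℝ) :
    (Real.exp a - Real.exp b) ^ 2 ≤ (a - b) ^ 2 * (Real.exp (2 * a) + Real.exp (2 * b)) := by
  have key : ∀ u v : ℝ, u ≤ v → (Real.exp v - Real.exp u) ^ 2 ≤ (v - u) ^ 2 * Real.exp (2 * v) := by
    intro u v huv
    have h1 : Real.exp v - Real.exp u ≤ (v - u) * Real.exp v := by
      have h := Real.add_one_le_exp (u - v)
      have h2 : Real.exp u = Real.exp v * Real.exp (u - v) := by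
        rw [← Real.exp_add]; congr 1; ring
      rw [h2]
      have hE := Real.exp_pos v
      nlinarith
    have h0 : 0 ≤ Real.exp v - Real.exp u := sub_nonneg.mpr (Real.exp_le_exp.mpr huv)
    have h3 : Real.exp (2 * v) = Real.exp v ^ 2 := by
      rw [two_mul, Real.exp_add]; ring
    rw [h3]
    calc (Real.exp v - Real.exp u) ^ 2 ≤ ((v - u) * Real.exp v) ^ 2 := by gcongr
      _ = (v - u) ^ 2 * Real.exp v ^ 2 := by ring
  rcases le_total a b with h | h
  · have := key a b h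
    have e1 : (Real.exp a - Real.exp b) ^ 2 = (Real.exp b - Real.exp a) ^ 2 := by ring
    have e2 : (a - b) ^ 2 = (b - a) ^ 2 := by ring
    rw [e1, e2]
    have h3 : 0 ≤ (b - a) ^ 2 * Real.exp (2 * a) := by positivity
    nlinarith
  · have := key b a h
    have h3 : 0 ≤ (a - b) ^ 2 * Real.exp (2 * b) := by positivity
    nlinarith

/-- The comparison inequality: `C = exp L`, `S = L - Π L`, `W ≥ 0`. -/
theorem sc_compare (hG : G ≤ mΩ) {L W C : Ω → ℝ} (hL : ScBd P L) (hW : ScBd P W) (hW0 : ∀ᵐ ω ∂P, 0 ≤ W ω)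
    (hC : C =ᵐ[P] fun ω => Real.exp (L ω)) :
    ∫ ω, ((C ω - (P[C|G]) ω) ^ 2 + W ω * (P[C|G]) ω ^ 2) ∂P ≤
      ∫ ω, ((L ω - (P[L|G]) ω) ^ 2 + (P[fun ω' => (L ω' - (P[L|G]) ω') ^ 2|G]) ω +
        (P[W|G]) ω) * C ω ^ 2 ∂P := by
  have hLc := hL.condExp hG
  have hCb : ScBd P C := hL.exp.congr hC.symm
  have hCc := hCb.condExp hG
  set S : Ω → ℝ := fun ω => L ω - (P[L|G]) ω with hS
  have hSb : ScBd P S := hL.sub hLc
  have hS2 : ScBd P (fun ω => S ω ^ 2) := hSb.pow 2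
  have hC2 : ScBd P (fun ω => C ω ^ 2) := hCb.pow 2
  have hWc := hW.condExp hG
  have hS2c := hS2.condExp hG
  set Z : Ω → ℝ := fun ω => Real.exp ((P[L|G]) ω) with hZ
  have hZm : StronglyMeasurable[G] Z := Real.continuous_exp.comp_stronglyMeasurable stronglyMeasurable_condExp
  have hZb : ScBd P Z := hLc.exp
  have hC2eq : (fun ω => C ω ^ 2) =ᵐ[P] fun ω => Real.exp (2 * L ω) := by
    filter_upwards [hC] with ω hω
    rw [hω, two_mul, Real.exp_add]; ring
  have hC2c : P[fun ω => C ω ^ 2|G] =ᵐ[P] P[fun ω => Real.exp (2 * L ω)|G] := condExp_congr_ae hC2eq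
  -- Jensen for the exponential
  have hJ1 : ∀ᵐ ω ∂P, Z ω ^ 2 ≤ (P[fun ω => C ω ^ 2|G]) ω := by
    have hL2 : ScBd P (fun ω => 2 * L ω) := (ScBd.const 2).mul hL
    have h1 := sc_exp_condExp_le hG hL2
    have h2 : P[fun ω => 2 * L ω|G] =ᵐ[P] fun ω => 2 * (P[L|G]) ω := by
      have := condExp_smul (m := G) (μ := P) (2:ℝ) L
      have e : (fun ω => 2 * L ω) = (2:ℝ) • L := by ext ω; simp [smul_eq_mul]
      rw [e]
      filter_upwards [this] with ω hω
      simpa [smul_eq_mul] using hω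
    filter_upwards [h1, h2, hC2c] with ω h1' h2' h3'
    rw [h3']
    rw [h2'] at h1'
    have : Z ω ^ 2 = Real.exp (2 * (P[L|G]) ω) := by
      simp only [hZ]; rw [two_mul, Real.exp_add]; ring
    rw [this]; exact h1'
  -- Jensen for the square
  have hJ2 := sc_sq_condExp_le hG hCb
  -- first term
  have hA : ∫ ω, (C ω - (P[C|G]) ω) ^ 2 ∂P ≤ ∫ ω, S ω ^ 2 * C ω ^ 2 ∂P + ∫ ω, S ω ^ 2 * Z ω ^ 2 ∂P := by
    refine (sc_proj hG hCb hZm hZb).trans ?_
    rw [← integral_add (hS2.mul hC2).integrable (hS2.mul (hZb.pow 2)).integrable]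
    refine integral_mono_ae ((hCb.sub hZb).pow 2).integrable
      ((hS2.mul hC2).add (hS2.mul (hZb.pow 2))).integrable ?_
    filter_upwards [hC] with ω hω
    have h := sc_exp_sub_sq (L ω) ((P[L|G]) ω)
    have e1 : Real.exp (2 * L ω) = C ω ^ 2 := by rw [hω, two_mul, Real.exp_add]; ring
    have e2 : Real.exp (2 * (P[L|G]) ω) = Z ω ^ 2 := by
      simp only [hZ]; rw [two_mul, Real.exp_add]; ring
    rw [e1, e2] at h
    show (C ω - Z ω) ^ 2 ≤ S ω ^ 2 * C ω ^ 2 + S ω ^ 2 * Z ω ^ 2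
    rw [hω]
    simp only [hS]
    have e3 : Z ω = Real.exp ((P[L|G]) ω) := rfl
    rw [e3] at *
    rw [hω] at h
    nlinarith
  have hB : ∫ ω, S ω ^ 2 * Z ω ^ 2 ∂P ≤ ∫ ω, (P[fun ω => S ω ^ 2|G]) ω * C ω ^ 2 ∂P := by
    rw [← sc_integral_adj hG hS2 hC2]
    refine integral_mono_ae (hS2.mul (hZb.pow 2)).integrable (hS2.mul (hC2.condExp hG)).integrable ?_
    filter_upwards [hJ1] with ω h1
    exact mul_le_mul_of_nonneg_left h1 (sq_nonneg _)
  have hD : ∫ ω, W ω * (P[C|G]) ω ^ 2 ∂P ≤ ∫ ω, (P[W|G]) ω * C ω ^ 2 ∂P := by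
    rw [← sc_integral_adj hG hW hC2]
    refine integral_mono_ae (hW.mul (hCc.pow 2)).integrable (hW.mul (hC2.condExp hG)).integrable ?_
    filter_upwards [hJ2, hW0] with ω h1 h0
    exact mul_le_mul_of_nonneg_left h1 h0
  have e : ∫ ω, ((C ω - (P[C|G]) ω) ^ 2 + W ω * (P[C|G]) ω ^ 2) ∂P =
      ∫ ω, (C ω - (P[C|G]) ω) ^ 2 ∂P + ∫ ω, W ω * (P[C|G]) ω ^ 2 ∂P :=
    integral_add ((hCb.sub hCc).pow 2).integrable (hW.mul (hCc.pow 2)).integrable
  have e2 : ∫ ω, (S ω ^ 2 + (P[fun ω' => S ω' ^ 2|G]) ω + (P[W|G]) ω) * C ω ^ 2 ∂P =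
      ∫ ω, S ω ^ 2 * C ω ^ 2 ∂P + ∫ ω, (P[fun ω' => S ω' ^ 2|G]) ω * C ω ^ 2 ∂P +
        ∫ ω, (P[W|G]) ω * C ω ^ 2 ∂P := by
    rw [← integral_add (hS2.mul hC2).integrable (hS2c.mul hC2).integrable,
      ← integral_add ((hS2.mul hC2).add (hS2c.mul hC2)).integrable (hWc.mul hC2).integrable]
    exact integral_congr_ae (ae_of_all _ fun ω => by ring)
  rw [e, e2]
  linarith

end CE

end Vale.Agent.Lib.P161B
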