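import Vale.Agent.Lib.P161B.Temper
import Vale.Agent.Lib.P161B.StaticCE

/-!
The comparison inequality of the static theorems: the growth rate `BBn` at `x` is bounded by the weighted
norm of the error `S_x = L_x - Π L_x` of the logarithm of the covariance, plus the mass transported term.
-/

set_option linter.unusedSectionVars false

namespace Vale.Agent.Lib.P161B

open MeasureTheory ProbabilityTheory Filter
open Vale.Agent.Lib.P161

variable {d : ℕ} {θ : ℝ} {μ : Measure ℝ} [Corr θ]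

/-- The observed field of the law `LawY` is bounded. -/
lemma scm_LawY_bd [IsProbabilityMeasure μ] {M : ℝ} (hM : ∀ᵐ h ∂μ, |h| ≤ M) :
    ∀ᵐ y ∂(LawY d θ μ), ∀ v, |y v| ≤ M := by
  have hyC : Measurable (yC : Cn d → Word d → ℝ) := by
    refine measurable_pi_iff.mpr fun x => ?_
    unfold yC
    have h1 : Measurable (fun ω : Cn d => sgC ω x) := by
      unfold sgC
      have h2 : Measurable (fun ω : Cn d => fun v => (ω v).1) :=
        measurable_pi_iff.mpr fun v => measurable_fst.comp (measurable_pi_apply v)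
      exact (measurable_tau_coord x).comp h2
    have h3 : Measurable (fun ω : Cn d => (ω x).2) := measurable_snd.comp (measurable_pi_apply x)
    exact (slf_measurable_sp.comp h1).mul h3
  unfold LawY
  have hset : MeasurableSet {y : Word d → ℝ | ∀ v, |y v| ≤ M} := by
    have : {y : Word d → ℝ | ∀ v, |y v| ≤ M} = ⋂ v, {y | |y v| ≤ M} := by
      ext y; simp
    rw [this]
    exact MeasurableSet.iInter fun v =>
      measurableSet_le ((measurable_pi_apply v).abs) measurable_const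
  rw [ae_map_iff hyC.aemeasurable hset]
  rw [ae_all_iff]
  intro v
  have h1 : (cnP d θ μ).map (fun ω : Cn d => ω v) = (mrg θ v).prod μ :=
    (measurePreserving_eval_infinitePi (fun x : Word d => (mrg θ x).prod μ) v).map_eq
  have h2 : ∀ᵐ p ∂((mrg θ v).prod μ), |p.2| ≤ M := by
    have h3 : ((mrg θ v).prod μ).map Prod.snd = μ := by
      rw [Measure.map_snd_prod, measure_univ, one_smul]
    rw [← h3] at hM
    exact ae_of_ae_map measurable_snd.aemeasurable hM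
  rw [← h1] at h2
  have h4 := ae_of_ae_map (measurable_pi_apply v).aemeasurable h2
  filter_upwards [h4] with ω hω
  unfold yC
  rw [abs_mul, abs_sp, one_mul]
  exact hω

namespace Setting

variable [Corr θ] {Ω : Type*} [mΩ : MeasurableSpace Ω] {P : Measure Ω} [IsProbabilityMeasure P]
  (S : Setting d θ μ Ω P)

/-- Uniform bounds available in the static setting. -/
structure Bds (S : Setting d θ μ Ω P) (a B : ℝ) : Prop where
  h0 : 0 < θ
  h1 : θ < 1
  ha : a < 1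
  hB : 0 ≤ B
  m_bd : ∀ᵐ ω ∂P, ∀ v, |S.m v ω| ≤ a
  hPe : ∀ m₁ m₂ : ℝ, |m₁| ≤ a → |m₂| ≤ a → |PsiE θ m₁ m₂| ≤ B
  hPv : ∀ m : ℝ, |m| ≤ a → |LogV m| ≤ B

variable {S} {a B : ℝ}

lemma m_abs_lt (H : S.Bds a B) : ∀ᵐ ω ∂P, ∀ v, |S.m v ω| < 1 := by
  filter_upwards [H.m_bd] with ω hω v
  exact (hω v).trans_lt H.ha

lemma scBd_m (H : S.Bds a B) (v : Word d) : ScBd P (S.m v) := by
  refine ⟨((measurable_mm θ v).comp S.y_meas).aestronglyMeasurable, a, ?_⟩
  filter_upwards [H.m_bd] with ω hω using hω v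

lemma scBd_Pv (H : S.Bds a B) (v : Word d) : ScBd P (fun ω => Pv θ v (S.y ω)) := by
  have hm : Measurable (fun ω => mm θ v (S.y ω)) := (measurable_mm θ v).comp S.y_meas
  refine ⟨?_, B, ?_⟩
  · have : Measurable (fun ω => Pv θ v (S.y ω)) := by
      unfold Pv LogV
      exact Real.measurable_log.comp ((measurable_const.sub (hm.pow_const 2)))
    exact this.aestronglyMeasurable
  · filter_upwards [H.m_bd] with ω hω using H.hPv _ (hω v)

lemma scBd_Pe (H : S.Bds a B) (u v : Word d) : ScBd P (fun ω => Pe θ u v (S.y ω)) := by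
  have hm : ∀ w, Measurable (fun ω => mm θ w (S.y ω)) := fun w => (measurable_mm θ w).comp S.y_meas
  refine ⟨?_, B, ?_⟩
  · have : Measurable (fun ω => Pe θ u v (S.y ω)) :=
      (measurable_PsiE (θ := θ)).comp ((hm u).prodMk (hm v))
    exact this.aestronglyMeasurable
  · filter_upwards [H.m_bd] with ω hω using H.hPe _ _ (hω u) (hω v)

/-- The logarithm of the covariance with the root. -/
noncomputable def Lx (S : Setting d θ μ Ω P) (x : Word d) (ω : Ω) : ℝ :=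
  (1 / 2) * Pv θ root (S.y ω) + (1 / 2) * Pv θ x (S.y ω) +
    ∑ i ∈ Finset.range (len x), Pe θ (ch x i) (ch x (i + 1)) (S.y ω)

/-- The error in `Lx`. -/
noncomputable def Sx (S : Setting d θ μ Ω P) (x : Word d) (ω : Ω) : ℝ :=
  S.Lx x ω - S.Pi (S.Lx x) ω

lemma scBd_Lx (H : S.Bds a B) (x : Word d) : ScBd P (S.Lx x) := by
  unfold Lx
  exact (((ScBd.const _).mul (scBd_Pv H _)).add ((ScBd.const _).mul (scBd_Pv H _))).add
    (ScBd.finset_sum _ fun i _ => scBd_Pe H _ _)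

lemma Lx_abs_le (H : S.Bds a B) (x : Word d) : ∀ᵐ ω ∂P, |S.Lx x ω| ≤ (len x + 1) * B := by
  filter_upwards [H.m_bd] with ω hω
  have h1 : |Pv θ root (S.y ω)| ≤ B := H.hPv _ (hω root)
  have h2 : |Pv θ x (S.y ω)| ≤ B := H.hPv _ (hω x)
  have h3 : |∑ i ∈ Finset.range (len x), Pe θ (ch x i) (ch x (i + 1)) (S.y ω)| ≤ len x * B := by
    refine (Finset.abs_sum_le_sum_abs _ _).trans ?_
    refine (Finset.sum_le_card_nsmul _ _ B fun i _ => H.hPe _ _ (hω _) (hω _)).trans ?_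
    simp
  unfold Lx
  have hab1 := abs_le.mp h1
  have hab2 := abs_le.mp h2
  have hab3 := abs_le.mp h3
  rw [abs_le]
  constructor <;> nlinarith [hab1.1, hab1.2, hab2.1, hab2.2, hab3.1, hab3.2]

lemma CC_eq_exp (H : S.Bds a B) (x : Word d) : S.CC x =ᵐ[P] fun ω => Real.exp (S.Lx x ω) := by
  filter_upwards [m_abs_lt H] with ω hω
  unfold CC CCr Lx Pv Pe LogV PsiE
  have h1 := H.h0
  have h2 := H.h1
  have hm : ∀ v, |mm θ v (S.y ω)| < 1 := hω
  have hv : ∀ v, 0 < 1 - mm θ v (S.y ω) ^ 2 := fun v => by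
    have := Edge_sq_lt_one (hm v); linarith
  rw [Real.exp_add, Real.exp_add, Real.exp_sum]
  congr 1
  · rw [Real.sqrt_mul (hv _).le, Real.sqrt_eq_rpow, Real.sqrt_eq_rpow,
      Real.rpow_def_of_pos (hv _), Real.rpow_def_of_pos (hv _)]
    ring_nf
  · refine Finset.prod_congr rfl fun i _ => ?_
    rw [Real.exp_log (Rho_pos h1 h2 (hm _) (hm _))]

/-- The bound for `Sx`. -/
lemma Sx_abs_le (H : S.Bds a B) (x : Word d) : ∀ᵐ ω ∂P, |S.Sx x ω| ≤ 2 * ((len x + 1) * B) := by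
  have h1 := Lx_abs_le H x
  have hnn : 0 ≤ ((len x : ℝ) + 1) * B := mul_nonneg (by positivity) H.hB
  have h2 : ∀ᵐ ω ∂P, |S.Pi (S.Lx x) ω| ≤ ((len x : ℝ) + 1) * B :=
    ae_bdd_abs_condExp_of_ae_bdd_abs (m := S.G) h1
  filter_upwards [h1, h2] with ω h3 h4
  unfold Sx
  refine (abs_sub _ _).trans ?_
  linarith

lemma scBd_Sx (H : S.Bds a B) (x : Word d) : ScBd P (S.Sx x) :=
  (scBd_Lx H x).sub ((scBd_Lx H x).condExp S.G_le)

/-- The error of `Lx` as a sum of the errors of the vertex and edge functions. -/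
lemma Sx_eq (H : S.Bds a B) (x : Word d) :
    S.Sx x =ᵐ[P] fun ω => (1 / 2) * S.rv root ω + (1 / 2) * S.rv x ω +
      ∑ i ∈ Finset.range (len x), S.re (ch x i) (ch x (i + 1)) ω := by
  have hv := fun v => scBd_Pv (S := S) H v
  have he := fun u v => scBd_Pe (S := S) H u v
  have h1 : P[S.Lx x|S.G] =ᵐ[P] fun ω =>
      (1 / 2) * (P[fun ω' => Pv θ root (S.y ω')|S.G]) ω +
        (1 / 2) * (P[fun ω' => Pv θ x (S.y ω')|S.G]) ω +
        ∑ i ∈ Finset.range (len x), (P[fun ω' => Pe θ (ch x i) (ch x (i + 1)) (S.y ω')|S.G]) ω := by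
    have e1 : S.Lx x = ((1 / 2 : ℝ) • (fun ω' => Pv θ root (S.y ω')) +
        (1 / 2 : ℝ) • (fun ω' => Pv θ x (S.y ω'))) +
        ∑ i ∈ Finset.range (len x), (fun ω' => Pe θ (ch x i) (ch x (i + 1)) (S.y ω')) := by
      funext ω
      simp [Lx, Finset.sum_apply]
    rw [e1]
    have i1 : Integrable ((1 / 2 : ℝ) • (fun ω' => Pv θ root (S.y ω'))) P := (hv root).integrable.smul _
    have i2 : Integrable ((1 / 2 : ℝ) • (fun ω' => Pv θ x (S.y ω'))) P := (hv x).integrable.smul _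
    have i3 : Integrable (∑ i ∈ Finset.range (len x),
        (fun ω' => Pe θ (ch x i) (ch x (i + 1)) (S.y ω'))) P :=
      integrable_finsetSum' _ fun i _ => (he _ _).integrable
    have s1 := condExp_add (i1.add i2) i3 S.G
    have s2 := condExp_add i1 i2 S.G
    have s3 := condExp_smul (m := S.G) (μ := P) (1 / 2 : ℝ) (fun ω' => Pv θ root (S.y ω'))
    have s4 := condExp_smul (m := S.G) (μ := P) (1 / 2 : ℝ) (fun ω' => Pv θ x (S.y ω'))
    have s5 := condExp_finsetSum (s := Finset.range (len x))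
      (f := fun i => (fun ω' => Pe θ (ch x i) (ch x (i + 1)) (S.y ω')))
      (fun i _ => (he _ _).integrable) S.G
    filter_upwards [s1, s2, s3, s4, s5] with ω h1 h2 h3 h4 h5
    rw [h1, Pi.add_apply, h2, Pi.add_apply, h3, h4, h5]
    simp [Finset.sum_apply]
  filter_upwards [h1] with ω hω
  unfold Sx Pi
  rw [hω]
  simp only [rv, re, Pi, Lx, Finset.sum_sub_distrib]
  ring

/-! ### Invariance -/

lemma integral_comp_a (S : Setting d θ μ Ω P) (g : Aut d) {f : Ω → ℝ} (hf : AEStronglyMeasurable f P) :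
    ∫ ω, f (S.a g ω) ∂P = ∫ ω, f ω ∂P := by
  have hm := (S.a_mp g).map_eq
  have := integral_map (μ := P) (f := f) (S.a_mp g).measurable.aemeasurable (by rwa [hm])
  rw [hm] at this
  exact this.symm

lemma ae_comp_a (S : Setting d θ μ Ω P) (g : Aut d) {f f' : Ω → ℝ} (h : f =ᵐ[P] f') :
    f ∘ S.a g =ᵐ[P] f' ∘ S.a g :=
  (S.a_mp g).quasiMeasurePreserving.ae_eq_comp h

/-- The error of a transported function is the transported error. -/
lemma dev_comp (S : Setting d θ μ Ω P) (g : Aut d) {f f' : Ω → ℝ} (hf : Integrable f P)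
    (h : f' = f ∘ S.a g) :
    (fun ω => f' ω - S.Pi f' ω) =ᵐ[P] (fun ω => f ω - S.Pi f ω) ∘ S.a g := by
  subst h
  filter_upwards [S.Pi_comp g hf] with ω hω
  simp only [Function.comp_apply]
  rw [hω]
  rfl

lemma m_comp (S : Setting d θ μ Ω P) (g : Aut d) (v : Word d) : S.m v = S.m (g v) ∘ S.a g := by
  funext ω
  simp only [Function.comp_apply, m]
  rw [S.y_eq, mm_map]

lemma Pv_comp (S : Setting d θ μ Ω P) (g : Aut d) (v : Word d) :
    (fun ω => Pv θ v (S.y ω)) = (fun ω => Pv θ (g v) (S.y ω)) ∘ S.a g := by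
  funext ω
  simp only [Function.comp_apply, Pv]
  rw [S.y_eq, mm_map]

lemma scBd_rv (H : S.Bds a B) (v : Word d) : ScBd P (S.rv v) :=
  (scBd_Pv H v).sub ((scBd_Pv H v).condExp S.G_le)

lemma scBd_re (H : S.Bds a B) (u v : Word d) : ScBd P (S.re u v) :=
  (scBd_Pe H u v).sub ((scBd_Pe H u v).condExp S.G_le)

lemma scBd_dm (H : S.Bds a B) (v : Word d) : ScBd P (S.dm v) :=
  (scBd_m H v).sub ((scBd_m H v).condExp S.G_le)

/-- The norm of the error of the vertex function does not depend on the vertex. -/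
lemma rv_sq_eq (H : S.Bds a B) (x : Word d) : ∫ ω, S.rv x ω ^ 2 ∂P = ∫ ω, S.rv root ω ^ 2 ∂P := by
  have hg : gm x root = x := gm_root x
  have h1 := dev_comp S (gm x) (f := fun ω => Pv θ x (S.y ω)) (f' := fun ω => Pv θ root (S.y ω))
    (scBd_Pv H x).integrable (by
      have := Pv_comp S (gm x) root
      rwa [hg] at this)
  have h2 : ∫ ω, S.rv x (S.a (gm x) ω) ^ 2 ∂P = ∫ ω, S.rv x ω ^ 2 ∂P :=
    integral_comp_a S (gm x) (f := fun ω => S.rv x ω ^ 2) ((scBd_rv H x).pow 2).sm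
  rw [← h2]
  refine integral_congr_ae ?_
  filter_upwards [h1] with ω hω
  have e : S.rv root ω = S.rv x (S.a (gm x) ω) := hω
  rw [e]

/-- The second moment of the error `Sx`. -/
lemma Sx_L2 (H : S.Bds a B) (x : Word d) {K T : ℝ} (hK : 0 ≤ K) (hT : 0 ≤ T)
    (hv : ∫ ω, S.rv root ω ^ 2 ∂P ≤ T)
    (hp : ∫ ω, (∑ i ∈ Finset.range (len x), S.re (ch x i) (ch x (i + 1)) ω) ^ 2 ∂P ≤ K * len x * T) :
    ∫ ω, S.Sx x ω ^ 2 ∂P ≤ (2 + 3 * K) * (len x + 1) * T := by
  have hrv1 := scBd_rv H (S := S) root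
  have hrv2 := scBd_rv H (S := S) x
  have hsum : ScBd P (fun ω => ∑ i ∈ Finset.range (len x), S.re (ch x i) (ch x (i + 1)) ω) :=
    ScBd.finset_sum _ fun i _ => scBd_re H _ _
  have i1 : Integrable (fun ω => S.rv root ω ^ 2) P := (hrv1.pow 2).integrable
  have i2 : Integrable (fun ω => S.rv x ω ^ 2) P := (hrv2.pow 2).integrable
  have i3 := (hsum.pow 2).integrable
  have hle : ∫ ω, S.Sx x ω ^ 2 ∂P ≤ ∫ ω, ((3 / 4) * S.rv root ω ^ 2 + (3 / 4) * S.rv x ω ^ 2 +
      3 * (∑ i ∈ Finset.range (len x), S.re (ch x i) (ch x (i + 1)) ω) ^ 2) ∂P := by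
    refine integral_mono_ae ((scBd_Sx H x).pow 2).integrable
      (((i1.const_mul _).add (i2.const_mul _)).add (i3.const_mul _)) ?_
    filter_upwards [Sx_eq H x] with ω hω
    show S.Sx x ω ^ 2 ≤ (3 / 4) * S.rv root ω ^ 2 + (3 / 4) * S.rv x ω ^ 2 +
      3 * (∑ i ∈ Finset.range (len x), S.re (ch x i) (ch x (i + 1)) ω) ^ 2
    rw [hω]
    set A := S.rv root ω
    set B' := S.rv x ω
    set C' := ∑ i ∈ Finset.range (len x), S.re (ch x i) (ch x (i + 1)) ω
    nlinarith [sq_nonneg (A / 2 - B' / 2), sq_nonneg (A / 2 - C'), sq_nonneg (B' / 2 - C')]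
  refine hle.trans ?_
  have j1 : Integrable (fun ω => (3 / 4) * S.rv root ω ^ 2) P := i1.const_mul _
  have j2 : Integrable (fun ω => (3 / 4) * S.rv x ω ^ 2) P := i2.const_mul _
  have j12 : Integrable (fun ω => (3 / 4) * S.rv root ω ^ 2 + (3 / 4) * S.rv x ω ^ 2) P := j1.add j2
  have j3 : Integrable (fun ω => 3 * (∑ i ∈ Finset.range (len x), S.re (ch x i) (ch x (i + 1)) ω) ^ 2) P :=
    i3.const_mul _
  rw [integral_add j12 j3, integral_add j1 j2, integral_const_mul, integral_const_mul,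
    integral_const_mul, rv_sq_eq H x]
  have hn : (0 : ℝ) ≤ len x := Nat.cast_nonneg _
  have h1 : 0 ≤ K * len x * T := by positivity
  have h2 : (2 + 3 * K) * ((len x : ℝ) + 1) * T = 2 * T + 2 * (len x * T) + 3 * (K * len x * T) + 3 * K * T := by
    ring
  rw [h2]
  have h3 : 0 ≤ (len x : ℝ) * T := by positivity
  have h4 : 0 ≤ K * T := by positivity
  nlinarith

/-! ### Reversal of a path -/

lemma CCp_congr {p q : ℕ → Word d} {n : ℕ} (h : ∀ i ≤ n, p i = q i) (y : Word d → ℝ) :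
    CCp θ p n y = CCp θ q n y := by
  unfold CCp
  rw [h 0 (Nat.zero_le _), h n le_rfl]
  congr 1
  refine Finset.prod_congr rfl fun i hi => ?_
  have := Finset.mem_range.mp hi
  rw [h i (by omega), h (i + 1) (by omega)]

lemma CCp_rev (p : ℕ → Word d) (n : ℕ) (y : Word d → ℝ) :
    CCp θ (fun i => p (n - i)) n y = CCp θ p n y := by
  unfold CCp
  simp only [Nat.sub_zero, Nat.sub_self]
  rw [mul_comm (1 - mm θ (p n) y ^ 2)]
  congr 1
  rw [← Finset.prod_range_reflect]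
  refine Finset.prod_congr rfl fun i hi => ?_
  have := Finset.mem_range.mp hi
  have e1 : n - (n - 1 - i) = i + 1 := by omega
  have e2 : n - (n - 1 - i + 1) = i := by omega
  rw [e1, e2, Rho_comm]

lemma NB_rev {p : ℕ → Word d} {n : ℕ} (h : NB p n) : NB (fun i => p (n - i)) n := by
  refine ⟨fun i hi => ?_, fun i hi => ?_⟩
  · have h1 := h.adj (n - i - 1) (by omega)
    have e1 : n - i - 1 + 1 = n - i := by omega
    rw [e1] at h1
    have e2 : n - (i + 1) = n - i - 1 := by omega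
    show (treeGraph d).Adj (p (n - i)) (p (n - (i + 1)))
    rw [e2]
    exact h1.symm
  · have h1 := h.nb (n - i - 2) (by omega)
    have e1 : n - i - 2 + 2 = n - i := by omega
    rw [e1] at h1
    have e2 : n - (i + 2) = n - i - 2 := by omega
    show p (n - (i + 2)) ≠ p (n - i)
    rw [e2]
    exact h1.symm

lemma ch_zero (x : Word d) : ch x 0 = root := by
  apply Subtype.ext
  simp [ch, root, len]

lemma ch_len (x : Word d) : ch x (len x) = x := by
  apply Subtype.ext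
  simp [ch, len]

/-- The automorphism that reverses the path from the root to `x`. -/
lemma CCr_swap (x : Word d) :
    ∃ g : Aut d, g root = x ∧ g x = root ∧ ∀ y, CCr θ x (actS g y) = CCr θ x y := by
  obtain ⟨g, hg⟩ := nb_trans (nb_ch x) (NB_rev (nb_ch x))
  refine ⟨g, ?_, ?_, fun y => ?_⟩
  · have := hg 0 (Nat.zero_le _)
    simpa [ch_zero, ch_len] using this
  · have := hg (len x) le_rfl
    simpa [ch_zero, ch_len] using this
  · rw [CCr_eq_CCp, ← CCp_rev, CCp_congr (fun i hi => (hg i hi).symm), CCp_map, ← CCr_eq_CCp]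

lemma scBd_CC (H : S.Bds a B) (x : Word d) : ScBd P (S.CC x) :=
  (scBd_Lx H x).exp.congr (CC_eq_exp H x).symm

/-- Mass transport at the two ends of the path from the root to `x`. -/
lemma swap_dm (H : S.Bds a B) (x : Word d) :
    ∫ ω, S.Pi (fun ω' => S.dm x ω' ^ 2) ω * S.CC x ω ^ 2 ∂P =
      ∫ ω, S.Pi (fun ω' => S.dm root ω' ^ 2) ω * S.CC x ω ^ 2 ∂P := by
  obtain ⟨g, hg0, hgx, hgC⟩ := CCr_swap (θ := θ) x
  have hdm := scBd_dm H (S := S) x
  have h1 : (fun ω => S.dm root ω) =ᵐ[P] (S.dm x) ∘ S.a g := by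
    have := dev_comp S g (f := S.m x) (f' := S.m root) (scBd_m H x).integrable (by
      have h2 := m_comp S g root
      rwa [hg0] at h2)
    exact this
  have h2 : (fun ω' => S.dm root ω' ^ 2) =ᵐ[P] (fun ω' => S.dm x ω' ^ 2) ∘ S.a g := by
    filter_upwards [h1] with ω hω
    simp only [Function.comp_apply]
    rw [hω]; rfl
  have h3 : S.Pi (fun ω' => S.dm root ω' ^ 2) =ᵐ[P] (S.Pi (fun ω' => S.dm x ω' ^ 2)) ∘ S.a g :=
    (condExp_congr_ae h2).trans (S.Pi_comp g (hdm.pow 2).integrable)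
  have hF : ScBd P (fun ω => S.Pi (fun ω' => S.dm x ω' ^ 2) ω * S.CC x ω ^ 2) :=
    ((hdm.pow 2).condExp S.G_le).mul ((scBd_CC H x).pow 2)
  rw [← integral_comp_a S g hF.sm]
  refine integral_congr_ae ?_
  filter_upwards [h3] with ω hω
  have e : S.CC x (S.a g ω) = S.CC x ω := by
    unfold CC
    rw [S.y_eq, hgC]
  rw [e, hω]
  rfl

/-- The comparison inequality for the summand of `BBn`. -/
theorem compare (H : S.Bds a B) (κ : ℝ) (x : Word d) :
    ∫ ω, ((S.CC x ω - S.Pi (S.CC x) ω) ^ 2 + κ ^ 2 * S.Pi (S.CC x) ω ^ 2 * S.dm x ω ^ 2) ∂P ≤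
      ∫ ω, (S.Sx x ω ^ 2 + S.Pi (fun ω' => S.Sx x ω' ^ 2) ω) * S.CC x ω ^ 2 ∂P +
        κ ^ 2 * ∫ ω, S.Pi (fun ω' => S.dm root ω' ^ 2) ω * S.CC x ω ^ 2 ∂P := by
  have hdm := scBd_dm H (S := S) x
  have hW : ScBd P (fun ω => κ ^ 2 * S.dm x ω ^ 2) := (ScBd.const _).mul (hdm.pow 2)
  have hW0 : ∀ᵐ ω ∂P, 0 ≤ κ ^ 2 * S.dm x ω ^ 2 := ae_of_all _ fun ω => by positivity
  have h := sc_compare S.G_le (scBd_Lx H x) hW hW0 (CC_eq_exp H x)
  have hSb := scBd_Sx H (S := S) x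
  have hC2 := (scBd_CC H (S := S) x).pow 2
  have hS2 := hSb.pow 2
  have hS2c := hS2.condExp S.G_le
  have e1 : ∫ ω, ((S.CC x ω - S.Pi (S.CC x) ω) ^ 2 + κ ^ 2 * S.Pi (S.CC x) ω ^ 2 * S.dm x ω ^ 2) ∂P =
      ∫ ω, ((S.CC x ω - (P[S.CC x|S.G]) ω) ^ 2 +
        (κ ^ 2 * S.dm x ω ^ 2) * (P[S.CC x|S.G]) ω ^ 2) ∂P :=
    integral_congr_ae (ae_of_all _ fun ω => by simp only [Pi]; ring)
  rw [e1]
  refine h.trans ?_
  have hWc : P[fun ω => κ ^ 2 * S.dm x ω ^ 2|S.G] =ᵐ[P]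
      fun ω => κ ^ 2 * S.Pi (fun ω' => S.dm x ω' ^ 2) ω := by
    have := condExp_smul (m := S.G) (μ := P) (κ ^ 2) (fun ω' => S.dm x ω' ^ 2)
    have e : (fun ω => κ ^ 2 * S.dm x ω ^ 2) = (κ ^ 2) • (fun ω' => S.dm x ω' ^ 2) := by
      ext ω; simp [smul_eq_mul]
    rw [e]
    filter_upwards [this] with ω hω
    simpa [smul_eq_mul, Pi] using hω
  have i1 : Integrable (fun ω => (S.Sx x ω ^ 2 + S.Pi (fun ω' => S.Sx x ω' ^ 2) ω) * S.CC x ω ^ 2) P :=
    ((hS2.add hS2c).mul hC2).integrable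
  have i2 : Integrable (fun ω => κ ^ 2 * (S.Pi (fun ω' => S.dm x ω' ^ 2) ω * S.CC x ω ^ 2)) P :=
    ((ScBd.const _).mul (((hdm.pow 2).condExp S.G_le).mul hC2)).integrable
  have e2 : ∫ ω, ((S.Lx x ω - (P[S.Lx x|S.G]) ω) ^ 2 +
        (P[fun ω' => (S.Lx x ω' - (P[S.Lx x|S.G]) ω') ^ 2|S.G]) ω +
        (P[fun ω => κ ^ 2 * S.dm x ω ^ 2|S.G]) ω) * S.CC x ω ^ 2 ∂P =
      ∫ ω, ((S.Sx x ω ^ 2 + S.Pi (fun ω' => S.Sx x ω' ^ 2) ω) * S.CC x ω ^ 2 +
        κ ^ 2 * (S.Pi (fun ω' => S.dm x ω' ^ 2) ω * S.CC x ω ^ 2)) ∂P := by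
    refine integral_congr_ae ?_
    filter_upwards [hWc] with ω hω
    rw [hω]
    simp only [Sx, Pi]
    ring
  rw [e2, integral_add i1 i2, integral_const_mul, swap_dm H x]

end Setting

/-- The uniform bounds exist. -/
theorem exists_Bds (C : Crit (d - 1) θ) (M : ℝ) :
    ∃ a B : ℝ, ∀ μ : Measure ℝ, Nish μ → (∀ᵐ h ∂μ, |h| ≤ M) →
      ∀ {Ω : Type*} [MeasurableSpace Ω] {P : Measure Ω} [IsProbabilityMeasure P]
        (S : Setting d θ μ Ω P), S.Bds a B := by
  set a : ℝ := Real.tanh (M + d * Real.artanh θ) with ha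
  have ha1 : a < 1 := Real.tanh_lt_one _
  obtain ⟨B1, hB1, h1⟩ := PsiE_bdd C.h0 C.h1 ha1
  obtain ⟨B2, hB2, h2⟩ := LogV_bdd ha1
  refine ⟨a, max B1 B2, fun μ hμ hM Ω _ P _ S => ?_⟩
  haveI := hμ.prob
  refine ⟨C.h0, C.h1, ha1, le_max_of_le_left hB1, ?_, ?_, ?_⟩
  · have h3 := scm_LawY_bd (d := d) (θ := θ) hM
    rw [← S.law] at h3
    have h4 := ae_of_ae_map S.y_meas.aemeasurable h3
    filter_upwards [h4] with ω hω v
    exact mm_bound C.h1 hω v
  · exact fun m₁ m₂ h h' => (h1 m₁ m₂ h h').trans (le_max_left _ _)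
  · exact fun m h => (h2 m h).trans (le_max_right _ _)

end Vale.Agent.Lib.P161B
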