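import Vale.Agent.Lib.P161B.StaticCmp

/-!
Elementary lemmas for the static theorem with decorrelation: truncation, the exponential moment lemma in
almost everywhere form, series, and the summation over spheres.
-/

set_option linter.unusedSectionVars false

namespace Vale.Agent.Lib.P161B

open MeasureTheory ProbabilityTheory Filter
open Vale.Agent.Lib.P161

section Abstract

variable {Ω : Type*} {mΩ : MeasurableSpace Ω} {P : Measure Ω} [IsProbabilityMeasure P]

lemma sd_pt {p b : ℝ} (hp0 : 0 ≤ p) (hb : 0 < b) {Q : ℕ} (hQ : 1 ≤ Q) : p ≤ b + p ^ Q * (b / b ^ Q) := by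
  rcases le_total p b with h | h
  · have : 0 ≤ p ^ Q * (b / b ^ Q) := by positivity
    linarith
  · have h1 : 1 ≤ p / b := (one_le_div hb).mpr h
    have h2 : p / b ≤ (p / b) ^ Q := le_self_pow₀ h1 (by omega)
    have h3 : (p / b) ^ Q * b = p ^ Q * (b / b ^ Q) := by rw [div_pow]; field_simp
    have h4 : p = (p / b) * b := by field_simp
    have h5 : p ≤ p ^ Q * (b / b ^ Q) := by
      rw [← h3]
      calc p = (p / b) * b := h4
        _ ≤ (p / b) ^ Q * b := mul_le_mul_of_nonneg_right h2 hb.le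
    linarith

lemma sd_trunc {A Pp : Ω → ℝ} (hA : ScBd P A) (hPp : ScBd P Pp) (hA0 : ∀ᵐ ω ∂P, 0 ≤ A ω) {Bn an cn : ℝ}
    (hAB : ∀ᵐ ω ∂P, A ω ≤ Bn) (hP0 : ∀ᵐ ω ∂P, 0 ≤ Pp ω) (hBn : 0 ≤ Bn)
    (han : ∫ ω, A ω ∂P ≤ an) {Q : ℕ} (hQ : 1 ≤ Q) (hcn : ∫ ω, Pp ω ^ Q ∂P ≤ Real.exp (-cn)) :
    ∫ ω, A ω * Pp ω ∂P ≤ Real.exp (1 - cn / Q) * an + Bn * Real.exp (1 - Q) * Real.exp (-(cn / Q)) := by
  have hQ0 : (Q : ℝ) ≠ 0 := by positivity
  set b : ℝ := Real.exp (1 - cn / Q) with hb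
  have hb0 : 0 < b := Real.exp_pos _
  have hbQ : b / b ^ Q * Real.exp (-cn) = Real.exp (1 - Q) * Real.exp (-(cn / Q)) := by
    have h1 : b ^ Q = Real.exp (Q - cn) := by
      rw [hb, ← Real.exp_nat_mul]
      congr 1
      field_simp
    rw [h1, hb, div_eq_mul_inv, ← Real.exp_neg, ← Real.exp_add, ← Real.exp_add, ← Real.exp_add]
    congr 1
    ring
  have hQp : ScBd P (fun ω => Pp ω ^ Q) := hPp.pow Q
  have hle : ∫ ω, A ω * Pp ω ∂P ≤ ∫ ω, (b * A ω + (Bn * (b / b ^ Q)) * Pp ω ^ Q) ∂P := by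
    refine integral_mono_ae (hA.mul hPp).integrable
      (((ScBd.const b).mul hA).add ((ScBd.const _).mul hQp)).integrable ?_
    filter_upwards [hA0, hAB, hP0] with ω h0 h1 h2
    have h3 := sd_pt h2 hb0 hQ
    have h4 : 0 ≤ Pp ω ^ Q * (b / b ^ Q) := by positivity
    calc A ω * Pp ω ≤ A ω * (b + Pp ω ^ Q * (b / b ^ Q)) := mul_le_mul_of_nonneg_left h3 h0
      _ = b * A ω + A ω * (Pp ω ^ Q * (b / b ^ Q)) := by ring
      _ ≤ b * A ω + Bn * (Pp ω ^ Q * (b / b ^ Q)) := by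
          have := mul_le_mul_of_nonneg_right h1 h4
          linarith
      _ = b * A ω + (Bn * (b / b ^ Q)) * Pp ω ^ Q := by ring
  refine hle.trans ?_
  have i1 : Integrable (fun ω => b * A ω) P := hA.integrable.const_mul _
  have i2 : Integrable (fun ω => (Bn * (b / b ^ Q)) * Pp ω ^ Q) P := hQp.integrable.const_mul _
  rw [integral_add i1 i2, integral_const_mul, integral_const_mul]
  have h5 : b * ∫ ω, A ω ∂P ≤ b * an := mul_le_mul_of_nonneg_left han hb0.le
  have h6 : (Bn * (b / b ^ Q)) * ∫ ω, Pp ω ^ Q ∂P ≤ (Bn * (b / b ^ Q)) * Real.exp (-cn) :=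
    mul_le_mul_of_nonneg_left hcn (by positivity)
  have h7 : (Bn * (b / b ^ Q)) * Real.exp (-cn) = Bn * Real.exp (1 - Q) * Real.exp (-(cn / Q)) := by
    rw [mul_assoc, hbQ]; ring
  linarith

/-- The exponential moment lemma, almost everywhere form. -/
lemma sd_exp_lemma {A D : Ω → ℝ} (hA : ScBd P A) (hD : ScBd P D) {Amax a Lam A1 : ℝ}
    (hA0 : ∀ᵐ ω ∂P, 0 ≤ A ω) (hA1 : ∀ᵐ ω ∂P, A ω ≤ Amax) (ha : 0 < a) (hE : ∫ ω, A ω ∂P ≤ a)
    (hA10 : 0 ≤ A1) (hLam : Real.log (Amax / a) ≤ Lam) (hLam1 : 1 ≤ Lam)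
    (hexp : ∫ ω, Real.exp (2 * Lam * (D ω - A1)) ∂P ≤ 1) :
    ∫ ω, A ω * D ω ∂P ≤ a * (A1 + 2) := by
  have hT : ScBd P (fun ω => D ω - A1) := hD.sub (ScBd.const _)
  have hEb : ScBd P (fun ω => Real.exp (2 * Lam * (D ω - A1))) := ((ScBd.const _).mul hT).exp
  have hpt : ∀ᵐ ω ∂P, A ω * D ω ≤ A1 * A ω + (A ω + a * Real.exp (2 * Lam * (D ω - A1))) := by
    filter_upwards [hA0, hA1] with ω h0 h1
    set t := D ω - A1 with ht
    have hDt : D ω = A1 + t := by rw [ht]; ring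
    rw [hDt]
    have key : A ω * t ≤ A ω + a * Real.exp (2 * Lam * t) := by
      by_cases h : t ≤ 1
      · have h2 : A ω * t ≤ A ω * 1 := mul_le_mul_of_nonneg_left h h0
        have h3 : 0 ≤ a * Real.exp (2 * Lam * t) := by positivity
        linarith
      · push Not at h
        have ht0 : 0 < t := by linarith
        have hAm : 0 ≤ Amax := h0.trans h1
        have h4 : Amax ≤ a * Real.exp Lam := by
          rcases hAm.eq_or_lt with h5 | h5
          · rw [← h5]; positivity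
          · have h6 : 0 < Amax / a := div_pos h5 ha
            have h7 : Amax / a ≤ Real.exp Lam := by
              rw [← Real.exp_log h6]
              exact Real.exp_le_exp.mpr hLam
            rwa [div_le_iff₀' ha] at h7
        have h8 : t ≤ Real.exp t := by linarith [Real.add_one_le_exp t]
        have h9 : Real.exp Lam * Real.exp t ≤ Real.exp (2 * Lam * t) := by
          rw [← Real.exp_add]
          apply Real.exp_le_exp.mpr
          nlinarith
        calc A ω * t ≤ Amax * t := mul_le_mul_of_nonneg_right h1 ht0.le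
          _ ≤ (a * Real.exp Lam) * Real.exp t := mul_le_mul h4 h8 ht0.le (by positivity)
          _ = a * (Real.exp Lam * Real.exp t) := by ring
          _ ≤ a * Real.exp (2 * Lam * t) := mul_le_mul_of_nonneg_left h9 ha.le
          _ ≤ A ω + a * Real.exp (2 * Lam * t) := by linarith
    nlinarith
  have i1 : Integrable (fun ω => A1 * A ω) P := hA.integrable.const_mul _
  have i2 : Integrable (fun ω => a * Real.exp (2 * Lam * (D ω - A1))) P := hEb.integrable.const_mul _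
  have i3 : Integrable (fun ω => A ω + a * Real.exp (2 * Lam * (D ω - A1))) P := hA.integrable.add i2
  have i13 : Integrable (fun ω => A1 * A ω + (A ω + a * Real.exp (2 * Lam * (D ω - A1)))) P := i1.add i3
  have hle : ∫ ω, A ω * D ω ∂P ≤
      ∫ ω, (A1 * A ω + (A ω + a * Real.exp (2 * Lam * (D ω - A1)))) ∂P :=
    integral_mono_ae (hA.mul hD).integrable i13 hpt
  have e : ∫ ω, (A1 * A ω + (A ω + a * Real.exp (2 * Lam * (D ω - A1)))) ∂P =
      A1 * ∫ ω, A ω ∂P + (∫ ω, A ω ∂P + a * ∫ ω, Real.exp (2 * Lam * (D ω - A1)) ∂P) := by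
    rw [integral_add i1 i3, integral_add hA.integrable i2, integral_const_mul, integral_const_mul]
  rw [e] at hle
  have h5 : A1 * ∫ ω, A ω ∂P ≤ A1 * a := mul_le_mul_of_nonneg_left hE hA10
  have h6 : a * ∫ ω, Real.exp (2 * Lam * (D ω - A1)) ∂P ≤ a * 1 := mul_le_mul_of_nonneg_left hexp ha.le
  nlinarith

end Abstract

section Series

lemma sd_geom {q : ℝ} (hq : 0 < q) : ‖Real.exp (-q)‖ < 1 := by
  rw [Real.norm_of_nonneg (Real.exp_pos _).le]
  exact Real.exp_lt_one_iff.mpr (by linarith)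

lemma sd_inv_bound {q : ℝ} (hq : 0 < q) : 1 / (1 - Real.exp (-q)) ≤ 1 + 1 / q := by
  have h1 : Real.exp (-q) ≤ 1 / (1 + q) := by
    rw [Real.exp_neg, one_div]
    apply inv_anti₀ (by positivity)
    linarith [Real.add_one_le_exp q]
  have h2 : q / (1 + q) ≤ 1 - Real.exp (-q) := by
    have : q / (1 + q) = 1 - 1 / (1 + q) := by field_simp; ring
    rw [this]; linarith
  have h3 : 0 < q / (1 + q) := by positivity
  calc 1 / (1 - Real.exp (-q)) ≤ 1 / (q / (1 + q)) := one_div_le_one_div_of_le h3 h2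
    _ = 1 + 1 / q := by field_simp; ring

lemma sd_exp_pow (q : ℝ) (n : ℕ) : Real.exp (-(q * n)) = Real.exp (-q) ^ n := by
  rw [← Real.exp_nat_mul]; congr 1; ring

lemma sd_series1 {q : ℝ} (hq : 0 < q) (R : ℕ) :
    ∑ n ∈ Finset.range R, ((n : ℝ) + 1) * Real.exp (-(q * n)) ≤ (1 + 1 / q) ^ 2 := by
  have h := hasSum_choose_mul_geometric_of_norm_lt_one (𝕜 := ℝ) 1 (sd_geom hq)
  have h2 := sum_le_hasSum (Finset.range R) (fun i _ => by positivity) h
  have h3 : ∑ n ∈ Finset.range R, ((n : ℝ) + 1) * Real.exp (-(q * n)) =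
      ∑ i ∈ Finset.range R, (((i + 1).choose 1 : ℕ) : ℝ) * Real.exp (-q) ^ i := by
    refine Finset.sum_congr rfl fun n _ => ?_
    rw [sd_exp_pow, Nat.choose_one_right]
    push_cast
    ring
  rw [h3]
  refine h2.trans ?_
  have h4 := sd_inv_bound hq
  have hr : 0 < 1 - Real.exp (-q) := by
    have := Real.exp_lt_one_iff.mpr (show -q < 0 by linarith)
    linarith
  have e : 1 / (1 - Real.exp (-q)) ^ (1 + 1) = (1 / (1 - Real.exp (-q))) ^ 2 := by
    rw [one_div_pow]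
  rw [e]
  gcongr

lemma sd_series2 {q : ℝ} (hq : 0 < q) (R : ℕ) :
    ∑ n ∈ Finset.range R, ((n : ℝ) + 1) ^ 2 * Real.exp (-(q * n)) ≤ 2 * (1 + 1 / q) ^ 3 := by
  have h := hasSum_choose_mul_geometric_of_norm_lt_one (𝕜 := ℝ) 2 (sd_geom hq)
  have h2 := sum_le_hasSum (Finset.range R) (fun i _ => by positivity) h
  have h3 : ∑ n ∈ Finset.range R, ((n : ℝ) + 1) ^ 2 * Real.exp (-(q * n)) ≤
      2 * ∑ i ∈ Finset.range R, (((i + 2).choose 2 : ℕ) : ℝ) * Real.exp (-q) ^ i := by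
    rw [Finset.mul_sum]
    refine Finset.sum_le_sum fun n _ => ?_
    rw [sd_exp_pow, Nat.cast_choose_two]
    have h5 : 0 ≤ Real.exp (-q) ^ n := by positivity
    push_cast
    nlinarith [mul_nonneg (by positivity : (0:ℝ) ≤ (n:ℝ) + 1) h5]
  refine h3.trans ?_
  refine mul_le_mul_of_nonneg_left (h2.trans ?_) (by norm_num)
  have h4 := sd_inv_bound hq
  have hr : 0 < 1 - Real.exp (-q) := by
    have := Real.exp_lt_one_iff.mpr (show -q < 0 by linarith)
    linarith
  have e : 1 / (1 - Real.exp (-q)) ^ (2 + 1) = (1 / (1 - Real.exp (-q))) ^ 3 := by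
    rw [one_div_pow]
  rw [e]
  gcongr

end Series

end Vale.Agent.Lib.P161B
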