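import Vale.Agent.Lib.P161B.TemperApp

/-!
Temperedness: the error field `(I - Π) f` of the edge functions has correlations decaying at a summable
rate relative to its own norm, because its covariance is dominated by the covariance of `f`.
-/

namespace Vale.Agent.Lib.P161B

open MeasureTheory ProbabilityTheory Filter
open Vale.Agent.Lib.P161

variable {d : ℕ} {θ : ℝ} {μ : Measure ℝ}

/-- The main consequence. Correlation of the errors at the two ends of a non backtracking path, with amplitude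
the norm of the error. The constant does not depend on the setting. -/
theorem tempered_pair (hd : 3 ≤ d) [Corr θ] (C : Crit (d - 1) θ) (M : ℝ) :
    ∃ K : ℝ, 0 ≤ K ∧ ∀ μ : Measure ℝ, Nish μ → (∀ᵐ h ∂μ, |h| ≤ M) →
      ∀ {Ω : Type} [MeasurableSpace Ω] {P : Measure Ω} [IsProbabilityMeasure P] (S : Setting d θ μ Ω P)
        (p : ℕ → Word d) (L : ℕ), NB p L → 2 ≤ L → ∀ i : Fin d,
        |∫ ω, S.re (p 0) (p 1) ω * S.re (p (L - 1)) (p L) ω ∂P| ≤
          K * (√θ) ^ L * ∫ ω, S.re root (letter i) ω ^ 2 ∂P :=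
  ta_tempered_pair hd C M

/-- The sum along a path: no coherence. -/
theorem tempered_path (hd : 3 ≤ d) [Corr θ] (C : Crit (d - 1) θ) (M : ℝ) :
    ∃ K : ℝ, 0 ≤ K ∧ ∀ μ : Measure ℝ, Nish μ → (∀ᵐ h ∂μ, |h| ≤ M) →
      ∀ {Ω : Type} [MeasurableSpace Ω] {P : Measure Ω} [IsProbabilityMeasure P] (S : Setting d θ μ Ω P)
        (p : ℕ → Word d) (n : ℕ), NB p n → ∀ i : Fin d,
        ∫ ω, (∑ j ∈ Finset.range n, S.re (p j) (p (j + 1)) ω) ^ 2 ∂P ≤
          K * n * ∫ ω, S.re root (letter i) ω ^ 2 ∂P :=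
  ta_tempered_path hd C M

end Vale.Agent.Lib.P161B
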