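import Vale.Agent.Lib.P161.Tree

/-!
The abstract part of temperedness: the power trick, and the sphere lemma on the tree
(averaging `k^(-len/4)` over a sphere gains `k^(-n/4)`).
-/

namespace Vale.Agent.Lib.P161B

open Vale.Agent.Lib.P161

variable {d : ℕ}

/-! ### The power trick -/

section Power

variable {H : Type*} [NormedAddCommGroup H] [InnerProductSpace ℝ H]

/-- Cauchy-Schwarz step: `‖Tⁿ r‖² ≤ ‖r‖ ‖T²ⁿ r‖` for a self adjoint `T`. -/
lemma power_step (T : H →ₗ[ℝ] H) (hT : ∀ x y, inner ℝ (T x) y = inner ℝ x (T y)) (r : H) (n : ℕ) :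
    ‖(T ^ n) r‖ ^ 2 ≤ ‖r‖ * ‖(T ^ (2 * n)) r‖ := by
  have h1 : ∀ (m : ℕ) (x y : H), inner ℝ ((T ^ m) x) y = inner ℝ x ((T ^ m) y) := by
    intro m
    induction m with
    | zero => intro x y; simp
    | succ m ih =>
      intro x y
      rw [pow_succ]
      simp only [Module.End.mul_apply]
      rw [ih, hT]
      rw [← Module.End.mul_apply, ← Module.End.mul_apply, ← pow_succ, ← pow_succ']
  have h2 : ‖(T ^ n) r‖ ^ 2 = inner ℝ r ((T ^ (2 * n)) r) := by
    rw [← real_inner_self_eq_norm_sq, h1, two_mul, pow_add]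
    simp only [Module.End.mul_apply]
  rw [h2]
  exact real_inner_le_norm _ _

/-- The power trick. `T` is a self adjoint operator on a real inner product space, `A` a contraction commuting
with `T`, `f` a vector with `‖Tⁿ f‖² ≤ K λ^(2n)` for all `n`. Then `‖T (A f)‖ ≤ λ ‖A f‖`. -/
theorem power_trick (T A : H →ₗ[ℝ] H) (hT : ∀ x y, inner ℝ (T x) y = inner ℝ x (T y)) (hA : ∀ x, ‖A x‖ ≤ ‖x‖)
    (hcomm : ∀ x, T (A x) = A (T x)) (f : H) {K lam : ℝ} (hK : 0 ≤ K) (hlam : 0 ≤ lam)
    (hf : ∀ n : ℕ, ‖(T ^ n) f‖ ^ 2 ≤ K * lam ^ (2 * n)) :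
    ‖T (A f)‖ ≤ lam * ‖A f‖ := by
  set r := A f with hr
  -- powers commute with `A`
  have hcp : ∀ n : ℕ, (T ^ n) r = A ((T ^ n) f) := by
    intro n
    induction n with
    | zero => simp [hr]
    | succ n ih =>
      rw [pow_succ', Module.End.mul_apply, ih, hcomm]
      rfl
  have hbd : ∀ n : ℕ, ‖(T ^ n) r‖ ^ 2 ≤ K * lam ^ (2 * n) := by
    intro n
    rw [hcp]
    refine le_trans ?_ (hf n)
    exact pow_le_pow_left₀ (norm_nonneg _) (hA _) 2
  set a0 := ‖r‖ with ha0
  set a1 := ‖T r‖ with ha1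
  have ha0n : 0 ≤ a0 := norm_nonneg _
  have ha1n : 0 ≤ a1 := norm_nonneg _
  -- the iterated inequality
  have hit : ∀ m : ℕ, a1 ^ (2 ^ m) ≤ a0 ^ (2 ^ m - 1) * ‖(T ^ (2 ^ m)) r‖ := by
    intro m
    induction m with
    | zero => simp [ha1]
    | succ m ih =>
      have hs := power_step T hT r (2 ^ m)
      have e2 : 2 * 2 ^ m = 2 ^ (m + 1) := by ring
      rw [e2] at hs
      have hpos : 1 ≤ 2 ^ m := Nat.one_le_two_pow
      have e3 : 2 ^ (m + 1) - 1 = 2 * (2 ^ m - 1) + 1 := by
        have : 2 ^ (m + 1) = 2 * 2 ^ m := by ring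
        omega
      calc a1 ^ (2 ^ (m + 1)) = (a1 ^ (2 ^ m)) ^ 2 := by rw [← pow_mul]; congr 1
        _ ≤ (a0 ^ (2 ^ m - 1) * ‖(T ^ (2 ^ m)) r‖) ^ 2 :=
            pow_le_pow_left₀ (by positivity) ih 2
        _ = a0 ^ (2 * (2 ^ m - 1)) * ‖(T ^ (2 ^ m)) r‖ ^ 2 := by rw [mul_pow, ← pow_mul, mul_comm (2 ^ m - 1)]
        _ ≤ a0 ^ (2 * (2 ^ m - 1)) * (a0 * ‖(T ^ (2 ^ (m + 1))) r‖) := by
            exact mul_le_mul_of_nonneg_left hs (by positivity)
        _ = a0 ^ (2 ^ (m + 1) - 1) * ‖(T ^ (2 ^ (m + 1))) r‖ := by rw [e3, pow_succ]; ring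
  by_cases hl0 : lam = 0
  · -- `T r = 0`
    have h1 := hbd 1
    rw [hl0] at h1
    simp only [pow_one, mul_one, ne_eq, OfNat.ofNat_ne_zero, not_false_eq_true, zero_pow, mul_zero] at h1
    have h3 : ‖T r‖ = 0 := by
      have h4 := norm_nonneg (T r)
      nlinarith
    rw [hl0, zero_mul]
    exact h3.le
  have hlpos : 0 < lam := lt_of_le_of_ne hlam (Ne.symm hl0)
  by_cases ha00 : a0 = 0
  · have h0 : r = 0 := norm_eq_zero.mp ha00
    have e1 : a1 = 0 := by rw [ha1, h0]; simp
    rw [e1, ha00]; simp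
  have ha0pos : 0 < a0 := lt_of_le_of_ne ha0n (Ne.symm ha00)
  by_contra hcon
  have hcon := not_le.mp hcon
  -- `q = a1 / (a0 λ) > 1` but `q ^ N ≤ √(K+1) / a0` for all `N = 2^m`
  set q := a1 / (a0 * lam) with hq
  have hdenpos : 0 < a0 * lam := by positivity
  have hq1 : 1 < q := by
    rw [hq, lt_div_iff₀ hdenpos]
    linarith
  set B := (K + 1) / a0 with hB
  have hB0 : 0 ≤ B := by positivity
  have hbdq : ∀ m : ℕ, q ^ (2 ^ m) ≤ B := by
    intro m
    have h1 := hit m
    have h2 : ‖(T ^ (2 ^ m)) r‖ ≤ (K + 1) * lam ^ (2 ^ m) := by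
      have h3 := hbd (2 ^ m)
      have e : lam ^ (2 * 2 ^ m) = (lam ^ (2 ^ m)) ^ 2 := by rw [← pow_mul, mul_comm]
      rw [e] at h3
      have hX : 0 ≤ lam ^ (2 ^ m) := by positivity
      set X := lam ^ (2 ^ m) with hXdef
      set Y := ‖(T ^ (2 ^ m)) r‖ with hY
      have hY0 : 0 ≤ Y := norm_nonneg _
      -- `Y² ≤ K X²` gives `Y ≤ (K+1) X`
      by_contra hc
      have hc := not_le.mp hc
      have : ((K + 1) * X) ^ 2 < Y ^ 2 := pow_lt_pow_left₀ hc (by positivity) (by norm_num)
      nlinarith [sq_nonneg X, mul_nonneg hK (sq_nonneg X), mul_nonneg (mul_nonneg hK hK) (sq_nonneg X)]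
    have hpos : 1 ≤ 2 ^ m := Nat.one_le_two_pow
    have e4 : a0 ^ (2 ^ m) = a0 ^ (2 ^ m - 1) * a0 := by
      rw [← pow_succ]; congr 1; omega
    have h5 : a1 ^ (2 ^ m) * a0 ≤ (K + 1) * (a0 ^ (2 ^ m) * lam ^ (2 ^ m)) := by
      calc a1 ^ (2 ^ m) * a0 ≤ (a0 ^ (2 ^ m - 1) * ((K + 1) * lam ^ (2 ^ m))) * a0 := by
            apply mul_le_mul_of_nonneg_right _ ha0n
            exact le_trans h1 (mul_le_mul_of_nonneg_left h2 (by positivity))
        _ = (K + 1) * (a0 ^ (2 ^ m) * lam ^ (2 ^ m)) := by rw [e4]; ring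
    rw [hq, div_pow, hB, div_le_div_iff₀ (by positivity) ha0pos, mul_pow]
    exact h5
  -- contradiction: `q ^ N → ∞`
  obtain ⟨N, hN⟩ := pow_unbounded_of_one_lt B hq1
  have hmono : q ^ N ≤ q ^ (2 ^ N) := pow_le_pow_right₀ hq1.le (Nat.lt_two_pow_self).le
  linarith [hbdq N]

end Power

/-! ### Words -/

/-- The automorphism of the reduced word `w`: `gw w root = w`. -/
noncomputable def gwL : List (Fin d) → Aut d
  | [] => 1
  | s :: w => (gwL w) * flipAut s

/-- The sphere of radius `n`. -/
noncomputable def sph (n : ℕ) : Finset (Word d) := (ball n).filter (fun w => len w = n)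

lemma mem_sph' {n : ℕ} {v : Word d} : v ∈ sph n ↔ len v = n := by
  simp only [sph, Finset.mem_filter, mem_ball]
  exact ⟨fun h => h.2, fun h => ⟨h.le, h⟩⟩

lemma flipL_eq (i : Fin d) : ∀ (l : List (Fin d)),
    (l.getLast? = some i → flipL i l = l.dropLast) ∧ (l.getLast? ≠ some i → flipL i l = l ++ [i])
  | [] => by simp [flipL]
  | [j] => by
    by_cases h : j = i
    · subst h; simp [flipL]
    · have h' : ¬ i = j := fun e => h e.symm
      simp [flipL, h, h']
  | j :: k :: w => by
    have ih := flipL_eq i (k :: w)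
    have e : (j :: k :: w).getLast? = (k :: w).getLast? := by simp [List.getLast?_cons_cons]
    rw [e]
    refine ⟨fun h => ?_, fun h => ?_⟩
    · show j :: flipL i (k :: w) = _
      rw [ih.1 h]; simp
    · show j :: flipL i (k :: w) = _
      rw [ih.2 h]; simp

lemma flip_append {t : Fin d} {z : Word d} (h : z.1.getLast? ≠ some t) :
    (flipAut t z).1 = z.1 ++ [t] := (flipL_eq t z.1).2 h

lemma flip_drop {t : Fin d} {z : Word d} (h : z.1.getLast? = some t) :
    (flipAut t z).1 = z.1.dropLast := (flipL_eq t z.1).1 h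

lemma len_flip_append {t : Fin d} {z : Word d} (h : z.1.getLast? ≠ some t) :
    len (flipAut t z) = len z + 1 := by
  unfold len
  rw [flip_append h]; simp

lemma last_flip_append {t : Fin d} {z : Word d} (h : z.1.getLast? ≠ some t) :
    (flipAut t z).1.getLast? = some t := by
  rw [flip_append h]; simp

lemma len_flip_drop {t : Fin d} {z : Word d} (h : z.1.getLast? = some t) :
    len (flipAut t z) + 1 = len z := by
  unfold len
  rw [flip_drop h]
  have hne : z.1 ≠ [] := by
    intro h0
    rw [h0] at h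
    simp at h
  simp only [List.length_dropLast]
  have : 0 < z.1.length := List.length_pos_iff.mpr hne
  omega

lemma gwL_cons (t : Fin d) (l : List (Fin d)) (z : Word d) :
    gwL (t :: l) z = gwL l (flipAut t z) := rfl

lemma gwL_val : ∀ (l : List (Fin d)) (z : Word d), (z.1 ++ l).IsChain (· ≠ ·) →
    (gwL l z).1 = z.1 ++ l
  | [], z, _ => by simp [gwL]
  | t :: l, z, h => by
    have hlast : z.1.getLast? ≠ some t := by
      intro e
      obtain ⟨z', hz'⟩ : ∃ z', z.1 = z' ++ [t] := by
        have := List.getLast?_eq_some_iff.mp e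
        exact this
      rw [hz'] at h
      have h2 : (z' ++ [t] ++ t :: l).IsChain (· ≠ ·) := h
      have h3 : (z' ++ (t :: t :: l)).IsChain (· ≠ ·) := by simpa using h2
      have h4 := List.isChain_append.mp h3
      have h5 := h4.2.1
      simp at h5
    rw [gwL_cons, gwL_val l (flipAut t z)]
    · rw [flip_append hlast]; simp
    · rw [flip_append hlast]; simpa using h

lemma gwL_root (w : Word d) : gwL w.1 root = w := by
  apply Subtype.ext
  rw [gwL_val w.1 root (by simpa [root] using w.2)]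
  simp [root]

/-! ### Sums over spheres with a forbidden first letter -/

/-- The words of length `n` whose head is not `s`. -/
noncomputable def sphF (n : ℕ) (s : Option (Fin d)) : Finset (Word d) :=
  (sph n).filter (fun w => ∀ x, s = some x → w.1.head? ≠ some x)

lemma mem_sphF {n : ℕ} {s : Option (Fin d)} {v : Word d} :
    v ∈ sphF n s ↔ len v = n ∧ ∀ x, s = some x → v.1.head? ≠ some x := by
  simp [sphF, mem_sph']

lemma sphF_none (n : ℕ) : (sphF n none : Finset (Word d)) = sph n := by
  ext v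
  simp [mem_sphF, mem_sph']

/-- The letters different from `s`. -/
noncomputable def lettersF (s : Option (Fin d)) : Finset (Fin d) :=
  Finset.univ.filter (fun t => ∀ x, s = some x → t ≠ x)

/-- Adding a letter at the head of a word. -/
def wordConsT (t : Fin d) (w : Word d) (h : w.1.head? ≠ some t) : Word d :=
  ⟨t :: w.1, by
    obtain ⟨l, hl⟩ := w
    cases l with
    | nil => exact List.isChain_singleton t
    | cons b r =>
      refine List.isChain_cons_cons.mpr ⟨?_, hl⟩
      intro e
      apply h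
      simp [e]⟩

lemma sum_sphF_succ (n : ℕ) (s : Option (Fin d)) (g : List (Fin d) → ℝ) :
    ∑ w ∈ (sphF (n + 1) s : Finset (Word d)), g w.1 =
      ∑ t ∈ lettersF s, ∑ w ∈ (sphF n (some t) : Finset (Word d)), g (t :: w.1) := by
  classical
  rw [Finset.sum_sigma']
  have hne : ∀ w ∈ (sphF (n + 1) s : Finset (Word d)), w.1 ≠ [] := by
    intro w hw h0
    have := (mem_sphF.mp hw).1
    unfold len at this
    rw [h0] at this
    simp at this
  have hi : ∀ a ∈ (lettersF s).sigma (fun t => (sphF n (some t) : Finset (Word d))),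
      a.2.1.head? ≠ some a.1 := by
    intro a ha
    exact (mem_sphF.mp (Finset.mem_sigma.mp ha).2).2 a.1 rfl
  symm
  refine Finset.sum_bij' (fun a ha => wordConsT a.1 a.2 (hi a ha))
    (fun w hw => (⟨w.1.head (hne w hw), parent w⟩ : Σ _ : Fin d, Word d)) ?_ ?_ ?_ ?_ ?_
  · intro a ha
    obtain ⟨t, w⟩ := a
    simp only [Finset.mem_sigma, mem_sphF, lettersF, Finset.mem_filter, Finset.mem_univ, true_and] at ha ⊢
    refine ⟨?_, fun x hx => ?_⟩
    · simp only [wordConsT, len, List.length_cons]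
      have := ha.2.1
      unfold len at this
      omega
    · simp only [wordConsT, List.head?_cons, ne_eq, Option.some.injEq]
      exact ha.1 x hx
  · intro w hw
    obtain ⟨l, hl⟩ := w
    have hne' := hne _ hw
    simp only [mem_sphF] at hw
    simp only [Finset.mem_sigma, mem_sphF, lettersF, Finset.mem_filter, Finset.mem_univ, true_and]
    cases l with
    | nil => exact absurd rfl hne'
    | cons b r =>
      simp only [List.head_cons, parent, List.tail_cons]
      refine ⟨fun x hx e => ?_, ?_, fun x hx e => ?_⟩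
      · apply hw.2 x hx
        simp [e]
      · have := hw.1
        simp only [len, List.length_cons] at this ⊢
        omega
      · simp only [Option.some.injEq] at hx
        subst hx
        cases r with
        | nil => simp at e
        | cons c r' =>
          have h1 := (List.isChain_cons_cons.mp hl).1
          simp only [List.head?_cons, Option.some.injEq] at e
          exact h1 e.symm
  · intro a ha
    obtain ⟨t, w⟩ := a
    simp [wordConsT, parent]
  · intro w hw
    obtain ⟨l, hl⟩ := w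
    have hne' := hne _ hw
    cases l with
    | nil => exact absurd rfl hne'
    | cons b r => simp [wordConsT, parent]
  · intro a ha
    simp [wordConsT]

lemma sum_sphF_zero (s : Option (Fin d)) (g : List (Fin d) → ℝ) :
    ∑ w ∈ (sphF 0 s : Finset (Word d)), g w.1 = g [] := by
  have : (sphF 0 s : Finset (Word d)) = {root} := by
    ext v
    simp only [mem_sphF, Finset.mem_singleton]
    constructor
    · exact fun h => len_eq_zero h.1
    · rintro rfl
      exact ⟨rfl, fun x _ => by simp [root]⟩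
  rw [this]
  simp [root]

/-! ### The recursion for the sphere sum -/

/-- The sum over reduced words with forbidden head `s` of `(r ^ len (g_w h))⁻¹`. -/
noncomputable def sphTT (r : ℝ) : ℕ → Option (Fin d) → Word d → ℝ
  | 0, _, h => (r ^ len h)⁻¹
  | n + 1, s, h => ∑ t ∈ lettersF s, sphTT r n (some t) (flipAut t h)

lemma sum_sphF_eq_sphTT (r : ℝ) : ∀ (n : ℕ) (s : Option (Fin d)) (h : Word d),
    ∑ w ∈ (sphF n s : Finset (Word d)), (r ^ len (gwL w.1 h))⁻¹ = sphTT r n s h
  | 0, s, h => by
    rw [sum_sphF_zero s (fun l => (r ^ len (gwL l h))⁻¹)]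
    simp [sphTT, gwL]
  | n + 1, s, h => by
    rw [sum_sphF_succ n s (fun l => (r ^ len (gwL l h))⁻¹)]
    simp only [sphTT]
    refine Finset.sum_congr rfl fun t _ => ?_
    rw [← sum_sphF_eq_sphTT r n (some t) (flipAut t h)]
    rfl

lemma card_lettersF_some (t : Fin d) : ((lettersF (some t)).card : ℝ) = d - 1 := by
  classical
  have : lettersF (some t) = Finset.univ.erase t := by
    ext x
    simp [lettersF]
  rw [this, Finset.card_erase_of_mem (Finset.mem_univ _), Finset.card_univ, Fintype.card_fin]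
  have : 1 ≤ d := by
    have := t.2
    omega
  push_cast [Nat.cast_sub this]
  ring

lemma lettersF_none : (lettersF none : Finset (Fin d)) = Finset.univ := by
  ext x
  simp [lettersF]

/-- After an append there are no cancellations. -/
lemma sphTT_append {r : ℝ} (hr : 0 < r) (hrk : r ^ 4 = (d : ℝ) - 1) : ∀ (n : ℕ) (t : Fin d) (z : Word d),
    z.1.getLast? = some t → sphTT r n (some t) z = r ^ (3 * n) * (r ^ len z)⁻¹
  | 0, t, z, _ => by simp [sphTT]
  | n + 1, t, z, hz => by
    simp only [sphTT]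
    have key : ∀ u ∈ lettersF (some t), sphTT r n (some u) (flipAut u z) =
        r ^ (3 * n) * (r ^ (len z + 1))⁻¹ := by
      intro u hu
      have hne : u ≠ t := by
        simpa [lettersF] using hu
      have h1 : z.1.getLast? ≠ some u := by
        rw [hz]
        simpa using hne.symm
      rw [sphTT_append hr hrk n u (flipAut u z) (last_flip_append h1), len_flip_append h1]
    rw [Finset.sum_congr rfl key, Finset.sum_const, nsmul_eq_mul, card_lettersF_some, ← hrk]
    have : r ≠ 0 := hr.ne'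
    field_simp
    ring

/-- The main bound for a forbidden letter. -/
lemma sphTT_le {r : ℝ} (hr : 1 ≤ r) (hrk : r ^ 4 = (d : ℝ) - 1) : ∀ (n : ℕ) (s : Fin d) (h : Word d),
    sphTT r n (some s) h ≤ 2 * (r ^ (3 * n) * (r ^ len h)⁻¹)
  | 0, s, h => by
    simp only [sphTT, Nat.mul_zero, pow_zero, one_mul]
    have : 0 ≤ (r ^ len h)⁻¹ := by positivity
    linarith
  | n + 1, s, h => by
    classical
    have hr0 : 0 < r := by linarith
    set X := r ^ (3 * n) * (r ^ len h)⁻¹ with hX
    have hX0 : 0 < X := by positivity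
    have happ : ∀ u : Fin d, h.1.getLast? ≠ some u → sphTT r n (some u) (flipAut u h) = X * r⁻¹ := by
      intro u hu
      rw [sphTT_append hr0 hrk n u (flipAut u h) (last_flip_append hu), len_flip_append hu, hX, pow_succ,
        mul_inv]
      ring
    simp only [sphTT]
    have hXe : r ^ (3 * (n + 1)) * (r ^ len h)⁻¹ = X * r ^ 3 := by
      rw [hX]; ring
    rw [hXe]
    by_cases hc : ∃ l, h.1.getLast? = some l ∧ l ≠ s
    · obtain ⟨l, hl, hls⟩ := hc
      have hlmem : l ∈ lettersF (some s) := by simpa [lettersF] using hls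
      rw [← Finset.add_sum_erase _ _ hlmem]
      -- the cancelling term
      have h1 : sphTT r n (some l) (flipAut l h) ≤ 2 * (X * r) := by
        refine (sphTT_le hr hrk n l (flipAut l h)).trans (le_of_eq ?_)
        have h2 := len_flip_drop hl
        rw [hX, ← h2, pow_succ, mul_inv]
        have : r ≠ 0 := hr0.ne'
        field_simp
      -- the other terms
      have h2 : ∑ u ∈ (lettersF (some s)).erase l, sphTT r n (some u) (flipAut u h) =
          ((d : ℝ) - 2) * (X * r⁻¹) := by
        have key : ∀ u ∈ (lettersF (some s)).erase l, sphTT r n (some u) (flipAut u h) = X * r⁻¹ := by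
          intro u hu
          apply happ u
          rw [hl]
          have := (Finset.mem_erase.mp hu).1
          simpa using this.symm
        rw [Finset.sum_congr rfl key, Finset.sum_const, nsmul_eq_mul,
          Finset.card_erase_of_mem hlmem]
        have hc1 := card_lettersF_some s
        have h1le : 1 ≤ (lettersF (some s)).card := Finset.card_pos.mpr ⟨l, hlmem⟩
        rw [Nat.cast_sub h1le, hc1]
        push_cast
        ring
      rw [h2]
      have e : (d : ℝ) - 2 = r ^ 4 - 1 := by rw [hrk]; ring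
      rw [e]
      have hrinv : r * r⁻¹ = 1 := mul_inv_cancel₀ hr0.ne'
      have key2 : (r ^ 4 - 1) * (X * r⁻¹) = X * r ^ 3 - X * r⁻¹ := by
        have : r ^ 4 * r⁻¹ = r ^ 3 := by
          rw [show r ^ 4 = r ^ 3 * r by ring, mul_assoc, hrinv, mul_one]
        calc (r ^ 4 - 1) * (X * r⁻¹) = X * (r ^ 4 * r⁻¹) - X * r⁻¹ := by ring
          _ = _ := by rw [this]
      rw [key2]
      have hinv : 0 < r⁻¹ := by positivity
      -- `2 r ≤ r³ + r⁻¹`
      have key3 : 2 * r ≤ r ^ 3 + r⁻¹ := by
        have h5 : (r ^ 3 + r⁻¹ - 2 * r) = r⁻¹ * (r ^ 2 - 1) ^ 2 := by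
          have : r ^ 4 * r⁻¹ = r ^ 3 := by
            rw [show r ^ 4 = r ^ 3 * r by ring, mul_assoc, hrinv, mul_one]
          have h6 : r ^ 2 * r⁻¹ = r := by
            rw [show r ^ 2 = r * r by ring, mul_assoc, hrinv, mul_one]
          calc r ^ 3 + r⁻¹ - 2 * r = r ^ 4 * r⁻¹ + r⁻¹ - 2 * (r ^ 2 * r⁻¹) := by rw [this, h6]
            _ = _ := by ring
        have : 0 ≤ r⁻¹ * (r ^ 2 - 1) ^ 2 := by positivity
        linarith
      have := mul_le_mul_of_nonneg_left key3 hX0.le
      nlinarith
    · -- no cancellation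
      have key : ∀ u ∈ lettersF (some s), sphTT r n (some u) (flipAut u h) = X * r⁻¹ := by
        intro u hu
        apply happ u
        intro e
        apply hc
        refine ⟨u, e, ?_⟩
        simpa [lettersF] using hu
      rw [Finset.sum_congr rfl key, Finset.sum_const, nsmul_eq_mul, card_lettersF_some, ← hrk]
      have hrinv : r * r⁻¹ = 1 := mul_inv_cancel₀ hr0.ne'
      have : r ^ 4 * (X * r⁻¹) = X * r ^ 3 := by
        calc r ^ 4 * (X * r⁻¹) = X * r ^ 3 * (r * r⁻¹) := by ring
          _ = _ := by rw [hrinv, mul_one]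
      rw [this]
      have : 0 < X * r ^ 3 := by positivity
      linarith

/-- The bound on the whole sphere, in the form of a power of `r`. -/
lemma sphTT_none_le {r : ℝ} (hr : 1 ≤ r) (hrk : r ^ 4 = (d : ℝ) - 1) : ∀ (n : ℕ) (h : Word d),
    sphTT r n none h ≤ 3 * (r ^ (3 * n) * (r ^ len h)⁻¹)
  | 0, h => by
    simp only [sphTT, Nat.mul_zero, pow_zero, one_mul]
    have : 0 ≤ (r ^ len h)⁻¹ := by positivity
    linarith
  | n + 1, h => by
    classical
    have hr0 : 0 < r := by linarith
    set X := r ^ (3 * n) * (r ^ len h)⁻¹ with hX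
    have hX0 : 0 < X := by positivity
    have happ : ∀ u : Fin d, h.1.getLast? ≠ some u → sphTT r n (some u) (flipAut u h) = X * r⁻¹ := by
      intro u hu
      rw [sphTT_append hr0 hrk n u (flipAut u h) (last_flip_append hu), len_flip_append hu, hX, pow_succ,
        mul_inv]
      ring
    simp only [sphTT]
    have hXe : r ^ (3 * (n + 1)) * (r ^ len h)⁻¹ = X * r ^ 3 := by
      rw [hX]; ring
    rw [hXe, lettersF_none]
    have hrinv : r * r⁻¹ = 1 := mul_inv_cancel₀ hr0.ne'
    have hr3 : r ^ 4 * (X * r⁻¹) = X * r ^ 3 := by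
      calc r ^ 4 * (X * r⁻¹) = X * r ^ 3 * (r * r⁻¹) := by ring
        _ = _ := by rw [hrinv, mul_one]
    have hinvle : r⁻¹ ≤ r ^ 3 := by
      have : r⁻¹ ≤ 1 := inv_le_one_of_one_le₀ hr
      have h2 : 1 ≤ r ^ 3 := one_le_pow₀ hr
      linarith
    by_cases hc : ∃ l, h.1.getLast? = some l
    · obtain ⟨l, hl⟩ := hc
      rw [← Finset.add_sum_erase _ _ (Finset.mem_univ l)]
      have h1 : sphTT r n (some l) (flipAut l h) ≤ 2 * (X * r) := by
        refine (sphTT_le hr hrk n l (flipAut l h)).trans (le_of_eq ?_)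
        have h2 := len_flip_drop hl
        rw [hX, ← h2, pow_succ, mul_inv]
        have : r ≠ 0 := hr0.ne'
        field_simp
      have h2 : ∑ u ∈ Finset.univ.erase l, sphTT r n (some u) (flipAut u h) = ((d : ℝ) - 1) * (X * r⁻¹) := by
        have key : ∀ u ∈ (Finset.univ : Finset (Fin d)).erase l, sphTT r n (some u) (flipAut u h) = X * r⁻¹ := by
          intro u hu
          apply happ u
          rw [hl]
          have := (Finset.mem_erase.mp hu).1
          simpa using this.symm
        rw [Finset.sum_congr rfl key, Finset.sum_const, nsmul_eq_mul,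
          Finset.card_erase_of_mem (Finset.mem_univ _), Finset.card_univ, Fintype.card_fin]
        have : 1 ≤ d := by
          have := l.2
          omega
        push_cast [Nat.cast_sub this]
        ring
      rw [h2, ← hrk, hr3]
      have h3 : r ≤ r ^ 3 := by
        calc r = r * 1 := by ring
          _ ≤ r * r ^ 2 := mul_le_mul_of_nonneg_left (one_le_pow₀ hr) hr0.le
          _ = r ^ 3 := by ring
      have := mul_le_mul_of_nonneg_left h3 hX0.le
      nlinarith
    · have key : ∀ u ∈ (Finset.univ : Finset (Fin d)), sphTT r n (some u) (flipAut u h) = X * r⁻¹ := by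
        intro u _
        apply happ u
        intro e
        exact hc ⟨u, e⟩
      rw [Finset.sum_congr rfl key, Finset.sum_const, nsmul_eq_mul, Finset.card_univ, Fintype.card_fin]
      have e : (d : ℝ) = r ^ 4 + 1 := by rw [hrk]; ring
      rw [e]
      have h5 : X * r⁻¹ ≤ X * r ^ 3 := mul_le_mul_of_nonneg_left hinvle hX0.le
      have h6 : (r ^ 4 + 1) * (X * r⁻¹) = r ^ 4 * (X * r⁻¹) + X * r⁻¹ := by ring
      rw [h6, hr3]
      have : 0 < X * r ^ 3 := by positivity
      linarith

/-- The sphere lemma: averaging `k^(-len/4)` over a sphere gains `k^(-n/4)`. -/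
theorem sphere_sum (hd : 3 ≤ d) (n : ℕ) (h : Word d) :
    ∑ w ∈ (sph n : Finset (Word d)), ((d : ℝ) - 1) ^ (-(len (gwL w.1 h) : ℝ) / 4) ≤
      3 * ((d : ℝ) - 1) ^ (3 * (n : ℝ) / 4 - (len h : ℝ) / 4) := by
  have hd2 : (2 : ℝ) ≤ (d : ℝ) - 1 := by
    have : (3 : ℝ) ≤ d := by exact_mod_cast hd
    linarith
  set k : ℝ := (d : ℝ) - 1 with hk
  have hk0 : 0 < k := by linarith
  set r : ℝ := k ^ ((1 : ℝ) / 4) with hr
  have hr0 : 0 < r := Real.rpow_pos_of_pos hk0 _
  have hr1 : 1 ≤ r := Real.one_le_rpow (by linarith) (by norm_num)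
  have hrk : r ^ 4 = (d : ℝ) - 1 := by
    rw [hr, ← Real.rpow_natCast, ← Real.rpow_mul hk0.le]
    norm_num
    exact hk
  have hpow : ∀ x : ℝ, k ^ (x / 4) = r ^ x := by
    intro x
    rw [hr, ← Real.rpow_mul hk0.le]
    congr 1
    ring
  have e1 : ∀ w : Word d, k ^ (-(len (gwL w.1 h) : ℝ) / 4) = (r ^ len (gwL w.1 h))⁻¹ := by
    intro w
    rw [hpow, Real.rpow_neg hr0.le, Real.rpow_natCast]
  rw [Finset.sum_congr rfl (fun w _ => e1 w), ← sphF_none, sum_sphF_eq_sphTT r n none h]
  refine (sphTT_none_le hr1 hrk n h).trans (le_of_eq ?_)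
  have e2 : 3 * (n : ℝ) / 4 - (len h : ℝ) / 4 = (3 * (n : ℝ) - len h) / 4 := by ring
  rw [e2, hpow, Real.rpow_sub hr0, Real.rpow_natCast]
  have : r ^ (3 * (n : ℝ)) = r ^ (3 * n) := by
    rw [← Real.rpow_natCast]
    congr 1
    push_cast
    ring
  rw [this]
  rfl

/-! ### Cardinality of spheres -/

lemma card_sphF_some : ∀ (n : ℕ) (t : Fin d), (((sphF n (some t) : Finset (Word d))).card : ℝ) = ((d : ℝ) - 1) ^ n
  | 0, t => by
    have := sum_sphF_zero (d := d) (some t) (fun _ => 1)
    simpa using this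
  | n + 1, t => by
    have := sum_sphF_succ (d := d) n (some t) (fun _ => 1)
    simp only [Finset.sum_const, nsmul_eq_mul, mul_one] at this
    rw [this, Finset.sum_congr rfl (fun u _ => card_sphF_some n u), Finset.sum_const, nsmul_eq_mul,
      card_lettersF_some, pow_succ]
    ring

lemma card_sph {n : ℕ} (hd : 2 ≤ d) (hn : 1 ≤ n) :
    ((sph n : Finset (Word d)).card : ℝ) = d * (d - 1) ^ (n - 1) := by
  obtain ⟨m, rfl⟩ : ∃ m, n = m + 1 := ⟨n - 1, by omega⟩
  rw [← sphF_none]
  have := sum_sphF_succ (d := d) m none (fun _ => 1)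
  simp only [Finset.sum_const, nsmul_eq_mul, mul_one] at this
  rw [this, Finset.sum_congr rfl (fun u _ => card_sphF_some m u), Finset.sum_const, nsmul_eq_mul,
    lettersF_none, Finset.card_univ, Fintype.card_fin]
  simp

end Vale.Agent.Lib.P161B
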