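import Vale.Agent.Lib.P161B.Setting
import Vale.Agent.Lib.P161B.TemperAbs

/-!
Temperedness, the application: the Koopman operators of the action on `L²`, the average over the reduced words
with first and last letter different from a fixed letter, and the passage from the decay of the covariance of
the edge functions to the decay of the correlations of their errors.
-/

namespace Vale.Agent.Lib.P161B

open MeasureTheory ProbabilityTheory Filter
open Vale.Agent.Lib.P161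

variable {d : ℕ} {θ : ℝ} {μ : Measure ℝ}

/-- The reversal of a reduced word. -/
def ta_rev (w : Word d) : Word d :=
  ⟨w.1.reverse, by
    rw [List.isChain_reverse]
    have hw := w.2
    have hflip : (fun a b : Fin d => b ≠ a) = (· ≠ ·) := by
      funext a b
      simp [ne_comm]
    rw [hflip]
    exact hw⟩

@[simp] lemma ta_rev_val (w : Word d) : (ta_rev w).1 = w.1.reverse := rfl

@[simp] lemma ta_rev_rev (w : Word d) : ta_rev (ta_rev w) = w := Subtype.ext (by simp)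

@[simp] lemma ta_len_rev (w : Word d) : len (ta_rev w) = len w := by simp [len]

lemma ta_flip_mul (s : Fin d) : (flipAut s : Aut d) * flipAut s = 1 := by
  ext1 v
  exact flipAut_flipAut s v

lemma ta_flip_inv (s : Fin d) : (flipAut s : Aut d)⁻¹ = flipAut s :=
  inv_eq_of_mul_eq_one_left (ta_flip_mul s)

lemma ta_gwL_append (l : List (Fin d)) (s : Fin d) : gwL (l ++ [s]) = flipAut s * gwL l := by
  induction l with
  | nil => simp [gwL]
  | cons a l ih => simp [gwL, ih, mul_assoc]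

lemma ta_gwL_reverse (l : List (Fin d)) : gwL l.reverse = (gwL l)⁻¹ := by
  induction l with
  | nil => simp [gwL]
  | cons a l ih =>
    rw [List.reverse_cons, ta_gwL_append, ih]
    simp [gwL, ta_flip_inv]

lemma ta_gwL_rev (w : Word d) : gwL (ta_rev w).1 = (gwL w.1)⁻¹ := ta_gwL_reverse _

lemma ta_mem_sph {n : ℕ} {w : Word d} : w ∈ (sph n : Finset (Word d)) ↔ len w = n := by
  simp only [sph, Finset.mem_filter, mem_ball]
  constructor
  · exact fun h => h.2
  · exact fun h => ⟨h.le, h⟩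

/-- Words of length `n` with first letter `i`. -/
noncomputable def ta_Hd (i : Fin d) (n : ℕ) : Finset (Word d) :=
  (sph n).filter (fun w => w.1.head? = some i)

/-- Words of length `n` with last letter `i`. -/
noncomputable def ta_Lt (i : Fin d) (n : ℕ) : Finset (Word d) :=
  (sph n).filter (fun w => w.1.getLast? = some i)

/-- Words of length `n` with first and last letter different from `i`. -/
noncomputable def ta_Gm (i : Fin d) (n : ℕ) : Finset (Word d) :=
  (sph n).filter (fun w => w.1.head? ≠ some i ∧ w.1.getLast? ≠ some i)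

lemma ta_Hd_succ (i : Fin d) (n : ℕ) :
    (ta_Hd i (n + 1)).card + (ta_Hd i n).card = (sph n : Finset (Word d)).card := by
  have h1 : (ta_Hd i (n + 1)).card = ((sph n : Finset (Word d)).filter (fun w => ¬ w.1.head? = some i)).card := by
    refine Finset.card_nbij' parent (fun v => if h : v.1.head? = some i then root else
      ⟨i :: v.1, by
        cases hv : v.1 with
        | nil => exact List.isChain_singleton i
        | cons a l =>
          refine List.isChain_cons_cons.mpr ⟨?_, ?_⟩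
          · rintro rfl
            simp [hv] at h
          · have := v.2
            rwa [hv] at this⟩) ?_ ?_ ?_ ?_
    · intro w hw
      simp only [ta_Hd, Finset.coe_filter, Set.mem_ofPred_eq, ta_mem_sph] at hw
      obtain ⟨hl, hh⟩ := hw
      simp only [Finset.coe_filter, Set.mem_ofPred_eq, ta_mem_sph]
      obtain ⟨l, hw1⟩ := w
      cases l with
      | nil => simp at hh
      | cons a l =>
        simp at hh
        subst hh
        simp only [len, List.length_cons] at hl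
        refine ⟨by simpa [len, parent] using hl, ?_⟩
        simp only [parent, List.tail_cons]
        cases l with
        | nil => simp
        | cons b l =>
          have := (List.isChain_cons_cons.mp hw1).1
          simpa using fun h => this h.symm
    · intro v hv
      simp only [Finset.coe_filter, Set.mem_ofPred_eq, ta_mem_sph] at hv
      obtain ⟨hl, hh⟩ := hv
      simp only [ta_Hd, Finset.coe_filter, Set.mem_ofPred_eq, ta_mem_sph]
      rw [dif_neg hh]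
      refine ⟨by simp [len] at hl ⊢; exact hl, by simp⟩
    · intro w hw
      simp only [ta_Hd, Finset.coe_filter, Set.mem_ofPred_eq, ta_mem_sph] at hw
      obtain ⟨hl, hh⟩ := hw
      obtain ⟨l, hw1⟩ := w
      cases l with
      | nil => simp at hh
      | cons a l =>
        simp at hh
        subst hh
        have hne : ¬ ((parent (⟨a :: l, hw1⟩ : Word d)).1.head? = some a) := by
          simp only [parent, List.tail_cons]
          cases l with
          | nil => simp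
          | cons b l =>
            have := (List.isChain_cons_cons.mp hw1).1
            simpa using fun h => this h.symm
        simp only [dif_neg hne]
        exact Subtype.ext (by simp [parent])
    · intro v hv
      simp only [Finset.coe_filter, Set.mem_ofPred_eq, ta_mem_sph] at hv
      obtain ⟨hl, hh⟩ := hv
      simp only [dif_neg hh]
      exact Subtype.ext (by simp [parent])
  rw [h1, add_comm]
  have := Finset.card_filter_add_card_filter_not (s := (sph n : Finset (Word d)))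
    (fun w => w.1.head? = some i)
  simpa [ta_Hd] using this

lemma ta_Hd_card (hd : 2 ≤ d) (i : Fin d) {n : ℕ} (hn : 1 ≤ n) :
    ((ta_Hd i n).card : ℝ) = ((d : ℝ) - 1) ^ (n - 1) := by
  induction n, hn using Nat.le_induction with
  | base =>
    have : ta_Hd i 1 = {letter i} := by
      ext w
      simp only [ta_Hd, Finset.mem_filter, ta_mem_sph, Finset.mem_singleton]
      constructor
      · rintro ⟨h1, h2⟩
        obtain ⟨l, hl⟩ := w
        cases l with
        | nil => simp at h2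
        | cons a l =>
          simp only [len, List.length_cons] at h1
          have hl0 : l = [] := by
            exact List.length_eq_zero_iff.mp (by omega)
          subst hl0
          simp at h2
          subst h2
          rfl
      · rintro rfl
        exact ⟨rfl, rfl⟩
    rw [this]
    simp
  | succ n hn ih =>
    have h1 := ta_Hd_succ i n
    have h2 : ((ta_Hd i (n + 1)).card : ℝ) + (ta_Hd i n).card = (sph n : Finset (Word d)).card := by
      exact_mod_cast h1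
    rw [card_sph hd hn, ih] at h2
    have h3 : n + 1 - 1 = (n - 1) + 1 := by omega
    rw [h3, pow_succ]
    linarith

lemma ta_Lt_card (i : Fin d) (n : ℕ) : (ta_Lt i n).card = (ta_Hd i n).card := by
  refine Finset.card_nbij' ta_rev ta_rev ?_ ?_ ?_ ?_
  · intro w hw
    simp only [ta_Lt, ta_Hd, Finset.coe_filter, Set.mem_ofPred_eq, ta_mem_sph] at hw ⊢
    refine ⟨by simpa using hw.1, by simpa using hw.2⟩
  · intro w hw
    simp only [ta_Lt, ta_Hd, Finset.coe_filter, Set.mem_ofPred_eq, ta_mem_sph] at hw ⊢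
    refine ⟨by simpa using hw.1, by simpa using hw.2⟩
  · intro w _; simp
  · intro w _; simp

lemma ta_Gm_card_ge (hd : 2 ≤ d) (i : Fin d) {n : ℕ} (hn : 1 ≤ n) :
    ((d : ℝ) - 2) * ((d : ℝ) - 1) ^ (n - 1) ≤ ((ta_Gm i n).card : ℝ) := by
  have hsub : (sph n : Finset (Word d)) ⊆ ta_Gm i n ∪ (ta_Hd i n ∪ ta_Lt i n) := by
    intro w hw
    simp only [ta_Gm, ta_Hd, ta_Lt, Finset.mem_union, Finset.mem_filter]
    tauto
  have h1 := Finset.card_le_card hsub
  have h2 := Finset.card_union_le (ta_Gm i n) (ta_Hd i n ∪ ta_Lt i n)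
  have h3 := Finset.card_union_le (ta_Hd i n) (ta_Lt i n)
  have h4 : ((sph n : Finset (Word d)).card : ℝ) ≤ ((ta_Gm i n).card : ℝ) + ((ta_Hd i n).card + (ta_Lt i n).card) := by
    exact_mod_cast h1.trans (h2.trans (Nat.add_le_add_left h3 _))
  rw [card_sph hd hn, ta_Lt_card, ta_Hd_card hd i hn] at h4
  nlinarith

lemma ta_rev_mem_Gm {i : Fin d} {n : ℕ} {w : Word d} (hw : w ∈ ta_Gm i n) : ta_rev w ∈ ta_Gm i n := by
  simp only [ta_Gm, Finset.mem_filter, ta_mem_sph] at hw ⊢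
  refine ⟨by simpa using hw.1, by simpa using hw.2.2, by simpa using hw.2.1⟩

lemma ta_Gm_sub (i : Fin d) (n : ℕ) : ta_Gm i n ⊆ (sph n : Finset (Word d)) :=
  Finset.filter_subset _ _


section Abstract

variable {H : Type*} [NormedAddCommGroup H] [InnerProductSpace ℝ H]

/-- The average of the action over a finite set of words. -/
noncomputable def ta_T (u : Aut d → H →ₗᵢ[ℝ] H) (Γ : Finset (Word d)) : H →ₗ[ℝ] H :=
  ((Γ.card : ℝ)⁻¹) • ∑ w ∈ Γ, (u (gwL w.1)).toLinearMap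

lemma ta_T_apply (u : Aut d → H →ₗᵢ[ℝ] H) (Γ : Finset (Word d)) (x : H) :
    ta_T u Γ x = ((Γ.card : ℝ)⁻¹) • ∑ w ∈ Γ, u (gwL w.1) x := by
  simp [ta_T, LinearMap.sum_apply]

lemma ta_pow_self_adj {T : H →ₗ[ℝ] H} (hT : ∀ x y, inner ℝ (T x) y = inner ℝ x (T y)) (m : ℕ) (x y : H) :
    inner ℝ ((T ^ m) x) y = inner ℝ x ((T ^ m) y) := by
  induction m generalizing x y with
  | zero => simp
  | succ m ih =>
    calc inner ℝ ((T ^ (m + 1)) x) y = inner ℝ ((T ^ m) (T x)) y := by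
          rw [pow_succ, Module.End.mul_apply]
      _ = inner ℝ (T x) ((T ^ m) y) := ih _ _
      _ = inner ℝ x (T ((T ^ m) y)) := hT _ _
      _ = inner ℝ x ((T ^ (m + 1)) y) := by rw [pow_succ', Module.End.mul_apply]

theorem ta_abstract (hd : 3 ≤ d) {n : ℕ} (u : Aut d → H →ₗᵢ[ℝ] H) (hu1 : ∀ x, u 1 x = x)
    (humul : ∀ g h x, u (g * h) x = u h (u g x))
    (A : H →ₗ[ℝ] H) (hA : ∀ x, ‖A x‖ ≤ ‖x‖) (hAu : ∀ g x, A (u g x) = u g (A x))
    (f : H) {C : ℝ} (hC : 0 ≤ C)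
    (hdec : ∀ g : Aut d, |inner ℝ f (u g f)| ≤ C * ((d : ℝ) - 1) ^ (-(len (g⁻¹ root) : ℝ) / 4))
    {Γ : Finset (Word d)} (hΓ : Γ ⊆ (sph n : Finset (Word d))) (hne : Γ.Nonempty)
    (hsym : ∀ w ∈ Γ, ta_rev w ∈ Γ)
    {R : ℝ} (hR : ∀ w ∈ Γ, inner ℝ (A f) (u (gwL w.1) (A f)) = R) :
    |R| ≤ (3 * ((d : ℝ) - 1) ^ (3 * (n : ℝ) / 4) / Γ.card) * ‖A f‖ ^ 2 := by
  have hk : (0 : ℝ) < (d : ℝ) - 1 := by
    have : (3 : ℝ) ≤ d := by exact_mod_cast hd
    linarith
  have hc : (0 : ℝ) < Γ.card := by exact_mod_cast hne.card_pos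
  set c : ℝ := (Γ.card : ℝ) with hcdef
  set T : H →ₗ[ℝ] H := ta_T u Γ with hTdef
  set lam : ℝ := 3 * ((d : ℝ) - 1) ^ (3 * (n : ℝ) / 4) / c with hlamdef
  have hlam : 0 ≤ lam := by
    have := Real.rpow_nonneg hk.le (3 * (n : ℝ) / 4)
    positivity
  have hTa : ∀ x, T x = c⁻¹ • ∑ w ∈ Γ, u (gwL w.1) x := fun x => ta_T_apply u Γ x
  -- the adjoint of one group element
  have hadj : ∀ (g : Aut d) (x y : H), inner ℝ (u g x) y = inner ℝ x (u g⁻¹ y) := by
    intro g x y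
    have h1 : u g (u g⁻¹ y) = y := by
      rw [← humul, inv_mul_cancel, hu1]
    calc inner ℝ (u g x) y = inner ℝ (u g x) (u g (u g⁻¹ y)) := by rw [h1]
      _ = inner ℝ x (u g⁻¹ y) := (u g).inner_map_map _ _
  -- self adjointness
  have hT : ∀ x y, inner ℝ (T x) y = inner ℝ x (T y) := by
    intro x y
    rw [hTa, hTa, inner_smul_left, inner_smul_right, sum_inner, inner_sum]
    congr 1
    refine Finset.sum_nbij' ta_rev ta_rev (fun w hw => hsym w hw) (fun w hw => hsym w hw)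
      (fun w _ => ta_rev_rev w) (fun w _ => ta_rev_rev w) ?_
    intro w _
    rw [hadj, ta_gwL_rev]
  -- the sphere estimate
  have hsph : ∀ h : Word d, ∑ w ∈ Γ, ((d : ℝ) - 1) ^ (-(len ((gwL w.1)⁻¹ h) : ℝ) / 4) ≤
      lam * c * ((d : ℝ) - 1) ^ (-(len h : ℝ) / 4) := by
    intro h
    have hrev : ∑ w ∈ Γ, ((d : ℝ) - 1) ^ (-(len ((gwL w.1)⁻¹ h) : ℝ) / 4) =
        ∑ w ∈ Γ, ((d : ℝ) - 1) ^ (-(len (gwL w.1 h) : ℝ) / 4) := by
      refine Finset.sum_nbij' ta_rev ta_rev (fun w hw => hsym w hw) (fun w hw => hsym w hw)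
        (fun w _ => ta_rev_rev w) (fun w _ => ta_rev_rev w) ?_
      intro w _
      rw [ta_gwL_rev]
    rw [hrev]
    have h1 : ∑ w ∈ Γ, ((d : ℝ) - 1) ^ (-(len (gwL w.1 h) : ℝ) / 4) ≤
        ∑ w ∈ (sph n : Finset (Word d)), ((d : ℝ) - 1) ^ (-(len (gwL w.1 h) : ℝ) / 4) :=
      Finset.sum_le_sum_of_subset_of_nonneg hΓ (fun w _ _ => Real.rpow_nonneg hk.le _)
    refine h1.trans ((sphere_sum hd n h).trans_eq ?_)
    rw [hlamdef, div_mul_cancel₀ _ hc.ne', mul_assoc, ← Real.rpow_add hk]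
    congr 2
    ring
  -- the decay of the iterates
  have hiter : ∀ (m : ℕ) (g : Aut d), |inner ℝ f ((T ^ m) (u g f))| ≤
      C * lam ^ m * ((d : ℝ) - 1) ^ (-(len (g⁻¹ root) : ℝ) / 4) := by
    intro m
    induction m with
    | zero =>
      intro g
      simpa using hdec g
    | succ m ih =>
      intro g
      have h1 : (T ^ (m + 1)) (u g f) = c⁻¹ • ∑ w ∈ Γ, (T ^ m) (u (g * gwL w.1) f) := by
        rw [pow_succ, Module.End.mul_apply, hTa, map_smul, map_sum]
        congr 2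
        funext w
        rw [humul]
      rw [h1, inner_smul_right, inner_sum, abs_mul, abs_of_pos (inv_pos.mpr hc)]
      have h2 : |∑ w ∈ Γ, inner ℝ f ((T ^ m) (u (g * gwL w.1) f))| ≤
          ∑ w ∈ Γ, C * lam ^ m * ((d : ℝ) - 1) ^ (-(len ((gwL w.1)⁻¹ (g⁻¹ root)) : ℝ) / 4) := by
        refine (Finset.abs_sum_le_sum_abs _ _).trans (Finset.sum_le_sum fun w _ => ?_)
        have := ih (g * gwL w.1)
        rwa [mul_inv_rev, RelIso.mul_apply] at this
      rw [← Finset.mul_sum] at h2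
      have h3 := hsph (g⁻¹ root)
      have hCl : 0 ≤ C * lam ^ m := mul_nonneg hC (pow_nonneg hlam m)
      have h4 := h2.trans (mul_le_mul_of_nonneg_left h3 hCl)
      calc c⁻¹ * |∑ w ∈ Γ, inner ℝ f ((T ^ m) (u (g * gwL w.1) f))|
          ≤ c⁻¹ * (C * lam ^ m * (lam * c * ((d : ℝ) - 1) ^ (-(len (g⁻¹ root) : ℝ) / 4))) :=
            mul_le_mul_of_nonneg_left h4 (inv_pos.mpr hc).le
        _ = C * lam ^ (m + 1) * ((d : ℝ) - 1) ^ (-(len (g⁻¹ root) : ℝ) / 4) := by
            field_simp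
            ring
  have hf : ∀ m : ℕ, ‖(T ^ m) f‖ ^ 2 ≤ C * lam ^ (2 * m) := by
    intro m
    have h1 : ‖(T ^ m) f‖ ^ 2 = inner ℝ f ((T ^ (2 * m)) (u 1 f)) := by
      rw [hu1, two_mul, pow_add, Module.End.mul_apply, ← ta_pow_self_adj hT, real_inner_self_eq_norm_sq]
    have h2 := hiter (2 * m) 1
    have h3 : ((1 : Aut d)⁻¹ root) = root := by simp
    rw [h3] at h2
    rw [h1]
    refine (le_abs_self _).trans (h2.trans_eq ?_)
    simp
  have hcomm : ∀ x, T (A x) = A (T x) := by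
    intro x
    rw [hTa, hTa, map_smul, map_sum]
    congr 2
    funext w
    rw [hAu]
  have hpow := power_trick T A hT hA hcomm f hC hlam hf
  have hin : inner ℝ (A f) (T (A f)) = R := by
    rw [hTa, inner_smul_right, inner_sum, Finset.sum_congr rfl hR]
    simp only [Finset.sum_const, nsmul_eq_mul]
    rw [← hcdef]
    field_simp
  rw [← hin]
  refine (abs_real_inner_le_norm _ _).trans ?_
  calc ‖A f‖ * ‖T (A f)‖ ≤ ‖A f‖ * (lam * ‖A f‖) := mul_le_mul_of_nonneg_left hpow (norm_nonneg _)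
    _ = lam * ‖A f‖ ^ 2 := by ring

end Abstract


section Concrete

variable [Corr θ] {Ω : Type} [MeasurableSpace Ω] {P : Measure Ω} [IsProbabilityMeasure P]
  (S : Setting d θ μ Ω P)

/-- The Koopman operators of the action. -/
noncomputable def ta_u (g : Aut d) : Lp ℝ 2 P →ₗᵢ[ℝ] Lp ℝ 2 P :=
  Lp.compMeasurePreservingₗᵢ ℝ (S.a g) (S.a_mp g)

lemma ta_u_ae (g : Aut d) (x : Lp ℝ 2 P) : (ta_u S g x : Ω → ℝ) =ᵐ[P] x ∘ S.a g :=
  Lp.coeFn_compMeasurePreserving x (S.a_mp g)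

lemma ta_u_mul (g h : Aut d) (x : Lp ℝ 2 P) : ta_u S (g * h) x = ta_u S h (ta_u S g x) := by
  apply Lp.ext
  have h1 := ta_u_ae S (g * h) x
  have h2 := ta_u_ae S h (ta_u S g x)
  have h3 := (S.a_mp h).quasiMeasurePreserving.ae_eq_comp (ta_u_ae S g x)
  refine h1.trans (EventuallyEq.trans ?_ (h2.trans h3).symm)
  refine Eventually.of_forall fun ω => ?_
  simp [Function.comp, S.a_mul]

lemma ta_u_one (x : Lp ℝ 2 P) : ta_u S 1 x = x := by
  have h : ta_u S 1 (ta_u S 1 x) = ta_u S 1 x := by rw [← ta_u_mul, mul_one]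
  have h2 : ‖ta_u S 1 (ta_u S 1 x - x)‖ = ‖ta_u S 1 x - x‖ := (ta_u S 1).norm_map _
  rw [map_sub, h, sub_self, norm_zero] at h2
  exact sub_eq_zero.mp (norm_eq_zero.mp h2.symm)

omit [IsProbabilityMeasure P] in
lemma ta_inner (x y : Lp ℝ 2 P) : inner ℝ x y = ∫ ω, x ω * y ω ∂P := by
  rw [L2.inner_def]
  refine integral_congr_ae (Eventually.of_forall fun ω => ?_)
  simp [mul_comm]

omit [IsProbabilityMeasure P] in
lemma ta_inner_congr {x y : Lp ℝ 2 P} {f g : Ω → ℝ} (hx : x =ᵐ[P] f) (hy : y =ᵐ[P] g) :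
    inner ℝ x y = ∫ ω, f ω * g ω ∂P := by
  rw [ta_inner]
  refine integral_congr_ae ?_
  filter_upwards [hx, hy] with ω h1 h2
  rw [h1, h2]

/-- The conditional expectation on `L²`. -/
noncomputable def ta_Pi : Lp ℝ 2 P →ₗ[ℝ] Lp ℝ 2 P :=
  (lpMeas ℝ ℝ S.G 2 P).subtype ∘ₗ (condExpL2 ℝ ℝ S.G_le).toLinearMap

lemma ta_Pi_apply (x : Lp ℝ 2 P) : ta_Pi S x = (condExpL2 ℝ ℝ S.G_le x : Lp ℝ 2 P) := rfl

lemma ta_Pi_ae (x : Lp ℝ 2 P) : (ta_Pi S x : Ω → ℝ) =ᵐ[P] S.Pi x := by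
  have h := (Lp.memLp x).condExpL2_ae_eq_condExp (E := ℝ) (𝕜 := ℝ) S.G_le
  rw [Lp.toLp_coeFn] at h
  exact h

/-- The error operator. -/
noncomputable def ta_A : Lp ℝ 2 P →ₗ[ℝ] Lp ℝ 2 P := LinearMap.id - ta_Pi S

lemma ta_A_apply (x : Lp ℝ 2 P) : ta_A S x = x - ta_Pi S x := rfl

lemma ta_A_ae {x : Lp ℝ 2 P} {f : Ω → ℝ} (hx : x =ᵐ[P] f) :
    (ta_A S x : Ω → ℝ) =ᵐ[P] fun ω => f ω - S.Pi f ω := by
  have h1 : S.Pi x =ᵐ[P] S.Pi f := condExp_congr_ae hx
  rw [ta_A_apply]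
  filter_upwards [Lp.coeFn_sub x (ta_Pi S x), ta_Pi_ae S x, h1, hx] with ω h2 h3 h4 h5
  rw [h2, Pi.sub_apply, h3, h4, h5]

lemma ta_A_le (x : Lp ℝ 2 P) : ‖ta_A S x‖ ≤ ‖x‖ := by
  have key : inner ℝ (ta_Pi S x) (ta_Pi S x) = inner ℝ x (ta_Pi S x) :=
    inner_condExpL2_eq_inner_fun S.G_le x (ta_Pi S x) (aestronglyMeasurable_condExpL2 S.G_le x)
  have h1 : ‖ta_A S x‖ ^ 2 ≤ ‖x‖ ^ 2 := by
    rw [ta_A_apply, norm_sub_sq_real, ← key, real_inner_self_eq_norm_sq]
    nlinarith [sq_nonneg ‖ta_Pi S x‖]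
  exact (pow_le_pow_iff_left₀ (norm_nonneg _) (norm_nonneg _) (by norm_num)).mp h1

lemma ta_A_u (g : Aut d) (x : Lp ℝ 2 P) : ta_A S (ta_u S g x) = ta_u S g (ta_A S x) := by
  apply Lp.ext
  have h1 := ta_A_ae S (ta_u_ae S g x)
  have h2 := ta_u_ae S g (ta_A S x)
  have h3 := (S.a_mp g).quasiMeasurePreserving.ae_eq_comp (ta_A_ae S (x := x) (Filter.EventuallyEq.refl _ _))
  have h4 : S.Pi ((x : Ω → ℝ) ∘ S.a g) =ᵐ[P] (S.Pi x) ∘ S.a g :=
    S.Pi_comp g ((Lp.memLp x).integrable (by norm_num))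
  filter_upwards [h1, h2, h3, h4] with ω e1 e2 e3 e4
  rw [e1, e2, Function.comp_apply, e3, e4]
  rfl

lemma ta_Pe_comm (a b : Word d) (y : Word d → ℝ) : Pe θ a b y = Pe θ b a y := by
  simp only [Pe, PsiE]
  rw [Rho_comm]

lemma ta_Pe_act (g : Aut d) (a b : Word d) (y : Word d → ℝ) :
    Pe θ a b (actS g y) = Pe θ (g⁻¹ a) (g⁻¹ b) y := by
  have h1 := mm_map θ g (g⁻¹ a) y
  have h2 := mm_map θ g (g⁻¹ b) y
  rw [RelIso.apply_inv_self] at h1 h2
  simp only [Pe, h1, h2]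

lemma ta_measurable_Pe (a b : Word d) : Measurable (Pe θ a b) := by
  have h : Measurable (fun y : Word d → ℝ => (mm θ a y, mm θ b y)) :=
    (measurable_mm θ a).prodMk (measurable_mm θ b)
  exact (measurable_PsiE (θ := θ)).comp h

lemma ta_law_int {G : (Word d → ℝ) → ℝ} (hG : Measurable G) :
    ∫ y, G y ∂(LawY d θ μ) = ∫ ω, G (S.y ω) ∂P := by
  rw [← S.law, integral_map S.y_meas.aemeasurable hG.aestronglyMeasurable]

lemma ta_int_a (g : Aut d) {G : Ω → ℝ} (hG : AEStronglyMeasurable G P) :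
    ∫ ω, G (S.a g ω) ∂P = ∫ ω, G ω ∂P := by
  have h := integral_map (S.a_mp g).measurable.aemeasurable (f := G)
    (by rw [(S.a_mp g).map_eq]; exact hG)
  rw [(S.a_mp g).map_eq] at h
  exact h.symm

variable (hF : ∀ a b : Word d, MemLp (fun ω => Pe θ a b (S.y ω)) 2 P)

/-- The edge function in `L²`. -/
noncomputable def ta_F (a b : Word d) : Lp ℝ 2 P := (hF a b).toLp _

lemma ta_F_ae (a b : Word d) : (ta_F S hF a b : Ω → ℝ) =ᵐ[P] fun ω => Pe θ a b (S.y ω) :=
  (hF a b).coeFn_toLp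

/-- The error of the edge function in `L²`. -/
noncomputable def ta_r (a b : Word d) : Lp ℝ 2 P := ta_A S (ta_F S hF a b)

lemma ta_r_ae (a b : Word d) : (ta_r S hF a b : Ω → ℝ) =ᵐ[P] S.re a b :=
  ta_A_ae S (ta_F_ae S hF a b)

lemma ta_F_comm (a b : Word d) : ta_F S hF a b = ta_F S hF b a := by
  apply Lp.ext
  filter_upwards [ta_F_ae S hF a b, ta_F_ae S hF b a] with ω h1 h2
  rw [h1, h2, ta_Pe_comm]

lemma ta_r_comm (a b : Word d) : ta_r S hF a b = ta_r S hF b a := by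
  rw [ta_r, ta_F_comm, ta_r]

lemma ta_u_F (g : Aut d) (a b : Word d) :
    ta_u S g (ta_F S hF a b) = ta_F S hF (g⁻¹ a) (g⁻¹ b) := by
  apply Lp.ext
  have h1 := ta_u_ae S g (ta_F S hF a b)
  have h2 := (S.a_mp g).quasiMeasurePreserving.ae_eq_comp (ta_F_ae S hF a b)
  filter_upwards [h1, h2, ta_F_ae S hF (g⁻¹ a) (g⁻¹ b)] with ω e1 e2 e3
  rw [e1, e2, e3]
  simp only [Function.comp_apply]
  rw [S.y_eq, ta_Pe_act]

lemma ta_u_r (g : Aut d) (a b : Word d) :
    ta_u S g (ta_r S hF a b) = ta_r S hF (g⁻¹ a) (g⁻¹ b) := by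
  rw [ta_r, ← ta_A_u, ta_u_F, ta_r]

lemma ta_inner_r_inv (g : Aut d) (a b c e : Word d) :
    inner ℝ (ta_r S hF (g a) (g b)) (ta_r S hF (g c) (g e)) =
      inner ℝ (ta_r S hF a b) (ta_r S hF c e) := by
  have h1 := ta_u_r S hF g (g a) (g b)
  have h2 := ta_u_r S hF g (g c) (g e)
  simp only [RelIso.inv_apply_self] at h1 h2
  rw [← h1, ← h2, (ta_u S g).inner_map_map]

lemma ta_norm_r_inv (g : Aut d) (a b : Word d) :
    ‖ta_r S hF (g a) (g b)‖ = ‖ta_r S hF a b‖ := by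
  have h1 := ta_u_r S hF g (g a) (g b)
  simp only [RelIso.inv_apply_self] at h1
  rw [← h1, (ta_u S g).norm_map]

/-- The constant functions. -/
noncomputable def ta_const (c : ℝ) : Lp ℝ 2 P := (memLp_const c).toLp _

lemma ta_const_ae (c : ℝ) : (ta_const (P := P) c : Ω → ℝ) =ᵐ[P] fun _ => c :=
  (memLp_const c).coeFn_toLp

omit hF in
lemma ta_u_const (g : Aut d) (c : ℝ) : ta_u S g (ta_const c) = ta_const c := by
  apply Lp.ext
  have h1 := ta_u_ae S g (ta_const c)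
  have h2 := (S.a_mp g).quasiMeasurePreserving.ae_eq_comp (ta_const_ae (P := P) c)
  filter_upwards [h1, h2, ta_const_ae (P := P) c] with ω e1 e2 e3
  rw [e1, e2, e3]
  rfl

omit hF in
lemma ta_A_const (c : ℝ) : ta_A S (ta_const c) = 0 := by
  apply Lp.ext
  have h1 := ta_A_ae S (ta_const_ae (P := P) c)
  have h2 : S.Pi (fun _ => c) = fun _ => c := condExp_const S.G_le c
  rw [h2] at h1
  filter_upwards [h1, Lp.coeFn_zero ℝ 2 P] with ω e1 e2
  rw [e1, e2]
  simp

/-- The covariance in terms of the law of the field. -/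
lemma ta_cov (a b a' b' : Word d) {E : ℝ} (hE : ∫ ω, Pe θ a b (S.y ω) ∂P = E)
    (hE' : ∫ ω, Pe θ a' b' (S.y ω) ∂P = E) :
    inner ℝ (ta_F S hF a b - ta_const E) (ta_F S hF a' b' - ta_const E) =
      ∫ y, Pe θ a b y * Pe θ a' b' y ∂(LawY d θ μ) -
        (∫ y, Pe θ a b y ∂(LawY d θ μ)) * ∫ y, Pe θ a' b' y ∂(LawY d θ μ) := by
  have h1 : ((ta_F S hF a b - ta_const E : Lp ℝ 2 P) : Ω → ℝ) =ᵐ[P] fun ω => Pe θ a b (S.y ω) - E := by
    filter_upwards [Lp.coeFn_sub (ta_F S hF a b) (ta_const E), ta_F_ae S hF a b,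
      ta_const_ae (P := P) E] with ω e1 e2 e3
    rw [e1, Pi.sub_apply, e2, e3]
  have h2 : ((ta_F S hF a' b' - ta_const E : Lp ℝ 2 P) : Ω → ℝ) =ᵐ[P] fun ω => Pe θ a' b' (S.y ω) - E := by
    filter_upwards [Lp.coeFn_sub (ta_F S hF a' b') (ta_const E), ta_F_ae S hF a' b',
      ta_const_ae (P := P) E] with ω e1 e2 e3
    rw [e1, Pi.sub_apply, e2, e3]
  rw [ta_inner_congr h1 h2]
  have hi0 : Integrable (fun ω => Pe θ a b (S.y ω)) P := (hF a b).integrable (by norm_num)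
  have hi1 : Integrable (fun ω => Pe θ a' b' (S.y ω)) P := (hF a' b').integrable (by norm_num)
  have hi2 : Integrable (fun ω => Pe θ a b (S.y ω) * Pe θ a' b' (S.y ω)) P :=
    (hF a b).integrable_mul (hF a' b')
  have hexp : (fun ω => (Pe θ a b (S.y ω) - E) * (Pe θ a' b' (S.y ω) - E)) =
      fun ω => Pe θ a b (S.y ω) * Pe θ a' b' (S.y ω) - E * Pe θ a' b' (S.y ω) - E * Pe θ a b (S.y ω) + E * E := by
    funext ω
    ring
  have hi3 : Integrable (fun ω => Pe θ a b (S.y ω) * Pe θ a' b' (S.y ω) - E * Pe θ a' b' (S.y ω)) P :=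
    hi2.sub (hi1.const_mul E)
  have hi4 : Integrable (fun ω => Pe θ a b (S.y ω) * Pe θ a' b' (S.y ω) - E * Pe θ a' b' (S.y ω)
      - E * Pe θ a b (S.y ω)) P := hi3.sub (hi0.const_mul E)
  rw [hexp, integral_add hi4 (integrable_const _), integral_sub hi3 (hi0.const_mul E),
    integral_sub hi2 (hi1.const_mul E), integral_const_mul, integral_const_mul, integral_const, hE, hE']
  rw [ta_law_int S (G := fun y => Pe θ a b y * Pe θ a' b' y) ((ta_measurable_Pe a b).mul (ta_measurable_Pe a' b')),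
    ta_law_int S (G := Pe θ a b) (ta_measurable_Pe a b),
    ta_law_int S (G := Pe θ a' b') (ta_measurable_Pe a' b'), hE, hE']
  simp


end Concrete

section Paths

variable [Corr θ]

lemma ta_ch_zero (x : Word d) : ch x 0 = root := Subtype.ext (by simp [ch, len, root])

lemma ta_ch_len (x : Word d) : ch x (len x) = x := Subtype.ext (by simp [ch])

lemma ta_len_pos {x : Word d} (hx : x ≠ root) : 1 ≤ len x := by
  by_contra h
  exact hx (len_eq_zero (by omega))

lemma ta_ch_pred {x : Word d} (hx : x ≠ root) : ch x (len x - 1) = parent x := by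
  have h1 := ta_len_pos hx
  apply Subtype.ext
  have h2 : len x - (len x - 1) = 1 := by omega
  simp [ch, parent, h2]

/-- Prepend a letter to the path from the root to `z`. -/
def ta_pre (i : Fin d) (z : Word d) : ℕ → Word d
  | 0 => letter i
  | j + 1 => ch z j

lemma ta_pre_nb (i : Fin d) (z : Word d) (hz : ch z 1 ≠ letter i) : NB (ta_pre i z) (len z + 1) := by
  refine ⟨?_, ?_⟩
  · intro j hj
    cases j with
    | zero =>
      show (treeGraph d).Adj (letter i) (ch z 0)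
      rw [ta_ch_zero]
      exact (adj_root_iff.mpr ⟨i, rfl⟩).symm
    | succ j => exact (nb_ch z).adj j (by omega)
  · intro j hj
    cases j with
    | zero => exact hz
    | succ j => exact (nb_ch z).nb j (by omega)

lemma ta_path_z (z : Word d) (hz : z ≠ root) (i : Fin d) :
    ∃ (L : ℕ) (p : ℕ → Word d), NB p L ∧ 1 ≤ L ∧ len z ≤ L ∧
      (∀ y : Word d → ℝ, Pe θ (p 0) (p 1) y = Pe θ root (letter i) y) ∧
      p (L - 1) = parent z ∧ p L = z := by
  have hlen : 1 ≤ len z := ta_len_pos hz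
  by_cases h : ch z 1 = letter i
  · refine ⟨len z, ch z, nb_ch z, hlen, le_rfl, ?_, ta_ch_pred hz, ta_ch_len z⟩
    intro y
    rw [ta_ch_zero, h]
  · refine ⟨len z + 1, ta_pre i z, ta_pre_nb i z h, by omega, by omega, ?_, ?_, ?_⟩
    · intro y
      show Pe θ (letter i) (ch z 0) y = _
      rw [ta_ch_zero, ta_Pe_comm]
    · obtain ⟨m, hm⟩ : ∃ m, len z = m + 1 := ⟨len z - 1, by omega⟩
      rw [Nat.add_sub_cancel, hm]
      show ch z m = parent z
      rw [← ta_ch_pred hz, hm]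
      rfl
    · exact ta_ch_len z

lemma ta_path_adj {x x' : Word d} (h : (treeGraph d).Adj x x') (i : Fin d) :
    ∃ (L : ℕ) (p : ℕ → Word d), NB p L ∧ 1 ≤ L ∧ len x ≤ L ∧
      (∀ y : Word d → ℝ, Pe θ (p 0) (p 1) y = Pe θ root (letter i) y) ∧
      (∀ y : Word d → ℝ, Pe θ (p (L - 1)) (p L) y = Pe θ x x' y) := by
  rcases adj_len h with ⟨h1, h2⟩ | ⟨h1, h2⟩
  · have hx : x ≠ root := by
      rintro rfl
      simp at h1
    obtain ⟨L, p, hp, hL, hlen, he, e1, e2⟩ := ta_path_z (θ := θ) x hx i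
    refine ⟨L, p, hp, hL, hlen, he, fun y => ?_⟩
    rw [e1, e2, ← h2, ta_Pe_comm]
  · have hx : x' ≠ root := by
      rintro rfl
      simp at h1
    obtain ⟨L, p, hp, hL, hlen, he, e1, e2⟩ := ta_path_z (θ := θ) x' hx i
    refine ⟨L, p, hp, hL, by omega, he, fun y => ?_⟩
    rw [e1, e2, ← h2]

/-- The path of length one. -/
lemma ta_nb_one {a b : Word d} (h : (treeGraph d).Adj a b) :
    NB (fun j : ℕ => if j = 0 then a else b) 1 := by
  refine ⟨?_, ?_⟩
  · intro j hj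
    obtain rfl : j = 0 := by omega
    simpa using h
  · intro j hj
    omega

lemma ta_sqrt_pow (C : Crit (d - 1) θ) (hd : 3 ≤ d) (m : ℕ) :
    ((d : ℝ) - 1) ^ (-(m : ℝ) / 4) = (√θ) ^ m := by
  have h0 := C.h0
  have hθ := C.hθ
  have hc : ((d - 1 : ℕ) : ℝ) = (d : ℝ) - 1 := by
    rw [Nat.cast_sub (by omega)]
    simp
  rw [hc] at hθ
  have hr : 0 < √θ := Real.sqrt_pos.mpr h0
  set r := √θ with hrdef
  have hr2 : r ^ 2 = θ := Real.sq_sqrt h0.le
  have hk : (d : ℝ) - 1 = (r⁻¹) ^ (4 : ℕ) := by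
    have h1 : r ^ 4 = θ ^ 2 := by rw [← hr2]; ring
    rw [inv_pow, h1]
    field_simp
    exact hθ
  have hri : 0 < r⁻¹ := inv_pos.mpr hr
  rw [hk, ← Real.rpow_natCast (r⁻¹) 4, ← Real.rpow_mul hri.le]
  have h2 : ((4 : ℕ) : ℝ) * (-(m : ℝ) / 4) = -(m : ℝ) := by
    push_cast
    ring
  rw [h2, Real.rpow_neg hri.le, Real.rpow_natCast, inv_pow, inv_inv]

end Paths

section Main

variable [Corr θ] {Ω : Type} [MeasurableSpace Ω] {P : Measure Ω} [IsProbabilityMeasure P]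
  (S : Setting d θ μ Ω P) (hF : ∀ a b : Word d, MemLp (fun ω => Pe θ a b (S.y ω)) 2 P)

lemma ta_norm_adj {a b : Word d} (h : (treeGraph d).Adj a b) (i : Fin d) :
    ‖ta_r S hF a b‖ = ‖ta_r S hF root (letter i)‖ := by
  obtain ⟨g, hg⟩ := nb_trans (ta_nb_one h) (ta_nb_one (adj_root_iff.mpr ⟨i, rfl⟩ : (treeGraph d).Adj root (letter i)))
  have h0 := hg 0 (by omega)
  have h1 := hg 1 (by omega)
  simp only [if_true, one_ne_zero, if_false] at h0 h1
  rw [← h0, ← h1, ta_norm_r_inv]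

/-- The centred edge function. -/
noncomputable def ta_f (i : Fin d) : Lp ℝ 2 P :=
  ta_F S hF root (letter i) - ta_const (∫ ω, Pe θ root (letter i) (S.y ω) ∂P)

lemma ta_A_f (i : Fin d) : ta_A S (ta_f S hF i) = ta_r S hF root (letter i) := by
  rw [ta_f, map_sub, ta_A_const, sub_zero, ta_r]

lemma ta_dec (hd : 3 ≤ d) (C : Crit (d - 1) θ) {K0 : ℝ} (hK0 : 0 ≤ K0)
    (hcut : ∀ (p : ℕ → Word d) (L : ℕ), NB p L → 2 ≤ L →
      |∫ y, Pe θ (p 0) (p 1) y * Pe θ (p (L - 1)) (p L) y ∂(LawY d θ μ) -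
        (∫ y, Pe θ (p 0) (p 1) y ∂(LawY d θ μ)) * ∫ y, Pe θ (p (L - 1)) (p L) y ∂(LawY d θ μ)| ≤
          K0 * (√θ) ^ L)
    (i : Fin d) (g : Aut d) :
    |inner ℝ (ta_f S hF i) (ta_u S g (ta_f S hF i))| ≤
      (K0 + ‖ta_f S hF i‖ ^ 2 / √θ) * ((d : ℝ) - 1) ^ (-(len (g⁻¹ root) : ℝ) / 4) := by
  have h0 := C.h0
  have h1 := C.h1
  have hr : 0 < √θ := Real.sqrt_pos.mpr h0
  have hr1 : √θ ≤ 1 := by
    rw [show (1 : ℝ) = √1 by simp]
    exact Real.sqrt_le_sqrt h1.le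
  rw [ta_sqrt_pow C hd]
  set x := g⁻¹ root with hx
  set x' := g⁻¹ (letter i) with hx'
  have hadj : (treeGraph d).Adj x x' := by
    refine g⁻¹.map_adj_iff.mpr ?_
    exact adj_root_iff.mpr ⟨i, rfl⟩
  set E : ℝ := ∫ ω, Pe θ root (letter i) (S.y ω) ∂P with hE
  have hE' : ∫ ω, Pe θ x x' (S.y ω) ∂P = E := by
    rw [hE, ← ta_int_a S g ((hF root (letter i)).aestronglyMeasurable)]
    refine integral_congr_ae (Eventually.of_forall fun ω => ?_)
    show Pe θ x x' (S.y ω) = Pe θ root (letter i) (S.y (S.a g ω))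
    rw [S.y_eq, ta_Pe_act]
  have hug : ta_u S g (ta_f S hF i) = ta_F S hF x x' - ta_const E := by
    rw [ta_f, map_sub, ta_u_F, ta_u_const]
  have hcov := ta_cov S hF root (letter i) x x' hE.symm hE'
  have hnorm : |inner ℝ (ta_f S hF i) (ta_u S g (ta_f S hF i))| ≤ ‖ta_f S hF i‖ ^ 2 := by
    refine (abs_real_inner_le_norm _ _).trans ?_
    rw [(ta_u S g).norm_map, sq]
  obtain ⟨L, p, hp, hL, hlen, he, e1⟩ := ta_path_adj (θ := θ) hadj i
  have hnn : 0 ≤ ‖ta_f S hF i‖ ^ 2 / √θ := by positivity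
  rcases Nat.lt_or_ge L 2 with hL2 | hL2
  · -- the trivial case
    have hl1 : len x ≤ 1 := by omega
    have hpow : √θ ≤ (√θ) ^ len x := by
      calc √θ = (√θ) ^ 1 := (pow_one _).symm
        _ ≤ (√θ) ^ len x := pow_le_pow_of_le_one hr.le hr1 hl1
    have hq : ‖ta_f S hF i‖ ^ 2 ≤ ‖ta_f S hF i‖ ^ 2 / √θ * (√θ) ^ len x := by
      calc ‖ta_f S hF i‖ ^ 2 = ‖ta_f S hF i‖ ^ 2 / √θ * √θ := by field_simp
        _ ≤ ‖ta_f S hF i‖ ^ 2 / √θ * (√θ) ^ len x := mul_le_mul_of_nonneg_left hpow hnn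
    refine hnorm.trans (hq.trans ?_)
    have : 0 ≤ K0 * (√θ) ^ len x := by positivity
    nlinarith
  · have hc := hcut p L hp hL2
    have e2 : (fun y => Pe θ (p 0) (p 1) y) = Pe θ root (letter i) := funext he
    have e3 : (fun y => Pe θ (p (L - 1)) (p L) y) = Pe θ x x' := funext e1
    simp only [he, e1] at hc
    have heq : inner ℝ (ta_f S hF i) (ta_u S g (ta_f S hF i)) =
        ∫ y, Pe θ root (letter i) y * Pe θ x x' y ∂(LawY d θ μ) -
          (∫ y, Pe θ root (letter i) y ∂(LawY d θ μ)) * ∫ y, Pe θ x x' y ∂(LawY d θ μ) := by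
      rw [hug]
      exact hcov
    rw [heq]
    have hpow : (√θ) ^ L ≤ (√θ) ^ len x := pow_le_pow_of_le_one hr.le hr1 hlen
    refine hc.trans ?_
    have h3 : 0 ≤ ‖ta_f S hF i‖ ^ 2 / √θ * (√θ) ^ len x := by positivity
    have h4 : K0 * (√θ) ^ L ≤ K0 * (√θ) ^ len x := mul_le_mul_of_nonneg_left hpow hK0
    nlinarith


/-- The bound for the reduced word `w`: the path through `w`. -/
lemma ta_hR (p : ℕ → Word d) (L : ℕ) (hp : NB p L) (hL : 3 ≤ L) (i : Fin d) {w : Word d}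
    (hw : w ∈ ta_Gm i (L - 2)) :
    inner ℝ (ta_A S (ta_f S hF i)) (ta_u S (gwL w.1) (ta_A S (ta_f S hF i))) =
      inner ℝ (ta_r S hF (p 0) (p 1)) (ta_r S hF (p (L - 1)) (p L)) := by
  have hw' := ta_rev_mem_Gm hw
  set w' := ta_rev w with hw'def
  simp only [ta_Gm, Finset.mem_filter, ta_mem_sph] at hw'
  obtain ⟨hlen, hhead, hlast⟩ := hw'
  have hchain : (letter i).1 ++ w'.1 |>.IsChain (· ≠ ·) := by
    show (i :: w'.1).IsChain (· ≠ ·)
    cases hv : w'.1 with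
    | nil => exact List.isChain_singleton i
    | cons a l =>
      refine List.isChain_cons_cons.mpr ⟨?_, ?_⟩
      · rintro rfl
        simp [hv] at hhead
      · have := w'.2
        rwa [hv] at this
  -- the word `i w'`
  set z : Word d := ⟨(letter i).1 ++ w'.1, hchain⟩ with hz
  have hzg : gwL w'.1 (letter i) = z := Subtype.ext (gwL_val w'.1 (letter i) hchain)
  have hzlen : len z = (L - 2) + 1 := by
    show (i :: w'.1).length = _
    have : w'.1.length = L - 2 := hlen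
    simp [this]
  have hzne : z ≠ root := by
    intro h
    rw [h] at hzlen
    simp at hzlen
  have hzpar : parent z = w' := Subtype.ext rfl
  have hlast' : ch z 1 ≠ letter i := by
    intro h
    have h1 : (ch z 1).1 = z.1.drop (len z - 1) := rfl
    have h2 : z.1.drop (len z - 1) = [i] := by rw [← h1, h]; rfl
    have hw0 : w'.1 ≠ [] := by
      intro h0
      have : w'.1.length = L - 2 := hlen
      rw [h0] at this
      simp at this
      omega
    have h3 : w'.1.getLast? = some i := by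
      have h4 : z.1 = i :: w'.1 := rfl
      have h5 : len z - 1 = w'.1.length := by
        have : w'.1.length = L - 2 := hlen
        omega
      rw [h5, h4] at h2
      have h6 : w'.1.length = (w'.1.length - 1) + 1 := by
        have := List.length_pos_iff.mpr hw0
        omega
      rw [h6, List.drop_succ_cons] at h2
      have h7 := congrArg List.getLast? (List.take_append_drop (w'.1.length - 1) w'.1)
      rw [h2] at h7
      simpa using h7.symm
    exact hlast h3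
  have hq := ta_pre_nb i z hlast'
  have hzL : len z + 1 = L := by omega
  rw [hzL] at hq
  obtain ⟨g, hg⟩ := nb_trans hp hq
  have g0 := hg 0 (by omega)
  have g1 := hg 1 (by omega)
  have g2 := hg (L - 1) (by omega)
  have g3 := hg L le_rfl
  have q0 : ta_pre i z 0 = letter i := rfl
  have q1 : ta_pre i z 1 = root := ta_ch_zero z
  have q2 : ta_pre i z (L - 1) = w' := by
    obtain ⟨m, hm⟩ : ∃ m, L = m + 2 := ⟨L - 2, by omega⟩
    subst hm
    show ch z m = w'
    have h5 : m = len z - 1 := by omega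
    rw [← hzpar, h5, ta_ch_pred hzne]
  have q3 : ta_pre i z L = z := by
    obtain ⟨m, hm⟩ : ∃ m, L = m + 1 := ⟨L - 1, by omega⟩
    subst hm
    show ch z m = z
    have h5 : m = len z := by omega
    rw [h5]
    exact ta_ch_len z
  rw [q0] at g0
  rw [q1] at g1
  rw [q2] at g2
  rw [q3] at g3
  rw [ta_A_f, ta_u_r, ← ta_gwL_rev]
  have e1 : gwL (ta_rev w).1 root = w' := gwL_root w'
  have e2 : gwL (ta_rev w).1 (letter i) = z := hzg
  rw [e1, e2, ← ta_inner_r_inv S hF g (p 0) (p 1) (p (L - 1)) (p L), g0, g1, g2, g3, ta_r_comm S hF (letter i) root]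

theorem ta_pair_H (hd : 3 ≤ d) (C : Crit (d - 1) θ) {K0 : ℝ} (hK0 : 0 ≤ K0)
    (hcut : ∀ (p : ℕ → Word d) (L : ℕ), NB p L → 2 ≤ L →
      |∫ y, Pe θ (p 0) (p 1) y * Pe θ (p (L - 1)) (p L) y ∂(LawY d θ μ) -
        (∫ y, Pe θ (p 0) (p 1) y ∂(LawY d θ μ)) * ∫ y, Pe θ (p (L - 1)) (p L) y ∂(LawY d θ μ)| ≤
          K0 * (√θ) ^ L)
    (p : ℕ → Word d) (L : ℕ) (hp : NB p L) (hL : 2 ≤ L) (i : Fin d) :
    |inner ℝ (ta_r S hF (p 0) (p 1)) (ta_r S hF (p (L - 1)) (p L))| ≤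
      (6 / θ) * (√θ) ^ L * ‖ta_r S hF root (letter i)‖ ^ 2 := by
  have h0 := C.h0
  have hr : 0 < √θ := Real.sqrt_pos.mpr h0
  have hr2 : (√θ) ^ 2 = θ := Real.sq_sqrt h0.le
  have hnn : 0 ≤ ‖ta_r S hF root (letter i)‖ ^ 2 := by positivity
  rcases Nat.lt_or_ge L 3 with hL3 | hL3
  · obtain rfl : L = 2 := by omega
    have h1 := ta_norm_adj S hF (hp.adj 0 (by omega)) i
    have h2 := ta_norm_adj S hF (hp.adj 1 (by omega)) i
    refine (abs_real_inner_le_norm _ _).trans ?_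
    simp only [Nat.add_one_sub_one] at *
    have h3 : (1 : ℕ) + 1 = 2 := rfl
    rw [h3] at h2
    rw [h1, h2, hr2]
    have : 6 / θ * θ = 6 := by field_simp
    rw [this]
    nlinarith
  · obtain ⟨n, rfl⟩ : ∃ n, L = n + 2 := ⟨L - 2, by omega⟩
    have hn : 1 ≤ n := by omega
    have hd3 : (3 : ℝ) ≤ d := by exact_mod_cast hd
    have hk : (2 : ℝ) ≤ (d : ℝ) - 1 := by linarith
    have hcard := ta_Gm_card_ge (by omega : 2 ≤ d) i hn
    have hpow : 0 < ((d : ℝ) - 1) ^ (n - 1) := by positivity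
    have hc2 : ((d : ℝ) - 1) ^ n / 2 ≤ ((ta_Gm i n).card : ℝ) := by
      have h1 : ((d : ℝ) - 1) ^ n = ((d : ℝ) - 1) ^ (n - 1) * ((d : ℝ) - 1) := by
        rw [← pow_succ]
        congr 1
        omega
      rw [h1]
      refine le_trans ?_ hcard
      nlinarith
    have hkn : 0 < ((d : ℝ) - 1) ^ n := by positivity
    have hcpos : (0 : ℝ) < (ta_Gm i n).card := by linarith [div_pos hkn (by norm_num : (0 : ℝ) < 2)]
    have hne : (ta_Gm i n).Nonempty := by
      rw [← Finset.card_pos]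
      exact_mod_cast hcpos
    have hCC : 0 ≤ K0 + ‖ta_f S hF i‖ ^ 2 / √θ := by positivity
    have hab := ta_abstract hd (n := n) (ta_u S) (ta_u_one S) (ta_u_mul S) (ta_A S) (ta_A_le S) (ta_A_u S)
      (ta_f S hF i) hCC (fun g => ta_dec S hF hd C hK0 hcut i g) (ta_Gm_sub i n) hne
      (fun w hw => ta_rev_mem_Gm hw)
      (R := inner ℝ (ta_r S hF (p 0) (p 1)) (ta_r S hF (p (n + 2 - 1)) (p (n + 2))))
      (fun w hw => ta_hR S hF p (n + 2) hp hL3 i (by simpa using hw))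
    rw [ta_A_f] at hab
    refine hab.trans ?_
    refine mul_le_mul_of_nonneg_right ?_ hnn
    have hkpos : (0 : ℝ) < (d : ℝ) - 1 := by linarith
    have hexp : ((d : ℝ) - 1) ^ (3 * (n : ℝ) / 4) = ((d : ℝ) - 1) ^ n * (√θ) ^ n := by
      rw [← ta_sqrt_pow C hd n, ← Real.rpow_natCast ((d : ℝ) - 1) n, ← Real.rpow_add hkpos]
      congr 1
      ring
    rw [hexp, pow_add, hr2]
    have h6 : 6 / θ * ((√θ) ^ n * θ) = 6 * (√θ) ^ n := by
      field_simp
    rw [h6, div_le_iff₀ hcpos]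
    have hrn : 0 < (√θ) ^ n := by positivity
    nlinarith [mul_le_mul_of_nonneg_left hc2 hrn.le]


lemma ta_norm_sq (a b : Word d) : ‖ta_r S hF a b‖ ^ 2 = ∫ ω, S.re a b ω ^ 2 ∂P := by
  rw [← real_inner_self_eq_norm_sq, ta_inner_congr (ta_r_ae S hF a b) (ta_r_ae S hF a b)]
  simp_rw [sq]

lemma ta_geom {x : ℝ} (h0 : 0 ≤ x) (h1 : x < 1) (n : ℕ) :
    ∑ j ∈ Finset.range n, x ^ (n + 1 - j) ≤ 1 / (1 - x) := by
  have h2 : ∀ j ∈ Finset.range n, x ^ (n + 1 - j) ≤ x ^ (n - 1 - j) := by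
    intro j hj
    have := Finset.mem_range.mp hj
    exact pow_le_pow_of_le_one h0 h1.le (by omega)
  refine (Finset.sum_le_sum h2).trans ?_
  rw [Finset.sum_range_reflect (fun m => x ^ m) n, geom_sum_eq h1.ne]
  have h3 : 0 < 1 - x := by linarith
  have hx : x - 1 ≠ 0 := sub_ne_zero.mpr h1.ne
  have h5 : (x ^ n - 1) / (x - 1) = (1 - x ^ n) / (1 - x) := by
    rw [div_eq_div_iff hx h3.ne']
    ring
  have h4 : 0 ≤ x ^ n := pow_nonneg h0 n
  rw [h5]
  exact div_le_div_of_nonneg_right (by linarith) h3.le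

theorem ta_path_H (hd : 3 ≤ d) (C : Crit (d - 1) θ) {K0 : ℝ} (hK0 : 0 ≤ K0)
    (hcut : ∀ (p : ℕ → Word d) (L : ℕ), NB p L → 2 ≤ L →
      |∫ y, Pe θ (p 0) (p 1) y * Pe θ (p (L - 1)) (p L) y ∂(LawY d θ μ) -
        (∫ y, Pe θ (p 0) (p 1) y ∂(LawY d θ μ)) * ∫ y, Pe θ (p (L - 1)) (p L) y ∂(LawY d θ μ)| ≤
          K0 * (√θ) ^ L)
    (p : ℕ → Word d) (n : ℕ) (hp : NB p n) (i : Fin d) :
    ‖∑ j ∈ Finset.range n, ta_r S hF (p j) (p (j + 1))‖ ^ 2 ≤
      (1 + 2 * (6 / θ) * (1 / (1 - √θ))) * n * ‖ta_r S hF root (letter i)‖ ^ 2 := by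
  have h0 := C.h0
  have h1 := C.h1
  have hr : 0 < √θ := Real.sqrt_pos.mpr h0
  have hr1 : √θ < 1 := by
    rw [show (1 : ℝ) = √1 by simp]
    exact Real.sqrt_lt_sqrt h0.le h1
  set τ2 := ‖ta_r S hF root (letter i)‖ ^ 2 with hτ
  have hτ0 : 0 ≤ τ2 := by positivity
  induction n with
  | zero => simp
  | succ n ih =>
    have hpn : NB p n := ⟨fun j hj => hp.adj j (by omega), fun j hj => hp.nb j (by omega)⟩
    have ih' := ih hpn
    rw [Finset.sum_range_succ, norm_add_sq_real, ta_norm_adj S hF (hp.adj n (by omega)) i, sum_inner]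
    have hin : |∑ j ∈ Finset.range n, inner ℝ (ta_r S hF (p j) (p (j + 1))) (ta_r S hF (p n) (p (n + 1)))| ≤
        (6 / θ) * (1 / (1 - √θ)) * τ2 := by
      have h2 : ∀ j ∈ Finset.range n,
          |inner ℝ (ta_r S hF (p j) (p (j + 1))) (ta_r S hF (p n) (p (n + 1)))| ≤
            (6 / θ) * (√θ) ^ (n + 1 - j) * τ2 := by
        intro j hj
        have hjn := Finset.mem_range.mp hj
        have hq : NB (fun t => p (j + t)) (n + 1 - j) := by
          refine ⟨fun t ht => hp.adj (j + t) (by omega), fun t ht => hp.nb (j + t) (by omega)⟩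
        have h3 := ta_pair_H S hF hd C hK0 hcut (fun t => p (j + t)) (n + 1 - j) hq (by omega) i
        have e1 : j + (n + 1 - j - 1) = n := by omega
        have e2 : j + (n + 1 - j) = n + 1 := by omega
        simpa only [e1, e2, add_zero] using h3
      refine (Finset.abs_sum_le_sum_abs _ _).trans ((Finset.sum_le_sum h2).trans ?_)
      have h3 : ∑ j ∈ Finset.range n, (6 / θ) * (√θ) ^ (n + 1 - j) * τ2 =
          (6 / θ) * (∑ j ∈ Finset.range n, (√θ) ^ (n + 1 - j)) * τ2 := by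
        rw [Finset.mul_sum, Finset.sum_mul]
      rw [h3]
      have h4 := ta_geom hr.le hr1 n
      have h5 : 0 ≤ 6 / θ := by positivity
      exact mul_le_mul_of_nonneg_right (mul_le_mul_of_nonneg_left h4 h5) hτ0
    have h6 := (abs_le.mp hin).2
    push_cast
    have h7 : 0 ≤ τ2 := hτ0
    rw [← hτ] 
    nlinarith

lemma ta_sum_ae (p : ℕ → Word d) (n : ℕ) :
    ((∑ j ∈ Finset.range n, ta_r S hF (p j) (p (j + 1)) : Lp ℝ 2 P) : Ω → ℝ) =ᵐ[P]
      fun ω => ∑ j ∈ Finset.range n, S.re (p j) (p (j + 1)) ω := by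
  induction n with
  | zero =>
    simp only [Finset.range_zero, Finset.sum_empty]
    exact Lp.coeFn_zero ℝ 2 P
  | succ n ih =>
    rw [Finset.sum_range_succ]
    filter_upwards [Lp.coeFn_add (∑ j ∈ Finset.range n, ta_r S hF (p j) (p (j + 1))) (ta_r S hF (p n) (p (n + 1))),
      ih, ta_r_ae S hF (p n) (p (n + 1))] with ω e1 e2 e3
    rw [e1, Pi.add_apply, e2, e3, Finset.sum_range_succ]

end Main

lemma ta_hF {Ω : Type} [MeasurableSpace Ω] {P : Measure Ω} [IsProbabilityMeasure P] [Corr θ]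
    (C : Crit (d - 1) θ) (hμ : Nish μ) {M : ℝ} (hM : ∀ᵐ h ∂μ, |h| ≤ M) (S : Setting d θ μ Ω P) :
    ∀ a b : Word d, MemLp (fun ω => Pe θ a b (S.y ω)) 2 P := by
  intro a b
  obtain ⟨B, _, hB⟩ := PsiE_bdd C.h0 C.h1 (a := Real.tanh (M + d * Real.artanh θ)) (Real.tanh_lt_one _)
  have hae : ∀ᵐ ω ∂P, ∀ v, |S.y ω v| ≤ M := by
    have h1 := lv_ae_y_bound (θ := θ) (d := d) hμ hM
    rw [← S.law] at h1
    exact ae_of_ae_map S.y_meas.aemeasurable h1
  refine MemLp.of_bound ((ta_measurable_Pe a b).comp S.y_meas).aestronglyMeasurable B ?_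
  filter_upwards [hae] with ω hω
  rw [Real.norm_eq_abs]
  exact hB _ _ (mm_bound C.h1 hω a) (mm_bound C.h1 hω b)

theorem ta_tempered_pair (hd : 3 ≤ d) [Corr θ] (C : Crit (d - 1) θ) (M : ℝ) :
    ∃ K : ℝ, 0 ≤ K ∧ ∀ μ : Measure ℝ, Nish μ → (∀ᵐ h ∂μ, |h| ≤ M) →
      ∀ {Ω : Type} [MeasurableSpace Ω] {P : Measure Ω} [IsProbabilityMeasure P] (S : Setting d θ μ Ω P)
        (p : ℕ → Word d) (L : ℕ), NB p L → 2 ≤ L → ∀ i : Fin d,
        |∫ ω, S.re (p 0) (p 1) ω * S.re (p (L - 1)) (p L) ω ∂P| ≤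
          K * (√θ) ^ L * ∫ ω, S.re root (letter i) ω ^ 2 ∂P := by
  obtain ⟨K0, hK0, hcut⟩ := cut_cov hd C M
  have h0 := C.h0
  refine ⟨6 / θ, by positivity, ?_⟩
  intro μ hμ hM Ω _ P _ S p L hp hL i
  have hF := ta_hF C hμ hM S
  have h := ta_pair_H S hF hd C hK0 (hcut μ hμ hM) p L hp hL i
  rwa [ta_inner_congr (ta_r_ae S hF _ _) (ta_r_ae S hF _ _), ta_norm_sq] at h

theorem ta_tempered_path (hd : 3 ≤ d) [Corr θ] (C : Crit (d - 1) θ) (M : ℝ) :
    ∃ K : ℝ, 0 ≤ K ∧ ∀ μ : Measure ℝ, Nish μ → (∀ᵐ h ∂μ, |h| ≤ M) →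
      ∀ {Ω : Type} [MeasurableSpace Ω] {P : Measure Ω} [IsProbabilityMeasure P] (S : Setting d θ μ Ω P)
        (p : ℕ → Word d) (n : ℕ), NB p n → ∀ i : Fin d,
        ∫ ω, (∑ j ∈ Finset.range n, S.re (p j) (p (j + 1)) ω) ^ 2 ∂P ≤
          K * n * ∫ ω, S.re root (letter i) ω ^ 2 ∂P := by
  obtain ⟨K0, hK0, hcut⟩ := cut_cov hd C M
  have h0 := C.h0
  have h1 := C.h1
  have hr1 : √θ < 1 := by
    rw [show (1 : ℝ) = √1 by simp]
    exact Real.sqrt_lt_sqrt h0.le h1
  have hr2 : 0 < 1 - √θ := by linarith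
  refine ⟨1 + 2 * (6 / θ) * (1 / (1 - √θ)), by positivity, ?_⟩
  intro μ hμ hM Ω _ P _ S p n hp i
  have hF := ta_hF C hμ hM S
  have h := ta_path_H S hF hd C hK0 (hcut μ hμ hM) p n hp i
  rw [ta_norm_sq, ← real_inner_self_eq_norm_sq, ta_inner_congr (ta_sum_ae S hF p n) (ta_sum_ae S hF p n)] at h
  simpa only [sq] using h

end Vale.Agent.Lib.P161B
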