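import Vale.Agent.Lib.P161B.WindowMart
import Vale.Agent.Lib.P161B.EnergyLim

/-!
The energy identity for the posterior mean at the root, the uniform tail of the covariances, and the window
inequality: the growth of `rD` on a time window is bounded by the static rate `BBn`.
-/

namespace Vale.Agent.Lib.P161B

open MeasureTheory ProbabilityTheory Filter Set
open Vale.Agent.Lib.P161
open scoped Topology

variable {d : ℕ} {θ : ℝ} [Corr θ]

/-- The second moment of the posterior mean at the root at time `s`. -/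
noncomputable def qD (d : ℕ) (θ : ℝ) (s : ℝ) : ℝ := ∫ ω, mm θ root (yS s ω) ^ 2 ∂(PD d θ)

/-- Energy identity on a window inside the block `j`. -/
theorem energy_id (hd : 3 ≤ d) (C : Crit (d - 1) θ) {j : ℤ} {a b : ℝ} (ha : (j : ℝ) ≤ a) (hab : a ≤ b)
    (hb : b ≤ j + 1) :
    Tendsto (fun R : ℕ => ∑ x ∈ (ball R : Finset (Word d)),
        ∫ ω, Set.indicator {ω : OmD d | inW a b (x, j) ω.2.2}
          (fun ω => CCr θ x (yS (tE (x, j) ω.2.2) ω) ^ 2 *
            gamK (kp j) (mm θ x (yS (tE (x, j) ω.2.2) ω)) (mm θ x (yS (tE (x, j) ω.2.2) ω))) ω ∂(PD d θ))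
      atTop (𝓝 (qD d θ b - qD d θ a)) :=
  en_energy_id hd C ha hab hb

end Vale.Agent.Lib.P161B
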