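import Vale.Agent.Lib.P161B.Window

/-!
The window inequality: the growth of `rD` on a time window is bounded by the static rate `BBn`.
-/

namespace Vale.Agent.Lib.P161B

open MeasureTheory ProbabilityTheory Filter Set
open Vale.Agent.Lib.P161
open scoped Topology

variable {d : ℕ} {θ : ℝ} [Corr θ]

set_option linter.unusedSectionVars false

/-! ### Clamps -/

/-- Clamp to `[-1, 1]`. -/
noncomputable def wmCl (t : ℝ) : ℝ := max (-1) (min 1 t)

lemma wmCl_abs (t : ℝ) : |wmCl t| ≤ 1 := by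
  unfold wmCl
  rw [abs_le]
  constructor
  · exact le_max_left _ _
  · exact max_le (by norm_num) (min_le_left _ _)

lemma wmCl_of_abs {t : ℝ} (h : |t| ≤ 1) : wmCl t = t := by
  unfold wmCl
  have := abs_le.mp h
  rw [min_eq_right this.2, max_eq_right this.1]

lemma measurable_wmCl : Measurable wmCl := by
  unfold wmCl
  fun_prop

/-- Clamp to `[0, 1]`. -/
noncomputable def wmCu (t : ℝ) : ℝ := max 0 (min 1 t)

lemma wmCu_mem (t : ℝ) : wmCu t ∈ Icc (0 : ℝ) 1 := by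
  unfold wmCu
  exact ⟨le_max_left _ _, max_le (by norm_num) (min_le_left _ _)⟩

lemma wmCu_of_mem {t : ℝ} (h : t ∈ Icc (0 : ℝ) 1) : wmCu t = t := by
  unfold wmCu
  rw [min_eq_right h.2, max_eq_right h.1]

lemma measurable_wmCu : Measurable wmCu := by
  unfold wmCu
  fun_prop

/-- The update function, bounded for all arguments. -/
noncomputable def wmG (κ m u : ℝ) : ℝ := Gk κ (wmCl m) (wmCu u)

lemma measurable_wmG (κ : ℝ) : Measurable (fun p : ℝ × ℝ => wmG κ p.1 p.2) := by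
  unfold wmG
  exact (measurable_Gk κ).comp ((measurable_wmCl.comp measurable_fst).prodMk
    (measurable_wmCu.comp measurable_snd))

lemma wmG_abs {κ : ℝ} (h0 : 0 ≤ κ) (hκ : κ ≤ 1 / 2) (m u : ℝ) : |wmG κ m u| ≤ 2 * κ :=
  Gk_abs h0 hκ (wmCl_abs m) (wmCu_mem u)

lemma wmG_eq {κ m u : ℝ} (hm : |m| ≤ 1) (hu : u ∈ Icc (0 : ℝ) 1) : wmG κ m u = Gk κ m u := by
  unfold wmG
  rw [wmCl_of_abs hm, wmCu_of_mem hu]

lemma wmG_lip {κ : ℝ} (h0 : 0 ≤ κ) (hκ : κ ≤ 1 / 2) {m m' : ℝ} (hm : |m| ≤ 1) (hm' : |m'| ≤ 1) (u : ℝ) :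
    |wmG κ m u - wmG κ m' u| ≤ 8 * κ ^ 2 * |m - m'| := by
  unfold wmG
  rw [wmCl_of_abs hm, wmCl_of_abs hm']
  exact Gk_lip h0 hκ hm hm' (wmCu_mem u)

lemma integral_wmG {κ : ℝ} (h0 : 0 ≤ κ) (hκ : κ ≤ 1 / 2) (m : ℝ) :
    ∫ u : unitInterval, wmG κ m (u : ℝ) = 0 := by
  have : (fun u : unitInterval => wmG κ m (u : ℝ)) = fun u : unitInterval => Gk κ (wmCl m) u := by
    funext u
    unfold wmG
    rw [wmCu_of_mem u.2]
  rw [this]
  exact integral_Gk h0 hκ (wmCl_abs m)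

lemma integral_wmG_sq {κ : ℝ} {m : ℝ} (hm : |m| ≤ 1) :
    ∫ u : unitInterval, wmG κ m (u : ℝ) * wmG κ m (u : ℝ) = gamK κ m m := by
  unfold gamK
  have : (fun u : unitInterval => wmG κ m (u : ℝ) * wmG κ m (u : ℝ)) =
      fun u : unitInterval => Gk κ m u * Gk κ m u := by
    funext u
    rw [wmG_eq hm u.2]
  rw [this]

/-! ### Generic lemmas -/

lemma wm_measurable_tsum {ι Ω : Type*} [Countable ι] {m : MeasurableSpace Ω} {f : ι → Ω → ℝ}
    (hf : ∀ i, Measurable[m] (f i)) (hs : ∀ ω, Summable (fun i => f i ω)) :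
    Measurable[m] (fun ω => ∑' i, f i ω) := by
  refine measurable_of_tendsto_metrizable' (atTop : Filter (Finset ι))
    (f := fun (F : Finset ι) ω => ∑ i ∈ F, f i ω) ?_ ?_
  · intro F
    exact Finset.measurable_fun_sum F (fun i _ => hf i)
  · rw [tendsto_pi_nhds]
    intro ω
    exact (hs ω).hasSum

/-- `L²` best approximation by conditional expectation, for bounded functions. -/
lemma wm_condExp_best {Ω : Type*} {G mΩ : MeasurableSpace Ω} {P : Measure Ω} [IsProbabilityMeasure P]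
    (hG : G ≤ mΩ) {f Z : Ω → ℝ} (hf : Measurable f) {C : ℝ} (hfb : ∀ ω, |f ω| ≤ C)
    (hZ : Measurable[G] Z) {C' : ℝ} (hZb : ∀ ω, |Z ω| ≤ C') :
    ∫ ω, (f ω - condExp G P f ω) ^ 2 ∂P ≤ ∫ ω, (f ω - Z ω) ^ 2 ∂P := by
  classical
  set g := condExp G P f with hg
  have hne : Nonempty Ω := nonempty_of_isProbabilityMeasure P
  obtain ⟨ω₀⟩ := hne
  have hC0 : 0 ≤ C := (abs_nonneg _).trans (hfb ω₀)
  have hC'0 : 0 ≤ C' := (abs_nonneg _).trans (hZb ω₀)
  have hgb : ∀ᵐ ω ∂P, |g ω| ≤ C :=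
    ae_bdd_abs_condExp_of_ae_bdd_abs (Eventually.of_forall hfb)
  have hgm : StronglyMeasurable[G] g := stronglyMeasurable_condExp
  have hgm' : AEStronglyMeasurable g P := (hgm.mono hG).aestronglyMeasurable
  have hfm : AEStronglyMeasurable f P := hf.aestronglyMeasurable
  have hZm : StronglyMeasurable[G] Z := hZ.stronglyMeasurable
  have hZm' : AEStronglyMeasurable Z P := (hZm.mono hG).aestronglyMeasurable
  have hfi : Integrable f P := Integrable.of_bound hfm C (Eventually.of_forall hfb)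
  have hbd1 : ∀ᵐ ω ∂P, ‖(f ω - g ω) ^ 2‖ ≤ (C + C) ^ 2 := by
    filter_upwards [hgb] with ω hω
    rw [Real.norm_eq_abs, abs_pow]
    have : |f ω - g ω| ≤ C + C := (abs_sub _ _).trans (add_le_add (hfb ω) hω)
    gcongr
  have hi1 : Integrable (fun ω => (f ω - g ω) ^ 2) P :=
    Integrable.of_bound ((hfm.sub hgm').pow 2) _ hbd1
  have hbd2 : ∀ᵐ ω ∂P, ‖(f ω - g ω) * (g ω - Z ω)‖ ≤ (C + C) * (C + C') := by
    filter_upwards [hgb] with ω hω
    rw [Real.norm_eq_abs, abs_mul]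
    have h1 : |f ω - g ω| ≤ C + C := (abs_sub _ _).trans (add_le_add (hfb ω) hω)
    have h2 : |g ω - Z ω| ≤ C + C' := (abs_sub _ _).trans (add_le_add hω (hZb ω))
    exact mul_le_mul h1 h2 (abs_nonneg _) (by linarith)
  have hi2 : Integrable (fun ω => (f ω - g ω) * (g ω - Z ω)) P :=
    Integrable.of_bound ((hfm.sub hgm').mul (hgm'.sub hZm')) _ hbd2
  have hbd3 : ∀ᵐ ω ∂P, ‖(g ω - Z ω) ^ 2‖ ≤ (C + C') ^ 2 := by
    filter_upwards [hgb] with ω hω
    rw [Real.norm_eq_abs, abs_pow]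
    have : |g ω - Z ω| ≤ C + C' := (abs_sub _ _).trans (add_le_add hω (hZb ω))
    gcongr
  have hi3 : Integrable (fun ω => (g ω - Z ω) ^ 2) P :=
    Integrable.of_bound ((hgm'.sub hZm').pow 2) _ hbd3
  have hexp : ∀ ω, (f ω - Z ω) ^ 2 = (f ω - g ω) ^ 2 + (2 * ((f ω - g ω) * (g ω - Z ω)) + (g ω - Z ω) ^ 2) := by
    intro ω
    ring
  have hzero : ∫ ω, (f ω - g ω) * (g ω - Z ω) ∂P = 0 := by
    set h : Ω → ℝ := fun ω => g ω - Z ω with hh
    have hhm : StronglyMeasurable[G] h := hgm.sub hZm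
    have hhb : ∀ᵐ ω ∂P, ‖h ω‖ ≤ C + C' := by
      filter_upwards [hgb] with ω hω
      rw [Real.norm_eq_abs]
      exact (abs_sub _ _).trans (add_le_add hω (hZb ω))
    have h1 : condExp G P (h * f) =ᵐ[P] h * g :=
      condExp_stronglyMeasurable_mul_of_bound hG hhm hfi _ hhb
    have hi4 : ∫ ω, (h * f) ω ∂P = ∫ ω, (h * g) ω ∂P := by
      rw [← integral_condExp hG (f := h * f)]
      exact integral_congr_ae h1
    have hif : Integrable (fun ω => h ω * f ω) P :=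
      Integrable.of_bound ((hgm'.sub hZm').mul hfm) ((C + C') * C) (by
        filter_upwards [hhb] with ω hω
        rw [norm_mul]
        rw [Real.norm_eq_abs (f ω)]
        exact mul_le_mul hω (hfb ω) (abs_nonneg _) (by linarith))
    have hig : Integrable (fun ω => h ω * g ω) P :=
      Integrable.of_bound ((hgm'.sub hZm').mul hgm') ((C + C') * C) (by
        filter_upwards [hhb, hgb] with ω hω hω2
        rw [norm_mul]
        rw [Real.norm_eq_abs (g ω)]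
        exact mul_le_mul hω hω2 (abs_nonneg _) (by linarith))
    have : (fun ω => (f ω - g ω) * (g ω - Z ω)) = fun ω => h ω * f ω - h ω * g ω := by
      funext ω
      simp only [hh]
      ring
    rw [this, integral_sub hif hig]
    simp only [Pi.mul_apply] at hi4
    linarith
  calc ∫ ω, (f ω - g ω) ^ 2 ∂P ≤ ∫ ω, (f ω - g ω) ^ 2 ∂P + (2 * ∫ ω, (f ω - g ω) * (g ω - Z ω) ∂P + ∫ ω, (g ω - Z ω) ^ 2 ∂P) := by
        have : 0 ≤ ∫ ω, (g ω - Z ω) ^ 2 ∂P := integral_nonneg (fun ω => sq_nonneg _)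
        rw [hzero]
        linarith
    _ = ∫ ω, (f ω - Z ω) ^ 2 ∂P := by
        simp_rw [hexp]
        have h4 : Integrable (fun ω => 2 * ((f ω - g ω) * (g ω - Z ω)) + (g ω - Z ω) ^ 2) P :=
          (hi2.const_mul 2).add hi3
        rw [integral_add hi1 h4, integral_add (hi2.const_mul 2) hi3, integral_const_mul]


/-! ### Measurability in the dynamic model -/

lemma wm_sp_abs (b : Bool) : |sp b| = 1 := by
  cases b <;> simp [sp_true, sp_false]

lemma wm_kp_abs (j : ℤ) : |kp j| ≤ 1 / 2 := by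
  rw [abs_of_pos (kp_pos j)]
  exact kp_le j

lemma wm_zh_abs (ω : OmD d) (e : Ev d) : |zh ω e| ≤ 1 := by
  unfold zh
  have := quant_mem (a := kp e.2) (u := ω.2.1 e) (wm_kp_abs _) (ω.2.1 e).2
  exact abs_le.mpr ⟨this.1, this.2⟩

lemma wm_Zo_abs (ω : OmD d) (e : Ev d) : |Zo ω e| ≤ 1 := by
  unfold Zo
  rw [abs_mul, wm_sp_abs, one_mul]
  exact wm_zh_abs ω e

lemma wm_artanh_neg {x : ℝ} (hx : |x| < 1) : Real.artanh (-x) = - Real.artanh x := by
  have h := abs_lt.mp hx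
  rw [Real.artanh_eq_half_log ⟨by linarith, by linarith⟩, Real.artanh_eq_half_log ⟨by linarith, by linarith⟩]
  have e : (1 + -x) / (1 - -x) = ((1 + x) / (1 - x))⁻¹ := by
    rw [inv_div]
    ring_nf
  rw [e, Real.log_inv]
  ring

lemma wm_artanh_abs_le {κ z : ℝ} (h0 : 0 ≤ κ) (h1 : κ ≤ 1 / 2) (hz : |z| ≤ 1) :
    |Real.artanh (κ * z)| ≤ Real.artanh κ := by
  have hx : |κ * z| ≤ κ := by
    rw [abs_mul, abs_of_nonneg h0]
    nlinarith
  have hx2 := abs_le.mp hx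
  have hlt : |κ * z| < 1 := by linarith
  rw [abs_le]
  constructor
  · have := Real.artanh_le_artanh (x := -(κ * z)) (y := κ) (by linarith) (by linarith) (by linarith)
    rw [wm_artanh_neg hlt] at this
    linarith
  · exact Real.artanh_le_artanh (by linarith) (by linarith) hx2.2

lemma wm_W_meas (e : Ev d) : Measurable (fun W : LabT d => ((W e : unitInterval) : ℝ)) :=
  measurable_subtype_coe.comp (measurable_pi_apply e)

lemma wm_tE_meas (e : Ev d) : Measurable (tE (d := d) e) := by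
  unfold tE
  exact ((measurable_subtype_coe.comp (measurable_pi_apply e)).const_mul 2).const_add _

lemma wm_tE_ge (e : Ev d) (W : LabT d) : (e.2 : ℝ) ≤ tE e W := by
  unfold tE
  have := (W e).2.1
  linarith

lemma wm_term_summable (s : ℝ) (ω : OmD d) (x : Word d) :
    Summable (fun j : ℤ => (open Classical in if inA s (x, j) ω.2.2 then Real.artanh (kp j * Zo ω (x, j)) else 0)) := by
  classical
  refine Summable.of_norm_bounded (summable_artanh s) (fun j => ?_)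
  by_cases h : inA s (x, j) ω.2.2
  · have hj : (j : ℝ) < s := (wm_tE_ge (x, j) ω.2.2).trans_lt h.2
    simp only [h, if_true, hj, Real.norm_eq_abs]
    exact wm_artanh_abs_le (kp_pos j).le (kp_le j) (wm_Zo_abs ω _)
  · simp only [h, if_false, norm_zero]
    split_ifs with hj
    · exact Real.artanh_nonneg (kp_pos j).le
    · exact le_rfl

lemma wm_measurable_artanh : Measurable Real.artanh := by
  unfold Real.artanh
  have : Measurable (fun x : ℝ => max (-1) (min x 1)) := by fun_prop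
  fun_prop

lemma wm_Dd_FOs (s : ℝ) : Measurable[FOs s] (Dd (d := d) s) := comap_measurable _

lemma wm_yS_FOs (s : ℝ) : Measurable[FOs s] (yS (d := d) s) := by
  classical
  refine @measurable_pi_lambda _ _ _ (FOs s) _ _ (fun x => ?_)
  have heq : (fun ω : OmD d => yS s ω x) = fun ω => ∑' j : ℤ, Real.artanh (kp j * (Dd s ω (x, j)).2) := by
    funext ω
    unfold yS
    refine tsum_congr (fun j => ?_)
    by_cases h : inA s (x, j) ω.2.2
    · simp [Dd, h]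
    · simp [Dd, h, Real.artanh_zero]
  rw [heq]
  refine wm_measurable_tsum (fun j => ?_) (fun ω => ?_)
  · have h1 : Measurable[FOs s] (fun ω : OmD d => (Dd s ω (x, j)).2) :=
      measurable_snd.comp ((measurable_pi_apply (x, j)).comp (wm_Dd_FOs s))
    exact wm_measurable_artanh.comp (h1.const_mul _)
  · have := wm_term_summable s ω x
    refine this.congr (fun j => ?_)
    by_cases h : inA s (x, j) ω.2.2
    · simp [Dd, h]
    · simp [Dd, h, Real.artanh_zero]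

lemma wm_obsL_meas (tt : LabT d → ℝ) : Measurable[FL tt] (obsL (d := d) tt) := comap_measurable _

lemma wm_labels_FL (tt : LabT d → ℝ) : Measurable[FL tt] (fun ω : OmD d => ω.2.2) :=
  measurable_fst.comp (wm_obsL_meas tt)

lemma wm_FOs_le_FL (s : ℝ) : FOs (d := d) s ≤ FL (fun _ => s) := by
  classical
  have hg : Measurable (fun p : LabT d × (Ev d → ℝ) => fun e : Ev d => (min (tE e p.1) s, p.2 e)) := by
    refine measurable_pi_lambda _ (fun e => ?_)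
    refine Measurable.prodMk ?_ ?_
    · exact ((wm_tE_meas e).comp measurable_fst).min measurable_const
    · exact (measurable_pi_apply e).comp measurable_snd
  have heq : Dd (d := d) s = (fun p : LabT d × (Ev d → ℝ) => fun e : Ev d => (min (tE e p.1) s, p.2 e)) ∘
      obsL (fun _ => s) := by
    funext ω e
    simp [Dd, obsL]
  unfold FOs FL
  rw [heq, ← MeasurableSpace.comap_comp]
  exact MeasurableSpace.comap_mono hg.comap_le

lemma measurable_CCr (x : Word d) : Measurable (CCr (d := d) θ x) := by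
  unfold CCr
  refine Measurable.mul ?_ ?_
  · refine Measurable.sqrt ?_
    exact (((measurable_mm θ _).pow_const 2).const_sub 1).mul (((measurable_mm θ _).pow_const 2).const_sub 1)
  · refine Finset.measurable_fun_prod _ (fun i _ => ?_)
    exact (measurable_Rho (θ := θ)).comp ((measurable_mm θ _).prodMk (measurable_mm θ _))

lemma wm_m_lt (h1 : θ < 1) (s : ℝ) (ω : OmD d) (x : Word d) : |mm θ x (yS s ω)| < 1 :=
  (mm_yS_abs h1 s ω x).trans_lt (Real.tanh_lt_one _)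

lemma wm_CC_abs (h0 : 0 < θ) (h1 : θ < 1) (s : ℝ) (ω : OmD d) (x : Word d) :
    |CCr θ x (yS s ω)| ≤ 1 := by
  unfold CCr
  have hm := fun v => wm_m_lt (θ := θ) h1 s ω v
  have hprod0 : 0 ≤ ∏ i ∈ Finset.range (len x), Rho θ (mm θ (ch x i) (yS s ω)) (mm θ (ch x (i + 1)) (yS s ω)) :=
    Finset.prod_nonneg (fun i _ => (Rho_pos h0 h1 (hm _) (hm _)).le)
  have hprod1 : ∏ i ∈ Finset.range (len x), Rho θ (mm θ (ch x i) (yS s ω)) (mm θ (ch x (i + 1)) (yS s ω)) ≤ 1 :=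
    Finset.prod_le_one (fun i _ => (Rho_pos h0 h1 (hm _) (hm _)).le) (fun i _ => Rho_le_one h0 h1 (hm _) (hm _))
  rw [abs_mul, abs_of_nonneg hprod0, abs_of_nonneg (Real.sqrt_nonneg _)]
  have hs : √((1 - mm θ root (yS s ω) ^ 2) * (1 - mm θ x (yS s ω) ^ 2)) ≤ 1 := by
    have ha : 0 ≤ 1 - mm θ root (yS s ω) ^ 2 := by
      have := (sq_lt_one_iff_abs_lt_one _).mpr (hm root)
      linarith
    have hb : 0 ≤ 1 - mm θ x (yS s ω) ^ 2 := by
      have := (sq_lt_one_iff_abs_lt_one _).mpr (hm x)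
      linarith
    refine Real.sqrt_le_one.mpr ?_
    exact mul_le_one₀ (by nlinarith [sq_nonneg (mm θ root (yS s ω))]) hb
      (by nlinarith [sq_nonneg (mm θ x (yS s ω))])
  exact mul_le_one₀ hs hprod0 hprod1



/-! ### Versions of the conditional expectations -/

/-- The conditional magnetisation, a version bounded by one everywhere. -/
noncomputable def wmM (θ : ℝ) (T : ℝ) (x : Word d) (ω : OmD d) : ℝ :=
  wmCl (condExp (GGs θ T) (PD d θ) (fun ω => mm θ x (yS T ω)) ω)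

/-- The conditional covariance, a version bounded by one everywhere. -/
noncomputable def wmC (θ : ℝ) (T : ℝ) (x : Word d) (ω : OmD d) : ℝ :=
  wmCl (condExp (GGs θ T) (PD d θ) (fun ω => CCr θ x (yS T ω)) ω)

lemma wmM_abs (T : ℝ) (x : Word d) (ω : OmD d) : |wmM θ T x ω| ≤ 1 := wmCl_abs _

lemma wmC_abs (T : ℝ) (x : Word d) (ω : OmD d) : |wmC θ T x ω| ≤ 1 := wmCl_abs _

lemma wmM_meas (T : ℝ) (x : Word d) : Measurable[GGs θ T] (wmM θ T x) :=
  measurable_wmCl.comp stronglyMeasurable_condExp.measurable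

lemma wmC_meas (T : ℝ) (x : Word d) : Measurable[GGs θ T] (wmC θ T x) :=
  measurable_wmCl.comp stronglyMeasurable_condExp.measurable

lemma wmM_FOs (T : ℝ) (x : Word d) : Measurable[FOs T] (wmM θ T x) :=
  (wmM_meas T x).mono (GGs_le_FOs T) le_rfl

lemma wmC_FOs (T : ℝ) (x : Word d) : Measurable[FOs T] (wmC θ T x) :=
  (wmC_meas T x).mono (GGs_le_FOs T) le_rfl

lemma wm_mT_FOs (T : ℝ) (x : Word d) : Measurable[FOs T] (fun ω : OmD d => mm θ x (yS T ω)) :=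
  (measurable_mm θ x).comp (wm_yS_FOs T)

lemma wm_cT_FOs (T : ℝ) (x : Word d) : Measurable[FOs T] (fun ω : OmD d => CCr θ x (yS T ω)) :=
  (measurable_CCr x).comp (wm_yS_FOs T)

lemma wm_mT_meas (T : ℝ) (x : Word d) : Measurable (fun ω : OmD d => mm θ x (yS T ω)) :=
  (wm_mT_FOs T x).mono (FOs_le T) le_rfl

lemma wm_cT_meas (T : ℝ) (x : Word d) : Measurable (fun ω : OmD d => CCr θ x (yS T ω)) :=
  (wm_cT_FOs T x).mono (FOs_le T) le_rfl

lemma wmM_ae (h1 : θ < 1) (T : ℝ) (x : Word d) :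
    wmM θ T x =ᵐ[PD d θ] condExp (GGs θ T) (PD d θ) (fun ω => mm θ x (yS T ω)) := by
  have hb : ∀ᵐ ω ∂(PD d θ), |condExp (GGs θ T) (PD d θ) (fun ω => mm θ x (yS T ω)) ω| ≤ 1 :=
    ae_bdd_abs_condExp_of_ae_bdd_abs (Eventually.of_forall (fun ω => mm_yS_le_one h1 T ω x))
  filter_upwards [hb] with ω hω
  exact wmCl_of_abs hω

lemma wmC_ae (h0 : 0 < θ) (h1 : θ < 1) (T : ℝ) (x : Word d) :
    wmC θ T x =ᵐ[PD d θ] condExp (GGs θ T) (PD d θ) (fun ω => CCr θ x (yS T ω)) := by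
  have hb : ∀ᵐ ω ∂(PD d θ), |condExp (GGs θ T) (PD d θ) (fun ω => CCr θ x (yS T ω)) ω| ≤ 1 :=
    ae_bdd_abs_condExp_of_ae_bdd_abs (Eventually.of_forall (fun ω => wm_CC_abs h0 h1 T ω x))
  filter_upwards [hb] with ω hω
  exact wmCl_of_abs hω

/-! ### The update variables -/

lemma wm_inW_FL (tt : LabT d → ℝ) (a b : ℝ) (e : Ev d) :
    MeasurableSet[FL tt] {ω : OmD d | inW a b e ω.2.2} := by
  have h : MeasurableSet {W : LabT d | inW a b e W} := by
    unfold inW actE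
    refine MeasurableSet.inter ?_ (MeasurableSet.inter ?_ ?_)
    · exact measurableSet_lt (wm_W_meas e) measurable_const
    · exact measurableSet_le measurable_const (wm_tE_meas e)
    · exact measurableSet_lt (wm_tE_meas e) measurable_const
  exact (wm_labels_FL tt) h

lemma wm_inW_meas (a b : ℝ) (e : Ev d) : MeasurableSet {ω : OmD d | inW a b e ω.2.2} := by
  have h : MeasurableSet {W : LabT d | inW a b e W} := by
    unfold inW actE
    refine MeasurableSet.inter ?_ (MeasurableSet.inter ?_ ?_)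
    · exact measurableSet_lt (wm_W_meas e) measurable_const
    · exact measurableSet_le measurable_const (wm_tE_meas e)
    · exact measurableSet_lt (wm_tE_meas e) measurable_const
  exact (measurable_snd.comp measurable_snd) h

/-- Inside a block the window is described by the time alone. -/
lemma wm_inW_iff {T T' : ℝ} {e : Ev d} (hT' : T' ≤ e.2 + 1) (W : LabT d) :
    inW T T' e W ↔ T ≤ tE e W ∧ tE e W < T' := by
  unfold inW actE
  constructor
  · exact fun h => h.2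
  · intro h
    refine ⟨?_, h⟩
    have := h.2
    unfold tE at this
    linarith

lemma wm_inW_GGs {T T' : ℝ} (hTT' : T ≤ T') {e : Ev d} (hT' : T' ≤ e.2 + 1) :
    MeasurableSet[GGs θ T'] {ω : OmD d | inW T T' e ω.2.2} := by
  have hG0 : Measurable[GGs θ T'] (Gd (d := d) θ T') := comap_measurable _
  have hG : Measurable[GGs θ T'] (fun ω : OmD d => (Gd θ T' ω e).1) :=
    measurable_fst.comp ((measurable_pi_apply e).comp hG0)
  have h : {ω : OmD d | inW T T' e ω.2.2} = (fun ω : OmD d => (Gd θ T' ω e).1) ⁻¹' Ico T T' := by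
    ext ω
    simp only [Set.mem_ofPred_eq, wm_inW_iff hT', Gd, mem_preimage, mem_Ico, le_min_iff, min_lt_iff, lt_self_iff_false, or_false]
    constructor
    · exact fun h => ⟨⟨h.1, hTT'⟩, h.2⟩
    · exact fun h => ⟨h.1.1, h.2⟩
  rw [h]
  exact hG measurableSet_Ico

/-- The summand of the approximation at the site `x`. -/
noncomputable def wmY (θ : ℝ) (j : ℤ) (T T' : ℝ) (x : Word d) (ω : OmD d) : ℝ :=
  Set.indicator {ω : OmD d | inW T T' (x, j) ω.2.2} (wmC θ T x) ω * wmG (kp j) (wmM θ T x ω) (Uo θ ω (x, j))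

lemma wm_kp0 (j : ℤ) : 0 ≤ kp j := (kp_pos j).le

lemma wmY_abs (j : ℤ) (T T' : ℝ) (x : Word d) (ω : OmD d) : |wmY θ j T T' x ω| ≤ 1 := by
  unfold wmY
  rw [abs_mul]
  have h1 : |Set.indicator {ω : OmD d | inW T T' (x, j) ω.2.2} (wmC θ T x) ω| ≤ 1 := by
    by_cases h : ω ∈ {ω : OmD d | inW T T' (x, j) ω.2.2}
    · rw [Set.indicator_of_mem h]
      exact wmC_abs T x ω
    · rw [Set.indicator_of_notMem h]
      simp
  have h2 : |wmG (kp j) (wmM θ T x ω) (Uo θ ω (x, j))| ≤ 1 := by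
    have := wmG_abs (wm_kp0 j) (kp_le j) (wmM θ T x ω) (Uo θ ω (x, j))
    have h3 := kp_le j
    linarith
  exact mul_le_one₀ h1 (abs_nonneg _) h2

open Classical in
lemma wmY_GGs {j : ℤ} {T T' : ℝ} (hTT' : T ≤ T') (hT' : T' ≤ (j : ℝ) + 1) (x : Word d) :
    Measurable[GGs θ T'] (wmY θ j T T' x) := by
  have hS := wm_inW_GGs (θ := θ) hTT' (e := (x, j)) hT'
  have hU : Measurable[GGs θ T'] (fun ω : OmD d => if inA T' (x, j) ω.2.2 then Uo θ ω (x, j) else 0) :=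
    measurable_Uo_GGs T' (x, j)
  have hM : Measurable[GGs θ T'] (wmM θ T x) := (wmM_meas T x).mono (GGs_mono hTT') le_rfl
  have hC : Measurable[GGs θ T'] (wmC θ T x) := (wmC_meas T x).mono (GGs_mono hTT') le_rfl
  have heq : wmY θ j T T' x = fun ω => Set.indicator {ω : OmD d | inW T T' (x, j) ω.2.2} (wmC θ T x) ω *
      wmG (kp j) (wmM θ T x ω) (if inA T' (x, j) ω.2.2 then Uo θ ω (x, j) else 0) := by
    funext ω
    unfold wmY
    by_cases h : ω ∈ {ω : OmD d | inW T T' (x, j) ω.2.2}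
    · have hA : inA T' (x, j) ω.2.2 := ⟨h.1, h.2.2⟩
      simp [hA]
    · rw [Set.indicator_of_notMem h]
      simp
  rw [heq]
  exact (hC.indicator hS).mul ((measurable_wmG (kp j)).comp (hM.prodMk hU))

lemma wmY_FL {j : ℤ} {T T' : ℝ} (hTT' : T ≤ T') (hT' : T' ≤ (j : ℝ) + 1) (x : Word d) :
    Measurable[FL (fun _ => T')] (wmY θ j T T' x) :=
  (wmY_GGs hTT' hT' x).mono ((GGs_le_FOs T').trans (wm_FOs_le_FL T')) le_rfl

lemma wmY_meas {j : ℤ} {T T' : ℝ} (hTT' : T ≤ T') (hT' : T' ≤ (j : ℝ) + 1) (x : Word d) :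
    Measurable (wmY θ j T T' x) :=
  (wmY_GGs hTT' hT' x).mono ((GGs_le_FOs T').trans (FOs_le T')) le_rfl



/-! ### Integrals of the update variables -/

lemma wm_int {f : OmD d → ℝ} (hf : Measurable f) {C : ℝ} (hb : ∀ ω, |f ω| ≤ C) : Integrable f (PD d θ) :=
  Integrable.of_bound hf.aestronglyMeasurable C (Eventually.of_forall hb)

lemma wm_ind_abs {S : Set (OmD d)} {f : OmD d → ℝ} {C : ℝ} (hb : ∀ ω, |f ω| ≤ C) (ω : OmD d) :
    |S.indicator f ω| ≤ C := by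
  by_cases h : ω ∈ S
  · rw [Set.indicator_of_mem h]
    exact hb ω
  · rw [Set.indicator_of_notMem h]
    simpa using (abs_nonneg _).trans (hb ω)

open Classical in
/-- On the window, a function measurable for the stopped data is measurable in the past of the event. -/
lemma wm_ind_FL {T T' : ℝ} (e : Ev d) {Φ : OmD d → ℝ} (hΦ : Measurable[FOs T] Φ) :
    Measurable[FL (tE e)] (Set.indicator {ω : OmD d | inW T T' e ω.2.2} Φ) := by
  have h1 := measurable_FOs_FL e hΦ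
  have heq : Set.indicator {ω : OmD d | inW T T' e ω.2.2} Φ =
      Set.indicator {ω : OmD d | inW T T' e ω.2.2} (fun ω => if T ≤ tE e ω.2.2 then Φ ω else 0) := by
    funext ω
    by_cases h : ω ∈ {ω : OmD d | inW T T' e ω.2.2}
    · rw [Set.indicator_of_mem h, Set.indicator_of_mem h, if_pos h.2.1]
    · rw [Set.indicator_of_notMem h, Set.indicator_of_notMem h]
  rw [heq]
  exact h1.indicator (wm_inW_FL _ _ _ _)

open Classical in
/-- The updates have mean zero given the past. -/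
lemma wm_int_zero (h0 : 0 < θ) (h1 : θ < 1) {j : ℤ} {T T' : ℝ} (x : Word d) {Φ a : OmD d → ℝ}
    (hΦ : Measurable[FOs T] Φ) {B₀ : ℝ} (hΦb : ∀ ω, |Φ ω| ≤ B₀) (ha : Measurable[FOs T] a) :
    ∫ ω, Set.indicator {ω : OmD d | inW T T' (x, j) ω.2.2} Φ ω * wmG (kp j) (a ω) (Uo θ ω (x, j)) ∂(PD d θ) = 0 := by
  set e : Ev d := (x, j) with he
  set S : Set (OmD d) := {ω : OmD d | inW T T' e ω.2.2} with hS
  have hBm : Measurable[FL (tE e)] (S.indicator Φ) := wm_ind_FL e hΦ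
  have hAm : Measurable[FL (tE e)] (fun ω : OmD d => if T ≤ tE e ω.2.2 then a ω else 0) :=
    measurable_FOs_FL e ha
  have hBb : ∀ ω, |S.indicator Φ ω| ≤ B₀ := wm_ind_abs hΦb
  have hBa : ∀ ω, S.indicator Φ ω ≠ 0 → actE e ω.2.2 := by
    intro ω hω
    by_contra hc
    have : ω ∉ S := fun hm => hc hm.1
    exact hω (Set.indicator_of_notMem this _)
  have hH : Measurable (fun p : ℝ × ℝ => wmG (kp j) p.2 p.1) :=
    (measurable_wmG (kp j)).comp (measurable_snd.prodMk measurable_fst)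
  have hHb : ∀ p : ℝ × ℝ, |wmG (kp j) p.2 p.1| ≤ 2 * kp j := fun p => wmG_abs (wm_kp0 j) (kp_le j) _ _
  have key := int_U (θ := θ) h0 h1 e hBm hBb hBa hAm hH hHb
  have hl : ∀ ω, S.indicator Φ ω * wmG (kp j) (a ω) (Uo θ ω e) =
      S.indicator Φ ω * wmG (kp j) (if T ≤ tE e ω.2.2 then a ω else 0) (Uo θ ω e) := by
    intro ω
    by_cases h : ω ∈ S
    · rw [if_pos h.2.1]
    · rw [Set.indicator_of_notMem h, zero_mul, zero_mul]
  simp_rw [hl]
  refine key.trans ?_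
  simp_rw [integral_wmG (wm_kp0 j) (kp_le j), mul_zero, integral_zero]

open Classical in
/-- The second moment of an update. -/
lemma wm_int_sq (h0 : 0 < θ) (h1 : θ < 1) {j : ℤ} {T T' : ℝ} (x : Word d) :
    ∫ ω, wmY θ j T T' x ω * wmY θ j T T' x ω ∂(PD d θ) =
      ∫ ω, Set.indicator {ω : OmD d | inW T T' (x, j) ω.2.2}
        (fun ω => wmC θ T x ω ^ 2 * gamK (kp j) (wmM θ T x ω) (wmM θ T x ω)) ω ∂(PD d θ) := by
  set e : Ev d := (x, j) with he
  set S : Set (OmD d) := {ω : OmD d | inW T T' e ω.2.2} with hS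
  have hΦ : Measurable[FOs T] (fun ω : OmD d => wmC θ T x ω ^ 2) := (wmC_FOs T x).pow_const 2
  have hBm : Measurable[FL (tE e)] (S.indicator (fun ω : OmD d => wmC θ T x ω ^ 2)) := wm_ind_FL e hΦ
  have hAm : Measurable[FL (tE e)] (fun ω : OmD d => if T ≤ tE e ω.2.2 then wmM θ T x ω else 0) :=
    measurable_FOs_FL e (wmM_FOs T x)
  have hb2 : ∀ ω, |wmC θ T x ω ^ 2| ≤ 1 := by
    intro ω
    rw [abs_pow]
    exact pow_le_one₀ (abs_nonneg _) (wmC_abs T x ω)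
  have hBb : ∀ ω, |S.indicator (fun ω : OmD d => wmC θ T x ω ^ 2) ω| ≤ 1 := wm_ind_abs hb2
  have hBa : ∀ ω, S.indicator (fun ω : OmD d => wmC θ T x ω ^ 2) ω ≠ 0 → actE e ω.2.2 := by
    intro ω hω
    by_contra hc
    have : ω ∉ S := fun hm => hc hm.1
    exact hω (Set.indicator_of_notMem this _)
  have hH0 : Measurable (fun p : ℝ × ℝ => wmG (kp j) p.2 p.1) :=
    (measurable_wmG (kp j)).comp (measurable_snd.prodMk measurable_fst)
  have hH : Measurable (fun p : ℝ × ℝ => wmG (kp j) p.2 p.1 * wmG (kp j) p.2 p.1) := hH0.mul hH0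
  have hHb : ∀ p : ℝ × ℝ, |wmG (kp j) p.2 p.1 * wmG (kp j) p.2 p.1| ≤ (2 * kp j) * (2 * kp j) := by
    intro p
    rw [abs_mul]
    have := wmG_abs (wm_kp0 j) (kp_le j) p.2 p.1
    exact mul_le_mul this this (abs_nonneg _) ((abs_nonneg _).trans this)
  have key := int_U (θ := θ) h0 h1 e hBm hBb hBa hAm hH hHb
  have hl : ∀ ω, wmY θ j T T' x ω * wmY θ j T T' x ω =
      S.indicator (fun ω : OmD d => wmC θ T x ω ^ 2) ω *
        (wmG (kp j) (if T ≤ tE e ω.2.2 then wmM θ T x ω else 0) (Uo θ ω e) *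
         wmG (kp j) (if T ≤ tE e ω.2.2 then wmM θ T x ω else 0) (Uo θ ω e)) := by
    intro ω
    unfold wmY
    by_cases h : ω ∈ S
    · rw [if_pos h.2.1]
      have h' : ω ∈ {ω : OmD d | inW T T' (x, j) ω.2.2} := h
      rw [Set.indicator_of_mem h', Set.indicator_of_mem h]
      ring
    · have h' : ω ∉ {ω : OmD d | inW T T' (x, j) ω.2.2} := h
      rw [Set.indicator_of_notMem h', Set.indicator_of_notMem h]
      ring
  simp_rw [hl]
  refine key.trans ?_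
  refine integral_congr_ae (Eventually.of_forall (fun ω => ?_))
  simp only
  by_cases h : ω ∈ S
  · rw [Set.indicator_of_mem h, Set.indicator_of_mem h, if_pos h.2.1]
    simp_rw [integral_wmG_sq (wmM_abs T x ω)]
  · rw [Set.indicator_of_notMem h, Set.indicator_of_notMem h, zero_mul]

/-- Ties have probability zero. -/
lemma wm_tie_null {e e' : Ev d} (hne : e ≠ e') (he : e.2 = e'.2) :
    (PD d θ) {ω : OmD d | tE e ω.2.2 = tE e' ω.2.2} = 0 := by
  set A : Set (LabT d) := {W | W e = W e'} with hA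
  have hAm : MeasurableSet A := by
    exact measurableSet_eq_fun (measurable_pi_apply e) (measurable_pi_apply e')
  have hsub : {ω : OmD d | tE e ω.2.2 = tE e' ω.2.2} = (univ : Set (Word d → Bool)) ×ˢ ((univ : Set (LabT d)) ×ˢ A) := by
    ext ω
    simp only [Set.mem_ofPred_eq, Set.mem_prod, Set.mem_univ, true_and, hA, tE, he]
    constructor
    · intro h
      have : ((ω.2.2 e : unitInterval) : ℝ) = ω.2.2 e' := by linarith
      exact Subtype.ext this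
    · intro h
      rw [h]
  have hvol : volE d A = 0 := by
    have hmap : (volE d).map (fun W : LabT d => (W e, W e')) =
        (volume : Measure unitInterval).prod (volume : Measure unitInterval) :=
      Measure.infinitePi_map_eval_prod hne
    have hD : MeasurableSet {p : unitInterval × unitInterval | p.1 = p.2} :=
      measurableSet_eq_fun measurable_fst measurable_snd
    have hA2 : A = (fun W : LabT d => (W e, W e')) ⁻¹' {p : unitInterval × unitInterval | p.1 = p.2} := rfl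
    rw [hA2, ← Measure.map_apply (by fun_prop) hD, hmap, Measure.measure_prod_null hD]
    refine Eventually.of_forall (fun x => ?_)
    have : Prod.mk x ⁻¹' {p : unitInterval × unitInterval | p.1 = p.2} = {x} := by
      ext y
      simp [eq_comm]
    simp only [Pi.zero_apply]
    rw [this]
    exact measure_singleton x
  rw [hsub]
  unfold PD
  rw [Measure.prod_prod, Measure.prod_prod, hvol]
  simp

lemma wm_labelset_meas {A : Set (LabT d)} (hA : MeasurableSet A) : MeasurableSet {ω : OmD d | ω.2.2 ∈ A} :=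
  (measurable_snd.comp measurable_snd) hA

lemma wm_labelset_FL (tt : LabT d → ℝ) {A : Set (LabT d)} (hA : MeasurableSet A) :
    MeasurableSet[FL tt] {ω : OmD d | ω.2.2 ∈ A} :=
  (wm_labels_FL tt) hA

open Classical in
/-- Two updates at different sites are orthogonal, on the event that one comes first. -/
lemma wm_int_pair_lt (h0 : 0 < θ) (h1 : θ < 1) {j : ℤ} {T T' : ℝ} {x x' : Word d} (hne : x ≠ x') :
    ∫ ω, Set.indicator {ω : OmD d | tE (x, j) ω.2.2 < tE (x', j) ω.2.2}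
      (fun ω => wmY θ j T T' x ω * wmY θ j T T' x' ω) ω ∂(PD d θ) = 0 := by
  set e : Ev d := (x, j) with he
  set e' : Ev d := (x', j) with he'
  have hee : e ≠ e' := fun h => hne (congrArg Prod.fst h)
  set κ := kp j with hκ
  have hκ0 : 0 ≤ κ := wm_kp0 j
  have hκ1 : κ ≤ 1 / 2 := kp_le j
  set A : Set (LabT d) := {W | inW T T' e W ∧ inW T T' e' W ∧ tE e W < tE e' W} with hA
  have hAm : MeasurableSet A := by
    have h1 : MeasurableSet {W : LabT d | inW T T' e W} := by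
      unfold inW actE
      refine MeasurableSet.inter ?_ (MeasurableSet.inter ?_ ?_)
      · exact measurableSet_lt (wm_W_meas e) measurable_const
      · exact measurableSet_le measurable_const (wm_tE_meas e)
      · exact measurableSet_lt (wm_tE_meas e) measurable_const
    have h2 : MeasurableSet {W : LabT d | inW T T' e' W} := by
      unfold inW actE
      refine MeasurableSet.inter ?_ (MeasurableSet.inter ?_ ?_)
      · exact measurableSet_lt (wm_W_meas e') measurable_const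
      · exact measurableSet_le measurable_const (wm_tE_meas e')
      · exact measurableSet_lt (wm_tE_meas e') measurable_const
    exact h1.inter (h2.inter (measurableSet_lt (wm_tE_meas e) (wm_tE_meas e')))
  set F : Set (OmD d) := {ω : OmD d | ω.2.2 ∈ A} with hF
  have hFm : MeasurableSet[FL (tE e')] F := wm_labelset_FL _ hAm
  have hU1 : Measurable[FL (tE e')] (fun ω : OmD d =>
      (if actE e ω.2.2 ∧ tE e ω.2.2 < tE e' ω.2.2 then Uo θ ω e else 0)) := measurable_Uo_FL e e' hee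
  have hC1 : Measurable[FL (tE e')] (fun ω : OmD d => if T ≤ tE e' ω.2.2 then wmC θ T x ω * wmC θ T x' ω else 0) :=
    measurable_FOs_FL e' ((wmC_FOs T x).mul (wmC_FOs T x'))
  have hM1 : Measurable[FL (tE e')] (fun ω : OmD d => if T ≤ tE e' ω.2.2 then wmM θ T x ω else 0) :=
    measurable_FOs_FL e' (wmM_FOs T x)
  have hAA : Measurable[FL (tE e')] (fun ω : OmD d => if T ≤ tE e' ω.2.2 then wmM θ T x' ω else 0) :=
    measurable_FOs_FL e' (wmM_FOs T x')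
  set B : OmD d → ℝ := F.indicator (fun ω =>
    (if T ≤ tE e' ω.2.2 then wmC θ T x ω * wmC θ T x' ω else 0) *
      wmG κ (if T ≤ tE e' ω.2.2 then wmM θ T x ω else 0)
        (if actE e ω.2.2 ∧ tE e ω.2.2 < tE e' ω.2.2 then Uo θ ω e else 0)) with hB
  have hBm : Measurable[FL (tE e')] B :=
    (hC1.mul ((measurable_wmG κ).comp (hM1.prodMk hU1))).indicator hFm
  have hBb : ∀ ω, |B ω| ≤ 1 := by
    refine wm_ind_abs (fun ω => ?_)
    rw [abs_mul]
    have h2 : |wmG κ (if T ≤ tE e' ω.2.2 then wmM θ T x ω else 0)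
        (if actE e ω.2.2 ∧ tE e ω.2.2 < tE e' ω.2.2 then Uo θ ω e else 0)| ≤ 1 := by
      have := wmG_abs hκ0 hκ1 (if T ≤ tE e' ω.2.2 then wmM θ T x ω else 0)
        (if actE e ω.2.2 ∧ tE e ω.2.2 < tE e' ω.2.2 then Uo θ ω e else 0)
      linarith
    have h3 : |if T ≤ tE e' ω.2.2 then wmC θ T x ω * wmC θ T x' ω else 0| ≤ 1 := by
      split_ifs
      · rw [abs_mul]
        exact mul_le_one₀ (wmC_abs T x ω) (abs_nonneg _) (wmC_abs T x' ω)
      · simp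
    exact mul_le_one₀ h3 (abs_nonneg _) h2
  have hBa : ∀ ω, B ω ≠ 0 → actE e' ω.2.2 := by
    intro ω hω
    by_contra hc
    have : ω ∉ F := fun hm => hc hm.2.1.1
    exact hω (Set.indicator_of_notMem this _)
  have hH : Measurable (fun p : ℝ × ℝ => wmG κ p.2 p.1) :=
    (measurable_wmG κ).comp (measurable_snd.prodMk measurable_fst)
  have hHb : ∀ p : ℝ × ℝ, |wmG κ p.2 p.1| ≤ 2 * κ := fun p => wmG_abs hκ0 hκ1 _ _
  have key := int_U (θ := θ) h0 h1 e' hBm hBb hBa hAA hH hHb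
  have hl : ∀ ω, Set.indicator {ω : OmD d | tE e ω.2.2 < tE e' ω.2.2}
      (fun ω => wmY θ j T T' x ω * wmY θ j T T' x' ω) ω =
      B ω * wmG κ (if T ≤ tE e' ω.2.2 then wmM θ T x' ω else 0) (Uo θ ω e') := by
    intro ω
    by_cases hm : ω ∈ F
    · have hS1 : ω ∈ {ω : OmD d | inW T T' (x, j) ω.2.2} := hm.1
      have hS2 : ω ∈ {ω : OmD d | inW T T' (x', j) ω.2.2} := hm.2.1
      have hlt : ω ∈ {ω : OmD d | tE e ω.2.2 < tE e' ω.2.2} := hm.2.2
      have hT : T ≤ tE e' ω.2.2 := hm.2.1.2.1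
      have hact : actE e ω.2.2 ∧ tE e ω.2.2 < tE e' ω.2.2 := ⟨hm.1.1, hm.2.2⟩
      rw [Set.indicator_of_mem hlt, hB, Set.indicator_of_mem hm]
      unfold wmY
      rw [Set.indicator_of_mem hS1, Set.indicator_of_mem hS2, if_pos hT, if_pos hT, if_pos hT, if_pos hact]
      ring
    · have hB0 : B ω = 0 := Set.indicator_of_notMem hm _
      rw [hB0, zero_mul]
      by_cases hlt : ω ∈ {ω : OmD d | tE e ω.2.2 < tE e' ω.2.2}
      · rw [Set.indicator_of_mem hlt]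
        by_cases hS1 : ω ∈ {ω : OmD d | inW T T' (x, j) ω.2.2}
        · by_cases hS2 : ω ∈ {ω : OmD d | inW T T' (x', j) ω.2.2}
          · exact absurd ⟨hS1, hS2, hlt⟩ hm
          · unfold wmY
            rw [Set.indicator_of_notMem hS2]
            ring
        · unfold wmY
          rw [Set.indicator_of_notMem hS1]
          ring
      · rw [Set.indicator_of_notMem hlt]
  simp_rw [hl]
  refine key.trans ?_
  simp_rw [integral_wmG hκ0 hκ1, mul_zero, integral_zero]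

/-- Two updates at different sites are orthogonal. -/
lemma wm_int_pair (h0 : 0 < θ) (h1 : θ < 1) {j : ℤ} {T T' : ℝ} (hTT' : T ≤ T') (hT' : T' ≤ (j : ℝ) + 1)
    {x x' : Word d} (hne : x ≠ x') :
    ∫ ω, wmY θ j T T' x ω * wmY θ j T T' x' ω ∂(PD d θ) = 0 := by
  set e : Ev d := (x, j) with he
  set e' : Ev d := (x', j) with he'
  have hee : e ≠ e' := fun h => hne (congrArg Prod.fst h)
  have hmY := wmY_meas (θ := θ) hTT' hT' x
  have hmY' := wmY_meas (θ := θ) hTT' hT' x'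
  have hbd : ∀ ω, |wmY θ j T T' x ω * wmY θ j T T' x' ω| ≤ 1 := by
    intro ω
    rw [abs_mul]
    exact mul_le_one₀ (wmY_abs j T T' x ω) (abs_nonneg _) (wmY_abs j T T' x' ω)
  have hbd' : ∀ ω, |wmY θ j T T' x' ω * wmY θ j T T' x ω| ≤ 1 := by
    intro ω
    rw [mul_comm]
    exact hbd ω
  have hE1 : MeasurableSet {ω : OmD d | tE e ω.2.2 < tE e' ω.2.2} :=
    wm_labelset_meas (A := {W | tE e W < tE e' W}) (measurableSet_lt (wm_tE_meas e) (wm_tE_meas e'))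
  have hE2 : MeasurableSet {ω : OmD d | tE e' ω.2.2 < tE e ω.2.2} :=
    wm_labelset_meas (A := {W | tE e' W < tE e W}) (measurableSet_lt (wm_tE_meas e') (wm_tE_meas e))
  have hi1 : Integrable (Set.indicator {ω : OmD d | tE e ω.2.2 < tE e' ω.2.2}
      (fun ω => wmY θ j T T' x ω * wmY θ j T T' x' ω)) (PD d θ) :=
    (wm_int (hmY.mul hmY') hbd).indicator hE1
  have hi2 : Integrable (Set.indicator {ω : OmD d | tE e' ω.2.2 < tE e ω.2.2}
      (fun ω => wmY θ j T T' x' ω * wmY θ j T T' x ω)) (PD d θ) :=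
    (wm_int (hmY'.mul hmY) hbd').indicator hE2
  have hae : (fun ω => wmY θ j T T' x ω * wmY θ j T T' x' ω) =ᵐ[PD d θ]
      fun ω => Set.indicator {ω : OmD d | tE e ω.2.2 < tE e' ω.2.2}
        (fun ω => wmY θ j T T' x ω * wmY θ j T T' x' ω) ω +
        Set.indicator {ω : OmD d | tE e' ω.2.2 < tE e ω.2.2}
        (fun ω => wmY θ j T T' x' ω * wmY θ j T T' x ω) ω := by
    have htie := wm_tie_null (θ := θ) hee rfl
    have : ∀ᵐ ω ∂(PD d θ), ¬ (tE e ω.2.2 = tE e' ω.2.2) := by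
      rw [ae_iff]
      simpa using htie
    filter_upwards [this] with ω hω
    rcases lt_or_gt_of_ne hω with h | h
    · have h2 : ¬ (tE e' ω.2.2 < tE e ω.2.2) := not_lt.mpr h.le
      rw [Set.indicator_of_mem (show ω ∈ {ω : OmD d | tE e ω.2.2 < tE e' ω.2.2} from h),
        Set.indicator_of_notMem (show ω ∉ {ω : OmD d | tE e' ω.2.2 < tE e ω.2.2} from h2), add_zero]
    · have h2 : ¬ (tE e ω.2.2 < tE e' ω.2.2) := not_lt.mpr h.le
      rw [Set.indicator_of_notMem (show ω ∉ {ω : OmD d | tE e ω.2.2 < tE e' ω.2.2} from h2),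
        Set.indicator_of_mem (show ω ∈ {ω : OmD d | tE e' ω.2.2 < tE e ω.2.2} from h), zero_add, mul_comm]
  rw [integral_congr_ae hae, integral_add hi1 hi2, wm_int_pair_lt h0 h1 hne, wm_int_pair_lt h0 h1 hne.symm, add_zero]


/-! ### The mixed moment of the update and the spin at the root -/

/-- The kernel used for the spin identity. -/
noncomputable def wmH (κ : ℝ) (p : ℝ × (ℝ × ℝ)) : ℝ :=
  wmG κ p.2.1 (cdfA (κ * wmCl p.2.2) (wmCl p.1))

lemma measurable_wmH (κ : ℝ) : Measurable (wmH κ) := by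
  have h : Measurable (fun p : ℝ × (ℝ × ℝ) => cdfA (κ * wmCl p.2.2) (wmCl p.1)) :=
    measurable_cdfA.comp (((measurable_wmCl.comp (measurable_snd.comp measurable_snd)).const_mul κ).prodMk
      (measurable_wmCl.comp measurable_fst))
  exact (measurable_wmG κ).comp ((measurable_fst.comp measurable_snd).prodMk h)

lemma wmH_abs {κ : ℝ} (h0 : 0 ≤ κ) (hκ : κ ≤ 1 / 2) (p : ℝ × (ℝ × ℝ)) : |wmH κ p| ≤ 2 * κ :=
  wmG_abs h0 hκ _ _

lemma wm_km_abs {κ m : ℝ} (h0 : 0 ≤ κ) (hκ : κ ≤ 1 / 2) (hm : |m| ≤ 1) : |κ * m| ≤ 1 / 2 := by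
  rw [abs_mul, abs_of_nonneg h0]
  nlinarith [abs_nonneg m]

/-- The real identity behind the mixed moment. -/
lemma wm_spin_real {κ a m : ℝ} (h0 : 0 ≤ κ) (hκ : κ ≤ 1 / 2) (ha : |a| ≤ 1) (hm : |m| ≤ 1) (mo c : ℝ) :
    mo * (∫ z in Icc (-1 : ℝ) 1, wmH κ (z, (a, m)) / 2) +
        κ * (c + mo * m) * (∫ z in Icc (-1 : ℝ) 1, wmH κ (z, (a, m)) * (z / 2)) = c * gamK κ m a := by
  have hk := wm_km_abs h0 hκ hm
  have hHm : Measurable (fun z : ℝ => wmH κ (z, (a, m))) :=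
    (measurable_wmH κ).comp (measurable_id.prodMk measurable_const)
  have hH : ∀ z ∈ Icc (-1 : ℝ) 1, wmH κ (z, (a, m)) = wmG κ a (cdfA (κ * m) z) := by
    intro z hz
    unfold wmH
    simp only
    rw [wmCl_of_abs hm, wmCl_of_abs (abs_le.mpr ⟨hz.1, hz.2⟩)]
  have hIi : ∀ {g : ℝ → ℝ}, Measurable g → (∀ z ∈ Icc (-1 : ℝ) 1, |g z| ≤ 1) →
      ∀ f : ℝ → ℝ, Measurable f → (∀ z ∈ Icc (-1 : ℝ) 1, |f z| ≤ 1) →
        IntegrableOn (fun z => f z * g z) (Icc (-1 : ℝ) 1) := by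
    intro g hg hgb f hf hfb
    have hfin : volume (Icc (-1 : ℝ) 1) < ⊤ := by
      rw [Real.volume_Icc]; exact ENNReal.ofReal_lt_top
    refine Measure.integrableOn_of_bounded (M := 1) hfin.ne (hf.mul hg).aestronglyMeasurable ?_
    refine (ae_restrict_iff' measurableSet_Icc).2 (Eventually.of_forall fun z hz => ?_)
    rw [Real.norm_eq_abs, abs_mul]
    exact mul_le_one₀ (hfb z hz) (abs_nonneg _) (hgb z hz)
  have hHb : ∀ z ∈ Icc (-1 : ℝ) 1, |wmH κ (z, (a, m))| ≤ 1 := by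
    intro z _
    have := wmH_abs h0 hκ (z, (a, m))
    linarith
  have hz2 : ∀ z ∈ Icc (-1 : ℝ) 1, |z / 2| ≤ 1 := by
    intro z hz
    have := abs_le.mpr ⟨hz.1, hz.2⟩
    rw [abs_div, abs_of_pos (by norm_num : (0 : ℝ) < 2)]
    linarith
  have hc2 : ∀ z ∈ Icc (-1 : ℝ) 1, |(1 / 2 : ℝ)| ≤ 1 := by
    intro z _
    rw [abs_of_pos (by norm_num)]
    norm_num
  have hI0 : IntegrableOn (fun z => (1 / 2 : ℝ) * wmH κ (z, (a, m))) (Icc (-1 : ℝ) 1) :=
    hIi hHm hHb (fun _ => 1 / 2) measurable_const hc2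
  have hI1 : IntegrableOn (fun z : ℝ => (z / 2) * wmH κ (z, (a, m))) (Icc (-1 : ℝ) 1) :=
    hIi hHm hHb (fun z => z / 2) (by fun_prop) hz2
  set I0 : ℝ := ∫ z in Icc (-1 : ℝ) 1, wmH κ (z, (a, m)) / 2 with hI0d
  set I1 : ℝ := ∫ z in Icc (-1 : ℝ) 1, wmH κ (z, (a, m)) * (z / 2) with hI1d
  have e1 : I0 + κ * m * I1 = 0 := by
    have hGm : Measurable (fun u : ℝ => wmG κ a u) :=
      (measurable_wmG κ).comp (measurable_const.prodMk measurable_id)
    have h1 := integral_cdfA hk hGm (C := 2 * κ) (fun u _ => wmG_abs h0 hκ a u)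
    rw [integral_wmG h0 hκ a] at h1
    have h2 : I0 + κ * m * I1 =
        ∫ z in Icc (-1 : ℝ) 1, wmG κ a (cdfA (κ * m) z) * ((1 + κ * m * z) / 2) := by
      have e0 : I0 = ∫ z in Icc (-1 : ℝ) 1, (1 / 2 : ℝ) * wmH κ (z, (a, m)) := by
        rw [hI0d]
        refine integral_congr_ae (Eventually.of_forall fun z => ?_)
        simp only
        ring
      have e1' : I1 = ∫ z in Icc (-1 : ℝ) 1, (z / 2) * wmH κ (z, (a, m)) := by
        rw [hI1d]
        refine integral_congr_ae (Eventually.of_forall fun z => ?_)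
        simp only
        ring
      rw [e0, e1', ← integral_const_mul, ← integral_add hI0 (hI1.const_mul _)]
      refine setIntegral_congr_fun measurableSet_Icc fun z hz => ?_
      show (1 / 2 : ℝ) * wmH κ (z, (a, m)) + κ * m * ((z / 2) * wmH κ (z, (a, m))) =
        wmG κ a (cdfA (κ * m) z) * ((1 + κ * m * z) / 2)
      rw [hH z hz]
      ring
    rw [h2]
    exact h1
  have e2 : gamK κ m a = κ * I1 := by
    rw [gamK_eq h0 hκ hm ha, hI1d]
    congr 1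
    refine setIntegral_congr_fun measurableSet_Icc fun z hz => ?_
    show (z / 2) * Gk κ a (cdfA (κ * m) z) = wmH κ (z, (a, m)) * (z / 2)
    rw [hH z hz, wmG_eq ha (cdfA_mem hk hz)]
    ring
  rw [e2]
  have : mo * I0 + κ * (c + mo * m) * I1 = mo * (I0 + κ * m * I1) + c * (κ * I1) := by ring
  rw [this, e1]
  ring

open Classical in
/-- The mixed moment of the update and the spin at the root. -/
lemma wm_int_spin (h0 : 0 < θ) (h1 : θ < 1) {j : ℤ} {T T' : ℝ} (x : Word d) :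
    ∫ ω, sp (ω.1 root) * wmY θ j T T' x ω ∂(PD d θ) =
      ∫ ω, Set.indicator {ω : OmD d | inW T T' (x, j) ω.2.2}
        (fun ω => wmC θ T x ω * (CCr θ x (yS (tE (x, j) ω.2.2) ω) *
          gamK (kp j) (mm θ x (yS (tE (x, j) ω.2.2) ω)) (wmM θ T x ω))) ω ∂(PD d θ) := by
  set e : Ev d := (x, j) with he
  set S : Set (OmD d) := {ω : OmD d | inW T T' e ω.2.2} with hS
  have hBm : Measurable[FL (tE e)] (S.indicator (wmC θ T x)) := wm_ind_FL e (wmC_FOs (θ := θ) T x)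
  have hBb : ∀ ω, |S.indicator (wmC θ T x) ω| ≤ 1 := wm_ind_abs (wmC_abs (θ := θ) T x)
  have hA1 : Measurable[FL (tE e)] (fun ω : OmD d => if T ≤ tE e ω.2.2 then wmM θ T x ω else 0) :=
    measurable_FOs_FL e (wmM_FOs (θ := θ) T x)
  have hA2 : Measurable[FL (tE e)] (fun ω : OmD d => mm θ x (yS (tE e ω.2.2) ω)) :=
    measurable_mm_FL (tE e) (wm_tE_meas e) x
  have hA : Measurable[FL (tE e)] (fun ω : OmD d =>
      ((if T ≤ tE e ω.2.2 then wmM θ T x ω else 0), mm θ x (yS (tE e ω.2.2) ω))) := hA1.prodMk hA2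
  have hHb : ∀ p : ℝ × (ℝ × ℝ), |wmH (kp j) p| ≤ 2 * kp j := wmH_abs (wm_kp0 j) (kp_le j)
  have key := int_Z_spin (θ := θ) h0 h1 e hBm hBb hA (measurable_wmH (kp j)) hHb
  have hl : ∀ ω, sp (ω.1 root) * wmY θ j T T' x ω =
      sp (ω.1 root) * S.indicator (wmC θ T x) ω * wmH (kp j) (Zo ω e,
        ((if T ≤ tE e ω.2.2 then wmM θ T x ω else 0), mm θ x (yS (tE e ω.2.2) ω))) := by
    intro ω
    unfold wmY
    by_cases h : ω ∈ S
    · rw [Set.indicator_of_mem h, if_pos h.2.1]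
      unfold wmH
      simp only
      rw [wmCl_of_abs (wm_m_lt h1 _ ω x).le, wmCl_of_abs (wm_Zo_abs ω e), mul_assoc]
      congr 3
      unfold Uo
      rw [if_pos h.1]
    · rw [Set.indicator_of_notMem h]
      ring
  simp_rw [hl]
  refine key.trans ?_
  refine integral_congr_ae (Eventually.of_forall fun ω => ?_)
  simp only
  by_cases h : ω ∈ S
  · rw [Set.indicator_of_mem h, Set.indicator_of_mem h, if_pos h.2.1]
    have := wm_spin_real (wm_kp0 j) (kp_le j) (wmM_abs (θ := θ) T x ω) (wm_m_lt h1 (tE e ω.2.2) ω x).le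
      (mm θ root (yS (tE e ω.2.2) ω)) (CCr θ x (yS (tE e ω.2.2) ω))
    show wmC θ T x ω * (_ + kp j * _ * _) = _
    rw [this]
  · rw [Set.indicator_of_notMem h, Set.indicator_of_notMem h, zero_mul]

/-- The update tested against the posterior mean at the end of the cell. -/
lemma wm_int_mo (h0 : 0 < θ) (h1 : θ < 1) {j : ℤ} {T T' : ℝ} (hTT' : T ≤ T') (hT' : T' ≤ (j : ℝ) + 1) (x : Word d) :
    ∫ ω, mm θ root (yS T' ω) * wmY θ j T T' x ω ∂(PD d θ) =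
      ∫ ω, sp (ω.1 root) * wmY θ j T T' x ω ∂(PD d θ) := by
  have hle := FL_le (d := d) (fun _ => T') measurable_const
  have hf : Integrable (fun ω : OmD d => sp (ω.1 root)) (PD d θ) :=
    wm_int (wm_measurable_sp_comp ((measurable_pi_apply root).comp measurable_fst))
      (fun ω => (wm_abs_sp_eq _).le)
  have key := innov_int_test hle hf (wmY_FL (θ := θ) hTT' hT' x) (wmY_abs j T T' x)
  have hc := condExp_spin (θ := θ) h0 h1 (tt := fun _ => T') measurable_const ⟨T', fun _ => le_rfl⟩ (root : Word d)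
  have e1 : ∫ ω, wmY θ j T T' x ω * condExp (FL (fun _ => T')) (PD d θ) (fun ω => sp (ω.1 root)) ω ∂(PD d θ) =
      ∫ ω, wmY θ j T T' x ω * mm θ root (yS T' ω) ∂(PD d θ) := by
    refine integral_congr_ae ?_
    filter_upwards [hc] with ω hω
    rw [hω]
  simp_rw [mul_comm (sp _)] 
  simp_rw [mul_comm (mm θ root (yS T' _))]
  rw [key, e1]

/-- The update is orthogonal to the data at the start of the cell. -/
lemma wm_int_mh (h0 : 0 < θ) (h1 : θ < 1) {j : ℤ} {T T' : ℝ} (x : Word d) {Φ : OmD d → ℝ}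
    (hΦ : Measurable[FOs T] Φ) {B₀ : ℝ} (hΦb : ∀ ω, |Φ ω| ≤ B₀) :
    ∫ ω, Φ ω * wmY θ j T T' x ω ∂(PD d θ) = 0 := by
  have hB : Measurable[FOs T] (fun ω => Φ ω * wmC θ T x ω) := hΦ.mul (wmC_FOs (θ := θ) T x)
  have hBb : ∀ ω, |Φ ω * wmC θ T x ω| ≤ B₀ := by
    intro ω
    rw [abs_mul]
    have h2 := wmC_abs (θ := θ) T x ω
    have h3 := hΦb ω
    have h4 := abs_nonneg (Φ ω)
    have h5 := abs_nonneg (wmC θ T x ω)
    nlinarith
  have key := wm_int_zero (θ := θ) (j := j) (T' := T') h0 h1 x hB hBb (wmM_FOs (θ := θ) T x)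
  refine Eq.trans ?_ key
  refine integral_congr_ae (Eventually.of_forall fun ω => ?_)
  simp only
  unfold wmY
  by_cases h : ω ∈ {ω : OmD d | inW T T' (x, j) ω.2.2}
  · rw [Set.indicator_of_mem h, Set.indicator_of_mem h]
    ring
  · rw [Set.indicator_of_notMem h, Set.indicator_of_notMem h]
    ring

/-! ### Expansion of the square on a cell -/

lemma wm_expand_abs {Ω ι : Type*} {mΩ : MeasurableSpace Ω} {P : Measure Ω} [IsProbabilityMeasure P]
    {f h m0 : Ω → ℝ} {Y : ι → Ω → ℝ} (F : Finset ι)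
    (hf : Measurable f) (hfb : ∀ ω, |f ω| ≤ 1) (hh : Measurable h) (hhb : ∀ ω, |h ω| ≤ 1)
    (hm0 : Measurable m0) (hm0b : ∀ ω, |m0 ω| ≤ 1)
    (hY : ∀ x, Measurable (Y x)) (hYb : ∀ x ω, |Y x ω| ≤ 1)
    (hfh : ∫ ω, f ω * h ω ∂P = ∫ ω, m0 ω * h ω ∂P)
    (hhY : ∀ x ∈ F, ∫ ω, h ω * Y x ω ∂P = 0)
    (hYY : ∀ x ∈ F, ∀ x' ∈ F, x ≠ x' → ∫ ω, Y x ω * Y x' ω ∂P = 0) :
    ∫ ω, (f ω - (h ω + ∑ x ∈ F, Y x ω)) ^ 2 ∂P =
      ∫ ω, (m0 ω - h ω) ^ 2 ∂P + (∫ ω, f ω ^ 2 ∂P - ∫ ω, m0 ω ^ 2 ∂P) +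
        ∑ x ∈ F, (∫ ω, Y x ω * Y x ω ∂P - 2 * ∫ ω, f ω * Y x ω ∂P) := by
  classical
  have bint : ∀ {u v : Ω → ℝ}, Measurable u → (∀ ω, |u ω| ≤ 1) → Measurable v → (∀ ω, |v ω| ≤ 1) →
      Integrable (fun ω => u ω * v ω) P := by
    intro u v hu hub hv hvb
    refine Integrable.of_bound (hu.mul hv).aestronglyMeasurable 1 (Eventually.of_forall fun ω => ?_)
    rw [Real.norm_eq_abs, abs_mul]
    exact mul_le_one₀ (hub ω) (abs_nonneg _) (hvb ω)
  have hff := bint hf hfb hf hfb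
  have hfhi := bint hf hfb hh hhb
  have hhh := bint hh hhb hh hhb
  have hm0h := bint hm0 hm0b hh hhb
  have hm0m0 := bint hm0 hm0b hm0 hm0b
  have hhYi : ∀ x, Integrable (fun ω => h ω * Y x ω) P := fun x => bint hh hhb (hY x) (hYb x)
  have hfYi : ∀ x, Integrable (fun ω => f ω * Y x ω) P := fun x => bint hf hfb (hY x) (hYb x)
  have hYYi : ∀ x x', Integrable (fun ω => Y x ω * Y x' ω) P := fun x x' => bint (hY x) (hYb x) (hY x') (hYb x')
  have e0 : ∀ ω, (f ω - (h ω + ∑ x ∈ F, Y x ω)) ^ 2 =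
      (f ω * f ω - 2 * (f ω * h ω) + h ω * h ω) +
        (∑ x ∈ F, (2 * (h ω * Y x ω) - 2 * (f ω * Y x ω))) +
        ∑ x ∈ F, ∑ x' ∈ F, Y x ω * Y x' ω := by
    intro ω
    rw [← Finset.sum_mul_sum, Finset.sum_sub_distrib, ← Finset.mul_sum, ← Finset.mul_sum, ← Finset.mul_sum,
      ← Finset.mul_sum]
    ring
  have i1 : Integrable (fun ω => f ω * f ω - 2 * (f ω * h ω) + h ω * h ω) P :=
    (hff.sub (hfhi.const_mul 2)).add hhh
  have i2 : Integrable (fun ω => ∑ x ∈ F, (2 * (h ω * Y x ω) - 2 * (f ω * Y x ω))) P :=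
    integrable_finsetSum _ fun x _ => ((hhYi x).const_mul 2).sub ((hfYi x).const_mul 2)
  have i3 : Integrable (fun ω => ∑ x ∈ F, ∑ x' ∈ F, Y x ω * Y x' ω) P :=
    integrable_finsetSum _ fun x _ => integrable_finsetSum _ fun x' _ => hYYi x x'
  have e1 : ∫ ω, (f ω - (h ω + ∑ x ∈ F, Y x ω)) ^ 2 ∂P =
      (∫ ω, f ω * f ω ∂P - 2 * ∫ ω, f ω * h ω ∂P + ∫ ω, h ω * h ω ∂P) +
        (∑ x ∈ F, (2 * ∫ ω, h ω * Y x ω ∂P - 2 * ∫ ω, f ω * Y x ω ∂P)) +
        ∑ x ∈ F, ∑ x' ∈ F, ∫ ω, Y x ω * Y x' ω ∂P := by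
    simp_rw [e0]
    have i12 : Integrable (fun ω => (f ω * f ω - 2 * (f ω * h ω) + h ω * h ω) +
        ∑ x ∈ F, (2 * (h ω * Y x ω) - 2 * (f ω * Y x ω))) P := i1.add i2
    have i0 : Integrable (fun ω => f ω * f ω - 2 * (f ω * h ω)) P := hff.sub (hfhi.const_mul 2)
    have i4 : ∀ x, Integrable (fun ω => 2 * (h ω * Y x ω) - 2 * (f ω * Y x ω)) P := fun x =>
      ((hhYi x).const_mul 2).sub ((hfYi x).const_mul 2)
    have i5 : ∀ x, Integrable (fun ω => ∑ x' ∈ F, Y x ω * Y x' ω) P := fun x =>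
      integrable_finsetSum _ fun x' _ => hYYi x x'
    rw [integral_add i12 i3, integral_add i1 i2, integral_add i0 hhh,
      integral_sub hff (hfhi.const_mul 2), integral_const_mul, integral_finsetSum _ fun x _ => i4 x,
      integral_finsetSum _ fun x _ => i5 x]
    have h1 : ∑ x ∈ F, ∫ ω, (2 * (h ω * Y x ω) - 2 * (f ω * Y x ω)) ∂P =
        ∑ x ∈ F, (2 * ∫ ω, h ω * Y x ω ∂P - 2 * ∫ ω, f ω * Y x ω ∂P) := by
      refine Finset.sum_congr rfl fun x _ => ?_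
      rw [integral_sub ((hhYi x).const_mul 2) ((hfYi x).const_mul 2), integral_const_mul, integral_const_mul]
    have h2 : ∑ x ∈ F, ∫ ω, ∑ x' ∈ F, Y x ω * Y x' ω ∂P = ∑ x ∈ F, ∑ x' ∈ F, ∫ ω, Y x ω * Y x' ω ∂P := by
      refine Finset.sum_congr rfl fun x _ => ?_
      exact integral_finsetSum _ fun x' _ => hYYi x x'
    rw [h1, h2]
  have e2 : ∀ x ∈ F, ∑ x' ∈ F, ∫ ω, Y x ω * Y x' ω ∂P = ∫ ω, Y x ω * Y x ω ∂P := by
    intro x hx
    refine Finset.sum_eq_single x (fun x' hx' hne => hYY x hx x' hx' hne.symm) (fun h => absurd hx h)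
  have e3 : ∫ ω, (m0 ω - h ω) ^ 2 ∂P = ∫ ω, m0 ω * m0 ω ∂P - 2 * ∫ ω, m0 ω * h ω ∂P + ∫ ω, h ω * h ω ∂P := by
    have : ∀ ω, (m0 ω - h ω) ^ 2 = m0 ω * m0 ω - 2 * (m0 ω * h ω) + h ω * h ω := fun ω => by ring
    simp_rw [this]
    have i0 : Integrable (fun ω => m0 ω * m0 ω - 2 * (m0 ω * h ω)) P := hm0m0.sub (hm0h.const_mul 2)
    rw [integral_add i0 hhh, integral_sub hm0m0 (hm0h.const_mul 2), integral_const_mul]
  have e4 : ∑ x ∈ F, (2 * ∫ ω, h ω * Y x ω ∂P - 2 * ∫ ω, f ω * Y x ω ∂P) =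
      ∑ x ∈ F, (- (2 * ∫ ω, f ω * Y x ω ∂P)) := by
    refine Finset.sum_congr rfl fun x hx => ?_
    rw [hhY x hx]
    ring
  have e5 : ∑ x ∈ F, (∫ ω, Y x ω * Y x ω ∂P - 2 * ∫ ω, f ω * Y x ω ∂P) =
      ∑ x ∈ F, (- (2 * ∫ ω, f ω * Y x ω ∂P)) + ∑ x ∈ F, ∫ ω, Y x ω * Y x ω ∂P := by
    rw [← Finset.sum_add_distrib]
    refine Finset.sum_congr rfl fun x _ => ?_
    ring
  have e6 : ∑ x ∈ F, ∑ x' ∈ F, ∫ ω, Y x ω * Y x' ω ∂P = ∑ x ∈ F, ∫ ω, Y x ω * Y x ω ∂P :=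
    Finset.sum_congr rfl e2
  have e7 : ∀ g : Ω → ℝ, ∫ ω, g ω ^ 2 ∂P = ∫ ω, g ω * g ω ∂P := fun g => by
    simp_rw [sq]
  rw [e1, e3, e4, e5, e6, hfh, e7 f, e7 m0]
  ring

/-- The inequality on one cell, before the energy identity is used. -/
lemma wm_cell (hd : 0 < d) (h0 : 0 < θ) (h1 : θ < 1) {j : ℤ} {T T' : ℝ} (hTT' : T ≤ T') (hT' : T' ≤ (j : ℝ) + 1)
    (F : Finset (Word d)) :
    rD (θ := θ) hd T' ≤ rD (θ := θ) hd T + (qD d θ T' - qD d θ T) +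
      ∑ x ∈ F, (∫ ω, Set.indicator {ω : OmD d | inW T T' (x, j) ω.2.2}
          (fun ω => wmC θ T x ω ^ 2 * gamK (kp j) (wmM θ T x ω) (wmM θ T x ω)) ω ∂(PD d θ) -
        2 * ∫ ω, Set.indicator {ω : OmD d | inW T T' (x, j) ω.2.2}
        (fun ω => wmC θ T x ω * (CCr θ x (yS (tE (x, j) ω.2.2) ω) *
          gamK (kp j) (mm θ x (yS (tE (x, j) ω.2.2) ω)) (wmM θ T x ω))) ω ∂(PD d θ)) := by
  classical
  have hG : GGs (d := d) θ T' ≤ (inferInstance : MeasurableSpace (OmD d)) := (GGs_le_FOs T').trans (FOs_le T')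
  have hfm : Measurable (fun ω : OmD d => mm θ root (yS T' ω)) := wm_mT_meas T' root
  have hfb : ∀ ω : OmD d, |mm θ root (yS T' ω)| ≤ 1 := fun ω => mm_yS_le_one h1 T' ω root
  have hZ : Measurable[GGs θ T'] (fun ω : OmD d => wmM θ T root ω + ∑ x ∈ F, wmY θ j T T' x ω) := by
    refine Measurable.add ((wmM_meas T root).mono (GGs_mono hTT') le_rfl) ?_
    exact Finset.measurable_fun_sum _ fun x _ => wmY_GGs hTT' hT' x
  have hZb : ∀ ω : OmD d, |wmM θ T root ω + ∑ x ∈ F, wmY θ j T T' x ω| ≤ 1 + F.card := by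
    intro ω
    refine (abs_add_le _ _).trans (add_le_add (wmM_abs T root ω) ?_)
    refine (Finset.abs_sum_le_sum_abs _ _).trans ?_
    calc ∑ x ∈ F, |wmY θ j T T' x ω| ≤ ∑ x ∈ F, (1 : ℝ) :=
          Finset.sum_le_sum fun x _ => wmY_abs j T T' x ω
      _ = F.card := by simp
  have hbest := wm_condExp_best (P := PD d θ) hG hfm hfb hZ hZb
  have hexp := wm_expand_abs (P := PD d θ) (f := fun ω : OmD d => mm θ root (yS T' ω))
    (h := wmM θ T root) (m0 := fun ω : OmD d => mm θ root (yS T ω)) (Y := fun x => wmY θ j T T' x) F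
    hfm hfb ((wmM_meas T root).mono ((GGs_le_FOs T).trans (FOs_le T)) le_rfl) (wmM_abs T root)
    (wm_mT_meas T root) (fun ω => mm_yS_le_one h1 T ω root)
    (fun x => wmY_meas hTT' hT' x) (fun x ω => wmY_abs j T T' x ω)
    (mm_martingale h0 h1 hTT' root
      ((wmM_FOs T root).mono (wm_FOs_le_FL T) le_rfl) (wmM_abs T root))
    (fun x _ => wm_int_mh h0 h1 x (wmM_FOs T root) (wmM_abs T root))
    (fun x _ x' _ hne => wm_int_pair h0 h1 hTT' hT' hne)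
  have hrT' : rD (θ := θ) hd T' =
      ∫ ω, (mm θ root (yS T' ω) - condExp (GGs θ T') (PD d θ) (fun ω => mm θ root (yS T' ω)) ω) ^ 2 ∂(PD d θ) := rfl
  have hrT : rD (θ := θ) hd T = ∫ ω, (mm θ root (yS T ω) - wmM θ T root ω) ^ 2 ∂(PD d θ) := by
    have : rD (θ := θ) hd T =
      ∫ ω, (mm θ root (yS T ω) - condExp (GGs θ T) (PD d θ) (fun ω => mm θ root (yS T ω)) ω) ^ 2 ∂(PD d θ) := rfl
    rw [this]
    refine integral_congr_ae ?_
    filter_upwards [wmM_ae h1 T root] with ω hω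
    rw [hω]
  rw [hrT', hrT]
  refine hbest.trans (le_of_eq ?_)
  rw [hexp]
  unfold qD
  congr 1
  refine Finset.sum_congr rfl fun x _ => ?_
  rw [wm_int_sq h0 h1 x, wm_int_mo h0 h1 hTT' hT' x, wm_int_spin h0 h1 x]

/-! ### The pointwise bound on the second moment of the increment -/

lemma wm_unit_int {κ m m' : ℝ} (h0 : 0 ≤ κ) (hκ : κ ≤ 1 / 2) (hm : |m| ≤ 1) (hm' : |m'| ≤ 1) :
    Integrable (fun u : unitInterval => Gk κ m u * Gk κ m' u) := by
  have hG : ∀ a : ℝ, Measurable (fun u : unitInterval => Gk κ a u) := fun a =>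
    (measurable_Gk κ).comp (measurable_const.prodMk measurable_subtype_coe)
  refine Integrable.of_bound ((hG m).mul (hG m')).aestronglyMeasurable ((2 * κ) * (2 * κ))
    (Eventually.of_forall fun u => ?_)
  rw [Real.norm_eq_abs, abs_mul]
  have h1 := Gk_abs h0 hκ hm u.2
  have h2 := Gk_abs h0 hκ hm' u.2
  exact mul_le_mul h1 h2 (abs_nonneg _) (by linarith)

lemma wm_gamK_abs {κ m m' : ℝ} (h0 : 0 ≤ κ) (hκ : κ ≤ 1 / 2) (hm : |m| ≤ 1) (hm' : |m'| ≤ 1) :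
    |gamK κ m m'| ≤ 1 := by
  unfold gamK
  have hb : ∀ u : unitInterval, ‖Gk κ m u * Gk κ m' u‖ ≤ 1 := by
    intro u
    rw [Real.norm_eq_abs, abs_mul]
    have h1 := Gk_abs h0 hκ hm u.2
    have h2 := Gk_abs h0 hκ hm' u.2
    have h3 : 2 * κ ≤ 1 := by linarith
    exact mul_le_one₀ (h1.trans h3) (abs_nonneg _) (h2.trans h3)
  have := norm_integral_le_of_norm_le_const (μ := (volume : Measure unitInterval)) (Eventually.of_forall hb)
  simpa using this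

lemma measurable_gamK (κ : ℝ) : Measurable (fun p : ℝ × ℝ => gamK κ p.1 p.2) := by
  unfold gamK
  have hf : Measurable (fun q : (ℝ × ℝ) × unitInterval => Gk κ q.1.1 q.2 * Gk κ q.1.2 q.2) := by
    have h1 : Measurable (fun q : (ℝ × ℝ) × unitInterval => Gk κ q.1.1 q.2) :=
      (measurable_Gk κ).comp ((measurable_fst.comp measurable_fst).prodMk
        (measurable_subtype_coe.comp measurable_snd))
    have h2 : Measurable (fun q : (ℝ × ℝ) × unitInterval => Gk κ q.1.2 q.2) :=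
      (measurable_Gk κ).comp ((measurable_snd.comp measurable_fst).prodMk
        (measurable_subtype_coe.comp measurable_snd))
    exact h1.mul h2
  exact (hf.stronglyMeasurable.integral_prod_right' (ν := (volume : Measure unitInterval))).measurable

lemma wm_sq_two (x y : ℝ) : (x + y) ^ 2 ≤ 2 * x ^ 2 + 2 * y ^ 2 := by
  have := sq_nonneg (x - y)
  nlinarith

lemma wm_sq_three (a b : ℝ) : (a + b) ^ 2 ≤ 3 / 2 * a ^ 2 + 3 * b ^ 2 := by
  have := sq_nonneg (a - 2 * b)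
  nlinarith

lemma wm_Q_part {κ c c₁ g g₁ m m₁ : ℝ} (b : g₁ ^ 2 ≤ 4 * κ ^ 2) (l : (g - g₁) ^ 2 ≤ 64 * κ ^ 4 * (m - m₁) ^ 2) :
    (c₁ * g₁ - c * g) ^ 2 ≤ 8 * κ ^ 2 * (c₁ - c) ^ 2 + 128 * κ ^ 4 * c ^ 2 * (m - m₁) ^ 2 := by
  have e1 : c₁ * g₁ - c * g = (c₁ - c) * g₁ + c * (g₁ - g) := by ring
  have e2 := wm_sq_two ((c₁ - c) * g₁) (c * (g₁ - g))
  have e3 : (c₁ - c) ^ 2 * g₁ ^ 2 ≤ (c₁ - c) ^ 2 * (4 * κ ^ 2) :=
    mul_le_mul_of_nonneg_left b (sq_nonneg _)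
  have l' : (g₁ - g) ^ 2 ≤ 64 * κ ^ 4 * (m - m₁) ^ 2 := by
    have : (g₁ - g) ^ 2 = (g - g₁) ^ 2 := by ring
    rw [this]; exact l
  have e4 : c ^ 2 * (g₁ - g) ^ 2 ≤ c ^ 2 * (64 * κ ^ 4 * (m - m₁) ^ 2) :=
    mul_le_mul_of_nonneg_left l' (sq_nonneg _)
  rw [e1]
  have e5 : 2 * ((c₁ - c) * g₁) ^ 2 + 2 * (c * (g₁ - g)) ^ 2 =
      2 * ((c₁ - c) ^ 2 * g₁ ^ 2) + 2 * (c ^ 2 * (g₁ - g) ^ 2) := by ring
  rw [e5] at e2
  have e6 : 2 * ((c₁ - c) ^ 2 * (4 * κ ^ 2)) + 2 * (c ^ 2 * (64 * κ ^ 4 * (m - m₁) ^ 2)) =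
      8 * κ ^ 2 * (c₁ - c) ^ 2 + 128 * κ ^ 4 * c ^ 2 * (m - m₁) ^ 2 := by ring
  linarith

lemma wm_Q_pt {κ c c₁ ch g g₁ gh m m₁ mh : ℝ} (b1 : g ^ 2 ≤ 4 * κ ^ 2) (b2 : g₁ ^ 2 ≤ 4 * κ ^ 2)
    (l1 : (g₁ - g) ^ 2 ≤ 64 * κ ^ 4 * (m₁ - m) ^ 2) (l2 : (gh - g₁) ^ 2 ≤ 64 * κ ^ 4 * (mh - m₁) ^ 2) :
    c ^ 2 * (g * g) + ch ^ 2 * (gh * gh) - 2 * (ch * c) * (g * gh) ≤
      192 * κ ^ 2 * ((c₁ - ch) ^ 2 + κ ^ 2 * ch ^ 2 * (m₁ - mh) ^ 2) +
      384 * κ ^ 2 * ((c - c₁) ^ 2 + κ ^ 2 * c₁ ^ 2 * (m - m₁) ^ 2) := by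
  have A : (c₁ * g₁ - ch * gh) ^ 2 ≤ 8 * κ ^ 2 * (c₁ - ch) ^ 2 + 128 * κ ^ 4 * ch ^ 2 * (m₁ - mh) ^ 2 := by
    have := wm_Q_part (κ := κ) (c := ch) (c₁ := c₁) (g := gh) (g₁ := g₁) (m := mh) (m₁ := m₁) b2 l2
    have e : (mh - m₁) ^ 2 = (m₁ - mh) ^ 2 := by ring
    rw [e] at this
    exact this
  have B : (c * g - c₁ * g₁) ^ 2 ≤ 8 * κ ^ 2 * (c - c₁) ^ 2 + 128 * κ ^ 4 * c₁ ^ 2 * (m - m₁) ^ 2 := by
    have := wm_Q_part (κ := κ) (c := c₁) (c₁ := c) (g := g₁) (g₁ := g) (m := m₁) (m₁ := m) b1 l1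
    have e : (m₁ - m) ^ 2 = (m - m₁) ^ 2 := by ring
    rw [e] at this
    exact this
  have C : c ^ 2 * (g * g) + ch ^ 2 * (gh * gh) - 2 * (ch * c) * (g * gh) ≤
      3 / 2 * (c₁ * g₁ - ch * gh) ^ 2 + 3 * (c * g - c₁ * g₁) ^ 2 := by
    have e := wm_sq_three (c₁ * g₁ - ch * gh) (c * g - c₁ * g₁)
    have e' : (c₁ * g₁ - ch * gh + (c * g - c₁ * g₁)) ^ 2 = c ^ 2 * (g * g) + ch ^ 2 * (gh * gh) - 2 * (ch * c) * (g * gh) := by
      ring
    rw [e'] at e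
    exact e
  have t1 : 0 ≤ κ ^ 2 * (c₁ - ch) ^ 2 := by positivity
  have t2 : 0 ≤ κ ^ 2 * (c - c₁) ^ 2 := by positivity
  have e : 192 * κ ^ 2 * ((c₁ - ch) ^ 2 + κ ^ 2 * ch ^ 2 * (m₁ - mh) ^ 2) +
      384 * κ ^ 2 * ((c - c₁) ^ 2 + κ ^ 2 * c₁ ^ 2 * (m - m₁) ^ 2) =
      192 * (κ ^ 2 * (c₁ - ch) ^ 2) + 192 * (κ ^ 4 * ch ^ 2 * (m₁ - mh) ^ 2) + 384 * (κ ^ 2 * (c - c₁) ^ 2) +
        384 * (κ ^ 4 * c₁ ^ 2 * (m - m₁) ^ 2) := by ring
  rw [e]
  have e8 : 8 * κ ^ 2 * (c₁ - ch) ^ 2 = 8 * (κ ^ 2 * (c₁ - ch) ^ 2) := by ring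
  have e9 : 128 * κ ^ 4 * ch ^ 2 * (m₁ - mh) ^ 2 = 128 * (κ ^ 4 * ch ^ 2 * (m₁ - mh) ^ 2) := by ring
  have e10 : 8 * κ ^ 2 * (c - c₁) ^ 2 = 8 * (κ ^ 2 * (c - c₁) ^ 2) := by ring
  have e11 : 128 * κ ^ 4 * c₁ ^ 2 * (m - m₁) ^ 2 = 128 * (κ ^ 4 * c₁ ^ 2 * (m - m₁) ^ 2) := by ring
  rw [e8, e9] at A
  rw [e10, e11] at B
  linarith

/-- The integrand of the energy of the error of the update. -/
lemma wm_Q_bound {κ c c₁ ch m m₁ mh : ℝ} (h0 : 0 ≤ κ) (hκ : κ ≤ 1 / 2) (hm : |m| ≤ 1) (hm₁ : |m₁| ≤ 1)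
    (hmh : |mh| ≤ 1) :
    c ^ 2 * gamK κ m m + ch ^ 2 * gamK κ mh mh - 2 * (ch * (c * gamK κ m mh)) ≤
      192 * κ ^ 2 * ((c₁ - ch) ^ 2 + κ ^ 2 * ch ^ 2 * (m₁ - mh) ^ 2) +
      384 * κ ^ 2 * ((c - c₁) ^ 2 + κ ^ 2 * c₁ ^ 2 * (m - m₁) ^ 2) := by
  have i1 := wm_unit_int h0 hκ hm hm
  have i2 := wm_unit_int h0 hκ hm hmh
  have i3 := wm_unit_int h0 hκ hmh hmh
  have i13 : Integrable (fun u : unitInterval => c ^ 2 * (Gk κ m u * Gk κ m u) + ch ^ 2 * (Gk κ mh u * Gk κ mh u)) :=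
    (i1.const_mul _).add (i3.const_mul _)
  have hi : Integrable (fun u : unitInterval => c ^ 2 * (Gk κ m u * Gk κ m u) + ch ^ 2 * (Gk κ mh u * Gk κ mh u) -
        (2 * (ch * c)) * (Gk κ m u * Gk κ mh u)) := i13.sub (i2.const_mul _)
  have e : c ^ 2 * gamK κ m m + ch ^ 2 * gamK κ mh mh - 2 * (ch * (c * gamK κ m mh)) =
      ∫ u : unitInterval, (c ^ 2 * (Gk κ m u * Gk κ m u) + ch ^ 2 * (Gk κ mh u * Gk κ mh u) -
        (2 * (ch * c)) * (Gk κ m u * Gk κ mh u)) := by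
    rw [integral_sub i13 (i2.const_mul _), integral_add (i1.const_mul _) (i3.const_mul _),
      integral_const_mul, integral_const_mul, integral_const_mul]
    unfold gamK
    ring
  rw [e]
  set R := 192 * κ ^ 2 * ((c₁ - ch) ^ 2 + κ ^ 2 * ch ^ 2 * (m₁ - mh) ^ 2) +
      384 * κ ^ 2 * ((c - c₁) ^ 2 + κ ^ 2 * c₁ ^ 2 * (m - m₁) ^ 2) with hR
  have hp : ∀ u : unitInterval, c ^ 2 * (Gk κ m u * Gk κ m u) + ch ^ 2 * (Gk κ mh u * Gk κ mh u) -
        (2 * (ch * c)) * (Gk κ m u * Gk κ mh u) ≤ R := by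
    intro u
    have b1 : |Gk κ m u| ≤ 2 * κ := Gk_abs h0 hκ hm u.2
    have b2 : |Gk κ m₁ u| ≤ 2 * κ := Gk_abs h0 hκ hm₁ u.2
    have l1 : |Gk κ m₁ u - Gk κ m u| ≤ 8 * κ ^ 2 * |m₁ - m| := Gk_lip h0 hκ hm₁ hm u.2
    have l2 : |Gk κ mh u - Gk κ m₁ u| ≤ 8 * κ ^ 2 * |mh - m₁| := Gk_lip h0 hκ hmh hm₁ u.2
    have s1 : Gk κ m u ^ 2 ≤ 4 * κ ^ 2 := by
      have h3 : |Gk κ m u| ^ 2 ≤ (2 * κ) ^ 2 := pow_le_pow_left₀ (abs_nonneg _) b1 2
      rw [sq_abs] at h3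
      calc _ ≤ (2 * κ) ^ 2 := h3
        _ = _ := by ring
    have s2 : Gk κ m₁ u ^ 2 ≤ 4 * κ ^ 2 := by
      have h3 : |Gk κ m₁ u| ^ 2 ≤ (2 * κ) ^ 2 := pow_le_pow_left₀ (abs_nonneg _) b2 2
      rw [sq_abs] at h3
      calc _ ≤ (2 * κ) ^ 2 := h3
        _ = _ := by ring
    have s3 : (Gk κ m₁ u - Gk κ m u) ^ 2 ≤ 64 * κ ^ 4 * (m₁ - m) ^ 2 := by
      have h3 : |Gk κ m₁ u - Gk κ m u| ^ 2 ≤ (8 * κ ^ 2 * |m₁ - m|) ^ 2 := pow_le_pow_left₀ (abs_nonneg _) l1 2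
      rw [sq_abs, mul_pow, sq_abs] at h3
      calc _ ≤ (8 * κ ^ 2) ^ 2 * (m₁ - m) ^ 2 := h3
        _ = _ := by ring
    have s4 : (Gk κ mh u - Gk κ m₁ u) ^ 2 ≤ 64 * κ ^ 4 * (mh - m₁) ^ 2 := by
      have h3 : |Gk κ mh u - Gk κ m₁ u| ^ 2 ≤ (8 * κ ^ 2 * |mh - m₁|) ^ 2 := pow_le_pow_left₀ (abs_nonneg _) l2 2
      rw [sq_abs, mul_pow, sq_abs] at h3
      calc _ ≤ (8 * κ ^ 2) ^ 2 * (mh - m₁) ^ 2 := h3
        _ = _ := by ring
    exact wm_Q_pt s1 s2 s3 s4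
  calc ∫ u : unitInterval, (c ^ 2 * (Gk κ m u * Gk κ m u) + ch ^ 2 * (Gk κ mh u * Gk κ mh u) -
        (2 * (ch * c)) * (Gk κ m u * Gk κ mh u))
      ≤ ∫ _u : unitInterval, R := integral_mono hi (integrable_const _) hp
    _ = R := by simp

/-! ### The Palm bounds on a cell -/

/-- The static error at the start of the cell. -/
noncomputable def wmP1 (θ κ T : ℝ) (x : Word d) (ω : OmD d) : ℝ :=
  (CCr θ x (yS T ω) - wmC θ T x ω) ^ 2 + κ ^ 2 * wmC θ T x ω ^ 2 * (mm θ x (yS T ω) - wmM θ T x ω) ^ 2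

/-- The change of the covariance and of the posterior mean since the start of the cell. -/
noncomputable def wmP2 (θ κ T : ℝ) (x : Word d) (s : ℝ) (ω : OmD d) : ℝ :=
  (CCr θ x (yS s ω) - CCr θ x (yS (min s T) ω)) ^ 2 +
    κ ^ 2 * CCr θ x (yS (min s T) ω) ^ 2 * (mm θ x (yS s ω) - mm θ x (yS (min s T) ω)) ^ 2

lemma wm_five {κ c c' m m' : ℝ} (h0 : 0 ≤ κ) (hκ : κ ≤ 1 / 2) (hc : |c| ≤ 1) (hc' : |c'| ≤ 1)
    (hm : |m| ≤ 1) (hm' : |m'| ≤ 1) :
    (c - c') ^ 2 + κ ^ 2 * c' ^ 2 * (m - m') ^ 2 ≤ 5 := by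
  have a1 : (c - c') ^ 2 ≤ 4 := by
    have h1 := abs_le.mp hc
    have h2 := abs_le.mp hc'
    have : (c - c') ^ 2 ≤ 2 ^ 2 := sq_le_sq' (by linarith) (by linarith)
    linarith
  have a2 : (m - m') ^ 2 ≤ 4 := by
    have h1 := abs_le.mp hm
    have h2 := abs_le.mp hm'
    have : (m - m') ^ 2 ≤ 2 ^ 2 := sq_le_sq' (by linarith) (by linarith)
    linarith
  have a3 : c' ^ 2 ≤ 1 := by
    have h2 := abs_le.mp hc'
    have : c' ^ 2 ≤ 1 ^ 2 := sq_le_sq' (by linarith) (by linarith)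
    linarith
  have a4 : κ ^ 2 ≤ 1 / 4 := by
    have : κ ^ 2 ≤ (1 / 2) ^ 2 := pow_le_pow_left₀ h0 hκ 2
    linarith
  have a5 : κ ^ 2 * c' ^ 2 ≤ 1 / 4 := by
    have := sq_nonneg κ
    have := sq_nonneg c'
    nlinarith
  have a6 : κ ^ 2 * c' ^ 2 * (m - m') ^ 2 ≤ 1 := by
    have h7 := sq_nonneg (m - m')
    have h8 : 0 ≤ κ ^ 2 * c' ^ 2 := by positivity
    nlinarith
  linarith

lemma wmP1_nonneg {κ T : ℝ} (x : Word d) (ω : OmD d) : 0 ≤ wmP1 θ κ T x ω := by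
  unfold wmP1
  positivity

lemma wmP2_nonneg {κ T s : ℝ} (x : Word d) (ω : OmD d) : 0 ≤ wmP2 θ κ T x s ω := by
  unfold wmP2
  positivity

lemma wmP1_le (h0 : 0 < θ) (h1 : θ < 1) {κ T : ℝ} (hκ0 : 0 ≤ κ) (hκ : κ ≤ 1 / 2) (x : Word d) (ω : OmD d) :
    wmP1 θ κ T x ω ≤ 5 :=
  wm_five hκ0 hκ (wm_CC_abs h0 h1 T ω x) (wmC_abs T x ω) (mm_yS_le_one h1 T ω x) (wmM_abs T x ω)

lemma wmP2_le (h0 : 0 < θ) (h1 : θ < 1) {κ T s : ℝ} (hκ0 : 0 ≤ κ) (hκ : κ ≤ 1 / 2) (x : Word d) (ω : OmD d) :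
    wmP2 θ κ T x s ω ≤ 5 :=
  wm_five hκ0 hκ (wm_CC_abs h0 h1 s ω x) (wm_CC_abs h0 h1 _ ω x) (mm_yS_le_one h1 s ω x)
    (mm_yS_le_one h1 _ ω x)

lemma wmP1_FOs {κ T : ℝ} (x : Word d) : Measurable[FOs T] (wmP1 θ κ T x) := by
  unfold wmP1
  refine Measurable.add ?_ ?_
  · exact ((wm_cT_FOs T x).sub (wmC_FOs T x)).pow_const 2
  · exact ((measurable_const.mul ((wmC_FOs T x).pow_const 2))).mul (((wm_mT_FOs T x).sub (wmM_FOs T x)).pow_const 2)

lemma wmP1_meas {κ T : ℝ} (x : Word d) : Measurable (wmP1 θ κ T x) :=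
  (wmP1_FOs x).mono (FOs_le T) le_rfl

lemma wm_joint_y : Measurable (fun p : ℝ × OmD d => yS p.1 p.2) :=
  measurable_pi_iff.mpr fun v => measurable_yS v

lemma wmP2_meas {κ T : ℝ} (x : Word d) : Measurable (fun p : ℝ × OmD d => wmP2 θ κ T x p.1 p.2) := by
  unfold wmP2
  have hy : Measurable (fun p : ℝ × OmD d => yS p.1 p.2) := wm_joint_y
  have hy' : Measurable (fun p : ℝ × OmD d => yS (min p.1 T) p.2) :=
    wm_joint_y.comp ((measurable_fst.min measurable_const).prodMk measurable_snd)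
  have c1 := (measurable_CCr (θ := θ) x).comp hy
  have c2 := (measurable_CCr (θ := θ) x).comp hy'
  have m1 := (measurable_mm θ x).comp hy
  have m2 := (measurable_mm θ x).comp hy'
  refine Measurable.add ?_ ?_
  · exact (c1.sub c2).pow_const 2
  · exact (measurable_const.mul (c2.pow_const 2)).mul ((m1.sub m2).pow_const 2)

/-- Palm bound at the start of the cell. -/
lemma wm_palm1 (h0 : 0 < θ) (h1 : θ < 1) {κ : ℝ} (hκ0 : 0 ≤ κ) (hκ : κ ≤ 1 / 2) {j : ℤ} {T T' : ℝ}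
    (hjT : (j : ℝ) ≤ T) (hTT' : T ≤ T') (hT' : T' ≤ (j : ℝ) + 1) (x : Word d) :
    ∫ ω, Set.indicator {ω : OmD d | inW T T' (x, j) ω.2.2} (wmP1 θ κ T x) ω ∂(PD d θ) ≤
      (T' - T) * ∫ ω, wmP1 θ κ T x ω ∂(PD d θ) :=
  palm_fixed (x, j) hjT hT' hTT' (wmP1_FOs x) (wmP1_nonneg x) (wmP1_le h0 h1 hκ0 hκ x)

open Classical in
/-- Palm bound for the change since the start of the cell. -/
lemma wm_palm2 (h0 : 0 < θ) (h1 : θ < 1) {κ : ℝ} (hκ0 : 0 ≤ κ) (hκ : κ ≤ 1 / 2) {j : ℤ} {T T' : ℝ}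
    (hjT : (j : ℝ) ≤ T) (hTT' : T ≤ T') (hT' : T' ≤ (j : ℝ) + 1) (x : Word d) {C : ℝ}
    (hC : ∀ s, T ≤ s → s < T' → ∫ ω, wmP2 θ κ T x s ω ∂(PD d θ) ≤ C) :
    ∫ ω, Set.indicator {ω : OmD d | inW T T' (x, j) ω.2.2} (fun ω => wmP2 θ κ T x (tE (x, j) ω.2.2) ω) ω ∂(PD d θ) ≤
      (T' - T) * C := by
  refine palm_explicit (x, j) hjT hT' hTT' (wmP2_meas x) (fun s ω => wmP2_nonneg x ω)
    (fun s ω => wmP2_le h0 h1 hκ0 hκ x ω) ?_ hC
  intro s ω ω' e1 e2 e3 e4 e5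
  have y1 : yS s ω = yS s ω' := yS_label_indep s _ e1 e2 e3 e4 e5
  have hm : min s T ≤ s := min_le_left _ _
  have y2 : yS (min s T) ω = yS (min s T) ω' :=
    yS_label_indep _ _ e1 e2 e3 (hm.trans e4) (hm.trans e5)
  unfold wmP2
  rw [y1, y2]

/-- The summand of the static rate in terms of the bounded versions. -/
lemma wm_P1_BBn (hd : 0 < d) (h0 : 0 < θ) (h1 : θ < 1) (κ T : ℝ) (R : ℕ) :
    ∑ x ∈ (ball R : Finset (Word d)), ∫ ω, wmP1 θ κ T x ω ∂(PD d θ) = (St (θ := θ) hd T).BBn κ R := by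
  refine Finset.sum_congr rfl fun x _ => ?_
  refine integral_congr_ae ?_
  filter_upwards [wmC_ae h0 h1 T x, wmM_ae h1 T x] with ω hc hm
  unfold wmP1
  rw [hc, hm]
  rfl

/-! ### Increments of bounded martingales -/

lemma wm_incr {f g : OmD d → ℝ} (hf : Measurable f) (hg : Measurable g) {C : ℝ} (hfb : ∀ ω, |f ω| ≤ C)
    (hgb : ∀ ω, |g ω| ≤ C) (hm : ∫ ω, g ω * f ω ∂(PD d θ) = ∫ ω, f ω * f ω ∂(PD d θ)) :
    ∫ ω, (g ω - f ω) ^ 2 ∂(PD d θ) = ∫ ω, g ω ^ 2 ∂(PD d θ) - ∫ ω, f ω ^ 2 ∂(PD d θ) := by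
  have hb : ∀ {u v : OmD d → ℝ}, Measurable u → Measurable v → (∀ ω, |u ω| ≤ C) → (∀ ω, |v ω| ≤ C) →
      Integrable (fun ω => u ω * v ω) (PD d θ) := by
    intro u v hu hv hub hvb
    refine wm_int (C := C * C) (hu.mul hv) fun ω => ?_
    rw [abs_mul]
    exact mul_le_mul (hub ω) (hvb ω) (abs_nonneg _) ((abs_nonneg _).trans (hub ω))
  have i1 := hb hg hg hgb hgb
  have i2 := hb hg hf hgb hfb
  have i3 := hb hf hf hfb hfb
  have e : ∀ ω, (g ω - f ω) ^ 2 = g ω * g ω - 2 * (g ω * f ω) + f ω * f ω := fun ω => by ring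
  have i0 : Integrable (fun ω => g ω * g ω - 2 * (g ω * f ω)) (PD d θ) := i1.sub (i2.const_mul 2)
  simp_rw [e]
  rw [integral_add i0 i3, integral_sub i1 (i2.const_mul 2), integral_const_mul, hm]
  simp_rw [sq]
  ring

/-- The pair function at time `s`. -/
noncomputable def wmA (θ : ℝ) (x : Word d) (s : ℝ) (ω : OmD d) : ℝ :=
  CCr θ x (yS s ω) + mm θ root (yS s ω) * mm θ x (yS s ω)

lemma wmA_abs (h0 : 0 < θ) (h1 : θ < 1) (x : Word d) (s : ℝ) (ω : OmD d) : |wmA θ x s ω| ≤ 2 := by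
  unfold wmA
  refine (abs_add_le _ _).trans ?_
  have h2 := wm_CC_abs h0 h1 s ω x
  have h3 : |mm θ root (yS s ω) * mm θ x (yS s ω)| ≤ 1 := by
    rw [abs_mul]
    exact mul_le_one₀ (mm_yS_le_one h1 s ω root) (abs_nonneg _) (mm_yS_le_one h1 s ω x)
  linarith

lemma wmA_FOs (x : Word d) (s : ℝ) : Measurable[FOs s] (wmA θ x s) :=
  (wm_cT_FOs s x).add ((wm_mT_FOs s root).mul (wm_mT_FOs s x))

lemma wmA_meas (x : Word d) (s : ℝ) : Measurable (wmA θ x s) :=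
  (wmA_FOs x s).mono (FOs_le s) le_rfl

/-- The monotone quantity controlling the change of the covariances. -/
noncomputable def wmV (d : ℕ) (θ : ℝ) [Corr θ] (x : Word d) (s : ℝ) : ℝ :=
  3 * ∫ ω, wmA θ x s ω ^ 2 ∂(PD d θ) + 3 * ∫ ω, mm θ root (yS s ω) ^ 2 ∂(PD d θ) +
    4 * ∫ ω, mm θ x (yS s ω) ^ 2 ∂(PD d θ)

lemma wm_incr_m (h0 : 0 < θ) (h1 : θ < 1) {s t : ℝ} (hst : s ≤ t) (x : Word d) :
    ∫ ω, (mm θ x (yS t ω) - mm θ x (yS s ω)) ^ 2 ∂(PD d θ) =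
      ∫ ω, mm θ x (yS t ω) ^ 2 ∂(PD d θ) - ∫ ω, mm θ x (yS s ω) ^ 2 ∂(PD d θ) := by
  refine wm_incr (C := 1) (wm_mT_meas s x) (wm_mT_meas t x) (fun ω => mm_yS_le_one h1 s ω x)
    (fun ω => mm_yS_le_one h1 t ω x) ?_
  exact mm_martingale h0 h1 hst x ((wm_mT_FOs s x).mono (wm_FOs_le_FL s) le_rfl) (fun ω => mm_yS_le_one h1 s ω x)

lemma wm_incr_a (h0 : 0 < θ) (h1 : θ < 1) {s t : ℝ} (hst : s ≤ t) (x : Word d) :
    ∫ ω, (wmA θ x t ω - wmA θ x s ω) ^ 2 ∂(PD d θ) =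
      ∫ ω, wmA θ x t ω ^ 2 ∂(PD d θ) - ∫ ω, wmA θ x s ω ^ 2 ∂(PD d θ) := by
  refine wm_incr (C := 2) (wmA_meas x s) (wmA_meas x t) (wmA_abs h0 h1 x s) (wmA_abs h0 h1 x t) ?_
  exact pair_martingale h0 h1 hst x ((wmA_FOs x s).mono (wm_FOs_le_FL s) le_rfl) (wmA_abs h0 h1 x s)

lemma wmV_mono (h0 : 0 < θ) (h1 : θ < 1) (x : Word d) {s t : ℝ} (hst : s ≤ t) : wmV d θ x s ≤ wmV d θ x t := by
  have a1 := wm_incr_a h0 h1 hst x
  have a2 := wm_incr_m h0 h1 hst (root : Word d)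
  have a3 := wm_incr_m h0 h1 hst x
  have p1 : 0 ≤ ∫ ω, (wmA θ x t ω - wmA θ x s ω) ^ 2 ∂(PD d θ) := integral_nonneg fun ω => sq_nonneg _
  have p2 : 0 ≤ ∫ ω, (mm θ root (yS t ω) - mm θ root (yS s ω)) ^ 2 ∂(PD d θ) := integral_nonneg fun ω => sq_nonneg _
  have p3 : 0 ≤ ∫ ω, (mm θ x (yS t ω) - mm θ x (yS s ω)) ^ 2 ∂(PD d θ) := integral_nonneg fun ω => sq_nonneg _
  unfold wmV
  linarith

lemma wmV_nonneg (x : Word d) (s : ℝ) : 0 ≤ wmV d θ x s := by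
  unfold wmV
  have p1 : 0 ≤ ∫ ω, wmA θ x s ω ^ 2 ∂(PD d θ) := integral_nonneg fun ω => sq_nonneg _
  have p2 : 0 ≤ ∫ ω, mm θ root (yS s ω) ^ 2 ∂(PD d θ) := integral_nonneg fun ω => sq_nonneg _
  have p3 : 0 ≤ ∫ ω, mm θ x (yS s ω) ^ 2 ∂(PD d θ) := integral_nonneg fun ω => sq_nonneg _
  linarith

lemma wmV_le (h0 : 0 < θ) (h1 : θ < 1) (x : Word d) (s : ℝ) : wmV d θ x s ≤ 19 := by
  have hb : ∀ {u : OmD d → ℝ} {C : ℝ}, Measurable u → (∀ ω, |u ω| ≤ C) → ∫ ω, u ω ^ 2 ∂(PD d θ) ≤ C ^ 2 := by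
    intro u C hu hub
    have i : ∀ ω, u ω ^ 2 ≤ C ^ 2 := fun ω => by
      have := pow_le_pow_left₀ (abs_nonneg _) (hub ω) 2
      rwa [sq_abs] at this
    have hi : Integrable (fun ω => u ω ^ 2) (PD d θ) := by
      refine wm_int (C := C ^ 2) (hu.pow_const 2) fun ω => ?_
      rw [abs_of_nonneg (sq_nonneg _)]
      exact i ω
    calc ∫ ω, u ω ^ 2 ∂(PD d θ) ≤ ∫ _ω, C ^ 2 ∂(PD d θ) := integral_mono hi (integrable_const _) i
      _ = C ^ 2 := by simp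
  have a1 := hb (wmA_meas x s) (wmA_abs h0 h1 x s)
  have a2 := hb (wm_mT_meas s root) (fun ω => mm_yS_le_one h1 s ω root)
  have a3 := hb (wm_mT_meas s x) (fun ω => mm_yS_le_one h1 s ω x)
  unfold wmV
  norm_num at a1 a2 a3
  linarith

/-- The pointwise bound for the change of the covariance. -/
lemma wm_P2_pt {κ c c' m m' mo mo' : ℝ} (h0 : 0 ≤ κ) (hκ : κ ≤ 1 / 2) (hc' : |c'| ≤ 1) (hm' : |m'| ≤ 1)
    (hmo : |mo| ≤ 1) :
    (c - c') ^ 2 + κ ^ 2 * c' ^ 2 * (m - m') ^ 2 ≤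
      3 * ((c + mo * m) - (c' + mo' * m')) ^ 2 + 3 * (mo - mo') ^ 2 + 4 * (m - m') ^ 2 := by
  have a4 : κ ^ 2 ≤ 1 / 4 := by
    have : κ ^ 2 ≤ (1 / 2) ^ 2 := pow_le_pow_left₀ h0 hκ 2
    linarith
  have a3 : c' ^ 2 ≤ 1 := by
    have h2 := abs_le.mp hc'
    have : c' ^ 2 ≤ 1 ^ 2 := sq_le_sq' (by linarith) (by linarith)
    linarith
  have a5 : κ ^ 2 * c' ^ 2 ≤ 1 / 4 := by
    have := sq_nonneg κ
    have := sq_nonneg c'
    nlinarith
  have a6 : κ ^ 2 * c' ^ 2 * (m - m') ^ 2 ≤ 1 / 4 * (m - m') ^ 2 :=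
    mul_le_mul_of_nonneg_right a5 (sq_nonneg _)
  have e : c - c' = ((c + mo * m) - (c' + mo' * m')) - mo * (m - m') - m' * (mo - mo') := by ring
  set X := (c + mo * m) - (c' + mo' * m') with hX
  have b1 : (mo * (m - m')) ^ 2 ≤ (m - m') ^ 2 := by
    rw [mul_pow]
    have : mo ^ 2 ≤ 1 := by
      have h2 := abs_le.mp hmo
      have : mo ^ 2 ≤ 1 ^ 2 := sq_le_sq' (by linarith) (by linarith)
      linarith
    nlinarith [sq_nonneg (m - m')]
  have b2 : (m' * (mo - mo')) ^ 2 ≤ (mo - mo') ^ 2 := by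
    rw [mul_pow]
    have : m' ^ 2 ≤ 1 := by
      have h2 := abs_le.mp hm'
      have : m' ^ 2 ≤ 1 ^ 2 := sq_le_sq' (by linarith) (by linarith)
      linarith
    nlinarith [sq_nonneg (mo - mo')]
  have b3 : (X - mo * (m - m') - m' * (mo - mo')) ^ 2 ≤
      3 * X ^ 2 + 3 * (mo * (m - m')) ^ 2 + 3 * (m' * (mo - mo')) ^ 2 := by
    generalize mo * (m - m') = y
    generalize m' * (mo - mo') = z
    nlinarith [sq_nonneg (X + y), sq_nonneg (X + z), sq_nonneg (y - z)]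
  rw [e]
  nlinarith [sq_nonneg (m - m')]

lemma wmP2_meas' {κ T s : ℝ} (x : Word d) : Measurable (wmP2 θ κ T x s) := by
  have h := (wmP2_meas (θ := θ) (κ := κ) (T := T) x).comp
    (measurable_const.prodMk measurable_id : Measurable (fun ω : OmD d => (s, ω)))
  exact h

lemma wmP2_int (h0 : 0 < θ) (h1 : θ < 1) {κ T s : ℝ} (hκ0 : 0 ≤ κ) (hκ : κ ≤ 1 / 2) (x : Word d) :
    Integrable (wmP2 θ κ T x s) (PD d θ) := by
  refine wm_int (C := 5) (wmP2_meas' x) fun ω => ?_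
  rw [abs_of_nonneg (wmP2_nonneg x ω)]
  exact wmP2_le h0 h1 hκ0 hκ x ω

lemma wm_sq_int {u : OmD d → ℝ} (hu : Measurable u) {C : ℝ} (hub : ∀ ω, |u ω| ≤ C) :
    Integrable (fun ω => u ω ^ 2) (PD d θ) := by
  refine wm_int (C := C ^ 2) (hu.pow_const 2) fun ω => ?_
  rw [abs_of_nonneg (sq_nonneg _)]
  have := pow_le_pow_left₀ (abs_nonneg _) (hub ω) 2
  rwa [sq_abs] at this

/-- The change since the start of the cell is bounded by the increment of the monotone quantity. -/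
lemma wm_P2_le_V (h0 : 0 < θ) (h1 : θ < 1) {κ : ℝ} (hκ0 : 0 ≤ κ) (hκ : κ ≤ 1 / 2) {T T' s : ℝ}
    (hTs : T ≤ s) (hsT' : s ≤ T') (x : Word d) :
    ∫ ω, wmP2 θ κ T x s ω ∂(PD d θ) ≤ wmV d θ x T' - wmV d θ x T := by
  have hmin : min s T = T := min_eq_right hTs
  have ia : Integrable (fun ω => (wmA θ x s ω - wmA θ x T ω) ^ 2) (PD d θ) := by
    refine wm_sq_int (C := 4) ((wmA_meas x s).sub (wmA_meas x T)) fun ω => ?_
    have := abs_sub (wmA θ x s ω) (wmA θ x T ω)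
    have h3 := wmA_abs h0 h1 x s ω
    have h4 := wmA_abs h0 h1 x T ω
    linarith
  have im : ∀ v : Word d, Integrable (fun ω => (mm θ v (yS s ω) - mm θ v (yS T ω)) ^ 2) (PD d θ) := by
    intro v
    refine wm_sq_int (C := 2) ((wm_mT_meas s v).sub (wm_mT_meas T v)) fun ω => ?_
    have := abs_sub (mm θ v (yS s ω)) (mm θ v (yS T ω))
    have h3 := mm_yS_le_one h1 s ω v
    have h4 := mm_yS_le_one h1 T ω v
    linarith
  have hp : ∀ ω, wmP2 θ κ T x s ω ≤ 3 * (wmA θ x s ω - wmA θ x T ω) ^ 2 +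
      3 * (mm θ root (yS s ω) - mm θ root (yS T ω)) ^ 2 + 4 * (mm θ x (yS s ω) - mm θ x (yS T ω)) ^ 2 := by
    intro ω
    unfold wmP2
    rw [hmin]
    unfold wmA
    exact wm_P2_pt hκ0 hκ (wm_CC_abs h0 h1 T ω x) (mm_yS_le_one h1 T ω x) (mm_yS_le_one h1 s ω root)
  have i12 : Integrable (fun ω => 3 * (wmA θ x s ω - wmA θ x T ω) ^ 2 +
      3 * (mm θ root (yS s ω) - mm θ root (yS T ω)) ^ 2) (PD d θ) :=
    (ia.const_mul 3).add ((im root).const_mul 3)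
  have i123 : Integrable (fun ω => 3 * (wmA θ x s ω - wmA θ x T ω) ^ 2 +
      3 * (mm θ root (yS s ω) - mm θ root (yS T ω)) ^ 2 + 4 * (mm θ x (yS s ω) - mm θ x (yS T ω)) ^ 2) (PD d θ) :=
    i12.add ((im x).const_mul 4)
  have hle := integral_mono (wmP2_int h0 h1 hκ0 hκ x) i123 hp
  rw [integral_add i12 ((im x).const_mul 4), integral_add (ia.const_mul 3) ((im root).const_mul 3),
    integral_const_mul, integral_const_mul, integral_const_mul, wm_incr_a h0 h1 hTs x, wm_incr_m h0 h1 hTs root,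
    wm_incr_m h0 h1 hTs x] at hle
  have hm := wmV_mono h0 h1 x hsT'
  unfold wmV at hm ⊢
  linarith

/-- The change since the start of the cell is bounded by the tail of the covariance. -/
lemma wm_P2_le_tail (h0 : 0 < θ) (h1 : θ < 1) {κ : ℝ} (hκ0 : 0 ≤ κ) (hκ : κ ≤ 1 / 2) {T s w : ℝ}
    (hTs : T ≤ s) (x : Word d) (hw : ∀ t, T ≤ t → ∫ ω, CCr θ x (yS t ω) ^ 2 ∂(PD d θ) ≤ w) :
    ∫ ω, wmP2 θ κ T x s ω ∂(PD d θ) ≤ 5 * w := by
  have hmin : min s T = T := min_eq_right hTs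
  have hc : ∀ t : ℝ, Integrable (fun ω => CCr θ x (yS t ω) ^ 2) (PD d θ) := fun t =>
    wm_sq_int (C := 1) (wm_cT_meas t x) (fun ω => wm_CC_abs h0 h1 t ω x)
  have hp : ∀ ω, wmP2 θ κ T x s ω ≤ 2 * CCr θ x (yS s ω) ^ 2 + 3 * CCr θ x (yS T ω) ^ 2 := by
    intro ω
    unfold wmP2
    rw [hmin]
    have a1 := wm_sq_two (CCr θ x (yS s ω)) (- CCr θ x (yS T ω))
    have e1 : (CCr θ x (yS s ω) + - CCr θ x (yS T ω)) ^ 2 = (CCr θ x (yS s ω) - CCr θ x (yS T ω)) ^ 2 := by ring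
    have e2 : (- CCr θ x (yS T ω)) ^ 2 = CCr θ x (yS T ω) ^ 2 := by ring
    rw [e1, e2] at a1
    have a2 : κ ^ 2 ≤ 1 / 4 := by
      have : κ ^ 2 ≤ (1 / 2) ^ 2 := pow_le_pow_left₀ hκ0 hκ 2
      linarith
    have a3 : (mm θ x (yS s ω) - mm θ x (yS T ω)) ^ 2 ≤ 4 := by
      have h3 := abs_le.mp (mm_yS_le_one h1 s ω x)
      have h4 := abs_le.mp (mm_yS_le_one h1 T ω x)
      have : (mm θ x (yS s ω) - mm θ x (yS T ω)) ^ 2 ≤ 2 ^ 2 := sq_le_sq' (by linarith) (by linarith)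
      linarith
    have a4 : κ ^ 2 * (mm θ x (yS s ω) - mm θ x (yS T ω)) ^ 2 ≤ 1 := by
      have := sq_nonneg κ
      have := sq_nonneg (mm θ x (yS s ω) - mm θ x (yS T ω))
      nlinarith
    have a5 : κ ^ 2 * CCr θ x (yS T ω) ^ 2 * (mm θ x (yS s ω) - mm θ x (yS T ω)) ^ 2 =
        CCr θ x (yS T ω) ^ 2 * (κ ^ 2 * (mm θ x (yS s ω) - mm θ x (yS T ω)) ^ 2) := by ring
    have a6 : CCr θ x (yS T ω) ^ 2 * (κ ^ 2 * (mm θ x (yS s ω) - mm θ x (yS T ω)) ^ 2) ≤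
        CCr θ x (yS T ω) ^ 2 * 1 := mul_le_mul_of_nonneg_left a4 (sq_nonneg _)
    rw [a5]
    linarith
  have i23 : Integrable (fun ω => 2 * CCr θ x (yS s ω) ^ 2 + 3 * CCr θ x (yS T ω) ^ 2) (PD d θ) :=
    ((hc s).const_mul 2).add ((hc T).const_mul 3)
  have hle := integral_mono (wmP2_int h0 h1 hκ0 hκ x) i23 hp
  have e : ∫ ω, (2 * CCr θ x (yS s ω) ^ 2 + 3 * CCr θ x (yS T ω) ^ 2) ∂(PD d θ) =
      2 * ∫ ω, CCr θ x (yS s ω) ^ 2 ∂(PD d θ) + 3 * ∫ ω, CCr θ x (yS T ω) ^ 2 ∂(PD d θ) := by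
    rw [integral_add ((hc s).const_mul 2) ((hc T).const_mul 3), integral_const_mul, integral_const_mul]
  rw [e] at hle
  have a1 := hw s hTs
  have a2 := hw T le_rfl
  linarith

lemma wm_tY_meas (e : Ev d) : Measurable (fun ω : OmD d => yS (tE e ω.2.2) ω) :=
  wm_joint_y.comp (((wm_tE_meas e).comp (measurable_snd.comp measurable_snd)).prodMk measurable_id)

lemma wm_ind_abs_lemma {Ω : Type*} {mΩ : MeasurableSpace Ω} {P : Measure Ω} {S : Set Ω} (hS : MeasurableSet S)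
    {f1 f2 f3 p1 p2 : Ω → ℝ} (i1 : Integrable f1 P) (i2 : Integrable f2 P) (i3 : Integrable f3 P)
    (j1 : Integrable p1 P) (j2 : Integrable p2 P) {a b c1 c2 : ℝ} (ha : 0 ≤ a) (hb : 0 ≤ b)
    (hpt : ∀ ω ∈ S, f1 ω - 2 * f2 ω + f3 ω ≤ a * p1 ω + b * p2 ω)
    (L1 : ∫ ω, S.indicator p1 ω ∂P ≤ c1) (L2 : ∫ ω, S.indicator p2 ω ∂P ≤ c2) :
    (∫ ω, S.indicator f1 ω ∂P - 2 * ∫ ω, S.indicator f2 ω ∂P) + ∫ ω, S.indicator f3 ω ∂P ≤ a * c1 + b * c2 := by
  have I1 := i1.indicator hS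
  have I2 := i2.indicator hS
  have I3 := i3.indicator hS
  have J1 := j1.indicator hS
  have J2 := j2.indicator hS
  have I12 : Integrable (fun ω => S.indicator f1 ω - 2 * S.indicator f2 ω) P := I1.sub (I2.const_mul 2)
  have I123 : Integrable (fun ω => S.indicator f1 ω - 2 * S.indicator f2 ω + S.indicator f3 ω) P := I12.add I3
  have J12 : Integrable (fun ω => a * S.indicator p1 ω + b * S.indicator p2 ω) P :=
    (J1.const_mul a).add (J2.const_mul b)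
  have hleft : (∫ ω, S.indicator f1 ω ∂P - 2 * ∫ ω, S.indicator f2 ω ∂P) + ∫ ω, S.indicator f3 ω ∂P =
      ∫ ω, (S.indicator f1 ω - 2 * S.indicator f2 ω + S.indicator f3 ω) ∂P := by
    rw [integral_add I12 I3, integral_sub I1 (I2.const_mul 2), integral_const_mul]
  have hright : ∫ ω, (a * S.indicator p1 ω + b * S.indicator p2 ω) ∂P =
      a * ∫ ω, S.indicator p1 ω ∂P + b * ∫ ω, S.indicator p2 ω ∂P := by
    rw [integral_add (J1.const_mul a) (J2.const_mul b), integral_const_mul, integral_const_mul]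
  have hmono : ∫ ω, (S.indicator f1 ω - 2 * S.indicator f2 ω + S.indicator f3 ω) ∂P ≤
      ∫ ω, (a * S.indicator p1 ω + b * S.indicator p2 ω) ∂P := by
    refine integral_mono I123 J12 fun ω => ?_
    by_cases hω : ω ∈ S
    · simp only [Set.indicator_of_mem hω]
      exact hpt ω hω
    · simp only [Set.indicator_of_notMem hω]
      simp
  rw [hleft]
  refine hmono.trans ?_
  rw [hright]
  have := mul_le_mul_of_nonneg_left L1 ha
  have := mul_le_mul_of_nonneg_left L2 hb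
  linarith

lemma wm_tm_meas (e : Ev d) (x : Word d) : Measurable (fun ω : OmD d => mm θ x (yS (tE e ω.2.2) ω)) :=
  (measurable_mm θ x).comp (wm_tY_meas e)

lemma wm_tc_meas (e : Ev d) (x : Word d) : Measurable (fun ω : OmD d => CCr θ x (yS (tE e ω.2.2) ω)) :=
  (measurable_CCr x).comp (wm_tY_meas e)

lemma wmM_meas' (T : ℝ) (x : Word d) : Measurable (wmM θ T x) := (wmM_FOs T x).mono (FOs_le T) le_rfl

lemma wmC_meas' (T : ℝ) (x : Word d) : Measurable (wmC θ T x) := (wmC_FOs T x).mono (FOs_le T) le_rfl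

lemma wm_gam_meas (κ : ℝ) {u v : OmD d → ℝ} (hu : Measurable u) (hv : Measurable v) :
    Measurable (fun ω => gamK κ (u ω) (v ω)) :=
  (measurable_gamK κ).comp (hu.prodMk hv)

lemma wm_f1_int (κ : ℝ) (hκ0 : 0 ≤ κ) (hκ : κ ≤ 1 / 2) (T : ℝ) (x : Word d) :
    Integrable (fun ω => wmC θ T x ω ^ 2 * gamK κ (wmM θ T x ω) (wmM θ T x ω)) (PD d θ) := by
  refine wm_int (C := 1) (((wmC_meas' T x).pow_const 2).mul (wm_gam_meas κ (wmM_meas' T x) (wmM_meas' T x))) ?_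
  intro ω
  rw [abs_mul, abs_pow]
  exact mul_le_one₀ (pow_le_one₀ (abs_nonneg _) (wmC_abs T x ω)) (abs_nonneg _)
    (wm_gamK_abs hκ0 hκ (wmM_abs T x ω) (wmM_abs T x ω))

lemma wm_f2_int (h0 : 0 < θ) (h1 : θ < 1) (κ : ℝ) (hκ0 : 0 ≤ κ) (hκ : κ ≤ 1 / 2) (T : ℝ) (e : Ev d) (x : Word d) :
    Integrable (fun ω => wmC θ T x ω * (CCr θ x (yS (tE e ω.2.2) ω) *
      gamK κ (mm θ x (yS (tE e ω.2.2) ω)) (wmM θ T x ω))) (PD d θ) := by
  refine wm_int (C := 1) ((wmC_meas' T x).mul ((wm_tc_meas e x).mul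
    (wm_gam_meas κ (wm_tm_meas e x) (wmM_meas' T x)))) ?_
  intro ω
  rw [abs_mul, abs_mul]
  exact mul_le_one₀ (wmC_abs T x ω) (mul_nonneg (abs_nonneg _) (abs_nonneg _))
      (mul_le_one₀ (wm_CC_abs h0 h1 _ ω x) (abs_nonneg _)
        (wm_gamK_abs hκ0 hκ (mm_yS_le_one h1 _ ω x) (wmM_abs T x ω)))

lemma wm_f3_int (h0 : 0 < θ) (h1 : θ < 1) (κ : ℝ) (hκ0 : 0 ≤ κ) (hκ : κ ≤ 1 / 2) (e : Ev d) (x : Word d) :
    Integrable (fun ω => CCr θ x (yS (tE e ω.2.2) ω) ^ 2 *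
      gamK κ (mm θ x (yS (tE e ω.2.2) ω)) (mm θ x (yS (tE e ω.2.2) ω))) (PD d θ) := by
  refine wm_int (C := 1) (((wm_tc_meas e x).pow_const 2).mul
    (wm_gam_meas κ (wm_tm_meas e x) (wm_tm_meas e x))) ?_
  intro ω
  rw [abs_mul, abs_pow]
  exact mul_le_one₀ (pow_le_one₀ (abs_nonneg _) (wm_CC_abs h0 h1 _ ω x)) (abs_nonneg _)
    (wm_gamK_abs hκ0 hκ (mm_yS_le_one h1 _ ω x) (mm_yS_le_one h1 _ ω x))

lemma wm_p1_int (h0 : 0 < θ) (h1 : θ < 1) (κ : ℝ) (hκ0 : 0 ≤ κ) (hκ : κ ≤ 1 / 2) (T : ℝ) (x : Word d) :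
    Integrable (wmP1 θ κ T x) (PD d θ) := by
  refine wm_int (C := 5) (wmP1_meas x) fun ω => ?_
  rw [abs_of_nonneg (wmP1_nonneg x ω)]
  exact wmP1_le h0 h1 hκ0 hκ x ω

lemma wm_p2_int (h0 : 0 < θ) (h1 : θ < 1) (κ : ℝ) (hκ0 : 0 ≤ κ) (hκ : κ ≤ 1 / 2) (T : ℝ) (e : Ev d) (x : Word d) :
    Integrable (fun ω : OmD d => wmP2 θ κ T x (tE e ω.2.2) ω) (PD d θ) := by
  have h2 : Measurable (fun ω : OmD d => tE e ω.2.2) := (wm_tE_meas e).comp (measurable_snd.comp measurable_snd)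
  have h3 : Measurable (fun ω : OmD d => (tE e ω.2.2, ω)) := h2.prodMk measurable_id
  have hm : Measurable (fun ω : OmD d => wmP2 θ κ T x (tE e ω.2.2) ω) := by
    have h := (wmP2_meas (θ := θ) (κ := κ) (T := T) x).comp h3
    exact h
  refine wm_int (C := 5) hm fun ω => ?_
  rw [abs_of_nonneg (wmP2_nonneg x ω)]
  exact wmP2_le h0 h1 hκ0 hκ x ω

open Classical in
/-- The bound on one site of a cell. -/
lemma wm_cell_x (h0 : 0 < θ) (h1 : θ < 1) {j : ℤ} {T T' : ℝ}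
    (hjT : (j : ℝ) ≤ T) (hTT' : T ≤ T') (hT' : T' ≤ (j : ℝ) + 1) (x : Word d) {C : ℝ}
    (hC : ∀ s, T ≤ s → s < T' → ∫ ω, wmP2 θ (kp j) T x s ω ∂(PD d θ) ≤ C) :
    (∫ ω, Set.indicator {ω : OmD d | inW T T' (x, j) ω.2.2}
          (fun ω => wmC θ T x ω ^ 2 * gamK (kp j) (wmM θ T x ω) (wmM θ T x ω)) ω ∂(PD d θ) -
        2 * ∫ ω, Set.indicator {ω : OmD d | inW T T' (x, j) ω.2.2}
        (fun ω => wmC θ T x ω * (CCr θ x (yS (tE (x, j) ω.2.2) ω) *
          gamK (kp j) (mm θ x (yS (tE (x, j) ω.2.2) ω)) (wmM θ T x ω))) ω ∂(PD d θ)) +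
      ∫ ω, Set.indicator {ω : OmD d | inW T T' (x, j) ω.2.2}
          (fun ω => CCr θ x (yS (tE (x, j) ω.2.2) ω) ^ 2 *
            gamK (kp j) (mm θ x (yS (tE (x, j) ω.2.2) ω)) (mm θ x (yS (tE (x, j) ω.2.2) ω))) ω ∂(PD d θ) ≤
      192 * kp j ^ 2 * ((T' - T) * ∫ ω, wmP1 θ (kp j) T x ω ∂(PD d θ)) +
        384 * kp j ^ 2 * ((T' - T) * C) := by
  have hκ0 : 0 ≤ kp j := wm_kp0 j
  have hκ : kp j ≤ 1 / 2 := kp_le j
  refine wm_ind_abs_lemma (wm_inW_meas T T' (x, j)) (wm_f1_int (θ := θ) (kp j) hκ0 hκ T x)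
    (wm_f2_int h0 h1 (kp j) hκ0 hκ T (x, j) x) (wm_f3_int h0 h1 (kp j) hκ0 hκ (x, j) x)
    (wm_p1_int h0 h1 (kp j) hκ0 hκ T x) (wm_p2_int h0 h1 (kp j) hκ0 hκ T (x, j) x)
    (by positivity) (by positivity) ?_ (wm_palm1 h0 h1 hκ0 hκ hjT hTT' hT' x) (wm_palm2 h0 h1 hκ0 hκ hjT hTT' hT' x hC)
  intro ω hω
  have hTt : min (tE (x, j) ω.2.2) T = T := min_eq_right hω.2.1
  have := wm_Q_bound (c := CCr θ x (yS (tE (x, j) ω.2.2) ω)) (c₁ := CCr θ x (yS T ω)) (ch := wmC θ T x ω)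
    hκ0 hκ (mm_yS_le_one h1 (tE (x, j) ω.2.2) ω x) (mm_yS_le_one h1 T ω x) (wmM_abs (θ := θ) T x ω)
  unfold wmP1 wmP2
  rw [hTt]
  linarith

/-! ### One cell, after the energy identity -/

lemma wm_P1_sum_nonneg (hd : 0 < d) (κ T : ℝ) (h0 : 0 < θ) (h1 : θ < 1) (R : ℕ) :
    0 ≤ (St (θ := θ) hd T).BBn κ R := by
  rw [← wm_P1_BBn hd h0 h1 κ T R]
  exact Finset.sum_nonneg fun x _ => integral_nonneg fun ω => wmP1_nonneg x ω

/-- The inequality on one cell. -/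
lemma wm_cell_final (hd : 3 ≤ d) (C : Crit (d - 1) θ) {j : ℤ} {T T' B : ℝ} (hjT : (j : ℝ) ≤ T) (hTT' : T ≤ T')
    (hT' : T' ≤ (j : ℝ) + 1)
    (hB : ∀ R : ℕ, (St (θ := θ) (d := d) (by omega) T).BBn (kp j) R ≤ B)
    (F0 : Finset (Word d)) {w : Word d → ℝ} {δ : ℝ}
    (hw : ∀ x, ∀ s, (j : ℝ) ≤ s → ∫ ω, CCr θ x (yS s ω) ^ 2 ∂(PD d θ) ≤ w x)
    (hF0 : ∀ D : Finset (Word d), ∑ v ∈ D \ F0, w v ≤ δ) :
    rD (θ := θ) (d := d) (by omega) T' ≤ rD (θ := θ) (d := d) (by omega) T + (T' - T) * (192 * kp j ^ 2 * B) +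
      384 * kp j ^ 2 * (T' - T) * (∑ x ∈ F0, (wmV d θ x T' - wmV d θ x T) + 5 * δ) := by
  classical
  have h0 := C.h0
  have h1 := C.h1
  have hd0 : 0 < d := by omega
  have hκ0 : 0 ≤ kp j := wm_kp0 j
  have hκ : kp j ≤ 1 / 2 := kp_le j
  have hTT : 0 ≤ T' - T := by linarith
  have hE := energy_id (θ := θ) hd C hjT hTT' hT'
  set K := (T' - T) * (192 * kp j ^ 2 * B) +
      384 * kp j ^ 2 * (T' - T) * (∑ x ∈ F0, (wmV d θ x T' - wmV d θ x T) + 5 * δ) with hK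
  have hlim : Tendsto (fun R : ℕ => rD (θ := θ) (d := d) hd0 T + (qD d θ T' - qD d θ T -
      ∑ x ∈ (ball R : Finset (Word d)), ∫ ω, Set.indicator {ω : OmD d | inW T T' (x, j) ω.2.2}
          (fun ω => CCr θ x (yS (tE (x, j) ω.2.2) ω) ^ 2 *
            gamK (kp j) (mm θ x (yS (tE (x, j) ω.2.2) ω)) (mm θ x (yS (tE (x, j) ω.2.2) ω))) ω ∂(PD d θ)) + K)
      atTop (𝓝 (rD (θ := θ) (d := d) hd0 T + (qD d θ T' - qD d θ T - (qD d θ T' - qD d θ T)) + K)) :=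
    ((tendsto_const_nhds.add (tendsto_const_nhds.sub hE)).add tendsto_const_nhds)
  have hfinal : rD (θ := θ) (d := d) hd0 T' ≤
      rD (θ := θ) (d := d) hd0 T + (qD d θ T' - qD d θ T - (qD d θ T' - qD d θ T)) + K := by
    refine ge_of_tendsto hlim ?_
    obtain ⟨n, hn⟩ := exists_ball_superset F0
    filter_upwards [eventually_ge_atTop n] with R hR
    have hsub : F0 ⊆ (ball R : Finset (Word d)) := by
      intro x hx
      have := hn hx
      rw [mem_ball] at this ⊢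
      omega
    have hc := wm_cell (θ := θ) hd0 h0 h1 (j := j) hTT' hT' (ball R)
    -- per site bound
    have hx : ∀ x : Word d,
      (∫ ω, Set.indicator {ω : OmD d | inW T T' (x, j) ω.2.2}
          (fun ω => wmC θ T x ω ^ 2 * gamK (kp j) (wmM θ T x ω) (wmM θ T x ω)) ω ∂(PD d θ) -
        2 * ∫ ω, Set.indicator {ω : OmD d | inW T T' (x, j) ω.2.2}
        (fun ω => wmC θ T x ω * (CCr θ x (yS (tE (x, j) ω.2.2) ω) *
          gamK (kp j) (mm θ x (yS (tE (x, j) ω.2.2) ω)) (wmM θ T x ω))) ω ∂(PD d θ)) +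
      ∫ ω, Set.indicator {ω : OmD d | inW T T' (x, j) ω.2.2}
          (fun ω => CCr θ x (yS (tE (x, j) ω.2.2) ω) ^ 2 *
            gamK (kp j) (mm θ x (yS (tE (x, j) ω.2.2) ω)) (mm θ x (yS (tE (x, j) ω.2.2) ω))) ω ∂(PD d θ) ≤
      192 * kp j ^ 2 * ((T' - T) * ∫ ω, wmP1 θ (kp j) T x ω ∂(PD d θ)) +
        384 * kp j ^ 2 * ((T' - T) * min (wmV d θ x T' - wmV d θ x T) (5 * w x)) := by
      intro x
      refine wm_cell_x h0 h1 hjT hTT' hT' x ?_
      intro s hs hs'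
      refine le_min (wm_P2_le_V h0 h1 hκ0 hκ hs hs'.le x) ?_
      exact wm_P2_le_tail h0 h1 hκ0 hκ hs x (fun t ht => hw x t (hjT.trans ht))
    have hsum := Finset.sum_le_sum (fun x (_ : x ∈ (ball R : Finset (Word d))) => hx x)
    rw [Finset.sum_add_distrib, Finset.sum_add_distrib, ← Finset.mul_sum, ← Finset.mul_sum, ← Finset.mul_sum,
      ← Finset.mul_sum, wm_P1_BBn hd0 h0 h1] at hsum
    have hbb : (T' - T) * (St (θ := θ) hd0 T).BBn (kp j) R ≤ (T' - T) * B :=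
      mul_le_mul_of_nonneg_left (hB R) hTT
    have hmin : ∑ x ∈ (ball R : Finset (Word d)), min (wmV d θ x T' - wmV d θ x T) (5 * w x) ≤
        ∑ x ∈ F0, (wmV d θ x T' - wmV d θ x T) + 5 * δ := by
      rw [← Finset.sum_sdiff hsub, add_comm]
      refine add_le_add (Finset.sum_le_sum fun x _ => min_le_left _ _) ?_
      calc ∑ x ∈ (ball R : Finset (Word d)) \ F0, min (wmV d θ x T' - wmV d θ x T) (5 * w x)
          ≤ ∑ x ∈ (ball R : Finset (Word d)) \ F0, 5 * w x := Finset.sum_le_sum fun x _ => min_le_right _ _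
        _ = 5 * ∑ x ∈ (ball R : Finset (Word d)) \ F0, w x := by rw [Finset.mul_sum]
        _ ≤ 5 * δ := by linarith [hF0 (ball R)]
    have hmin' := mul_le_mul_of_nonneg_left hmin hTT
    have k2 : 0 ≤ kp j ^ 2 := sq_nonneg _
    have e1 := mul_le_mul_of_nonneg_left hbb (by positivity : 0 ≤ 192 * kp j ^ 2)
    have e2 := mul_le_mul_of_nonneg_left hmin' (by positivity : 0 ≤ 384 * kp j ^ 2)
    rw [hK]
    have e3 : 192 * kp j ^ 2 * ((T' - T) * B) = (T' - T) * (192 * kp j ^ 2 * B) := by ring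
    have e4 : 384 * kp j ^ 2 * ((T' - T) * (∑ x ∈ F0, (wmV d θ x T' - wmV d θ x T) + 5 * δ)) =
        384 * kp j ^ 2 * (T' - T) * (∑ x ∈ F0, (wmV d θ x T' - wmV d θ x T) + 5 * δ) := by ring
    rw [e3] at e1
    rw [e4] at e2
    linarith
  have e5 : qD d θ T' - qD d θ T - (qD d θ T' - qD d θ T) = 0 := by ring
  rw [e5] at hfinal
  linarith

/-! ### Summing over a partition -/

lemma wm_partition {r V : ℝ → ℝ} {K L M a b : ℝ} (hab : a ≤ b) (hL : 0 ≤ L) (hV0 : ∀ s, 0 ≤ V s) (hVM : ∀ s, V s ≤ M)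
    (hcell : ∀ T T', a ≤ T → T < T' → T' ≤ b → r T' ≤ r T + (T' - T) * K + L * (T' - T) * (V T' - V T)) :
    r b ≤ r a + (b - a) * K := by
  rcases hab.eq_or_lt with rfl | hab'
  · simp
  by_contra hcon
  push Not at hcon
  set η := r b - (r a + (b - a) * K) with hη
  have hη0 : 0 < η := by rw [hη]; linarith
  have hM0 : 0 ≤ M := (hV0 a).trans (hVM a)
  have hba : 0 < b - a := by linarith
  obtain ⟨N, hN⟩ := exists_nat_gt (L * (b - a) * M / η)
  have hN0 : (0 : ℝ) ≤ L * (b - a) * M / η := by positivity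
  have hNpos : (0 : ℝ) < N := by linarith
  have hN' : 0 < N := by exact_mod_cast hNpos
  set h := (b - a) / N with hh
  have hh0 : 0 < h := by positivity
  have hT : ∀ i : ℕ, i ≤ N → a + i * h ≤ b := by
    intro i hi
    have : (i : ℝ) ≤ N := by exact_mod_cast hi
    have e : (N : ℝ) * h = b - a := by
      rw [hh]; field_simp
    have : (i : ℝ) * h ≤ N * h := mul_le_mul_of_nonneg_right this hh0.le
    linarith
  have key : ∀ i : ℕ, i ≤ N → r (a + i * h) ≤ r a + i * h * K + L * h * (V (a + i * h) - V a) := by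
    intro i
    induction i with
    | zero =>
      intro _
      simp
    | succ i ih =>
      intro hi
      have hi' : i ≤ N := by omega
      have ih' := ih hi'
      have e : a + ((i + 1 : ℕ) : ℝ) * h = a + i * h + h := by
        push_cast; ring
      have hc := hcell (a + i * h) (a + ((i + 1 : ℕ) : ℝ) * h) (by
        have : (0 : ℝ) ≤ i * h := by positivity
        linarith) (by rw [e]; linarith) (hT (i + 1) hi)
      rw [e] at hc ⊢
      have e2 : a + i * h + h - (a + i * h) = h := by ring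
      rw [e2] at hc
      have e3 : ((i + 1 : ℕ) : ℝ) * h * K = i * h * K + h * K := by push_cast; ring
      rw [e3]
      have e4 : L * h * (V (a + i * h + h) - V a) =
          L * h * (V (a + i * h + h) - V (a + i * h)) + L * h * (V (a + i * h) - V a) := by ring
      rw [e4]
      linarith
  have hfin := key N le_rfl
  have eN : a + (N : ℝ) * h = b := by
    rw [hh]; field_simp; ring
  rw [eN] at hfin
  have eN2 : (N : ℝ) * h * K = (b - a) * K := by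
    rw [hh]; field_simp
  rw [eN2] at hfin
  have hLh : 0 ≤ L * h := by positivity
  have h1 : L * h * (V b - V a) ≤ L * h * M :=
    mul_le_mul_of_nonneg_left (by linarith [hVM b, hV0 a]) hLh
  have h2 : η ≤ L * h * M := by rw [hη]; linarith
  have h3 : L * h * M = L * (b - a) * M / N := by rw [hh]; field_simp
  rw [h3] at h2
  have h4 : L * (b - a) * M < N * η := by
    have := (div_lt_iff₀ hη0).mp hN
    linarith
  have h5 : η * N ≤ L * (b - a) * M := (le_div_iff₀ hNpos).mp h2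
  linarith

/-- The window inequality. -/
theorem window (hd : 3 ≤ d) (C : Crit (d - 1) θ) {j : ℤ} {a b B : ℝ} (ha : (j : ℝ) ≤ a) (hab : a ≤ b)
    (hb : b ≤ j + 1)
    (hB : ∀ s, a ≤ s → s < b → ∀ R : ℕ, (St (θ := θ) (d := d) (by omega) s).BBn (kp j) R ≤ B) :
    rD (θ := θ) (d := d) (by omega) b ≤
      rD (θ := θ) (d := d) (by omega) a + 200 * kp j ^ 2 * (b - a) * B := by
  have h0 := C.h0
  have h1 := C.h1
  have hd0 : 0 < d := by omega
  rcases hab.eq_or_lt with rfl | hab'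
  · simp
  have hB0 : 0 ≤ B := (wm_P1_sum_nonneg hd0 (kp j) a h0 h1 0).trans (hB a le_rfl hab' 0)
  obtain ⟨ε, hε0, hε1, hε⟩ := CC_tail (θ := θ) hd C j
  set q : ℝ := θ ^ 2 * (1 - ε) with hq
  have hq0 : 0 ≤ q := by
    have : 0 ≤ 1 - ε := by linarith
    positivity
  have hd1 : 1 ≤ d := by omega
  have hρ : ((d : ℝ) - 1) * q < 1 := by
    have hθ := C.hθ
    rw [Nat.cast_sub hd1] at hθ
    have : ((d : ℝ) - 1) * q = (((d : ℝ) - ((1 : ℕ) : ℝ)) * θ ^ 2) * (1 - ε) := by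
      rw [hq]; push_cast; ring
    rw [this, hθ]
    linarith
  have hw : ∀ x : Word d, ∀ s : ℝ, (j : ℝ) ≤ s → ∫ ω, CCr θ x (yS s ω) ^ 2 ∂(PD d θ) ≤ q ^ len x := by
    intro x s hs
    have := hε s hs x
    have e : q ^ len x = θ ^ (2 * len x) * (1 - ε) ^ len x := by
      rw [hq, mul_pow, pow_mul]
    rw [e]
    exact this
  have hK : 0 ≤ 384 * kp j ^ 2 := by positivity
  have hba : 0 < b - a := by linarith
  have key : ∀ δ : ℝ, 0 < δ → rD (θ := θ) (d := d) hd0 b ≤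
      rD (θ := θ) (d := d) hd0 a + (b - a) * (192 * kp j ^ 2 * B + 384 * kp j ^ 2 * (5 * δ)) := by
    intro δ hδ
    obtain ⟨R0, hR0⟩ := weight_tail (d := d) hq0 hd1 hρ hδ
    refine wm_partition (r := rD (θ := θ) (d := d) hd0)
      (V := fun s => ∑ x ∈ (ball R0 : Finset (Word d)), wmV d θ x s)
      (M := ∑ x ∈ (ball R0 : Finset (Word d)), (19 : ℝ)) (L := 384 * kp j ^ 2) hab hK
      (fun s => Finset.sum_nonneg fun x _ => wmV_nonneg x s)
      (fun s => Finset.sum_le_sum fun x _ => wmV_le h0 h1 x s) ?_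
    intro T T' hT hTT' hT'
    have hc := wm_cell_final (θ := θ) hd C (j := j) (T := T) (T' := T') (B := B) (ha.trans hT) hTT'.le (hT'.trans hb)
      (hB T hT (hTT'.trans_le hT')) (ball R0) (w := fun x => q ^ len x) (δ := δ) hw hR0
    rw [Finset.sum_sub_distrib] at hc
    have e : 384 * kp j ^ 2 * (T' - T) * (∑ x ∈ (ball R0 : Finset (Word d)), wmV d θ x T' -
        ∑ x ∈ (ball R0 : Finset (Word d)), wmV d θ x T + 5 * δ) =
        (T' - T) * (384 * kp j ^ 2 * (5 * δ)) + 384 * kp j ^ 2 * (T' - T) * (∑ x ∈ (ball R0 : Finset (Word d)), wmV d θ x T' -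
        ∑ x ∈ (ball R0 : Finset (Word d)), wmV d θ x T) := by ring
    rw [e] at hc
    have e2 : (T' - T) * (192 * kp j ^ 2 * B + 384 * kp j ^ 2 * (5 * δ)) =
        (T' - T) * (192 * kp j ^ 2 * B) + (T' - T) * (384 * kp j ^ 2 * (5 * δ)) := by ring
    rw [e2]
    linarith
  -- let `δ` tend to zero
  have hgoal : rD (θ := θ) (d := d) hd0 b ≤ rD (θ := θ) (d := d) hd0 a + (b - a) * (192 * kp j ^ 2 * B) := by
    refine le_of_forall_pos_le_add fun η hη => ?_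
    have hden : 0 < (b - a) * (384 * kp j ^ 2 * 5) + 1 := by positivity
    have hδ : 0 < η / ((b - a) * (384 * kp j ^ 2 * 5) + 1) := by positivity
    have hk := key _ hδ
    have e : (b - a) * (192 * kp j ^ 2 * B + 384 * kp j ^ 2 * (5 * (η / ((b - a) * (384 * kp j ^ 2 * 5) + 1)))) =
        (b - a) * (192 * kp j ^ 2 * B) +
          ((b - a) * (384 * kp j ^ 2 * 5)) * (η / ((b - a) * (384 * kp j ^ 2 * 5) + 1)) := by ring
    rw [e] at hk
    have e2 : ((b - a) * (384 * kp j ^ 2 * 5)) * (η / ((b - a) * (384 * kp j ^ 2 * 5) + 1)) ≤ η := by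
      rw [mul_div_assoc', div_le_iff₀ hden]
      have : 0 ≤ (b - a) * (384 * kp j ^ 2 * 5) := by positivity
      nlinarith
    linarith
  have k2 : 0 ≤ kp j ^ 2 := sq_nonneg _
  have hfin : (b - a) * (192 * kp j ^ 2 * B) ≤ 200 * kp j ^ 2 * (b - a) * B := by
    have : 0 ≤ (b - a) * kp j ^ 2 * B := by positivity
    nlinarith
  linarith

end Vale.Agent.Lib.P161B
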